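import Crest.Agent.R302.CenB

/-!
# Row 302: the centre and its classes

`N = n + n`, `2 (N + 1) ≤ z`, `L + 2 ≤ z`.  For `y ∈ B` the slacks are bounded by `2 * 2 ^ L ≤ 2 ^ z` (`InB.abs_le`), so `adj_arcT` applies,
and `clamp` does nothing on the coordinates of a point of `B` (`InB.abs_le` with a singleton, `clamp_eq`).
* `nearStep_spec`: `θ = theta n z y = Ψ / z ^ 4`.  If `θ = 0` nothing moves.  Otherwise `near_exists` (with `W` the flagged nodes) shows that the
  filtered list is not empty; its head `e` has a walk `ψ` (`bfs_ok`), `Flow.inB` with `γ = θ z`, `m = n`, and `near_step`;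
  `Ψ < (θ + 1) z ^ 4 ≤ 2 θ z ^ 4`.
* `nearPt_spec`: start at the greedy vertex (`gre_inB`), `Ψ ≤ N 2 ^ L ≤ 2 ^ z`, and `(1 - 1 / m) ^ m ≤ 1 / 2`.
* `lvlStep_spec`: `ψ` is the sum over the cyclic arcs `(a, b)` of the walk from `π b` to `π a` plus the arc (choose the walks); mass
  `≤ N ² (n + 1) ≤ z ^ 3`; for an arc that is not cyclic take for `W` the nodes flagged by `bfs1 n A (π b)`.
* `cen_ok`: `centre_of_chain` with `Y k = vecL N (lvlPt sfm f n L z (L - k))`, `repL_spec`, `Cap.refl`, `Cap.trans`.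
-/

set_option autoImplicit false

namespace Crest.Agent.R302

open Finset Crest.Agent.R309

namespace Cen

/-- The hypotheses of `CenOK`. -/
structure Hyp (f : List Bool → ℤ) (n L z : ℕ) (ρ : Finset (Fin (n + n)) → ℤ) : Prop where
  rep : Rep (n + n) f ρ
  nrm : Nrm ρ
  bd : ∀ S, |ρ S| ≤ 2 ^ L
  z64 : 64 ≤ z
  big : (L + 2) * (n + n + 1) ≤ z
  ne : ∃ x, InK ρ (piN n) x

variable {sfm : (List Bool → ℤ) → ℕ → ℕ → List Bool} {f : List Bool → ℤ} {n L z : ℕ}
  {ρ : Finset (Fin (n + n)) → ℤ}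

theorem Hyp.adj_iff (h : Hyp f n L z ρ) (hs : SfmOK sfm) {y : List ℤ} (hy : InB ρ (vecL (n + n) y))
    (γ : ℤ) (a b : Fin (n + n)) :
    adj (arcT sfm f (n + n) z y γ) a b = true ↔ Cap ρ (vecL (n + n) y) a b γ := by
  refine adj_arcT hs h.rep h.nrm.sub (fun S => ?_) γ a b
  have h1 := h.bd S
  have h2 := hy.abs_le h.bd S
  have h3 := abs_sub (ρ S) (sm (vecL (n + n) y) S)
  have h4 : L + 1 ≤ z := by nlinarith [h.big]
  have h5 : (2 : ℤ) ^ (L + 1) ≤ 2 ^ z := pow_le_pow_right₀ (by norm_num) h4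
  rw [pow_succ] at h5
  linarith

theorem ce_theta (n z : ℕ) (y : List ℤ) :
    theta n z y = (∑ e, |push (piN n) (vecL (n + n) y) e|) / (z : ℤ) ^ 4 := by
  rw [theta, tab_eq_ofFn, List.sum_ofFn]
  simp only [pushL_eq]

theorem ce_headD {l : List ℕ} {a : ℕ} (h : a ∈ l) : l.headD 0 ∈ l := by
  cases l with
  | nil => simp at h
  | cons b l => exact List.mem_cons_self

theorem Hyp.ce_fin (h : Hyp f n L z ρ) {y : List ℤ} {r : BSt} {d : Fin (n + n) → ℤ}
    (hd : ∀ i : Fin (n + n), eff r (((List.range n).filter fun e =>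
      flag r e && decide (pushL n y e ≤ -theta n z y)).headD 0) i = d i)
    (hB : InB ρ (vecL (n + n) y + theta n z y • d)) :
    vecL (n + n) (nearFin n L z y r) = vecL (n + n) y + theta n z y • d := by
  funext i
  have h1 := hB.abs_le h.bd {i}
  rw [sm, sum_singleton] at h1
  rw [vecL, nearFin, getD_tab _ _ i.2, hd]
  exact clamp_eq h1

theorem Hyp.nearStep_spec (h : Hyp f n L z ρ) (hs : SfmOK sfm) {y : List ℤ}
    (hy : InB ρ (vecL (n + n) y)) :
    InB ρ (vecL (n + n) (nearStep sfm f n L z y)) ∧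
      ∑ e, |push (piN n) (vecL (n + n) (nearStep sfm f n L z y)) e| ≤
        ∑ e, |push (piN n) (vecL (n + n) y) e| ∧
      (∑ e, |push (piN n) (vecL (n + n) y) e| ≤ (z : ℤ) ^ 4 ∨
        (z : ℤ) ^ 4 * ∑ e, |push (piN n) (vecL (n + n) (nearStep sfm f n L z y)) e| ≤
          ((z : ℤ) ^ 4 - 1) * ∑ e, |push (piN n) (vecL (n + n) y) e|) := by
  have hz : (64 : ℤ) ≤ z := by exact_mod_cast h.z64
  have hz4 : (0 : ℤ) < (z : ℤ) ^ 4 := by positivity
  have hθ := ce_theta n z y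
  have hΨ0 : 0 ≤ ∑ e, |push (piN n) (vecL (n + n) y) e| := sum_nonneg fun _ _ => abs_nonneg _
  have h1 := Int.mul_ediv_add_emod (∑ e, |push (piN n) (vecL (n + n) y) e|) ((z : ℤ) ^ 4)
  have h2 := Int.emod_nonneg (∑ e, |push (piN n) (vecL (n + n) y) e|) hz4.ne'
  have h3 := Int.emod_lt_of_pos (∑ e, |push (piN n) (vecL (n + n) y) e|) hz4
  have h4 := Int.ediv_nonneg hΨ0 hz4.le
  rw [← hθ] at h1 h4
  have hr := bfs_ok n (arcT sfm f (n + n) z y (theta n z y * z))
    (tab n fun e => decide (theta n z y ≤ pushL n y e))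
  unfold nearStep
  generalize bfs n (arcT sfm f (n + n) z y (theta n z y * z))
    (tab n fun e => decide (theta n z y ≤ pushL n y e)) = r at hr ⊢
  rcases h4.eq_or_lt with h0 | h0
  · have h5 := h.ce_fin (y := y) (r := r) (fun _ => rfl) (by rwa [← h0, zero_smul, add_zero])
    rw [← h0, zero_smul, add_zero] at h5
    rw [h5]
    refine ⟨hy, le_rfl, .inl ?_⟩
    rw [← h0] at h1
    linarith
  obtain ⟨x, hx⟩ := h.ne
  have hN : 2 * (n + n + 1) ≤ z := le_trans (Nat.mul_le_mul_right _ (by omega)) h.big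
  have hSt : ∀ e : Fin n, (tab n fun e => decide (theta n z y ≤ pushL n y e)).getD e false = true ↔
      theta n z y ≤ push (piN n) (vecL (n + n) y) e := fun e => by
    rw [getD_tab _ _ e.2, decide_eq_true_eq, pushL_eq]
  obtain ⟨e, he1, he2⟩ := near_exists h.nrm (piN n) hz
    (by rw [Fintype.card_fin]; exact_mod_cast (by omega : 2 * (n + n) ≤ z))
    (by rw [Fintype.card_fin]; exact_mod_cast (by omega : n ≤ z)) hx hy h0 (by linarith)
    (univ.filter fun e : Fin n => flag r e = true)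
    (fun e he => mem_filter.2 ⟨mem_univ _, hr.start e ((hSt e).2 he)⟩)
    (fun a b hab ha => mem_filter.2 ⟨mem_univ _,
      hr.closed a b ((h.adj_iff hs hy _ a b).2 hab) (mem_filter.1 ha).2⟩)
  have h5 := ce_headD (l := (List.range n).filter fun e =>
    flag r e && decide (pushL n y e ≤ -theta n z y)) (a := e) (by
      rw [List.mem_filter, List.mem_range, Bool.and_eq_true, decide_eq_true_eq, pushL_eq]
      exact ⟨e.2, (mem_filter.1 he1).2, he2⟩)
  rw [List.mem_filter, List.mem_range, Bool.and_eq_true, decide_eq_true_eq] at h5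
  obtain ⟨k1, k2, k3⟩ := h5
  obtain ⟨ψ, p1, p2, p3, p4, s, p5, p6⟩ := hr.walk ⟨_, k1⟩ k2
  have hF : Flow ρ (vecL (n + n) y) (theta n z y * z) n ψ :=
    ⟨p1, fun a b hab => (h.adj_iff hs hy _ a b).1 (p2 a b hab), p3⟩
  have hB := hF.inB hy h0.le
    (mul_le_mul_of_nonneg_left (by exact_mod_cast (by omega : n ≤ z)) h0.le)
  have h6 := near_step (piN n) h0 ((hSt s).1 p5) ((pushL_eq y ⟨_, k1⟩).symm.trans_le k3) p6
  rw [h.ce_fin p4 hB, h6]
  refine ⟨hB, by linarith, .inr ?_⟩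
  nlinarith

theorem Hyp.nearPt_spec (h : Hyp f n L z ρ) (hs : SfmOK sfm) :
    InB ρ (vecL (n + n) (nearPt sfm f n L z)) ∧
      ∑ e, |push (piN n) (vecL (n + n) (nearPt sfm f n L z)) e| ≤ (z : ℤ) ^ 4 := by
  have hz : (64 : ℤ) ≤ z := by exact_mod_cast h.z64
  have hm : (1 : ℤ) ≤ (z : ℤ) ^ 4 := one_le_pow₀ (by linarith)
  have hB0 : InB ρ (vecL (n + n) (start f (n + n))) := by
    rw [vecL_start h.rep]
    exact gre_inB h.nrm fun a b e => Fin.ext (by exact_mod_cast e)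
  have key : ∀ j, InB ρ (vecL (n + n) ((nearStep sfm f n L z)^[j] (start f (n + n)))) ∧
      (∑ e, |push (piN n) (vecL (n + n) ((nearStep sfm f n L z)^[j] (start f (n + n)))) e| ≤
          (z : ℤ) ^ 4 ∨
        ((z : ℤ) ^ 4) ^ j *
            ∑ e, |push (piN n) (vecL (n + n) ((nearStep sfm f n L z)^[j] (start f (n + n)))) e| ≤
          ((z : ℤ) ^ 4 - 1) ^ j * ∑ e, |push (piN n) (vecL (n + n) (start f (n + n))) e|) := by
    intro j
    induction j with
    | zero => exact ⟨hB0, .inr (by simp)⟩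
    | succ j ih =>
      rw [Function.iterate_succ_apply']
      obtain ⟨k1, k2, k3⟩ := h.nearStep_spec hs ih.1
      refine ⟨k1, ?_⟩
      rcases ih.2 with k4 | k4
      · exact .inl (k2.trans k4)
      rcases k3 with k3 | k3
      · exact .inl (k2.trans k3)
      right
      have k5 := mul_le_mul_of_nonneg_left k3 (by positivity : 0 ≤ ((z : ℤ) ^ 4) ^ j)
      have k6 := mul_le_mul_of_nonneg_left k4 (sub_nonneg.2 hm)
      rw [pow_succ, pow_succ _ j]
      linarith
  refine ⟨(key _).1, (key (z ^ 5)).2.elim id fun k => ?_⟩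
  have h0 : ∑ e, |push (piN n) (vecL (n + n) (start f (n + n))) e| ≤ 2 ^ z * (z : ℤ) ^ 4 := by
    have h1 : ∑ e, |push (piN n) (vecL (n + n) (start f (n + n))) e| ≤ n * 2 ^ L := by
      refine (sum_le_card_nsmul _ _ _ fun e _ => hB0.abs_le h.bd _).trans (le_of_eq ?_)
      rw [card_univ, Fintype.card_fin, nsmul_eq_mul]
    have h2 : (2 : ℤ) ^ L ≤ 2 ^ z := pow_le_pow_right₀ (by norm_num) (by nlinarith [h.big])
    have h3 : (n : ℤ) ≤ (z : ℤ) ^ 4 :=
      le_trans (by exact_mod_cast (by nlinarith [h.big] : n ≤ z))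
        (le_self_pow₀ (by linarith) (by norm_num))
    rw [mul_comm (2 ^ z : ℤ)]
    exact h1.trans (mul_le_mul h3 h2 (by positivity) (by positivity))
  have h1 : 2 * ((z : ℤ) ^ 4 - 1) ^ (z ^ 4) ≤ ((z : ℤ) ^ 4) ^ (z ^ 4) := by
    have h2 := pow_add_mul_le_add_pow (a := (z : ℤ) ^ 4 - 1) (b := 1) (sub_nonneg.2 hm)
      (by linarith) (z ^ 4)
    have h3 : z ^ 4 = z ^ 4 - 1 + 1 :=
      (Nat.sub_add_cancel (Nat.one_le_pow _ _ (by have := h.z64; omega))).symm
    have h4 : ((z : ℤ) ^ 4 - 1) ^ (z ^ 4) = ((z : ℤ) ^ 4 - 1) ^ (z ^ 4 - 1) * ((z : ℤ) ^ 4 - 1) := by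
      conv_lhs => rw [h3, pow_succ]
    have h5 : 0 ≤ ((z : ℤ) ^ 4 - 1) ^ (z ^ 4 - 1) := pow_nonneg (sub_nonneg.2 hm) _
    rw [sub_add_cancel, Nat.cast_pow] at h2
    nlinarith
  have h2 : 2 ^ z * ((z : ℤ) ^ 4 - 1) ^ (z ^ 5) ≤ ((z : ℤ) ^ 4) ^ (z ^ 5) := by
    rw [pow_succ z 4, pow_mul, pow_mul, ← mul_pow]
    exact pow_le_pow_left₀ (mul_nonneg (by norm_num) (pow_nonneg (sub_nonneg.2 hm) _)) h1 z
  have h3 := mul_le_mul_of_nonneg_left h0 (pow_nonneg (sub_nonneg.2 hm) (z ^ 5))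
  have h4 := mul_le_mul_of_nonneg_right h2 (by positivity : 0 ≤ (z : ℤ) ^ 4)
  refine le_of_mul_le_mul_left (a := ((z : ℤ) ^ 4) ^ (z ^ 5)) (k.trans (h3.trans ?_))
    (by positivity)
  linarith

theorem ceb_sum_tab (N : ℕ) (g : ℕ → ℤ) : (tab N g).sum = ∑ i : Fin N, g i := by
  rw [tab, ← Finset.sum_range]
  rfl

theorem ceb_bd_sum {V ι : Type} [Fintype V] [DecidableEq V] (s : Finset ι) (φ : ι → V → V → ℤ) :
    bd (∑ i ∈ s, φ i) = ∑ i ∈ s, bd (φ i) := by
  classical
  induction s using Finset.induction_on with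
  | empty => simp [bd]
  | insert i s hi ih => rw [sum_insert hi, sum_insert hi, bd_add, ih]

theorem ceb_bd_single {V : Type} [Fintype V] [DecidableEq V] (a b : V) :
    bd (fun a' b' => if a' = a ∧ b' = b then 1 else 0) = ev b - ev a := by
  unfold bd
  rw [sum_eq_single a, sum_eq_single b] <;> simp +contextual

theorem ceb_push_sum {V E ι : Type} [Fintype V] [DecidableEq E] (π : V → E) (s : Finset ι)
    (x : ι → V → ℤ) (e : E) : push π (∑ i ∈ s, x i) e = ∑ i ∈ s, push π (x i) e := by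
  simp only [push, Finset.sum_apply]
  exact sum_comm

theorem ceb_bfs1 (A : List (List Bool)) (b : Fin (n + n)) :
    BfsOK n (fun a b => adj A a b = true) (fun e => e = piN n b) (bfs1 n A (piL n b)) := by
  have h := bfs_ok n A (tab n fun e' => decide (e' = piL n b))
  have e : (fun e : Fin n => (tab n fun e' => decide (e' = piL n b)).getD e false = true)
      = fun e => e = piN n b := by
    funext e
    rw [getD_tab _ _ e.2, piL_eq, decide_eq_true_eq, Fin.val_inj]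
  rwa [e] at h

/-- The cycle through an arc. -/
theorem ceb_cycle (A : List (List Bool)) (a b : Fin (n + n)) :
    ∃ ω : Fin (n + n) → Fin (n + n) → ℤ, (∀ a' b', 0 ≤ ω a' b') ∧
      (∀ a' b', ω a' b' ≠ 0 → adj A a' b' = true) ∧ ∑ a', ∑ b', ω a' b' ≤ n + 1 ∧
      (∀ i : Fin (n + n), bd ω i = if (adj A a b && flag (bfs1 n A (piL n b)) (piL n a)) = true then
        ext n (bfs1 n A (piL n b)) (a, b) i else 0) ∧ (∀ e, push (piN n) (bd ω) e = 0) ∧
      ((adj A a b && flag (bfs1 n A (piL n b)) (piL n a)) = true → 1 ≤ ω a b) := by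
  by_cases hc : (adj A a b && flag (bfs1 n A (piL n b)) (piL n a)) = true
  swap
  · refine ⟨0, fun _ _ => le_rfl, fun _ _ h => absurd rfl h, by simp; positivity, fun i => ?_,
      fun e => by simp [bd, push], fun h => absurd h hc⟩
    rw [if_neg hc]
    simp [bd]
  have hc' := hc
  rw [Bool.and_eq_true, piL_eq a] at hc'
  obtain ⟨ψ, h0, h1, h2, h3, s, rfl, h4⟩ := (ceb_bfs1 A b).walk (piN n a) hc'.2
  refine ⟨ψ + fun a' b' => if a' = a ∧ b' = b then 1 else 0, fun a' b' => ?_, fun a' b' h => ?_, ?_,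
    fun i => ?_, fun e => ?_, fun _ => ?_⟩
  · have := h0 a' b'
    simp only [Pi.add_apply]
    split_ifs <;> omega
  · by_cases hab : a' = a ∧ b' = b
    · rw [hab.1, hab.2]; exact hc'.1
    · exact h1 a' b' (by simpa [hab] using h)
  · have : ∑ a' : Fin (n + n), ∑ b' : Fin (n + n), (if a' = a ∧ b' = b then 1 else 0 : ℤ) = 1 := by
      rw [sum_eq_single a, sum_eq_single b] <;> simp +contextual
    simp only [Pi.add_apply, sum_add_distrib, this]
    linarith
  · rw [if_pos hc, bd_add, ceb_bd_single, ext, piL_eq a, h3]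
    simp only [Pi.add_apply, Pi.sub_apply, ev, Pi.single_apply, Fin.val_inj]
    ring
  · rw [bd_add, ceb_bd_single, push_add, push_sub, push_ev, push_ev, h4]
    simp only [eq_comm (a := e)]
    ring
  · have := h0 a b
    simpa using this

theorem Hyp.lvlStep_spec (h : Hyp f n L z ρ) (hs : SfmOK sfm) (k : ℕ) {y : List ℤ}
    (hy : InB ρ (vecL (n + n) y)) :
    LvStep ρ (piN n) z k (vecL (n + n) y) (vecL (n + n) (lvlStep sfm f n L z k y)) := by
  set A := arcT sfm f (n + n) z y ((z : ℤ) ^ (80 + 5 * k)) with hA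
  have hadj : ∀ a b : Fin (n + n), adj A a b = true ↔
      Cap ρ (vecL (n + n) y) a b ((z : ℤ) ^ (80 + 5 * k)) := h.adj_iff hs hy _
  choose ω h0 h1 h2 h3 h4 h5 using ceb_cycle (n := n) A
  have hz : (64 : ℤ) ≤ z := by exact_mod_cast h.z64
  have hN : ((n + n + 1 : ℕ) : ℤ) ≤ z := by
    exact_mod_cast (Nat.le_mul_of_pos_left _ (by omega)).trans h.big
  have hψ : ∀ a' b', (∑ a, ∑ b, ω a b) a' b' = ∑ a, ∑ b, ω a b a' b' := fun a' b' => by
    simp only [Finset.sum_apply]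
  have hF : Flow ρ (vecL (n + n) y) ((z : ℤ) ^ (80 + 5 * k)) ((z : ℤ) ^ 3) (∑ a, ∑ b, ω a b) := by
    refine ⟨fun a' b' => ?_, fun a' b' hne => ?_, ?_⟩
    · rw [hψ]
      exact sum_nonneg fun a _ => sum_nonneg fun b _ => h0 a b a' b'
    · rw [hψ] at hne
      obtain ⟨a, -, ha⟩ := exists_ne_zero_of_sum_ne_zero hne
      obtain ⟨b, -, hb⟩ := exists_ne_zero_of_sum_ne_zero ha
      exact (hadj a' b').1 (h1 a b a' b' hb)
    · have e : ∑ a', ∑ b', (∑ a, ∑ b, ω a b) a' b' = ∑ a, ∑ b, ∑ a', ∑ b', ω a b a' b' := by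
        simp only [hψ]
        calc ∑ a', ∑ b', ∑ a, ∑ b, ω a b a' b' = ∑ a', ∑ a, ∑ b, ∑ b', ω a b a' b' :=
              sum_congr rfl fun a' _ => sum_comm.trans (sum_congr rfl fun a _ => sum_comm)
          _ = _ := sum_comm.trans (sum_congr rfl fun a _ => sum_comm)
      rw [e]
      calc _ ≤ ∑ _a : Fin (n + n), ∑ _b : Fin (n + n), ((n : ℤ) + 1) :=
            sum_le_sum fun a _ => sum_le_sum fun b _ => h2 a b
        _ = ((n + n : ℕ) : ℤ) * (((n + n : ℕ) : ℤ) * ((n : ℤ) + 1)) := by simp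
        _ ≤ z * (z * z) := by
            push_cast at hN ⊢
            gcongr <;> omega
        _ = (z : ℤ) ^ 3 := by ring
  have hbd : R302.bd (∑ a, ∑ b, ω a b) = ∑ a, ∑ b, R302.bd (ω a b) := by simp only [ceb_bd_sum]
  refine ⟨∑ a, ∑ b, ω a b, hF, fun e => ?_, ?_, fun a b hab => ?_⟩
  · simp only [hbd, ceb_push_sum, h4, sum_const_zero]
  · have hB := hF.inB hy (θ := (z : ℤ) ^ (76 + 5 * k)) (by positivity) (by
      rw [← pow_add]
      exact pow_le_pow_right₀ (by omega) (by omega))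
    funext i
    have h6 := hB.abs_le h.bd {i}
    rw [sm, sum_singleton] at h6
    rw [vecL, lvlStep, lvlFin, getD_tab _ _ i.2, ← hA]
    refine Eq.trans (congrArg _ ?_) (clamp_eq h6)
    simp only [ceb_sum_tab, hbd, Pi.add_apply, Pi.smul_apply, smul_eq_mul, Finset.sum_apply, h3, vecL]
  · by_cases hfl : flag (bfs1 n A (piL n b)) (piN n a) = true
    · left
      rw [hψ]
      have h6 := h5 a b (by rw [Bool.and_eq_true, piL_eq a]; exact ⟨(hadj a b).2 hab, hfl⟩)
      refine h6.trans ((single_le_sum (f := fun b' => ω a b' a b) (fun b' _ => h0 a b' a b)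
        (mem_univ b)).trans (single_le_sum (f := fun a' => ∑ b', ω a' b' a b)
          (fun a' _ => sum_nonneg fun b' _ => h0 a' b' a b) (mem_univ a)))
    · right
      refine ⟨univ.filter fun e : Fin n => flag (bfs1 n A (piL n b)) e = true, ?_, ?_,
        fun a' b' hc ha' => ?_⟩
      · exact mem_filter.2 ⟨mem_univ _, (ceb_bfs1 A b).start _ rfl⟩
      · exact fun hm => hfl (mem_filter.1 hm).2
      · exact mem_filter.2 ⟨mem_univ _,
          (ceb_bfs1 A b).closed a' b' ((hadj a' b').2 hc) (mem_filter.1 ha').2⟩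

theorem ceb_lvlPt_succ (i : ℕ) :
    lvlPt sfm f n L z (i + 1) = lvlStep sfm f n L z (L - 1 - i) (lvlPt sfm f n L z i) := by
  rw [lvlPt, List.range_succ, List.foldl_append]
  rfl

theorem ceb_lvlPt_inB (h : Hyp f n L z ρ) (hs : SfmOK sfm) (i : ℕ) :
    InB ρ (vecL (n + n) (lvlPt sfm f n L z i)) := by
  induction i with
  | zero => exact (h.nearPt_spec hs).1
  | succ i ih =>
    rw [ceb_lvlPt_succ]
    exact (h.lvlStep_spec hs _ ih).inB (by exact_mod_cast h.z64) ih

theorem cen_ok (hs : SfmOK sfm) : CenOK (cen sfm) := by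
  intro f n L z ρ hrep hnrm hbd h64 hbig hne
  have h : Hyp f n L z ρ := ⟨hrep, hnrm, hbd, h64, hbig, hne⟩
  set y := lvlPt sfm f n L z L with hy
  have hyB : InB ρ (vecL (n + n) y) := ceb_lvlPt_inB h hs L
  change Centre ρ (piN n) (lvL (n + n) L (clsT sfm f n L z y)) z (vecL (n + n) y) ∧
    ∀ k ≤ L, ∀ a < n + n, clsN (clsT sfm f n L z y) k a < n + n
  have hadj := fun k : ℕ => h.adj_iff hs hyB ((z : ℤ) ^ (75 + 5 * k))
  have hrp := fun k : ℕ => repL_spec (arcT sfm f (n + n) z y ((z : ℤ) ^ (75 + 5 * k)))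
    (fun a => (hadj k a a).2 (Cap.refl _ _ _ _))
    fun a b c h1 h2 => (hadj k a c).2 (((hadj k a b).1 h1).trans ((hadj k b c).1 h2))
  have hL : ∀ a < n + n, clsN (clsT sfm f n L z y) L a = a := fun a ha => by
    rw [clsN, clsT, getD_tab _ _ (Nat.lt_succ_self L), if_pos rfl]
    simp [List.getD_eq_getElem?_getD, ha]
  have hk : ∀ k < L, ∀ a, clsN (clsT sfm f n L z y) k a
      = (repL (n + n) (arcT sfm f (n + n) z y ((z : ℤ) ^ (75 + 5 * k)))).getD a 0 := fun k hk a => by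
    rw [clsN, clsT, getD_tab _ _ (Nat.lt_succ_of_lt hk), if_neg hk.ne]
  have hlt : ∀ k ≤ L, ∀ a < n + n, clsN (clsT sfm f n L z y) k a < n + n := fun k hkL a ha => by
    rcases hkL.lt_or_eq with hkL | rfl
    · rw [hk k hkL]; exact (hrp k).1 a ha
    · rwa [hL a ha]
  refine ⟨?_, hlt⟩
  have hval : ∀ k < L, ∀ a : Fin (n + n), ((lvL (n + n) L (clsT sfm f n L z y)).cls k a : ℕ)
      = (repL (n + n) (arcT sfm f (n + n) z y ((z : ℤ) ^ (75 + 5 * k)))).getD a 0 := fun k hkL a => by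
    rw [lvL_val (hlt k hkL.le a a.2), hk k hkL]
  refine centre_of_chain hnrm (piN n) (by exact_mod_cast h64) ?_ (lvL (n + n) L (clsT sfm f n L z y))
    hbd (fun k => vecL (n + n) (lvlPt sfm f n L z (L - k))) (ceb_lvlPt_inB h hs _) ?_
    (fun k hkL => ?_) (fun a => Fin.ext ?_) (fun k hkL a => Fin.ext ?_) fun k hkL a b => ?_
  · rw [Fintype.card_fin]
    exact_mod_cast (Nat.le_succ _).trans ((Nat.le_mul_of_pos_left _ (by omega)).trans hbig)
  · change ∑ e, |push (piN n) (vecL (n + n) (lvlPt sfm f n L z (L - L))) e| ≤ _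
    rw [Nat.sub_self]
    exact (h.nearPt_spec hs).2
  · change k < L at hkL
    have h1 := h.lvlStep_spec hs (L - 1 - (L - (k + 1))) (ceb_lvlPt_inB h hs (L - (k + 1)))
    rwa [← ceb_lvlPt_succ, show L - 1 - (L - (k + 1)) = k by omega,
      show L - (k + 1) + 1 = L - k by omega] at h1
  · change ((lvL (n + n) L (clsT sfm f n L z y)).cls L a : ℕ) = a
    rw [lvL_val (hlt L le_rfl a a.2), hL a a.2]
  · rw [hval k hkL, hval k hkL]
    exact (hrp k).2.1 a a.2
  · rw [← Fin.val_inj, hval k hkL, hval k hkL, (hrp k).2.2 a b, hadj, hadj]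
    rfl

end Cen

theorem exists_cen : ∃ cen : (List Bool → ℤ) → ℕ × ℕ × ℕ → List ℤ × List (List ℕ),
    CenOPT cen ∧ CenOK cen := by
  obtain ⟨sfm, h1, h2, -⟩ := exists_sfm
  exact ⟨Cen.cen sfm, Cen.opt_cen h1, Cen.cen_ok h2⟩

end Crest.Agent.R302
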