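import Crest.Agent.R302.EvalD

/-!
# Row 302: the evaluator of the wall is correct

* `viol` is the total violation of `Feas`; it is submodular in `p` because `t ↦ max 0 (t - τ)` is convex and the differences of
  `p ⊔ q`, `p ⊓ q` have the same sum as those of `p`, `q` and lie between them.
* `ellL_eq`: `lov_eq_gre` with the key `N * p a + a`; `toS N (up p a)` is the set `{c | key a ≤ key c}`; `tab_eq_ofFn`, `List.sum_ofFn`,
  `Fin.sum_univ_eq_sum_range`, `lvL_val`.
* `abs_ell_le`: shift `q` into `[0, 2 ^ (b+2)]` (`ell_shift`), then `|⟨q, y⟩| ≤ N 2 ^ (2b+2)`, `|lov q| ≤ 2 ^ (2b+2)` (`lov_eq`),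
  `0 ≤ pen q ≤ L N² 2 ^ (2b+4)` (`hq_le_sq`), and `L + 1 ≤ 2 ^ L`, `N + 1 ≤ 2 ^ N`.  Similarly `viol q ≤ (L+1) N² 2 ^ (b+2)`.
* `cand_spec`: `F S = 2 ^ (ex+2) * viol (p + 2^j 1_S) - ell y (p + 2^j 1_S)` is submodular (`(p + c 1_S) ⊔ (p + c 1_T) = p + c 1_{S ∪ T}`,
  `ell_sup_inf`), `|F| ≤ 2 ^ (2 ex + 3)`; comparing the minimiser with `S = ∅` gives `viol = 0`.
* `step_spec`: `descent` with `J = b + 2`; `bestJ` is an index `< J` maximising the value (the filtered list is not empty).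
* `evalE_eq`: `vecL N [] = 0`, the gap starts at `G ≤ 2 ^ ex`, is at least halved every `N J` rounds
  (`(1 - 1/m) ^ m ≤ 1/2`) and is a nonnegative integer (`le_G`).  If `N = 0` then `G = 0 = ell y 0`.
-/

set_option autoImplicit false

namespace Crest.Agent.R302

open Finset Crest.Agent.Lib.PolyTime Crest.Agent.R309

namespace Wall

variable {V : Type} [Fintype V] [DecidableEq V] {w : Wall V}

/-- Total violation of the constraints `Feas`. -/
def viol (w : Wall V) (p : V → ℤ) : ℤ :=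
  ∑ a, ∑ c, max 0 (p a - p c - w.P) +
    ∑ k ∈ range w.lv.L, ∑ a, ∑ c,
      if w.lv.cls k a = w.lv.cls k c then max 0 (p a - p c - w.τ k) else 0

theorem viol_nonneg (p : V → ℤ) : 0 ≤ w.viol p := by
  refine add_nonneg (sum_nonneg fun a _ => sum_nonneg fun c _ => le_max_left _ _)
    (sum_nonneg fun k _ => sum_nonneg fun a _ => sum_nonneg fun c _ => ?_)
  split_ifs
  · exact le_max_left _ _
  · exact le_rfl

theorem viol_eq_zero {p : V → ℤ} : w.viol p = 0 ↔ w.Feas p := by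
  have h1 : ∀ a c, 0 ≤ max 0 (p a - p c - w.P) := fun a c => le_max_left _ _
  have h2 : ∀ k a c, 0 ≤ if w.lv.cls k a = w.lv.cls k c then max 0 (p a - p c - w.τ k) else 0 :=
    fun k a c => by
      split_ifs
      · exact le_max_left _ _
      · exact le_rfl
  unfold viol
  rw [add_eq_zero_iff_of_nonneg (sum_nonneg fun a _ => sum_nonneg fun c _ => h1 a c)
    (sum_nonneg fun k _ => sum_nonneg fun a _ => sum_nonneg fun c _ => h2 k a c),
    sum_eq_zero_iff_of_nonneg fun a _ => sum_nonneg fun c _ => h1 a c,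
    sum_eq_zero_iff_of_nonneg fun k _ => sum_nonneg fun a _ => sum_nonneg fun c _ => h2 k a c]
  simp only [sum_eq_zero_iff_of_nonneg fun c _ => h1 _ c,
    sum_eq_zero_iff_of_nonneg fun a _ => sum_nonneg fun c _ => h2 _ a c,
    sum_eq_zero_iff_of_nonneg fun c _ => h2 _ _ c, mem_univ, forall_true_left, mem_range]
  refine and_congr ⟨fun h a c => ?_, fun h a c => ?_⟩
    (forall₂_congr fun k _ => ⟨fun h a c e => ?_, fun h a c => ?_⟩)
  · have h3 := h a c
    have h4 := h c a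
    rw [abs_le]
    omega
  · have h3 := h a c
    rw [abs_le] at h3
    omega
  · have h3 := h a c
    have h4 := h c a
    rw [if_pos e] at h3
    rw [if_pos e.symm] at h4
    rw [abs_le]
    omega
  · split_ifs with e
    · have h3 := h a c e
      rw [abs_le] at h3
      omega
    · rfl

theorem viol_sup_inf (p q : V → ℤ) : w.viol (p ⊔ q) + w.viol (p ⊓ q) ≤ w.viol p + w.viol q := by
  have h1 : ∀ (τ : ℤ) (a c : V),
      max 0 ((p ⊔ q) a - (p ⊔ q) c - τ) + max 0 ((p ⊓ q) a - (p ⊓ q) c - τ) ≤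
        max 0 (p a - p c - τ) + max 0 (q a - q c - τ) := fun τ a c => by
    simp only [Pi.sup_apply, Pi.inf_apply]
    omega
  unfold viol
  rw [add_add_add_comm, add_add_add_comm (∑ a, ∑ c, max 0 (p a - p c - w.P))]
  simp only [← sum_add_distrib]
  refine add_le_add (sum_le_sum fun a _ => sum_le_sum fun c _ => h1 _ a c)
    (sum_le_sum fun k _ => sum_le_sum fun a _ => sum_le_sum fun c _ => ?_)
  split_ifs
  · exact h1 _ a c
  · exact le_rfl

omit [DecidableEq V] in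
theorem evA_sum2 {g : V → V → ℤ} {M : ℤ} (h : ∀ a c, g a c ≤ M) :
    ∑ a, ∑ c, g a c ≤ (Fintype.card V : ℤ) ^ 2 * M := by
  refine (sum_le_sum fun a _ => sum_le_sum fun c _ => h a c).trans (le_of_eq ?_)
  simp only [sum_const, card_univ, nsmul_eq_mul]
  ring

theorem OK.abs_ell_le (h : w.OK) {b : ℕ} (hρ : ∀ S, |w.ρ S| ≤ 2 ^ b) {y q : V → ℤ}
    (hy : ∀ a, |y a| ≤ 2 ^ b) (hy0 : sm y univ = 0) (hq : ∀ a c, q a - q c ≤ 2 ^ (b + 2)) :
    |w.ell y q| ≤ 2 ^ (2 * b + 4 + w.lv.L + 2 * Fintype.card V) ∧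
      w.viol q ≤ 2 ^ (2 * b + 4 + w.lv.L + 2 * Fintype.card V) := by
  obtain ⟨c, hc⟩ : ∃ c : ℤ, ∀ a, 0 ≤ q a + c ∧ q a + c ≤ 2 ^ (b + 2) := by
    rcases isEmpty_or_nonempty V with hV | hV
    · exact ⟨0, fun a => hV.elim a⟩
    · obtain ⟨a₀, -, ha₀⟩ := exists_min_image univ q univ_nonempty
      exact ⟨-q a₀, fun a => ⟨by linarith [ha₀ a (mem_univ a)], by linarith [hq a a₀]⟩⟩
  have hB : (1 : ℤ) ≤ 2 ^ b := one_le_pow₀ (by norm_num)
  have hL : (w.lv.L : ℤ) + 1 ≤ 2 ^ w.lv.L := by exact_mod_cast Nat.lt_two_pow_self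
  have hN : (Fintype.card V : ℤ) + 1 ≤ 2 ^ Fintype.card V := by exact_mod_cast Nat.lt_two_pow_self
  have hL0 : (0 : ℤ) ≤ w.lv.L := Int.natCast_nonneg _
  have hN0 : (0 : ℤ) ≤ Fintype.card V := Int.natCast_nonneg _
  have hE : 16 * (2 ^ b) ^ 2 * (((w.lv.L : ℤ) + 1) * ((Fintype.card V : ℤ) + 1) ^ 2) ≤
      2 ^ (2 * b + 4 + w.lv.L + 2 * Fintype.card V) := by
    calc _ ≤ 16 * (2 ^ b) ^ 2 * ((2 : ℤ) ^ w.lv.L * (2 ^ Fintype.card V) ^ 2) := by gcongr
      _ = _ := by ring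
  have hQ : (2 : ℤ) ^ (b + 2) = 4 * 2 ^ b := by ring
  rw [hQ] at hc hq
  generalize (2 : ℤ) ^ (2 * b + 4 + w.lv.L + 2 * Fintype.card V) = E at hE
  generalize (2 : ℤ) ^ b = B at *
  constructor
  · rw [← h.ell_shift hy0 q c]
    have h1 : |∑ a, (q a + c) * y a| ≤ Fintype.card V * (4 * B * B) := by
      refine (abs_sum_le_sum_abs _ _).trans ?_
      rw [← card_univ, ← nsmul_eq_mul]
      refine sum_le_card_nsmul _ _ _ fun a _ => ?_
      rw [abs_mul, abs_of_nonneg (hc a).1]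
      exact mul_le_mul (hc a).2 (hy a) (abs_nonneg _) (by linarith)
    have h2 : |lov w.ρ fun a => q a + c| ≤ 4 * B * B := by
      rw [lov_eq h.nrm hc]
      refine (abs_sum_le_sum_abs _ _).trans ((sum_le_card_nsmul _ _ _ fun t _ => hρ _).trans ?_)
      rw [Int.card_Ioc, nsmul_eq_mul, sub_zero, Int.toNat_of_nonneg (by linarith)]
    have h3 : w.pen (fun a => q a + c) ≤ w.lv.L * ((Fintype.card V : ℤ) ^ 2 * (4 * B) ^ 2) := by
      unfold pen
      refine (sum_le_card_nsmul _ _ _ fun k hk => evA_sum2 (M := (4 * B) ^ 2) fun a a' => ?_).trans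
        (by rw [card_range, nsmul_eq_mul])
      split_ifs
      · refine (hq_le_sq (h.m_pos k (mem_range.1 hk)) _).trans (sq_le_sq' ?_ ?_)
        · linarith [hq a' a]
        · linarith [hq a a']
      · positivity
    have h4 := h.pen_nonneg fun a => q a + c
    have h5 : (Fintype.card V : ℤ) * (4 * B * B) + 4 * B * B +
        w.lv.L * ((Fintype.card V : ℤ) ^ 2 * (4 * B) ^ 2) ≤
        16 * B ^ 2 * (((w.lv.L : ℤ) + 1) * ((Fintype.card V : ℤ) + 1) ^ 2) := by
      generalize (Fintype.card V : ℤ) = N at *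
      generalize (w.lv.L : ℤ) = L at *
      have h6 : 0 ≤ B ^ 2 * (L * (32 * N + 16) + (16 * N ^ 2 + 28 * N + 12)) := by positivity
      nlinarith
    rw [abs_le] at h1 h2 ⊢
    unfold ell
    constructor <;> linarith [h1.1, h1.2, h2.1, h2.2]
  · have h1 : ∀ (τ : ℤ), 0 ≤ τ → ∀ a a', max 0 (q a - q a' - τ) ≤ 4 * B := fun τ hτ a a' =>
      max_le (by linarith) (by linarith [hq a a'])
    have h2 : w.viol q ≤ (Fintype.card V : ℤ) ^ 2 * (4 * B) +
        w.lv.L * ((Fintype.card V : ℤ) ^ 2 * (4 * B)) := by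
      refine add_le_add (evA_sum2 (h1 _ h.P_nonneg)) ?_
      refine (sum_le_card_nsmul _ _ _ fun k hk => evA_sum2 (M := 4 * B) fun a a' => ?_).trans
        (by rw [card_range, nsmul_eq_mul])
      split_ifs
      · exact h1 _ (h.τ_nonneg k (mem_range.1 hk)) a a'
      · linarith
    refine h2.trans (le_trans ?_ hE)
    calc _ = 4 * B * (((w.lv.L : ℤ) + 1) * (Fintype.card V : ℤ) ^ 2) := by ring
      _ ≤ _ := by
        refine mul_le_mul (by nlinarith) ?_ (by positivity) (by positivity)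
        exact mul_le_mul_of_nonneg_left (by nlinarith) (by linarith)

end Wall

namespace GIn

/-- The hypotheses of `EvalOK`. -/
structure Hyp (x : GIn) (f : List Bool → ℤ) (ρ : Finset (Fin x.N) → ℤ) : Prop where
  rep : Rep x.N f ρ
  ok : (wallL x.N ρ x.L x.cls x.ms x.τs x.P).OK
  cls : ∀ k ≤ x.L, ∀ a < x.N, clsN x.cls k a < x.N
  bρ : ∀ S, |ρ S| ≤ 2 ^ x.b
  bP : x.P ≤ 2 ^ x.b
  by' : ∀ a, |vecL x.N x.y a| ≤ 2 ^ x.b
  y0 : sm (vecL x.N x.y) univ = 0

/-- The wall of an input. -/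
abbrev wall (x : GIn) (ρ : Finset (Fin x.N) → ℤ) : Wall (Fin x.N) :=
  wallL x.N ρ x.L x.cls x.ms x.τs x.P

variable {x : GIn} {f : List Bool → ℤ} {ρ : Finset (Fin x.N) → ℤ}
  {sfm : (List Bool → ℤ) → ℕ → ℕ → List Bool}

theorem evA_tab (n : ℕ) (g : ℕ → ℤ) : (tab n g).sum = ∑ i : Fin n, g i := by
  rw [tab_eq_ofFn, List.sum_ofFn]

theorem evA_tab' (n : ℕ) (g : ℕ → ℤ) : (tab n g).sum = ∑ i ∈ range n, g i := by
  rw [evA_tab, Fin.sum_univ_eq_sum_range]

theorem Hyp.evA_cls (h : x.Hyp f ρ) {k : ℕ} (hk : k < x.L) (a c : Fin x.N) :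
    clsN x.cls k a = clsN x.cls k c ↔ (x.wall ρ).lv.cls k a = (x.wall ρ).lv.cls k c := by
  rw [← lvL_val (L := x.L) (h.cls k hk.le a a.2), ← lvL_val (L := x.L) (h.cls k hk.le c c.2),
    Fin.val_inj]
  rfl

theorem evA_key (x : GIn) (p : List ℤ) {a c : Fin x.N} (h : vecL x.N p a < vecL x.N p c) :
    x.key p a < x.key p c := by
  have h2 : ((a : ℕ) : ℤ) < x.N := by exact_mod_cast a.2
  have h3 : (0 : ℤ) ≤ (c : ℕ) := Int.natCast_nonneg _
  have h4 : (x.N : ℤ) * (p.getD a 0 + 1) ≤ x.N * p.getD c 0 :=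
    mul_le_mul_of_nonneg_left h (Int.natCast_nonneg _)
  unfold key
  linarith

theorem evA_key_inj (x : GIn) (p : List ℤ) : Function.Injective fun a : Fin x.N => x.key p a := by
  intro a c e
  have h3 : p.getD a 0 = p.getD c 0 := le_antisymm (not_lt.1 fun hlt => (evA_key x p hlt).ne' e)
    (not_lt.1 fun hlt => (evA_key x p hlt).ne e)
  simp only [key, h3, add_right_inj, Nat.cast_inj] at e
  exact Fin.ext e

theorem Hyp.ellL_eq (h : x.Hyp f ρ) (p : List ℤ) :
    x.ellL f p = (x.wall ρ).ell (vecL x.N x.y) (vecL x.N p) := by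
  have h1 : x.lovL f p = lov ρ (vecL x.N p) := by
    rw [lov_eq_gre (ρ := ρ) h.ok.nrm (evA_key_inj x p) fun a c hac => evA_key x p hac, lovL, evA_tab]
    refine sum_congr rfl fun a _ => ?_
    have e1 : toS x.N (x.up p a) = univ.filter fun c : Fin x.N => x.key p a ≤ x.key p c := by
      ext c
      simp only [toS, up, mem_filter, getD_tab _ _ c.2, decide_eq_true_eq]
    have e2 : toS x.N (x.up' p a) = univ.filter fun c : Fin x.N => x.key p a < x.key p c := by
      ext c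
      simp only [toS, up', mem_filter, getD_tab _ _ c.2, decide_eq_true_eq]
    rw [h.rep, h.rep, e1, e2]
    rfl
  have h2 : x.penL p = (x.wall ρ).pen (vecL x.N p) := by
    rw [penL, evA_tab']
    refine sum_congr rfl fun k hk => ?_
    rw [evA_tab]
    refine sum_congr rfl fun a _ => ?_
    rw [evA_tab]
    exact sum_congr rfl fun c _ => if_congr (h.evA_cls (mem_range.1 hk) a c) rfl rfl
  rw [ellL, h1, h2, evA_tab]
  rfl

theorem Hyp.violL_eq (h : x.Hyp f ρ) (p : List ℤ) : x.violL p = (x.wall ρ).viol (vecL x.N p) := by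
  rw [violL, evA_tab, evA_tab', Wall.viol]
  congr 1
  · exact sum_congr rfl fun a _ => evA_tab _ _
  · refine sum_congr rfl fun k hk => ?_
    rw [evA_tab]
    refine sum_congr rfl fun a _ => ?_
    rw [evA_tab]
    exact sum_congr rfl fun c _ => if_congr (h.evA_cls (mem_range.1 hk) a c) rfl rfl

theorem vecL_mv (x : GIn) (p : List ℤ) (j : ℕ) (S : List Bool) :
    vecL x.N (x.mv p j S) = vecL x.N p + (2 ^ j : ℤ) • oneS (toS x.N S) := by
  funext a
  simp only [vecL, mv, getD_tab _ _ a.2, Pi.add_apply, Pi.smul_apply, oneS, toS, mem_filter,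
    mem_univ, true_and, smul_eq_mul, mul_ite, mul_one, mul_zero]

theorem evB_half {g : ℕ → ℤ} {m : ℕ} (hm : 0 < m) (h0 : ∀ i, 0 ≤ g i)
    (h : ∀ i, g i ≤ m * (g i - g (i + 1))) (k : ℕ) : 2 ^ k * g (m * k) ≤ g 0 := by
  have hm' : (0 : ℤ) < m := by exact_mod_cast hm
  have h1 : ∀ i, g (i + 1) ≤ g i := fun i => by
    have := nonneg_of_mul_nonneg_right ((h0 i).trans (h i)) hm'
    linarith
  have h2 : ∀ i n : ℕ, n * g (i + n) ≤ m * (g i - g (i + n)) := fun i n => by
    induction n with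
    | zero => simp
    | succ n ih =>
      have a1 := h (i + n)
      have a2 := mul_le_mul_of_nonneg_left (h1 (i + n)) (show (0 : ℤ) ≤ n + 1 by positivity)
      rw [← add_assoc]
      push_cast
      linarith
  induction k with
  | zero => simp
  | succ k ih =>
    have a1 := le_of_mul_le_mul_left (h2 (m * k) m) hm'
    have a2 := mul_le_mul_of_nonneg_left a1 (show (0 : ℤ) ≤ 2 ^ k by positivity)
    rw [Nat.mul_succ, pow_succ]
    linarith

theorem evB_bestJ (x : GIn) (sfm : (List Bool → ℤ) → ℕ → ℕ → List Bool) (f : List Bool → ℤ)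
    (p : List ℤ) : x.bestJ sfm f p < x.J ∧
      ∀ j < x.J, x.ellL f (x.cand sfm f p j) ≤ x.ellL f (x.stepE sfm f p) := by
  obtain ⟨j₀, hj₀, hmax⟩ := exists_max_image (range x.J) (fun j => x.ellL f (x.cand sfm f p j))
    ⟨0, mem_range.2 (Nat.succ_pos _)⟩
  unfold stepE bestJ
  rcases h : ((List.range x.J).filter fun j => (List.range x.J).all fun j' =>
    decide (x.ellL f (x.cand sfm f p j') ≤ x.ellL f (x.cand sfm f p j))) with _ | ⟨j, l⟩
  · exfalso
    have : j₀ ∈ ([] : List ℕ) := by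
      rw [← h]
      refine List.mem_filter.2 ⟨List.mem_range.2 (mem_range.1 hj₀), ?_⟩
      simp only [List.all_eq_true, List.mem_range, decide_eq_true_eq]
      exact fun j' hj' => hmax j' (mem_range.2 hj')
    simp at this
  · have : j ∈ j :: l := List.mem_cons_self
    rw [← h, List.mem_filter] at this
    simp only [List.all_eq_true, List.mem_range, decide_eq_true_eq] at this
    exact this

theorem Hyp.cand_spec (h : x.Hyp f ρ) (hs : SfmOK sfm) {p : List ℤ}
    (hp : (x.wall ρ).Feas (vecL x.N p)) {j : ℕ} (hj : j < x.J) :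
    (x.wall ρ).Feas (vecL x.N (x.cand sfm f p j)) ∧
      ∀ S : Finset (Fin x.N), (x.wall ρ).Feas (vecL x.N p + (2 ^ j : ℤ) • oneS S) →
        (x.wall ρ).ell (vecL x.N x.y) (vecL x.N p + (2 ^ j : ℤ) • oneS S) ≤
          (x.wall ρ).ell (vecL x.N x.y) (vecL x.N (x.cand sfm f p j)) := by
  set q : Finset (Fin x.N) → Fin x.N → ℤ := fun S => vecL x.N p + (2 ^ j : ℤ) • oneS S with hq
  set F : Finset (Fin x.N) → ℤ := fun S =>
    2 ^ (x.ex + 2) * (x.wall ρ).viol (q S) - (x.wall ρ).ell (vecL x.N x.y) (q S) with hF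
  have h2j : (0 : ℤ) < 2 ^ j := by positivity
  have hrep : Rep x.N (x.obj f p j) F := fun l => by
    rw [obj, h.violL_eq, h.ellL_eq, vecL_mv]
  have hsub : Submod F := fun A B => by
    have e1 : q A ⊔ q B = q (A ∪ B) := by
      funext a
      simp only [hq, Pi.sup_apply, Pi.add_apply, Pi.smul_apply, oneS, smul_eq_mul, mem_union]
      by_cases ha : a ∈ A <;> by_cases hb : a ∈ B <;> simp [ha, hb, h2j.le]
    have e2 : q A ⊓ q B = q (A ∩ B) := by
      funext a
      simp only [hq, Pi.inf_apply, Pi.add_apply, Pi.smul_apply, oneS, smul_eq_mul, mem_inter]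
      by_cases ha : a ∈ A <;> by_cases hb : a ∈ B <;> simp [ha, hb, h2j.le]
    have a1 := h.ok.ell_sup_inf (vecL x.N x.y) (q A) (q B)
    have a2 := mul_le_mul_of_nonneg_left (Wall.viol_sup_inf (w := x.wall ρ) (q A) (q B))
      (show (0 : ℤ) ≤ 2 ^ (x.ex + 2) by positivity)
    rw [e1, e2] at a1 a2
    simp only [hF]
    linarith
  have hb : ∀ S, |(x.wall ρ).ell (vecL x.N x.y) (q S)| ≤ 2 ^ x.ex ∧
      (x.wall ρ).viol (q S) ≤ 2 ^ x.ex := fun S => by
    have := h.ok.abs_ell_le h.bρ h.by' h.y0 (q := q S) fun a c => by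
      have a1 := (abs_le.1 (hp.1 a c)).2
      have a2 : (x.wall ρ).P ≤ 2 ^ x.b := h.bP
      have a3 : (2 : ℤ) ^ j ≤ 2 ^ (x.b + 1) :=
        pow_le_pow_right₀ (by norm_num) (Nat.le_of_lt_succ hj)
      have a4 : (0 : ℤ) < 2 ^ x.b := by positivity
      simp only [hq, Pi.add_apply, Pi.smul_apply, oneS, smul_eq_mul, pow_succ] at a3 ⊢
      split_ifs <;> linarith
    rwa [Fintype.card_fin] at this
  have hE : (1 : ℤ) ≤ 2 ^ x.ex := one_le_pow₀ (by norm_num)
  have e4 : (2 : ℤ) ^ (x.ex + 2) = 4 * 2 ^ x.ex := by ring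
  have hmin := hs _ x.N (2 * x.ex + 3) F hrep hsub fun S => by
    have a1 := abs_le.1 (hb S).1
    have a2 := (hb S).2
    have a3 := Wall.viol_nonneg (w := x.wall ρ) (q S)
    have e8 : (2 : ℤ) ^ (2 * x.ex + 3) = 8 * (2 ^ x.ex * 2 ^ x.ex) := by ring
    simp only [hF]
    rw [e4, e8, abs_le]
    generalize (2 : ℤ) ^ x.ex = E at *
    constructor <;> nlinarith [a1.1, a1.2]
  have hc : vecL x.N (x.cand sfm f p j) = q (toS x.N (sfm (x.obj f p j) x.N (2 * x.ex + 3))) :=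
    vecL_mv x p j _
  set S₀ := toS x.N (sfm (x.obj f p j) x.N (2 * x.ex + 3))
  have h0 : (x.wall ρ).viol (q S₀) = 0 := by
    have a0 : (x.wall ρ).viol (q ∅) = 0 := by
      have : q ∅ = vecL x.N p := by funext a; simp [hq, oneS]
      rw [this]
      exact Wall.viol_eq_zero.2 hp
    have a1 := hmin ∅
    have a2 := (abs_le.1 (hb S₀).1).2
    have a3 := (abs_le.1 (hb ∅).1).1
    have a4 := Wall.viol_nonneg (w := x.wall ρ) (q S₀)
    simp only [hF, a0, e4] at a1
    by_contra hne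
    have a5 : 1 ≤ (x.wall ρ).viol (q S₀) := by omega
    generalize (2 : ℤ) ^ x.ex = E at *
    nlinarith
  rw [hc]
  refine ⟨Wall.viol_eq_zero.1 h0, fun S hS => ?_⟩
  have a1 := hmin S
  simp only [hF, h0, Wall.viol_eq_zero.2 (show (x.wall ρ).Feas (q S) from hS)] at a1
  linarith

theorem Hyp.step_spec (h : x.Hyp f ρ) (hs : SfmOK sfm) {p : List ℤ}
    (hp : (x.wall ρ).Feas (vecL x.N p)) :
    (x.wall ρ).Feas (vecL x.N (x.stepE sfm f p)) ∧
      (x.wall ρ).G (vecL x.N x.y) - (x.wall ρ).ell (vecL x.N x.y) (vecL x.N p) ≤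
        x.N * x.J * ((x.wall ρ).ell (vecL x.N x.y) (vecL x.N (x.stepE sfm f p)) -
          (x.wall ρ).ell (vecL x.N x.y) (vecL x.N p)) := by
  obtain ⟨b1, b2⟩ := evB_bestJ x sfm f p
  refine ⟨(h.cand_spec hs hp b1).1, ?_⟩
  obtain ⟨j, hj, S, hS, hG⟩ := h.ok.descent h.y0 hp (J := x.J) (Nat.succ_pos _) (by
    have a2 : (x.wall ρ).P ≤ 2 ^ x.b := h.bP
    have a4 : (0 : ℤ) < 2 ^ x.b := by positivity
    simp only [J, pow_succ]
    linarith)
  rw [Fintype.card_fin] at hG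
  refine hG.trans (mul_le_mul_of_nonneg_left ?_ (by positivity))
  have a1 := (h.cand_spec hs hp hj).2 S hS
  have a2 := b2 j hj
  rw [h.ellL_eq, h.ellL_eq] at a2
  linarith

theorem Hyp.evalE_eq (h : x.Hyp f ρ) (hs : SfmOK sfm) :
    x.evalE sfm f = (x.wall ρ).G (vecL x.N x.y) := by
  have e0 : vecL x.N [] = 0 := by funext a; simp [vecL]
  have hfe : ∀ i, (x.wall ρ).Feas (vecL x.N ((x.stepE sfm f)^[i] [])) := fun i => by
    induction i with
    | zero => rw [Function.iterate_zero_apply, e0]; exact h.ok.feas_zero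
    | succ i ih => rw [Function.iterate_succ_apply']; exact (h.step_spec hs ih).1
  set g : ℕ → ℤ := fun i => (x.wall ρ).G (vecL x.N x.y) -
    (x.wall ρ).ell (vecL x.N x.y) (vecL x.N ((x.stepE sfm f)^[i] [])) with hg
  have g0 : ∀ i, 0 ≤ g i := fun i => sub_nonneg.2 (h.ok.le_G h.y0 (hfe i))
  have g1 : ∀ i, g i ≤ (x.N * x.J : ℕ) * (g i - g (i + 1)) := fun i => by
    have := (h.step_spec hs (hfe i)).2
    simp only [hg, Function.iterate_succ_apply']
    push_cast
    linarith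
  have g2 : g 0 ≤ 2 ^ x.ex := by
    obtain ⟨q, hq, e⟩ := Wall.exists_G (w := x.wall ρ) (vecL x.N x.y)
    have hq' := (h.ok.mem_Pf.1 hq).1
    have := (h.ok.abs_ell_le h.bρ h.by' h.y0 (q := q) fun a c => by
      have a2 : (x.wall ρ).P ≤ 2 ^ x.b := h.bP
      have a4 : (0 : ℤ) < 2 ^ x.b := by positivity
      simp only [pow_succ]
      linarith [(hq' a).2, (hq' c).1]).1
    rw [Fintype.card_fin] at this
    simp only [hg, Function.iterate_zero_apply, e0, h.ok.ell_zero, sub_zero, e]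
    exact (le_abs_self _).trans this
  have g3 : g x.rounds ≤ 0 := by
    rcases Nat.eq_zero_or_pos (x.N * x.J) with h0 | h0
    · have := g1 0
      rw [h0] at this
      rw [rounds, h0, zero_mul]
      simpa using this
    · have a1 := (evB_half h0 g0 g1 (x.ex + 1)).trans g2
      have a2 : (0 : ℤ) < 2 ^ x.ex := by positivity
      by_contra hne
      have a3 : 1 ≤ g (x.N * x.J * (x.ex + 1)) := by unfold rounds at hne; omega
      rw [pow_succ] at a1
      nlinarith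
  have g4 := g0 x.rounds
  rw [evalE, h.ellL_eq]
  simp only [hg] at g3 g4
  linarith

end GIn

theorem exists_evalG : ∃ evalG : (List Bool → ℤ) → GIn → ℤ, EvalOPT evalG ∧ EvalOK evalG := by
  obtain ⟨sfm, h1, h2, -⟩ := exists_sfm
  refine ⟨fun f x => x.evalE sfm f, GIn.opt_evalE h1, ?_⟩
  intro f N L b cls ms τs P y ρ hr hw hc hρ hP hy hy0
  exact GIn.Hyp.evalE_eq (x := (N, L, b, cls, ms, τs, P, y)) ⟨hr, hw, hc, hρ, hP, hy, hy0⟩ h2

end Crest.Agent.R302
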