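import Crest.Agent.R302.Iface
import Crest.Agent.R302.EvalG
import Crest.Agent.R302.Centre

/-!
# Row 302: the chosen routines (complete)
-/

set_option autoImplicit false

namespace Crest.Agent.R302

noncomputable def sfm : (List Bool → ℤ) → ℕ → ℕ → List Bool := exists_sfm.choose
noncomputable def evalG : (List Bool → ℤ) → GIn → ℤ := exists_evalG.choose
noncomputable def cen : (List Bool → ℤ) → ℕ × ℕ × ℕ → List ℤ × List (List ℕ) := exists_cen.choose
theorem sfm_opt : SfmOPT sfm := exists_sfm.choose_spec.1
theorem sfm_ok : SfmOK sfm := exists_sfm.choose_spec.2.1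
theorem evalG_opt : EvalOPT evalG := exists_evalG.choose_spec.1
theorem evalG_ok : EvalOK evalG := exists_evalG.choose_spec.2
theorem cen_opt : CenOPT cen := exists_cen.choose_spec.1
theorem cen_ok : CenOK cen := exists_cen.choose_spec.2

end Crest.Agent.R302
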