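import Crest.Agent.R302.Sfm

/-!
# Row 302: closure properties of the routines with a functional argument (complete)
-/

set_option autoImplicit false

namespace Crest.Agent.R302

open Crest.Agent.Lib.PolyTime

def EvalOPT (evalG : (List Bool → ℤ) → GIn → ℤ) : Prop :=
  ∀ {α : Type} [Enc α] [Ok α] {f : α → List Bool → ℤ} {x : α → GIn},
    (OPT fun p : α × List Bool => f p.1 p.2) → OPT x → OPT fun a => evalG (f a) (x a)

def CenOPT (cen : (List Bool → ℤ) → ℕ × ℕ × ℕ → List ℤ × List (List ℕ)) : Prop :=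
  ∀ {α : Type} [Enc α] [Ok α] {f : α → List Bool → ℤ} {x : α → ℕ × ℕ × ℕ},
    (OPT fun p : α × List Bool => f p.1 p.2) → OPT x → OPT fun a => cen (f a) (x a)

end Crest.Agent.R302
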