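import Crest.Agent.R302.Cell

/-!
# Row 302: the base weight and the partition functions

`base`: `base_F0` with `δ k = 2 / z^(122+10k)` (`four_point`, `second_diff`, `m k / D0 = 1 / z^(122+10k)`), `∑ κ ≤ 2 / z^174`,
`card V * (L+1) ≤ z`.  `U_c`: `G_le` at `ys` with `y0_near` (`≤ z^4 (z^4 + 2)`), class sums of `ev a - ev w` are at most `2`.
`Z_succ`: `SG_succ` with `G = 1`, `psi_mem`; off the event `U > z^9` we have `psi ≥ 1/2` (`psi_ge`, the cell term is at most `U`), and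
`tail_le`, `Z_lower` show that this event has at most half of the mass.
-/

set_option autoImplicit false

namespace Crest.Agent.R302.Pre

open Finset Crest.Agent.R309 Crest.Agent.Lib.PolyTime

variable {p : Pre} {ρ : Finset p.V → ℤ}

theorem baseC_kap (p : Pre) (k : ℕ) : p.kap k = 1 / (p.z : ℝ) ^ (174 + 10 * k) := by
  rw [kap, Wd, zZ]
  push_cast
  rw [← pow_mul]
  congr 2
  ring

theorem baseC_D0 (p : Pre) : (p.D0 : ℝ) = (p.z : ℝ) ^ (122 + 10 * p.L) := by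
  rw [D0, zZ]; push_cast; rfl

theorem OK.baseC_NL (h : p.OK ρ) : ((Fintype.card p.V : ℝ) * (p.L + 1)) ≤ p.z := by
  have h1 : Fintype.card p.V * (p.L + 1) ≤ p.z := by
    rw [card_V]
    have := h.size
    nlinarith
  exact_mod_cast h1

theorem OK.baseC_kap_le (h : p.OK ρ) (k : ℕ) : p.kap k ≤ 1 / (p.z : ℝ) ^ 174 := by
  have hz := h.zR_ge
  rw [baseC_kap]
  exact one_div_le_one_div_of_le (by positivity) (pow_le_pow_right₀ (by linarith) (by omega))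

theorem baseC_kap_nonneg (p : Pre) (k : ℕ) : 0 ≤ p.kap k := by
  rw [baseC_kap]; positivity

theorem OK.base (h : p.OK ρ) : Base (p.F ρ) (p.lv.cls 0) (1 / (p.z : ℝ) ^ 175) := by
  have hz := h.zR_ge
  have hz0 : (0 : ℝ) < p.z := by linarith
  have hz1 : (1 : ℝ) ≤ p.z := by linarith
  have hD : (0 : ℝ) < p.D0 := by exact_mod_cast h.D0_pos
  have hNL := h.baseC_NL
  have hL : ((p.L : ℝ) + 1) ≤ p.z := by
    have : p.L + 1 ≤ p.z := by have := h.L_le; omega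
    exact_mod_cast this
  have hsum : ∑ k ∈ range (p.L + 1), p.kap k ≤ 1 / (p.z : ℝ) ^ 173 := by
    refine (sum_le_sum fun k _ => h.baseC_kap_le k).trans ?_
    rw [sum_const, card_range, nsmul_eq_mul]
    push_cast
    calc ((p.L : ℝ) + 1) * (1 / (p.z : ℝ) ^ 174) ≤ p.z * (1 / (p.z : ℝ) ^ 174) := by gcongr
      _ = _ := by field_simp
  have hδ : ∀ k : ℕ, (Fintype.card p.V * (p.L + 1) : ℝ) * (2 / (p.z : ℝ) ^ (122 + 10 * k)) ≤
      2 / (p.z : ℝ) ^ (121 + 10 * k) := fun k => by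
    calc _ ≤ (p.z : ℝ) * (2 / (p.z : ℝ) ^ (122 + 10 * k)) := by gcongr
      _ = _ := by
        rw [show 122 + 10 * k = 121 + 10 * k + 1 by ring, pow_succ]
        field_simp
  refine base_F0 (δ := fun k => 2 / (p.z : ℝ) ^ (122 + 10 * k)) h.cen.ok _
    (fun α hα a b c d => ?_) (fun α hα k hk a b hab => ?_) (fun k _ => ?_) ?_
    (fun k _ => by positivity) (fun k _ => ?_) (fun k _ => ?_) ?_
  · have h1 := h.wall_ok.four_point hα a b c d
    rw [← add_div, ← add_div, ← add_div, min_div_div_right hD.le]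
    refine div_le_div_of_nonneg_right ?_ hD.le
    exact_mod_cast h1
  · have h1 := h.wall_ok.second_diff hα hk hab
    rw [wall_m ρ hk] at h1
    have h2 : (((p.wall ρ).G (α + ev a + ev a) : ℝ) + (p.wall ρ).G (α + ev b + ev b)) ≤
        2 * (p.wall ρ).G (α + ev a + ev b) + 2 * (p.z : ℝ) ^ (10 * (p.L - k)) := by
      unfold zZ at h1
      exact_mod_cast h1
    have hk' : k < p.L := hk
    have e : 2 / (p.z : ℝ) ^ (122 + 10 * k) = 2 * (p.z : ℝ) ^ (10 * (p.L - k)) / p.D0 := by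
      rw [baseC_D0, show 122 + 10 * p.L = 10 * (p.L - k) + (122 + 10 * k) by omega, pow_add _ (10 * _)]
      field_simp
    rw [e, ← add_div, ← mul_div_assoc, ← add_div]
    exact div_le_div_of_nonneg_right h2 hD.le
  · rw [baseC_kap]; positivity
  · refine hsum.trans (one_div_le_one_div_of_le (by norm_num) ?_)
    exact le_trans (by linarith) (le_self_pow₀ hz1 (by norm_num))
  · refine (hδ k).trans ?_
    rw [div_le_div_iff₀ (by positivity) (by norm_num)]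
    have : (p.z : ℝ) ≤ (p.z : ℝ) ^ (121 + 10 * k) := le_self_pow₀ hz1 (by omega)
    linarith
  · have h0 : 0 ≤ ∑ k ∈ range (p.L + 1), p.kap k := sum_nonneg fun k _ => baseC_kap_nonneg p k
    calc 32 * (∑ j ∈ range (p.L + 1), p.kap j) * (Fintype.card p.V * (p.L + 1) : ℝ) *
          (2 / (p.z : ℝ) ^ (122 + 10 * k))
        = 32 * (∑ j ∈ range (p.L + 1), p.kap j) * ((Fintype.card p.V * (p.L + 1) : ℝ) *
          (2 / (p.z : ℝ) ^ (122 + 10 * k))) := by ring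
      _ ≤ 32 * (1 / (p.z : ℝ) ^ 173) * (2 / (p.z : ℝ) ^ (121 + 10 * k)) := by
        refine mul_le_mul (by gcongr) (hδ k) (by positivity) (by positivity)
      _ = 64 / (p.z : ℝ) ^ (173 + (121 + 10 * k)) := by rw [pow_add _ 173]; field_simp; norm_num
      _ ≤ _ := by
        rw [baseC_kap, div_le_div_iff₀ (by positivity) (by positivity), one_mul,
          show 173 + (121 + 10 * k) = 110 + (174 + 10 * (k + 1)) by ring, pow_add _ 110]
        have : (p.z : ℝ) ≤ (p.z : ℝ) ^ 110 := le_self_pow₀ hz1 (by omega)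
        gcongr
        linarith
  · rw [baseC_kap, div_div, mul_zero, add_zero]
    refine one_div_le_one_div_of_le (by positivity) ?_
    rw [pow_succ _ 174]
    gcongr
    linarith

theorem F_pos (ρ : Finset p.V → ℤ) (y : p.V → ℤ) : 0 < p.F ρ y := Real.exp_pos _

theorem wt_F_eq (ρ : Finset p.V → ℤ) (s : ℕ) (w a : p.V) (X : Fin p.n → ℤ) :
    wt (p.f s) X * p.F ρ (-ev w + ev a - del p.u p.v X) = Real.exp (-p.U ρ s w (X, a)) := by
  simp only [wt, f, fR, F, F0, U, lv_L]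
  rw [← Real.exp_sum, ← Real.exp_add, sum_neg_distrib]
  congr 1
  ring

theorem W_eq (ρ : Finset p.V → ℤ) (s : ℕ) (w : p.V) (ω : p.V → ℝ) (x : (Fin p.n → ℤ) × p.V) :
    p.W ρ s w ω x = Real.exp (-p.U ρ s w x) * ω x.2 := by
  rw [← wt_F_eq]; rfl

theorem Z_eq (ρ : Finset p.V → ℤ) (s : ℕ) (a w : p.V) :
    p.Z ρ s a w = ∑ X ∈ box (p.lo s) (p.hi s), Real.exp (-p.U ρ s w (X, a)) :=
  sum_congr rfl fun X _ => by rw [mul_one, wt_F_eq]

theorem baseC_cells_nonneg (p : Pre) (s : ℕ) (X : Fin p.n → ℤ) (e : Fin p.n) :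
    0 ≤ (p.z : ℝ) ^ 36 * ((X e : ℝ) - p.c e) ^ 2 / (p.om (p.jj s e) : ℝ) ^ 2 := by positivity

theorem baseC_cls_nonneg (p : Pre) (y : p.V → ℤ) :
    0 ≤ ∑ k ∈ range (p.L + 1), ∑ r, p.kap k * (p.lv.cs k y r : ℝ) ^ 2 :=
  sum_nonneg fun k _ => sum_nonneg fun _ _ => mul_nonneg (baseC_kap_nonneg p k) (sq_nonneg _)

theorem OK.baseC_G_nonneg (h : p.OK ρ) (y : p.V → ℤ) : 0 ≤ ((p.wall ρ).G y : ℝ) / p.D0 :=
  div_nonneg (by exact_mod_cast h.wall_ok.G_nonneg y) (by exact_mod_cast h.D0_pos.le)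

theorem OK.G_le_U (h : p.OK ρ) (s : ℕ) (w : p.V) (x : (Fin p.n → ℤ) × p.V) :
    ((p.wall ρ).G (-ev w + ev x.2 - del p.u p.v x.1) : ℝ) / p.D0 ≤ p.U ρ s w x := by
  have h1 := baseC_cls_nonneg p (-ev w + ev x.2 - del p.u p.v x.1 - -del p.u p.v p.cF)
  have h2 := sum_nonneg fun e (_ : e ∈ univ) => baseC_cells_nonneg p s x.1 e
  have _ := h.n_pos
  unfold U
  linarith

theorem OK.cell_le_U (h : p.OK ρ) (s : ℕ) (w : p.V) (x : (Fin p.n → ℤ) × p.V) (e : Fin p.n) :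
    (p.z : ℝ) ^ 36 * ((x.1 e : ℝ) - p.c e) ^ 2 / (p.om (p.jj s e) : ℝ) ^ 2 ≤ p.U ρ s w x := by
  have h1 := baseC_cls_nonneg p (-ev w + ev x.2 - del p.u p.v x.1 - -del p.u p.v p.cF)
  have h2 := single_le_sum (fun e (_ : e ∈ univ) => baseC_cells_nonneg p s x.1 e) (mem_univ e)
  have h3 := h.baseC_G_nonneg (-ev w + ev x.2 - del p.u p.v x.1)
  unfold U
  linarith

theorem OK.U_nonneg (h : p.OK ρ) (s : ℕ) (w : p.V) (x : (Fin p.n → ℤ) × p.V) :
    0 ≤ p.U ρ s w x := by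
  exact (h.baseC_G_nonneg _).trans (h.G_le_U s w x)

theorem baseC_abs_tok (w a : p.V) : ∑ b, |(-ev w + ev a : p.V → ℤ) b| ≤ 2 := by
  have h1 : ∀ c : p.V, ∑ b, |(ev c : p.V → ℤ) b| = 1 := fun c => by
    simp [ev, Pi.single_apply, apply_ite abs]
  refine (sum_le_sum fun b _ => abs_add_le ((-ev w : p.V → ℤ) b) (ev a b)).trans ?_
  simp only [Pi.neg_apply, abs_neg]
  rw [sum_add_distrib, h1, h1]
  norm_num

theorem OK.U_c (h : p.OK ρ) (s : ℕ) (w a : p.V) : p.U ρ s w (p.cF, a) ≤ 2 * (p.z : ℝ) ^ 8 := by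
  have hz := h.zR_ge
  have hz0 : (0 : ℝ) < p.z := by linarith
  have hz1 : (1 : ℝ) ≤ p.z := by linarith
  have hD : (0 : ℝ) < p.D0 := by exact_mod_cast h.D0_pos
  have h1 : ((p.wall ρ).G (-ev w + ev a - del p.u p.v p.cF) : ℝ) / p.D0 ≤
      (p.z : ℝ) ^ 4 * ((p.z : ℝ) ^ 4 + 2) := by
    have k1 := h.wall_ok.G_le (x := p.ys) h.cen.inB (-ev w + ev a - del p.u p.v p.cF)
    have k2 : ∑ b, |(-ev w + ev a - del p.u p.v p.cF : p.V → ℤ) b - p.ys b| ≤ p.zZ ^ 4 + 2 := by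
      have k3 := h.y0_near
      have k4 := baseC_abs_tok w a
      refine le_trans (sum_le_sum fun b _ => ?_) ((sum_add_distrib (s := univ)).le.trans
        (add_le_add k3 k4))
      refine le_trans (le_of_eq ?_) (abs_add_le _ _)
      congr 1
      simp only [Pi.sub_apply, Pi.neg_apply]
      ring
    have k5 : (p.wall ρ).G (-ev w + ev a - del p.u p.v p.cF) ≤ p.zZ ^ 4 * (p.zZ ^ 4 + 2) * p.D0 := by
      refine k1.trans ((mul_le_mul_of_nonneg_left k2 h.wall_ok.P_nonneg).trans (le_of_eq ?_))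
      rw [wall_P, PP]; ring
    rw [div_le_iff₀ hD]
    unfold zZ at k5
    exact_mod_cast k5
  have h2 : ∑ k ∈ range (p.L + 1), ∑ r, p.kap k *
      (p.lv.cs k (-ev w + ev a - del p.u p.v p.cF - -del p.u p.v p.cF) r : ℝ) ^ 2 ≤ 4 * p.z := by
    have e : -ev w + ev a - del p.u p.v p.cF - -del p.u p.v p.cF = -ev w + ev a := by abel
    rw [e]
    have k1 : ∀ k r, p.kap k * (p.lv.cs k (-ev w + ev a) r : ℝ) ^ 2 ≤ 4 := fun k r => by
      have k2 : |p.lv.cs k (-ev w + ev a) r| ≤ 2 :=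
        (abs_sum_le_sum_abs _ _).trans ((sum_le_sum_of_subset_of_nonneg (filter_subset _ _)
          fun _ _ _ => abs_nonneg _).trans (baseC_abs_tok w a))
      have k3 : |(p.lv.cs k (-ev w + ev a) r : ℝ)| ≤ 2 := by exact_mod_cast k2
      have k4 : (p.lv.cs k (-ev w + ev a) r : ℝ) ^ 2 ≤ 2 ^ 2 := sq_le_sq' (abs_le.1 k3).1 (abs_le.1 k3).2
      have k5 : p.kap k ≤ 1 := (h.baseC_kap_le k).trans (by
        rw [div_le_one (by positivity)]; exact one_le_pow₀ hz1)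
      have := mul_le_mul k5 k4 (sq_nonneg _) zero_le_one
      linarith
    refine (sum_le_sum fun k _ => sum_le_sum fun r _ => k1 k r).trans ?_
    simp only [sum_const, card_range, card_univ, nsmul_eq_mul]
    have := h.baseC_NL
    push_cast
    linarith
  have h3 : ∑ e : Fin p.n, (p.z : ℝ) ^ 36 * ((p.cF e : ℝ) - p.c e) ^ 2 /
      (p.om (p.jj s e) : ℝ) ^ 2 = 0 := sum_eq_zero fun e _ => by simp [cF]
  have h4 : (p.z : ℝ) ≤ (p.z : ℝ) ^ 4 := le_self_pow₀ hz1 (by norm_num)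
  have h5 : 64 * (p.z : ℝ) ^ 4 ≤ (p.z : ℝ) ^ 4 * (p.z : ℝ) ^ 4 := by nlinarith
  unfold U
  simp only []
  rw [h3]
  nlinarith

theorem OK.Z_lower (h : p.OK ρ) (s : ℕ) (a w : p.V) :
    Real.exp (-(2 * (p.z : ℝ) ^ 8)) ≤ p.Z ρ s a w := by
  rw [Z_eq]
  exact (Real.exp_le_exp.2 (neg_le_neg (h.U_c s w a))).trans
    (single_le_sum (f := fun X => Real.exp (-p.U ρ s w (X, a))) (fun _ _ => (Real.exp_pos _).le)
      (h.c_mem s))

theorem OK.Z_pos (h : p.OK ρ) (s : ℕ) (a w : p.V) : 0 < p.Z ρ s a w :=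
  (Real.exp_pos _).trans_le (h.Z_lower s a w)

theorem OK.tail_le (h : p.OK ρ) (s : ℕ) (a w : p.V) (T : ℝ) (A : Finset (Fin p.n → ℤ))
    (hA : A ⊆ box (p.lo s) (p.hi s)) (hT : ∀ X ∈ A, T ≤ p.U ρ s w (X, a)) :
    ∑ X ∈ A, Real.exp (-p.U ρ s w (X, a)) ≤ 2 ^ p.z ^ 3 * Real.exp (-T) := by
  refine (sum_le_sum fun X hX => Real.exp_le_exp.2 (neg_le_neg (hT X hX))).trans ?_
  rw [sum_const, nsmul_eq_mul]
  refine mul_le_mul_of_nonneg_right ?_ (Real.exp_pos _).le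
  exact_mod_cast (card_le_card hA).trans (h.card_box s)

theorem OK.Z_upper (h : p.OK ρ) (s : ℕ) (a w : p.V) : p.Z ρ s a w ≤ 2 ^ p.z ^ 3 := by
  rw [Z_eq]
  simpa using h.tail_le s a w 0 _ Subset.rfl fun X _ => h.U_nonneg s w (X, a)

theorem OK.Z_zero (h : p.OK ρ) (a w : p.V) :
    p.Z ρ 0 a w = Real.exp (-p.U ρ 0 w (p.cF, a)) := by
  rw [Z_eq, h.box_zero, sum_singleton]

theorem OK.Z_succ (h : p.OK ρ) {s : ℕ} (hs : s < p.S) (a w : p.V) :
    p.Z ρ s a w ≤ p.Z ρ (s + 1) a w ∧ p.Z ρ (s + 1) a w ≤ 9 * p.Z ρ s a w := by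
  classical
  have hz := h.zR_ge
  have e1 : p.Z ρ s a w = ∑ X ∈ box (p.lo (s + 1)) (p.hi (s + 1)),
      Real.exp (-p.U ρ (s + 1) w (X, a)) * p.psi s (X ⟨p.cell s, h.cell_lt hs⟩) := by
    rw [Z, ZG, ← h.SG_succ hs]
    exact sum_congr rfl fun X _ => by simp only [wt_F_eq, mul_one]
  refine ⟨?_, ?_⟩
  · rw [e1, Z_eq]
    exact sum_le_sum fun X _ => mul_le_of_le_one_right (Real.exp_pos _).le (h.psi_mem s _).2
  have h1 := h.tail_le (s + 1) a w ((p.z : ℝ) ^ 9)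
    ((box (p.lo (s + 1)) (p.hi (s + 1))).filter fun X => ¬ p.U ρ (s + 1) w (X, a) ≤ (p.z : ℝ) ^ 9)
    (filter_subset _ _) fun X hX => (not_le.1 (mem_filter.1 hX).2).le
  have h2 : (2 : ℝ) ^ p.z ^ 3 * Real.exp (-(p.z : ℝ) ^ 9) ≤
      Real.exp (-(2 * (p.z : ℝ) ^ 8)) / 2 := by
    have k1 : (2 : ℝ) ≤ Real.exp 1 := by linarith [Real.add_one_le_exp 1]
    have k2 : (2 : ℝ) ^ (p.z ^ 3 + 1) ≤ Real.exp ((p.z ^ 3 + 1 : ℕ) * 1) := by
      rw [Real.exp_nat_mul]; gcongr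
    rw [le_div_iff₀ two_pos, mul_right_comm, ← pow_succ]
    refine (mul_le_mul_of_nonneg_right k2 (Real.exp_pos _).le).trans ?_
    rw [← Real.exp_add]
    refine Real.exp_le_exp.2 ?_
    push_cast
    have hz1 : (1 : ℝ) ≤ p.z := by linarith
    have k3 : (p.z : ℝ) ^ 3 ≤ (p.z : ℝ) ^ 8 := pow_le_pow_right₀ hz1 (by norm_num)
    have k4 : 1 ≤ (p.z : ℝ) ^ 8 := one_le_pow₀ hz1
    have k5 : 64 * (p.z : ℝ) ^ 8 ≤ (p.z : ℝ) ^ 9 := by nlinarith
    linarith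
  have h3 := h.Z_lower (s + 1) a w
  have h4 : ∑ X ∈ (box (p.lo (s + 1)) (p.hi (s + 1))).filter
      (fun X => p.U ρ (s + 1) w (X, a) ≤ (p.z : ℝ) ^ 9), Real.exp (-p.U ρ (s + 1) w (X, a)) ≤
      2 * p.Z ρ s a w := by
    rw [e1, mul_sum]
    refine le_trans (sum_le_sum fun X hX => ?_) (sum_le_sum_of_subset_of_nonneg (filter_subset _ _)
      fun X _ _ => mul_nonneg two_pos.le (mul_nonneg (Real.exp_pos _).le (h.psi_mem s _).1))
    have k1 := h.psi_ge s ((h.cell_le_U (s + 1) w (X, a) ⟨p.cell s, h.cell_lt hs⟩).trans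
      (mem_filter.1 hX).2)
    have k2 := mul_le_mul_of_nonneg_left k1 (Real.exp_pos (-p.U ρ (s + 1) w (X, a))).le
    simp only [] at k2
    linarith
  have h5 := sum_filter_add_sum_filter_not (box (p.lo (s + 1)) (p.hi (s + 1)))
    (fun X => p.U ρ (s + 1) w (X, a) ≤ (p.z : ℝ) ^ 9) fun X => Real.exp (-p.U ρ (s + 1) w (X, a))
  rw [← Z_eq] at h5
  have h6 := h.Z_pos s a w
  linarith

/-- Bounds for the class weights of a crude row. -/
theorem OK.om_Z (h : p.OK ρ) {s : ℕ} {w : p.V} {row : List (ℤ × ℤ)} (hrow : p.Crude ρ s w row)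
    {li : ℤ} (hli : 1 ≤ li) (a : p.V) :
    0 < p.omg w row li a ∧
      1 / (2 * if a = w then (1 : ℝ) else li) ≤ p.omg w row li a * p.Z ρ s a w ∧
      p.omg w row li a * p.Z ρ s a w ≤ 18 / if a = w then (1 : ℝ) else li := by
  obtain ⟨h1, h2, h3, h4⟩ := hrow a
  have hZ := h.Z_pos s a w
  have e : p.omg w row li a = ((row.getD a (1, 1)).2 : ℝ) /
      ((row.getD a (1, 1)).1 * if a = w then (1 : ℝ) else li) := by
    simp only [omg, rd, rn, Fin.ext_iff]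
    push_cast
    rfl
  have hc : (0 : ℝ) < if a = w then (1 : ℝ) else li := by
    split_ifs
    · exact one_pos
    · have : (1 : ℝ) ≤ li := by exact_mod_cast hli
      linarith
  have h1' : (0 : ℝ) < (row.getD a (1, 1)).1 := by exact_mod_cast h1
  have h2' : (0 : ℝ) < (row.getD a (1, 1)).2 := by exact_mod_cast h2
  rw [e]
  generalize (if a = w then (1 : ℝ) else li) = c at hc
  generalize ((row.getD a (1, 1)).1 : ℝ) = x at *
  generalize ((row.getD a (1, 1)).2 : ℝ) = y at *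
  generalize p.Z ρ s a w = Z at *
  rw [div_le_iff₀ h2'] at h3
  rw [← mul_div_assoc, le_div_iff₀ h2'] at h4
  refine ⟨by positivity, ?_, ?_⟩
  · rw [div_mul_eq_mul_div, div_le_div_iff₀ (by positivity) (by positivity)]
    nlinarith
  · rw [div_mul_eq_mul_div, div_le_div_iff₀ (by positivity) (by positivity)]
    nlinarith

/-- The estimates of the stage `i` are crude estimates for the stage `i + 1`. -/
theorem OK.crude (h : p.OK ρ) {s : ℕ} (hs : s ≤ p.S) {H : Hist} (hH : p.Good ρ s H) {i : ℕ}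
    (hi : i ≤ s) (hi' : i < p.S) (w : p.V) : p.Crude ρ (i + 1) w (rowOf H i w) := by
  intro a
  obtain ⟨h1, h2, h3⟩ := hH.2 i hi w a
  obtain ⟨h4, h5⟩ := h.Z_succ hi' a w
  have hZ := h.Z_pos i a w
  have hz := h.zR_ge
  have hz0 : (0 : ℝ) < p.z := by linarith
  have hε : 1 / (p.z : ℝ) ^ 2 + i / (p.z : ℝ) ^ 15 ≤ 1 / 2 := by
    have k1 : (i : ℝ) ≤ (p.z : ℝ) ^ 13 := by exact_mod_cast (hi.trans hs).trans h.S_le
    have k2 : (i : ℝ) / (p.z : ℝ) ^ 15 ≤ 1 / (p.z : ℝ) ^ 2 := by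
      rw [div_le_div_iff₀ (by positivity) (by positivity)]
      calc (i : ℝ) * (p.z : ℝ) ^ 2 ≤ (p.z : ℝ) ^ 13 * (p.z : ℝ) ^ 2 := by gcongr
        _ = _ := by ring
    have k3 : 1 / (p.z : ℝ) ^ 2 ≤ 1 / 4 := one_div_le_one_div_of_le (by norm_num) (by nlinarith)
    linarith
  obtain ⟨h6, h7⟩ := abs_le.1 (h3.trans (mul_le_mul_of_nonneg_right hε hZ.le))
  exact ⟨h1, h2, by linarith, by linarith⟩

end Crest.Agent.R302.Pre
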