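import Crest.Agent.R302.Par

/-!
# Row 302: the weights of one cell

`f (x-1) f (x+1) = exp (-2 λ) f x ²`, `λ = z^36 / om²`; on a thin cell `om ≤ z^105`, so `λ ≥ z^-174` and `exp (-λ) ≤ 1 - z^-175`.
`psi = exp (-δ (x - c)²)` on the old box, `δ = z^36 (1/om j ² - 1/om (j+1) ²)`, `z^26 / (3 om j ²) ≤ δ ≤ 3 z^26 / om (j+1) ²` (`om_succ`).
`psi_lip`: the new range is `≤ 3 om (j+1) / z^11` (it is not a point); inside the old box `|Δ psi| ≤ δ * range`, product `≤ 27 z^4`.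
At the two ends of the old box: if `om j ≥ 2 z^11` then `hb j ≥ om j / (2 z^11)`, `psi ≤ exp (-z^4 / 12) ≤ 2^-(z³)` and the range is
`≤ 2^(3z+2)`; otherwise the range is `≤ 9`.  `psi_ge`: `|x - c| ≤ om (j+1) / z^13 ≤ om j / z^11`, `δ (x-c)² ≤ 3 / z`.
-/

set_option autoImplicit false

namespace Crest.Agent.R302.Pre

open Finset Crest.Agent.R309 Crest.Agent.Lib.PolyTime

variable {p : Pre} {ρ : Finset p.V → ℤ}

theorem fR_pos (p : Pre) (j e : ℕ) (x : ℤ) : 0 < p.fR j e x := Real.exp_pos _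

theorem cell_fR_mul (p : Pre) (j e : ℕ) (x : ℤ) :
    p.fR j e (x - 1) * p.fR j e (x + 1) =
      Real.exp (-((p.z : ℝ) ^ 36 / (p.om j : ℝ) ^ 2)) ^ 2 * p.fR j e x ^ 2 := by
  simp only [fR, ← Real.exp_add, ← Real.exp_nat_mul]
  congr 1
  push_cast
  ring

/-- the exponent of `psi` -/
noncomputable def cellD (p : Pre) (j : ℕ) : ℝ :=
  (p.z : ℝ) ^ 36 / (p.om j : ℝ) ^ 2 - (p.z : ℝ) ^ 36 / (p.om (j + 1) : ℝ) ^ 2

theorem cell_ratio (p : Pre) (j e : ℕ) (x : ℤ) :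
    p.fR j e x / p.fR (j + 1) e x = Real.exp (-(p.cellD j * ((x : ℝ) - p.c e) ^ 2)) := by
  simp only [fR, ← Real.exp_sub, cellD]
  congr 1
  ring

theorem OK.cell_om (h : p.OK ρ) (j : ℕ) : (0 : ℝ) < p.om j ∧
    (p.z : ℝ) ^ 10 * p.om (j + 1) ≤ ((p.z : ℝ) ^ 10 + 1) * p.om j ∧
      (2 * (p.z : ℝ) ^ 10 + 1) * p.om j ≤ 2 * (p.z : ℝ) ^ 10 * p.om (j + 1) := by
  obtain ⟨h1, h2⟩ := h.om_succ j
  unfold zZ at h1 h2
  exact ⟨by exact_mod_cast h.om_pos j, by exact_mod_cast h1, by exact_mod_cast h2⟩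

theorem cell_delta {k a b : ℝ} (hk : 1 ≤ k) (ha : 0 < a) (h1 : k * b ≤ (k + 1) * a)
    (h2 : (2 * k + 1) * a ≤ 2 * k * b) :
    a ≤ b ∧ b ≤ 2 * a ∧ 1 / (3 * k * a ^ 2) ≤ 1 / a ^ 2 - 1 / b ^ 2 ∧
      1 / a ^ 2 - 1 / b ^ 2 ≤ 3 / (k * b ^ 2) := by
  have hab : a ≤ b := by nlinarith
  have hb : 0 < b := by linarith
  have hb2 : b ≤ 2 * a := by nlinarith
  refine ⟨hab, hb2, ?_, ?_⟩
  · rw [div_sub_div _ _ (by positivity) (by positivity), div_le_div_iff₀ (by positivity) (by positivity)]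
    have h3 : a ≤ 2 * k * (b - a) := by linarith
    have h4 : b ^ 2 ≤ 3 * k * (b ^ 2 - a ^ 2) := by
      have h5 : b ≤ (2 * k + 1) * (b - a) := by linarith
      have h6 : (2 * k + 1) * (b - a) ≤ 3 * k * (b - a) :=
        mul_le_mul_of_nonneg_right (by linarith) (by linarith)
      have h7 : b * b ≤ 3 * k * (b - a) * (b + a) :=
        mul_le_mul (by linarith) (by linarith) hb.le (by nlinarith)
      nlinarith
    nlinarith [mul_le_mul_of_nonneg_left h4 (sq_nonneg a)]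
  · rw [div_sub_div _ _ (by positivity) (by positivity), div_le_div_iff₀ (by positivity) (by positivity)]
    have h3 : k * (b - a) ≤ a := by linarith
    have h4 : k * (b ^ 2 - a ^ 2) ≤ 3 * a ^ 2 := by
      have h7 : k * (b - a) * (b + a) ≤ a * (3 * a) :=
        mul_le_mul h3 (by linarith) (by linarith) ha.le
      nlinarith
    nlinarith [mul_le_mul_of_nonneg_left h4 (sq_nonneg b)]

theorem OK.cellD_bd (h : p.OK ρ) (j : ℕ) :
    (p.om j : ℝ) ≤ p.om (j + 1) ∧ (p.om (j + 1) : ℝ) ≤ 2 * p.om j ∧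
      (p.z : ℝ) ^ 26 / (3 * (p.om j : ℝ) ^ 2) ≤ p.cellD j ∧
      p.cellD j ≤ 3 * (p.z : ℝ) ^ 26 / (p.om (j + 1) : ℝ) ^ 2 := by
  have hz := h.zR_ge
  obtain ⟨h0, h1, h2⟩ := h.cell_om j
  obtain ⟨h3, h4, h5, h6⟩ := cell_delta (one_le_pow₀ (by linarith)) h0 h1 h2
  have hb : (0 : ℝ) < p.om (j + 1) := by linarith
  have hz' : (0 : ℝ) < (p.z : ℝ) ^ 36 := by positivity
  have e : p.cellD j = (p.z : ℝ) ^ 36 * (1 / (p.om j : ℝ) ^ 2 - 1 / (p.om (j + 1) : ℝ) ^ 2) := by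
    unfold cellD; ring
  refine ⟨h3, h4, ?_, ?_⟩
  · rw [e]
    refine le_trans (le_of_eq ?_) (mul_le_mul_of_nonneg_left h5 hz'.le)
    field_simp
  · rw [e]
    refine (mul_le_mul_of_nonneg_left h6 hz'.le).trans (le_of_eq ?_)
    field_simp

theorem OK.cellD_nonneg (h : p.OK ρ) (j : ℕ) : 0 ≤ p.cellD j :=
  le_trans (by positivity) (h.cellD_bd j).2.2.1

theorem OK.cell_hb (h : p.OK ρ) (j : ℕ) :
    (p.hb j : ℝ) * (p.z : ℝ) ^ 11 ≤ p.om j ∧ (p.om j : ℝ) < (p.hb j + 1) * (p.z : ℝ) ^ 11 := by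
  have h0 : 0 < p.zZ ^ 11 := pow_pos (by linarith [h.zZ_ge]) _
  have h1 : p.hb j * p.zZ ^ 11 ≤ p.om j := Int.ediv_mul_le _ h0.ne'
  have h2 : p.om j < (p.hb j + 1) * p.zZ ^ 11 := Int.lt_ediv_add_one_mul_self _ h0
  unfold zZ at h1 h2
  exact ⟨by exact_mod_cast h1, by exact_mod_cast h2⟩

theorem cell_exp_lip {s t : ℝ} (hs : 0 ≤ s) (ht : 0 ≤ t) :
    |Real.exp (-s) - Real.exp (-t)| ≤ |s - t| := by
  wlog hst : s ≤ t generalizing s t
  · rw [abs_sub_comm, abs_sub_comm s]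
    exact this ht hs (le_of_not_ge hst)
  have h1 : Real.exp (-t) ≤ Real.exp (-s) := Real.exp_le_exp.2 (by linarith)
  have h2 : Real.exp (-s) ≤ 1 := Real.exp_le_one_iff.2 (by linarith)
  have h3 : Real.exp (-t) = Real.exp (-s) * Real.exp (s - t) := by
    rw [← Real.exp_add]; congr 1; ring
  have h4 := Real.add_one_le_exp (s - t)
  have h5 := Real.exp_pos (-s)
  rw [abs_of_nonneg (by linarith), abs_of_nonpos (by linarith), h3]
  nlinarith

theorem cell_psi (p : Pre) (s : ℕ) (x : ℤ) : p.psi s x =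
    if |x - p.c (p.cell s)| ≤ p.hb (p.jj s (p.cell s)) then
      Real.exp (-(p.cellD (p.jj s (p.cell s)) * ((x : ℝ) - p.c (p.cell s)) ^ 2)) else 0 := by
  unfold psi loN hiN
  rw [cell_ratio]
  refine if_congr ?_ rfl rfl
  rw [abs_le]
  constructor <;> rintro ⟨h1, h2⟩ <;> constructor <;> linarith

/-- the two ends of the old box -/
theorem OK.cell_end (h : p.OK ρ) {j : ℕ} (hj : j < p.J) :
    ((2 * p.hb (j + 1) + 1 : ℤ) : ℝ) * Real.exp (-(p.cellD j * (p.hb j : ℝ) ^ 2)) ≤ (p.z : ℝ) ^ 5 := by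
  have hz := h.zR_ge
  obtain ⟨h1, h2, h3, -⟩ := h.cellD_bd j
  have h0 := (h.cell_om j).1
  have hz5 : (64 : ℝ) ≤ (p.z : ℝ) ^ 5 := hz.trans (le_self_pow₀ (by linarith) (by norm_num))
  have hz11 : (0 : ℝ) < (p.z : ℝ) ^ 11 := by positivity
  have hH : (0 : ℝ) ≤ p.hb (j + 1) := by exact_mod_cast h.hb_nonneg _
  push_cast
  rcases le_or_gt (2 * (p.z : ℝ) ^ 11) (p.om j : ℝ) with ha | ha
  · have h4 := (h.cell_hb j).2
    have h5 : (p.om j : ℝ) / (2 * (p.z : ℝ) ^ 11) ≤ p.hb j := by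
      rw [div_le_iff₀ (by positivity)]; nlinarith
    have h6 : (p.z : ℝ) ^ 4 / 12 ≤ p.cellD j * (p.hb j : ℝ) ^ 2 := by
      refine le_trans (le_of_eq ?_) (mul_le_mul h3 (pow_le_pow_left₀ (by positivity) h5 2)
        (by positivity) (h.cellD_nonneg j))
      field_simp
      norm_num
    have h7 : (p.hb (j + 1) : ℝ) ≤ Real.exp (3 * p.z) := by
      have h8 : (p.hb (j + 1) : ℝ) ≤ 2 ^ (3 * p.z) := by exact_mod_cast h.hb_le hj
      refine h8.trans ?_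
      rw [show (3 * p.z : ℝ) = ((3 * p.z : ℕ) : ℝ) * 1 by push_cast; ring, Real.exp_nat_mul]
      exact pow_le_pow_left₀ (by norm_num) (by linarith [Real.add_one_le_exp 1]) _
    have h8 : 1 ≤ Real.exp (3 * p.z) := Real.one_le_exp (by positivity)
    have h9 : Real.exp (3 * p.z) * Real.exp (-(p.cellD j * (p.hb j : ℝ) ^ 2)) ≤ 1 := by
      rw [← Real.exp_add, Real.exp_le_one_iff]
      have h10 : (36 : ℝ) ≤ (p.z : ℝ) ^ 3 :=
        (by linarith : (36 : ℝ) ≤ p.z).trans (le_self_pow₀ (by linarith) (by norm_num))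
      nlinarith
    have h10 := Real.exp_pos (-(p.cellD j * (p.hb j : ℝ) ^ 2))
    nlinarith
  · have h4 := (h.cell_hb (j + 1)).1
    have h5 : (p.hb (j + 1) : ℝ) ≤ 4 := le_of_mul_le_mul_right (by linarith) hz11
    have h6 : Real.exp (-(p.cellD j * (p.hb j : ℝ) ^ 2)) ≤ 1 :=
      Real.exp_le_one_iff.2 (neg_nonpos.2 (mul_nonneg (h.cellD_nonneg j) (sq_nonneg _)))
    have h10 := Real.exp_pos (-(p.cellD j * (p.hb j : ℝ) ^ 2))
    nlinarith

theorem OK.lc (h : p.OK ρ) (s : ℕ) :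
    LC (p.lo s) (p.hi s) (p.f s) (fun e => p.thick s e = false) (1 / (p.z : ℝ) ^ 175) := by
  have hz := h.zR_ge
  refine ⟨fun e x _ _ => fR_pos _ _ _ _, fun e x _ _ => ?_, fun e he x _ _ => ?_⟩
  · unfold f
    rw [cell_fR_mul]
    refine mul_le_of_le_one_left (sq_nonneg _) (pow_le_one₀ (Real.exp_pos _).le ?_)
    exact Real.exp_le_one_iff.2 (neg_nonpos.2 (by positivity))
  · unfold f
    rw [cell_fR_mul]
    refine mul_le_mul_of_nonneg_right (pow_le_pow_left₀ (Real.exp_pos _).le ?_ 2) (sq_nonneg _)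
    have h1 : p.om (p.jj s e) ≤ p.zZ ^ 105 := by
      simp only [thick, decide_eq_false_iff_not, not_le, thr, sc, e.2, if_true] at he
      omega
    have h2 : (p.om (p.jj s e) : ℝ) ≤ (p.z : ℝ) ^ 105 := by
      unfold zZ at h1; exact_mod_cast h1
    have h0 := (h.cell_om (p.jj s e)).1
    obtain ⟨κ, hκ⟩ : ∃ κ : ℝ, κ = 1 / (p.z : ℝ) ^ 175 := ⟨_, rfl⟩
    obtain ⟨l, hl⟩ : ∃ l : ℝ, l = (p.z : ℝ) ^ 36 / (p.om (p.jj s e) : ℝ) ^ 2 := ⟨_, rfl⟩
    have h3 : p.z * κ ≤ l := by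
      rw [hκ, hl]
      refine le_trans (le_of_eq ?_) (div_le_div_of_nonneg_left (by positivity) (by positivity)
        (pow_le_pow_left₀ h0.le h2 2))
      field_simp
    have h4 : 0 < κ := by rw [hκ]; positivity
    have h5 : p.z * κ ≤ 1 := by
      rw [hκ, mul_one_div, div_le_one (by positivity)]
      exact le_self_pow₀ (by linarith) (by norm_num)
    have h6 : κ ≤ 1 := by nlinarith
    rw [← hκ, ← hl, Real.exp_neg, inv_le_iff_one_le_mul₀ (Real.exp_pos _)]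
    have h7 := Real.add_one_le_exp l
    have h8 : (1 - κ) * (p.z * κ + 1) ≤ (1 - κ) * Real.exp l :=
      mul_le_mul_of_nonneg_left (by linarith) (by linarith)
    nlinarith

theorem OK.psi_mem (h : p.OK ρ) (s : ℕ) (x : ℤ) : 0 ≤ p.psi s x ∧ p.psi s x ≤ 1 := by
  rw [cell_psi]
  split_ifs
  · exact ⟨(Real.exp_pos _).le,
      Real.exp_le_one_iff.2 (neg_nonpos.2 (mul_nonneg (h.cellD_nonneg _) (sq_nonneg _)))⟩
  · exact ⟨le_rfl, zero_le_one⟩

theorem OK.psi_lip (h : p.OK ρ) (s : ℕ) {x : ℤ} (h1 : p.loN (s + 1) (p.cell s) ≤ x)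
    (h2 : x < p.hiN (s + 1) (p.cell s)) :
    ((p.hiN (s + 1) (p.cell s) - p.loN (s + 1) (p.cell s) + 1 : ℤ) : ℝ) *
      |p.psi s (x + 1) - p.psi s x| ≤ (p.z : ℝ) ^ 5 := by
  have hz := h.zR_ge
  obtain ⟨hj, hj', -⟩ := h.jj_succ s
  unfold loN hiN at *
  rw [hj'] at h1 h2 ⊢
  rw [cell_psi, cell_psi]
  generalize p.jj s (p.cell s) = j at *
  generalize p.c (p.cell s) = c at *
  rw [show c + p.hb (j + 1) - (c - p.hb (j + 1)) + 1 = 2 * p.hb (j + 1) + 1 by ring]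
  have hend := h.cell_end hj
  have h0 := h.hb_nonneg j
  split_ifs with ha hb hb
  · have h3 := (h.cellD_bd j).2.2.2
    have h4 := (h.cell_hb (j + 1)).1
    have hD := h.cellD_nonneg j
    have hb0 := (h.cell_om (j + 1)).1
    have h5 : (1 : ℝ) ≤ p.hb (j + 1) := by exact_mod_cast (by omega : 1 ≤ p.hb (j + 1))
    have h6 : |2 * ((x : ℝ) - c) + 1| ≤ 3 * p.hb (j + 1) := by
      have : |2 * (x - c) + 1| ≤ 3 * p.hb (j + 1) := by rw [abs_le]; constructor <;> omega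
      exact_mod_cast this
    have h7 := cell_exp_lip (mul_nonneg hD (sq_nonneg (((x + 1 : ℤ) : ℝ) - c)))
      (mul_nonneg hD (sq_nonneg ((x : ℝ) - c)))
    have h8 : |p.cellD j * (((x + 1 : ℤ) : ℝ) - c) ^ 2 - p.cellD j * ((x : ℝ) - c) ^ 2| ≤
        p.cellD j * (3 * p.hb (j + 1)) := by
      rw [show p.cellD j * (((x + 1 : ℤ) : ℝ) - c) ^ 2 - p.cellD j * ((x : ℝ) - c) ^ 2 =
        p.cellD j * (2 * ((x : ℝ) - c) + 1) by push_cast; ring, abs_mul, abs_of_nonneg hD]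
      exact mul_le_mul_of_nonneg_left h6 hD
    have h9 : (p.hb (j + 1) : ℝ) ≤ p.om (j + 1) / (p.z : ℝ) ^ 11 := by
      rw [le_div_iff₀ (by positivity)]; exact h4
    calc _ ≤ (3 * p.hb (j + 1) : ℝ) * (p.cellD j * (3 * p.hb (j + 1))) :=
          mul_le_mul (by push_cast; linarith) (h7.trans h8) (abs_nonneg _) (by linarith)
      _ = 9 * (p.cellD j * (p.hb (j + 1) : ℝ) ^ 2) := by ring
      _ ≤ 9 * (3 * (p.z : ℝ) ^ 26 / (p.om (j + 1) : ℝ) ^ 2 *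
            (p.om (j + 1) / (p.z : ℝ) ^ 11) ^ 2) := by
          gcongr
      _ = 27 * (p.z : ℝ) ^ 4 := by field_simp; norm_num
      _ ≤ p.z * (p.z : ℝ) ^ 4 := by gcongr; linarith
      _ = _ := by ring
  · have e : (((x + 1 : ℤ) : ℝ) - c) ^ 2 = (p.hb j : ℝ) ^ 2 := by
      have : x + 1 - c = -p.hb j := by rw [abs_le] at ha hb; omega
      have : (((x + 1 : ℤ) : ℝ) - c) = -p.hb j := by exact_mod_cast this
      rw [this, neg_sq]
    rwa [sub_zero, abs_of_pos (Real.exp_pos _), e]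
  · have e : ((x : ℝ) - c) ^ 2 = (p.hb j : ℝ) ^ 2 := by
      have : x - c = p.hb j := by rw [abs_le] at ha hb; omega
      have : ((x : ℝ) - c) = p.hb j := by exact_mod_cast this
      rw [this]
    rwa [zero_sub, abs_neg, abs_of_pos (Real.exp_pos _), e]
  · simp only [sub_zero, abs_zero, mul_zero]
    positivity

theorem OK.psi_ge (h : p.OK ρ) (s : ℕ) {x : ℤ}
    (hx : (p.z : ℝ) ^ 36 * ((x : ℝ) - p.c (p.cell s)) ^ 2 /
      (p.om (p.jj (s + 1) (p.cell s)) : ℝ) ^ 2 ≤ (p.z : ℝ) ^ 9) : 1 / 2 ≤ p.psi s x := by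
  have hz := h.zR_ge
  obtain ⟨-, hj', -⟩ := h.jj_succ s
  rw [hj'] at hx
  rw [cell_psi]
  generalize p.jj s (p.cell s) = j at *
  generalize p.c (p.cell s) = c at *
  obtain ⟨-, h2, -, h3⟩ := h.cellD_bd j
  have hb0 := (h.cell_om (j + 1)).1
  have ha0 := (h.cell_om j).1
  rw [div_le_iff₀ (by positivity)] at hx
  have hx' : (p.z : ℝ) ^ 27 * ((x : ℝ) - c) ^ 2 ≤ (p.om (j + 1) : ℝ) ^ 2 :=
    le_of_mul_le_mul_left (a := (p.z : ℝ) ^ 9) (by linarith) (by positivity)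
  have h4 : |x - c| ≤ p.hb j := by
    have h0 : 0 < p.zZ ^ 11 := pow_pos (by linarith [h.zZ_ge]) _
    refine (Int.le_ediv_iff_mul_le h0).2 ?_
    have h5 : (|(x : ℝ) - c| * (p.z : ℝ) ^ 11) ^ 2 ≤ (p.om j : ℝ) ^ 2 := by
      rw [mul_pow, sq_abs]
      have h6 : (4 : ℝ) ≤ (p.z : ℝ) ^ 5 :=
        (by linarith : (4 : ℝ) ≤ p.z).trans (le_self_pow₀ (by linarith) (by norm_num))
      have h7 : 4 * (((x : ℝ) - c) ^ 2 * ((p.z : ℝ) ^ 11) ^ 2) ≤
          (p.z : ℝ) ^ 5 * (((x : ℝ) - c) ^ 2 * ((p.z : ℝ) ^ 11) ^ 2) :=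
        mul_le_mul_of_nonneg_right h6 (by positivity)
      have h8 : (p.om (j + 1) : ℝ) ^ 2 ≤ (2 * p.om j) ^ 2 := pow_le_pow_left₀ hb0.le h2 2
      nlinarith
    have h6 := (pow_le_pow_iff_left₀ (by positivity) ha0.le two_ne_zero).1 h5
    unfold zZ
    exact_mod_cast h6
  rw [if_pos h4]
  have h5 : p.cellD j * ((x : ℝ) - c) ^ 2 ≤ 3 / p.z := by
    have h6 : ((x : ℝ) - c) ^ 2 ≤ (p.om (j + 1) : ℝ) ^ 2 / (p.z : ℝ) ^ 27 := by
      rw [le_div_iff₀ (by positivity)]; linarith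
    refine (mul_le_mul h3 h6 (sq_nonneg _) (by positivity)).trans (le_of_eq ?_)
    field_simp
  have h6 : 3 / (p.z : ℝ) ≤ 1 / 2 := by
    rw [div_le_div_iff₀ (by linarith) (by norm_num)]; linarith
  linarith [Real.add_one_le_exp (-(p.cellD j * ((x : ℝ) - c) ^ 2))]

/-- The stage `s` is the tilt of the stage `s + 1` by `psi`. -/
theorem OK.SG_succ (h : p.OK ρ) {s : ℕ} (hs : s < p.S) (F : (p.V → ℤ) → ℝ) (β : p.V → ℤ)
    (G : (Fin p.n → ℤ) → ℝ) :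
    SG p.u p.v (p.lo (s + 1)) (p.hi (s + 1)) (p.f (s + 1)) F β
        (fun X => p.psi s (X ⟨p.cell s, h.cell_lt hs⟩) * G X) =
      SG p.u p.v (p.lo s) (p.hi s) (p.f s) F β G := by
  obtain ⟨-, hj', hne⟩ := h.jj_succ s
  have hne' : ∀ e : Fin p.n, e ≠ ⟨p.cell s, h.cell_lt hs⟩ → p.jj (s + 1) e = p.jj s e :=
    fun e he => hne e fun h' => he (Fin.ext h')
  have hmono : ∀ e : Fin p.n, p.hb (p.jj s e) ≤ p.hb (p.jj (s + 1) e) := fun e => by
    refine Int.ediv_le_ediv (pow_pos (by linarith [h.zZ_ge]) _) (h.om_mono ?_)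
    unfold jj
    omega
  unfold SG
  symm
  refine sum_subset_zero_on_sdiff (fun X hX => ?_) (fun X hX => ?_) fun X hX => ?_
  · rw [mem_box] at hX ⊢
    intro e
    have h1 := hX e
    have h2 := hmono e
    simp only [lo, hi, loN, hiN] at h1 ⊢
    omega
  · rw [mem_sdiff, mem_box, mem_box] at hX
    have : p.psi s (X ⟨p.cell s, h.cell_lt hs⟩) = 0 := by
      refine if_neg fun h' => hX.2 fun e => ?_
      by_cases he : e = ⟨p.cell s, h.cell_lt hs⟩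
      · subst he; exact h'
      · have h1 := hX.1 e
        simp only [lo, hi, loN, hiN, hne' e he] at h1 ⊢
        exact h1
    simp only [this, zero_mul, mul_zero]
  · have h1 : p.psi s (X ⟨p.cell s, h.cell_lt hs⟩) =
        p.f s ⟨p.cell s, h.cell_lt hs⟩ (X ⟨p.cell s, h.cell_lt hs⟩) /
          p.f (s + 1) ⟨p.cell s, h.cell_lt hs⟩ (X ⟨p.cell s, h.cell_lt hs⟩) := by
      unfold f
      rw [hj']
      exact if_pos (mem_box.1 hX ⟨p.cell s, h.cell_lt hs⟩)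
    have h2 : wt (p.f s) X = wt (p.f (s + 1)) X * p.psi s (X ⟨p.cell s, h.cell_lt hs⟩) := by
      unfold wt
      rw [h1, ← mul_prod_erase _ _ (mem_univ ⟨p.cell s, h.cell_lt hs⟩),
        ← mul_prod_erase _ _ (mem_univ ⟨p.cell s, h.cell_lt hs⟩),
        prod_congr rfl fun e he => show p.f (s + 1) e (X e) = p.f s e (X e) by
          unfold f; rw [hne' e (ne_of_mem_erase he)]]
      have : p.f (s + 1) ⟨p.cell s, h.cell_lt hs⟩ (X ⟨p.cell s, h.cell_lt hs⟩) ≠ 0 :=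
        (fR_pos _ _ _ _).ne'
      field_simp
    rw [h2]
    ring

end Crest.Agent.R302.Pre
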