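import Crest.Agent.R302.Gale

/-!
# Row 302: the abstract steps of the computation of a centre

* `Flow ρ y γ m ψ`: `ψ ≥ 0` lives on arcs of capacity `≥ γ` and has total mass `≤ m`.  A set `S` entered by an arc of `ψ` has slack
  `≥ γ`; otherwise `bd ψ S ≤ 0` (`sm_bd`).  This gives `Flow.inB` and `Flow.cap`.
* `near_exists`: `Ψ = ∑ |push y|`, `θ z ^ 4 ≤ Ψ`.  With `φ` from `gale` for `(x, y)`, `push (bd φ) = - push y`.  If no `e ∈ W` has
  `push y e ≤ -θ`, then `∑ e ∈ W, push y e ≥ Ψ / 2 - 2 (card E) θ` (the positive parts add up to `Ψ / 2` as `∑ push y = 0`), while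
  `∑ e ∈ W, push y e = - sm (bd φ) (π ⁻¹ W) ≤` flow leaving `W` `≤ N ² θ z` (an arc leaving `W` has `φ < θ z`).
* `centre_of_chain`: by downward induction `InB (Y k)`, `push (Y k) = push (Y L)`; for `j ≤ k`,
  `|sm (Y j - Y k) S| ≤ 2 z ^ (74 + 5 k)` (`abs_sm_bd_le`).  An arc with `1 ≤ ψ a b` on level `k` has capacity `≥ z ^ (76 + 5 k)` in both
  directions at `Y k` (`Flow.cap`), hence `≥ z ^ (75 + 5 k)` at `Y 0`: its ends are in the same class.  `range`: `gale` for `(x, Y (k+1))`;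
  an arc joining two different classes has flow `< z ^ (80 + 5 k)` or is bounded by `flow_le_of_closed`.  On level `L` use
  `InB.abs_le`.
-/

set_option autoImplicit false

namespace Crest.Agent.R302

open Finset Crest.Agent.R309

variable {V E : Type} [Fintype V] [DecidableEq V] [Fintype E] [DecidableEq E]

theorem InB.abs_le {ρ : Finset V → ℤ} {y : V → ℤ} (hy : InB ρ y) {B : ℤ} (hB : ∀ S, |ρ S| ≤ B)
    (S : Finset V) : |sm y S| ≤ B := by
  have h1 := hy.1 S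
  have h2 := hy.1 Sᶜ
  have h3 : sm y S + sm y Sᶜ = sm y univ := sum_add_sum_compl S y
  have h4 := hy.2
  have h5 := (le_abs_self _).trans (hB S)
  have h6 := (le_abs_self _).trans (hB Sᶜ)
  rw [_root_.abs_le]
  constructor <;> linarith

omit [Fintype V] [DecidableEq V] in
theorem Cap.mono {ρ : Finset V → ℤ} {y : V → ℤ} {a b : V} {γ γ' : ℤ} (h : Cap ρ y a b γ)
    (hγ : γ' ≤ γ) : Cap ρ y a b γ' := fun S h1 h2 => hγ.trans (h S h1 h2)

omit [Fintype V] [DecidableEq V] in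
theorem Cap.trans {ρ : Finset V → ℤ} {y : V → ℤ} {a b c : V} {γ : ℤ} (h : Cap ρ y a b γ)
    (h' : Cap ρ y b c γ) : Cap ρ y a c γ := fun S h1 h2 => by
  by_cases hb : b ∈ S
  · exact h S h1 hb
  · exact h' S hb h2

omit [Fintype V] [DecidableEq V] in
theorem Cap.refl (ρ : Finset V → ℤ) (y : V → ℤ) (a : V) (γ : ℤ) : Cap ρ y a a γ :=
  fun _ h1 h2 => absurd h2 h1

/-- A flow of mass at most `m` on the arcs of capacity at least `γ`. -/
structure Flow (ρ : Finset V → ℤ) (y : V → ℤ) (γ m : ℤ) (ψ : V → V → ℤ) : Prop where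
  nonneg : ∀ a b, 0 ≤ ψ a b
  supp : ∀ a b, ψ a b ≠ 0 → Cap ρ y a b γ
  mass : ∑ a, ∑ b, ψ a b ≤ m

theorem cA_dich {ρ : Finset V → ℤ} {y : V → ℤ} {γ m : ℤ} {ψ : V → V → ℤ} (h : Flow ρ y γ m ψ)
    (S : Finset V) : γ ≤ ρ S - sm y S ∨
      (sm (bd ψ) S ≤ 0 ∧ ∀ a b, a ∈ S → b ∉ S → sm (bd ψ) S ≤ -ψ a b) := by
  by_cases h1 : γ ≤ ρ S - sm y S
  · exact .inl h1
  have h2 : ∀ a b, ψ a b * ((if b ∈ S then 1 else 0) - if a ∈ S then 1 else 0) ≤ 0 := by
    intro a b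
    have h3 := h.nonneg a b
    by_cases ha : a ∈ S <;> by_cases hb : b ∈ S <;> simp [ha, hb, h3]
    by_contra h4
    exact h1 (h.supp a b (fun e => h4 e.le) S ha hb)
  refine .inr ⟨?_, fun a b ha hb => ?_⟩
  · rw [sm_bd]
    exact sum_nonpos fun a _ => sum_nonpos fun b _ => h2 a b
  · rw [sm_bd, ← add_sum_erase _ _ (mem_univ a), ← add_sum_erase _ _ (mem_univ b), if_pos ha,
      if_neg hb]
    have h3 := sum_nonpos fun b' (_ : b' ∈ univ.erase b) => h2 a b'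
    have h4 := sum_nonpos fun a' (_ : a' ∈ univ.erase a) =>
      sum_nonpos fun b' (_ : b' ∈ univ) => h2 a' b'
    rw [if_pos ha] at h3
    linarith

theorem cA_mass {ρ : Finset V → ℤ} {y : V → ℤ} {γ m θ : ℤ} {ψ : V → V → ℤ} (h : Flow ρ y γ m ψ)
    (hθ : 0 ≤ θ) (S : Finset V) : θ * sm (bd ψ) S ≤ θ * m :=
  mul_le_mul_of_nonneg_left ((le_abs_self _).trans ((abs_sm_bd_le h.nonneg S).trans h.mass)) hθ

theorem Flow.inB {ρ : Finset V → ℤ} {y : V → ℤ} {γ m θ : ℤ} {ψ : V → V → ℤ} (h : Flow ρ y γ m ψ)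
    (hy : InB ρ y) (hθ : 0 ≤ θ) (hm : θ * m ≤ γ) : InB ρ (y + θ • bd ψ) := by
  refine ⟨fun S => ?_, by rw [sm_add, sm_smul, hy.2, sm_bd_univ, mul_zero, add_zero]⟩
  rw [sm_add, sm_smul]
  rcases cA_dich h S with h1 | ⟨h1, -⟩
  · linarith [cA_mass h hθ S]
  · linarith [mul_nonpos_of_nonneg_of_nonpos hθ h1, hy.1 S]

theorem Flow.cap {ρ : Finset V → ℤ} {y : V → ℤ} {γ m θ : ℤ} {ψ : V → V → ℤ} (h : Flow ρ y γ m ψ)
    (hy : InB ρ y) (hθ : 0 ≤ θ) (hm : θ * (m + 1) ≤ γ) {a b : V} (hab : 1 ≤ ψ a b) :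
    Cap ρ (y + θ • bd ψ) a b θ ∧ Cap ρ (y + θ • bd ψ) b a θ := by
  refine ⟨fun S h1 h2 => ?_, fun S h1 h2 => ?_⟩ <;> rw [sm_add, sm_smul]
  · linarith [cA_mass h hθ S, h.supp a b (by omega) S h1 h2]
  · rcases cA_dich h S with h3 | ⟨-, h3⟩
    · linarith [cA_mass h hθ S]
    · have h4 : θ * sm (bd ψ) S ≤ θ * (-1) :=
        mul_le_mul_of_nonneg_left (by linarith [h3 a b h2 h1]) hθ
      linarith [hy.1 S]

theorem near_exists {ρ : Finset V → ℤ} (h : Nrm ρ) (π : V → E) {z θ : ℤ} (hz : 64 ≤ z)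
    (hV : 2 * (Fintype.card V : ℤ) ≤ z) (hE : (Fintype.card E : ℤ) ≤ z) {x y : V → ℤ}
    (hx : InK ρ π x) (hy : InB ρ y) (hθ : 1 ≤ θ) (hΨ : θ * z ^ 4 ≤ ∑ e, |push π y e|)
    (W : Finset E) (hW1 : ∀ e, θ ≤ push π y e → e ∈ W)
    (hW2 : ∀ a b, Cap ρ y a b (θ * z) → π a ∈ W → π b ∈ W) : ∃ e ∈ W, push π y e ≤ -θ := by
  by_contra hcon
  push Not at hcon
  obtain ⟨φ, hφ, hxφ⟩ := gale h hx.1 hy
  change x - y = bd φ at hxφ
  have h0 : ∑ e, push π y e = 0 := by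
    rw [sum_push, filter_true_of_mem fun a _ => mem_univ _, hy.2]
  have h1 : ∑ e, (|push π y e| + push π y e) ≤
      ∑ e, (2 * (if e ∈ W then push π y e else 0) + 2 * θ) := by
    refine sum_le_sum fun e _ => ?_
    have k1 := hW1 e
    have k2 := hcon e
    rcases abs_cases (push π y e) with ⟨k, -⟩ | ⟨k, k'⟩ <;> by_cases he : e ∈ W <;>
      simp only [he, if_true, if_false, imp_false, forall_true_left, not_le] at k1 k2 ⊢ <;> omega
  rw [sum_add_distrib, sum_add_distrib, h0, ← mul_sum, ← sum_filter, filter_mem_eq_inter,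
    univ_inter, sum_const, card_univ, nsmul_eq_mul] at h1
  have h2 : ∑ e ∈ W, push π y e = -sm (bd φ) (univ.filter fun a => π a ∈ W) := by
    rw [← hxφ, sm_sub, ← sum_push, ← sum_push, sum_eq_zero fun e _ => hx.2 e]
    ring
  have hθz : 0 ≤ θ * z := by positivity
  have h3 : -sm (bd φ) (univ.filter fun a => π a ∈ W) ≤ (Fintype.card V : ℤ) ^ 2 * (θ * z) := by
    rw [sm_bd, ← sum_neg_distrib]
    calc _ ≤ ∑ _a : V, ∑ _b : V, θ * z := by
          refine sum_le_sum fun a _ => ?_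
          rw [← sum_neg_distrib]
          refine sum_le_sum fun b _ => ?_
          have k1 := (hφ a b).1
          by_cases ha : π a ∈ W <;> by_cases hb : π b ∈ W <;> simp [ha, hb, hθz]
          · by_contra hn
            exact hb (hW2 a b ((hφ a b).2.mono (not_le.1 hn).le) ha)
          · linarith
      _ = _ := by simp [sq, mul_assoc]
  have hN : (0 : ℤ) ≤ Fintype.card V := Int.natCast_nonneg _
  have h4 : 4 * (Fintype.card V : ℤ) ^ 2 ≤ z ^ 2 := by nlinarith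
  have h5 := mul_le_mul_of_nonneg_right h4 hθz
  have h6 := mul_le_mul_of_nonneg_right hE (by linarith : 0 ≤ 2 * θ)
  have h7 : 0 < θ * z := by positivity
  have h8 : z ^ 2 + 4 < 2 * z ^ 3 := by nlinarith
  have h9 := mul_lt_mul_of_pos_left h8 h7
  nlinarith

theorem near_step (π : V → E) {θ : ℤ} (hθ : 1 ≤ θ) {y d : V → ℤ} {s e : E} (hs : θ ≤ push π y s)
    (he : push π y e ≤ -θ)
    (hd : ∀ e', push π d e' = (if e' = e then 1 else 0) - if e' = s then 1 else 0) :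
    ∑ e', |push π (y + θ • d) e'| = ∑ e', |push π y e'| - 2 * θ := by
  have hne : e ≠ s := fun h => by rw [h] at he; omega
  have h1 : ∀ e', |push π (y + θ • d) e'| =
      |push π y e'| - θ * ((if e' = e then 1 else 0) + if e' = s then 1 else 0) := fun e' => by
    rw [push_add, push_smul, hd]
    by_cases k1 : e' = e
    · subst k1
      rw [if_pos rfl, if_neg hne, abs_of_nonpos (by linarith), abs_of_nonpos (by linarith)]
      ring
    · by_cases k2 : e' = s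
      · subst k2
        rw [if_neg k1, if_pos rfl, abs_of_nonneg (by linarith), abs_of_nonneg (by linarith)]
        ring
      · simp [k1, k2]
  simp only [h1]
  rw [sum_sub_distrib, ← mul_sum, sum_add_distrib]
  simp only [sum_ite_eq', mem_univ, if_true]
  ring

/-- One level: push along all cyclic arcs. -/
def LvStep (ρ : Finset V → ℤ) (π : V → E) (z : ℤ) (k : ℕ) (y y' : V → ℤ) : Prop :=
  ∃ ψ : V → V → ℤ, Flow ρ y (z ^ (80 + 5 * k)) (z ^ 3) ψ ∧ (∀ e, push π (bd ψ) e = 0) ∧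
    y' = y + z ^ (76 + 5 * k) • bd ψ ∧
    ∀ a b, Cap ρ y a b (z ^ (80 + 5 * k)) → 1 ≤ ψ a b ∨
      ∃ W : Finset E, π b ∈ W ∧ π a ∉ W ∧
        ∀ a' b', Cap ρ y a' b' (z ^ (80 + 5 * k)) → π a' ∈ W → π b' ∈ W

theorem LvStep.inB {ρ : Finset V → ℤ} {π : V → E} {z : ℤ} (hz : 64 ≤ z) {k : ℕ} {y y' : V → ℤ}
    (h : LvStep ρ π z k y y') (hy : InB ρ y) : InB ρ y' := by
  obtain ⟨ψ, hψ, -, rfl, -⟩ := h
  refine hψ.inB hy (by positivity) ?_
  rw [← pow_add]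
  exact pow_le_pow_right₀ (by omega) (by omega)

theorem cAb_down {P : ℕ → Prop} {L : ℕ} (hL : P L) (h : ∀ k < L, P (k + 1) → P k) :
    ∀ k ≤ L, P k := fun k hk => by
  induction hk using Nat.decreasingInduction with
  | self => exact hL
  | of_succ k hk ih => exact h k hk ih

theorem cAb_diff {ρ : Finset V → ℤ} {π : V → E} {z : ℤ} (hz : 64 ≤ z) {L : ℕ} {Y : ℕ → V → ℤ}
    (hstep : ∀ k < L, LvStep ρ π z k (Y (k + 1)) (Y k)) (S : Finset V) :
    ∀ k ≤ L, |sm (Y 0) S - sm (Y k) S| ≤ 2 * z ^ (74 + 5 * k) := by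
  intro k hk
  induction k with
  | zero => rw [sub_self, abs_zero]; positivity
  | succ k ih =>
    obtain ⟨ψ, hψ, -, he, -⟩ := hstep k hk
    have h1 := ih (by omega)
    have h2 := (abs_sm_bd_le hψ.nonneg S).trans hψ.mass
    have h0 : 0 < z ^ (74 + 5 * k) := by positivity
    have h3 : |sm (Y k) S - sm (Y (k + 1)) S| ≤ z ^ (74 + 5 * (k + 1)) := by
      rw [he, sm_add, sm_smul, add_sub_cancel_left, abs_mul, abs_of_nonneg (by positivity)]
      calc z ^ (76 + 5 * k) * |sm (bd ψ) S| ≤ z ^ (76 + 5 * k) * z ^ 3 := by gcongr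
        _ = z ^ (74 + 5 * (k + 1)) := by ring
    have h4 : 2 * z ^ (74 + 5 * k) ≤ z ^ (74 + 5 * (k + 1)) := by
      have : 2 ≤ z ^ 5 := le_trans (by omega) (le_self_pow₀ (show 1 ≤ z by omega) (by norm_num))
      calc 2 * z ^ (74 + 5 * k) ≤ z ^ 5 * z ^ (74 + 5 * k) := by gcongr
        _ = z ^ (74 + 5 * (k + 1)) := by ring
    have h5 := abs_sub_le (sm (Y 0) S) (sm (Y k) S) (sm (Y (k + 1)) S)
    linarith

theorem cAb_cap {ρ : Finset V → ℤ} {z : ℤ} (hz : 64 ≤ z) {k : ℕ} {y y' : V → ℤ}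
    (hd : ∀ S, |sm y S - sm y' S| ≤ 2 * z ^ (74 + 5 * k)) {a b : V}
    (h : Cap ρ y' a b (z ^ (76 + 5 * k))) : Cap ρ y a b (z ^ (75 + 5 * k)) := fun S h1 h2 => by
  have h3 := h S h1 h2
  have h4 := (abs_le.1 (hd S)).2
  have h0 : 0 < z ^ (74 + 5 * k) := by positivity
  have e1 : z ^ (76 + 5 * k) = z * z * z ^ (74 + 5 * k) := by ring
  have e2 : z ^ (75 + 5 * k) = z * z ^ (74 + 5 * k) := by ring
  have h5 : (z + 2) * z ^ (74 + 5 * k) ≤ z * z * z ^ (74 + 5 * k) := by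
    gcongr
    nlinarith
  rw [e1] at h3
  rw [e2]
  linarith

theorem cAb_sm_bd {φ : V → V → ℤ} (h : ∀ a b, 0 ≤ φ a b) (S : Finset V) {β : ℤ} (hβ : 0 ≤ β)
    (hS : ∀ a b, ¬ (a ∈ S ↔ b ∈ S) → φ a b ≤ β) :
    |sm (bd φ) S| ≤ (Fintype.card V : ℤ) ^ 2 * β := by
  rw [sm_bd]
  calc _ ≤ ∑ _a : V, ∑ _b : V, β := by
        refine (abs_sum_le_sum_abs _ _).trans (sum_le_sum fun a _ => ?_)
        refine (abs_sum_le_sum_abs _ _).trans (sum_le_sum fun b _ => ?_)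
        have h1 := h a b
        have h2 := hS a b
        by_cases ha : a ∈ S <;> by_cases hb : b ∈ S <;>
          simp_all [abs_of_nonneg h1]
    _ = _ := by simp [sq, mul_assoc]

theorem centre_of_chain {ρ : Finset V → ℤ} (h : Nrm ρ) (π : V → E) {z : ℤ} (hz : 64 ≤ z)
    (hV : (Fintype.card V : ℤ) ≤ z) (lv : Lv V) (hρ : ∀ S, |ρ S| ≤ 2 ^ lv.L) (Y : ℕ → V → ℤ)
    (hB : InB ρ (Y lv.L)) (hnear : ∑ e, |push π (Y lv.L) e| ≤ z ^ 4)
    (hstep : ∀ k < lv.L, LvStep ρ π z k (Y (k + 1)) (Y k)) (htop : ∀ a, lv.cls lv.L a = a)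
    (hidem : ∀ k < lv.L, ∀ a, lv.cls k (lv.cls k a) = lv.cls k a)
    (hcls : ∀ k < lv.L, ∀ a b, lv.cls k a = lv.cls k b ↔
      Cap ρ (Y 0) a b (z ^ (75 + 5 * k)) ∧ Cap ρ (Y 0) b a (z ^ (75 + 5 * k))) :
    Centre ρ π lv z (Y 0) := by
  have hz1 : 1 ≤ z := by omega
  have hIn : ∀ k ≤ lv.L, InB ρ (Y k) :=
    cAb_down (P := fun k => InB ρ (Y k)) hB fun k hk ih => (hstep k hk).inB hz ih
  have hpush : ∀ k ≤ lv.L, ∀ e, push π (Y k) e = push π (Y lv.L) e :=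
    cAb_down (P := fun k => ∀ e, push π (Y k) e = push π (Y lv.L) e) (fun _ => rfl)
      fun k hk ih e => by
        obtain ⟨ψ, -, h1, he, -⟩ := hstep k hk
        rw [he, push_add, push_smul, h1, mul_zero, add_zero, ih]
  refine ⟨⟨htop, fun k hk a => ?_, fun k hk a b hab => ?_⟩, hIn 0 (Nat.zero_le _), ?_,
    fun k hk a b hab => ((hcls k hk a b).1 hab).1, fun x hx k hk r => ?_⟩
  · rcases hk.lt_or_eq with hk | rfl
    · exact hidem k hk a
    · exact htop _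
  · rcases (Nat.succ_le_of_lt hk).lt_or_eq with hk' | hk'
    · obtain ⟨h1, h2⟩ := (hcls _ hk' a b).1 hab
      have h3 : z ^ (75 + 5 * k) ≤ z ^ (75 + 5 * (k + 1)) := pow_le_pow_right₀ hz1 (by omega)
      exact (hcls k hk a b).2 ⟨h1.mono h3, h2.mono h3⟩
    · rw [show k + 1 = lv.L from hk', htop, htop] at hab
      rw [hab]
  · simpa only [hpush 0 (Nat.zero_le _)] using hnear
  change |sm (x - Y 0) (univ.filter fun a => lv.cls k a = r)| ≤ _
  set S := univ.filter fun a => lv.cls k a = r with hS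
  rw [sm_sub]
  rcases hk.lt_or_eq with hk | rfl
  swap
  · have h1 := hx.1.abs_le hρ S
    have h2 := (hIn 0 (Nat.zero_le _)).abs_le hρ S
    have h3 := abs_sub (sm x S) (sm (Y 0) S)
    have h4 : (2 : ℤ) ^ (lv.L + 1) ≤ z ^ (85 + 5 * lv.L) :=
      (pow_le_pow_left₀ (by norm_num) (by omega) _).trans (pow_le_pow_right₀ hz1 (by omega))
    rw [pow_succ] at h4
    linarith
  obtain ⟨φ, hφ, hxφ⟩ := gale h hx.1 (hIn (k + 1) hk)
  change x - Y (k + 1) = bd φ at hxφ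
  obtain ⟨ψ, hψ, -, he, harc⟩ := hstep k hk
  have hg : 0 < z ^ (79 + 5 * k) := by positivity
  have hN : (Fintype.card V : ℤ) ^ 2 ≤ z ^ 2 := by gcongr
  have hpφ : ∑ e, |push π (bd φ) e| ≤ z ^ 4 := by
    simpa only [← hxφ, push_sub, hx.2, zero_sub, abs_neg, hpush (k + 1) hk] using hnear
  have hb : ∀ a b, ¬ (a ∈ S ↔ b ∈ S) → φ a b ≤ 2 * z ^ (82 + 5 * k) := fun a b hab => by
    have h0 : 0 < z ^ (82 + 5 * k) := by positivity
    by_cases hlt : φ a b ≤ z ^ (80 + 5 * k)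
    · have : z ^ (80 + 5 * k) ≤ z ^ (82 + 5 * k) := pow_le_pow_right₀ hz1 (by omega)
      linarith
    rcases harc a b ((hφ a b).2.mono (not_le.1 hlt).le) with h1 | ⟨W, hWb, hWa, hW⟩
    · exfalso
      have h2 : z ^ (76 + 5 * k) * (z ^ 3 + 1) ≤ z ^ (80 + 5 * k) := by
        have h3 : z ^ 3 + 1 ≤ z ^ 4 := by
          have : 1 ≤ z ^ 3 := one_le_pow₀ hz1
          calc z ^ 3 + 1 ≤ 2 * z ^ 3 := by linarith
            _ ≤ z * z ^ 3 := by gcongr; omega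
            _ = z ^ 4 := by ring
        calc z ^ (76 + 5 * k) * (z ^ 3 + 1) ≤ z ^ (76 + 5 * k) * z ^ 4 := by gcongr
          _ = z ^ (80 + 5 * k) := by ring
      obtain ⟨c1, c2⟩ := hψ.cap (hIn (k + 1) hk) (by positivity) h2 h1
      rw [← he] at c1 c2
      have hd := fun T => cAb_diff hz hstep T k hk.le
      have h4 := (hcls k hk a b).2 ⟨cAb_cap hz hd c1, cAb_cap hz hd c2⟩
      exact hab (by simp only [hS, mem_filter, mem_univ, true_and, h4])
    · have h2 := flow_le_of_closed π (fun a b => (hφ a b).1) (g := z ^ (80 + 5 * k))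
        (by positivity) W (fun a' b' ha' hb' => by
          by_contra hn
          exact hb' (hW a' b' ((hφ a' b').2.mono (not_le.1 hn).le) ha')) hWa hWb
      have h3 : (Fintype.card V : ℤ) ^ 2 * z ^ (80 + 5 * k) ≤ z ^ (82 + 5 * k) :=
        calc _ ≤ z ^ 2 * z ^ (80 + 5 * k) := by gcongr
          _ = _ := by ring
      have h4 : z ^ 4 ≤ z ^ (82 + 5 * k) := pow_le_pow_right₀ hz1 (by omega)
      linarith
  have h1 := cAb_sm_bd (fun a b => (hφ a b).1) S (by positivity) hb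
  rw [← hxφ, sm_sub] at h1
  have h2 := cAb_diff hz hstep S (k + 1) hk
  have h3 := abs_sub_le (sm x S) (sm (Y (k + 1)) S) (sm (Y 0) S)
  rw [abs_sub_comm (sm (Y (k + 1)) S)] at h3
  have h4 : (Fintype.card V : ℤ) ^ 2 * (2 * z ^ (82 + 5 * k)) ≤ 2 * z ^ (84 + 5 * k) :=
    calc _ ≤ z ^ 2 * (2 * z ^ (82 + 5 * k)) := by gcongr
      _ = _ := by ring
  have h5 : z ^ (74 + 5 * (k + 1)) ≤ z ^ (84 + 5 * k) := pow_le_pow_right₀ hz1 (by omega)
  have h6 : 4 * z ^ (84 + 5 * k) ≤ z ^ (85 + 5 * k) :=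
    calc _ ≤ z * z ^ (84 + 5 * k) := by gcongr; omega
      _ = _ := by ring
  linarith

end Crest.Agent.R302
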