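import Crest.Agent.R302.CenD
import Crest.Agent.R302.CenA

/-!
# Row 302: the list routines of the centre: search, capacities, representatives

* `bfs_ok`: invariants of `(bstep n A)^[j] (st, [])`: flags only grow, every flagged node has a walk of mass `≤ j` (extend by the
  arc `q ∈ bcand`, i.e. add `Pi.single q.1 (Pi.single q.2 1)`).  If a round changes no flag `< n`, the flagged set is closed under the arcs and
  later rounds change no flag.  The number of flagged nodes is at most `n`, and if it is `0` the first round changes nothing; so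
  one of the first `n` rounds (or the empty ground set) is stable.
* `adj_arcT`: `S ↦ ρ (fix S) - y (fix S)` with `fix S = insert b (S.erase a)` is submodular and bounded by `2 ^ z`.
* `repL_spec`: for an equivalence relation the head of the filtered range is the least member of the class.
-/

set_option autoImplicit false

namespace Crest.Agent.R302

open Finset Crest.Agent.R309

namespace Cen

theorem piL_eq {n : ℕ} (a : Fin (n + n)) : piL n a = (piN n a : ℕ) := by
  refine Fin.addCases (fun i => ?_) (fun i => ?_) a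
  · rw [piN, Fin.addCases_left]; simp [piL]
  · rw [piN, Fin.addCases_right]; simp [piL]

theorem pushL_eq {n : ℕ} (y : List ℤ) (e : Fin n) :
    pushL n y e = push (piN n) (vecL (n + n) y) e := by
  rw [push, sum_filter, Fin.sum_univ_add]
  simp only [piN, Fin.addCases_left, Fin.addCases_right, id, sum_ite_eq', mem_univ, if_true]
  rfl

/-- Specification of the search. -/
structure BfsOK (n : ℕ) (H : Fin (n + n) → Fin (n + n) → Prop) (St : Fin n → Prop) (r : BSt) :
    Prop where
  start : ∀ e, St e → flag r e = true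
  closed : ∀ a b, H a b → flag r (piN n a) = true → flag r (piN n b) = true
  walk : ∀ e : Fin n, flag r e = true → ∃ ψ : Fin (n + n) → Fin (n + n) → ℤ,
    (∀ a b, 0 ≤ ψ a b) ∧ (∀ a b, ψ a b ≠ 0 → H a b) ∧ ∑ a, ∑ b, ψ a b ≤ n ∧
      (∀ i : Fin (n + n), eff r e i = bd ψ i) ∧
      ∃ s, St s ∧ ∀ e', push (piN n) (bd ψ) e' = (if e' = e then 1 else 0) - if e' = s then 1 else 0

theorem cB_mem_bcand {n : ℕ} {A : List (List Bool)} {s : BSt} {e : Fin n} {q : ℕ × ℕ} :
    q ∈ bcand n A s e ↔ ∃ a b : Fin (n + n), q = ((a : ℕ), (b : ℕ)) ∧ adj A a b = true ∧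
      flag s (piN n a) = true ∧ piN n b = e := by
  obtain ⟨a, b⟩ := q
  simp only [bcand, pairsL, List.mem_filter, List.mem_flatMap, List.mem_map, List.mem_range,
    Bool.and_eq_true, decide_eq_true_eq, Prod.mk.injEq]
  constructor
  · rintro ⟨⟨_, ha, _, hb, rfl, rfl⟩, ⟨h1, h2⟩, h3⟩
    exact ⟨⟨_, ha⟩, ⟨_, hb⟩, ⟨rfl, rfl⟩, h1, by rw [← piL_eq]; exact h2,
      Fin.ext (by rw [← piL_eq]; exact h3)⟩
  · rintro ⟨a, b, ⟨rfl, rfl⟩, h1, h2, h3⟩
    exact ⟨⟨a, a.2, b, b.2, rfl, rfl⟩, ⟨h1, by rw [piL_eq]; exact h2⟩, by rw [piL_eq, h3]⟩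

theorem cB_flag_bstep' {n : ℕ} (A : List (List Bool)) (s : BSt) (e : Fin n) :
    flag (bstep n A s) e = true ↔ flag s e = true ∨ bcand n A s e ≠ [] := by
  have : flag (bstep n A s) e = (flag s e || !(bcand n A s e).isEmpty) := getD_tab _ _ e.2
  simp [this]

theorem cB_flag_bstep {n : ℕ} (A : List (List Bool)) (s : BSt) (e : Fin n) :
    flag (bstep n A s) e = true ↔ flag s e = true ∨ ∃ a b : Fin (n + n), adj A a b = true ∧
      flag s (piN n a) = true ∧ piN n b = e := by
  rw [cB_flag_bstep']
  refine or_congr Iff.rfl ⟨fun h => ?_, fun ⟨a, b, h⟩ => ?_⟩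
  · obtain ⟨q, hq⟩ := List.exists_mem_of_ne_nil _ h
    obtain ⟨a, b, -, h⟩ := cB_mem_bcand.1 hq
    exact ⟨a, b, h⟩
  · exact List.ne_nil_of_mem (cB_mem_bcand.2 ⟨a, b, rfl, h⟩)

theorem cB_eff_bstep {n : ℕ} (A : List (List Bool)) (s : BSt) (e : Fin n) (i : Fin (n + n)) :
    eff (bstep n A s) e i =
      if flag s e = true then eff s e i else ext n s ((bcand n A s e).headD (0, 0)) i := by
  unfold eff bstep
  simp only
  rw [getD_tab _ _ e.2, getD_tab _ _ i.2]
  rfl

theorem cB_bd_single {V : Type} [Fintype V] [DecidableEq V] (a b : V) :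
    bd (Pi.single a (Pi.single b 1) : V → V → ℤ) = ev b - ev a := by
  unfold bd
  rw [sum_eq_single a (fun c _ hc => by simp [hc]) (by simp),
    sum_eq_single b (fun c _ hc => by simp [hc]) (by simp)]
  simp

theorem cB_walk (n : ℕ) (A : List (List Bool)) (st : List Bool) (j : ℕ) (e : Fin n)
    (he : flag ((bstep n A)^[j] (st, [])) e = true) : ∃ ψ : Fin (n + n) → Fin (n + n) → ℤ,
    (∀ a b, 0 ≤ ψ a b) ∧ (∀ a b, ψ a b ≠ 0 → adj A a b = true) ∧ ∑ a, ∑ b, ψ a b ≤ j ∧
      (∀ i : Fin (n + n), eff ((bstep n A)^[j] (st, [])) e i = bd ψ i) ∧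
      ∃ s : Fin n, st.getD s false = true ∧ ∀ e', push (piN n) (bd ψ) e' =
        (if e' = e then 1 else 0) - if e' = s then 1 else 0 := by
  induction j generalizing e with
  | zero =>
    exact ⟨0, fun _ _ => le_rfl, fun _ _ h => absurd rfl h, by simp, fun i => by simp [eff, bd],
      e, he, fun e' => by simp [bd, push]⟩
  | succ j ih =>
    rw [Function.iterate_succ_apply'] at he ⊢
    set s := (bstep n A)^[j] (st, [])
    by_cases hf : flag s e = true
    · obtain ⟨ψ, h1, h2, h3, h4, h5⟩ := ih e hf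
      exact ⟨ψ, h1, h2, h3.trans (by simp), fun i => by rw [cB_eff_bstep, if_pos hf, h4], h5⟩
    · have hne := ((cB_flag_bstep' A s e).1 he).resolve_left hf
      have hq : (bcand n A s e).headD (0, 0) ∈ bcand n A s e := by
        obtain ⟨q, l, hl⟩ := List.exists_cons_of_ne_nil hne
        rw [hl]; simp
      obtain ⟨a, b, hab, h6, h7, h8⟩ := cB_mem_bcand.1 hq
      obtain ⟨ψ, h1, h2, h3, h4, s₀, h5, h9⟩ := ih _ h7
      have hs : ∀ c d : Fin (n + n), (Pi.single a (Pi.single b 1) : Fin (n + n) → Fin (n + n) → ℤ) c d =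
          if c = a ∧ d = b then 1 else 0 := fun c d => by
        by_cases hc : c = a <;> by_cases hd : d = b <;> simp [hc, hd]
      refine ⟨ψ + Pi.single a (Pi.single b 1), fun c d => ?_, fun c d h => ?_, ?_, fun i => ?_,
        s₀, h5, fun e' => ?_⟩
      · rw [Pi.add_apply, Pi.add_apply, hs]
        have := h1 c d
        split_ifs <;> omega
      · rw [Pi.add_apply, Pi.add_apply, hs] at h
        split_ifs at h with hcd
        · rw [hcd.1, hcd.2]; exact h6
        · exact h2 c d (by simpa using h)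
      · simp only [Pi.add_apply, sum_add_distrib, hs, ite_and]
        simp only [sum_ite_irrel, sum_ite_eq', mem_univ, if_true, sum_const_zero]
        push_cast
        omega
      · rw [cB_eff_bstep, if_neg hf, hab, bd_add, cB_bd_single, ext, piL_eq, h4]
        simp only [Pi.add_apply, Pi.sub_apply, ev, Pi.single_apply, Fin.val_inj]
        ring
      · rw [bd_add, cB_bd_single, push_add, push_sub, push_ev, push_ev, h9, h8]
        simp only [eq_comm (a := e')]
        ring

theorem cB_closed (n : ℕ) (A : List (List Bool)) (st : List Bool) (j : ℕ) :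
    (∀ a b : Fin (n + n), adj A a b = true → flag ((bstep n A)^[j] (st, [])) (piN n a) = true →
      flag ((bstep n A)^[j] (st, [])) (piN n b) = true) ∨
      j + 1 ≤ (univ.filter fun e : Fin n => flag ((bstep n A)^[j] (st, [])) e = true).card := by
  induction j with
  | zero =>
    by_contra! h
    obtain ⟨⟨a, b, -, ha, -⟩, h⟩ := h
    exact h.not_ge (card_pos.2 ⟨piN n a, mem_filter.2 ⟨mem_univ _, ha⟩⟩)
  | succ j ih =>
    rw [Function.iterate_succ_apply']
    set s := (bstep n A)^[j] (st, [])
    by_cases hc : ∀ a b : Fin (n + n), adj A a b = true → flag s (piN n a) = true →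
      flag s (piN n b) = true
    · refine Or.inl fun a b hab ha => (cB_flag_bstep A s _).2 (Or.inl (hc a b hab ?_))
      rcases (cB_flag_bstep A s _).1 ha with h | ⟨c, d, h1, h2, h3⟩
      · exact h
      · rw [← h3]; exact hc c d h1 h2
    · refine Or.inr ((Nat.succ_le_succ (ih.resolve_left hc)).trans (card_lt_card ?_))
      push Not at hc
      obtain ⟨a, b, hab, ha, hb⟩ := hc
      refine (ssubset_iff_of_subset fun e he => mem_filter.2 ⟨mem_univ _,
        (cB_flag_bstep A s e).2 (Or.inl (mem_filter.1 he).2)⟩).2 ⟨piN n b, mem_filter.2 ⟨mem_univ _,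
        (cB_flag_bstep A s _).2 (Or.inr ⟨a, b, hab, ha, rfl⟩)⟩, fun h => hb (mem_filter.1 h).2⟩

theorem bfs_ok (n : ℕ) (A : List (List Bool)) (st : List Bool) :
    BfsOK n (fun a b => adj A a b = true) (fun e => st.getD e false = true) (bfs n A st) := by
  refine ⟨fun e he => ?_, fun a b hab ha => ?_, fun e he => cB_walk n A st n e he⟩
  · have : ∀ j, flag ((bstep n A)^[j] (st, [])) e = true := fun j => by
      induction j with
      | zero => exact he
      | succ j ih => rw [Function.iterate_succ_apply']; exact (cB_flag_bstep A _ e).2 (Or.inl ih)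
    exact this n
  · rcases cB_closed n A st n with h | h
    · exact h a b hab ha
    · exact absurd (h.trans (card_le_univ _)) (by simp)

theorem cBb_slackL {f : List Bool → ℤ} {N : ℕ} {ρ : Finset (Fin N) → ℤ} (hf : Rep N f ρ)
    (y : List ℤ) (l : List Bool) :
    slackL f N y l = ρ (toS N l) - sm (vecL N y) (toS N l) := by
  unfold slackL sm toS
  rw [hf l, tab_eq_ofFn, List.sum_ofFn, sum_filter]
  rfl

theorem cBb_fix {N : ℕ} (a b : Fin N) (l : List Bool) :
    toS N (fix N a b l) = insert b ((toS N l).erase a) := by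
  ext i
  simp only [toS, fix, mem_filter, mem_univ, true_and, getD_tab _ _ i.2, mem_insert, mem_erase,
    Fin.ext_iff, ne_eq]
  split_ifs with h1 h2
  · simp [h1]
  · exact ⟨nofun, fun h => h.elim (fun h => absurd h h1) fun h => absurd h2 h.1⟩
  · simp [h1, h2]

theorem adj_arcT {sfm : (List Bool → ℤ) → ℕ → ℕ → List Bool} (hs : SfmOK sfm) {f : List Bool → ℤ}
    {N z : ℕ} {ρ : Finset (Fin N) → ℤ} (hf : Rep N f ρ) (hρ : Submod ρ) {y : List ℤ}
    (hb : ∀ S, |ρ S - sm (vecL N y) S| ≤ 2 ^ z) (γ : ℤ) (a b : Fin N) :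
    adj (arcT sfm f N z y γ) a b = true ↔ Cap ρ (vecL N y) a b γ := by
  have h0 : adj (arcT sfm f N z y γ) a b = capB sfm f N z y γ a b := by
    unfold adj arcT
    rw [getD_tab _ _ a.2, getD_tab _ _ b.2]
  rw [h0]
  unfold capB
  by_cases hab : a = b
  · subst hab
    simp only [decide_true, Bool.true_or, true_iff]
    exact fun S h1 h2 => absurd h2 h1
  have hab' : (a : ℕ) ≠ b := fun e => hab (Fin.ext e)
  set F : Finset (Fin N) → ℤ := fun S =>
    ρ (insert b (S.erase a)) - sm (vecL N y) (insert b (S.erase a)) with hF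
  have hrep : Rep N (fun l => slackL f N y (fix N a b l)) F := fun l => by
    simp only [hF, cBb_slackL hf, cBb_fix]
  have hsub : Submod F := fun A B => by
    have h1 := hρ (insert b (A.erase a)) (insert b (B.erase a))
    have h2 := sm_union_inter (vecL N y) (insert b (A.erase a)) (insert b (B.erase a))
    have e1 : insert b (A.erase a) ∪ insert b (B.erase a) = insert b ((A ∪ B).erase a) := by
      ext i; simp only [mem_union, mem_insert, mem_erase]; tauto
    have e2 : insert b (A.erase a) ∩ insert b (B.erase a) = insert b ((A ∩ B).erase a) := by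
      ext i; simp only [mem_inter, mem_insert, mem_erase]; tauto
    rw [e1, e2] at h1 h2
    simp only [hF]
    linarith
  have hmin := hs _ N z F hrep hsub fun S => hb _
  have he := hrep (sfm (fun l => slackL f N y (fix N a b l)) N z)
  simp only [hab', decide_false, Bool.false_or, decide_eq_true_eq] at he ⊢
  rw [he]
  refine ⟨fun h S h1 h2 => (h.trans (hmin S)).trans (le_of_eq ?_), fun h => h _ ?_ ?_⟩
  · simp only [hF, erase_eq_of_notMem h1, insert_eq_of_mem h2]
  · simp [hab]
  · simp

theorem vecL_start {f : List Bool → ℤ} {N : ℕ} {ρ : Finset (Fin N) → ℤ} (hf : Rep N f ρ) :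
    vecL N (start f N) = gre ρ fun a => ((a : ℕ) : ℤ) := by
  funext a
  unfold vecL start gre
  rw [getD_tab _ _ a.2, hf, hf]
  congr 2 <;> ext b <;> simp [toS, tab]

theorem repL_spec {N : ℕ} (A : List (List Bool)) (hr : ∀ a : Fin N, adj A a a = true)
    (ht : ∀ a b c : Fin N, adj A a b = true → adj A b c = true → adj A a c = true) :
    (∀ a < N, (repL N A).getD a 0 < N) ∧
      (∀ a < N, (repL N A).getD ((repL N A).getD a 0) 0 = (repL N A).getD a 0) ∧
      ∀ a b : Fin N, (repL N A).getD a 0 = (repL N A).getD b 0 ↔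
        adj A a b = true ∧ adj A b a = true := by
  have h0 : ∀ a < N, (repL N A).getD a 0 =
      ((List.range N).filter fun b => adj A a b && adj A b a).headD 0 := fun a ha =>
    getD_tab _ _ ha
  have h1 : ∀ a < N, (repL N A).getD a 0 < N ∧ adj A a ((repL N A).getD a 0) = true ∧
      adj A ((repL N A).getD a 0) a = true := fun a ha => by
    have h2 : a ∈ (List.range N).filter fun b => adj A a b && adj A b a := by
      simp [ha, hr ⟨a, ha⟩]
    have h3 : ((List.range N).filter fun b => adj A a b && adj A b a).headD 0 ∈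
        (List.range N).filter fun b => adj A a b && adj A b a := by
      generalize ((List.range N).filter fun b => adj A a b && adj A b a) = l at h2
      cases l with
      | nil => cases h2
      | cons x l => exact List.mem_cons_self
    rw [← h0 a ha] at h3
    simpa using h3
  have h2 : ∀ a b : Fin N, adj A a b = true → adj A b a = true →
      (repL N A).getD a 0 = (repL N A).getD b 0 := fun a b hab hba => by
    rw [h0 a a.2, h0 b b.2]
    congr 1
    refine List.filter_congr fun c hc => ?_
    have hc' : c < N := List.mem_range.1 hc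
    rw [Bool.eq_iff_iff, Bool.and_eq_true, Bool.and_eq_true]
    exact ⟨fun h => ⟨ht b a ⟨c, hc'⟩ hba h.1, ht ⟨c, hc'⟩ a b h.2 hab⟩,
      fun h => ⟨ht a b ⟨c, hc'⟩ hab h.1, ht ⟨c, hc'⟩ b a h.2 hba⟩⟩
  refine ⟨fun a ha => (h1 a ha).1, fun a ha => ?_, fun a b => ⟨fun h => ?_, fun h => h2 a b h.1 h.2⟩⟩
  · obtain ⟨k1, k2, k3⟩ := h1 a ha
    exact h2 ⟨_, k1⟩ ⟨a, ha⟩ k3 k2
  · obtain ⟨k1, k2, k3⟩ := h1 a a.2
    obtain ⟨-, k5, k6⟩ := h1 b b.2
    rw [← h] at k5 k6
    exact ⟨ht a ⟨_, k1⟩ b k2 k6, ht b ⟨_, k1⟩ a k5 k3⟩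

end Cen

end Crest.Agent.R302
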