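import Crest.Agent.R302.EvalD

/-!
# Row 302: the routine computing a centre (definitions and running time, complete)

`c = (n, L, z)`, `N = n + n`.  `arcT` is the table of the pairs `(a, b)` with `Cap ρ y a b γ`; `bfs` explores the digraph
projected to the ground set and stores the boundary of a walk to every node it reaches.
-/

set_option autoImplicit false

namespace Crest.Agent.R302

open Finset Crest.Agent.Lib.PolyTime Crest.Agent.R309

namespace Cen

/-! ### Breadth first search -/

def piL (n a : ℕ) : ℕ := if a < n then a else a - n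
def adj (A : List (List Bool)) (a b : ℕ) : Bool := (A.getD a []).getD b false
/-- flags of the reached nodes, and boundaries of walks -/
abbrev BSt : Type := List Bool × List (List ℤ)
def flag (s : BSt) (e : ℕ) : Bool := s.1.getD e false
def eff (s : BSt) (e i : ℕ) : ℤ := (s.2.getD e []).getD i 0
def pairsL (N : ℕ) : List (ℕ × ℕ) := (List.range N).flatMap fun a => (List.range N).map fun b => (a, b)
def bcand (n : ℕ) (A : List (List Bool)) (s : BSt) (e : ℕ) : List (ℕ × ℕ) :=
  (pairsL (n + n)).filter fun q => adj A q.1 q.2 && flag s (piL n q.1) && decide (piL n q.2 = e)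
/-- the walk to `piL n q.1` followed by the arc `q` -/
def ext (n : ℕ) (s : BSt) (q : ℕ × ℕ) (i : ℕ) : ℤ :=
  eff s (piL n q.1) i + (if i = q.2 then 1 else 0) - (if i = q.1 then 1 else 0)
def bstep (n : ℕ) (A : List (List Bool)) (s : BSt) : BSt :=
  (tab n fun e => flag s e || !(bcand n A s e).isEmpty,
    tab n fun e => tab (n + n) fun i =>
      if flag s e = true then eff s e i else ext n s ((bcand n A s e).headD (0, 0)) i)
def bfs (n : ℕ) (A : List (List Bool)) (st : List Bool) : BSt := (bstep n A)^[n] (st, [])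

/-! ### Exchange capacities -/

def fix (N a b : ℕ) (l : List Bool) : List Bool :=
  tab N fun i => if i = b then true else if i = a then false else l.getD i false
def slackL (f : List Bool → ℤ) (N : ℕ) (y : List ℤ) (l : List Bool) : ℤ :=
  f l - (tab N fun i => if l.getD i false = true then y.getD i 0 else 0).sum

variable (sfm : (List Bool → ℤ) → ℕ → ℕ → List Bool) (f : List Bool → ℤ)

def capB (N z : ℕ) (y : List ℤ) (γ : ℤ) (a b : ℕ) : Bool :=
  decide (a = b) ||
    decide (γ ≤ slackL f N y (fix N a b (sfm (fun l => slackL f N y (fix N a b l)) N z)))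
def arcT (N z : ℕ) (y : List ℤ) (γ : ℤ) : List (List Bool) :=
  tab N fun a => tab N fun b => capB sfm f N z y γ a b

/-! ### The three phases -/

def clamp (L : ℕ) (v : ℤ) : ℤ := max (-2 ^ L) (if v ≤ 2 ^ L then v else 2 ^ L)
def pushL (n : ℕ) (y : List ℤ) (e : ℕ) : ℤ := y.getD e 0 + y.getD (n + e) 0
def theta (n z : ℕ) (y : List ℤ) : ℤ := (tab n fun e => |pushL n y e|).sum / (z : ℤ) ^ 4
/-- the greedy vertex for the key `a ↦ a` -/
def start (N : ℕ) : List ℤ :=
  tab N fun a => f (tab N fun b => decide (a ≤ b)) - f (tab N fun b => decide (a < b))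
/-- push along the walk found by the search `r` -/
def nearFin (n L z : ℕ) (y : List ℤ) (r : BSt) : List ℤ :=
  tab (n + n) fun i => clamp L (y.getD i 0 + theta n z y * eff r
    (((List.range n).filter fun e => flag r e && decide (pushL n y e ≤ -theta n z y)).headD 0) i)
def nearStep (n L z : ℕ) (y : List ℤ) : List ℤ :=
  nearFin n L z y (bfs n (arcT sfm f (n + n) z y (theta n z y * z))
    (tab n fun e => decide (theta n z y ≤ pushL n y e)))
def nearPt (n L z : ℕ) : List ℤ := (nearStep sfm f n L z)^[z ^ 5] (start f (n + n))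
/-- the search started at the single node `e` -/
def bfs1 (n : ℕ) (A : List (List Bool)) (e : ℕ) : BSt := bfs n A (tab n fun e' => decide (e' = e))
/-- push along all cyclic arcs of the table `A` -/
def lvlFin (n L z k : ℕ) (y : List ℤ) (A : List (List Bool)) : List ℤ :=
  tab (n + n) fun i => clamp L (y.getD i 0 + (z : ℤ) ^ (76 + 5 * k) *
    (tab (n + n) fun a => (tab (n + n) fun b =>
      if (adj A a b && flag (bfs1 n A (piL n b)) (piL n a)) = true then
        ext n (bfs1 n A (piL n b)) (a, b) i else 0).sum).sum)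
def lvlStep (n L z k : ℕ) (y : List ℤ) : List ℤ :=
  lvlFin n L z k y (arcT sfm f (n + n) z y ((z : ℤ) ^ (80 + 5 * k)))
/-- the point after the levels `L - 1, …, L - i` -/
def lvlPt (n L z i : ℕ) : List ℤ :=
  (List.range i).foldl (fun y j => lvlStep sfm f n L z (L - 1 - j) y) (nearPt sfm f n L z)
/-- least element related to `a` in both directions -/
def repL (N : ℕ) (A : List (List Bool)) : List ℕ :=
  tab N fun a => ((List.range N).filter fun b => adj A a b && adj A b a).headD 0
def clsT (n L z : ℕ) (y : List ℤ) : List (List ℕ) :=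
  tab (L + 1) fun k => if k = L then List.range (n + n)
    else repL (n + n) (arcT sfm f (n + n) z y ((z : ℤ) ^ (75 + 5 * k)))
def cen (c : ℕ × ℕ × ℕ) : List ℤ × List (List ℕ) :=
  (lvlPt sfm f c.1 c.2.1 c.2.2 c.2.1, clsT sfm f c.1 c.2.1 c.2.2 (lvlPt sfm f c.1 c.2.1 c.2.2 c.2.1))

section PT

variable {α : Type} [Enc α] {n L z N a b e i k : α → ℕ} {A : α → List (List Bool)} {s : α → BSt}
  {y : α → List ℤ}

@[fun_prop] theorem pt_piL (hn : PT n) (ha : PT a) : PT fun t => piL (n t) (a t) := by
  unfold piL; fun_prop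
@[fun_prop] theorem pt_adj (hA : PT A) (ha : PT a) (hb : PT b) :
    PT fun t => adj (A t) (a t) (b t) := by unfold adj; fun_prop
@[fun_prop] theorem pt_flag (hs : PT s) (he : PT e) : PT fun t => flag (s t) (e t) := by
  unfold flag; fun_prop
@[fun_prop] theorem pt_eff (hs : PT s) (he : PT e) (hi : PT i) :
    PT fun t => eff (s t) (e t) (i t) := by unfold eff; fun_prop
@[fun_prop] theorem pt_pairsL (hN : PT N) : PT fun t => pairsL (N t) := by
  unfold pairsL; fun_prop
@[fun_prop] theorem pt_bcand (hn : PT n) (hA : PT A) (hs : PT s) (he : PT e) :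
    PT fun t => bcand (n t) (A t) (s t) (e t) := by unfold bcand; fun_prop
@[fun_prop] theorem pt_ext {q : α → ℕ × ℕ} (hn : PT n) (hs : PT s) (hq : PT q) (hi : PT i) :
    PT fun t => ext (n t) (s t) (q t) (i t) := by unfold ext; fun_prop
@[fun_prop] theorem pt_bstep (hn : PT n) (hA : PT A) (hs : PT s) :
    PT fun t => bstep (n t) (A t) (s t) := by unfold bstep; fun_prop

theorem abs_eff_le (n : ℕ) (A : List (List Bool)) (st : List Bool) (j e i : ℕ) :
    |eff ((bstep n A)^[j] (st, [])) e i| ≤ j := by
  induction j generalizing e i with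
  | zero => simp [eff]
  | succ j ih =>
    rw [Function.iterate_succ_apply']
    set s := (bstep n A)^[j] (st, [])
    by_cases he : e < n
    · by_cases hi : i < n + n
      · have : eff (bstep n A s) e i = if flag s e = true then eff s e i else
            ext n s ((bcand n A s e).headD (0, 0)) i := by
          unfold eff bstep
          simp only
          rw [getD_tab _ _ he, getD_tab _ _ hi]; rfl
        rw [this]
        push_cast
        split_ifs
        · exact (ih e i).trans (by omega)
        · unfold ext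
          have := ih (piL n ((bcand n A s e).headD (0, 0)).1) i
          rw [abs_le] at this ⊢
          split_ifs <;> constructor <;> omega
      · have : eff (bstep n A s) e i = 0 := by
          unfold eff bstep
          simp only
          rw [getD_tab _ _ he, List.getD_eq_default _ _ (by simpa using hi)]
        rw [this]; positivity
    · have : eff (bstep n A s) e i = 0 := by
        unfold eff bstep
        simp only
        rw [List.getD_eq_default (l := tab n _) _ (by simpa using he)]; rfl
      rw [this]; positivity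

theorem size_list_le {β : Type} [Enc β] {l : List β} {m : ℕ} (h : ∀ x ∈ l, size x ≤ m) :
    size l ≤ l.length * (2 * m + 1) := by
  induction l with
  | nil => simp
  | cons x l ih =>
    have h1 := ih fun x hx => h x (List.mem_cons_of_mem _ hx)
    have h2 := h x List.mem_cons_self
    rw [size_cons, List.length_cons]
    nlinarith

theorem size_bfs_le (n : ℕ) (A : List (List Bool)) (st : List Bool) (j : ℕ) :
    size ((bstep n A)^[j] (st, [])) ≤
      2 * (size st + n * 3) + 1 + n * (2 * ((n + n) * (2 * (j + 2) + 1)) + 1) := by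
  cases j with
  | zero => simp [size_prod]; omega
  | succ j =>
    have h := abs_eff_le n A st (j + 1)
    rw [Function.iterate_succ_apply'] at h ⊢
    set s := (bstep n A)^[j] (st, [])
    rw [size_prod]
    have h1 : size (bstep n A s).1 ≤ n * 3 := by
      refine (size_list_le (m := 1) fun x _ => by simp).trans ?_
      simp [bstep]
    have h2 : size (bstep n A s).2 ≤ n * (2 * ((n + n) * (2 * (j + 1 + 2) + 1)) + 1) := by
      refine (size_list_le (m := (n + n) * (2 * (j + 1 + 2) + 1)) fun x hx => ?_).trans ?_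
      · obtain ⟨e, he, rfl⟩ := List.getElem_of_mem hx
        have hl : (bstep n A s).2[e].length = n + n := by simp [bstep, tab]
        rw [← hl]
        refine GIn.size_le_of_abs (m := j + 1) fun i => ?_
        have h3 := h e i
        unfold eff at h3
        rw [List.getD_eq_getElem _ _ he] at h3
        refine h3.trans ?_
        exact_mod_cast Nat.lt_two_pow_self.le
      · simp [bstep]
    omega

@[fun_prop] theorem pt_bfs {st : α → List Bool} (hn : PT n) (hA : PT A) (hst : PT st) :
    PT fun t => bfs (n t) (A t) (st t) := by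
  refine PT.iterate (step := fun t s => bstep (n t) (A t) s) (by fun_prop) hn (by fun_prop)
    (B := fun t => 2 * (size (st t) + n t * 3) + 1 +
      n t * (2 * ((n t + n t) * (2 * (n t + 2) + 1)) + 1))
    (by have h1 := PB.of_PT hn; have h2 := PB.size hst; fun_prop)
    fun t j hj => (size_bfs_le _ _ _ j).trans ?_
  gcongr

@[fun_prop] theorem pt_fix {l : α → List Bool} (hN : PT N) (ha : PT a) (hb : PT b) (hl : PT l) :
    PT fun t => fix (N t) (a t) (b t) (l t) := by unfold fix; fun_prop
@[fun_prop] theorem pt_clamp {v : α → ℤ} (hL : PT L) (hv : PT v) :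
    PT fun t => clamp (L t) (v t) := by unfold clamp; fun_prop
@[fun_prop] theorem pt_pushL (hn : PT n) (hy : PT y) (he : PT e) :
    PT fun t => pushL (n t) (y t) (e t) := by unfold pushL; fun_prop
@[fun_prop] theorem pt_theta (hn : PT n) (hz : PT z) (hy : PT y) :
    PT fun t => theta (n t) (z t) (y t) := by unfold theta; fun_prop
@[fun_prop] theorem pt_nearFin (hn : PT n) (hL : PT L) (hz : PT z) (hy : PT y) (hs : PT s) :
    PT fun t => nearFin (n t) (L t) (z t) (y t) (s t) := by unfold nearFin; fun_prop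
@[fun_prop] theorem pt_bfs1 (hn : PT n) (hA : PT A) (he : PT e) :
    PT fun t => bfs1 (n t) (A t) (e t) := by unfold bfs1; fun_prop
@[fun_prop] theorem pt_lvlFin (hn : PT n) (hL : PT L) (hz : PT z) (hk : PT k) (hy : PT y)
    (hA : PT A) : PT fun t => lvlFin (n t) (L t) (z t) (k t) (y t) (A t) := by
  unfold lvlFin; fun_prop
@[fun_prop] theorem pt_repL (hN : PT N) (hA : PT A) : PT fun t => repL (N t) (A t) := by
  unfold repL; fun_prop

end PT

theorem abs_clamp_le (L : ℕ) (v : ℤ) : |clamp L v| ≤ 2 ^ L := by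
  unfold clamp
  have : (0 : ℤ) < 2 ^ L := by positivity
  rw [abs_le]
  split_ifs <;> constructor <;> omega

theorem clamp_eq {L : ℕ} {v : ℤ} (h : |v| ≤ 2 ^ L) : clamp L v = v := by
  unfold clamp
  rw [abs_le] at h
  rw [if_pos h.2]; omega

theorem size_tab_clamp (N L : ℕ) (g : ℕ → ℤ) :
    size (tab N fun i => clamp L (g i)) ≤ N * (2 * (L + 2) + 1) := by
  have := GIn.size_le_of_abs (l := tab N fun i => clamp L (g i)) (m := L) fun a => by
    by_cases ha : a < N
    · rw [getD_tab _ _ ha]; exact abs_clamp_le _ _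
    · rw [List.getD_eq_default _ _ (by simpa using ha)]; positivity
  simpa using this

section OPT

variable {sfm} {α : Type} [Enc α] [Ok α] {n L z N a b k : α → ℕ} {y : α → List ℤ}
  {f : α → List Bool → ℤ} {γ : α → ℤ}

theorem opt_slackL {l : α → List Bool} (hf : OPT fun p : α × List Bool => f p.1 p.2) (hN : OPT N)
    (hy : OPT y) (hl : OPT l) : OPT fun t => slackL (f t) (N t) (y t) (l t) := by
  unfold slackL; fun_prop

theorem opt_fix {l : α → List Bool} (hN : OPT N) (ha : OPT a) (hb : OPT b) (hl : OPT l) :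
    OPT fun t => fix (N t) (a t) (b t) (l t) :=
  (OPT.ofPT (f := fun q : ℕ × ℕ × ℕ × List Bool => fix q.1 q.2.1 q.2.2.1 q.2.2.2)
    (by fun_prop)).comp (hN.pair (ha.pair (hb.pair hl)))

theorem opt_capB (hs : SfmOPT sfm) (hf : OPT fun p : α × List Bool => f p.1 p.2) (hN : OPT N)
    (hz : OPT z) (hy : OPT y) (hγ : OPT γ) (ha : OPT a) (hb : OPT b) :
    OPT fun t => capB sfm (f t) (N t) (z t) (y t) (γ t) (a t) (b t) := by
  have h1 : OPT fun q : α × List Bool =>
      slackL (f q.1) (N q.1) (y q.1) (fix (N q.1) (a q.1) (b q.1) q.2) :=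
    opt_slackL (f := fun q : α × List Bool => f q.1) (by fun_prop) (by fun_prop) (by fun_prop)
      (opt_fix (by fun_prop) (by fun_prop) (by fun_prop) (by fun_prop))
  have h2 := hs (f := fun t l => slackL (f t) (N t) (y t) (fix (N t) (a t) (b t) l)) h1 hN hz
  exact OPT.or (OPT.nat_eq ha hb) (OPT.int_le hγ (opt_slackL hf hN hy (opt_fix hN ha hb h2)))

theorem opt_arcT (hs : SfmOPT sfm) (hf : OPT fun p : α × List Bool => f p.1 p.2) (hN : OPT N)
    (hz : OPT z) (hy : OPT y) (hγ : OPT γ) :
    OPT fun t => arcT sfm (f t) (N t) (z t) (y t) (γ t) := by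
  refine OPT.tab hN (OPT.tab (g := fun (q : α × ℕ) (b : ℕ) =>
    capB sfm (f q.1) (N q.1) (z q.1) (y q.1) (γ q.1) q.2 b) (by fun_prop) ?_)
  exact opt_capB (f := fun q : (α × ℕ) × ℕ => f q.1.1) hs (by fun_prop) (by fun_prop) (by fun_prop)
    (by fun_prop) (by fun_prop) (by fun_prop) (by fun_prop)

theorem opt_start (hf : OPT fun p : α × List Bool => f p.1 p.2) (hN : OPT N) :
    OPT fun t => start (f t) (N t) := by
  unfold start; fun_prop

theorem opt_nearStep (hs : SfmOPT sfm) (hf : OPT fun p : α × List Bool => f p.1 p.2) (hn : OPT n)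
    (hL : OPT L) (hz : OPT z) (hy : OPT y) :
    OPT fun t => nearStep sfm (f t) (n t) (L t) (z t) (y t) := by
  have h0 : OPT fun t => theta (n t) (z t) (y t) :=
    OPT.ofPT₃ (φ := theta) (by fun_prop) hn hz hy
  have h1 := opt_arcT hs hf (OPT.nat_add hn hn) hz hy (OPT.int_mul h0 (OPT.natCast hz))
  have h2 : OPT fun t => tab (n t) fun e => decide (theta (n t) (z t) (y t) ≤ pushL (n t) (y t) e) :=
    OPT.ofPT₃ (φ := fun (n z : ℕ) (y : List ℤ) => tab n fun e => decide (theta n z y ≤ pushL n y e))
      (by fun_prop) hn hz hy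
  have h3 := OPT.ofPT₃ (φ := bfs) (pt_bfs (by fun_prop) (by fun_prop) (by fun_prop)) hn h1 h2
  have h4 : PT fun q : ℕ × ℕ × ℕ × List ℤ × BSt =>
      nearFin q.1 q.2.1 q.2.2.1 q.2.2.2.1 q.2.2.2.2 :=
    pt_nearFin (by fun_prop) (by fun_prop) (by fun_prop) (by fun_prop) (by fun_prop)
  have h5 := (OPT.ofPT h4).comp (hn.pair (hL.pair (hz.pair (hy.pair h3))))
  exact h5

theorem opt_nearPt (hs : SfmOPT sfm) (hf : OPT fun p : α × List Bool => f p.1 p.2) (hn : OPT n)
    (hL : OPT L) (hz : OPT z) : OPT fun t => nearPt sfm (f t) (n t) (L t) (z t) := by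
  have h0 := opt_start hf (OPT.nat_add hn hn)
  refine OPT.iterate (step := fun t y => nearStep sfm (f t) (n t) (L t) (z t) y)
    (opt_nearStep (f := fun q : α × List ℤ => f q.1) hs (by fun_prop) (by fun_prop) (by fun_prop)
      (by fun_prop) (by fun_prop)) (by fun_prop) h0
    (B := fun t => size (start (f t) (n t + n t)) + (n t + n t) * (2 * (L t + 2) + 1))
    (h0.pb.add (OPT.pb_nat (by fun_prop))) fun t i _ => ?_
  cases i with
  | zero => simp
  | succ i =>
    rw [Function.iterate_succ_apply']
    exact (size_tab_clamp _ _ _).trans (Nat.le_add_left _ _)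

theorem opt_lvlStep (hs : SfmOPT sfm) (hf : OPT fun p : α × List Bool => f p.1 p.2) (hn : OPT n)
    (hL : OPT L) (hz : OPT z) (hk : OPT k) (hy : OPT y) :
    OPT fun t => lvlStep sfm (f t) (n t) (L t) (z t) (k t) (y t) := by
  have h1 := opt_arcT (γ := fun t => (z t : ℤ) ^ (80 + 5 * k t)) hs hf (OPT.nat_add hn hn) hz hy
    (by fun_prop)
  have h4 : PT fun q : ℕ × ℕ × ℕ × ℕ × List ℤ × List (List Bool) =>
      lvlFin q.1 q.2.1 q.2.2.1 q.2.2.2.1 q.2.2.2.2.1 q.2.2.2.2.2 :=
    pt_lvlFin (by fun_prop) (by fun_prop) (by fun_prop) (by fun_prop) (by fun_prop) (by fun_prop)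
  have h5 := (OPT.ofPT h4).comp (hn.pair (hL.pair (hz.pair (hk.pair (hy.pair h1)))))
  exact h5

theorem opt_lvlPt (hs : SfmOPT sfm) (hf : OPT fun p : α × List Bool => f p.1 p.2) (hn : OPT n)
    (hL : OPT L) (hz : OPT z) (hk : OPT k) :
    OPT fun t => lvlPt sfm (f t) (n t) (L t) (z t) (k t) := by
  have h0 := opt_nearPt hs hf hn hL hz
  refine OPT.foldl (f := fun t y j => lvlStep sfm (f t) (n t) (L t) (z t) (L t - 1 - j) y)
    (opt_lvlStep (f := fun q : α × List ℤ × ℕ => f q.1) hs (by fun_prop) (by fun_prop) (by fun_prop)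
      (by fun_prop) (by fun_prop) (by fun_prop)) (by fun_prop) h0
    (B := fun t => size (nearPt sfm (f t) (n t) (L t) (z t)) + (n t + n t) * (2 * (L t + 2) + 1))
    (h0.pb.add (OPT.pb_nat (by fun_prop))) fun t i => ?_
  rw [List.take_range]
  cases min i (k t) with
  | zero => simp
  | succ i =>
    rw [List.range_succ, List.foldl_append]
    exact (size_tab_clamp _ _ _).trans (Nat.le_add_left _ _)

theorem opt_clsT (hs : SfmOPT sfm) (hf : OPT fun p : α × List Bool => f p.1 p.2) (hn : OPT n)
    (hL : OPT L) (hz : OPT z) (hy : OPT y) :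
    OPT fun t => clsT sfm (f t) (n t) (L t) (z t) (y t) := by
  have h1 : OPT fun q : α × ℕ => arcT sfm (f q.1) (n q.1 + n q.1) (z q.1) (y q.1)
      ((z q.1 : ℤ) ^ (75 + 5 * q.2)) :=
    opt_arcT (f := fun q : α × ℕ => f q.1) hs (by fun_prop) (by fun_prop) (by fun_prop)
      (by fun_prop) (by fun_prop)
  have h2 := OPT.ofPT₂ (φ := repL) (by fun_prop)
    (show OPT fun q : α × ℕ => n q.1 + n q.1 by fun_prop) h1
  exact OPT.tab (by fun_prop) (OPT.ite (c := fun q : α × ℕ => q.2 = L q.1) (by fun_prop)
    (by fun_prop) h2)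

theorem opt_cen (hs : SfmOPT sfm) : CenOPT (cen sfm) := by
  intro α _ _ f x hf hx
  have h1 := opt_lvlPt (n := fun t => (x t).1) (L := fun t => (x t).2.1) (z := fun t => (x t).2.2)
    (k := fun t => (x t).2.1) hs hf (by fun_prop) (by fun_prop) (by fun_prop) (by fun_prop)
  exact h1.pair (opt_clsT hs hf (by fun_prop) (by fun_prop) (by fun_prop) h1)

end OPT

end Cen

end Crest.Agent.R302
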