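import Crest.Agent.R302.Gale

/-!
# Row 302: splitting a flow into long directions and a small rest

* `cycle_or_cut`: let `R i` be the set of `e` such that some `ψ ≥ 0` supported on `H` with `∑ ψ ≤ i` has
  `push π (bd ψ) = ev e - ev (π b)`.  `π b ∈ R 0`, `R i ⊆ R (i+1)`, an arc of `H` leads from `R i` to `R (i+1)`; by counting
  `R i = R (i+1)` for some `i < card E`.  Take `W = R i`; if `π a ∈ W` add the arc `(a, b)`.
* `dec`: start from `gale`, `g = z ^ 6`.  Induct on the number of heavy arcs (`g ≤ φ a b`) to split `φ = φ' + φ''` (both `≥ 0`) with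
  `bd φ'` in the span and `φ'' ≤ N² g + z ^ 4`: if a heavy arc lies on a `ψ` as in `cycle_or_cut`, subtract `f • ψ` with `f` the
  least value of `φ a b / ψ a b` on the support of `ψ` (the minimising arc drops below `ψ a b ≤ z ≤ g`); `bd ψ` is long because a set entered by an arc
  of `ψ` has slack `≥ g ≥ z ^ 5 * ∑ ψ`.  Otherwise `flow_le_of_closed` bounds every heavy arc.  Finally `d = bd φ'`, and
  `d S ≤ ∑ (arcs entering S) φ' ≤ N² * slack S`.
-/

set_option autoImplicit false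

namespace Crest.Agent.R302

open Finset Crest.Agent.R309

variable {V E : Type} [Fintype V] [DecidableEq V] [Fintype E] [DecidableEq E]

/-- The unit flow on one arc. -/
def decU (a b : V) : V → V → ℤ := fun a' b' => if a' = a ∧ b' = b then 1 else 0

theorem bd_decU (a b : V) : bd (decU a b) = ev b - ev a := by
  simp [bd, decU, ite_and, ite_smul]

theorem cycle_or_cut (π : V → E) (H : V → V → Prop) {a b : V} (hab : H a b) :
    (∃ ψ : V → V → ℤ, (∀ a' b', 0 ≤ ψ a' b') ∧ (∀ a' b', ψ a' b' ≠ 0 → H a' b') ∧ 1 ≤ ψ a b ∧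
        ∑ a', ∑ b', ψ a' b' ≤ Fintype.card E ∧ ∀ e, push π (bd ψ) e = 0) ∨
      ∃ W : Finset E, π b ∈ W ∧ π a ∉ W ∧ ∀ a' b', H a' b' → π a' ∈ W → π b' ∈ W := by
  classical
  set R : ℕ → Finset E := fun i => univ.filter fun e => ∃ ψ : V → V → ℤ, (∀ a' b', 0 ≤ ψ a' b') ∧
    (∀ a' b', ψ a' b' ≠ 0 → H a' b') ∧ ∑ a', ∑ b', ψ a' b' ≤ i ∧
    ∀ e', push π (bd ψ) e' = (if e = e' then 1 else 0) - if π b = e' then 1 else 0 with hR
  have step : ∀ (ψ : V → V → ℤ) a' b', H a' b' → (∀ a b, 0 ≤ ψ a b) → (∀ a b, ψ a b ≠ 0 → H a b) →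
      (∀ a b, 0 ≤ (ψ + decU a' b') a b) ∧ (∀ a b, (ψ + decU a' b') a b ≠ 0 → H a b) ∧
      1 ≤ (ψ + decU a' b') a' b' ∧ ∑ a, ∑ b, (ψ + decU a' b') a b = ∑ a, ∑ b, ψ a b + 1 ∧
      ∀ e, push π (bd (ψ + decU a' b')) e = push π (bd ψ) e +
        ((if π b' = e then 1 else 0) - if π a' = e then 1 else 0) := fun ψ a' b' h h0 h1 => by
    refine ⟨fun a b => ?_, fun a b hne => ?_, ?_, ?_, fun e => ?_⟩
    · have := h0 a b
      simp only [Pi.add_apply, decU]; split_ifs <;> linarith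
    · by_cases k : a = a' ∧ b = b'
      · exact k.1 ▸ k.2 ▸ h
      · exact h1 a b (by simpa [decU, k] using hne)
    · simpa [decU] using h0 a' b'
    · simp [decU, sum_add_distrib, ite_and]
    · rw [bd_add, push_add, bd_decU, push_sub, push_ev, push_ev]
  have h0 : π b ∈ R 0 := mem_filter.2 ⟨mem_univ _, 0, fun _ _ => le_rfl, fun _ _ h => absurd rfl h,
    by simp, fun e' => by simp [bd, push]⟩
  have hm : ∀ i, R i ⊆ R (i + 1) := fun i e he => by
    obtain ⟨ψ, h1, h2, h3, h4⟩ := (mem_filter.1 he).2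
    exact mem_filter.2 ⟨mem_univ _, ψ, h1, h2, by push_cast; linarith, h4⟩
  have hb : ∀ i, π b ∈ R i := fun i => by
    induction i with
    | zero => exact h0
    | succ i ih => exact hm i ih
  obtain ⟨i, hi, he⟩ : ∃ i < Fintype.card E, R (i + 1) ⊆ R i := by
    by_contra hn
    push Not at hn
    have : ∀ i ≤ Fintype.card E, i + 1 ≤ (R i).card := fun i hi => by
      induction i with
      | zero => exact card_pos.2 ⟨_, h0⟩
      | succ i ih =>
        have := card_lt_card (Finset.ssubset_iff_subset_ne.2 ⟨hm i, fun e => hn i hi (e ▸ Subset.rfl)⟩)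
        have := ih (by omega)
        omega
    have := (this _ le_rfl).trans (card_le_univ _)
    omega
  by_cases ha : π a ∈ R i
  · obtain ⟨ψ, h1, h2, h3, h4⟩ := (mem_filter.1 ha).2
    obtain ⟨k1, k2, k3, k4, k5⟩ := step ψ a b hab h1 h2
    refine .inl ⟨_, k1, k2, k3, ?_, fun e => by rw [k5, h4]; ring⟩
    have : (i : ℤ) + 1 ≤ Fintype.card E := by exact_mod_cast hi
    linarith
  · refine .inr ⟨R i, hb i, ha, fun a' b' h ha' => he ?_⟩
    obtain ⟨ψ, h1, h2, h3, h4⟩ := (mem_filter.1 ha').2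
    obtain ⟨k1, k2, -, k4, k5⟩ := step ψ a' b' h h1 h2
    exact mem_filter.2 ⟨mem_univ _, _, k1, k2, by push_cast; linarith,
      fun e => by rw [k5, h4]; ring⟩

/-- `ζ` is a long direction at `y`. -/
def Long (ρ : Finset V → ℤ) (π : V → E) (z : ℤ) (y ζ : V → ℤ) : Prop := InK ρ π (y + z ^ 5 • ζ)

theorem dec_long {ρ : Finset V → ℤ} (π : V → E) {z : ℤ} (hz : 64 ≤ z)
    (hE : (Fintype.card E : ℤ) ≤ z) {y : V → ℤ} (hy : InK ρ π y) {ψ : V → V → ℤ}
    (h0 : ∀ a b, 0 ≤ ψ a b) (h1 : ∀ a b, ψ a b ≠ 0 → Cap ρ y a b (z ^ 6))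
    (h2 : ∑ a, ∑ b, ψ a b ≤ Fintype.card E) (h3 : ∀ e, push π (bd ψ) e = 0) :
    Long ρ π z y (bd ψ) := by
  have hz5 : 0 ≤ z ^ 5 := pow_nonneg (by linarith) _
  refine ⟨⟨fun S => ?_, ?_⟩, fun e => ?_⟩
  · rw [sm_add, sm_smul]
    by_cases hS : ∃ a b, ψ a b ≠ 0 ∧ a ∉ S ∧ b ∈ S
    · obtain ⟨a, b, k1, k2, k3⟩ := hS
      have j1 := h1 a b k1 S k2 k3
      have j2 := (le_abs_self _).trans ((abs_sm_bd_le h0 S).trans (h2.trans hE))
      nlinarith [mul_le_mul_of_nonneg_left j2 hz5]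
    · have : sm (bd ψ) S ≤ 0 := by
        rw [sm_bd]
        refine sum_nonpos fun a _ => sum_nonpos fun b _ => ?_
        have := h0 a b
        by_cases k1 : a ∈ S <;> by_cases k2 : b ∈ S <;> simp only [k1, k2, if_true, if_false]
        · linarith
        · linarith
        · have : ψ a b = 0 := by_contra fun k => hS ⟨a, b, k, k1, k2⟩
          linarith
        · linarith
      linarith [hy.1.1 S, mul_nonpos_of_nonneg_of_nonpos hz5 this]
  · rw [sm_add, sm_smul, sm_bd_univ, hy.1.2]; simp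
  · rw [push_add, push_smul, h3, hy.2]; simp

theorem dec_split {ρ : Finset V → ℤ} (π : V → E) {z : ℤ} (hz : 64 ≤ z)
    (hE : (Fintype.card E : ℤ) ≤ z) {y : V → ℤ} (hy : InK ρ π y) (n : ℕ) :
    ∀ φ : V → V → ℤ, (univ.filter fun e : V × V => z ^ 6 ≤ φ e.1 e.2).card = n →
      (∀ a b, 0 ≤ φ a b ∧ Cap ρ y a b (φ a b)) → ∑ e, |push π (bd φ) e| ≤ z ^ 4 →
      ∃ φ' φ'' : V → V → ℤ, φ = φ' + φ'' ∧ (∀ a b, 0 ≤ φ' a b) ∧ (∀ a b, 0 ≤ φ'' a b) ∧
        bd φ' ∈ Submodule.span ℤ {ζ | Long ρ π z y ζ} ∧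
        ∀ a b, φ'' a b ≤ Fintype.card V ^ 2 * z ^ 6 + z ^ 4 := by
  induction n using Nat.strong_induction_on with
  | _ n ih =>
  intro φ hn h1 h2
  have hz0 : 0 < z := by linarith
  have hz6 : z ≤ z ^ 6 := le_self_pow₀ (by linarith) (by norm_num)
  by_cases hc : ∃ ψ : V → V → ℤ, (∀ a b, 0 ≤ ψ a b) ∧ (∀ a b, ψ a b ≠ 0 → z ^ 6 ≤ φ a b) ∧
      (∃ a b, 1 ≤ ψ a b) ∧ ∑ a, ∑ b, ψ a b ≤ Fintype.card E ∧ ∀ e, push π (bd ψ) e = 0
  · obtain ⟨ψ, k0, k1, ⟨a, b, k2⟩, k3, k4⟩ := hc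
    obtain ⟨e₀, m1, m2⟩ := exists_min_image (univ.filter fun e : V × V => ψ e.1 e.2 ≠ 0)
      (fun e => φ e.1 e.2 / ψ e.1 e.2) ⟨(a, b), mem_filter.2 ⟨mem_univ _, by simp; omega⟩⟩
    have m1' := (mem_filter.1 m1).2
    have m3 : 0 < ψ e₀.1 e₀.2 := lt_of_le_of_ne (k0 _ _) m1'.symm
    set f := φ e₀.1 e₀.2 / ψ e₀.1 e₀.2 with hf
    have f0 : 0 ≤ f := Int.ediv_nonneg (h1 _ _).1 m3.le
    have f1 : ∀ a b, 0 ≤ f * ψ a b := fun a b => mul_nonneg f0 (k0 a b)
    have f2 : ∀ a b, f * ψ a b ≤ φ a b := fun a b => by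
      by_cases k : ψ a b = 0
      · rw [k, mul_zero]; exact (h1 a b).1
      · have j := m2 (a, b) (mem_filter.2 ⟨mem_univ _, k⟩)
        exact (mul_le_mul_of_nonneg_right j (k0 a b)).trans (Int.ediv_mul_le _ k)
    have f3 : φ e₀.1 e₀.2 - f * ψ e₀.1 e₀.2 < z ^ 6 := by
      have j1 := Int.lt_ediv_add_one_mul_self (φ e₀.1 e₀.2) m3
      have j2 : ψ e₀.1 e₀.2 ≤ ∑ a, ∑ b, ψ a b :=
        (single_le_sum (f := fun b => ψ e₀.1 b) (fun b _ => k0 _ b) (mem_univ _)).trans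
          (single_le_sum (f := fun a => ∑ b, ψ a b) (fun a _ => sum_nonneg fun b _ => k0 a b)
            (mem_univ _))
      rw [← hf] at j1
      linarith
    have e1 : φ = (φ - f • ψ) + f • ψ := by abel
    have hlt : (univ.filter fun e : V × V => z ^ 6 ≤ (φ - f • ψ) e.1 e.2).card < n := by
      refine hn ▸ card_lt_card (Finset.ssubset_iff_subset_ne.2 ⟨fun e he => ?_, fun e => ?_⟩)
      · exact mem_filter.2 ⟨mem_univ _, (mem_filter.1 he).2.trans (sub_le_self _ (f1 _ _))⟩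
      · have : e₀ ∈ univ.filter fun e : V × V => z ^ 6 ≤ φ e.1 e.2 :=
          mem_filter.2 ⟨mem_univ _, k1 _ _ m1'⟩
        rw [← e] at this
        exact absurd (mem_filter.1 this).2 (not_le.2 f3)
    obtain ⟨φ', φ'', e, p1, p2, p3, p4⟩ := ih _ hlt (φ - f • ψ) rfl
      (fun a b => ⟨sub_nonneg.2 (f2 a b), fun S j1 j2 =>
        le_trans (sub_le_self _ (f1 a b)) ((h1 a b).2 S j1 j2)⟩) (by
        refine le_trans (le_of_eq (sum_congr rfl fun e _ => ?_)) h2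
        conv_rhs => rw [e1, bd_add, push_add, bd_smul, push_smul, k4, mul_zero, add_zero])
    · refine ⟨φ' + f • ψ, φ'', by rw [e1, e]; abel, fun a b => add_nonneg (p1 a b) (f1 a b), p2,
        ?_, p4⟩
      rw [bd_add, bd_smul]
      exact add_mem p3 (Submodule.smul_mem _ _ (Submodule.subset_span (dec_long π hz hE hy k0
        (fun a b k S j1 j2 => (k1 a b k).trans ((h1 a b).2 S j1 j2)) k3 k4)))
  · refine ⟨0, φ, (zero_add _).symm, fun _ _ => le_rfl, fun a b => (h1 a b).1,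
      by simp [bd], fun a b => ?_⟩
    by_cases hab : z ^ 6 ≤ φ a b
    · rcases cycle_or_cut π (fun a b => z ^ 6 ≤ φ a b) hab with ⟨ψ, k0, k1, k2, k3, k4⟩ |
        ⟨W, k1, k2, k3⟩
      · exact absurd ⟨ψ, k0, k1, ⟨a, b, k2⟩, k3, k4⟩ hc
      · have := flow_le_of_closed π (fun a b => (h1 a b).1) (g := z ^ 6) (by positivity) W
          (fun a' b' j1 j2 => le_of_lt (not_le.1 fun j => j2 (k3 a' b' j j1))) k2 k1
        linarith
    · have j1 : (1 : ℤ) ≤ Fintype.card V := by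
        exact_mod_cast Fintype.card_pos_iff.2 ⟨a⟩
      have j2 : (1 : ℤ) ≤ Fintype.card V ^ 2 := one_le_pow₀ j1
      have j3 : 0 ≤ z ^ 4 := by positivity
      nlinarith [pow_pos hz0 6]

theorem dec {ρ : Finset V → ℤ} (h : Nrm ρ) (π : V → E) {z : ℤ} (hz : 64 ≤ z)
    (hV : (Fintype.card V : ℤ) ≤ z) (hE : (Fintype.card E : ℤ) ≤ z) {x y : V → ℤ} (hx : InB ρ x)
    (hnear : ∑ e, |push π x e| ≤ z ^ 4) (hy : InK ρ π y) :
    ∃ d : V → ℤ, d ∈ Submodule.span ℤ {ζ | Long ρ π z y ζ} ∧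
      ∀ S, Fintype.card V ^ 2 * sm y S + sm d S ≤ Fintype.card V ^ 2 * ρ S ∧
        |sm d S - sm (x - y) S| ≤ 2 * z ^ 11 := by
  obtain ⟨φ, h1, h2⟩ := gale h hx hy.1
  have h2' : x - y = bd φ := h2
  have hz0 : 0 < z := by linarith
  obtain ⟨φ', φ'', e, p1, p2, p3, p4⟩ := dec_split π hz hE hy _ φ rfl h1 (by
    rw [← h2']
    simpa only [push_sub, hy.2, sub_zero] using hnear)
  have hN : (0 : ℤ) ≤ Fintype.card V := by positivity
  refine ⟨bd φ', p3, fun S => ⟨?_, ?_⟩⟩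
  · have k : sm (bd φ') S ≤ ∑ _a : V, ∑ _b : V, (ρ S - sm y S) := by
      rw [sm_bd]
      refine sum_le_sum fun a _ => sum_le_sum fun b _ => ?_
      have s0 := sub_nonneg.2 (hy.1.1 S)
      have := p1 a b
      by_cases k1 : a ∈ S <;> by_cases k2 : b ∈ S <;> simp only [k1, k2, if_true, if_false]
      · linarith
      · linarith
      · have j1 := (h1 a b).2 S k1 k2
        have j2 : φ a b = φ' a b + φ'' a b := by rw [e]; rfl
        linarith [p2 a b]
      · linarith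
    simp only [sum_const, card_univ, nsmul_eq_mul] at k
    nlinarith
  · rw [h2', e, bd_add, sm_add, sub_add_cancel_left, abs_neg]
    refine (abs_sm_bd_le p2 S).trans ?_
    have k : ∑ a, ∑ b, φ'' a b ≤ ∑ _a : V, ∑ _b : V, (z ^ 2 * z ^ 6 + z ^ 4) :=
      sum_le_sum fun a _ => sum_le_sum fun b _ => (p4 a b).trans (by gcongr)
    simp only [sum_const, card_univ, nsmul_eq_mul] at k
    have k2 : (Fintype.card V : ℤ) * (Fintype.card V * (z ^ 2 * z ^ 6 + z ^ 4)) ≤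
        z * (z * (z ^ 2 * z ^ 6 + z ^ 4)) := by gcongr
    have k3 : z ^ 10 ≤ z ^ 11 := pow_le_pow_right₀ (by linarith) (by norm_num)
    have k4 : z ^ 6 ≤ z ^ 11 := pow_le_pow_right₀ (by linarith) (by norm_num)
    nlinarith

end Crest.Agent.R302
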