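import Crest.Agent.R302.Run

/-!
# Row 302: the last stage

`U_sol`: `G = 0` (`G_le`), the class sums are `≤ z^(85+5k) + z^4` (`Centre.range`, `y0_near`), at most `z` terms `≤ 4 / z^4`; the cell terms are tiny
(`jj_S`, `om_J`, `|X e|, |c e| ≤ 2^L`).  `card_relax`: `wb` with `ρ' = ρ + 2 z^4 cut σ`, `σ k = z^(61+5k)` (`nrm_add_cut`), `x = ys`, `K`, `K'` images
under `X ↦ -del X` or filters of a box (`eq_neg_del`, `mem_sol`).  If `cut σ S > 0` let `k` be the largest level on which `S` splits a class: then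
`cut σ S ≤ z² z^(61+5k)` and `Centre.deep` gives `ρ S - ys S ≥ z^(75+5k)`.  `(1 + 2/z³)^N ≤ exp (2/z²) ≤ 1 + 4/z²`.
`Z_final`: outside the relaxed polytope `U ≥ z^4` (`G_wall` with `D = D0`, `T = z^4`, `Δ = 2 z^4`, `G_le_U`), `tail_le`, `sol_nonempty`.
`memb_spec`: `sfm_ok` for `S ↦ ρ S - y S`, `yN_zero`, `|X.getD i 0| ≤ 2 ^ size X`.  `mu_bad`: `mu_eq`, `Z_eq`, `U_sol`, `Z_final`.
-/

set_option autoImplicit false

namespace Crest.Agent.R302.Pre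

open Finset Crest.Agent.R309 Crest.Agent.Lib.PolyTime

variable {p : Pre} {ρ : Finset p.V → ℤ}

theorem endsA_pow {z : ℕ} (hz : 64 ≤ z) : z ^ 5 ≤ 2 ^ z := by
  induction z, hz using Nat.le_induction with
  | base => norm_num
  | succ z hz ih =>
    have h1 : (8 * (z + 1)) ^ 5 ≤ (9 * z) ^ 5 := Nat.pow_le_pow_left (by omega) 5
    rw [mul_pow, mul_pow] at h1
    rw [pow_succ 2]
    omega

theorem endsA_state (p : Pre) (X : Fin p.n → ℤ) (a : p.V) :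
    -ev a + ev a - del p.u p.v X = -del p.u p.v X := by
  rw [neg_add_cancel, zero_sub]

theorem OK.U_sol (h : p.OK ρ) (a : p.V) {X : Fin p.n → ℤ} (hX : X ∈ p.sol ρ) :
    p.U ρ p.S a (X, a) ≤ 1 / (p.z : ℝ) ^ 2 := by
  have hz := h.zR_ge
  have hz0 : (0 : ℝ) < p.z := by linarith
  have hz1 : (1 : ℝ) ≤ p.z := by linarith
  have hD : (0 : ℝ) < p.D0 := by exact_mod_cast h.D0_pos
  have hB := h.mem_sol.1 hX
  have h1 : ((p.wall ρ).G (-del p.u p.v X) : ℝ) / p.D0 ≤ 0 := by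
    have k1 := h.wall_ok.G_le (x := -del p.u p.v X) hB (-del p.u p.v X)
    simp only [sub_self, abs_zero, sum_const_zero, mul_zero] at k1
    exact div_nonpos_of_nonpos_of_nonneg (by exact_mod_cast k1) hD.le
  have hK : InK ρ (piN p.n) (-del p.u p.v X) :=
    ⟨hB, fun e => by rw [push_eq, neg_del_v, neg_del_u, add_neg_cancel]⟩
  have h2 : ∑ k ∈ range (p.L + 1), ∑ r, p.kap k *
      (p.lv.cs k (-del p.u p.v X - -del p.u p.v p.cF) r : ℝ) ^ 2 ≤ 4 / (p.z : ℝ) ^ 3 := by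
    have k1 : ∀ k ∈ range (p.L + 1), ∀ r, p.kap k *
        (p.lv.cs k (-del p.u p.v X - -del p.u p.v p.cF) r : ℝ) ^ 2 ≤ 4 / (p.z : ℝ) ^ 4 := by
      intro k hk r
      have k2 := h.cen.range _ hK k (Nat.lt_succ_iff.1 (mem_range.1 hk)) r
      have k3 : |p.lv.cs k (-del p.u p.v p.cF - p.ys) r| ≤ p.zZ ^ 4 :=
        (abs_sum_le_sum_abs _ _).trans ((sum_le_sum_of_subset_of_nonneg (filter_subset _ _)
          fun _ _ _ => abs_nonneg _).trans h.y0_near)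
      have k4 : p.lv.cs k (-del p.u p.v X - -del p.u p.v p.cF) r =
          p.lv.cs k (-del p.u p.v X - p.ys) r - p.lv.cs k (-del p.u p.v p.cF - p.ys) r := by
        simp only [Lv.cs, ← sum_sub_distrib, Pi.sub_apply]
        exact sum_congr rfl fun b _ => by ring
      have k5 : p.zZ ^ 4 ≤ p.zZ ^ (85 + 5 * k) :=
        pow_le_pow_right₀ (by linarith [h.zZ_ge]) (by omega)
      have k6 : |p.lv.cs k (-del p.u p.v X - -del p.u p.v p.cF) r| ≤ 2 * p.zZ ^ (85 + 5 * k) := by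
        rw [k4]
        exact (abs_sub _ _).trans (by linarith)
      have k7 : |(p.lv.cs k (-del p.u p.v X - -del p.u p.v p.cF) r : ℝ)| ≤
          2 * (p.z : ℝ) ^ (85 + 5 * k) := by
        unfold zZ at k6; exact_mod_cast k6
      have k8 := sq_le_sq' (abs_le.1 k7).1 (abs_le.1 k7).2
      refine (mul_le_mul_of_nonneg_left k8 (baseC_kap_nonneg p k)).trans (le_of_eq ?_)
      rw [baseC_kap, show 174 + 10 * k = (85 + 5 * k) * 2 + 4 by ring, pow_add _ (_ * 2), pow_mul]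
      field_simp
      norm_num
    refine (sum_le_sum fun k hk => sum_le_sum fun r _ => k1 k hk r).trans ?_
    simp only [sum_const, card_range, card_univ, nsmul_eq_mul]
    have := h.baseC_NL
    push_cast
    calc ((p.L : ℝ) + 1) * (Fintype.card p.V * (4 / (p.z : ℝ) ^ 4))
        = (Fintype.card p.V * ((p.L : ℝ) + 1)) * (4 / (p.z : ℝ) ^ 4) := by ring
      _ ≤ p.z * (4 / (p.z : ℝ) ^ 4) := by gcongr
      _ = _ := by field_simp
  have h3 : ∑ e : Fin p.n, (p.z : ℝ) ^ 36 * ((X e : ℝ) - p.c e) ^ 2 /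
      (p.om (p.jj p.S e) : ℝ) ^ 2 ≤ 1 / (p.z : ℝ) ^ 3 := by
    have k0 : (p.z : ℝ) ^ 5 ≤ 2 ^ p.z := by exact_mod_cast endsA_pow h.z_ge
    have k1 : ∀ e : Fin p.n, (p.z : ℝ) ^ 36 * ((X e : ℝ) - p.c e) ^ 2 /
        (p.om (p.jj p.S e) : ℝ) ^ 2 ≤ 1 / (p.z : ℝ) ^ 4 := fun e => by
      have k2 : |X e| ≤ 2 ^ p.L := neg_del_v p X e ▸ abs_le_of_inB h.bd hB (p.v e)
      have k3 := h.c_abs e
      have k4 : (2 : ℤ) ^ (p.L + 1) ≤ 2 ^ p.z :=
        pow_le_pow_right₀ (by norm_num) (by have := h.L_le; omega)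
      have k5 : |X e - p.c e| ≤ 2 ^ p.z := (abs_sub _ _).trans (by rw [pow_succ] at k4; linarith)
      have k6 : |(X e : ℝ) - p.c e| ≤ 2 ^ p.z := by exact_mod_cast k5
      have k7 := sq_le_sq' (abs_le.1 k6).1 (abs_le.1 k6).2
      have k8 : (p.om (p.jj p.S e) : ℝ) = (2 ^ p.z) ^ 3 * (p.z : ℝ) ^ 10 := by
        rw [jj_S, h.om_J, zZ, mul_comm 3, pow_mul]; push_cast; rfl
      rw [k8, div_le_div_iff₀ (by positivity) (by positivity)]
      have k9 : ((p.z : ℝ) ^ 5) ^ 4 ≤ (2 ^ p.z) ^ 4 := pow_le_pow_left₀ (by positivity) k0 4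
      calc (p.z : ℝ) ^ 36 * ((X e : ℝ) - p.c e) ^ 2 * (p.z : ℝ) ^ 4
          = (p.z : ℝ) ^ 20 * (((p.z : ℝ) ^ 5) ^ 4 * ((X e : ℝ) - p.c e) ^ 2) := by ring
        _ ≤ (p.z : ℝ) ^ 20 * ((2 ^ p.z) ^ 4 * (2 ^ p.z) ^ 2) := by gcongr
        _ = _ := by ring
    refine (sum_le_sum fun e _ => k1 e).trans ?_
    have k2 : (p.n : ℝ) ≤ p.z := by
      have : p.n ≤ p.z := by have := h.N_le; omega
      exact_mod_cast this
    simp only [sum_const, card_univ, Fintype.card_fin, nsmul_eq_mul]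
    calc (p.n : ℝ) * (1 / (p.z : ℝ) ^ 4) ≤ p.z * (1 / (p.z : ℝ) ^ 4) := by gcongr
      _ = _ := by field_simp
  have h4 : 4 / (p.z : ℝ) ^ 3 + 1 / (p.z : ℝ) ^ 3 ≤ 1 / (p.z : ℝ) ^ 2 := by
    rw [← add_div, div_le_div_iff₀ (by positivity) (by positivity)]
    nlinarith [pow_pos hz0 2]
  unfold U
  simp only [endsA_state]
  linarith

theorem OK.eb_LN (h : p.OK ρ) : (p.L : ℤ) * ((p.n + p.n : ℕ) : ℤ) ^ 2 ≤ p.zZ ^ 2 := by
  have h1 : p.L * (p.n + p.n) ≤ p.z :=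
    (Nat.mul_le_mul (by omega) (by omega)).trans h.size
  have h2 : p.n + p.n ≤ p.z := by have := h.N_le; omega
  have h3 : p.L * (p.n + p.n) ^ 2 ≤ p.z ^ 2 := by
    rw [sq, sq, ← mul_assoc]; exact Nat.mul_le_mul h1 h2
  unfold zZ
  exact_mod_cast h3

theorem OK.eb_deep (h : p.OK ρ) (S : Finset p.V)
    (hS : 0 < (p.wall ρ).cut (fun k => p.zZ ^ (61 + 5 * k)) S) :
    3 * p.zZ ^ 11 + 4 * p.zZ ^ 5 * (2 * p.zZ ^ 4 * (p.wall ρ).cut (fun k => p.zZ ^ (61 + 5 * k)) S) ≤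
      ρ S - sm p.ys S := by
  classical
  have hz := h.zZ_ge
  have hz0 : 0 < p.zZ := by omega
  have hne : ((range p.L).filter fun k =>
      ∃ a b, p.lv.cls k a = p.lv.cls k b ∧ a ∈ S ∧ b ∉ S).Nonempty := by
    by_contra hne
    refine hS.ne' (sum_eq_zero fun k hk => sum_eq_zero fun a _ => sum_eq_zero fun b _ =>
      if_neg fun hc => hne ⟨k, mem_filter.2 ⟨hk, a, b, hc⟩⟩)
  obtain ⟨k, hk, hmax⟩ := exists_max_image _ id hne
  obtain ⟨hkL, a, b, hab, ha, hb⟩ := mem_filter.1 hk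
  have h1 := h.cen.deep k (mem_range.1 hkL) b a hab.symm S hb ha
  have h2 : (p.wall ρ).cut (fun k => p.zZ ^ (61 + 5 * k)) S ≤
      ∑ _j ∈ range p.L, ∑ _a : p.V, ∑ _b : p.V, p.zZ ^ (61 + 5 * k) := by
    refine sum_le_sum fun j hj => sum_le_sum fun a' _ => sum_le_sum fun b' _ => ?_
    split_ifs with hc
    · have : j ≤ k := hmax j (mem_filter.2 ⟨hj, a', b', hc⟩)
      exact pow_le_pow_right₀ (by omega) (by omega)
    · positivity
  simp only [sum_const, card_range, card_univ, Fintype.card_fin, nsmul_eq_mul] at h2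
  have h3 : (p.wall ρ).cut (fun k => p.zZ ^ (61 + 5 * k)) S ≤ p.zZ ^ 2 * p.zZ ^ (61 + 5 * k) :=
    h2.trans (by
      rw [← mul_assoc, ← mul_assoc, mul_assoc (p.L : ℤ), ← sq]
      exact mul_le_mul_of_nonneg_right h.eb_LN (by positivity))
  have h4 : p.zZ ^ 11 ≤ p.zZ ^ (72 + 5 * k) := pow_le_pow_right₀ (by omega) (by omega)
  have h5 : 11 ≤ p.zZ ^ 3 := le_trans (by omega) (le_self_pow₀ (by omega) (by norm_num))
  calc _ ≤ 3 * p.zZ ^ (72 + 5 * k) +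
        4 * p.zZ ^ 5 * (2 * p.zZ ^ 4 * (p.zZ ^ 2 * p.zZ ^ (61 + 5 * k))) := by gcongr
    _ = 11 * p.zZ ^ (72 + 5 * k) := by ring
    _ ≤ p.zZ ^ 3 * p.zZ ^ (72 + 5 * k) := by gcongr
    _ = p.zZ ^ (75 + 5 * k) := by ring
    _ ≤ _ := h1

theorem eb_pow {z : ℝ} (hz : 64 ≤ z) {N : ℕ} (hN : (N : ℝ) ≤ z) :
    (1 + 2 / z ^ 3) ^ N ≤ 1 + 4 / z ^ 2 := by
  have hz0 : 0 < z := by linarith
  have h1 : (1 + 2 / z ^ 3) ^ N ≤ Real.exp (2 / z ^ 3) ^ N :=
    pow_le_pow_left₀ (by positivity) (by linarith [Real.add_one_le_exp (2 / z ^ 3)]) N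
  have h2 : (N : ℝ) * (2 / z ^ 3) ≤ 2 / z ^ 2 :=
    calc (N : ℝ) * (2 / z ^ 3) ≤ z * (2 / z ^ 3) := by gcongr
      _ = _ := by field_simp
  have h3 : 2 / z ^ 2 ≤ 1 := by
    rw [div_le_one (by positivity)]; nlinarith
  have h4 := Real.abs_exp_sub_one_le (x := 2 / z ^ 2) (by rwa [abs_of_pos (by positivity)])
  rw [abs_of_pos (show 0 < 2 / z ^ 2 by positivity)] at h4
  have h5 := (abs_le.1 h4).2
  rw [← Real.exp_nat_mul] at h1
  have h6 := Real.exp_le_exp.2 h2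
  have h7 : 4 / z ^ 2 = 2 * (2 / z ^ 2) := by ring
  linarith

theorem OK.card_relax (h : p.OK ρ) (A : Finset (Fin p.n → ℤ))
    (hA : ∀ X ∈ A, ∀ S, sm (-del p.u p.v X) S ≤
      ρ S + 2 * p.zZ ^ 4 * (p.wall ρ).cut (fun k => p.zZ ^ (61 + 5 * k)) S) :
    (A.card : ℝ) ≤ (1 + 4 / (p.z : ℝ) ^ 2) * (p.sol ρ).card := by
  classical
  have hz := h.zZ_ge
  have hz0 : 0 < p.zZ := by omega
  have hσ : ∀ k < (p.wall ρ).lv.L, 0 ≤ p.zZ ^ (61 + 5 * k) := fun k _ => by positivity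
  have hn : Nrm fun S => ρ S + 2 * p.zZ ^ 4 * (p.wall ρ).cut (fun k => p.zZ ^ (61 + 5 * k)) S :=
    Wall.nrm_add_cut (w := p.wall ρ) h.nrm hσ (by positivity)
  have hdeep := h.eb_deep
  have hc0 := Wall.cut_nonneg (w := p.wall ρ) hσ
  generalize (p.wall ρ).cut (fun k => p.zZ ^ (61 + 5 * k)) = c at *
  obtain ⟨ρ', hρ'⟩ : ∃ ρ' : Finset p.V → ℤ, ρ' = fun S => ρ S + 2 * p.zZ ^ 4 * c S := ⟨_, rfl⟩
  rw [← hρ'] at hn
  have hN := h.N_le
  have key := wb (ρ := ρ) hn (fun S => by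
      rw [hρ']; exact le_add_of_nonneg_right (mul_nonneg (by positivity) (hc0 S))) (piN p.n) hz
    (by rw [Fintype.card_fin]; unfold zZ; exact_mod_cast (by omega))
    (by rw [Fintype.card_fin]; unfold zZ; exact_mod_cast (by omega)) h.cen.inB h.cen.near
    (fun S hS => by
      rw [hρ'] at hS ⊢
      simp only [add_sub_cancel_left]
      exact hdeep S ((mul_pos_iff_of_pos_left (by positivity)).1 ((lt_add_iff_pos_right _).1 hS)))
    ((p.sol ρ).image fun X => -del p.u p.v X)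
    ((Fintype.piFinset fun a => Icc (-ρ' (univ.erase a)) (ρ' {a})).filter (InK ρ' (piN p.n)))
    (fun y hy => mem_image.2 ⟨fun e => y (p.v e), h.mem_sol.2 (p.eq_neg_del hy.2 ▸ hy.1),
      (p.eq_neg_del hy.2).symm⟩)
    (fun y => by
      rw [mem_filter, and_iff_right_iff_imp]
      intro hy
      refine Fintype.mem_piFinset.2 fun a => mem_Icc.2 ⟨?_, ?_⟩
      · have h1 := hy.1.1 (univ.erase a)
        have h2 : y a + sm y (univ.erase a) = 0 :=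
          (add_sum_erase _ _ (mem_univ a)).trans hy.1.2
        omega
      · simpa [sm] using hy.1.1 {a})
  have h1 : A.card ≤ ((Fintype.piFinset fun a => Icc (-ρ' (univ.erase a)) (ρ' {a})).filter
      (InK ρ' (piN p.n))).card := by
    refine card_le_card_of_injOn (fun X => -del p.u p.v X) (fun X hX => ?_) fun X _ Y _ e => ?_
    · have hy : InK ρ' (piN p.n) (-del p.u p.v X) :=
        ⟨⟨fun S => by rw [hρ']; exact hA X hX S, by rw [sm_neg, sm_del, neg_zero]⟩,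
          fun e => by rw [push_eq, neg_del_v, neg_del_u, add_neg_cancel]⟩
      refine mem_coe.2 (mem_filter.2 ⟨Fintype.mem_piFinset.2 fun a => mem_Icc.2 ⟨?_, ?_⟩, hy⟩)
      · have h1 := hy.1.1 (univ.erase a)
        have h2 : (-del p.u p.v X) a + sm (-del p.u p.v X) (univ.erase a) = 0 :=
          (add_sum_erase _ _ (mem_univ a)).trans hy.1.2
        beta_reduce
        omega
      · simpa [sm] using hy.1.1 {a}
    · funext i
      rw [← p.neg_del_v X i, ← p.neg_del_v Y i]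
      exact congrFun e _
  have h2 : (((p.sol ρ).image fun X => -del p.u p.v X).card : ℝ) ≤ (p.sol ρ).card := by
    exact_mod_cast card_image_le
  have h3 : (1 + 2 / (p.zZ : ℝ) ^ 3) ^ Fintype.card p.V ≤ 1 + 4 / (p.z : ℝ) ^ 2 := by
    have : (p.zZ : ℝ) = p.z := by simp [zZ]
    rw [this]
    exact eb_pow h.zR_ge (by rw [card_V]; exact_mod_cast (by omega))
  refine le_trans (by exact_mod_cast h1) (key.trans ?_)
  exact mul_le_mul h3 h2 (Nat.cast_nonneg _) (by positivity)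

theorem OK.eb_wall (h : p.OK ρ) (a : p.V) {X : Fin p.n → ℤ} {S : Finset p.V}
    (hS : ρ S + 2 * p.zZ ^ 4 * (p.wall ρ).cut (fun k => p.zZ ^ (61 + 5 * k)) S <
      sm (-del p.u p.v X) S) : (p.z : ℝ) ^ 4 ≤ p.U ρ p.S a (X, a) := by
  have hz := h.zZ_ge
  have hz0 : 0 < p.zZ := by omega
  have e : -ev a + ev a - del p.u p.v X = -del p.u p.v X := by abel
  have h1 : p.zZ ^ 4 * p.D0 ≤ (p.wall ρ).G (-del p.u p.v X) := by
    refine h.wall_ok.G_wall (σ := fun k => p.zZ ^ (61 + 5 * k)) (Δ := 2 * p.zZ ^ 4) h.D0_pos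
      (one_le_pow₀ (by omega)) (fun k _ => by positivity)
      (fun j k hjk _ => pow_le_pow_right₀ (by omega) (by omega)) (fun k hk => ?_) (fun k hk => ?_)
      rfl ?_ (by rw [sm_neg, sm_del, neg_zero]) hS
    · have hk' : k < p.L := hk
      rw [wall_m ρ hk', D0, ← pow_mul, ← pow_add]
      congr 1; omega
    · have hk' : k < p.L := hk
      rw [wall_τ ρ hk', D0, ← pow_add]
      congr 1; omega
    · have h2 := h.eb_LN
      have h3 : p.zZ ^ 2 ≤ p.zZ ^ 4 := pow_le_pow_right₀ (by omega) (by norm_num)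
      rw [card_V, wall_lv, lv_L]
      omega
  refine le_trans ?_ (h.G_le_U p.S a (X, a))
  have h2 : (0 : ℝ) < p.D0 := by exact_mod_cast h.D0_pos
  rw [le_div_iff₀ h2, e]
  have : (p.z : ℝ) = (p.zZ : ℝ) := by simp [zZ]
  rw [this]
  exact_mod_cast h1

theorem eb_tail {z : ℕ} (hz : 64 ≤ z) :
    (2 : ℝ) ^ z ^ 3 * Real.exp (-(z : ℝ) ^ 4) ≤ 1 / (z : ℝ) ^ 2 := by
  have hzR : (64 : ℝ) ≤ z := by exact_mod_cast hz
  have h1 : (2 : ℝ) ^ z ^ 3 ≤ Real.exp ((z : ℝ) ^ 3) := by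
    have : Real.exp ((z : ℝ) ^ 3) = Real.exp 1 ^ z ^ 3 := by
      rw [← Real.exp_nat_mul]; simp
    rw [this]
    exact pow_le_pow_left₀ (by norm_num) (by linarith [Real.add_one_le_exp 1]) _
  have h2 : (z : ℝ) ^ 2 ≤ Real.exp ((z : ℝ) ^ 2) := by linarith [Real.add_one_le_exp ((z : ℝ) ^ 2)]
  have h3 : (z : ℝ) ^ 3 + (z : ℝ) ^ 2 ≤ (z : ℝ) ^ 4 := by
    have : (z : ℝ) + 1 ≤ (z : ℝ) ^ 2 := by nlinarith
    calc (z : ℝ) ^ 3 + (z : ℝ) ^ 2 = ((z : ℝ) + 1) * (z : ℝ) ^ 2 := by ring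
      _ ≤ (z : ℝ) ^ 2 * (z : ℝ) ^ 2 := by gcongr
      _ = _ := by ring
  rw [le_div_iff₀ (by positivity), Real.exp_neg, mul_right_comm, ← div_eq_mul_inv,
    div_le_one (Real.exp_pos _)]
  calc _ ≤ Real.exp ((z : ℝ) ^ 3) * Real.exp ((z : ℝ) ^ 2) := by gcongr
    _ = Real.exp ((z : ℝ) ^ 3 + (z : ℝ) ^ 2) := (Real.exp_add _ _).symm
    _ ≤ _ := Real.exp_le_exp.2 h3

theorem OK.Z_final (h : p.OK ρ) (a : p.V) :
    (1 - 1 / (p.z : ℝ) ^ 2) * (p.sol ρ).card ≤ p.Z ρ p.S a a ∧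
      p.Z ρ p.S a a ≤ (1 + 5 / (p.z : ℝ) ^ 2) * (p.sol ρ).card := by
  classical
  rw [Z_eq]
  constructor
  · calc (1 - 1 / (p.z : ℝ) ^ 2) * (p.sol ρ).card = ∑ _X ∈ p.sol ρ, (1 - 1 / (p.z : ℝ) ^ 2) := by
          rw [sum_const, nsmul_eq_mul, mul_comm]
      _ ≤ ∑ X ∈ p.sol ρ, Real.exp (-p.U ρ p.S a (X, a)) := sum_le_sum fun X hX => by
          linarith [h.U_sol a hX, Real.add_one_le_exp (-p.U ρ p.S a (X, a))]
      _ ≤ _ := sum_le_sum_of_subset_of_nonneg h.sol_subset fun _ _ _ => (Real.exp_pos _).le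
  · rw [← sum_filter_add_sum_filter_not _ fun X => ∀ S, sm (-del p.u p.v X) S ≤
      ρ S + 2 * p.zZ ^ 4 * (p.wall ρ).cut (fun k => p.zZ ^ (61 + 5 * k)) S]
    have h1 := h.card_relax _ fun X (hX : X ∈ (box (p.lo p.S) (p.hi p.S)).filter fun X =>
      ∀ S, sm (-del p.u p.v X) S ≤
        ρ S + 2 * p.zZ ^ 4 * (p.wall ρ).cut (fun k => p.zZ ^ (61 + 5 * k)) S) => (mem_filter.1 hX).2
    have h2 := h.tail_le p.S a a ((p.z : ℝ) ^ 4) _ (filter_subset (fun X => ¬ ∀ S,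
      sm (-del p.u p.v X) S ≤
        ρ S + 2 * p.zZ ^ 4 * (p.wall ρ).cut (fun k => p.zZ ^ (61 + 5 * k)) S) _) fun X hX => by
      obtain ⟨S, hS⟩ := not_forall.1 (mem_filter.1 hX).2
      exact h.eb_wall a (not_le.1 hS)
    have h3 := eb_tail h.z_ge
    have h4 : (1 : ℝ) ≤ (p.sol ρ).card := by exact_mod_cast h.sol_nonempty.card_pos
    have h5 : 1 / (p.z : ℝ) ^ 2 ≤ 1 / (p.z : ℝ) ^ 2 * (p.sol ρ).card :=
      le_mul_of_one_le_right (by positivity) h4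
    have h6 : (1 + 5 / (p.z : ℝ) ^ 2) * (p.sol ρ).card =
        (1 + 4 / (p.z : ℝ) ^ 2) * (p.sol ρ).card + 1 / (p.z : ℝ) ^ 2 * (p.sol ρ).card := by ring
    rw [h6]
    refine add_le_add (le_trans ?_ h1) (h2.trans (h3.trans h5))
    rw [card_eq_sum_ones, Nat.cast_sum]
    refine sum_le_sum fun X _ => ?_
    rw [Nat.cast_one, Real.exp_le_one_iff]
    linarith [h.U_nonneg p.S a (X, a)]

theorem endsA_getD (X : List ℤ) (i : ℕ) : |X.getD i 0| ≤ 2 ^ size X := by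
  rw [List.getD_eq_getElem?_getD]
  rcases h : X[i]? with _ | x
  · simp
  · have h1 := size_le_of_mem (List.mem_of_getElem? h)
    rw [size_int] at h1
    have h2 : x.natAbs ≤ 2 ^ size X :=
      (Nat.lt_size_self _).le.trans (Nat.pow_le_pow_right (by norm_num) (by omega))
    rw [Option.getD_some, ← Int.natCast_natAbs]
    exact_mod_cast h2

theorem memb_spec (hrep : Rep (p.n + p.n) (rho p.o) ρ) (hn : Nrm ρ) (hb : ∀ S, |ρ S| ≤ 2 ^ p.L)
    (X : List ℤ) : p.memb X = true ↔ InB ρ (-del p.u p.v (vecL p.n X)) := by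
  obtain ⟨y, hy⟩ : ∃ y, y = -del p.u p.v (vecL p.n X) := ⟨_, rfl⟩
  have hyN : ∀ b : p.V, p.yN X 0 0 b = y b := fun b => hy ▸ yN_zero p X b
  have h1 : Rep (p.n + p.n) (p.slack X) fun S => ρ S - sm y S := fun l => by
    rw [slack, hrep l, N, tab_eq_ofFn, List.sum_ofFn]
    simp only [sm, toS, sum_filter, hyN]
  have h2 : Submod fun S => ρ S - sm y S := fun A B => by
    have := hn.sub A B
    have := sm_union_inter y A B
    linarith
  have h3 : ∀ b, |y b| ≤ 2 ^ size X := fun b => by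
    rw [← hyN, yN, sub_self, zero_add]
    split_ifs
    · exact endsA_getD _ _
    · rw [abs_neg]; exact endsA_getD _ _
  have h4 : ∀ S, |ρ S - sm y S| ≤ 2 ^ (size X + p.L + p.N + 2) := fun S => by
    have k1 : |sm y S| ≤ (p.N : ℤ) * 2 ^ size X := by
      refine (abs_sum_le_sum_abs _ _).trans ((sum_le_sum fun b _ => h3 b).trans ?_)
      rw [sum_const, nsmul_eq_mul]
      refine mul_le_mul_of_nonneg_right ?_ (by positivity)
      exact_mod_cast (card_le_univ S).trans_eq (card_V p)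
    have k2 : (p.N : ℤ) ≤ 2 ^ p.N := by exact_mod_cast Nat.lt_two_pow_self.le
    have k3 : (p.N : ℤ) * 2 ^ size X ≤ 2 ^ (size X + p.L + p.N) :=
      (mul_le_mul_of_nonneg_right k2 (by positivity)).trans (by
        rw [← pow_add]; exact pow_le_pow_right₀ (by norm_num) (by omega))
    have k4 : (2 : ℤ) ^ p.L ≤ 2 ^ (size X + p.L + p.N) := pow_le_pow_right₀ (by norm_num) (by omega)
    have k5 : (0 : ℤ) < 2 ^ (size X + p.L + p.N) := by positivity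
    have := hb S
    refine (abs_sub _ _).trans ?_
    rw [pow_add _ _ 2]
    linarith
  have h5 := sfm_ok _ _ _ _ h1 h2 h4
  rw [memb, decide_eq_true_iff, h1, ← hy]
  refine ⟨fun h0 => ⟨fun S => sub_nonneg.1 (h0.trans (h5 S)), ?_⟩, fun h0 => sub_nonneg.2 (h0.1 _)⟩
  rw [hy, sm_neg, sm_del, neg_zero]

theorem OK.mu_bad (h : p.OK ρ) :
    p.mu ρ p.S (fun X => ind (¬ p.memb X = true)) ≤ 8 / (p.z : ℝ) ^ 2 := by
  classical
  have hz := h.zR_ge
  have hz0 : (0 : ℝ) < p.z := by linarith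
  obtain ⟨w⟩ : Nonempty p.V := ⟨⟨0, by have := h.n_pos; omega⟩⟩
  obtain ⟨h1, h2⟩ := h.Z_final w
  have hZ := h.Z_pos p.S w w
  have h3 : p.Sg ρ p.S w w (fun X => ind (¬ p.memb (List.ofFn X) = true)) =
      ∑ X ∈ box (p.lo p.S) (p.hi p.S) \ p.sol ρ, Real.exp (-p.U ρ p.S w (X, w)) := by
    rw [sdiff_eq_filter, sum_filter]
    refine sum_congr rfl fun X _ => ?_
    beta_reduce
    rw [wt_F_eq, memb_spec h.rep h.nrm h.bd, vecL_ofFn, ← h.mem_sol, ind]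
    split_ifs <;> simp
  have h4 := sum_sdiff (f := fun X => Real.exp (-p.U ρ p.S w (X, w))) h.sol_subset
  rw [← Z_eq] at h4
  have h5 : (1 - 1 / (p.z : ℝ) ^ 2) * (p.sol ρ).card ≤
      ∑ X ∈ p.sol ρ, Real.exp (-p.U ρ p.S w (X, w)) := by
    rw [mul_comm, ← nsmul_eq_mul]
    refine card_nsmul_le_sum _ _ _ fun X hX => ?_
    linarith [h.U_sol w hX, Real.add_one_le_exp (-p.U ρ p.S w (X, w))]
  obtain ⟨ε, hε⟩ : ∃ ε : ℝ, ε = 1 / (p.z : ℝ) ^ 2 := ⟨_, rfl⟩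
  have h6 : 0 ≤ ε := by rw [hε]; positivity
  have h7 : ε ≤ 1 / 4 := by
    rw [hε]; exact one_div_le_one_div_of_le (by norm_num) (by nlinarith)
  have h8 : (0 : ℝ) ≤ (p.sol ρ).card := Nat.cast_nonneg _
  rw [mu_eq ρ p.S w, h3, div_le_iff₀ hZ, show 8 / (p.z : ℝ) ^ 2 = 8 * ε by rw [hε]; ring]
  rw [show 5 / (p.z : ℝ) ^ 2 = 5 * ε by rw [hε]; ring] at h2
  rw [← hε] at h1 h5
  have h9 := mul_le_mul_of_nonneg_left h1 h6
  have h10 := mul_le_mul_of_nonneg_left h7 (mul_nonneg h6 h8)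
  nlinarith

end Crest.Agent.R302.Pre
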