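import Crest.Agent.R302.Impl
import Crest.Agent.R309.PTb

/-!
# Row 302: the estimator runs in polynomial time with the oracle
-/

set_option autoImplicit false

namespace Crest.Agent.R302

open Crest.Agent.Lib.PolyTime Crest.Agent.R309

variable {α : Type} [Enc α] [Ok α]

@[fun_prop] theorem opt_rho {o : α → Ora} {l : α → List Bool} (ho : OPT o) (hl : OPT l) :
    OPT fun a => rho (o a) (l a) := by
  unfold rho; fun_prop

@[fun_prop] theorem opt_clsN {c : α → List (List ℕ)} {k b : α → ℕ} (hc : OPT c) (hk : OPT k)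
    (hb : OPT b) : OPT fun a => clsN (c a) (k a) (b a) := by
  unfold clsN; fun_prop

@[fun_prop] theorem opt_krus {x : α → Inst × ℤ} (hx : OPT x) : OPT fun a => krus (x a) :=
  OPT.ofPT₁ exists_krus.choose_spec.1 hx

@[fun_prop] theorem opt_tayN {k : α → ℕ} {c b : α → ℤ} (hk : OPT k) (hc : OPT c) (hb : OPT b) :
    OPT fun a => tayN (k a) (c a) (b a) := OPT.ofPT₃ (φ := tayN) (by fun_prop) hk hc hb

@[fun_prop] theorem opt_tayD {k : α → ℕ} {b : α → ℤ} (hk : OPT k) (hb : OPT b) :
    OPT fun a => tayD (k a) (b a) := OPT.ofPT₂ (φ := tayD) (by fun_prop) hk hb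

@[fun_prop] theorem opt_median {l : α → List ℤ} (hl : OPT l) : OPT fun a => median (l a) :=
  OPT.ofPT₁ (φ := median) (by fun_prop) hl

namespace Pre

variable {p : α → Pre} {e j s w t k r b i : α → ℕ} {x li : α → ℤ} {X : α → List ℤ}
  {τ : α → List Bool} {row : α → List (ℤ × ℤ)} {y : α → List ℤ × ℕ} {h : α → Hist}

@[fun_prop] theorem opt_o (hp : OPT p) : OPT fun a => (p a).o := by unfold o; fun_prop
@[fun_prop] theorem opt_z (hp : OPT p) : OPT fun a => (p a).z := by unfold z; fun_prop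
@[fun_prop] theorem opt_y (hp : OPT p) : OPT fun a => (p a).y := by unfold Pre.y; fun_prop
@[fun_prop] theorem opt_cls (hp : OPT p) : OPT fun a => (p a).cls := by unfold cls; fun_prop
@[fun_prop] theorem opt_n' (hp : OPT p) : OPT fun a => (p a).n := by unfold n; fun_prop
@[fun_prop] theorem opt_N (hp : OPT p) : OPT fun a => (p a).N := by unfold N; fun_prop
@[fun_prop] theorem opt_L (hp : OPT p) : OPT fun a => (p a).L := by unfold L; fun_prop
@[fun_prop] theorem opt_zZ (hp : OPT p) : OPT fun a => (p a).zZ := by unfold zZ; fun_prop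
@[fun_prop] theorem opt_D0 (hp : OPT p) : OPT fun a => (p a).D0 := by unfold D0; fun_prop
@[fun_prop] theorem opt_ms (hp : OPT p) : OPT fun a => (p a).ms := by unfold ms; fun_prop
@[fun_prop] theorem opt_taus (hp : OPT p) : OPT fun a => (p a).taus := by unfold taus; fun_prop
@[fun_prop] theorem opt_PP (hp : OPT p) : OPT fun a => (p a).PP := by unfold PP; fun_prop
@[fun_prop] theorem opt_gv (hp : OPT p) (hX : OPT X) : OPT fun a => (p a).gv (X a) :=
  evalG_opt (f := fun a => rho (p a).o) (by fun_prop) (by fun_prop)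
@[fun_prop] theorem opt_Wd (hp : OPT p) (hk : OPT k) : OPT fun a => (p a).Wd (k a) := by
  unfold Wd; fun_prop
@[fun_prop] theorem opt_J (hp : OPT p) : OPT fun a => (p a).J := by unfold J; fun_prop
@[fun_prop] theorem opt_jj (hp : OPT p) (hs : OPT s) (he : OPT e) :
    OPT fun a => (p a).jj (s a) (e a) := by unfold jj; fun_prop
@[fun_prop] theorem opt_om (hp : OPT p) (hj : OPT j) : OPT fun a => (p a).om (j a) := by
  unfold om; fun_prop
@[fun_prop] theorem opt_hb (hp : OPT p) (hj : OPT j) : OPT fun a => (p a).hb (j a) := by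
  unfold hb; fun_prop
@[fun_prop] theorem opt_c (hp : OPT p) (he : OPT e) : OPT fun a => (p a).c (e a) := by
  unfold c; fun_prop
@[fun_prop] theorem opt_loN (hp : OPT p) (hs : OPT s) (he : OPT e) :
    OPT fun a => (p a).loN (s a) (e a) := by unfold loN; fun_prop
@[fun_prop] theorem opt_hiN (hp : OPT p) (hs : OPT s) (he : OPT e) :
    OPT fun a => (p a).hiN (s a) (e a) := by unfold hiN; fun_prop
@[fun_prop] theorem opt_S (hp : OPT p) : OPT fun a => (p a).S := by unfold S; fun_prop
@[fun_prop] theorem opt_cell (hp : OPT p) (hs : OPT s) : OPT fun a => (p a).cell (s a) := by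
  unfold cell; fun_prop
@[fun_prop] theorem opt_yN (hp : OPT p) (hX : OPT X) (ht : OPT t) (hw : OPT w) (hb : OPT b) :
    OPT fun a => (p a).yN (X a) (t a) (w a) (b a) := by unfold yN; fun_prop
@[fun_prop] theorem opt_c0 (hp : OPT p) : OPT fun a => (p a).c0 := by unfold c0; fun_prop
@[fun_prop] theorem opt_csN (hp : OPT p) (hX : OPT X) (ht : OPT t) (hw : OPT w) (hk : OPT k)
    (hr : OPT r) : OPT fun a => (p a).csN (X a) (t a) (w a) (k a) (r a) := by
  unfold csN; fun_prop
@[fun_prop] theorem opt_Mt (hp : OPT p) : OPT fun a => (p a).Mt := by unfold Mt; fun_prop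
@[fun_prop] theorem opt_nv (hp : OPT p) : OPT fun a => (p a).nv := by unfold nv; fun_prop
@[fun_prop] theorem opt_uG (hp : OPT p) (ht : OPT t) : OPT fun a => (p a).uG (t a) := by
  unfold uG; fun_prop
@[fun_prop] theorem opt_vG (hp : OPT p) (ht : OPT t) : OPT fun a => (p a).vG (t a) := by
  unfold vG; fun_prop
@[fun_prop] theorem opt_sc (hp : OPT p) (hs : OPT s) (ht : OPT t) :
    OPT fun a => (p a).sc (s a) (t a) := by unfold sc; fun_prop
@[fun_prop] theorem opt_thr (hp : OPT p) : OPT fun a => (p a).thr := by unfold thr; fun_prop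
@[fun_prop] theorem opt_gam (hp : OPT p) (hs : OPT s) : OPT fun a => (p a).gam (s a) := by
  unfold gam; fun_prop
@[fun_prop] theorem opt_kr (hp : OPT p) (hs : OPT s) : OPT fun a => (p a).kr (s a) := by
  unfold kr; fun_prop
@[fun_prop] theorem opt_pathN (hp : OPT p) (hs : OPT s) (hb : OPT b) (ht : OPT t) :
    OPT fun a => (p a).pathN (s a) (b a) (t a) := by unfold pathN; fun_prop
@[fun_prop] theorem opt_tree (hp : OPT p) (hs : OPT s) (ht : OPT t) :
    OPT fun a => (p a).tree (s a) (t a) := by unfold tree; fun_prop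
@[fun_prop] theorem opt_thick (hp : OPT p) (hs : OPT s) (ht : OPT t) :
    OPT fun a => (p a).thick (s a) (t a) := by unfold thick; fun_prop
@[fun_prop] theorem opt_free (hp : OPT p) (hs : OPT s) (ht : OPT t) :
    OPT fun a => (p a).free (s a) (t a) := by unfold free; fun_prop
@[fun_prop] theorem opt_st (hp : OPT p) (hs : OPT s) (ht : OPT t) :
    OPT fun a => (p a).st (s a) (t a) := by unfold st; fun_prop
@[fun_prop] theorem opt_cycN (hp : OPT p) (hs : OPT s) (he : OPT e) (ht : OPT t) :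
    OPT fun a => (p a).cycN (s a) (e a) (t a) := by unfold cycN; fun_prop
@[fun_prop] theorem opt_paN (hp : OPT p) (hs : OPT s) (he : OPT e) (hb : OPT b) (ht : OPT t) :
    OPT fun a => (p a).paN (s a) (e a) (b a) (t a) := by unfold paN; fun_prop
@[fun_prop] theorem opt_K (hp : OPT p) : OPT fun a => (p a).K := by unfold K; fun_prop
@[fun_prop] theorem opt_un (hp : OPT p) : OPT fun a => (p a).un := by unfold un; fun_prop
@[fun_prop] theorem opt_gaussN (hp : OPT p) (hj : OPT j) (he : OPT e) (hx : OPT x) :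
    OPT fun a => (p a).gaussN (j a) (e a) (x a) := by unfold gaussN; fun_prop
@[fun_prop] theorem opt_UN (hp : OPT p) (hs : OPT s) (hw : OPT w) (hy : OPT y) :
    OPT fun a => (p a).UN (s a) (w a) (y a) := by unfold UN; fun_prop
@[fun_prop] theorem opt_eN (hp : OPT p) (hx : OPT x) : OPT fun a => (p a).eN (x a) := by
  unfold eN; fun_prop
@[fun_prop] theorem opt_eD (hp : OPT p) : OPT fun a => (p a).eD := by unfold eD; fun_prop
@[fun_prop] theorem opt_inOm (hp : OPT p) (hs : OPT s) (hX : OPT X) :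
    OPT fun a => (p a).inOm (s a) (X a) := by unfold inOm; fun_prop
@[fun_prop] theorem opt_mvN (hp : OPT p) (hs : OPT s) (hk : OPT k) (hi : OPT i) (hj : OPT j)
    (hx : OPT x) (hb : OPT b) : OPT fun a => (p a).mvN (s a) (k a) (i a) (j a) (x a) (b a) := by
  unfold mvN; fun_prop
@[fun_prop] theorem opt_propN {sg : α → Bool} {q : α → List ℤ × ℕ × ℕ} (hp : OPT p) (hy : OPT y)
    (hs : OPT sg) (hq : OPT q) : OPT fun a => (p a).propN (y a) (sg a) (q a) := by
  unfold propN; fun_prop

theorem idx_le (p : Pre) (τ : List Bool) : p.idx τ ≤ 5 * p.z ^ 2 := by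
  unfold idx
  rcases Nat.eq_zero_or_pos p.z with h0 | h0
  · simp [K, h0, chunk, num, Bin.valMSB]
  · have := Int.emod_lt_of_pos (num (chunk p.K 1 τ))
      (show (0 : ℤ) < ((5 * p.z ^ 2 : ℕ) : ℤ) by positivity)
    omega

@[fun_prop] theorem opt_idx (hp : OPT p) (hτ : OPT τ) : OPT fun a => (p a).idx (τ a) :=
  OPT.toNat_of_le (n := fun a => 5 * (p a).z ^ 2) (by fun_prop) (by fun_prop)
    fun a => (p a).idx_le (τ a)
@[fun_prop] theorem opt_propT (hp : OPT p) (hs : OPT s) (hy : OPT y) (hτ : OPT τ) :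
    OPT fun a => (p a).propT (s a) (y a) (τ a) := by unfold propT; fun_prop
@[fun_prop] theorem opt_rn (hw : OPT w) (hr : OPT row) (hl : OPT li) (hb : OPT b) :
    OPT fun a => rn (w a) (row a) (li a) (b a) := by unfold rn; fun_prop
@[fun_prop] theorem opt_rd (hr : OPT row) (hb : OPT b) : OPT fun a => rd (row a) (b a) := by
  unfold rd; fun_prop
@[fun_prop] theorem opt_step (hp : OPT p) (hs : OPT s) (hw : OPT w) (hr : OPT row) (hl : OPT li)
    (hy : OPT y) (hτ : OPT τ) :
    OPT fun a => (p a).step (s a) (w a) (row a) (li a) (y a) (τ a) := by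
  unfold step; fun_prop

/-- bound for the half-widths -/
def hbB (p : Pre) : ℤ := 2 ^ p.J * ((p.z ^ 10 + p.J : ℕ) : ℤ)

/-- size of a vector inside one of the boxes -/
def boxSize (p : Pre) : ℕ := (tab p.n fun e => 2 * size (|p.c e| + p.hbB) + 1).sum

theorem pb_boxSize (hp : OPT p) : PB fun a => (p a).boxSize := by
  refine OPT.pb_nat ?_
  unfold boxSize hbB; fun_prop

theorem hb_le_hbB (p : Pre) (s e : ℕ) : p.hb (p.jj s e) ≤ p.hbB := by
  have h1 : p.jj s e ≤ p.J := min_le_left _ _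
  refine (Int.ediv_le_self _ (by unfold om; positivity)).trans ?_
  unfold om hbB
  have h2 : p.jj s e / p.z ^ 10 ≤ p.J := (Nat.div_le_self _ _).trans h1
  have h3 : p.jj s e % p.z ^ 10 ≤ p.J := (Nat.mod_le _ _).trans h1
  gcongr
  norm_num

theorem mvN_tok (p : Pre) (s k i j : ℕ) (J : ℤ) (a : ℕ) :
    (p.mvN s k i j J a).2.1 ≤ max a p.N ∧ (p.mvN s k i j J a).2.2 ≤ max a p.N := by
  unfold mvN N
  split_ifs <;> simp only <;> omega

theorem propN_cases (p : Pre) (x : List ℤ × ℕ) (sg : Bool) (r : List ℤ × ℕ × ℕ) :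
    p.propN x sg r = x ∨ ∃ g : ℕ → ℤ, (p.propN x sg r).1 = tab p.n g ∧
      ((p.propN x sg r).2 = r.2.1 ∨ (p.propN x sg r).2 = r.2.2) := by
  unfold propN
  split_ifs
  · exact Or.inr ⟨_, rfl, Or.inr rfl⟩
  · exact Or.inl rfl
  · exact Or.inr ⟨_, rfl, Or.inl rfl⟩
  · exact Or.inl rfl

theorem size_le_boxSize (p : Pre) {s : ℕ} {X : List ℤ} (h : p.inOm s X = true) {g : ℕ → ℤ}
    (hg : X = tab p.n g) : size X ≤ p.boxSize := by
  unfold inOm at h
  rw [List.all_eq_true] at h
  rw [hg]
  refine size_tab_le_sum _ _ _ fun e he => ?_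
  have h1 := h e (List.mem_range.2 he)
  rw [hg, getD_tab _ _ he, Bool.and_eq_true, decide_eq_true_eq, decide_eq_true_eq] at h1
  have h2 := p.hb_le_hbB s e
  have h3 := le_abs_self (p.c e)
  have h4 := neg_abs_le (p.c e)
  unfold loN hiN at h1
  exact size_int_le_of_natAbs_le (by omega)

theorem step_bound (p : Pre) (s w : ℕ) (row : List (ℤ × ℤ)) (li : ℤ) (x : List ℤ × ℕ)
    (τ : List Bool) :
    size (p.step s w row li x τ).1 ≤ max (size x.1) p.boxSize ∧
      (p.step s w row li x τ).2 ≤ max x.2 p.N := by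
  unfold step
  split_ifs with h
  · have h2 := p.mvN_tok s (p.idx τ / p.z ^ 2) (p.idx τ / p.z % p.z) (p.idx τ % p.z)
      (num (chunk p.K 2 τ)) x.2
    rcases p.propN_cases x (τ.getD 1 false) (p.mvN s (p.idx τ / p.z ^ 2) (p.idx τ / p.z % p.z)
      (p.idx τ % p.z) (num (chunk p.K 2 τ)) x.2) with h1 | ⟨g, hg, h1⟩
    · have h3 : p.propT s x τ = x := h1
      rw [h3]
      exact ⟨le_max_left _ _, le_max_left _ _⟩
    · refine ⟨(p.size_le_boxSize h.2.1 (g := g) hg).trans (le_max_right _ _), ?_⟩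
      unfold propT
      rcases h1 with h1 | h1
      · rw [h1]; exact h2.1
      · rw [h1]; exact h2.2
  · exact ⟨le_max_left _ _, le_max_left _ _⟩

theorem foldT_step_bound (p : Pre) (s w : ℕ) (row : List (ℤ × ℤ)) (li : ℤ) (x : List ℤ × ℕ)
    (τ : List Bool) (ℓ i : ℕ) :
    size (foldT (fun _ => p.step s w row li) ℓ i x τ).1 ≤ max (size x.1) p.boxSize ∧
      (foldT (fun _ => p.step s w row li) ℓ i x τ).2 ≤ max x.2 p.N := by
  induction i with
  | zero => exact ⟨le_max_left _ _, le_max_left _ _⟩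
  | succ i ih =>
    rw [foldT_succ]
    have := p.step_bound s w row li (foldT (fun _ => p.step s w row li) ℓ i x τ) (chunk ℓ i τ)
    omega

@[fun_prop] theorem opt_run (hp : OPT p) (hs : OPT s) (hw : OPT w) (hr : OPT row) (hl : OPT li)
    (hX : OPT X) (hτ : OPT τ) : OPT fun a => (p a).run (s a) (w a) (row a) (li a) (X a) (τ a) := by
  unfold run
  refine OPT.foldT (step := fun a _ => (p a).step (s a) (w a) (row a) (li a)) (by fun_prop)
    (by fun_prop) (by fun_prop) (by fun_prop) hτ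
    (B := fun a => 2 * (size (X a) + (p a).boxSize) + 1 + (w a + (p a).N)) ?_ fun a i _ => ?_
  · exact (((PB.const 2).mul (hX.pb.add (pb_boxSize hp))).add (PB.const 1)).add
      (hw.pb_nat.add (opt_N hp).pb_nat)
  · have := (p a).foldT_step_bound (s a) (w a) (row a) (li a) (X a, w a) (τ a) (4 * (p a).K) i
    rw [size_prod', size_nat]
    simp only at this
    omega

theorem size_run_fst (p : Pre) (s w : ℕ) (row : List (ℤ × ℤ)) (li : ℤ) (X : List ℤ)
    (τ : List Bool) : size (p.run s w row li X τ).1 ≤ max (size X) p.boxSize :=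
  (p.foldT_step_bound s w row li (X, w) τ _ _).1

@[fun_prop] theorem opt_l1 (hp : OPT p) : OPT fun a => (p a).l1 := by unfold l1; fun_prop
@[fun_prop] theorem opt_rowOf (hh : OPT h) (hs : OPT s) (hw : OPT w) :
    OPT fun a => rowOf (h a) (s a) (w a) := by unfold rowOf; fun_prop
@[fun_prop] theorem opt_transit (hp : OPT p) (hh : OPT h) (hi : OPT i) (hX : OPT X) (hτ : OPT τ) :
    OPT fun a => (p a).transit (h a) (i a) (X a) (τ a) := by unfold transit; fun_prop

@[fun_prop] theorem opt_sample (hp : OPT p) (hh : OPT h) (hs : OPT s) (hτ : OPT τ) :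
    OPT fun a => (p a).sample (h a) (s a) (τ a) := by
  refine OPT.foldT (step := fun a => (p a).transit (h a)) (by fun_prop) (by fun_prop) hs
    (by fun_prop) (by fun_prop) (B := fun a => size (p a).c0 + (p a).boxSize)
    ((opt_c0 hp).pb.add (pb_boxSize hp)) fun a k _ => ?_
  exact (R309.Pre.ptb_size_foldT (B := (p a).boxSize) (fun _ y ω _ => size_run_fst _ _ _ _ _ _ _)
    _ _ _).trans (max_le (Nat.le_add_right _ _) (Nat.le_add_left _ _))

@[fun_prop] theorem opt_probeState (hp : OPT p) (hh : OPT h) (hs : OPT s) (hw : OPT w)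
    (hτ : OPT τ) : OPT fun a => (p a).probeState (h a) (s a) (w a) (τ a) := by
  unfold probeState; fun_prop
@[fun_prop] theorem opt_coin (hp : OPT p) (hs : OPT s) (hx : OPT x) (hτ : OPT τ) :
    OPT fun a => (p a).coin (s a) (x a) (τ a) := by unfold coin; fun_prop
@[fun_prop] theorem opt_probeA (hp : OPT p) (hh : OPT h) (hs : OPT s) (hw : OPT w) (hb : OPT b)
    (hτ : OPT τ) : OPT fun a => (p a).probeA (h a) (s a) (w a) (b a) (τ a) := by
  unfold probeA; fun_prop
@[fun_prop] theorem opt_probeB (hp : OPT p) (hh : OPT h) (hs : OPT s) (hw : OPT w) (hb : OPT b)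
    (hτ : OPT τ) : OPT fun a => (p a).probeB (h a) (s a) (w a) (b a) (τ a) := by
  unfold probeB; fun_prop
@[fun_prop] theorem opt_l2 (hp : OPT p) : OPT fun a => (p a).l2 := by unfold l2; fun_prop
@[fun_prop] theorem opt_l3 (hp : OPT p) : OPT fun a => (p a).l3 := by unfold l3; fun_prop
@[fun_prop] theorem opt_l4 (hp : OPT p) : OPT fun a => (p a).l4 := by unfold l4; fun_prop
@[fun_prop] theorem opt_hist0 (hp : OPT p) : OPT fun a => (p a).hist0 := by unfold hist0; fun_prop

@[fun_prop] theorem opt_stage (hp : OPT p) (hs : OPT s) (hh : OPT h) (hτ : OPT τ) :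
    OPT fun a => (p a).stage (s a) (h a) (τ a) := by
  unfold stage
  refine OPT.append hh (OPT.cons (OPT.tab (by fun_prop) (OPT.tab (by fun_prop) ?_)) (OPT.const _))
  exact OPT.pair
    (OPT.int_mul (by fun_prop)
      (OPT.natCast (OPT.hits (by fun_prop) (by fun_prop) (by fun_prop) (by fun_prop))))
    (OPT.int_mul (by fun_prop)
      (OPT.natCast (OPT.hits (by fun_prop) (by fun_prop) (by fun_prop) (by fun_prop))))

theorem abs_le_size (x : ℤ) : |x| ≤ 2 ^ size x := by
  rw [size_int, Int.abs_eq_natAbs]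
  exact_mod_cast ((Nat.lt_size_self _).trans_le
    (Nat.pow_le_pow_right two_pos (Nat.le_succ _))).le

open R309.Pre in
theorem learn_bd (p : Pre) (τ : List Bool) (i : ℕ) :
    (foldT p.stage p.l3 i p.hist0 τ).length = i + 1 ∧
      HistBd (foldT p.stage p.l3 i p.hist0 τ) p.N (2 ^ size p.hist0 * (p.zZ ^ 56 + 1) ^ i) := by
  induction i with
  | zero =>
    refine ⟨rfl, fun T hT => ?_⟩
    rw [foldT_zero] at hT
    have h1 := size_le_of_mem hT
    rw [hist0, List.mem_singleton] at hT
    refine ⟨hT ▸ (length_tab _ _).le, fun r hr => ⟨?_, fun q hq => ?_⟩⟩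
    · obtain ⟨_, rfl⟩ := ptb_mem_tab (hT ▸ hr)
      exact (length_tab _ _).le
    · have h2 := size_le_of_mem hr
      have h3 := size_le_of_mem hq
      rw [size_prod'] at h3
      rw [pow_zero, mul_one]
      exact ⟨(abs_le_size _).trans (pow_le_pow_right₀ one_le_two (by omega)),
        (abs_le_size _).trans (pow_le_pow_right₀ one_le_two (by omega))⟩
  | succ i ih =>
    obtain ⟨h1, h2⟩ := ih
    rw [foldT_succ]
    set h := foldT p.stage p.l3 i p.hist0 τ
    set c : ℤ := 2 ^ size p.hist0 * (p.zZ ^ 56 + 1) ^ i with hc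
    have hn : 0 ≤ p.zZ ^ 56 := by unfold zZ; positivity
    have hc1 : 1 ≤ c :=
      one_le_mul_of_one_le_of_one_le (one_le_pow₀ one_le_two) (one_le_pow₀ (by linarith))
    have e : 2 ^ size p.hist0 * (p.zZ ^ 56 + 1) ^ (i + 1) = c * (p.zZ ^ 56 + 1) := by
      rw [hc]; ring
    rw [e]
    have key : ∀ (q : ℤ) (F : List Bool → Bool) (ω : List Bool), |q| ≤ c →
        |q * (hits F p.l2 (p.z ^ 56) ω : ℤ)| ≤ c * (p.zZ ^ 56 + 1) := by
      intro q F ω hq
      have h3 : (hits F p.l2 (p.z ^ 56) ω : ℤ) ≤ p.zZ ^ 56 := by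
        unfold zZ; exact_mod_cast ptb_hits_le _ _ _ _
      rw [abs_mul, Nat.abs_cast]
      exact mul_le_mul hq (by linarith) (Nat.cast_nonneg _) (by linarith)
    refine ⟨by simp [stage, h1], fun T hT => ?_⟩
    rcases List.mem_append.1 hT with hT | hT
    · exact h2.mono (le_mul_of_one_le_right (by linarith) (by linarith)) T hT
    · rw [List.mem_singleton] at hT
      subst hT
      refine ⟨(length_tab _ _).le, fun r hr => ?_⟩
      obtain ⟨w, rfl⟩ := ptb_mem_tab hr
      refine ⟨(length_tab _ _).le, fun q hq => ?_⟩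
      obtain ⟨a, rfl⟩ := ptb_mem_tab hq
      exact ⟨key _ _ _ (h2.entry hc1 i w a).1, key _ _ _ (h2.entry hc1 i w a).2⟩

@[fun_prop] theorem opt_learn (hp : OPT p) (hτ : OPT τ) : OPT fun a => (p a).learn (τ a) := by
  refine OPT.foldT (step := fun a => (p a).stage) (by fun_prop) (by fun_prop) (by fun_prop)
    (by fun_prop) hτ
    (B := fun a => ((p a).S + 1) * (2 * ((p a).N * (2 * ((p a).N *
      (2 * (3 * size ((2 : ℤ) ^ size (p a).hist0 * ((p a).zZ ^ 56 + 1) ^ (p a).S) + 1) + 1)) + 1)) + 1))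
    (OPT.pb_nat (by fun_prop)) fun a k hk => ?_
  obtain ⟨h1, h2⟩ := learn_bd (p a) (τ a) k
  have hn : 0 ≤ (p a).zZ ^ 56 := by unfold zZ; positivity
  refine (h2.mono (c' := 2 ^ size (p a).hist0 * ((p a).zZ ^ 56 + 1) ^ (p a).S)
    (mul_le_mul_of_nonneg_left (pow_le_pow_right₀ (by linarith) hk) (by positivity))).size_le.trans ?_
  rw [h1]
  exact Nat.mul_le_mul_right _ (Nat.succ_le_succ hk)

@[fun_prop] theorem opt_slack {l : α → List Bool} (hp : OPT p) (hX : OPT X) (hl : OPT l) :
    OPT fun a => (p a).slack (X a) (l a) := by unfold slack; fun_prop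

@[fun_prop] theorem opt_memb (hp : OPT p) (hX : OPT X) : OPT fun a => (p a).memb (X a) := by
  have h1 := sfm_opt (f := fun a => (p a).slack (X a)) (N := fun a => (p a).N)
    (b := fun a => size (X a) + (p a).L + (p a).N + 2) (by fun_prop) (by fun_prop) (by fun_prop)
  unfold memb
  exact OPT.int_le (OPT.const _) (opt_slack hp hX h1)

@[fun_prop] theorem opt_raw (hp : OPT p) (hτ : OPT τ) : OPT fun a => (p a).raw (τ a) := by
  unfold raw; fun_prop

theorem opt_med (hp : OPT p) (hτ : OPT τ) : OPT fun a => (p a).med (τ a) := by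
  unfold med; fun_prop

end Pre

end Crest.Agent.R302
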