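import Crest.Agent.R302.Learn
import Crest.Agent.R302.PT

/-!
# Row 302: the approximate counter
-/

set_option autoImplicit false

namespace Crest.Agent.R302

open Finset Crest.Agent.Lib.PolyTime Crest.Agent.R309 Crest.Polymatroid

/-- The preprocessed instance. -/
noncomputable def mkPre (o : Ora) (z : ℕ) : Pre :=
  (o, z, (cen (rho o) (o.n, o.s, z)).1, (cen (rho o) (o.n, o.s, z)).2)

/-- The estimator. -/
noncomputable def est (x : Ora × ℕ × List Bool) : ℤ :=
  if x.1.n = 0 then 1 else |(mkPre x.1 x.2.1).med x.2.2|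

theorem opt_est : OPT est := by
  have h1 : OPT fun x : Ora × ℕ × List Bool => cen (rho x.1) (x.1.n, x.1.s, x.2.1) :=
    cen_opt (f := fun x : Ora × ℕ × List Bool => rho x.1) (by fun_prop) (by fun_prop)
  have h2 : OPT fun x : Ora × ℕ × List Bool => mkPre x.1 x.2.1 :=
    (OPT.fst OPT.id').pair ((OPT.fst (OPT.snd OPT.id')).pair (h1.fst.pair h1.snd))
  exact OPT.ite (by fun_prop) (OPT.const _) (Pre.opt_med h2 (by fun_prop)).int_abs

namespace Pre

variable {p : Pre} {R : ℕ} {r₁ r₂ : Finset (Fin p.n) → ℕ}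

/-- The submodular function on two copies of the ground set. -/
def rhoM (p : Pre) (R : ℕ) (r₁ r₂ : Finset (Fin p.n) → ℕ) (S : Finset p.V) : ℤ :=
  (r₁ (univ.filter fun e => p.v e ∈ S) : ℤ) + r₂ (univ.filter fun e => p.u e ∉ S) - R

theorem rhoM_rep (h : Models p.o R r₁ r₂) : Rep (p.n + p.n) (rho p.o) (p.rhoM R r₁ r₂) := by
  intro l
  have e1 : toS p.n (l.take p.o.n) = univ.filter fun e => p.v e ∈ toS (p.n + p.n) l := by
    ext e
    have : (e : ℕ) < p.o.n := e.2
    simp [toS, v, List.getD_eq_getElem?_getD, this]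
  have e2 : toS p.n (tab p.o.n fun i => !l.getD (p.o.n + i) false) =
      univ.filter fun e => p.u e ∉ toS (p.n + p.n) l := by
    ext e
    have : (e : ℕ) < p.o.n := e.2
    simp only [toS, u, mem_filter, mem_univ, true_and, getD_tab _ _ this, Fin.val_natAdd]
    simp [n]
  have e3 : toS p.n (tab p.o.n fun _ => true) = univ := by
    ext e
    have : (e : ℕ) < p.o.n := e.2
    simp only [toS, mem_filter, mem_univ, true_and, getD_tab _ _ this]
  rw [rho, h.rk₁, h.rk₂, h.rk₂, e1, e2, e3, h.t₂, rhoM]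

theorem rhoM_nrm (h : Models p.o R r₁ r₂) : Nrm (p.rhoM R r₁ r₂) := by
  refine ⟨fun A B => ?_, ?_, ?_⟩
  · have h1 := h.p₁.2.2 (univ.filter fun e => p.v e ∈ A) (univ.filter fun e => p.v e ∈ B)
    have h2 := h.p₂.2.2 (univ.filter fun e => p.u e ∉ A) (univ.filter fun e => p.u e ∉ B)
    simp only [← filter_or, ← filter_and] at h1 h2
    simp only [rhoM, mem_union, mem_inter, not_or, not_and_or]
    omega
  · simp [rhoM, h.p₁.1, h.t₂]
  · simp [rhoM, h.p₂.1, h.t₁]

theorem rank_le (h : Models p.o R r₁ r₂) (A : Finset (Fin p.n)) : r₁ A ≤ R ∧ r₂ A ≤ R :=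
  ⟨h.t₁ ▸ h.p₁.2.1 _ _ (subset_univ _), h.t₂ ▸ h.p₂.2.1 _ _ (subset_univ _)⟩

theorem rhoM_bd (h : Models p.o R r₁ r₂) (S : Finset p.V) : |p.rhoM R r₁ r₂ S| ≤ 2 ^ p.L := by
  have h1 := (rank_le h (univ.filter fun e => p.v e ∈ S)).1
  have h2 := (rank_le h (univ.filter fun e => p.u e ∉ S)).2
  have h3 : (R : ℤ) < 2 ^ p.L := by exact_mod_cast h.bd
  rw [rhoM, abs_le]
  omega

theorem sm_neg_del (p : Pre) (X : Fin p.n → ℤ) (S : Finset p.V) :
    sm (-del p.u p.v X) S = ∑ e with p.v e ∈ S, X e - ∑ e with p.u e ∈ S, X e := by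
  have h1 : sm (-del p.u p.v X) S = ∑ a, if a ∈ S then (-del p.u p.v X) a else 0 := by
    rw [sum_ite_mem, univ_inter, sm]
  rw [h1, par_sum, sum_filter, sum_filter, sub_eq_add_neg, ← sum_neg_distrib]
  simp only [neg_del_v, neg_del_u, apply_ite Neg.neg, neg_zero]

theorem inB_iff (h : Models p.o R r₁ r₂) (X : Fin p.n → ℤ) :
    InB (p.rhoM R r₁ r₂) (-del p.u p.v X) ↔
      ∑ e, X e = R ∧ ∀ A, ∑ e ∈ A, X e ≤ r₁ A ∧ ∑ e ∈ A, X e ≤ r₂ A := by
  constructor
  · rintro ⟨h1, -⟩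
    have key : ∀ A B : Finset (Fin p.n),
        ∑ e ∈ A, X e - ∑ e ∈ B, X e ≤ (r₁ A : ℤ) + r₂ Bᶜ - R := fun A B => by
      have h2 := h1 (A.image p.v ∪ B.image p.u)
      have hv : Function.Injective p.v := Fin.castAdd_injective _ _
      have hu : Function.Injective p.u := Fin.natAdd_injective _ _
      have hne : ∀ e e', p.v e ≠ p.u e' := fun e e' hc => by
        have := congrArg Fin.val hc
        simp only [u, v, Fin.val_castAdd, Fin.val_natAdd] at this
        omega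
      have e1 : (univ.filter fun e => p.v e ∈ A.image p.v ∪ B.image p.u) = A := by
        ext e; simp [hv.eq_iff, (hne _ _).symm]
      have e2 : (univ.filter fun e => p.u e ∈ A.image p.v ∪ B.image p.u) = B := by
        ext e; simp [hu.eq_iff, hne]
      have e3 : (univ.filter fun e => p.u e ∉ A.image p.v ∪ B.image p.u) = Bᶜ := by
        ext e; simp [hu.eq_iff, hne]
      rwa [sm_neg_del, rhoM, e1, e2, e3] at h2
    have k1 := key univ ∅
    have k2 := key ∅ univ
    simp only [sum_empty, compl_empty, compl_univ, h.t₁, h.t₂, h.p₁.1, h.p₂.1] at k1 k2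
    refine ⟨by omega, fun A => ⟨?_, ?_⟩⟩
    · have := key A ∅
      simp only [sum_empty, compl_empty, h.t₂] at this
      omega
    · have := key ∅ Aᶜ
      have h3 := sum_add_sum_compl A X
      simp only [sum_empty, compl_compl, h.p₁.1] at this
      omega
  · rintro ⟨h1, h2⟩
    refine ⟨fun S => ?_, by rw [sm_neg, sm_del, neg_zero]⟩
    have h3 := (h2 (univ.filter fun e => p.v e ∈ S)).1
    have h4 := (h2 (univ.filter fun e => p.u e ∉ S)).2
    have h5 := sum_filter_add_sum_filter_not univ (fun e => p.u e ∈ S) X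
    rw [sm_neg_del, rhoM]
    omega

theorem inB_mem (h : Models p.o R r₁ r₂) {X : Fin p.n → ℤ}
    (hX : InB (p.rhoM R r₁ r₂) (-del p.u p.v X)) (e : Fin p.n) : 0 ≤ X e ∧ X e ≤ R := by
  obtain ⟨h1, h2⟩ := (inB_iff h X).1 hX
  have h3 := (h2 {e}).1
  have h4 := (h2 (univ.erase e)).1
  have h5 := add_sum_erase univ X (mem_univ e)
  have h6 := (rank_le h {e}).1
  have h7 := (rank_le h (univ.erase e)).1
  rw [sum_singleton] at h3
  omega

theorem card_sol (h : Models p.o R r₁ r₂) :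
    (p.sol (p.rhoM R r₁ r₂)).card = numCommonIntBases R r₁ r₂ := by
  classical
  symm
  refine card_bij (fun x _ e => ((x e : ℕ) : ℤ)) (fun x hx => ?_) (fun x _ y _ hxy => ?_)
    fun X hX => ?_
  · obtain ⟨h1, h2⟩ := (mem_filter.1 hx).2
    have h3 := (inB_iff h fun e => ((x e : ℕ) : ℤ)).2
      ⟨by exact_mod_cast h1, fun A => by exact_mod_cast h2 A⟩
    refine mem_filter.2 ⟨mem_box.2 fun e => ?_, h3⟩
    have := abs_le_of_inB (rhoM_bd h) h3 (p.v e)
    rw [neg_del_v] at this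
    exact abs_le.1 this
  · funext e
    exact Fin.ext (by exact_mod_cast congrFun hxy e)
  · have h1 := (mem_filter.1 hX).2
    have h2 := inB_mem h h1
    have h3 : ∀ e, (((X e).toNat : ℕ) : ℤ) = X e := fun e => Int.toNat_of_nonneg (h2 e).1
    refine ⟨fun e => ⟨(X e).toNat, by have := h2 e; omega⟩, mem_filter.2 ⟨mem_univ _, ?_⟩,
      funext h3⟩
    obtain ⟨h4, h5⟩ := (inB_iff h X).1 h1
    refine ⟨?_, fun A => ?_⟩
    · zify; simpa only [h3] using h4
    · zify; simpa only [h3] using h5 A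

theorem no_inB (h : Models p.o R r₁ r₂) (h0 : numCommonIntBases R r₁ r₂ = 0) (X : Fin p.n → ℤ) :
    ¬ InB (p.rhoM R r₁ r₂) (-del p.u p.v X) := fun hX => by
  classical
  rw [← card_sol h, card_eq_zero] at h0
  refine notMem_empty X (h0 ▸ mem_filter.2 ⟨mem_box.2 fun e => ?_, hX⟩)
  have := abs_le_of_inB (rhoM_bd h) hX (p.v e)
  rw [neg_del_v] at this
  exact abs_le.1 this

end Pre

theorem mkPre_ok {o : Ora} {z R : ℕ} {r₁ r₂ : Finset (Fin o.n) → ℕ} (h : Models o R r₁ r₂)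
    (hz : 64 + 8 * (o.n + 1) * (o.s + 2) ≤ z) (hn : o.n ≠ 0) (h0 : numCommonIntBases R r₁ r₂ ≠ 0) :
    (mkPre o z).OK ((mkPre o z).rhoM R r₁ r₂) := by
  have h' : Models (mkPre o z).o (n := (mkPre o z).n) R r₁ r₂ := h
  have hs : (o.s + 2) * (o.n + o.n + 1) ≤ z := by nlinarith
  have hex : ∃ x, InK ((mkPre o z).rhoM R r₁ r₂) (piN (mkPre o z).n) x := by
    classical
    obtain ⟨X, hX⟩ := card_ne_zero.1 fun hc => h0 ((Pre.card_sol h').symm.trans hc)
    refine ⟨_, (mem_filter.1 hX).2, fun e => ?_⟩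
    rw [Pre.push_eq, Pre.neg_del_v, Pre.neg_del_u, add_neg_cancel]
  have hc := cen_ok (rho o) o.n o.s z _ (Pre.rhoM_rep h') (Pre.rhoM_nrm h') (Pre.rhoM_bd h')
    (by omega) hs hex
  exact ⟨Pre.rhoM_rep h', Pre.rhoM_nrm h', Pre.rhoM_bd h', Nat.pos_of_ne_zero hn,
    le_trans (Nat.le_add_right _ _) hz, hs, hex, hc.1, hc.2⟩

theorem count_empty {n R : ℕ} {r₁ r₂ : Finset (Fin n) → ℕ} (hn : n = 0) (h : r₁ ∅ = 0)
    (ht : r₁ univ = R) : numCommonIntBases R r₁ r₂ = 1 := by
  subst hn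
  rw [univ_eq_empty, h] at ht
  subst ht
  rw [numCommonIntBases, filter_true_of_mem fun x _ => by simp]
  simp

theorem est_zero {o : Ora} {z R : ℕ} {r₁ r₂ : Finset (Fin o.n) → ℕ} (h : Models o R r₁ r₂)
    (h0 : numCommonIntBases R r₁ r₂ = 0) (τ : List Bool) : est (o, z, τ) = 0 := by
  have h' : Models (mkPre o z).o (n := (mkPre o z).n) R r₁ r₂ := h
  have hn : o.n ≠ 0 := fun hn => by
    rw [count_empty hn h.p₁.1 h.t₁] at h0
    exact one_ne_zero h0
  rw [est, if_neg hn, Pre.med_zero (Pre.rhoM_rep h') (Pre.rhoM_nrm h') (Pre.rhoM_bd h')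
    (Pre.no_inB h' h0), abs_zero]

theorem exists_est : ∃ est e, EstSpec est e := by
  refine ⟨est, 700, opt_est, fun x => ?_, fun o n R r₁ r₂ z τ h _ h0 => ?_,
    fun o n R r₁ r₂ z L h hz hL => ?_⟩
  · unfold est
    split_ifs
    exacts [zero_le_one, abs_nonneg _]
  · obtain rfl := h.n_eq
    exact est_zero h h0 τ
  · obtain rfl := h.n_eq
    have hz' : ∀ c : List Bool → Prop, (∀ τ, ¬ c τ) → Ex L (fun τ => ind (c τ)) ≤ (1 / 2) ^ z :=
      fun c hc => by
        simp only [ind_of_not (hc _), Ex_const]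
        positivity
    by_cases h0 : numCommonIntBases R r₁ r₂ = 0
    · exact hz' _ fun τ => by simp [est_zero h h0, h0]
    by_cases hn : o.n = 0
    · exact hz' _ fun τ => by simp [est, hn, count_empty hn h.p₁.1 h.t₁]
    have h' : Models (mkPre o z).o (n := (mkPre o z).n) R r₁ r₂ := h
    have h1 := (mkPre_ok h hz hn h0).med_good hL
    rw [Pre.card_sol h'] at h1
    refine le_trans (Ex_mono fun τ _ => ind_mono fun hc => hc.trans_le ?_) h1
    rw [est, if_neg hn]
    refine mul_le_mul_of_nonneg_left ?_ (Int.natCast_nonneg _)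
    conv_lhs => rw [← Nat.abs_cast (R := ℤ) (numCommonIntBases R r₁ r₂)]
    exact abs_abs_sub_abs_le _ _

end Crest.Agent.R302
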