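import Crest.Agent.R302.AlgSpec

/-!
# Row 302: the evaluator of the wall (definitions and running time, complete)

Steepest ascent over the moves `p ↦ p + 2 ^ j • 1_S`; the best `S` is found by submodular minimisation.
-/

set_option autoImplicit false

namespace Crest.Agent.R302

open Finset Crest.Agent.Lib.PolyTime Crest.Agent.R309

namespace GIn

def N (x : GIn) : ℕ := x.1
def L (x : GIn) : ℕ := x.2.1
def b (x : GIn) : ℕ := x.2.2.1
def cls (x : GIn) : List (List ℕ) := x.2.2.2.1
def ms (x : GIn) : List ℤ := x.2.2.2.2.1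
def τs (x : GIn) : List ℤ := x.2.2.2.2.2.1
def P (x : GIn) : ℤ := x.2.2.2.2.2.2.1
def y (x : GIn) : List ℤ := x.2.2.2.2.2.2.2

variable (x : GIn)

/-- sorting key -/
def key (p : List ℤ) (a : ℕ) : ℤ := x.N * p.getD a 0 + a
def up (p : List ℤ) (a : ℕ) : List Bool := tab x.N fun c => decide (x.key p a ≤ x.key p c)
def up' (p : List ℤ) (a : ℕ) : List Bool := tab x.N fun c => decide (x.key p a < x.key p c)
def lovL (f : List Bool → ℤ) (p : List ℤ) : ℤ :=
  (tab x.N fun a => p.getD a 0 * (f (x.up p a) - f (x.up' p a))).sum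
def penL (p : List ℤ) : ℤ :=
  (tab x.L fun k => (tab x.N fun a => (tab x.N fun c =>
    if clsN x.cls k a = clsN x.cls k c then hq (x.ms.getD k 0) (p.getD a 0 - p.getD c 0)
    else 0).sum).sum).sum
def ellL (f : List Bool → ℤ) (p : List ℤ) : ℤ :=
  (tab x.N fun a => p.getD a 0 * x.y.getD a 0).sum - x.lovL f p - x.penL p
/-- total violation of the constraints `Feas` -/
def violL (p : List ℤ) : ℤ :=
  (tab x.N fun a => (tab x.N fun c => max 0 (p.getD a 0 - p.getD c 0 - x.P)).sum).sum +
  (tab x.L fun k => (tab x.N fun a => (tab x.N fun c =>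
    if clsN x.cls k a = clsN x.cls k c then max 0 (p.getD a 0 - p.getD c 0 - x.τs.getD k 0)
    else 0).sum).sum).sum
def mv (p : List ℤ) (j : ℕ) (S : List Bool) : List ℤ :=
  tab x.N fun a => p.getD a 0 + if S.getD a false = true then 2 ^ j else 0
/-- `|ell| ≤ 2 ^ ex` near the feasible vectors -/
def ex : ℕ := 2 * x.b + 4 + x.L + 2 * x.N
def J : ℕ := x.b + 2
def obj (f : List Bool → ℤ) (p : List ℤ) (j : ℕ) (S : List Bool) : ℤ :=
  2 ^ (x.ex + 2) * x.violL (x.mv p j S) - x.ellL f (x.mv p j S)

variable (sfm : (List Bool → ℤ) → ℕ → ℕ → List Bool)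

def cand (f : List Bool → ℤ) (p : List ℤ) (j : ℕ) : List ℤ :=
  x.mv p j (sfm (x.obj f p j) x.N (2 * x.ex + 3))
def bestJ (f : List Bool → ℤ) (p : List ℤ) : ℕ :=
  ((List.range x.J).filter fun j => (List.range x.J).all fun j' =>
    decide (x.ellL f (x.cand sfm f p j') ≤ x.ellL f (x.cand sfm f p j))).headD 0
def stepE (f : List Bool → ℤ) (p : List ℤ) : List ℤ := x.cand sfm f p (x.bestJ sfm f p)
def rounds : ℕ := x.N * x.J * (x.ex + 1)
def evalE (f : List Bool → ℤ) : ℤ := x.ellL f ((x.stepE sfm f)^[x.rounds] [])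

section PT

variable {α : Type} [Enc α] {x : α → GIn} {p : α → List ℤ} {a j : α → ℕ}

@[fun_prop] theorem pt_N (hx : PT x) : PT fun t => (x t).N := by unfold N; fun_prop
@[fun_prop] theorem pt_L (hx : PT x) : PT fun t => (x t).L := by unfold L; fun_prop
@[fun_prop] theorem pt_b (hx : PT x) : PT fun t => (x t).b := by unfold b; fun_prop
@[fun_prop] theorem pt_cls (hx : PT x) : PT fun t => (x t).cls := by unfold cls; fun_prop
@[fun_prop] theorem pt_ms (hx : PT x) : PT fun t => (x t).ms := by unfold ms; fun_prop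
@[fun_prop] theorem pt_τs (hx : PT x) : PT fun t => (x t).τs := by unfold τs; fun_prop
@[fun_prop] theorem pt_P (hx : PT x) : PT fun t => (x t).P := by unfold P; fun_prop
@[fun_prop] theorem pt_y (hx : PT x) : PT fun t => (x t).y := by unfold y; fun_prop
@[fun_prop] theorem _root_.Crest.Agent.R302.pt_clsN {c : α → List (List ℕ)} (hc : PT c) (hj : PT j)
    (ha : PT a) : PT fun t => clsN (c t) (j t) (a t) := by unfold clsN; fun_prop
@[fun_prop] theorem _root_.Crest.Agent.R302.pt_hq {m s : α → ℤ} (hm : PT m) (hs : PT s) :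
    PT fun t => hq (m t) (s t) := by unfold hq; fun_prop
@[fun_prop] theorem _root_.Crest.Agent.R302.pt_int_max {m s : α → ℤ} (hm : PT m) (hs : PT s) :
    PT fun t => max (m t) (s t) :=
  (PT.ite (PT.int_le hm hs) hs hm).of_eq fun _ => (max_def _ _).symm
@[fun_prop] theorem pt_key (hx : PT x) (hp : PT p) (ha : PT a) :
    PT fun t => (x t).key (p t) (a t) := by unfold key; fun_prop
@[fun_prop] theorem pt_up (hx : PT x) (hp : PT p) (ha : PT a) :
    PT fun t => (x t).up (p t) (a t) := by unfold up; fun_prop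
@[fun_prop] theorem pt_up' (hx : PT x) (hp : PT p) (ha : PT a) :
    PT fun t => (x t).up' (p t) (a t) := by unfold up'; fun_prop
@[fun_prop] theorem pt_penL (hx : PT x) (hp : PT p) : PT fun t => (x t).penL (p t) := by
  unfold penL; fun_prop
@[fun_prop] theorem pt_violL (hx : PT x) (hp : PT p) : PT fun t => (x t).violL (p t) := by
  unfold violL; fun_prop
@[fun_prop] theorem pt_mv {S : α → List Bool} (hx : PT x) (hp : PT p) (hj : PT j) (hS : PT S) :
    PT fun t => (x t).mv (p t) (j t) (S t) := by unfold mv; fun_prop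
@[fun_prop] theorem pt_ex (hx : PT x) : PT fun t => (x t).ex := by unfold ex; fun_prop
@[fun_prop] theorem pt_J (hx : PT x) : PT fun t => (x t).J := by unfold J; fun_prop
@[fun_prop] theorem pt_rounds (hx : PT x) : PT fun t => (x t).rounds := by unfold rounds; fun_prop

end PT

theorem bestJ_le (f : List Bool → ℤ) (p : List ℤ) : x.bestJ sfm f p ≤ x.J := by
  unfold bestJ
  rcases h : ((List.range x.J).filter fun j => (List.range x.J).all fun j' =>
    decide (x.ellL f (x.cand sfm f p j') ≤ x.ellL f (x.cand sfm f p j))) with _ | ⟨j, l⟩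
  · simp
  · have : j ∈ j :: l := List.mem_cons_self
    rw [← h] at this
    exact (List.mem_range.1 (List.mem_filter.1 this).1).le

theorem abs_iter_le (f : List Bool → ℤ) (i a : ℕ) :
    |((x.stepE sfm f)^[i] []).getD a 0| ≤ i * 2 ^ x.J := by
  induction i with
  | zero => simp
  | succ i ih =>
    rw [Function.iterate_succ_apply']
    set p := (x.stepE sfm f)^[i] []
    have hj : (2 : ℤ) ^ x.bestJ sfm f p ≤ 2 ^ x.J :=
      pow_le_pow_right₀ (by norm_num) (x.bestJ_le sfm f p)
    have h0 : (0 : ℤ) < 2 ^ x.bestJ sfm f p := by positivity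
    have hi : (0 : ℤ) ≤ i * 2 ^ x.J := by positivity
    by_cases ha : a < x.N
    · unfold stepE cand mv
      rw [getD_tab _ _ ha]
      rw [abs_le] at ih ⊢
      push_cast
      split_ifs <;> constructor <;> nlinarith
    · have : (x.stepE sfm f p).getD a 0 = 0 := by
        unfold stepE cand mv
        rw [List.getD_eq_default _ _ (by simpa using ha)]
      rw [this]; positivity

theorem size_le_of_abs {l : List ℤ} {m : ℕ} (h : ∀ a, |l.getD a 0| ≤ 2 ^ m) :
    size l ≤ l.length * (2 * (m + 2) + 1) := by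
  induction l with
  | nil => simp
  | cons z l ih =>
    have h1 := ih fun a => by simpa using h (a + 1)
    have h2 : size z ≤ m + 2 := by
      have h3 : |z| ≤ 2 ^ m := by simpa using h 0
      rw [size_int]
      have : z.natAbs.size ≤ m + 1 := by
        rw [Nat.size_le]
        have : (z.natAbs : ℤ) < 2 ^ (m + 1) := by
          rw [Int.natCast_natAbs, pow_succ]
          have : (0 : ℤ) < 2 ^ m := by positivity
          omega
        exact_mod_cast this
      omega
    rw [size_cons, List.length_cons]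
    nlinarith

theorem size_iter_le (f : List Bool → ℤ) (i : ℕ) :
    size ((x.stepE sfm f)^[i] []) ≤ x.N * (2 * (i + x.J + 2) + 1) := by
  have hl : ((x.stepE sfm f)^[i] []).length ≤ x.N := by
    cases i with
    | zero => simp
    | succ i => rw [Function.iterate_succ_apply']; simp [stepE, cand, mv]
  refine (size_le_of_abs (m := i + x.J) fun a => (x.abs_iter_le sfm f i a).trans ?_).trans
    (Nat.mul_le_mul_right _ hl)
  rw [pow_add]
  have : (i : ℤ) ≤ 2 ^ i := by exact_mod_cast Nat.lt_two_pow_self.le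
  gcongr

section OPT

variable {sfm} {α : Type} [Enc α] [Ok α] {x : α → GIn} {p : α → List ℤ} {j : α → ℕ}
  {f : α → List Bool → ℤ}

theorem opt_lovL (hf : OPT fun p : α × List Bool => f p.1 p.2) (hx : OPT x) (hp : OPT p) :
    OPT fun t => (x t).lovL (f t) (p t) := by
  unfold lovL; fun_prop

theorem opt_ellL (hf : OPT fun p : α × List Bool => f p.1 p.2) (hx : OPT x) (hp : OPT p) :
    OPT fun t => (x t).ellL (f t) (p t) := by
  have := opt_lovL hf hx hp
  unfold ellL; fun_prop

theorem opt_cand (hs : SfmOPT sfm) (hf : OPT fun p : α × List Bool => f p.1 p.2) (hx : OPT x)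
    (hp : OPT p) (hj : OPT j) : OPT fun t => (x t).cand sfm (f t) (p t) (j t) := by
  have h1 : OPT fun q : α × List Bool => (x q.1).ellL (f q.1) ((x q.1).mv (p q.1) (j q.1) q.2) :=
    opt_ellL (f := fun q : α × List Bool => f q.1) (by fun_prop) (by fun_prop) (by fun_prop)
  have h2 : OPT fun t => sfm ((x t).obj (f t) (p t) (j t)) (x t).N (2 * (x t).ex + 3) :=
    hs (by unfold obj; fun_prop) (by fun_prop) (by fun_prop)
  exact (OPT.ofPT (f := fun q : GIn × List ℤ × ℕ × List Bool => q.1.mv q.2.1 q.2.2.1 q.2.2.2)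
    (by fun_prop)).comp (hx.pair (hp.pair (hj.pair h2)))

theorem opt_stepE (hs : SfmOPT sfm) (hf : OPT fun p : α × List Bool => f p.1 p.2) (hx : OPT x)
    (hp : OPT p) : OPT fun t => (x t).stepE sfm (f t) (p t) := by
  have h1 : OPT fun q : α × ℕ => (x q.1).ellL (f q.1) ((x q.1).cand sfm (f q.1) (p q.1) q.2) :=
    opt_ellL (f := fun q : α × ℕ => f q.1) (by fun_prop) (by fun_prop)
      (opt_cand (f := fun q : α × ℕ => f q.1) hs (by fun_prop) (by fun_prop) (by fun_prop)
        (by fun_prop))
  have h2 : OPT fun t => (x t).bestJ sfm (f t) (p t) := by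
    have h3 := OPT.int_le (h1.comp (g := fun q : (α × ℕ) × ℕ => (q.1.1, q.2)) (by fun_prop))
      (h1.comp (g := fun q : (α × ℕ) × ℕ => (q.1.1, q.1.2)) (by fun_prop))
    have h4 : OPT fun q : α × ℕ => (List.range (x q.1).J).all fun j' =>
        decide ((x q.1).ellL (f q.1) ((x q.1).cand sfm (f q.1) (p q.1) j') ≤
          (x q.1).ellL (f q.1) ((x q.1).cand sfm (f q.1) (p q.1) q.2)) :=
      OPT.all (f := fun (q : α × ℕ) (j' : ℕ) =>
        decide ((x q.1).ellL (f q.1) ((x q.1).cand sfm (f q.1) (p q.1) j') ≤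
          (x q.1).ellL (f q.1) ((x q.1).cand sfm (f q.1) (p q.1) q.2))) h3 (by fun_prop)
    exact OPT.headD (OPT.filter (f := fun t j => (List.range (x t).J).all fun j' =>
        decide ((x t).ellL (f t) ((x t).cand sfm (f t) (p t) j') ≤
          (x t).ellL (f t) ((x t).cand sfm (f t) (p t) j))) h4 (by fun_prop)) (by fun_prop)
  exact opt_cand hs hf hx hp h2

theorem opt_evalE (hs : SfmOPT sfm) : EvalOPT fun f x => x.evalE sfm f := by
  intro α _ _ f x hf hx
  refine opt_ellL hf hx ?_
  refine OPT.iterate (step := fun t p => (x t).stepE sfm (f t) p)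
    (opt_stepE (f := fun q : α × List ℤ => f q.1) hs (by fun_prop) (by fun_prop) (by fun_prop))
    (by fun_prop) (by fun_prop)
    (B := fun t => (x t).N * (2 * ((x t).rounds + (x t).J + 2) + 1))
    (OPT.pb_nat (by fun_prop)) fun t i hi => ((x t).size_iter_le sfm (f t) i).trans ?_
  gcongr

end OPT

end GIn

end Crest.Agent.R302
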