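import Crest.Agent.R302.BaseC
import Crest.Agent.R309.Step

/-!
# Row 302: fixed point arithmetic

`eN_close`: `tay_eq`, `wx_exp_err` (`R309/WtA.lean`, `WtAx.lean`).  `gv_eq`: `evalG_ok` with `b = z^4`, `yN_eq`.  `UN_close`: there are
`1 + (L+1) N + n ≤ z` rounded quotients, each `≤` the true value and within `1` of it.
`accept_close`: `W x = exp (-U x) * ω`, `Δ = (UN x - UN x') / un` is within `2 z / 2^(z^5)` of `U x - U x'`, and
`clip Δ - clip (-Δ) = Δ` if `|Δ| ≤ z^10` (then use `R309.Pre.min_close`).  If `Δ > z^10` both minima are `1`, if `Δ < -z^10` both are `≤ 2^-K`,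
because of `om_ratio` (`om_Z`, `Z_lower`, `Z_upper`).
`coin_close`: outside the old box both sides vanish; inside, `psi = exp (-γ)`, `0 ≤ γ ≤ 3 z^4` (`om_succ`, `jj_succ`), the argument of `eN` is
within `1` of `γ * un`; `abs_Ex_coin_sub_le`, `Ex_take`.  `good_zero`: `Z_zero`, `U_c`, `U_nonneg`, `c_mem`.
-/

set_option autoImplicit false

namespace Crest.Agent.R302.Pre

open Finset Crest.Agent.R309 Crest.Agent.Lib.PolyTime

variable {p : Pre} {ρ : Finset p.V → ℤ}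

/-- The clipped argument of `eN`. -/
noncomputable def clip (p : Pre) (a : ℤ) : ℝ := max 0 (min ((a : ℝ) / p.un) ((p.z : ℝ) ^ 10))

theorem un_pos (p : Pre) : 0 < p.un := pow_pos two_pos _

theorem eD_pos (p : Pre) : 0 < p.eD := (R309.Pre.tay_eq _ 0 p.un_pos).1

private theorem xa_un (p : Pre) : (0 : ℝ) < p.un := by exact_mod_cast p.un_pos

private theorem xa_eD (p : Pre) : (0 : ℝ) < p.eD := by exact_mod_cast p.eD_pos

private theorem xa_clip (p : Pre) (a : ℤ) : 0 ≤ p.clip a ∧ p.clip a ≤ (p.z : ℝ) ^ 10 :=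
  ⟨le_max_left _ _, max_le (by positivity) (min_le_right _ _)⟩

private theorem OK.xa_pow (h : p.OK ρ) {i j : ℕ} (hi : 0 < i) (hij : i < j) :
    64 * p.z ^ i ≤ p.z ^ j ∧ p.z ≤ p.z ^ i := by
  have hz := h.z_ge
  refine ⟨?_, Nat.le_self_pow hi.ne' _⟩
  calc _ ≤ p.z * p.z ^ i := Nat.mul_le_mul_right _ hz
    _ = p.z ^ (i + 1) := by ring
    _ ≤ _ := Nat.pow_le_pow_right (by omega) hij

private theorem OK.xa_half (h : p.OK ρ) : (p.z : ℝ) ^ 2 * 8 * (1 / 2) ^ p.K ≤ 1 := by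
  have h1 : p.z ^ 2 * 8 ≤ 2 ^ p.K := by
    have h2 := h.xa_pow one_pos (by norm_num : 1 < 4)
    have h3 := h.z_ge
    calc _ ≤ (2 ^ p.z) ^ 2 * 2 ^ 3 :=
          Nat.mul_le_mul_right _ (Nat.pow_le_pow_left Nat.lt_two_pow_self.le _)
      _ = 2 ^ (p.z * 2 + 3) := by rw [← pow_mul, ← pow_add]
      _ ≤ _ := Nat.pow_le_pow_right two_pos (by unfold K; omega)
  rw [one_div, inv_pow, ← div_eq_mul_inv, div_le_one (by positivity)]
  exact_mod_cast h1

private theorem OK.xa_quarter (h : p.OK ρ) : (1 / 2 : ℝ) ^ p.K ≤ 1 / 8 := by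
  have h1 := h.xa_half
  have h2 := h.zR_ge
  have h3 : (0 : ℝ) < (1 / 2) ^ p.K := by positivity
  have h4 : (1 : ℝ) ≤ (p.z : ℝ) ^ 2 := one_le_pow₀ (by linarith)
  nlinarith

private theorem OK.xa_fix (h : p.OK ρ) : 2 * (p.z : ℝ) / p.un ≤ (1 / 2) ^ p.K := by
  have h1 : 2 * p.z * 2 ^ p.K ≤ 2 ^ p.z ^ 5 := by
    have h2 := h.xa_pow (by norm_num : 0 < 4) (by norm_num : 4 < 5)
    have h3 := h.z_ge
    calc _ ≤ 2 * 2 ^ p.z * 2 ^ p.K :=
          Nat.mul_le_mul_right _ (Nat.mul_le_mul_left _ Nat.lt_two_pow_self.le)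
      _ = 2 ^ (p.z + 1 + p.K) := by ring
      _ ≤ _ := Nat.pow_le_pow_right two_pos (by unfold K; omega)
  rw [one_div, inv_pow, ← one_div, div_le_div_iff₀ p.xa_un (by positivity), one_mul, un]
  exact_mod_cast h1

private theorem OK.xa_exp (h : p.OK ρ) {t : ℝ} (ht : t ≤ 3 * (p.z : ℝ) ^ 8) :
    Real.exp (t - (p.z : ℝ) ^ 10) ≤ (1 / 2) ^ p.K := by
  have h1 : Real.exp (-1) ≤ 1 / 2 := by
    rw [Real.exp_neg, one_div]
    exact inv_anti₀ two_pos (by linarith [Real.add_one_le_exp (1 : ℝ)])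
  refine le_trans ?_ (pow_le_pow_left₀ (Real.exp_pos _).le h1 _)
  rw [← Real.exp_nat_mul, Real.exp_le_exp, K]
  have h2 : 64 * (p.z : ℝ) ^ 8 ≤ (p.z : ℝ) ^ 10 := by
    exact_mod_cast (h.xa_pow (by norm_num : 0 < 8) (by norm_num : 8 < 10)).1
  have h3 : 64 * (p.z : ℝ) ^ 4 ≤ (p.z : ℝ) ^ 8 := by
    exact_mod_cast (h.xa_pow (by norm_num : 0 < 4) (by norm_num : 4 < 8)).1
  have h4 : (0 : ℝ) ≤ (p.z : ℝ) ^ 4 := by positivity
  push_cast
  linarith

private theorem xa_ediv (a : ℤ) {d : ℤ} (hd : 0 < d) : |((a / d : ℤ) : ℝ) - a / d| ≤ 1 := by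
  have h0 : (0 : ℝ) < d := by exact_mod_cast hd
  have h1 : ((a / d : ℤ) : ℝ) * d ≤ a := by exact_mod_cast Int.ediv_mul_le a hd.ne'
  have h2 : (a : ℝ) ≤ ((a / d : ℤ) + 1) * d := by exact_mod_cast (Int.lt_ediv_add_one_mul_self a hd).le
  rw [← le_div_iff₀ h0] at h1
  rw [← div_le_iff₀ h0] at h2
  rw [abs_le]
  constructor <;> linarith

private theorem xa_lip {T s t : ℝ} (h0 : 0 ≤ T) : |max 0 (min s T) - min (max 0 t) T| ≤ |s - t| := by
  have h1 := le_abs_self (s - t)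
  have h2 := neg_abs_le (s - t)
  rw [abs_le]
  simp only [max_def, min_def]
  constructor <;> split_ifs <;> linarith

theorem OK.eN_close (h : p.OK ρ) (a : ℤ) :
    |(p.eN a : ℝ) / p.eD - Real.exp (p.clip a)| ≤ (1 / 2) ^ p.K := by
  have e : ((if a < 0 then 0 else if p.zZ ^ 10 * p.un < a then p.zZ ^ 10 * p.un else a : ℤ) : ℝ) /
      p.un = p.clip a := by
    have hu := p.xa_un
    have hz : (0 : ℝ) ≤ (p.z : ℝ) ^ 10 := by positivity
    unfold clip
    split_ifs with h1 h2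
    · have : (a : ℝ) / p.un ≤ 0 := div_nonpos_of_nonpos_of_nonneg (by exact_mod_cast h1.le) hu.le
      rw [Int.cast_zero, zero_div, max_eq_left ((min_le_left _ _).trans this)]
    · have : (p.z : ℝ) ^ 10 ≤ a / p.un := by
        rw [le_div_iff₀ hu]; unfold zZ at h2; exact_mod_cast h2.le
      rw [min_eq_right this, max_eq_right hz, zZ]
      push_cast
      field_simp
    · have : a / p.un ≤ (p.z : ℝ) ^ 10 := by
        rw [div_le_iff₀ hu]; unfold zZ at h2; exact_mod_cast not_lt.1 h2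
      rw [min_eq_left this, max_eq_right (div_nonneg (by exact_mod_cast not_lt.1 h1) hu.le)]
  have h1 := h.xa_pow (by norm_num : 0 < 10) (by norm_num : 10 < 12)
  have h2 := h.xa_pow (by norm_num : 0 < 4) (by norm_num : 4 < 12)
  have h3 := h.z_ge
  rw [eN, eD, (R309.Pre.tay_eq _ _ p.un_pos).2, e, abs_sub_comm]
  refine (wx_exp_err ?_).trans ?_
  · have h4 : 64 * (p.z : ℝ) ^ 10 ≤ (p.z : ℝ) ^ 12 := by exact_mod_cast h1.1
    rw [abs_of_nonneg (p.xa_clip a).1]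
    push_cast
    linarith [p.xa_clip a]
  · calc (2 : ℝ) * (1 / 2) ^ p.z ^ 12 ≤ 2 * (1 / 2) ^ (p.K + 1) :=
          mul_le_mul_of_nonneg_left (pow_le_pow_of_le_one (by norm_num) (by norm_num)
            (by unfold K; omega)) two_pos.le
      _ = _ := by ring

theorem OK.eN_pos (h : p.OK ρ) (a : ℤ) : 0 < p.eN a := by
  have h1 := (abs_le.1 (h.eN_close a)).1
  have h2 := Real.one_le_exp (p.xa_clip a).1
  have h3 : (0 : ℝ) < p.eN a / p.eD := by linarith [h.xa_quarter]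
  exact_mod_cast (div_pos_iff_of_pos_right p.xa_eD).1 h3

theorem OK.gv_eq (h : p.OK ρ) {s : ℕ} (w : p.V) {x : (Fin p.n → ℤ) × p.V} (hx : x ∈ p.Omg s) :
    p.gv (tab p.N (p.yN (List.ofFn x.1) x.2 w)) =
      (p.wall ρ).G (-ev w + ev x.2 - del p.u p.v x.1) := by
  have e : vecL (p.n + p.n) (tab p.N (p.yN (List.ofFn x.1) x.2 w)) =
      -ev w + ev x.2 - del p.u p.v x.1 := by
    funext b
    rw [vecL, getD_tab (n := p.N) _ _ b.2, p.yN_eq, vecL_ofFn]
  have h1 := h.xa_pow (by norm_num : 0 < 3) (by norm_num : 3 < 4)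
  have h2 := h.L_le
  have h3 : ∀ i j, i ≤ j → (2 : ℤ) ^ i ≤ 2 ^ j := fun i j => pow_le_pow_right₀ one_le_two
  rw [← e]
  refine evalG_ok _ _ _ _ _ _ _ _ _ ρ h.rep h.wall_ok h.cls_lt
    (fun S => (h.bd S).trans (h3 _ _ (by omega))) (by linarith [h.PP_le, h3 (p.z ^ 3) (p.z ^ 4) (by omega)])
    (fun a => ?_) (e ▸ p.sm_state _ _ _)
  have h4 : ∀ e, |x.1 e| ≤ 2 ^ (3 * p.z) + 2 ^ (3 * p.z) := fun e => by
    have k1 := mem_box.1 (mem_product.1 hx).1 e
    have k2 := abs_le.1 ((h.c_abs e).trans (h3 _ (3 * p.z) (by omega)))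
    have k3 := h.hb_le (p.jj_le s e)
    simp only [lo, hi, loN, hiN] at k1
    rw [abs_le]
    constructor <;> linarith [k1.1, k1.2]
  have h5 : |(-del p.u p.v x.1) a| ≤ 2 ^ (3 * p.z) + 2 ^ (3 * p.z) := by
    rcases p.par_cases a with ⟨e, rfl⟩ | ⟨e, rfl⟩
    · rw [neg_del_v]; exact h4 e
    · rw [neg_del_u, abs_neg]; exact h4 e
  have h6 := (single_le_sum (f := fun b => |(-ev w + ev x.2 : p.V → ℤ) b|) (fun _ _ => abs_nonneg _)
    (mem_univ a)).trans (baseC_abs_tok w x.2)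
  have h7 := h3 1 (3 * p.z) (by omega)
  have h8 := h3 (3 * p.z + 2) (p.z ^ 4) (by omega)
  rw [pow_add] at h8
  rw [e, sub_eq_add_neg, Pi.add_apply]
  linarith [abs_add_le ((-ev w + ev x.2 : p.V → ℤ) a) ((-del p.u p.v x.1) a)]

theorem OK.csN_eq (h : p.OK ρ) (w : p.V) (x : (Fin p.n → ℤ) × p.V) {k : ℕ} (hk : k ≤ p.L)
    (r : p.V) : p.csN (List.ofFn x.1) x.2 w k r =
      p.lv.cs k (-ev w + ev x.2 - del p.u p.v x.1 - -del p.u p.v p.cF) r := by
  rw [csN, wx_sum_tab, sum_range, Lv.cs, sum_filter]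
  refine sum_congr rfl fun b _ => ?_
  rw [p.yN_eq, p.yN_zero, c0_eq, vecL_ofFn, vecL_ofFn, ← h.lv_val hk]
  simp only [Fin.val_inj]
  rfl

theorem OK.UN_close (h : p.OK ρ) {s : ℕ} (w : p.V) {x : (Fin p.n → ℤ) × p.V} (hx : x ∈ p.Omg s) :
    |(p.UN s w (p.code x) : ℝ) - p.un * p.U ρ s w x| ≤ p.z := by
  have hz : (0 : ℤ) < p.zZ := by linarith [h.zZ_ge]
  have h1 := xa_ediv ((p.wall ρ).G (-ev w + ev x.2 - del p.u p.v x.1) * p.un) h.D0_pos
  have h2 := abs_sum_le_sum_abs _ (range (p.L + 1) ×ˢ (univ : Finset p.V)) |>.trans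
    (sum_le_sum fun kr _ => xa_ediv (p.lv.cs kr.1
      (-ev w + ev x.2 - del p.u p.v x.1 - -del p.u p.v p.cF) kr.2 ^ 2 * p.un)
      (pow_pos (pow_pos hz (87 + 5 * kr.1)) 2))
  have h3 := abs_sum_le_sum_abs _ (univ : Finset (Fin p.n)) |>.trans
    (sum_le_sum fun e _ => xa_ediv (p.zZ ^ 36 * (x.1 e - p.c e) ^ 2 * p.un)
      (pow_pos (h.om_pos (p.jj s e)) 2))
  have h4 : ((p.L : ℝ) + 2) * (p.n + p.n + 1) ≤ p.z := by exact_mod_cast h.size
  rw [sum_sub_distrib, sum_product, sum_product] at h2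
  rw [sum_sub_distrib] at h3
  simp only [sum_const, card_product, card_range, card_univ, Fintype.card_fin, nsmul_eq_mul,
    mul_one] at h2 h3
  have e1 : (tab (p.L + 1) fun k => (tab p.N fun r =>
      p.csN (List.ofFn x.1) x.2 w k r ^ 2 * p.un / p.Wd k ^ 2).sum).sum =
      ∑ k ∈ range (p.L + 1), ∑ r : p.V, p.lv.cs k
        (-ev w + ev x.2 - del p.u p.v x.1 - -del p.u p.v p.cF) r ^ 2 * p.un /
          (p.zZ ^ (87 + 5 * k)) ^ 2 := by
    rw [wx_sum_tab]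
    refine sum_congr rfl fun k hk => ?_
    rw [wx_sum_tab, sum_range]
    exact sum_congr rfl fun r _ => by rw [h.csN_eq w x (Nat.lt_succ_iff.1 (mem_range.1 hk)), Wd]
  have e2 : (tab p.n fun e => p.gaussN (p.jj s e) e ((List.ofFn x.1).getD e 0)).sum =
      ∑ e : Fin p.n, p.zZ ^ 36 * (x.1 e - p.c e) ^ 2 * p.un / p.om (p.jj s e) ^ 2 := by
    rw [wx_sum_tab, sum_range]
    exact sum_congr rfl fun e _ => by simp [gaussN]
  have e3 : p.un * p.U ρ s w x =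
      (((p.wall ρ).G (-ev w + ev x.2 - del p.u p.v x.1) * p.un : ℤ) : ℝ) / p.D0 +
      ∑ k ∈ range (p.L + 1), ∑ r : p.V, ((p.lv.cs k
        (-ev w + ev x.2 - del p.u p.v x.1 - -del p.u p.v p.cF) r ^ 2 * p.un : ℤ) : ℝ) /
          (((p.zZ ^ (87 + 5 * k)) ^ 2 : ℤ) : ℝ) +
      ∑ e : Fin p.n, ((p.zZ ^ 36 * (x.1 e - p.c e) ^ 2 * p.un : ℤ) : ℝ) /
        ((p.om (p.jj s e) ^ 2 : ℤ) : ℝ) := by
    simp only [U, mul_add, mul_sum, kap, Wd, zZ]
    push_cast
    congr 1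
    · congr 1
      · ring
      · exact sum_congr rfl fun k _ => sum_congr rfl fun r _ => by ring
    · exact sum_congr rfl fun e _ => by ring
  rw [UN, code, h.gv_eq w hx, e1, e2, e3]
  rw [abs_le] at h1 h2 h3 ⊢
  have h5 : (0 : ℝ) ≤ p.L := Nat.cast_nonneg _
  have h6 : (0 : ℝ) ≤ p.n := Nat.cast_nonneg _
  simp only [Int.cast_add, Int.cast_sum, Nat.cast_mul, Nat.cast_add, Nat.cast_one] at h2 h3 ⊢
  constructor <;> nlinarith [h1.1, h1.2, h2.1, h2.2, h3.1, h3.2]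

theorem OK.om_ratio (h : p.OK ρ) {s : ℕ} {w : p.V} {row : List (ℤ × ℤ)} (hrow : p.Crude ρ s w row)
    {li : ℤ} (hl1 : 1 ≤ li) (hl2 : li ≤ p.zZ ^ 38) (a b : p.V) :
    p.omg w row li a ≤ Real.exp (3 * (p.z : ℝ) ^ 8) * p.omg w row li b := by
  obtain ⟨a0, -, a1⟩ := h.om_Z hrow hl1 a
  obtain ⟨b0, b1, -⟩ := h.om_Z hrow hl1 b
  have l1 : (1 : ℝ) ≤ li := by exact_mod_cast hl1
  have l2 : (li : ℝ) ≤ (p.z : ℝ) ^ 38 := by unfold zZ at hl2; exact_mod_cast hl2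
  have hz := h.zR_ge
  have a2 : p.omg w row li a ≤ 18 * Real.exp (2 * (p.z : ℝ) ^ 8) := by
    rw [← div_le_iff₀ (Real.exp_pos _), div_eq_mul_inv, ← Real.exp_neg]
    refine (mul_le_mul_of_nonneg_left (h.Z_lower s a w) a0.le).trans (a1.trans ?_)
    exact div_le_self (by norm_num) (by split_ifs; exacts [le_rfl, l1])
  have b2 : 1 ≤ 2 * (p.z : ℝ) ^ 38 * (p.omg w row li b * 2 ^ p.z ^ 3) := by
    rw [← div_le_iff₀' (by positivity)]
    refine le_trans ?_ (b1.trans (mul_le_mul_of_nonneg_left (h.Z_upper s b w) b0.le))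
    refine one_div_le_one_div_of_le (by split_ifs <;> linarith) ?_
    split_ifs <;> linarith
  have c1 : 36 * (p.z : ℝ) ^ 38 * 2 ^ p.z ^ 3 ≤ Real.exp ((p.z : ℝ) ^ 8) := by
    have c2 : 36 * p.z ^ 38 * 2 ^ p.z ^ 3 ≤ 2 ^ p.z ^ 8 := by
      have h1 := h.xa_pow (by norm_num : 0 < 3) (by norm_num : 3 < 8)
      have h2 := h.z_ge
      calc _ ≤ 2 ^ 6 * (2 ^ p.z) ^ 38 * 2 ^ p.z ^ 3 := Nat.mul_le_mul_right _
            (Nat.mul_le_mul (by norm_num) (Nat.pow_le_pow_left Nat.lt_two_pow_self.le _))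
        _ = 2 ^ (6 + p.z * 38 + p.z ^ 3) := by rw [← pow_mul, ← pow_add, ← pow_add]
        _ ≤ _ := Nat.pow_le_pow_right two_pos (by omega)
    have c3 : (2 : ℝ) ^ p.z ^ 8 ≤ Real.exp ((p.z : ℝ) ^ 8) := by
      rw [← Nat.cast_pow, ← mul_one ((p.z ^ 8 : ℕ) : ℝ), Real.exp_nat_mul]
      exact pow_le_pow_left₀ two_pos.le (by linarith [Real.add_one_le_exp (1 : ℝ)]) _
    exact le_trans (by exact_mod_cast c2) c3
  calc _ ≤ 18 * Real.exp (2 * (p.z : ℝ) ^ 8) * (2 * (p.z : ℝ) ^ 38 * (p.omg w row li b * 2 ^ p.z ^ 3)) :=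
        a2.trans (le_mul_of_one_le_right (by positivity) b2)
    _ = Real.exp (2 * (p.z : ℝ) ^ 8) * (36 * (p.z : ℝ) ^ 38 * 2 ^ p.z ^ 3) * p.omg w row li b := by ring
    _ ≤ Real.exp (2 * (p.z : ℝ) ^ 8) * Real.exp ((p.z : ℝ) ^ 8) * p.omg w row li b := by gcongr
    _ = _ := by rw [← Real.exp_add]; congr 2; ring

private theorem xa_acc {r A B Δ Δ₀ T R η : ℝ} (hr : 0 < r) (hr1 : r ≤ Real.exp R)
    (hr2 : 1 ≤ Real.exp R * r) (hT0 : 0 ≤ T) (hT : Real.exp (R - T) ≤ η) (hη : η ≤ 1 / 8)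
    (hA : |A - Real.exp (max 0 (min Δ T))| ≤ η) (hB : |B - Real.exp (max 0 (min (-Δ) T))| ≤ η)
    (hΔ : |Δ - Δ₀| ≤ η) : |min 1 (r * A / B) - min 1 (r * Real.exp Δ₀)| ≤ 40 * η := by
  have h0 : 0 ≤ η := (abs_nonneg _).trans hΔ
  have h1 := R309.Pre.min_close (u' := B) (v' := r * A) (δ := η)
    (Real.exp_pos (max 0 (min (-Δ) T))) (mul_pos hr (Real.exp_pos (max 0 (min Δ T))))
    (hB.trans (le_mul_of_one_le_right h0 (Real.one_le_exp (le_max_left _ _))))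
    (by
      rw [← mul_sub, abs_mul, abs_of_pos hr, mul_left_comm]
      exact mul_le_mul_of_nonneg_left
        (hA.trans (le_mul_of_one_le_right h0 (Real.one_le_exp (le_max_left _ _)))) hr.le)
    (by linarith)
  have h2 := R309.Pre.min_close (u' := 1) (v' := r * Real.exp Δ) (δ := 2 * η) one_pos
    (mul_pos hr (Real.exp_pos Δ₀)) (by simpa using h0)
    (by
      rw [← mul_sub, abs_mul, abs_of_pos hr, mul_left_comm]
      refine mul_le_mul_of_nonneg_left ?_ hr.le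
      rw [show Real.exp Δ - Real.exp Δ₀ = (Real.exp (Δ - Δ₀) - 1) * Real.exp Δ₀ by
        rw [sub_mul, ← Real.exp_add]; simp, abs_mul, abs_of_pos (Real.exp_pos _)]
      exact mul_le_mul_of_nonneg_right ((Real.abs_exp_sub_one_le (by linarith)).trans (by linarith))
        (Real.exp_pos _).le)
    (by linarith)
  rw [mul_div_assoc r (Real.exp _), ← Real.exp_sub] at h1
  rw [div_one, div_one] at h2
  have h3 : |min 1 (r * Real.exp (max 0 (min Δ T) - max 0 (min (-Δ) T))) - min 1 (r * Real.exp Δ)|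
      ≤ η := by
    have hR : ∀ t, T ≤ t → 1 ≤ r * Real.exp t := fun t ht => by
      have := Real.exp_le_one_iff.1 (hT.trans (by linarith))
      rw [mul_comm] at hr2
      exact hr2.trans (mul_le_mul_of_nonneg_left (Real.exp_le_exp.2 (by linarith)) hr.le)
    have hR' : ∀ t, t ≤ -T → 0 ≤ min 1 (r * Real.exp t) ∧ min 1 (r * Real.exp t) ≤ η := fun t ht => by
      refine ⟨by positivity, (min_le_right _ _).trans (le_trans ?_ hT)⟩
      rw [sub_eq_add_neg, Real.exp_add]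
      gcongr
    rcases le_total T Δ with c1 | c1
    · rw [min_eq_right c1, max_eq_right hT0, max_eq_left ((min_le_left _ _).trans (by linarith)),
        min_eq_left (hR _ (by simp)), min_eq_left (hR _ c1), sub_self, abs_zero]
      exact h0
    rcases le_total T (-Δ) with c2 | c2
    · rw [min_eq_right c2, max_eq_right hT0, max_eq_left ((min_le_left _ _).trans (by linarith)),
        abs_le]
      have k1 := hR' (0 - T) (by simp)
      have k2 := hR' Δ (by linarith)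
      constructor <;> linarith [k1.1, k1.2, k2.1, k2.2]
    · rw [min_eq_left c1, min_eq_left c2, show max 0 Δ - max 0 (-Δ) = Δ by
        simp only [max_def]; split_ifs <;> linarith, sub_self, abs_zero]
      exact h0
  rw [abs_le] at h1 h2 h3 ⊢
  constructor <;> linarith [h1.1, h1.2, h2.1, h2.2, h3.1, h3.2]

theorem OK.accept_close (h : p.OK ρ) {s : ℕ} {w : p.V} {row : List (ℤ × ℤ)}
    (hrow : p.Crude ρ s w row) {li : ℤ} (hl1 : 1 ≤ li) (hl2 : li ≤ p.zZ ^ 38)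
    {x x' : (Fin p.n → ℤ) × p.V} (hx : x ∈ p.Omg s) (hx' : x' ∈ p.Omg s) :
    0 < rd row x'.2 * rn w row li x.2 * p.eN (p.UN s w (p.code x) - p.UN s w (p.code x')) ∧
    0 < rn w row li x'.2 * rd row x.2 * p.eN (p.UN s w (p.code x') - p.UN s w (p.code x)) ∧
    |min 1 (((rd row x'.2 * rn w row li x.2 *
            p.eN (p.UN s w (p.code x) - p.UN s w (p.code x')) : ℤ) : ℝ) /
          ((rn w row li x'.2 * rd row x.2 *
            p.eN (p.UN s w (p.code x') - p.UN s w (p.code x)) : ℤ) : ℝ)) -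
        min 1 (p.W ρ s w (p.omg w row li) x' / p.W ρ s w (p.omg w row li) x)| ≤
      40 * (1 / 2) ^ p.K := by
  have hd : ∀ a : p.V, 0 < rd row a := fun a => (hrow a).2.1
  have hn : ∀ a : p.V, 0 < rn w row li a := fun a =>
    mul_pos (hrow a).1 (by split_ifs <;> omega)
  refine ⟨mul_pos (mul_pos (hd _) (hn _)) (h.eN_pos _), mul_pos (mul_pos (hn _) (hd _)) (h.eN_pos _), ?_⟩
  have o1 := (h.om_Z hrow hl1 x.2).1
  have o2 := (h.om_Z hrow hl1 x'.2).1
  have k1 := h.eN_close (p.UN s w (p.code x) - p.UN s w (p.code x'))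
  have k2 := h.eN_close (p.UN s w (p.code x') - p.UN s w (p.code x))
  rw [clip, show ((p.UN s w (p.code x') - p.UN s w (p.code x) : ℤ) : ℝ) / p.un =
    -(((p.UN s w (p.code x) - p.UN s w (p.code x') : ℤ) : ℝ) / p.un) by push_cast; ring] at k2
  have k3 : |((p.UN s w (p.code x) - p.UN s w (p.code x') : ℤ) : ℝ) / p.un -
      (p.U ρ s w x - p.U ρ s w x')| ≤ (1 / 2) ^ p.K := by
    have u1 := abs_le.1 (h.UN_close w hx)
    have u2 := abs_le.1 (h.UN_close w hx')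
    refine le_trans ?_ h.xa_fix
    rw [div_sub' p.xa_un.ne', abs_div, abs_of_pos p.xa_un]
    refine div_le_div_of_nonneg_right (abs_le.2 ?_) p.xa_un.le
    push_cast
    constructor <;> linarith [u1.1, u1.2, u2.1, u2.2]
  have k4 := xa_acc (div_pos o2 o1) ((div_le_iff₀ o1).2 (h.om_ratio hrow hl1 hl2 _ _))
    (by rw [← mul_div_assoc, one_le_div o1]; exact h.om_ratio hrow hl1 hl2 _ _) (by positivity)
    (h.xa_exp le_rfl) h.xa_quarter k1 k2 k3
  convert k4 using 4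
  · have e1 : (0 : ℝ) < rd row x.2 := by exact_mod_cast hd _
    have e2 : (0 : ℝ) < rn w row li x.2 := by exact_mod_cast hn _
    have e3 : (0 : ℝ) < rn w row li x'.2 := by exact_mod_cast hn _
    have e4 : (0 : ℝ) < p.eN (p.UN s w (p.code x') - p.UN s w (p.code x)) := by
      exact_mod_cast h.eN_pos _
    have e5 := p.xa_eD
    simp only [omg, Int.cast_mul]
    field_simp
  · rw [W_eq, W_eq, sub_eq_neg_add, Real.exp_add, Real.exp_neg, Real.exp_neg]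
    field_simp

private theorem xa_exp_lip {s t : ℝ} (hs : 0 ≤ s) (ht : 0 ≤ t) :
    |Real.exp (-s) - Real.exp (-t)| ≤ |s - t| := by
  wlog hst : s ≤ t generalizing s t
  · rw [abs_sub_comm, abs_sub_comm s]; exact this ht hs (not_le.1 hst).le
  have h1 := Real.add_one_le_exp (s - t)
  have h2 : Real.exp (-s) ≤ 1 := Real.exp_le_one_iff.2 (by linarith)
  have h3 : Real.exp (-t) = Real.exp (-s) * Real.exp (s - t) := by rw [← Real.exp_add]; congr 1; ring
  have h4 := Real.exp_pos (-s)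
  rw [abs_of_nonneg (sub_nonneg.2 (Real.exp_le_exp.2 (by linarith))), abs_of_nonpos (by linarith), h3]
  nlinarith

private theorem xa_coin {A c η : ℝ} (hc : 0 ≤ c) (hη : η ≤ 1 / 8) (hA : |A - Real.exp c| ≤ η) :
    |min 1 A⁻¹ - Real.exp (-c)| ≤ 2 * η := by
  have h0 : 0 ≤ η := (abs_nonneg _).trans hA
  have h1 := Real.one_le_exp hc
  have h2 := abs_le.1 hA
  have h3 : 0 < A := by linarith
  rw [← min_eq_right (Real.exp_le_one_iff.2 (neg_nonpos.2 hc))]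
  refine (abs_min_sub_min_le_max _ _ _ _).trans (max_le (by simpa using h0) ?_)
  rw [Real.exp_neg, inv_sub_inv h3.ne' (Real.exp_pos _).ne', abs_div, abs_sub_comm,
    abs_of_pos (mul_pos h3 (Real.exp_pos _)), div_le_iff₀ (mul_pos h3 (Real.exp_pos _))]
  have h4 : 1 / 2 ≤ A * Real.exp c := by nlinarith
  nlinarith

theorem OK.coin_close (h : p.OK ρ) (s : ℕ) (x : ℤ) :
    |Ex p.l1 (fun ω => ind (p.coin s x ω = true)) - p.psi s x| ≤ 5 * (1 / 2) ^ p.K := by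
  have h0 : (0 : ℝ) < (1 / 2) ^ p.K := by positivity
  unfold psi coin
  split_ifs with hx
  swap
  · rw [Ex_congr (G := fun _ => 0) fun τ _ => ind_of_not (by
      simp only [Bool.and_eq_true, decide_eq_true_eq]
      exact fun h' => hx h'.1), Ex_const]
    simp
  simp only [Bool.and_eq_true, decide_eq_true_eq, hx, true_and]
  obtain ⟨j, hj⟩ : ∃ j, j = p.jj s (p.cell s) := ⟨_, rfl⟩
  obtain ⟨e, he⟩ : ∃ e, e = p.cell s := ⟨_, rfl⟩
  rw [← hj, ← he]
  obtain ⟨a, ha⟩ : ∃ a, a = p.gaussN j e x - p.gaussN (j + 1) e x := ⟨_, rfl⟩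
  obtain ⟨γ, hγ⟩ : ∃ γ, γ = (p.z : ℝ) ^ 36 * ((x : ℝ) - p.c e) ^ 2 / (p.om j : ℝ) ^ 2 -
    (p.z : ℝ) ^ 36 * ((x : ℝ) - p.c e) ^ 2 / (p.om (j + 1) : ℝ) ^ 2 := ⟨_, rfl⟩
  have hK : p.K ≤ p.l1 := by
    have := (h.xa_pow (by norm_num : 0 < 600) (Nat.lt_succ_self _)).2
    have := h.z_ge
    unfold l1
    nlinarith
  rw [← ha, Ex_take hK fun τ => ind (num τ * p.eN a < 2 ^ p.K * p.eD), fR, fR, ← Real.exp_sub,
    neg_sub_neg, ← neg_sub (_ / (p.om j : ℝ) ^ 2), ← hγ]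
  have g0 : 0 ≤ γ := by
    have o1 : (0 : ℝ) < p.om j := by exact_mod_cast h.om_pos j
    have o2 : (p.om j : ℝ) ≤ p.om (j + 1) := by exact_mod_cast h.om_mono j.le_succ
    rw [hγ, sub_nonneg]
    gcongr
  have g1 : |(a : ℝ) / p.un - γ| ≤ (1 / 2) ^ p.K := by
    have u1 := abs_le.1 (xa_ediv (p.zZ ^ 36 * (x - p.c e) ^ 2 * p.un) (pow_pos (h.om_pos j) 2))
    have u2 := abs_le.1 (xa_ediv (p.zZ ^ 36 * (x - p.c e) ^ 2 * p.un) (pow_pos (h.om_pos (j + 1)) 2))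
    have u3 : p.un * γ = ((p.zZ ^ 36 * (x - p.c e) ^ 2 * p.un : ℤ) : ℝ) / ((p.om j ^ 2 : ℤ) : ℝ) -
        ((p.zZ ^ 36 * (x - p.c e) ^ 2 * p.un : ℤ) : ℝ) / ((p.om (j + 1) ^ 2 : ℤ) : ℝ) := by
      rw [hγ, zZ]; push_cast; ring
    refine le_trans ?_ h.xa_fix
    rw [div_sub' p.xa_un.ne', abs_div, abs_of_pos p.xa_un]
    refine div_le_div_of_nonneg_right (abs_le.2 ?_) p.xa_un.le
    rw [ha, u3, Int.cast_sub, gaussN, gaussN]
    constructor <;> linarith [u1.1, u1.2, u2.1, u2.2, h.zR_ge]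
  have k1 := abs_Ex_coin_sub_le p.K p.eD_pos.le (h.eN_pos a)
  have k2 := xa_coin (p.xa_clip a).1 h.xa_quarter (h.eN_close a)
  have k3 := (xa_exp_lip (p.xa_clip a).1 (le_min (le_max_left 0 γ) (by positivity))).trans
    ((xa_lip (by positivity)).trans g1)
  have k4 : |Real.exp (-min γ ((p.z : ℝ) ^ 10)) - Real.exp (-γ)| ≤ (1 / 2) ^ p.K := by
    rcases le_total γ ((p.z : ℝ) ^ 10) with c | c
    · simp [c]
    · have k5 := h.xa_exp (t := 0) (by positivity)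
      rw [zero_sub] at k5
      rw [min_eq_right c, abs_of_nonneg (sub_nonneg.2 (Real.exp_le_exp.2 (neg_le_neg c)))]
      linarith [Real.exp_pos (-γ)]
  rw [inv_div] at k2
  rw [max_eq_right g0] at k3
  rw [abs_le] at k1 k2 k3 k4 ⊢
  constructor <;> linarith [k1.1, k1.2, k2.1, k2.2, k3.1, k3.2, k4.1, k4.2]

theorem OK.good_zero (h : p.OK ρ) : p.Good ρ 0 p.hist0 := by
  refine ⟨rfl, fun i hi w a => ?_⟩
  obtain rfl := Nat.le_zero.1 hi
  have e : (rowOf p.hist0 0 w).getD a (1, 1) = (p.eD, p.eN (p.UN 0 w (p.code (p.cF, a)))) := by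
    rw [rowOf, hist0, List.getD_cons_zero, getD_tab (n := p.N) _ _ w.2,
      getD_tab (n := p.N) _ _ a.2, c0_eq, code]
  rw [e, h.Z_zero]
  refine ⟨p.eD_pos, h.eN_pos _, ?_⟩
  have u1 := h.UN_close w (s := 0) (x := (p.cF, a)) (mem_product.2 ⟨h.c_mem 0, mem_univ _⟩)
  have u2 := h.U_c 0 w a
  have u3 := h.U_nonneg 0 w (p.cF, a)
  have u4 := h.eN_close (p.UN 0 w (p.code (p.cF, a)))
  have u5 : 64 * (p.z : ℝ) ^ 8 ≤ (p.z : ℝ) ^ 10 := by
    exact_mod_cast (h.xa_pow (by norm_num : 0 < 8) (by norm_num : 8 < 10)).1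
  have hz := h.zR_ge
  generalize p.UN 0 w (p.code (p.cF, a)) = b at *
  generalize p.U ρ 0 w (p.cF, a) = t at *
  have g1 : |p.clip b - t| ≤ (1 / 2) ^ p.K := by
    have g2 := xa_lip (s := b / p.un) (t := t) (T := (p.z : ℝ) ^ 10) (by positivity)
    rw [max_eq_right u3, min_eq_left (a := t) (by linarith)] at g2
    refine g2.trans (le_trans ?_ h.xa_fix)
    rw [div_sub' p.xa_un.ne', abs_div, abs_of_pos p.xa_un]
    exact div_le_div_of_nonneg_right (by linarith) p.xa_un.le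
  have q1 := h.xa_quarter
  have q2 : 8 * (1 / 2 : ℝ) ^ p.K ≤ 1 / (p.z : ℝ) ^ 2 := by
    rw [le_div_iff₀ (by positivity)]; linarith [h.xa_half]
  have q3 := Real.one_le_exp (p.xa_clip b).1
  rw [abs_sub_comm] at g1
  have q4 := abs_le.1 ((Real.abs_exp_sub_one_le (x := t - p.clip b) (by linarith)).trans
    (mul_le_mul_of_nonneg_left g1 two_pos.le))
  have q5 : Real.exp t = Real.exp (t - p.clip b) * Real.exp (p.clip b) := by
    rw [← Real.exp_add, sub_add_cancel]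
  have q6 := abs_le.1 u4
  have q7 : (0 : ℝ) < (1 / 2) ^ p.K := by positivity
  rw [Nat.cast_zero, zero_div, add_zero, ← inv_div]
  generalize (p.eN b : ℝ) / p.eD = A at *
  generalize (1 / 2 : ℝ) ^ p.K = η at *
  have q8 : 0 < A := by linarith
  refine le_trans ?_ (mul_le_mul_of_nonneg_right q2 (Real.exp_pos _).le)
  rw [Real.exp_neg, inv_sub_inv q8.ne' (Real.exp_pos _).ne', abs_div,
    abs_of_pos (mul_pos q8 (Real.exp_pos _)), div_le_iff₀ (mul_pos q8 (Real.exp_pos _)),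
    mul_assoc, mul_left_comm _ A, inv_mul_cancel₀ (Real.exp_pos _).ne', mul_one, q5, abs_le]
  constructor <;> nlinarith [q4.1, q4.2]

end Crest.Agent.R302.Pre
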