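import Crest.Agent.R302.Voc
import Crest.Agent.R309.FP

/-!
# Row 302: Poincaré inequality on the thick fibres of an auxiliary network

The states `x = (X, a) ∈ Ω` of the chain lift to flows `lift x` of a network `m` with a rooted forest; the lifts that lie
in the box of `m` are exactly the flows with a token at `tok a` and an anti-token at `tok w`.
* `one_fiber'`: `R309.Mdl.one_fiber` for an arbitrary weight `μ` (copy the proof; it never uses the product form).
* `sum_cl_move`: `Forest.sum_cl_root` twice.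
* `fp_abs`: for each root `r` fix `b₀ r` with `root (tok (b₀ r)) = r` (if there is one), take the constants of `one_fiber'` for
  `μ'`, the class `cl (tok b₀) (tok w)` and the function `Y ↦ g (pr Y, b₀)`, clip them to `[-G, G]`.  For a state with token `a`
  in the box compare with `(pr (Y + path b₀ - path a), b₀)` (`key` is unchanged since paths live on tree cells):
  `(g - c)² ≤ 2 (g - g')² + 2 (g' - c)²`, `W x ≤ 2 cω * W x'`, `μ ≤ 3 μ'`, `min μ' μ' ≤ min μ μ`.
  States outside the box cost at most `4 G² W x`.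
-/

set_option autoImplicit false
set_option maxHeartbeats 800000

namespace Crest.Agent.R302

open Finset Crest.Agent.R309 Crest.Agent.R309.Mdl

variable {V Vt : Type} [Fintype V] [DecidableEq V] [Fintype Vt] [DecidableEq Vt] {M Mt : ℕ}

/-- Smoothness of a weight along the thick directions. -/
structure SmoothW (m : Mdl Vt Mt) (thick : Fin Mt → Bool) (s : Fin Mt → ℕ)
    (μ : (Fin Mt → ℤ) → ℝ) (κB η : ℝ) : Prop where
  pos : ∀ X ∈ box m.lo m.hi, 0 < μ X
  sm : ∀ X ∈ box m.lo m.hi, ∀ c : Fin Mt → ℤ, (∀ e, |c e| ≤ s e) →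
    (∀ e, ¬ (thick e = true ∧ m.tree e = false) → c e = 0) →
    X + ∑ e, c e • m.cyc e ∈ box m.lo m.hi → μ (X + ∑ e, c e • m.cyc e) ≤ 2 * μ X
  bo : ∀ X ∈ box m.lo m.hi, ∃ A : Fin Mt → Fin Mt → ℝ,
    (∀ e e', thick e = true → m.tree e = false → thick e' = true → m.tree e' = false →
      μ (X + (s e : ℤ) • m.cyc e) * μ (X + (s e' : ℤ) • m.cyc e') =
        (1 + A e e') * (μ X * μ (X + (s e : ℤ) • m.cyc e + (s e' : ℤ) • m.cyc e'))) ∧
    (∀ e e', |A e e'| ≤ η) ∧
    ∀ z : Fin Mt → ℝ, (∀ e, ¬ (thick e = true ∧ m.tree e = false) → z e = 0) →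
      κB * ∑ e, z e ^ 2 ≤ ∑ e, ∑ e', A e e' * z e * z e'
  κB_pos : 0 < κB
  η_le : η ≤ 1 / 2
  small : 4 * Mt * η ^ 2 ≤ κB

/-- The states of the chain seen inside the auxiliary network. -/
structure Emb (m : Mdl Vt Mt) (tok : V → Vt) (w : V) (Ω : Finset ((Fin M → ℤ) × V))
    (lift : (Fin M → ℤ) × V → Fin Mt → ℤ) (pr : (Fin Mt → ℤ) → Fin M → ℤ) : Prop where
  pr_add : ∀ Y Y', pr (Y + Y') = pr Y + pr Y'
  pr_smul : ∀ (c : ℤ) Y, pr (c • Y) = c • pr Y
  pr_lift : ∀ x, pr (lift x) = x.1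
  down : ∀ a, ∀ Y ∈ m.cl (tok a) (tok w), (pr Y, a) ∈ Ω ∧ lift (pr Y, a) = Y
  up : ∀ x ∈ Ω, lift x ∈ box m.lo m.hi → lift x ∈ m.cl (tok x.2) (tok w)

variable {m : Mdl Vt Mt} {thick : Fin Mt → Bool} {s : Fin Mt → ℕ}

theorem one_fiber' {μ : (Fin Mt → ℤ) → ℝ} {κB η : ℝ} (hT : m.Thick thick s)
    (hS : SmoothW m thick s μ κB η) (r w : Vt) (g : (Fin Mt → ℤ) → ℝ) (k : Fin Mt → ℤ) :
    ∃ c : ℝ, ∑ X ∈ m.cl r w with key thick X = k, μ X * (g X - c) ^ 2 ≤
      (16 / κB + 4) * ∑ X ∈ m.cl r w with key thick X = k,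
        ((∑ e, edge (m.cl r w) μ g X (X + (s e : ℤ) • m.cyc e)) +
          ∑ e, 1 / (s e : ℝ) * ∑ j ∈ range (s e), edge (m.cl r w) μ g X (X + (j : ℤ) • m.cyc e)) := by
  have hF := hT.forest
  have hκ := hS.κB_pos
  rcases ((m.cl r w).filter fun X => key thick X = k).eq_empty_or_nonempty with h0 | ⟨X₁, hX₀⟩
  · exact ⟨0, by simp [h0]⟩
  obtain ⟨hX₁, rfl⟩ := mem_filter.1 hX₀
  have hb := mem_box.1 (cl_box hX₁)
  have hW : ∀ x ∈ m.cl r w, 0 < μ x := fun x hx => hS.pos _ (cl_box hx)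
  let fr : (Fin Mt → ℤ) → Fin Mt → ℤ := fun b e =>
    if m.tree e then 0 else if thick e then b e else X₁ e
  let s' : Fin Mt → ℕ := fun e => if thick e = true ∧ m.tree e = false then s e else 1
  let B := box (fr m.lo) (fr m.hi)
  have hfr : ∀ y ∈ B, ∀ y' ∈ B, ∀ e, ¬ (thick e = true ∧ m.tree e = false) → y e = y' e :=
    fun y hy y' hy' e he => by
      have k1 := mem_box.1 hy e; have k2 := mem_box.1 hy' e
      cases h1 : m.tree e <;> cases h2 : thick e <;> simp [fr, h1, h2] at he k1 k2 <;> omega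
  have hBf : ∀ y ∈ B, y ∈ m.fbox := fun y hy => mem_box.2 fun e => by
    have k1 := mem_box.1 hy e; have := hb e
    cases h1 : m.tree e <;> cases h2 : thick e <;> simp [fr, h1, h2] at k1 ⊢ <;> omega
  have hy₁ : (fun e => if m.tree e then 0 else X₁ e) ∈ B := mem_box.2 fun e => by
    have := hb e
    cases h1 : m.tree e <;> cases h2 : thick e <;> simp [fr, h1, h2, this]
  have hbal : ∀ y ∈ B, m.Bal y r w := fun y hy => by
    have := (hF.Phi_mem_cl (hBf _ hy₁) r w).1 (hF.eq_Phi hX₁ ▸ hX₁)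
    refine Eq.trans (sum_congr rfl fun e he => ?_) this
    by_cases h : thick e = true
    · simp [hT.root_eq e h]
    · rw [hfr y hy _ hy₁ e fun h' => h h'.1]
  have hcl : ∀ y ∈ B, m.Phi y r w ∈ m.cl r w := fun y hy =>
    (hF.Phi_mem_cl (hBf y hy) r w).2 (hbal y hy)
  have hnt : ∀ e, ¬ thick e = true → m.tree e = false := fun e h => by
    by_contra h'; exact h (hT.tree_thick e (by simpa using h'))
  have hsum : ∀ G : (Fin Mt → ℤ) → ℝ, ∑ X ∈ m.cl r w with key thick X = key thick X₁, G X =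
      ∑ y ∈ B, G (m.Phi y r w) := fun G => by
    rw [sum_filter, hF.sum_cl, ← sum_filter]
    refine sum_congr (ext fun y => ?_) fun _ _ => rfl
    simp only [mem_filter]
    refine ⟨fun ⟨⟨h1, _⟩, h2⟩ => mem_box.2 fun e => ?_, fun hy => ⟨⟨hBf y hy, hbal y hy⟩, ?_⟩⟩
    · have h3 := mem_box.1 h1 e
      have h4 := congrFun h2 e
      cases h5 : m.tree e
      · simp only [key, hF.Phi_apply y r w h5] at h4
        cases h6 : thick e <;> simp [fr, h5, h6] at h3 h4 ⊢ <;> omega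
      · simpa [fr, h5] using h3
    · ext e
      by_cases h : thick e = true
      · simp [key, h]
      · simp [key, h, hF.Phi_apply y r w (hnt e h), hfr y hy _ hy₁ e fun h' => h h'.1, hnt e h]
  have hs' : ∀ e, 0 < s' e := fun e => by
    simp only [s']; split_ifs; exacts [hT.s_pos e, one_pos]
  have hfree : ∀ y ∈ B, ∀ e (c : Fin Mt → ℤ), 0 ≤ c e → y + (s' e : ℤ) • ec e + c ∈ B →
      thick e = true ∧ m.tree e = false := fun y hy e c hc h => by
    by_contra h'
    have k := hfr y hy _ h e h'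
    have := hs' e
    simp only [ec, Pi.add_apply, Pi.smul_apply, Pi.single_eq_same, smul_eq_mul] at k
    omega
  have hec : ∀ e e', (0 : ℤ) ≤ ((s' e : ℤ) • ec e) e' := fun e e' => by
    simp only [ec, Pi.smul_apply, Pi.single_apply, smul_eq_mul]; positivity
  obtain ⟨c, hc⟩ := long_poincare (fr m.lo) (fr m.hi) s' hs'
    (fun e => by
      by_cases h : thick e = true ∧ m.tree e = false
      · simpa [s', fr, h] using hT.dvd e h.1 h.2
      · simp [s', h])
    (fun y => μ (m.Phi y r w)) (fun y hy => hW _ (hcl y hy))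
    (fun y hy y' hy' h => by
      have e1 : m.Phi y' r w = m.Phi y r w + ∑ e, (y' - y) e • m.cyc e := by
        rw [← hF.Phi_add, add_sub_cancel]
      have := hS.sm _ (hF.Phi_mem_box (hBf y hy) r w) (y' - y) (fun e => by
        by_cases h' : thick e = true ∧ m.tree e = false
        · simpa [s', h', abs_sub_comm] using h e
        · simp [hfr y hy y' hy' e h']) (fun e he => by simp [hfr y hy y' hy' e he])
        (e1 ▸ hF.Phi_mem_box (hBf y' hy') r w)
      simp only [e1]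
      exact this)
    hκ hS.η_le hS.small
    (fun y hy => by
      obtain ⟨A, h1, h2, h3⟩ := hS.bo _ (hF.Phi_mem_box (hBf y hy) r w)
      refine ⟨A, fun e e' h => ?_, h2, fun z hz => h3 z fun e he => hz e fun h =>
        he (hfree y hy e 0 le_rfl (by rwa [add_zero]))⟩
      have k1 := hfree y hy e _ (hec e' e) h
      have k2 := hfree y hy e' _ (hec e e') (by rwa [add_right_comm])
      have := h1 e e' k1.1 k1.2 k2.1 k2.2
      simp only [hF.Phi_ec, s', k1, k2, and_self, if_true]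
      exact this)
    fun y => g (m.Phi y r w)
  have hedge : ∀ y ∈ B, ∀ (j : ℤ) e, edge B (fun y => μ (m.Phi y r w))
      (fun y => g (m.Phi y r w)) y (y + j • ec e) ≤
        edge (m.cl r w) μ g (m.Phi y r w) (m.Phi y r w + j • m.cyc e) := fun y hy j e => by
    by_cases h : y + j • ec e ∈ B
    · simp only [edge, ← hF.Phi_ec, hy, h, hcl, and_self, if_true, le_refl]
    · rw [edge, if_neg fun h' => h h'.2]; exact edge_nonneg hW _ _ _
  refine ⟨c, (hsum _).trans_le (hc.trans ?_)⟩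
  rw [hsum, sum_add_distrib, sum_comm (s := B), sum_comm (s := B)]
  refine mul_le_mul_of_nonneg_left (add_le_add (sum_le_sum fun e _ => sum_le_sum fun y hy => ?_)
    (sum_le_sum fun e _ => ?_)) (by positivity)
  · by_cases h : thick e = true ∧ m.tree e = false
    · simpa only [s', if_pos h] using hedge y hy (s e) e
    · rw [edge, if_neg fun h' => h (hfree y hy e 0 le_rfl (by simpa using h'.2))]
      exact edge_nonneg hW _ _ _
  · rw [← mul_sum]
    by_cases h : thick e = true ∧ m.tree e = false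
    · simp only [s', if_pos h]
      rw [sum_comm]
      exact mul_le_mul_of_nonneg_left (sum_le_sum fun y hy => sum_le_sum fun j _ => hedge y hy j e)
        (by positivity)
    · refine le_trans (by simp [s', h, edge]) (mul_nonneg (by positivity)
        (sum_nonneg fun _ _ => sum_nonneg fun _ _ => edge_nonneg hW _ _ _))

/-- Moving the token inside a component. -/
theorem sum_cl_move (hT : m.Thick thick s) {a b : Vt} (hab : m.root a = m.root b) (w : Vt)
    (G : (Fin Mt → ℤ) → ℝ) :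
    ∑ Y ∈ m.cl a w, G Y = ∑ Y ∈ m.cl b w, G (Y + (m.path a - m.path b)) := by
  rw [hT.forest.sum_cl_root hT.root_root hT.path_root a,
    hT.forest.sum_cl_root hT.root_root hT.path_root b, hab]
  exact sum_congr rfl fun X _ => by congr 1; abel

theorem move_mem (hT : m.Thick thick s) {a b : Vt} (hab : m.root a = m.root b) {w : Vt}
    {Y : Fin Mt → ℤ} (hY : Y ∈ m.cl b w) : Y + (m.path a - m.path b) ∈ m.cl a w := by
  have hF := hT.forest
  have h1 := proj_mem_fbox hY
  have h2 := hF.eq_Phi hY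
  have h3 := (hF.Phi_mem_cl h1 b w).1 (h2 ▸ hY)
  have h4 : Y + (m.path a - m.path b) = m.Phi (fun e => if m.tree e then 0 else Y e) a w := by
    conv_lhs => rw [h2]
    simp only [Phi]
    abel
  rw [h4, hF.Phi_mem_cl h1]
  unfold Bal at h3 ⊢
  rw [hab]
  exact h3

section

variable (Ω : Finset ((Fin M → ℤ) × V)) (W g : (Fin M → ℤ) × V → ℝ)

/-- Long steps along cycles. -/
noncomputable def Dco (cy : Fin Mt → Fin M → ℤ) (s : Fin Mt → ℕ) : ℝ :=
  ∑ e, ∑ x ∈ Ω, edge Ω W g x (x.1 + (s e : ℤ) • cy e, x.2)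

/-- Offsets along cycles. -/
noncomputable def Dof (cy : Fin Mt → Fin M → ℤ) (s : Fin Mt → ℕ) : ℝ :=
  ∑ e, 1 / (s e : ℝ) * ∑ j ∈ range (s e), ∑ x ∈ Ω, edge Ω W g x (x.1 + (j : ℤ) • cy e, x.2)

/-- Moves of the token from `b` to `a` together with the vector `pa a b`. -/
noncomputable def Dpa (pa : V → V → Fin M → ℤ) : ℝ :=
  ∑ a, ∑ b, ∑ x ∈ Ω with x.2 = b, edge Ω W g x (x.1 + pa a b, a)

/-- Unit moves. -/
noncomputable def Dun (u v : Fin M → V) : ℝ :=
  ∑ e, ∑ x ∈ Ω with x.2 = v e, edge Ω W g x (x.1 + ec e, u e)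

end

variable {tok : V → Vt} {w : V} {Ω : Finset ((Fin M → ℤ) × V)}
  {lift : (Fin M → ℤ) × V → Fin Mt → ℤ} {pr : (Fin Mt → ℤ) → Fin M → ℤ}

omit [Fintype V] in
theorem fpa_sum (hE : Emb m tok w Ω lift pr) (a : V) (G : (Fin M → ℤ) × V → ℝ) :
    ∑ x ∈ Ω with x.2 = a ∧ lift x ∈ box m.lo m.hi, G x =
      ∑ Y ∈ m.cl (tok a) (tok w), G (pr Y, a) := by
  refine sum_nbij' lift (fun Y => (pr Y, a)) (fun x hx => ?_) (fun Y hY => ?_) (fun x hx => ?_)
    (fun Y hY => (hE.down a Y hY).2) fun x hx => ?_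
  · obtain ⟨h1, rfl, h2⟩ := mem_filter.1 hx
    exact hE.up x h1 h2
  · refine mem_filter.2 ⟨(hE.down a Y hY).1, rfl, ?_⟩
    rw [(hE.down a Y hY).2]
    exact cl_box hY
  · obtain ⟨-, rfl, -⟩ := mem_filter.1 hx
    rw [hE.pr_lift]
  · obtain ⟨-, rfl, -⟩ := mem_filter.1 hx
    rw [hE.pr_lift]

omit [Fintype V] in
theorem fpa_le (hE : Emb m tok w Ω lift pr) (a : V) {G : (Fin M → ℤ) × V → ℝ}
    (hG : ∀ x ∈ Ω, 0 ≤ G x) :
    ∑ Y ∈ m.cl (tok a) (tok w), G (pr Y, a) ≤ ∑ x ∈ Ω with x.2 = a, G x := by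
  rw [← fpa_sum hE]
  exact sum_le_sum_of_subset_of_nonneg (monotone_filter_right _ fun x _ h => h.1)
    fun x hx _ => hG x (mem_filter.1 hx).1

theorem fpa_clip {y c G : ℝ} (h : |y| ≤ G) :
    (y - max (-G) (min G c)) ^ 2 ≤ (y - c) ^ 2 ∧ (y - max (-G) (min G c)) ^ 2 ≤ 4 * G ^ 2 := by
  obtain ⟨h1, h2⟩ := abs_le.1 h
  rcases le_total G c with h3 | h3
  · rw [min_eq_left h3, max_eq_right (by linarith)]
    constructor <;> nlinarith
  · rw [min_eq_right h3]
    rcases le_total (-G) c with h4 | h4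
    · rw [max_eq_right h4]
      exact ⟨le_rfl, by nlinarith⟩
    · rw [max_eq_left h4]
      constructor <;> nlinarith

theorem fpa_two {w₁ w₂ cω y₁ y₂ d : ℝ} (hc : 1 ≤ cω) (h2 : 0 < w₂) (h : w₂ ≤ 2 * cω * w₁) :
    w₂ * (y₂ - d) ^ 2 ≤ 4 * cω * (min w₁ w₂ * (y₁ - y₂) ^ 2 + w₁ * (y₁ - d) ^ 2) := by
  have k6 : w₂ ≤ 2 * cω * min w₁ w₂ := by
    rw [mul_min_of_nonneg _ _ (by positivity)]
    exact le_min h (by nlinarith)
  nlinarith [mul_le_mul_of_nonneg_right h (sq_nonneg (y₁ - d)),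
    mul_le_mul_of_nonneg_right k6 (sq_nonneg (y₁ - y₂)),
    mul_nonneg h2.le (sq_nonneg (2 * y₁ - y₂ - d))]

theorem fp_abs {μ μ' : (Fin Mt → ℤ) → ℝ} {κB η : ℝ} (hT : m.Thick thick s)
    (hE : Emb m tok w Ω lift pr) (hS : SmoothW m thick s μ' κB η)
    (hμ : ∀ Y ∈ box m.lo m.hi, μ' Y ≤ μ Y ∧ μ Y ≤ 3 * μ' Y)
    (hp : ∀ a b, m.root (tok a) = m.root (tok b) → ∀ Y ∈ m.cl (tok b) (tok w),
      μ (Y + (m.path (tok a) - m.path (tok b))) ≤ 2 * μ Y)
    {ω : V → ℝ} (hω : ∀ a, 0 < ω a) {cω : ℝ} (hc1 : 1 ≤ cω)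
    (hc : ∀ a b, m.root (tok a) = m.root (tok b) → ω a ≤ cω * ω b)
    {W : (Fin M → ℤ) × V → ℝ} (hW : ∀ x ∈ Ω, W x = μ (lift x) * ω x.2) (hW0 : ∀ x ∈ Ω, 0 < W x)
    (g : (Fin M → ℤ) × V → ℝ) {G : ℝ} (hg : ∀ x ∈ Ω, |g x| ≤ G) :
    ∃ c : (Fin Mt → ℤ) → Vt → ℝ,
      ∑ x ∈ Ω, W x * (g x - c (key thick (lift x)) (m.root (tok x.2))) ^ 2 ≤
        4 * cω * (1 + 3 * Fintype.card V * (16 / κB + 4)) *
            (Dco Ω W g (fun e => pr (m.cyc e)) s + Dof Ω W g (fun e => pr (m.cyc e)) s +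
              Dpa Ω W g fun a b => pr (m.path (tok a) - m.path (tok b))) +
          4 * G ^ 2 * ∑ x ∈ Ω with lift x ∉ box m.lo m.hi, W x := by
  classical
  have hF := hT.forest
  have hκ := hS.κB_pos
  have hEd := fun x y => edge_nonneg hW0 g x y
  obtain ⟨b₀, hb₀⟩ : ∃ b₀ : Vt → V, ∀ a, m.root (tok a) = m.root (tok (b₀ (m.root (tok a)))) :=
    ⟨fun r => if h : ∃ a, r = m.root (tok a) then h.choose else w, fun a => by
      have h : ∃ b, m.root (tok a) = m.root (tok b) := ⟨a, rfl⟩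
      simp only [dif_pos h]
      exact h.choose_spec⟩
  choose c hc' using fun (b : V) => one_fiber' hT hS (tok b) (tok w) fun Y => g (pr Y, b)
  refine ⟨fun k r => max (-G) (min G (c (b₀ r) k)), ?_⟩
  have hWY : ∀ b, ∀ Y ∈ m.cl (tok b) (tok w), W (pr Y, b) = μ Y * ω b := fun b Y hY => by
    rw [hW _ (hE.down b Y hY).1, (hE.down b Y hY).2]
  have hedge : ∀ b, ∀ Y ∈ m.cl (tok b) (tok w), ∀ (j : ℤ) e,
      ω b * edge (m.cl (tok b) (tok w)) μ' (fun Y => g (pr Y, b)) Y (Y + j • m.cyc e) ≤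
        edge Ω W g (pr Y, b) (pr Y + j • pr (m.cyc e), b) := by
    intro b Y hY j e
    by_cases h : Y + j • m.cyc e ∈ m.cl (tok b) (tok w)
    · rw [← hE.pr_smul, ← hE.pr_add, edge, edge, if_pos ⟨hY, h⟩,
        if_pos ⟨(hE.down b _ hY).1, (hE.down b _ h).1⟩, hWY b _ hY, hWY b _ h,
        ← min_mul_of_nonneg _ _ (hω b).le, ← mul_assoc, mul_comm (ω b)]
      exact mul_le_mul_of_nonneg_right (mul_le_mul_of_nonneg_right
        (min_le_min (hμ _ (cl_box hY)).1 (hμ _ (cl_box h)).1) (hω b).le) (sq_nonneg _)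
    · rw [edge, if_neg fun h' => h h'.2, mul_zero]
      exact hEd _ _
  set K : ℝ := 16 / κB + 4 with hK
  have K0 : 0 ≤ K := by positivity
  set D := Dco Ω W g (fun e => pr (m.cyc e)) s + Dof Ω W g (fun e => pr (m.cyc e)) s with hD
  let T : (Fin M → ℤ) × V → ℝ := fun x =>
    (∑ e, edge Ω W g x (x.1 + (s e : ℤ) • pr (m.cyc e), x.2)) +
      ∑ e, 1 / (s e : ℝ) * ∑ j ∈ range (s e), edge Ω W g x (x.1 + (j : ℤ) • pr (m.cyc e), x.2)
  have hT0 : ∀ x, 0 ≤ T x := fun x => add_nonneg (sum_nonneg fun _ _ => hEd _ _)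
    (sum_nonneg fun _ _ => mul_nonneg (by positivity) (sum_nonneg fun _ _ => hEd _ _))
  have hDT : D = ∑ x ∈ Ω, T x := by
    simp only [hD, Dco, Dof, T, sum_comm (t := Ω), mul_sum (s := Ω)]
    rw [← sum_add_distrib]
  have h1 : ∀ b, ∑ Y ∈ m.cl (tok b) (tok w),
      W (pr Y, b) * (g (pr Y, b) - c b (key thick Y)) ^ 2 ≤ 3 * (K * D) := by
    intro b
    have k1 : ∑ Y ∈ m.cl (tok b) (tok w), μ' Y * (g (pr Y, b) - c b (key thick Y)) ^ 2 ≤
        K * ∑ Y ∈ m.cl (tok b) (tok w),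
          ((∑ e, edge (m.cl (tok b) (tok w)) μ' (fun Y => g (pr Y, b)) Y (Y + (s e : ℤ) • m.cyc e)) +
          ∑ e, 1 / (s e : ℝ) * ∑ j ∈ range (s e),
            edge (m.cl (tok b) (tok w)) μ' (fun Y => g (pr Y, b)) Y (Y + (j : ℤ) • m.cyc e)) := by
      rw [← sum_fiberwise_of_maps_to fun X hX => mem_image_of_mem (key thick) hX,
        ← sum_fiberwise_of_maps_to (s := m.cl (tok b) (tok w))
          fun X hX => mem_image_of_mem (key thick) hX, mul_sum]
      refine sum_le_sum fun k _ => le_of_eq_of_le (sum_congr rfl fun X hX => ?_) (hc' b k)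
      rw [(mem_filter.1 hX).2]
    have k2 : ω b * ∑ Y ∈ m.cl (tok b) (tok w),
          ((∑ e, edge (m.cl (tok b) (tok w)) μ' (fun Y => g (pr Y, b)) Y (Y + (s e : ℤ) • m.cyc e)) +
          ∑ e, 1 / (s e : ℝ) * ∑ j ∈ range (s e),
            edge (m.cl (tok b) (tok w)) μ' (fun Y => g (pr Y, b)) Y (Y + (j : ℤ) • m.cyc e)) ≤ D := by
      rw [hDT, mul_sum]
      refine le_trans (sum_le_sum fun Y hY => ?_) ((fpa_le hE b fun x _ => hT0 x).trans
        (sum_le_sum_of_subset_of_nonneg (filter_subset _ _) fun x _ _ => hT0 x))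
      rw [mul_add, mul_sum, mul_sum]
      refine add_le_add (sum_le_sum fun e _ => hedge b Y hY _ e) (sum_le_sum fun e _ => ?_)
      rw [mul_left_comm, mul_sum]
      exact mul_le_mul_of_nonneg_left (sum_le_sum fun j _ => hedge b Y hY _ e) (by positivity)
    calc _ ≤ ∑ Y ∈ m.cl (tok b) (tok w),
          3 * ω b * (μ' Y * (g (pr Y, b) - c b (key thick Y)) ^ 2) := by
          refine sum_le_sum fun Y hY => ?_
          rw [hWY b Y hY]
          have := mul_le_mul_of_nonneg_right (hμ _ (cl_box hY)).2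
            (mul_nonneg (hω b).le (sq_nonneg (g (pr Y, b) - c b (key thick Y))))
          linarith
      _ ≤ 3 * (K * D) := by
          rw [← mul_sum]
          have k3 := mul_le_mul_of_nonneg_left k1 (hω b).le
          have k4 := mul_le_mul_of_nonneg_left k2 K0
          linarith
  have h2 : ∀ a, ∑ x ∈ Ω with x.2 = a ∧ lift x ∈ box m.lo m.hi, W x *
      (g x - max (-G) (min G (c (b₀ (m.root (tok x.2))) (key thick (lift x))))) ^ 2 ≤
      4 * cω * ((∑ b, ∑ x ∈ Ω with x.2 = b,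
        edge Ω W g x (x.1 + pr (m.path (tok a) - m.path (tok b)), a)) + 3 * (K * D)) := by
    intro a
    have hab := hb₀ a
    set b := b₀ (m.root (tok a)) with hb
    refine le_trans ?_ (mul_le_mul_of_nonneg_left (add_le_add
      ((fpa_le hE b fun x _ => hEd x (x.1 + pr (m.path (tok a) - m.path (tok b)), a)).trans
        (single_le_sum (f := fun b => ∑ x ∈ Ω with x.2 = b,
          edge Ω W g x (x.1 + pr (m.path (tok a) - m.path (tok b)), a))
          (fun b _ => sum_nonneg fun _ _ => hEd _ _) (mem_univ b))) (h1 b)) (by positivity))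
    rw [fpa_sum hE, sum_cl_move hT hab, ← sum_add_distrib, mul_sum]
    refine sum_le_sum fun Y hY => ?_
    have hY' := move_mem hT hab hY
    have k1 := (hE.down b Y hY).1
    have k2 := (hE.down a _ hY').1
    have k3 : key thick (Y + (m.path (tok a) - m.path (tok b))) = key thick Y := by
      ext e
      cases h : m.tree e
      · simp [key, hF.path_supp _ e h]
      · simp [key, hT.tree_thick e h]
    have k4 : W (pr (Y + (m.path (tok a) - m.path (tok b))), a) ≤ 2 * cω * W (pr Y, b) := by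
      have k5 : 0 < μ Y := (hS.pos _ (cl_box hY)).trans_le (hμ _ (cl_box hY)).1
      have := mul_le_mul (hp a b hab Y hY) (hc a b hab) (hω a).le (by positivity)
      rw [hWY a _ hY', hWY b _ hY]
      linarith
    rw [(hE.down a _ hY').2, k3, ← hE.pr_add, edge, if_pos ⟨k1, k2⟩]
    refine (fpa_two (y₁ := g (pr Y, b)) hc1 (hW0 _ k2) k4).trans ?_
    exact mul_le_mul_of_nonneg_left (add_le_add_right (mul_le_mul_of_nonneg_left
      (fpa_clip (hg _ k1)).1 (hW0 _ k1).le) _) (by positivity)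
  rw [← sum_filter_add_sum_filter_not Ω fun x => lift x ∈ box m.lo m.hi]
  refine add_le_add ?_ ?_
  · rw [← sum_fiberwise_of_maps_to (g := fun x => x.2) (t := univ) fun _ _ => mem_univ _]
    simp only [filter_filter, and_comm (a := lift _ ∈ _)]
    refine (sum_le_sum fun a _ => h2 a).trans ?_
    rw [← mul_sum, sum_add_distrib, sum_const, card_univ, nsmul_eq_mul, mul_assoc (4 * cω)]
    refine mul_le_mul_of_nonneg_left ?_ (by positivity)
    have k1 : 0 ≤ D := hDT ▸ sum_nonneg fun x _ => hT0 x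
    have k2 : 0 ≤ Dpa Ω W g fun a b => pr (m.path (tok a) - m.path (tok b)) :=
      sum_nonneg fun _ _ => sum_nonneg fun _ _ => sum_nonneg fun _ _ => hEd _ _
    have k3 : 0 ≤ Fintype.card V * K := by positivity
    change (Dpa Ω W g fun a b => pr (m.path (tok a) - m.path (tok b))) + _ ≤ _
    nlinarith [mul_nonneg k3 k2]
  · rw [mul_sum]
    refine sum_le_sum fun x hx => ?_
    have hx' := (mem_filter.1 hx).1
    rw [mul_comm]
    exact mul_le_mul_of_nonneg_right (fpa_clip (hg x hx')).2 (hW0 x hx').le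

/-- Comparison of the masses of two tokens in the same component. -/
theorem mass_cmp {μ : (Fin Mt → ℤ) → ℝ} (hT : m.Thick thick s) (hE : Emb m tok w Ω lift pr)
    (hμ0 : ∀ x ∈ Ω, 0 ≤ μ (lift x))
    (hp : ∀ a b, m.root (tok a) = m.root (tok b) → ∀ Y ∈ m.cl (tok b) (tok w),
      μ (Y + (m.path (tok a) - m.path (tok b))) ≤ 2 * μ Y)
    {a b : V} (hab : m.root (tok a) = m.root (tok b)) :
    ∑ x ∈ Ω with x.2 = a, μ (lift x) ≤ 2 * ∑ x ∈ Ω with x.2 = b, μ (lift x) +
      ∑ x ∈ Ω with x.2 = a ∧ lift x ∉ box m.lo m.hi, μ (lift x) := by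
  have e : ∀ a, ∑ Y ∈ m.cl (tok a) (tok w), μ (lift (pr Y, a)) = ∑ Y ∈ m.cl (tok a) (tok w), μ Y :=
    fun a => sum_congr rfl fun Y hY => by rw [(hE.down a Y hY).2]
  rw [← sum_filter_add_sum_filter_not _ fun x => lift x ∈ box m.lo m.hi, filter_filter,
    filter_filter, fpa_sum hE a fun x => μ (lift x), e, sum_cl_move hT hab]
  refine add_le_add_left ((sum_le_sum (hp a b hab)).trans ?_) _
  rw [← mul_sum, ← e]
  exact mul_le_mul_of_nonneg_left (fpa_le hE b hμ0) zero_le_two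

end Crest.Agent.R302
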