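import Crest.Agent.R302.Iface

/-!
# Row 302: matroids as polymatroids; the greedy algorithm computes the rank
-/

set_option autoImplicit false

namespace Crest.Agent.R302

open Finset Crest.Agent.Lib.PolyTime Crest.Agent.R309 Crest.Polymatroid

/-- The rank function of a matroid on `Fin n`. -/
noncomputable def mrk {n : ℕ} (M : Matroid (Fin n)) (A : Finset (Fin n)) : ℕ :=
  (M.eRk (A : Set (Fin n))).toNat

theorem gr_cast {n : ℕ} (M : Matroid (Fin n)) (A : Finset (Fin n)) :
    (mrk M A : ℕ∞) = M.eRk (A : Set (Fin n)) :=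
  ENat.natCast_toNat (ne_top_of_le_ne_top (Set.toFinite _).encard_lt_top.ne (M.eRk_le_encard _))

/-- All ranks are finite (`M.eRk_le_encard`, `Set.encard_coe_eq_coe_finsetCard`); then use
`Matroid.eRk_empty`, `Matroid.eRk_mono`, `Matroid.eRk_inter_add_eRk_union_le`. -/
theorem mrk_poly {n : ℕ} (M : Matroid (Fin n)) : IsPolymatroidRank (mrk M) := by
  refine ⟨by simp [mrk], fun A B h => ?_, fun A B => ?_⟩
  · have := M.eRk_mono (Finset.coe_subset.2 h)
    rw [← gr_cast, ← gr_cast] at this
    exact_mod_cast this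
  · have := M.eRk_inter_add_eRk_union_le (A : Set (Fin n)) (B : Set (Fin n))
    rw [← Finset.coe_inter, ← Finset.coe_union, ← gr_cast, ← gr_cast, ← gr_cast, ← gr_cast,
      add_comm] at this
    exact_mod_cast this

theorem mrk_univ {n r : ℕ} {M : Matroid (Fin n)} (hE : M.E = Set.univ) (hr : M.eRank = r) :
    mrk M univ = r := by
  rw [mrk, Finset.coe_univ, ← hE, Matroid.eRk_ground, hr, ENat.toNat_natCast]

theorem gr_le_card {n : ℕ} (M : Matroid (Fin n)) (A : Finset (Fin n)) : mrk M A ≤ A.card := by
  have := M.eRk_le_encard (A : Set (Fin n))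
  rw [← gr_cast, Set.encard_coe_eq_coe_finsetCard] at this
  exact_mod_cast this

theorem gr_indep {n : ℕ} (M : Matroid (Fin n)) (A : Finset (Fin n)) :
    M.Indep (A : Set (Fin n)) ↔ mrk M A = A.card := by
  rw [Matroid.indep_iff_eRk_eq_encard_of_finite (Set.toFinite _), ← gr_cast,
    Set.encard_coe_eq_coe_finsetCard, Nat.cast_inj]

theorem gr_base {n r : ℕ} {M : Matroid (Fin n)} (hr : M.eRank = r)
    {B : Finset (Fin n)} {x : Fin n → ℕ} (hx : ∀ j, x j = if j ∈ B then 1 else 0) :
    M.IsBase (B : Set (Fin n)) ↔ ∑ j, x j = r ∧ ∀ A : Finset (Fin n), ∑ j ∈ A, x j ≤ mrk M A := by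
  have hs : ∀ A : Finset (Fin n), ∑ j ∈ A, x j = (A ∩ B).card := fun A => by
    simp only [hx]
    rw [sum_ite_mem, card_eq_sum_ones]
  simp only [hs, univ_inter]
  constructor
  · intro hB
    refine ⟨?_, fun A => ?_⟩
    · have := hB.encard_eq_eRank
      rw [hr, Set.encard_coe_eq_coe_finsetCard] at this
      exact_mod_cast this
    · rw [← (gr_indep M _).1 (hB.indep.subset (by simp))]
      exact (mrk_poly M).2.1 _ _ inter_subset_left
  · rintro ⟨h1, h2⟩
    have h3 : mrk M B = B.card := le_antisymm (gr_le_card M B) (by simpa using h2 B)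
    refine ((gr_indep M B).2 h3).isBase_of_eRk_ge (Set.toFinite _) ?_
    rw [hr, ← gr_cast, h3, h1]

/-- Bijection `B ↦ indicator of B` (for `r = 0` only `B = ∅` and `x = 0` occur: `Fin (0 + 1)` has one element;
use `Finset.card_nbij'` or `card_bij` with the inverse `x ↦ {j | x j ≠ 0}`).  A vector `x` counted on the right has
`x j ≤ mrk {j} ≤ 1`, so it is the indicator of `B = {j | x j ≠ 0}`, `|B| = r` and `|B| ≤ mrk B` gives independence
(`Matroid.indep_iff_eRk_eq_encard_of_finite`), an independent set of size `eRank` is a base; conversely for a base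
`B`, `|A ∩ B| = eRk (A ∩ B) ≤ eRk A`. -/
theorem numCommonBases_eq {n r : ℕ} {M₁ M₂ : Matroid (Fin n)} (hE₁ : M₁.E = Set.univ)
    (hE₂ : M₂.E = Set.univ) (hr₁ : M₁.eRank = r) (hr₂ : M₂.eRank = r) :
    numCommonBases M₁ M₂ = numCommonIntBases r (mrk M₁) (mrk M₂) := by
  classical
  unfold numCommonBases numCommonIntBases
  symm
  have h01 : ∀ x : Fin n → Fin (r + 1), (∀ A : Finset (Fin n), ∑ j ∈ A, (x j : ℕ) ≤ mrk M₁ A) →
      ∀ j, (x j : ℕ) = if j ∈ univ.filter fun j => (x j : ℕ) ≠ 0 then 1 else 0 := by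
    intro x hx j
    have h1 := (hx {j}).trans (gr_le_card M₁ {j})
    simp only [sum_singleton, card_singleton] at h1
    simp only [mem_filter, mem_univ, true_and]
    split_ifs <;> omega
  refine Finset.card_bij (fun x _ => univ.filter fun j => (x j : ℕ) ≠ 0) ?_ ?_ ?_
  · intro x hx
    simp only [mem_filter, mem_univ, true_and] at hx ⊢
    have h1 := h01 x fun A => (hx.2 A).1
    exact ⟨(gr_base hr₁ h1).2 ⟨hx.1, fun A => (hx.2 A).1⟩,
      (gr_base hr₂ h1).2 ⟨hx.1, fun A => (hx.2 A).2⟩⟩
  · intro x hx y hy h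
    simp only [mem_filter, mem_univ, true_and] at hx hy
    funext j
    refine Fin.ext ?_
    rw [h01 x (fun A => (hx.2 A).1) j, h01 y (fun A => (hy.2 A).1) j, h]
  · intro B hB
    simp only [mem_filter, mem_univ, true_and] at hB
    have h1 := (gr_base hr₁ (B := B) (x := fun j => if j ∈ B then 1 else 0) fun _ => rfl).1 hB.1
    have h2 := (gr_base hr₂ (B := B) (x := fun j => if j ∈ B then 1 else 0) fun _ => rfl).1 hB.2
    have h3 : ∀ j, (if j ∈ B then 1 else 0) < r + 1 := fun j => by
      rw [← h1.1]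
      exact Nat.lt_succ_of_le (single_le_sum (f := fun j => if j ∈ B then 1 else 0)
        (fun _ _ => Nat.zero_le _) (mem_univ j))
    refine ⟨fun j => ⟨_, h3 j⟩, ?_, ?_⟩
    · simp only [mem_filter, mem_univ, true_and]
      exact ⟨h1.1, fun A => ⟨h1.2 A, h2.2 A⟩⟩
    · ext j
      simp

theorem gr_toS_true {n m : ℕ} (hm : m < n) {I : List Bool} (h : I.length = m) :
    toS n (I ++ [true]) = insert ⟨m, hm⟩ (toS n I) := by
  ext j
  simp only [toS, mem_filter, mem_univ, true_and, mem_insert, Fin.ext_iff]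
  rcases lt_trichotomy j.val m with hj | hj | hj
  · rw [List.getD_append _ _ _ _ (by omega)]; simp [hj.ne]
  · simp [hj, ← h]
  · rw [List.getD_eq_default _ _ (by simp; omega), List.getD_eq_default _ _ (by omega)]
    simp [hj.ne']

theorem gr_toS_false (n : ℕ) (I : List Bool) : toS n (I ++ [false]) = toS n I := by
  ext j
  simp only [toS, mem_filter, mem_univ, true_and]
  rcases lt_trichotomy j.val I.length with hj | hj | hj
  · rw [List.getD_append _ _ _ _ hj]
  · simp [hj]
  · rw [List.getD_eq_default _ _ (by simp; omega), List.getD_eq_default _ _ (by omega)]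

/-- Invariant for `m ≤ n`: `I = greedyI O b l m` has length `m`, `toS n I` is a basis (`M.IsBasis`) of
`toS n l ∩ {j | j < m}`, and `(I.filter id).length = (toS n I).card`; `toS n (I ++ [true]) = insert m (toS n I)`,
`toS n (I ++ [false]) = toS n I`.  (`greedyI` at `m + 1`: `List.range_succ`, `List.foldl_append`.) -/
theorem rk_greedy {n : ℕ} {M : Matroid (Fin n)} (hE : M.E = Set.univ) (O : Orc) (b : Bool)
    (hO : ∀ l, O.f b l ≠ 0 ↔ M.Indep (toS n l : Set (Fin n))) (l : List Bool) :
    rk (O, true, n) b l = mrk M (toS n l) := by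
  have key : ∀ m, m ≤ n → (greedyI O b l m).length = m ∧
      ((greedyI O b l m).filter fun d => d).length = (toS n (greedyI O b l m)).card ∧
      M.Indep (toS n (greedyI O b l m) : Set (Fin n)) ∧ toS n (greedyI O b l m) ⊆ toS n l ∧
      ∀ j ∈ toS n l, j.val < m → j ∈ M.closure (toS n (greedyI O b l m) : Set (Fin n)) := by
    intro m
    induction m with
    | zero => intro _; simp [greedyI, toS]
    | succ m ih =>
      intro hm
      obtain ⟨h1, h2, h3, h4, h5⟩ := ih (by omega)
      have e : greedyI O b l (m + 1) = greedyI O b l m ++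
          [l.getD m false && decide (ask O b (greedyI O b l m ++ [true]) ≠ 0)] := by
        rw [greedyI, List.range_succ, List.foldl_append]; rfl
      rw [e]
      generalize greedyI O b l m = I at *
      have hnot : (⟨m, hm⟩ : Fin n) ∉ toS n I := by simp [toS, ← h1]
      have ht := gr_toS_true hm h1
      have hask : ask O b (I ++ [true]) ≠ 0 ↔
          M.Indep (insert (⟨m, hm⟩ : Fin n) (toS n I : Set (Fin n))) := by
        rw [← Finset.coe_insert, ← ht, ← hO, ask, Int.natCast_ne_zero]
      cases hc : (l.getD m false && decide (ask O b (I ++ [true]) ≠ 0))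
      · rw [gr_toS_false]
        refine ⟨by simp [h1], by simpa using h2, h3, h4, fun j hj hjm => ?_⟩
        rcases Nat.lt_succ_iff_lt_or_eq.1 hjm with hjm | hjm
        · exact h5 j hj hjm
        · obtain rfl : j = ⟨m, hm⟩ := Fin.ext hjm
          have h6 : l.getD m false = true := by simpa [toS] using hj
          rw [h6, Bool.true_and, decide_eq_false_iff_not, hask,
            h3.insert_indep_iff_of_notMem (by simpa using hnot), hE] at hc
          simpa using hc
      · rw [Bool.and_eq_true, decide_eq_true_iff, hask] at hc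
        rw [ht]
        refine ⟨by simp [h1], ?_, by simpa using hc.2, ?_, fun j hj hjm => ?_⟩
        · rw [card_insert_of_notMem hnot, ← h2]; simp
        · exact insert_subset (by simpa [toS] using hc.1) h4
        · rcases Nat.lt_succ_iff_lt_or_eq.1 hjm with hjm | hjm
          · exact M.closure_subset_closure (by simp) (h5 j hj hjm)
          · obtain rfl : j = ⟨m, hm⟩ := Fin.ext hjm
            exact M.mem_closure_of_mem (by simp) (by simp [hE])
  obtain ⟨-, h2, h3, h4, h5⟩ := key n le_rfl
  have h6 := (h3.isBasis_of_subset_of_subset_closure (Finset.coe_subset.2 h4)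
    fun j hj => h5 j hj j.2).encard_eq_eRk
  rw [← gr_cast, Set.encard_coe_eq_coe_finsetCard, Nat.cast_inj] at h6
  simp only [rk, cond_true, h2, h6]

end Crest.Agent.R302
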