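import Crest.Agent.R302.ORam
import Crest.Agent.R302.Greedy

/-!
# Row 302: from the estimator to the two statements
-/

set_option autoImplicit false

namespace Crest.Agent.R302

open Crest.Agent.Lib.PolyTime Crest.Agent.R309 Crest.OracleRAM Crest.Polymatroid

/-- The conclusion of both statements for the oracle `O` and the count `Z`. -/
def Fpras (P : OProgram) (c₀ C d n R : ℕ) (O : Bool → Finset (Fin n) → ℕ) (Z : ℕ) (ε δ : ℚ) : Prop :=
  (∀ ρ : ℕ → ℕ, (orun P n O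
      (c₀ * Nat.clog 2 (n + R + ε.num.natAbs + ε.den + δ.num.natAbs + δ.den + 2)) ρ
      (countInput n R ε δ) (C * (sizeParam n R ε δ + 1) ^ d)).cfg.halted = true) ∧
  (∀ ρ : ℕ → ℕ, ∃ z : ℚ, 0 ≤ z ∧
    decodeRat (c₀ * Nat.clog 2 (n + R + ε.num.natAbs + ε.den + δ.num.natAbs + δ.den + 2))
      (orun P n O (c₀ * Nat.clog 2 (n + R + ε.num.natAbs + ε.den + δ.num.natAbs + δ.den + 2)) ρ
        (countInput n R ε δ) (C * (sizeParam n R ε δ + 1) ^ d)).cfg.output = some z) ∧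
  (Z = 0 → ∀ ρ : ℕ → ℕ,
    decodeRat (c₀ * Nat.clog 2 (n + R + ε.num.natAbs + ε.den + δ.num.natAbs + δ.den + 2))
      (orun P n O (c₀ * Nat.clog 2 (n + R + ε.num.natAbs + ε.den + δ.num.natAbs + δ.den + 2)) ρ
        (countInput n R ε δ) (C * (sizeParam n R ε δ + 1) ^ d)).cfg.output = some 0) ∧
  1 - (δ : ℝ) ≤ oprobAfter P n O
      (c₀ * Nat.clog 2 (n + R + ε.num.natAbs + ε.den + δ.num.natAbs + δ.den + 2))
      (countInput n R ε δ) (C * (sizeParam n R ε δ + 1) ^ d)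
      (fun c => ∃ z : ℚ, decodeRat
          (c₀ * Nat.clog 2 (n + R + ε.num.natAbs + ε.den + δ.num.natAbs + δ.den + 2))
          c.cfg.output = some z ∧ (1 - ε) * Z ≤ z ∧ z ≤ (1 + ε) * Z)

/-- The first input word and the random tape. -/
def finParse (r : Raw) : ℤ × List Bool :=
  ((readNat r.bits.reverse).1,
    (readNat (readNat (readNat (readNat (readNat (readNat r.bits.reverse).2).2).2).2).2).2)

theorem fin_pt_parse : PT finParse := by
  have h0 : PT fun r : Raw => r.bits.reverse := (PT.rawBits PT.id').reverse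
  have h1 := PT.readNat h0
  exact PT.pair h1.fst (PT.readNat (PT.readNat (PT.readNat (PT.readNat
    (PT.readNat h1.snd).snd).snd).snd).snd).snd

theorem fin_parse_eq (n R : ℕ) (ε δ : ℚ) (τ : List Bool) :
    finParse ⟨(((countInput n R ε δ).map Crest.Enc.natCode).flatten ++ τ).reverse⟩ = ((n : ℤ), τ) := by
  simp only [finParse, countInput, List.reverse_reverse, List.map_cons, List.map_nil,
    List.flatten_cons, List.flatten_nil, List.append_assoc, List.nil_append, readNat_natCode]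

/-- The function computed on the machine. -/
def finG (est : Ora × ℕ × List Bool → ℤ) (md : Bool) (p : Orc × Raw) : Raw :=
  ⟨(est ((p.1, md, min (finParse p.2).1.toNat p.1.s), 64 + 8 * (p.1.s + 1) * (p.1.s + 2),
    (finParse p.2).2)).natAbs.bits⟩

theorem fin_opt {est : Ora × ℕ × List Bool → ℤ} (h : OPT est) (md : Bool) : OPT (finG est md) := by
  have h1 : OPT fun p : Orc × Raw => finParse p.2 := OPT.ofPT₁ fin_pt_parse (OPT.snd OPT.id')
  have h2 : OPT fun p : Orc × Raw => p.1 := OPT.fst OPT.id'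
  have h3 : OPT fun p : Orc × Raw => p.1.s := OPT.s h2
  have h4 : OPT fun p : Orc × Raw => 64 + 8 * (p.1.s + 1) * (p.1.s + 2) :=
    OPT.nat_add (OPT.const _) (OPT.nat_mul (OPT.nat_mul (OPT.const _)
      (OPT.nat_add h3 (OPT.const _))) (OPT.nat_add h3 (OPT.const _)))
  have h5 := h.comp (OPT.pair (OPT.pair h2 (OPT.pair (OPT.const md) (OPT.toNat_min h1.fst h3)))
    (OPT.pair h4 h1.snd))
  exact OPT.ofPT₁ (φ := fun l : List Bool => Raw.mk l) (PT.rawMk PT.id') h5.natAbs_bits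

theorem fin_qI (n R : ℕ) (ε δ : ℚ) : qI (countInput n R ε δ) =
    2 * (n.size + R.size + ε.num.natAbs.size + ε.den.size + δ.num.natAbs.size + δ.den.size) + 12 +
      (n + 6) + ε.den / ε.num.natAbs := by
  simp only [qI, countInput, List.map_cons, List.map_nil, List.flatten_cons, List.flatten_nil,
    List.length_append, Ram.length_natCode, Nat.size_eq_bits_len, List.length_nil,
    List.getD_cons_zero, List.getD_cons_succ]
  omega

theorem fin_size_le_self (x : ℕ) : x.size ≤ x := Nat.size_le.2 Nat.lt_two_pow_self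

theorem fin_size_le_clog (x : ℕ) : x.size ≤ Nat.clog 2 (x + 2) :=
  Nat.size_le.2 (lt_of_lt_of_le (by omega) (Nat.le_pow_clog (by norm_num) (x + 2)))

theorem fin_inv_eq {ε : ℚ} (hε : 0 < ε) : ε⁻¹ = (ε.den : ℚ) / (ε.num.natAbs : ℚ) := by
  have h1 : (ε.num.natAbs : ℚ) = ε.num := by
    rw [← Int.cast_natCast, Int.natAbs_of_nonneg (Rat.num_pos.2 hε).le]
  rw [h1]
  conv_lhs => rw [← Rat.num_div_den ε]
  rw [inv_div]

theorem fin_div_le {ε : ℚ} (hε : 0 < ε) : ε.den / ε.num.natAbs ≤ ⌈ε⁻¹⌉₊ := by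
  have h1 : ((ε.den / ε.num.natAbs : ℕ) : ℚ) ≤ ε⁻¹ := by
    rw [fin_inv_eq hε]; exact Nat.cast_div_le
  exact_mod_cast h1.trans (Nat.le_ceil _)

theorem fin_inv_le {ε : ℚ} (hε : 0 < ε) : ε⁻¹ ≤ ((ε.den / ε.num.natAbs + 1 : ℕ) : ℚ) := by
  have h0 : 0 < ε.num.natAbs := Int.natAbs_pos.2 (Rat.num_pos.2 hε).ne'
  have h1 : ε.den < ε.num.natAbs * (ε.den / ε.num.natAbs + 1) := Nat.lt_mul_div_succ _ h0
  rw [fin_inv_eq hε, div_le_iff₀ (by exact_mod_cast h0), mul_comm]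
  exact_mod_cast h1.le

theorem fin_bitsAt {w T L : ℕ} (tb : Fin T → Fin (2 ^ w)) (h : L ≤ T) :
    Ram.bitsAt w (Crest.WordRAM.streamOf tb) 0 L = (lowBits tb).take L := by
  have := blk_streamOf (R := L) (j := 0) tb (by omega)
  simpa [blk, chunk, Ram.bitsAt] using this

theorem fin_pow_lt (C D q M : ℕ) (hM : 2 ≤ M) (hq : q ≤ 30 * M) :
    C * q ^ D < 2 ^ ((C * 30 ^ D + D + 1) * Nat.clog 2 M) := by
  have h1 : M ≤ 2 ^ Nat.clog 2 M := Nat.le_pow_clog (by norm_num) M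
  have h2 : C * 30 ^ D < M ^ (C * 30 ^ D + 1) :=
    calc C * 30 ^ D < 2 ^ (C * 30 ^ D) := Nat.lt_two_pow_self
      _ ≤ M ^ (C * 30 ^ D) := Nat.pow_le_pow_left hM _
      _ ≤ _ := Nat.pow_le_pow_right (by omega) (by omega)
  calc C * q ^ D ≤ C * (30 * M) ^ D := Nat.mul_le_mul_left _ (Nat.pow_le_pow_left hq _)
    _ = C * 30 ^ D * M ^ D := by rw [mul_pow, mul_assoc]
    _ < M ^ (C * 30 ^ D + 1) * M ^ D := Nat.mul_lt_mul_of_pos_right h2 (Nat.pow_pos (by omega))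
    _ = M ^ (C * 30 ^ D + D + 1) := by rw [← pow_add]; congr 1; omega
    _ ≤ (2 ^ Nat.clog 2 M) ^ (C * 30 ^ D + D + 1) := Nat.pow_le_pow_left h1 _
    _ = _ := by rw [← pow_mul, mul_comm]

/-- Apply `oram` with `a = 4 * e` to `G (O, r) = ⟨(est ((O, md, min n.toNat O.s), 64 + 8 (O.s + 1) (O.s + 2), τ)).natAbs.bits⟩`
where `r.bits.reverse` is parsed by six `readNat` (first value `n`, rest `τ`; `readNat_natCode`; `PT.rawBits`,
`PT.rawMk`, `OPT.toNat_min`, `OPT.ofPT₁`).  With `q = qI ws ≥ 6`, `M = n + R + … + 2`, `S = sizeParam`: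
`q ≤ 30 (S + 1)` and `q ≤ 30 M` (`length_natCode`, `Nat.size` against `Nat.clog`; `ε.den / ε.num ≤ ⌈ε⁻¹⌉₊`),
`M ≤ 2 ^ clog 2 M`, `2 ≤ M`, so `C q ^ D < M ^ c₀ ≤ 2 ^ w` for a large `c₀`; `R + 1 < 2 ^ q`, `n ≤ q`,
`z = 64 + 8 (q+1)(q+2) ≤ q ^ 4`, `1 ≤ ε z`, `(1/2) ^ z ≤ δ`.  The oracle is `Oc = ⟨q, fun b l => O b (toS n l), _⟩`.
Probability: `le_prob`, `lowBits`, `Ex_take` of `R309/RamProb.lean`, `R309/Prob.lean`
(`bitsAt w (streamOf tb) 0 L = (lowBits tb).take L` for `L ≤ T`, cf. `blk_streamOf`); the last step is the end of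
`R309/Main79.lean`. -/
theorem fpras {est : Ora × ℕ × List Bool → ℤ} {e : ℕ} (h : EstSpec est e) (md : Bool) :
    ∃ (P : OProgram) (c₀ C d : ℕ), ∀ (n R : ℕ) (r₁ r₂ : Finset (Fin n) → ℕ)
      (O : Bool → Finset (Fin n) → ℕ) (ε δ : ℚ), 0 < ε → ε < 1 → 0 < δ → δ < 1 →
      (∀ b A, O b A ≤ R + 1) →
      (∀ Oc : Orc, (∀ b l, Oc.f b l = O b (toS n l)) → R < 2 ^ Oc.s → Models (Oc, md, n) R r₁ r₂) →
      Fpras P c₀ C d n R O (numCommonIntBases R r₁ r₂) ε δ := by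
  obtain ⟨P, C, D, hCD, H⟩ := oram (finG est md) (fin_opt h.opt md) (4 * e)
  refine ⟨P, C * 30 ^ D + D + 1, C * 30 ^ D, D, ?_⟩
  intro n R r₁ r₂ O ε δ hε _ hδ _ hO hM
  unfold Fpras
  have hqe := fin_qI n R ε δ
  have s₁ := fin_size_le_self n
  have s₂ := fin_size_le_self R
  have s₃ := fin_size_le_self ε.num.natAbs
  have s₄ := fin_size_le_self ε.den
  have s₅ := fin_size_le_self δ.num.natAbs
  have s₆ := fin_size_le_self δ.den
  have c₂ := fin_size_le_clog R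
  have c₃ := fin_size_le_clog ε.num.natAbs
  have c₄ := fin_size_le_clog ε.den
  have c₅ := fin_size_le_clog δ.num.natAbs
  have c₆ := fin_size_le_clog δ.den
  have hdiv := fin_div_le hε
  have hdiv' : ε.den / ε.num.natAbs ≤ ε.den := Nat.div_le_self _ _
  have hinv := fin_inv_le hε
  generalize ε.den / ε.num.natAbs = k at hqe hdiv hdiv' hinv
  have hqS : qI (countInput n R ε δ) ≤ 30 * (sizeParam n R ε δ + 1) := by
    unfold sizeParam; omega
  have hws : ∀ x ∈ countInput n R ε δ,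
      x + 1 < n + R + ε.num.natAbs + ε.den + δ.num.natAbs + δ.den + 2 := by
    intro x hx
    simp only [countInput, List.mem_cons, List.not_mem_nil, or_false] at hx
    omega
  have hRM := hws R (by simp [countInput])
  have hqM : qI (countInput n R ε δ) ≤
      30 * (n + R + ε.num.natAbs + ε.den + δ.num.natAbs + δ.den + 2) := by omega
  have hM2 : 2 ≤ n + R + ε.num.natAbs + ε.den + δ.num.natAbs + δ.den + 2 := by omega
  have hparse := fin_parse_eq n R ε δ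
  have hnq : n ≤ qI (countInput n R ε δ) := by omega
  have hq6 : 6 ≤ qI (countInput n R ε δ) := by omega
  have hRs : R.size < qI (countInput n R ε δ) := by omega
  have hδs : δ.den.size ≤ qI (countInput n R ε δ) := by omega
  have hεs : k + 1 ≤ qI (countInput n R ε δ) := by omega
  clear hqe s₁ s₂ s₃ s₄ s₅ s₆ c₂ c₃ c₄ c₅ c₆ hdiv hdiv'
  have hl : (countInput n R ε δ).length = 6 := rfl
  have h0 : (countInput n R ε δ).getD 0 0 = n := rfl
  generalize n + R + ε.num.natAbs + ε.den + δ.num.natAbs + δ.den + 2 = M at *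
  generalize sizeParam n R ε δ = S at *
  generalize countInput n R ε δ = ws at *
  have hCw := fin_pow_lt C D _ M hM2 hqM
  have hMw : M ≤ 2 ^ ((C * 30 ^ D + D + 1) * Nat.clog 2 M) :=
    (Nat.le_pow_clog (by norm_num) M).trans (Nat.pow_le_pow_right (by norm_num)
      (Nat.le_mul_of_pos_left _ (by omega)))
  generalize (C * 30 ^ D + D + 1) * Nat.clog 2 M = w at *
  have hw : 0 < w := by
    rcases w with _ | w
    · simp at hMw; omega
    · omega
  have hT : C * qI ws ^ D ≤ C * 30 ^ D * (S + 1) ^ D := by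
    rw [mul_assoc, ← mul_pow]
    exact Nat.mul_le_mul_left _ (Nat.pow_le_pow_left hqS _)
  generalize C * 30 ^ D * (S + 1) ^ D = T at *
  have hRq : R + 1 < 2 ^ qI ws := by
    have h1 : R < 2 ^ R.size := Nat.lt_size_self R
    have h2 : 2 ^ R.size < 2 ^ qI ws := Nat.pow_lt_pow_right (by norm_num) hRs
    omega
  let Oc : Orc := ⟨qI ws, fun b l => O b (toS n l), fun b l => (hO _ _).trans_lt hRq⟩
  have hmod : Models (Oc, md, n) R r₁ r₂ := hM Oc (fun _ _ => rfl) (by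
    show R < 2 ^ qI ws
    omega)
  have H' := H n ws O Oc w T hl h0 (fun x hx => by have := hws x hx; omega) rfl (fun _ _ => rfl)
    (fun b A => by have := hO b A; omega) hCw hT
  obtain ⟨z, hz⟩ : ∃ z, z = 64 + 8 * (qI ws + 1) * (qI ws + 2) := ⟨_, rfl⟩
  have hG : ∀ τ : List Bool, (Bin.valMSB (finG est md (Oc,
      ⟨((ws.map Crest.Enc.natCode).flatten ++ τ).reverse⟩)).bits.reverse : ℚ) =
      (est ((Oc, md, n), z, τ) : ℚ) := by
    intro τ
    have e1 : min (n : ℤ).toNat Oc.s = n := by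
      rw [Int.toNat_natCast]; exact min_eq_left hnq
    have e2 : 64 + 8 * (Oc.s + 1) * (Oc.s + 2) = z := hz.symm
    simp only [finG, hparse, e1, e2, Bin.valMSB_bits_reverse]
    rw [← Int.cast_natCast, Int.natAbs_of_nonneg (h.nonneg _)]
  simp only [hG] at H'
  have hzge : 64 + 8 * (n + 1) * (Ora.s (Oc, md, n) + 2) ≤ z := by
    rw [hz]
    exact Nat.add_le_add_left (Nat.mul_le_mul_right _ (by omega)) _
  refine ⟨fun ρ => (H' ρ).1, fun ρ => ⟨_, by exact_mod_cast h.nonneg _, (H' ρ).2⟩,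
    fun hZ ρ => ?_, ?_⟩
  · rw [(H' ρ).2, h.zero _ n R r₁ r₂ z _ hmod hzge hZ, Int.cast_zero]
  have hqz : qI ws ≤ z := by
    rw [hz]
    have : qI ws ≤ 8 * (qI ws + 1) * (qI ws + 2) :=
      (show qI ws ≤ 8 * (qI ws + 1) by omega).trans (Nat.le_mul_of_pos_right _ (by omega))
    omega
  have hz4 : z ≤ qI ws ^ 4 := by
    rw [hz]
    obtain ⟨j, hj⟩ := Nat.exists_eq_add_of_le hq6
    rw [hj]
    ring_nf
    omega
  have hL : z ^ e ≤ qI ws ^ (4 * e) := by
    rw [pow_mul]; exact Nat.pow_le_pow_left hz4 _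
  have hLT : qI ws ^ (4 * e) ≤ T := (hCD _ (by omega)).trans hT
  have hgood := h.good _ n R r₁ r₂ z _ hmod hzge hL
  generalize numCommonIntBases R r₁ r₂ = Z at *
  generalize qI ws ^ (4 * e) = L at *
  have hεN : 1 ≤ ε * z := by
    have h2 : ε⁻¹ ≤ z := hinv.trans (by exact_mod_cast hεs.trans hqz)
    rwa [inv_le_iff_one_le_mul₀' hε] at h2
  have hδN : (1 / 2 : ℝ) ^ z ≤ δ := by
    have h1 : δ.den ≤ 2 ^ z :=
      (Nat.lt_size_self _).le.trans (Nat.pow_le_pow_right (by norm_num) (hδs.trans hqz))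
    have h2 : (δ.den : ℝ) ≤ 2 ^ z := by exact_mod_cast h1
    have h3 : (1 : ℝ) ≤ δ.num := by exact_mod_cast Rat.num_pos.2 hδ
    have h4 : (0 : ℝ) < δ.den := by exact_mod_cast δ.den_pos
    rw [one_div_pow, Rat.cast_def]
    gcongr
  unfold oprobAfter
  refine le_trans ?_ (le_prob hw _ (fun τ => 1 - ind ((Z : ℤ) <
    z * |est ((Oc, md, n), z, τ.take L) - Z|)) fun tb => ?_)
  · rw [Ex_take hLT fun τ => 1 - ind ((Z : ℤ) < z * |est ((Oc, md, n), z, τ) - Z|), Ex_sub,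
      Ex_const]
    linarith
  · rw [← ind_not]
    refine ind_mono fun hh => ⟨_, (H' _).2, ?_⟩
    rw [fin_bitsAt tb hLT]
    generalize est ((Oc, md, n), z, (lowBits tb).take L) = x at *
    have h1 : (z : ℚ) * |(x : ℚ) - Z| ≤ Z := by exact_mod_cast not_lt.1 hh
    have h2 : |(x : ℚ) - Z| ≤ ε * Z :=
      calc _ ≤ ε * z * |(x : ℚ) - Z| := le_mul_of_one_le_left (abs_nonneg _) hεN
        _ ≤ _ := by rw [mul_assoc]; exact mul_le_mul_of_nonneg_left h1 hε.le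
    rw [abs_le] at h2
    constructor <;> linarith [h2.1, h2.2]

theorem fpras_poly {est : Ora × ℕ × List Bool → ℤ} {e : ℕ} (h : EstSpec est e) :
    ∃ (P : OProgram) (c₀ C d : ℕ), ∀ (n R : ℕ) (r₁ r₂ : Finset (Fin n) → ℕ) (ε δ : ℚ),
      IsPolymatroidRank r₁ → IsPolymatroidRank r₂ → r₁ Finset.univ = R → r₂ Finset.univ = R →
      0 < ε → ε < 1 → 0 < δ → δ < 1 →
      Fpras P c₀ C d n R (fun b => if b then r₂ else r₁) (numCommonIntBases R r₁ r₂) ε δ := by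
  obtain ⟨P, c₀, C, d, H⟩ := fpras h false
  refine ⟨P, c₀, C, d, fun n R r₁ r₂ ε δ p₁ p₂ t₁ t₂ h₁ h₂ h₃ h₄ =>
    H n R r₁ r₂ _ ε δ h₁ h₂ h₃ h₄ (fun b A => ?_) fun Oc hO hR =>
      ⟨rfl, p₁, p₂, t₁, t₂, fun l => ?_, fun l => ?_, hR⟩⟩
  · have e₁ := p₁.2.1 A _ (Finset.subset_univ A)
    have e₂ := p₂.2.1 A _ (Finset.subset_univ A)
    cases b <;> simp <;> omega
  · simp [rk, ask, hO]
  · simp [rk, ask, hO]

theorem fpras_matroid {est : Ora × ℕ × List Bool → ℤ} {e : ℕ} (h : EstSpec est e) :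
    ∃ (P : OProgram) (c₀ C d : ℕ), ∀ (n r : ℕ) (M₁ M₂ : Matroid (Fin n)) (ε δ : ℚ),
      M₁.E = Set.univ → M₂.E = Set.univ → M₁.eRank = r → M₂.eRank = r →
      0 < ε → ε < 1 → 0 < δ → δ < 1 →
      Fpras P c₀ C d n r (indepOracle M₁ M₂) (numCommonBases M₁ M₂) ε δ := by
  obtain ⟨P, c₀, C, d, H⟩ := fpras h true
  refine ⟨P, c₀, C, d, fun n r M₁ M₂ ε δ e₁ e₂ t₁ t₂ h₁ h₂ h₃ h₄ => ?_⟩
  rw [numCommonBases_eq e₁ e₂ t₁ t₂]
  refine H n r _ _ _ ε δ h₁ h₂ h₃ h₄ (fun b A => ?_) fun Oc hO hR =>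
    ⟨rfl, mrk_poly _, mrk_poly _, mrk_univ e₁ t₁, mrk_univ e₂ t₂,
      rk_greedy e₁ Oc false fun l => ?_, rk_greedy e₂ Oc true fun l => ?_, hR⟩
  · by_cases h : (if b then M₂ else M₁).Indep (A : Set (Fin n)) <;> simp [indepOracle, h]
  · rw [hO]; simp [indepOracle]
  · rw [hO]; simp [indepOracle]

end Crest.Agent.R302
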