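import Crest.Agent.R302.Voc

/-!
# Row 302: differences of bases are flows within the exchange capacities

`bd φ = ∑ a b, φ a b • (ev b - ev a)` is the boundary of a flow on `V × V`.
* `gale_arcs` (Gale's theorem): induction on the set `A` of arcs.  For a new arc `(a, b)`, `a ≠ b`, with `δ'` the cut function
  of the old arcs, choose `φ a b := max 0 (max_{S ∋ b, S ∌ a} (d S - δ' S))`; it is `≤ c a b`, and `≤ δ' T - d T` for
  `T ∋ a`, `T ∌ b` because `d S + d T = d (S ∪ T) + d (S ∩ T) ≤ δ' (S ∪ T) + δ' (S ∩ T) ≤ δ' S + δ' T`.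
  (`A = ∅`: `d S ≤ 0` for all `S` and `d univ = 0` force `d = 0`.)  A loop `(a, a)` is never cut.
* `slack_le`: `σ S = ρ S - y S ≥ 0` is submodular, so `σ (A ∪ B) ≤ σ A + σ B`, `σ (A ∩ B) ≤ σ A + σ B`, and
  `S = ⋃_{b ∈ S} ⋂_{a ∉ S} T a b` (`σ ∅ = σ univ = 0`).
* `gale`: `c a b` = the minimum of `σ` over the sets containing `b`, not `a` (`0` if `a = b`).
-/

set_option autoImplicit false

namespace Crest.Agent.R302

open Finset Crest.Agent.R309

variable {V E : Type} [Fintype V] [DecidableEq V] [Fintype E] [DecidableEq E]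

/-- Boundary of a flow on `V × V`. -/
def bd (φ : V → V → ℤ) : V → ℤ := ∑ a, ∑ b, φ a b • (ev b - ev a)

theorem sm_bd (φ : V → V → ℤ) (S : Finset V) :
    sm (bd φ) S = ∑ a, ∑ b, φ a b * ((if b ∈ S then 1 else 0) - if a ∈ S then 1 else 0) := by
  unfold bd
  have h1 : ∀ (s : Finset V) (f : V → V → ℤ), sm (∑ a ∈ s, f a) S = ∑ a ∈ s, sm (f a) S :=
    fun s f => by simp only [sm, Finset.sum_apply]; exact sum_comm
  rw [h1]
  refine sum_congr rfl fun a _ => ?_
  rw [h1]
  exact sum_congr rfl fun b _ => by rw [sm_smul, sm_sub, sm_ev, sm_ev]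

theorem sm_bd_univ (φ : V → V → ℤ) : sm (bd φ) univ = 0 := by
  simp [sm_bd]

theorem bd_add (φ ψ : V → V → ℤ) : bd (φ + ψ) = bd φ + bd ψ := by
  simp [bd, add_smul, sum_add_distrib]

theorem bd_smul (c : ℤ) (φ : V → V → ℤ) : bd (c • φ) = c • bd φ := by
  simp only [bd, smul_sum, Pi.smul_apply, smul_eq_mul, mul_smul]

theorem abs_sm_bd_le {φ : V → V → ℤ} (h : ∀ a b, 0 ≤ φ a b) (S : Finset V) :
    |sm (bd φ) S| ≤ ∑ a, ∑ b, φ a b := by
  rw [sm_bd]
  refine (abs_sum_le_sum_abs _ _).trans (sum_le_sum fun a _ => ?_)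
  refine (abs_sum_le_sum_abs _ _).trans (sum_le_sum fun b _ => ?_)
  have := h a b
  split_ifs <;> simp [abs_of_nonneg this, this]

omit [Fintype E] in
theorem push_add (π : V → E) (x y : V → ℤ) (e : E) : push π (x + y) e = push π x e + push π y e := by
  simp [push, sum_add_distrib]

omit [Fintype E] in
theorem push_sub (π : V → E) (x y : V → ℤ) (e : E) : push π (x - y) e = push π x e - push π y e := by
  simp [push, sum_sub_distrib]

omit [Fintype E] in
theorem push_smul (π : V → E) (c : ℤ) (x : V → ℤ) (e : E) : push π (c • x) e = c * push π x e := by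
  simp [push, mul_sum]

omit [Fintype E] in
theorem push_ev (π : V → E) (a : V) (e : E) : push π (ev a) e = if π a = e then 1 else 0 := by
  simp [push, ev, Pi.single_apply]

omit [Fintype E] in
theorem sum_push (π : V → E) (y : V → ℤ) (W : Finset E) :
    ∑ e ∈ W, push π y e = sm y (univ.filter fun a => π a ∈ W) := by
  unfold push sm
  rw [← sum_fiberwise_of_maps_to (s := univ.filter fun a => π a ∈ W) (t := W) (g := π)
    fun a ha => (mem_filter.1 ha).2]
  refine sum_congr rfl fun e he => sum_congr ?_ fun _ _ => rfl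
  ext a
  simp only [mem_filter, mem_univ, true_and]
  exact ⟨fun h => ⟨h ▸ he, h⟩, fun h => h.2⟩

theorem gale_aux (A : Finset (V × V)) (c : V → V → ℤ) (hc : ∀ a b, 0 ≤ c a b) (d : V → ℤ)
    (hd0 : sm d univ = 0)
    (hd : ∀ S, sm d S ≤ ∑ e ∈ A, if e.1 ∉ S ∧ e.2 ∈ S then c e.1 e.2 else 0) :
    ∃ φ : V → V → ℤ, (∀ a b, 0 ≤ φ a b ∧ φ a b ≤ c a b) ∧ (∀ a b, (a, b) ∉ A → φ a b = 0) ∧
      d = bd φ := by
  induction A using Finset.induction_on generalizing d with
  | empty =>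
    refine ⟨0, fun a b => ⟨le_rfl, hc a b⟩, fun _ _ _ => rfl, ?_⟩
    funext v
    have h1 := hd {v}
    have h2 := hd {v}ᶜ
    have h3 := sum_add_sum_compl {v} d
    simp only [sm, sum_empty, sum_singleton] at *
    simp only [bd, Pi.zero_apply, zero_smul, sum_const_zero]
    linarith
  | insert e A he ih =>
    obtain ⟨a, b⟩ := e
    set δ : Finset V → ℤ := fun S => ∑ e ∈ A, if e.1 ∉ S ∧ e.2 ∈ S then c e.1 e.2 else 0 with hδ
    have hd' : ∀ S, sm d S ≤ (if a ∉ S ∧ b ∈ S then c a b else 0) + δ S := fun S => by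
      have := hd S
      rwa [sum_insert he] at this
    have hs : ∀ S T, δ (S ∪ T) + δ (S ∩ T) ≤ δ S + δ T := fun S T => by
      simp only [hδ, ← sum_add_distrib]
      refine sum_le_sum fun e _ => ?_
      have := hc e.1 e.2
      by_cases k1 : e.1 ∈ S <;> by_cases k2 : e.1 ∈ T <;> by_cases k3 : e.2 ∈ S <;>
        by_cases k4 : e.2 ∈ T <;> simp [k1, k2, k3, k4, this]
    obtain ⟨f, f0, f1, f2, f3⟩ : ∃ f : ℤ, 0 ≤ f ∧ f ≤ c a b ∧
        (∀ S, a ∉ S → b ∈ S → sm d S - δ S ≤ f) ∧ ∀ T, a ∈ T → b ∉ T → f ≤ δ T - sm d T := by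
      by_cases hab : a = b
      · exact ⟨0, le_rfl, hc a b, fun S k1 k2 => absurd (hab ▸ k2) k1,
          fun S k1 k2 => absurd (hab ▸ k1) k2⟩
      obtain ⟨S₀, h1, h2⟩ := exists_max_image (univ.filter fun S : Finset V => a ∉ S ∧ b ∈ S)
        (fun S => sm d S - δ S) ⟨{b}, by simp [hab]⟩
      obtain ⟨k1, k2⟩ := (mem_filter.1 h1).2
      refine ⟨max 0 (sm d S₀ - δ S₀), le_max_left _ _, max_le (hc a b) ?_, fun S j1 j2 =>
        (h2 S (mem_filter.2 ⟨mem_univ _, j1, j2⟩)).trans (le_max_right _ _), fun T j1 j2 =>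
        max_le ?_ ?_⟩
      · have := hd' S₀
        rw [if_pos ⟨k1, k2⟩] at this
        linarith
      · have := hd' T
        rw [if_neg fun h => h.1 j1] at this
        linarith
      · have u1 := hd' (S₀ ∪ T)
        have u2 := hd' (S₀ ∩ T)
        rw [if_neg fun h => h.1 (mem_union_right _ j1)] at u1
        rw [if_neg fun h => j2 (mem_inter.1 h.2).2] at u2
        linarith [hs S₀ T, sm_union_inter d S₀ T]
    obtain ⟨φ, p1, p2, p3⟩ := ih (d - f • (ev b - ev a))
      (by rw [sm_sub, sm_smul, sm_sub, sm_ev, sm_ev, hd0]; simp) fun S => by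
        rw [sm_sub, sm_smul, sm_sub, sm_ev, sm_ev]
        have := hd' S
        show _ ≤ δ S
        by_cases k1 : a ∈ S <;> by_cases k2 : b ∈ S <;> simp only [k1, k2, if_true, if_false,
          not_true, not_false_iff, and_self, and_true, and_false, false_and] at this ⊢
        · linarith
        · linarith [f3 S k1 k2]
        · linarith [f2 S k1 k2]
        · linarith
    have hb : bd (fun a' b' => if a' = a ∧ b' = b then f else 0) = f • (ev b - ev a) := by
      simp [bd, ite_and, ite_smul]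
    refine ⟨φ + fun a' b' => if a' = a ∧ b' = b then f else 0, fun a' b' => ?_, fun a' b' h => ?_,
      ?_⟩
    · simp only [Pi.add_apply]
      split_ifs with k
      · obtain ⟨rfl, rfl⟩ := k
        rw [p2 _ _ he]; constructor <;> linarith
      · simpa using p1 a' b'
    · simp only [mem_insert, Prod.mk.injEq, not_or] at h
      simp [p2 _ _ h.2, h.1]
    · rw [bd_add, ← p3, hb]; abel

theorem gale_arcs (A : Finset (V × V)) (c : V → V → ℤ) (hc : ∀ a b, 0 ≤ c a b) (d : V → ℤ)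
    (hd0 : sm d univ = 0)
    (hd : ∀ S, sm d S ≤ ∑ e ∈ A, if e.1 ∉ S ∧ e.2 ∈ S then c e.1 e.2 else 0) :
    ∃ φ : V → V → ℤ, (∀ a b, 0 ≤ φ a b ∧ φ a b ≤ c a b) ∧ d = bd φ := by
  obtain ⟨φ, h1, -, h2⟩ := gale_aux A c hc d hd0 hd
  exact ⟨φ, h1, h2⟩

theorem slack_le {ρ : Finset V → ℤ} (h : Nrm ρ) {y : V → ℤ} (hy : InB ρ y) (T : V → V → Finset V)
    (hT : ∀ a b, a ≠ b → a ∉ T a b ∧ b ∈ T a b) (S : Finset V) :
    ρ S - sm y S ≤ ∑ a, ∑ b, if a ∉ S ∧ b ∈ S then ρ (T a b) - sm y (T a b) else 0 := by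
  set σ : Finset V → ℤ := fun S => ρ S - sm y S with hσ
  have h0 : ∀ S, 0 ≤ σ S := fun S => sub_nonneg.2 (hy.1 S)
  have hs : ∀ A B, σ (A ∪ B) + σ (A ∩ B) ≤ σ A + σ B := fun A B => by
    have := h.sub A B
    have := sm_union_inter y A B
    simp only [hσ]; linarith
  have hU : ∀ (s : Finset V) (f : V → Finset V), σ (s.biUnion f) ≤ ∑ b ∈ s, σ (f b) := by
    intro s f
    induction s using Finset.induction_on with
    | empty => simp [hσ, h.empty, sm]
    | insert b s hb ih =>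
      rw [biUnion_insert, sum_insert hb]
      linarith [hs (f b) (s.biUnion f), h0 (f b ∩ s.biUnion f)]
  have hI : ∀ (s : Finset V) (f : V → Finset V), σ (s.inf f) ≤ ∑ b ∈ s, σ (f b) := by
    intro s f
    induction s using Finset.induction_on with
    | empty => simp [hσ, h.univ, hy.2]
    | insert b s hb ih =>
      rw [inf_insert, sum_insert hb, inf_eq_inter]
      linarith [hs (f b) (s.inf f), h0 (f b ∪ s.inf f)]
  have e : S = S.biUnion fun b => Sᶜ.inf fun a => T a b := by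
    ext v
    simp only [mem_biUnion, mem_inf, mem_compl]
    refine ⟨fun hv => ⟨v, hv, fun a ha => (hT a v fun e => ha (e ▸ hv)).2⟩, fun ⟨b, hb, hv⟩ => ?_⟩
    by_contra hn
    exact (hT v b fun e => hn (e ▸ hb)).1 (hv v hn)
  calc σ S = σ (S.biUnion fun b => Sᶜ.inf fun a => T a b) := congrArg σ e
    _ ≤ ∑ b ∈ S, ∑ a ∈ Sᶜ, σ (T a b) := (hU _ _).trans (sum_le_sum fun b _ => hI _ _)
    _ = ∑ b, ∑ a, if a ∉ S ∧ b ∈ S then σ (T a b) else 0 := by
        rw [← sum_subset (subset_univ S) fun b _ hb => by simp [hb]]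
        refine sum_congr rfl fun b hb => ?_
        rw [← sum_filter]
        exact sum_congr (by ext a; simp [hb]) fun _ _ => rfl
    _ = _ := sum_comm

theorem gale {ρ : Finset V → ℤ} (h : Nrm ρ) {x y : V → ℤ} (hx : InB ρ x) (hy : InB ρ y) :
    ∃ φ : V → V → ℤ, (∀ a b, 0 ≤ φ a b ∧ Cap ρ y a b (φ a b)) ∧
      x - y = ∑ a, ∑ b, φ a b • (ev b - ev a) := by
  have hT : ∀ a b : V, ∃ T : Finset V, a ≠ b → (a ∉ T ∧ b ∈ T) ∧
      ∀ S, a ∉ S → b ∈ S → ρ T - sm y T ≤ ρ S - sm y S := fun a b => by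
    by_cases hab : a = b
    · exact ⟨∅, fun h => absurd hab h⟩
    · obtain ⟨T, h1, h2⟩ := exists_min_image (univ.filter fun S : Finset V => a ∉ S ∧ b ∈ S)
        (fun S => ρ S - sm y S) ⟨{b}, by simp [hab]⟩
      exact ⟨T, fun _ => ⟨(mem_filter.1 h1).2,
        fun S k1 k2 => h2 S (mem_filter.2 ⟨mem_univ _, k1, k2⟩)⟩⟩
  choose T hT using hT
  obtain ⟨φ, h1, h2⟩ := gale_arcs univ (fun a b => ρ (T a b) - sm y (T a b))
    (fun a b => sub_nonneg.2 (hy.1 _)) (x - y) (by rw [sm_sub, hx.2, hy.2, sub_self]) fun S => by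
      rw [Fintype.sum_prod_type, sm_sub]
      linarith [slack_le h hy T (fun a b hab => (hT a b hab).1) S, hx.1 S]
  exact ⟨φ, fun a b => ⟨(h1 a b).1, fun S k1 k2 =>
    (h1 a b).2.trans ((hT a b fun e => k1 (e ▸ k2)).2 S k1 k2)⟩, h2⟩

/-- The flow on an arc entering a set `W` that no arc with flow `≥ g` leaves is small. -/
theorem flow_le_of_closed (π : V → E) {φ : V → V → ℤ} (h : ∀ a b, 0 ≤ φ a b) {g : ℤ} (hg : 0 ≤ g)
    (W : Finset E) (hW : ∀ a b, π a ∈ W → π b ∉ W → φ a b ≤ g) {a b : V} (ha : π a ∉ W)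
    (hb : π b ∈ W) :
    φ a b ≤ Fintype.card V ^ 2 * g + ∑ e, |push π (bd φ) e| := by
  have h1 : ∑ e ∈ W, push π (bd φ) e ≤ ∑ e, |push π (bd φ) e| :=
    (sum_le_sum fun e _ => le_abs_self _).trans
      (sum_le_sum_of_subset_of_nonneg (subset_univ _) fun _ _ _ => abs_nonneg _)
  rw [sum_push, sm_bd] at h1
  simp only [mem_filter, mem_univ, true_and] at h1
  have h2 : ∑ a', ∑ b', ((if a' = a ∧ b' = b then φ a b else 0) - g) ≤
      ∑ a', ∑ b', φ a' b' * ((if π b' ∈ W then 1 else 0) - if π a' ∈ W then 1 else 0) := by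
    refine sum_le_sum fun a' _ => sum_le_sum fun b' _ => ?_
    have := h a' b'
    by_cases e : a' = a ∧ b' = b
    · obtain ⟨rfl, rfl⟩ := e
      simp [ha, hb, hg]
    · rw [if_neg e]
      by_cases k1 : π a' ∈ W <;> by_cases k2 : π b' ∈ W <;> simp [k1, k2, hg]
      · exact hW a' b' k1 k2
      · linarith
  have h3 : ∑ a', ∑ b', ((if a' = a ∧ b' = b then φ a b else 0) - g) =
      φ a b - Fintype.card V ^ 2 * g := by
    simp [sum_sub_distrib, ite_and, sq, mul_assoc]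
  linarith

end Crest.Agent.R302
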