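import Crest.Agent.R302.Par

/-!
# Row 302: the auxiliary network, combinatorial part

Every `t < Mt` is a cell (`t < n`) or `t = n + (k N + a)` with `k ≤ L`, `a < N`; every vertex is `k N + a` or the hub `nv`.
It is convenient to prove first a formula for `del Y` at each vertex (`del_node`): at `(k, r)` it is
`ext Y (n + (k N + r))` minus (`k < L`) the sum of `ext Y (n + ((k+1) N + a))` over `cls k a = r`, plus (`k = L`) `del u v (pr Y) r`.
`del_liftY` then follows from `Lv.OK.cls_cls`, `Lv.OK.top`; `eq_liftY` by downward induction on `k`.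
The cells keep inside their boxes because `rad ≤ sc / z^11 = hb`.  All edges `n + (k N + a)` with `k ≥ 1` are thick, those with
`k = 0` are thin; `root (L, a) = root (k, cls k a)` by downward induction with `Krus.root_eq`.
-/

set_option autoImplicit false

namespace Crest.Agent.R302.Pre

open Finset Crest.Agent.R309 Crest.Agent.Lib.PolyTime

variable {p : Pre} {ρ : Finset p.V → ℤ}

theorem gA_div {N k a : ℕ} (ha : a < N) : (k * N + a) / N = k := by
  rw [add_comm, Nat.add_mul_div_right _ _ (by omega), Nat.div_eq_of_lt ha, zero_add]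

theorem gA_mod {N k a : ℕ} (ha : a < N) : (k * N + a) % N = a := by
  rw [add_comm, Nat.add_mul_mod_self_right, Nat.mod_eq_of_lt ha]

theorem gA_inj {N k j a b : ℕ} (ha : a < N) (hb : b < N) :
    k * N + a = j * N + b ↔ k = j ∧ a = b := by
  refine ⟨fun h => ⟨?_, ?_⟩, fun h => by rw [h.1, h.2]⟩
  · rw [← gA_div (k := k) ha, h, gA_div hb]
  · rw [← gA_mod (k := k) ha, h, gA_mod hb]

theorem gA_lt (p : Pre) {k a : ℕ} (hk : k ≤ p.L) (ha : a < p.N) : k * p.N + a < p.nv := by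
  have := Nat.mul_le_mul_right p.N hk
  unfold nv; rw [add_mul, one_mul]; omega

theorem gA_Mt (p : Pre) : p.Mt = p.n + p.nv := rfl

theorem gA_node (p : Pre) {i : ℕ} (hi : i < p.nv) :
    ∃ k ≤ p.L, ∃ r : p.V, i = k * p.N + r := by
  have hN : 0 < p.N := by
    rcases Nat.eq_zero_or_pos p.N with h | h
    · simp [nv, h] at hi
    · exact h
  refine ⟨i / p.N, Nat.le_of_lt_succ ((Nat.div_lt_iff_lt_mul hN).2 hi), ⟨i % p.N, Nat.mod_lt _ hN⟩, ?_⟩
  exact (Nat.div_add_mod' i p.N).symm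

theorem gA_cases (p : Pre) {t : ℕ} (ht : t < p.Mt) :
    t < p.n ∨ ∃ k ≤ p.L, ∃ r : p.V, t = p.n + (k * p.N + r) := by
  by_cases h : t < p.n
  · exact Or.inl h
  · obtain ⟨k, hk, r, e⟩ := gA_node p (i := t - p.n) (by rw [gA_Mt] at ht; omega)
    exact Or.inr ⟨k, hk, r, by omega⟩

theorem gA_uG_cell (p : Pre) {t : ℕ} (ht : t < p.n) : p.uG t = p.L * p.N + (p.n + t) := if_pos ht

theorem gA_vG_cell (p : Pre) {t : ℕ} (ht : t < p.n) : p.vG t = p.L * p.N + t := if_pos ht

theorem gA_uG (p : Pre) (i : ℕ) : p.uG (p.n + i) = i := by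
  simp [uG]

theorem gA_vG_zero (p : Pre) {a : ℕ} (ha : a < p.N) : p.vG (p.n + (0 * p.N + a)) = p.nv := by
  simp [vG, ha]

theorem gA_vG_succ (p : Pre) {k a : ℕ} (ha : a < p.N) :
    p.vG (p.n + ((k + 1) * p.N + a)) = k * p.N + clsN p.cls k a := by
  have h1 : ¬ (k + 1) * p.N + a < p.N := by rw [add_mul, one_mul]; omega
  simp only [vG, Nat.add_sub_cancel_left, if_neg h1, gA_div ha, gA_mod ha, Nat.add_sub_cancel]
  exact if_neg (by omega)

theorem gA_uN (p : Pre) (s : ℕ) {t : ℕ} (ht : t < p.Mt) : (p.gam s).uN t = p.uG t :=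
  getD_tab _ _ ht

theorem gA_vN (p : Pre) (s : ℕ) {t : ℕ} (ht : t < p.Mt) : (p.gam s).vN t = p.vG t :=
  getD_tab _ _ ht

theorem gA_tab_zero (m i : ℕ) : (tab m fun _ => (0 : ℤ)).getD i 0 = 0 := by
  by_cases h : i < m
  · exact getD_tab _ _ h
  · exact List.getD_eq_default _ _ (by simpa using h)

theorem gA_uG_le (p : Pre) {t : ℕ} (ht : t < p.Mt) : p.uG t < p.nv := by
  rcases gA_cases p ht with h | ⟨k, hk, r, rfl⟩
  · rw [gA_uG_cell p h]; exact gA_lt p le_rfl (by unfold N; omega)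
  · rw [gA_uG]; exact gA_lt p hk r.2

theorem OK.gA_vG_le (h : p.OK ρ) {t : ℕ} (ht : t < p.Mt) : p.vG t ≤ p.nv := by
  rcases gA_cases p ht with h' | ⟨k, hk, r, rfl⟩
  · rw [gA_vG_cell p h']; exact (gA_lt p le_rfl (by unfold N; omega)).le
  · rcases k with _ | k
    · rw [gA_vG_zero p r.2]
    · rw [gA_vG_succ p r.2]
      exact (gA_lt p (by omega) (h.cls_lt k (by omega) r r.2)).le

theorem gA_sum {A : Type} [AddCommMonoid A] (p : Pre) (s : ℕ) (φ : ℕ → A) :
    ∑ t : Fin (p.gam s).M, φ t =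
      ∑ e : Fin p.n, φ e + ∑ k ∈ range (p.L + 1), ∑ r : p.V, φ (p.n + (k * p.N + r)) := by
  have h : ∀ m, ∑ i ∈ range (m * p.N), φ (p.n + i) =
      ∑ k ∈ range m, ∑ r : p.V, φ (p.n + (k * p.N + r)) := by
    intro m
    induction m with
    | zero => simp
    | succ m ih =>
      rw [add_mul, one_mul, sum_range_add, ih, sum_range_succ]
      congr 1
      exact (Fin.sum_univ_eq_sum_range (fun r => φ (p.n + (m * p.N + r))) (p.n + p.n)).symm
  rw [Fin.sum_univ_eq_sum_range φ, gam_M, Mt, sum_range_add, h, Fin.sum_univ_eq_sum_range φ]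

theorem gA_ext_coe {m : ℕ} (Y : Fin m → ℤ) (t : Fin m) : ext Y t = Y t := dif_pos t.2

theorem gA_ext_lt {m : ℕ} (Y : Fin m → ℤ) {t : ℕ} (ht : t < m) : ext Y t = Y ⟨t, ht⟩ := dif_pos ht

theorem gA_vtx (p : Pre) (s : ℕ) {k a : ℕ} (hk : k ≤ p.L) (ha : a < p.N) :
    (((p.gam s).vtx (k * p.N + a) : (p.gam s).V) : ℕ) = k * p.N + a :=
  Inst.vtx_val (gA_lt p hk ha).le

theorem gA_tok (p : Pre) (s : ℕ) (a : p.V) : (p.tok s a : ℕ) = p.L * p.N + a :=
  gA_vtx p s le_rfl a.2

theorem gA_ev_tok (p : Pre) (s : ℕ) {k : ℕ} (hk : k ≤ p.L) (a r : p.V) :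
    ev (p.tok s a) ((p.gam s).vtx (k * p.N + r)) = if k < p.L then 0 else ev a r := by
  have h1 : (p.gam s).vtx (k * p.N + r) = p.tok s a ↔ k = p.L ∧ r = a := by
    rw [Fin.ext_iff, gA_tok, gA_vtx p s hk r.2, gA_inj (N := p.N) r.2 a.2, Fin.ext_iff]
  simp only [ev, Pi.single_apply, h1]
  by_cases h : k < p.L
  · rw [if_pos h, if_neg (by omega)]
  · have : k = p.L := by omega
    simp [this]

theorem gA_funext (p : Pre) (s : ℕ) {f g : (p.gam s).V → ℤ}
    (h : ∀ k ≤ p.L, ∀ r : p.V, f ((p.gam s).vtx (k * p.N + r)) = g ((p.gam s).vtx (k * p.N + r)))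
    (hs : sm f univ = sm g univ) : f = g := by
  have h1 : ∀ i : Fin (p.gam s).nv, f i.castSucc = g i.castSucc := by
    intro i
    obtain ⟨k, hk, r, e⟩ := gA_node p (i := i) i.2
    have : i.castSucc = (p.gam s).vtx (k * p.N + r) := by
      rw [Fin.ext_iff, gA_vtx p s hk r.2]; exact e
    rw [this, h k hk r]
  funext x
  refine Fin.lastCases ?_ h1 x
  simp only [sm, Fin.sum_univ_castSucc, h1] at hs
  exact add_left_cancel hs

theorem OK.gA_cs_succ (h : p.OK ρ) {k : ℕ} (hk : k < p.L) (y : p.V → ℤ) (r : p.V) :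
    ∑ a : p.V with p.lv.cls k a = r, p.lv.cs (k + 1) y a = p.lv.cs k y r := by
  unfold Lv.cs
  rw [Finset.sum_comm' (t' := univ.filter fun b => p.lv.cls k b = r)
    (s' := fun b => {p.lv.cls (k + 1) b})]
  · simp
  · intro a b
    have := h.cen.ok.cls_cls (Nat.le_succ k) (show k + 1 ≤ p.lv.L from hk) b
    simp only [mem_filter, mem_univ, true_and, mem_singleton]
    constructor
    · rintro ⟨h1, rfl⟩; exact ⟨rfl, this.symm.trans h1⟩
    · rintro ⟨rfl, h1⟩; exact ⟨this.trans h1, rfl⟩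

theorem OK.gA_cs_top (h : p.OK ρ) (y : p.V → ℤ) (r : p.V) : p.lv.cs p.L y r = y r := by
  have : ∀ a, p.lv.cls p.L a = a := h.cen.ok.top
  simp [Lv.cs, this, filter_eq']

theorem OK.gam_wf (h : p.OK ρ) (s : ℕ) : (p.gam s).WF (p.z ^ 4) := by
  have h1 := h.Mt_le
  have h2 := h.z_ge
  have h3 : 2 * p.z ≤ p.z ^ 4 :=
    calc 2 * p.z ≤ p.z * p.z := Nat.mul_le_mul_right _ (by omega)
      _ = p.z ^ 2 := by ring
      _ ≤ _ := Nat.pow_le_pow_right (by omega) (by norm_num)
  refine ⟨?_, ?_, ?_, ?_, ?_, ?_, ?_, ?_, ?_, ?_, ?_⟩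
  · have := gA_Mt p
    rw [gam_M, gam_nv]; omega
  · rw [gam_M]; exact length_tab _ _
  · rw [gam_M]; exact length_tab _ _
  · rw [gam_M]; exact length_tab _ _
  · exact length_tab _ _
  · intro e he
    rw [gam_M] at he
    rw [gA_uN p s he]; exact (gA_uG_le p he).le
  · intro e he
    rw [gam_M] at he
    rw [gA_vN p s he]; exact h.gA_vG_le he
  · intro e he
    rw [gam_M] at he
    rw [gA_uN p s he, gA_vN p s he]
    rcases gA_cases p he with h' | ⟨k, hk, r, rfl⟩
    · rw [gA_uG_cell p h', gA_vG_cell p h']; omega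
    · rw [gA_uG]
      rcases k with _ | k
      · rw [gA_vG_zero p r.2]; exact (gA_lt p hk r.2).ne
      · rw [gA_vG_succ p r.2, Ne, gA_inj (N := p.N) r.2 (h.cls_lt k (by omega) r r.2)]
        omega
  · intro e
    have : (p.gam s).loN e = 0 := gA_tab_zero _ _
    rw [this]; simp
  · intro e
    by_cases he : e < p.Mt
    · have : (p.gam s).hiN e = p.sc s e := getD_tab _ _ he
      rw [this, abs_of_pos (h.sc_pos s e)]
      exact (h.sc_le s he).trans (pow_le_pow_right₀ (by norm_num)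
        (Nat.pow_le_pow_right (by omega) (by norm_num)))
    · have : (p.gam s).hiN e = 0 := List.getD_eq_default _ _ (by
        show (tab p.Mt (p.sc s)).length ≤ e
        simpa using he)
      rw [this]; simp
  · intro e
    have : (p.gam s).tN e = 0 := gA_tab_zero _ _
    rw [this]; simp

theorem OK.krus (h : p.OK ρ) (s : ℕ) :
    Krus (p.gam s) p.thr (p.kr s).1 (p.kr s).2.1 (p.kr s).2.2 :=
  exists_krus.choose_spec.2 _ _ _ (h.gam_wf s)

theorem gam_range (p : Pre) (s : ℕ) (t : Fin (p.gam s).M) :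
    (p.gam s).hi t - (p.gam s).lo t = p.sc s t := by
  have h1 : (p.gam s).lo t = 0 := gA_tab_zero _ _
  have h2 : (p.gam s).hi t = p.sc s t := getD_tab _ _ (gam_M p s ▸ t.2)
  rw [h1, h2, sub_zero]

theorem OK.thick_cls (h : p.OK ρ) (s : ℕ) {k a : ℕ} (ha : a < p.N) :
    p.thick s (p.n + (k * p.N + a)) = true ↔ 1 ≤ k := by
  have h1 : p.sc s (p.n + (k * p.N + a)) = p.zZ ^ (105 + 5 * k) := by
    simp only [sc, Nat.add_sub_cancel_left, gA_div ha, Wd]
    rw [if_neg (by omega), ← pow_add]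
    congr 1; omega
  have h2 := h.zZ_ge
  rw [thick, decide_eq_true_iff, h1, thr, Int.add_one_le_iff, pow_lt_pow_iff_right₀ (by omega)]
  omega

theorem sc_cls (p : Pre) (s : ℕ) {k a : ℕ} (ha : a < p.N) :
    p.sc s (p.n + (k * p.N + a)) = p.zZ ^ 18 * p.Wd k := by
  simp only [sc, Nat.add_sub_cancel_left, gA_div ha]
  exact if_neg (by omega)

theorem OK.del_node (h : p.OK ρ) (s : ℕ) (Y : Fin (p.gam s).M → ℤ) {k : ℕ} (hk : k ≤ p.L)
    (r : p.V) :
    del (p.gam s).u (p.gam s).v Y ((p.gam s).vtx (k * p.N + r)) =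
      ext Y (p.n + (k * p.N + r)) +
        if k < p.L then -∑ a : p.V with p.lv.cls k a = r, ext Y (p.n + ((k + 1) * p.N + a))
        else del p.u p.v (p.pr s Y) r := by
  have hW := h.gam_wf s
  have h1 : del (p.gam s).u (p.gam s).v Y ((p.gam s).vtx (k * p.N + r)) =
      ∑ t : Fin (p.gam s).M, (fun i : ℕ => ext Y i * ((if p.uG i = k * p.N + r then 1 else 0) -
        if p.vG i = k * p.N + r then 1 else 0)) t := by
    unfold del
    rw [Finset.sum_apply]
    refine sum_congr rfl fun t _ => ?_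
    have ht : (t : ℕ) < p.Mt := gam_M p s ▸ t.2
    have e1 : (p.gam s).vtx (k * p.N + r) = (p.gam s).u t ↔ p.uG t = k * p.N + r := by
      rw [Fin.ext_iff, gA_vtx p s hk r.2, Inst.u, Inst.vtx_val (hW.uN_le t t.2), gA_uN p s ht]
      exact eq_comm
    have e2 : (p.gam s).vtx (k * p.N + r) = (p.gam s).v t ↔ p.vG t = k * p.N + r := by
      rw [Fin.ext_iff, gA_vtx p s hk r.2, Inst.v, Inst.vtx_val (hW.vN_le t t.2), gA_vN p s ht]
      exact eq_comm
    simp only [ev, Pi.smul_apply, Pi.sub_apply, Pi.single_apply, smul_eq_mul, e1, e2, gA_ext_coe]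
  rw [h1.trans (gA_sum p s fun i : ℕ => ext Y i * ((if p.uG i = k * p.N + r then 1 else 0) -
    if p.vG i = k * p.N + r then 1 else 0))]
  have h2 : ∑ e : Fin p.n, ext Y e * ((if p.uG e = k * p.N + r then 1 else 0) -
      if p.vG e = k * p.N + r then 1 else 0) =
      if k < p.L then 0 else del p.u p.v (p.pr s Y) r := by
    have e1 : ∀ e : Fin p.n, p.uG e = k * p.N + r ↔ p.L = k ∧ r = p.u e := fun e => by
      rw [gA_uG_cell p e.2, gA_inj (N := p.N) (by have := e.2; unfold N; omega) r.2, Fin.ext_iff, eq_comm (a := (r : ℕ))]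
      rfl
    have e2 : ∀ e : Fin p.n, p.vG e = k * p.N + r ↔ p.L = k ∧ r = p.v e := fun e => by
      rw [gA_vG_cell p e.2, gA_inj (N := p.N) (by have := e.2; unfold N; omega) r.2, Fin.ext_iff, eq_comm (a := (r : ℕ))]
      rfl
    simp only [e1, e2]
    by_cases hkL : k < p.L
    · simp [hkL, hkL.ne']
    · have : p.L = k := by omega
      rw [if_neg hkL, del, Finset.sum_apply]
      simp only [this, true_and, ev, Pi.smul_apply, Pi.sub_apply, Pi.single_apply, smul_eq_mul, pr]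
  have h3 : ∑ j ∈ range (p.L + 1), ∑ a : p.V, ext Y (p.n + (j * p.N + a)) *
      (if p.uG (p.n + (j * p.N + a)) = k * p.N + r then 1 else 0) = ext Y (p.n + (k * p.N + r)) := by
    rw [sum_eq_single_of_mem k (mem_range.2 (by omega)), sum_eq_single r]
    · simp [gA_uG]
    · intro a _ ha
      rw [gA_uG, if_neg, mul_zero]
      rw [gA_inj (N := p.N) a.2 r.2]
      exact fun e => ha (Fin.ext e.2)
    · simp
    · intro j _ hj
      refine sum_eq_zero fun a _ => ?_
      rw [gA_uG, if_neg, mul_zero]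
      rw [gA_inj (N := p.N) a.2 r.2]
      exact fun e => hj e.1
  have h4 : ∑ j ∈ range (p.L + 1), ∑ a : p.V, ext Y (p.n + (j * p.N + a)) *
      (if p.vG (p.n + (j * p.N + a)) = k * p.N + r then 1 else 0) =
      if k < p.L then ∑ a : p.V with p.lv.cls k a = r, ext Y (p.n + ((k + 1) * p.N + a)) else 0 := by
    have e0 : ∑ a : p.V, ext Y (p.n + (0 * p.N + a)) *
        (if p.vG (p.n + (0 * p.N + a)) = k * p.N + r then 1 else 0) = 0 :=
      sum_eq_zero fun a _ => by rw [gA_vG_zero p a.2, if_neg (gA_lt p hk r.2).ne', mul_zero]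
    have e1 : ∀ j < p.L, ∀ a : p.V, p.vG (p.n + ((j + 1) * p.N + a)) = k * p.N + r ↔
        j = k ∧ p.lv.cls j a = r := fun j hj a => by
      rw [gA_vG_succ p a.2, gA_inj (N := p.N) (h.cls_lt j hj.le a a.2) r.2, Fin.ext_iff, h.lv_val hj.le]
    rw [sum_range_succ', e0, add_zero]
    by_cases hkL : k < p.L
    · rw [if_pos hkL, sum_eq_single_of_mem k (mem_range.2 hkL), sum_filter]
      · refine sum_congr rfl fun a _ => ?_
        simp only [e1 k hkL a, true_and, mul_ite, mul_one, mul_zero]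
      · intro j hj hjk
        refine sum_eq_zero fun a _ => ?_
        rw [if_neg, mul_zero]
        rw [e1 j (mem_range.1 hj)]
        exact fun e => hjk e.1
    · rw [if_neg hkL]
      refine sum_eq_zero fun j hj => sum_eq_zero fun a _ => ?_
      have := mem_range.1 hj
      rw [if_neg, mul_zero]
      rw [e1 j this]
      omega
  rw [h2]
  simp only [mul_sub, sum_sub_distrib]
  rw [h3, h4]
  split_ifs <;> ring

theorem OK.ext_liftY (h : p.OK ρ) (s : ℕ) (X : Fin p.n → ℤ) (y : p.V → ℤ) {k : ℕ} (hk : k ≤ p.L)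
    (r : p.V) : ext (p.liftY s X y) (p.n + (k * p.N + r)) = p.lv.cs k y r := by
  have h1 : p.n + (k * p.N + r) < (p.gam s).M := by
    rw [gam_M, gA_Mt]; exact Nat.add_lt_add_left (gA_lt p hk r.2) _
  rw [gA_ext_lt _ h1, liftY, dif_neg (by simp)]
  simp only [Nat.add_sub_cancel_left, gA_div (show (r : ℕ) < p.N from r.2),
    gA_mod (show (r : ℕ) < p.N from r.2), Lv.cs, Fin.ext_iff]

theorem pr_liftY (p : Pre) (s : ℕ) (X : Fin p.n → ℤ) (y : p.V → ℤ) :
    p.pr s (p.liftY s X y) = X := by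
  funext e
  have h1 : (e : ℕ) < (p.gam s).M := by
    have := e.2
    rw [gam_M, gA_Mt]; omega
  rw [pr, gA_ext_lt _ h1, liftY, dif_pos e.2]

theorem OK.yT_liftY (h : p.OK ρ) (s : ℕ) (X : Fin p.n → ℤ) (y : p.V → ℤ) :
    p.yT s (p.liftY s X y) = y := by
  funext a
  rw [yT, h.ext_liftY s X y le_rfl, h.gA_cs_top]

/-- Sums over the edges of the auxiliary network. -/
theorem sum_edges (p : Pre) (s : ℕ) (φ : ℕ → ℝ) :
    ∑ t : Fin (p.gam s).M, φ t =
      ∑ e : Fin p.n, φ e + ∑ k ∈ range (p.L + 1), ∑ r : p.V, φ (p.n + (k * p.N + r)) := by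
  exact gA_sum p s φ

theorem OK.gA_del_liftY (h : p.OK ρ) (s : ℕ) (X : Fin p.n → ℤ) (y : p.V → ℤ) {k : ℕ}
    (hk : k ≤ p.L) (r : p.V) :
    del (p.gam s).u (p.gam s).v (p.liftY s X y) ((p.gam s).vtx (k * p.N + r)) =
      if k < p.L then 0 else y r + del p.u p.v X r := by
  rw [h.del_node s _ hk, h.ext_liftY s X y hk, pr_liftY]
  by_cases hkL : k < p.L
  · rw [if_pos hkL, if_pos hkL, sum_congr rfl fun a _ => h.ext_liftY s X y (k := k + 1) hkL a,
      h.gA_cs_succ hkL, add_neg_cancel]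
  · have : k = p.L := by omega
    rw [if_neg hkL, if_neg hkL, this, h.gA_cs_top]

theorem OK.del_lift (h : p.OK ρ) (s : ℕ) (w : p.V) (x : (Fin p.n → ℤ) × p.V) :
    del (p.gam s).u (p.gam s).v (p.lift s w x) = ev (p.tok s x.2) - ev (p.tok s w) := by
  refine gA_funext p s (fun k hk r => ?_) (by rw [sm_del, sm_sub, sm_ev, sm_ev]; simp)
  rw [Pi.sub_apply, gA_ev_tok p s hk, gA_ev_tok p s hk, lift, h.gA_del_liftY s _ _ hk]
  split_ifs
  · simp
  · simp only [Pi.sub_apply, Pi.add_apply, Pi.neg_apply]; ring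

theorem OK.del_ct (h : p.OK ρ) (s : ℕ) : del (p.gam s).u (p.gam s).v (p.ct s) = 0 := by
  refine gA_funext p s (fun k hk r => ?_) (by rw [sm_del]; simp [sm])
  rw [ct, h.gA_del_liftY s _ _ hk]
  simp

theorem OK.gA_rad_le (h : p.OK ρ) (s t : ℕ) : p.rad s t ≤ p.sc s t / p.zZ ^ 11 := by
  have hz := h.zZ_ge
  have hs := h.sc_pos s t
  have h0 : 0 < p.zZ := by omega
  unfold rad
  split_ifs with h1 h2
  · exact le_rfl
  · have h3 : p.st s t = p.sc s t / p.zZ ^ 98 := if_pos (by simp [free, h1, h2])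
    have h4 : 0 ≤ p.sc s t / p.zZ ^ 98 := Int.ediv_nonneg hs.le (by positivity)
    have h5 : 2 ≤ p.zZ ^ 2 := by nlinarith
    rw [h3]
    refine Int.le_ediv_of_mul_le (by positivity) ?_
    calc 2 * p.zZ ^ 85 * (p.sc s t / p.zZ ^ 98) * p.zZ ^ 11
        ≤ p.zZ ^ 2 * p.zZ ^ 85 * (p.sc s t / p.zZ ^ 98) * p.zZ ^ 11 := by gcongr
      _ = p.sc s t / p.zZ ^ 98 * p.zZ ^ 98 := by ring
      _ ≤ _ := Int.ediv_mul_le _ (by positivity)
  · have h4 : 0 ≤ p.sc s t / p.zZ ^ 13 := Int.ediv_nonneg hs.le (by positivity)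
    refine Int.le_ediv_of_mul_le (by positivity) ?_
    calc p.sc s t / p.zZ ^ 13 * p.zZ ^ 11 ≤ p.sc s t / p.zZ ^ 13 * p.zZ ^ 13 :=
          mul_le_mul_of_nonneg_left (pow_le_pow_right₀ (by omega) (by norm_num)) h4
      _ ≤ _ := Int.ediv_mul_le _ (by positivity)

theorem OK.gA_eq_liftY (h : p.OK ρ) (s : ℕ) (Y : Fin (p.gam s).M → ℤ) (y : p.V → ℤ)
    (hY : ∀ k ≤ p.L, ∀ r : p.V, del (p.gam s).u (p.gam s).v Y ((p.gam s).vtx (k * p.N + r)) =
      if k < p.L then 0 else y r + del p.u p.v (p.pr s Y) r) :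
    p.liftY s (p.pr s Y) y = Y := by
  have h1 : ∀ k ≤ p.L, ∀ r : p.V, ext Y (p.n + (k * p.N + r)) = p.lv.cs k y r := by
    intro k hk
    induction hk using Nat.decreasingInduction with
    | self =>
      intro r
      have := hY p.L le_rfl r
      rw [h.del_node s Y le_rfl, if_neg (lt_irrefl _), if_neg (lt_irrefl _)] at this
      rw [h.gA_cs_top]; exact add_right_cancel this
    | of_succ k hk ih =>
      intro r
      have := hY k hk.le r
      rw [h.del_node s Y hk.le, if_pos hk, if_pos hk, sum_congr rfl fun a _ => ih a,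
        h.gA_cs_succ hk] at this
      omega
  funext t
  rcases gA_cases p (show (t : ℕ) < p.Mt from gam_M p s ▸ t.2) with ht | ⟨k, hk, r, e⟩
  · rw [liftY, dif_pos ht, pr]; exact gA_ext_coe Y t
  · rw [← gA_ext_coe Y t, ← gA_ext_coe (p.liftY s _ y) t, e, h.ext_liftY s _ y hk, h1 k hk]

theorem OK.emb (h : p.OK ρ) (s : ℕ) (w : p.V) :
    Emb (p.mdl s) (p.tok s) w (p.Omg s) (p.lift s w) (p.pr s) := by
  refine ⟨fun Y Y' => ?_, fun c Y => ?_, fun x => pr_liftY p s _ _, fun a Y hY => ?_,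
    fun x _ hx => ?_⟩
  · funext e
    simp only [pr, ext, Pi.add_apply]
    split_ifs <;> simp
  · funext e
    simp only [pr, ext, Pi.smul_apply]
    split_ifs <;> simp
  · obtain ⟨hb, hd⟩ := mem_cls.1 hY
    refine ⟨mem_product.2 ⟨mem_box.2 fun e => ?_, mem_univ _⟩, h.gA_eq_liftY s Y _ fun k hk r => ?_⟩
    · have h1 : (e : ℕ) < (p.gam s).M := by
        have := e.2
        rw [gam_M, gA_Mt]; omega
      have h2 : p.ct s ⟨e, h1⟩ = p.c e := dif_pos e.2
      have h3 := h.gA_rad_le s e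
      have h4 : p.sc s e / p.zZ ^ 11 = p.hb (p.jj s e) := by rw [sc, if_pos e.2]; rfl
      have h5 : p.pr s Y e = Y ⟨e, h1⟩ := gA_ext_lt _ h1
      have h6 := hb ⟨e, h1⟩
      simp only [mdl, h2] at h6
      simp only [lo, hi, loN, hiN, h5]
      split_ifs at h6 <;> omega
    · have : del (p.gam s).u (p.gam s).v Y = 0 + ev (p.tok s a) - ev (p.tok s w) := hd
      rw [this, zero_add, Pi.sub_apply, gA_ev_tok p s hk, gA_ev_tok p s hk]
      split_ifs
      · simp
      · simp only [Pi.sub_apply, Pi.add_apply, Pi.neg_apply]; ring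
  · refine mem_cls.2 ⟨mem_box.1 hx, ?_⟩
    show del (p.gam s).u (p.gam s).v _ = 0 + ev (p.tok s x.2) - ev (p.tok s w)
    rw [h.del_lift, zero_add]

theorem OK.gA_root (h : p.OK ρ) (s : ℕ) {t : ℕ} (ht : t < p.Mt) (he : p.thick s t = true) :
    p.rootN s (p.uG t) = p.rootN s (p.vG t) := by
  have := (h.krus s).root_eq ⟨t, (gam_M p s).symm ▸ ht⟩ (by
    rw [gam_range]; exact of_decide_eq_true he)
  rwa [gA_uN p s ht, gA_vN p s ht] at this

theorem OK.root_cell (h : p.OK ρ) (s : ℕ) {e : Fin p.n} (he : p.thick s e = true) :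
    (p.mdl s).root (p.tok s (p.v e)) = (p.mdl s).root (p.tok s (p.u e)) := by
  have h1 := h.gA_root s (t := e) (by have := e.2; rw [gA_Mt]; omega) he
  rw [gA_uG_cell p e.2, gA_vG_cell p e.2] at h1
  show (p.gam s).vtx (p.rootN s (p.tok s (p.v e))) = (p.gam s).vtx (p.rootN s (p.tok s (p.u e)))
  rw [gA_tok, gA_tok]
  exact congrArg _ h1.symm

theorem OK.root_cls (h : p.OK ρ) (s : ℕ) {a b : p.V} (hab : p.lv.cls 0 a = p.lv.cls 0 b) :
    (p.mdl s).root (p.tok s a) = (p.mdl s).root (p.tok s b) := by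
  have h1 : ∀ a : p.V, ∀ k ≤ p.L, p.rootN s (p.L * p.N + a) = p.rootN s (k * p.N + p.lv.cls k a) := by
    intro a k hk
    induction hk using Nat.decreasingInduction with
    | self => rw [show p.lv.cls p.L a = a from h.cen.ok.top a]
    | of_succ k hk ih =>
      have ha : (p.lv.cls (k + 1) a : ℕ) < p.N := (p.lv.cls (k + 1) a).2
      have h2 := h.gA_root s (t := p.n + ((k + 1) * p.N + p.lv.cls (k + 1) a))
        (by rw [gA_Mt]; exact Nat.add_lt_add_left (gA_lt p hk ha) _)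
        ((h.thick_cls s ha).2 (by omega))
      rw [gA_uG, gA_vG_succ p ha, ← h.lv_val hk.le,
        h.cen.ok.cls_cls (Nat.le_succ k) (show k + 1 ≤ p.lv.L from hk)] at h2
      rw [ih, h2]
  show (p.gam s).vtx (p.rootN s (p.tok s a)) = (p.gam s).vtx (p.rootN s (p.tok s b))
  rw [gA_tok, gA_tok, h1 a 0 (Nat.zero_le _), h1 b 0 (Nat.zero_le _), hab]

theorem OK.key_cell (h : p.OK ρ) (s : ℕ) (w : p.V) {e : Fin p.n} (he : p.thick s e = true)
    (X : Fin p.n → ℤ) :
    Mdl.key (p.thickF s) (p.lift s w (X, p.v e)) =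
      Mdl.key (p.thickF s) (p.lift s w (X + ec e, p.u e)) := by
  have h1 : -ev w + ev (p.u e) - del p.u p.v (X + ec e) = -ev w + ev (p.v e) - del p.u p.v X := by
    rw [del_add, del_ec]; abel
  funext t
  simp only [Mdl.key, lift, h1, thickF]
  split_ifs with ht
  · rfl
  · unfold liftY
    split_ifs with h2
    · have : (⟨t, h2⟩ : Fin p.n) ≠ e := by
        rintro rfl; exact ht he
      simp [ec, this]
    · rfl

theorem OK.key_cls (h : p.OK ρ) (s : ℕ) (w : p.V) {a b : p.V}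
    (hab : p.lv.cls 0 a = p.lv.cls 0 b) (X : Fin p.n → ℤ) :
    Mdl.key (p.thickF s) (p.lift s w (X, a)) = Mdl.key (p.thickF s) (p.lift s w (X, b)) := by
  funext t
  simp only [Mdl.key, lift, thickF]
  split_ifs with ht
  · rfl
  · rcases gA_cases p (show (t : ℕ) < p.Mt from gam_M p s ▸ t.2) with h1 | ⟨k, hk, r, e⟩
    · rw [liftY, liftY, dif_pos h1, dif_pos h1]
    · have h2 : k = 0 := by
        rw [e, h.thick_cls s r.2] at ht; omega
      subst h2
      rw [← gA_ext_coe (p.liftY s X (-ev w + ev a - _)) t,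
        ← gA_ext_coe (p.liftY s X (-ev w + ev b - _)) t, e,
        h.ext_liftY s _ _ hk, h.ext_liftY s _ _ hk]
      simp only [Lv.cs, Pi.sub_apply, Pi.add_apply, sum_sub_distrib, sum_add_distrib, ev,
        Pi.single_apply, sum_ite_eq', mem_filter, mem_univ, true_and, hab]

end Crest.Agent.R302.Pre
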