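import Crest.Agent.R302.GamB1

/-!
# Row 302: smoothness on the auxiliary network, and the fibre Poincaré inequality

`dual_le`: by `del_node` and induction on the level, `∑ a, q a * yT Y a = ∑ (1 ≤ k ≤ L) r, Y(k,r) * (q r - q (cls (k-1) r)) + ∑ r, Y(0,r) q r`,
and `r`, `cls (k-1) r` are in one class of level `k-1` (`idem`), so `|q r - q (cls (k-1) r)| ≤ τ (k-1) = D0 / z^(56+5k)`.
`smooth`: `soft_smooth` with `β = z^5`, `θ = 2 / z^48`, `Q = z^80`, `T = z^7`, `d = 1 / z^84`; for a free `e`, `del (cyc e) = 0`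
(`Forest.del_cyc`, `root_eq`), `cyc e` vanishes on the thin edges of level `0` (`Forest.cyc_apply`), and `cyc e (k,r) ≠ 0` gives
`z^98 * st e ≤ sc (k,r) = z^(105+5k)`.  `mu_cmp`: `soft_cmp`, `ell_add`, `card_Pf`, `PP_le`.
`mu_path`: `G y ≤ G (y + d) + max |⟨q, d⟩|` hence `G y - G (y+d)` and `G (y+d) - G y` are `≤ 2 z D0 / z^61`; the path difference has entries
`≤ 2` on tree edges, whose widths are `≥ z^87`; `near_of_mem`; `exp (1/2) ≤ 2`.
`fp`: `fp_abs` with `cω = 144 z^38` (`mass_cmp`, `out_le`: `Z b ≤ 4 Z a` in a component), `root_cell`, `key_cell`, `root_cls`, `key_cls`.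
-/

set_option autoImplicit false

namespace Crest.Agent.R302.Pre

open Finset Crest.Agent.R309 Crest.Agent.Lib.PolyTime

variable {p : Pre} {ρ : Finset p.V → ℤ}

theorem gb_ext {m : ℕ} (Y : Fin m → ℤ) (t : Fin m) : ext Y t = Y t := by simp [ext]

theorem gb_ext_add {m : ℕ} (Y Y' : Fin m → ℤ) (i : ℕ) : ext (Y + Y') i = ext Y i + ext Y' i := by
  unfold ext
  split_ifs <;> simp

theorem gb_exp_half : Real.exp (1 / 2) ≤ 2 := by
  have h1 : Real.exp (1 / 2) ^ 2 = Real.exp 1 := by rw [← Real.exp_nat_mul]; norm_num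
  have h2 := Real.exp_one_lt_d9
  have h3 := Real.exp_pos (1 / 2)
  nlinarith

theorem OK.gb_scR_tree (h : p.OK ρ) (s : ℕ) {t : Fin (p.gam s).M} (ht : (p.mdl s).tree t = true) :
    (p.z : ℝ) ^ 87 ≤ p.scR s t := by
  have hz := h.zR_ge
  have h1 : p.thr ≤ p.sc s t := by simpa [thickF, thick] using (h.thickM s).tree_thick t ht
  have h2 : (p.z : ℝ) ^ 105 ≤ (p.sc s t : ℝ) := by
    have : p.zZ ^ 105 ≤ p.sc s t := by unfold thr at h1; omega
    unfold zZ at this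
    exact_mod_cast this
  rw [scR, le_div_iff₀ (by positivity), ← pow_add]
  exact h2

theorem OK.mu_path (h : p.OK ρ) (s : ℕ) (w : p.V) {a b : p.V}
    (hab : (p.mdl s).root (p.tok s a) = (p.mdl s).root (p.tok s b)) {Y : Fin (p.gam s).M → ℤ}
    (hY : Y ∈ (p.mdl s).cl (p.tok s b) (p.tok s w)) :
    p.muT ρ s (Y + ((p.mdl s).path (p.tok s a) - (p.mdl s).path (p.tok s b))) ≤ 2 * p.muT ρ s Y := by
  have hT := h.thickM s
  have hF := hT.forest
  have hz := h.zR_ge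
  have hz0 : (0 : ℝ) < p.z := by linarith
  have hz1 : (1 : ℝ) ≤ p.z := by linarith
  set d := (p.mdl s).path (p.tok s a) - (p.mdl s).path (p.tok s b) with hd
  have hd2 : ∀ t, |d t| ≤ 2 := fun t => by
    have h1 := abs_le.1 (hF.path_abs (p.tok s a) t)
    have h2 := abs_le.1 (hF.path_abs (p.tok s b) t)
    rw [hd, Pi.sub_apply, abs_le]
    constructor <;> linarith [h1.1, h1.2, h2.1, h2.2]
  have hd0 : ∀ t, (p.mdl s).tree t = false → d t = 0 := fun t ht => by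
    rw [hd, Pi.sub_apply, hF.path_supp _ t ht, hF.path_supp _ t ht, sub_zero]
  have hde : ∀ i, |ext d i| ≤ 2 := fun i => by
    unfold ext
    split_ifs
    exacts [hd2 _, by norm_num]
  -- the Gaussian part
  have k1 : ∑ t, ((Y t : ℝ) - p.ct s t) ^ 2 / p.scR s t ^ 2 ≤
      ∑ t, (((Y + d) t : ℝ) - p.ct s t) ^ 2 / p.scR s t ^ 2 + 1 / 4 := by
    have k : ∀ t, ((Y t : ℝ) - p.ct s t) ^ 2 / p.scR s t ^ 2 ≤
        (((Y + d) t : ℝ) - p.ct s t) ^ 2 / p.scR s t ^ 2 + 4 / (p.z : ℝ) ^ 80 := fun t => by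
      cases ht : (p.mdl s).tree t
      · rw [Pi.add_apply, hd0 t ht, add_zero]
        exact le_add_of_nonneg_right (by positivity)
      · have h1 := h.gb_scR_tree s ht
        have h2 := h.near_of_mem s (Mdl.cl_box hY) t
        have h3 : |(d t : ℝ)| ≤ 2 := by exact_mod_cast hd2 t
        have hS : 0 < p.scR s t := lt_of_lt_of_le (by positivity) h1
        rw [Pi.add_apply, Int.cast_add]
        generalize (d t : ℝ) = δ at h3 ⊢
        generalize p.scR s t = S at h1 h2 hS ⊢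
        have e : (Y t : ℝ) + δ - p.ct s t = (Y t - p.ct s t) + δ := by ring
        rw [e]
        generalize (Y t : ℝ) - p.ct s t = x at h2 ⊢
        have h4 : |x * δ| ≤ (p.z : ℝ) ^ 7 * S * 2 := by
          rw [abs_mul]
          exact mul_le_mul h2 h3 (abs_nonneg _) (by positivity)
        have h5 : x ^ 2 ≤ (x + δ) ^ 2 + 4 * ((p.z : ℝ) ^ 7 * S) := by
          nlinarith [(abs_le.1 h4).1, sq_nonneg δ]
        have h6 : 4 * ((p.z : ℝ) ^ 7 * S) / S ^ 2 ≤ 4 / (p.z : ℝ) ^ 80 := by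
          rw [div_le_div_iff₀ (by positivity) (by positivity)]
          calc 4 * ((p.z : ℝ) ^ 7 * S) * (p.z : ℝ) ^ 80 = 4 * (S * (p.z : ℝ) ^ 87) := by ring
            _ ≤ 4 * (S * S) := by gcongr
            _ = _ := by ring
        calc x ^ 2 / S ^ 2 ≤ ((x + δ) ^ 2 + 4 * ((p.z : ℝ) ^ 7 * S)) / S ^ 2 := by gcongr
          _ ≤ _ := by rw [add_div]; linarith
    refine (sum_le_sum fun t _ => k t).trans ?_
    rw [sum_add_distrib, sum_const, card_univ, Fintype.card_fin, nsmul_eq_mul]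
    have h1 : ((p.gam s).M : ℝ) ≤ p.z := by
      rw [gam_M]; exact_mod_cast (Nat.le_succ _).trans h.Mt_le
    have h2 : (p.z : ℝ) ^ 2 ≤ (p.z : ℝ) ^ 80 := pow_le_pow_right₀ hz1 (by norm_num)
    have h3 : ((p.gam s).M : ℝ) * (4 / (p.z : ℝ) ^ 80) ≤ 1 / 4 := by
      rw [← mul_div_assoc, div_le_div_iff₀ (by positivity) (by norm_num)]
      nlinarith
    linarith
  -- the wall
  have hW := h.wall_ok
  obtain ⟨q, hq, e⟩ := Wall.exists_G (w := p.wall ρ) (p.yT s Y)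
  have hy : p.yT s (Y + d) = p.yT s Y + p.yT s d := funext fun c => gb_ext_add _ _ _
  have hN : p.N = p.n + p.n := rfl
  have hnv : p.nv = (p.L + 1) * p.N := rfl
  have hvtx : ∀ k < p.L, ∀ r c : p.V, (p.gam s).vtx (k * p.N + r) ≠ p.tok s c := by
    intro k hk r c he
    have h1 := r.2
    have h2 := c.2
    have h3 : (k + 1) * p.N ≤ p.L * p.N := Nat.mul_le_mul_right _ hk
    have h4 := congrArg Fin.val he
    rw [add_mul] at h3 hnv
    rw [tok, Inst.vtx_val (by rw [gam_nv]; omega), Inst.vtx_val (by rw [gam_nv]; omega)] at h4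
    omega
  have hdel : del (p.gam s).u (p.gam s).v d = ev (p.tok s a) - ev (p.tok s b) := by
    have h1 := hF.del_path (p.tok s a)
    have h2 := hF.del_path (p.tok s b)
    change del (p.mdl s).u (p.mdl s).v d = _
    rw [hd, del_sub, h1, h2, hab]
    abel
  have k2 := h.dual_le s (hW.mem_Pf.1 hq).2 (Y := d)
    (fun k hk r => by
      rw [hdel, Pi.sub_apply, ev, ev, Pi.single_eq_of_ne (hvtx k hk r a),
        Pi.single_eq_of_ne (hvtx k hk r b), sub_zero])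
    (fun r => by
      unfold ext
      split_ifs with hr
      · refine hd0 _ ?_
        by_contra ht
        have h1 := hT.tree_thick ⟨_, hr⟩ (by simpa using ht)
        have h2 := (h.thick_cls s (k := 0) (a := r) r.2).1 (by simpa [thickF] using h1)
        omega
      · rfl)
  have hzZ := h.zZ_ge
  have k3 : 4 * |∑ c, q c * p.yT s d c| ≤ p.D0 := by
    have h1 : ∑ k ∈ range p.L, ∑ r : p.V,
        p.zZ ^ (61 + 10 * p.L - 5 * k) * |ext d (p.n + ((k + 1) * p.N + r))| ≤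
        ∑ k ∈ range p.L, ∑ r : p.V, p.zZ ^ (61 + 10 * p.L) * 2 :=
      sum_le_sum fun k _ => sum_le_sum fun r _ => mul_le_mul
        (pow_le_pow_right₀ (by linarith) (Nat.sub_le _ _)) (hde _) (abs_nonneg _) (by positivity)
    rw [sum_const, sum_const, card_univ, card_range, card_V, nsmul_eq_mul, nsmul_eq_mul,
      ← mul_assoc] at h1
    have h2 : (p.L : ℤ) * ((p.n + p.n : ℕ) : ℤ) ≤ p.zZ := by
      have := h.size
      unfold zZ
      exact_mod_cast (show p.L * (p.n + p.n) ≤ p.z by nlinarith)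
    have h3 : p.zZ ^ 2 ≤ p.zZ ^ 61 := pow_le_pow_right₀ (by linarith) (by norm_num)
    have h4 : p.D0 = p.zZ ^ (61 + 10 * p.L) * p.zZ ^ 61 := by
      rw [D0, ← pow_add]; congr 1; omega
    have h5 : 0 < p.zZ ^ (61 + 10 * p.L) := by positivity
    rw [h4]
    generalize p.zZ ^ (61 + 10 * p.L) = A at h1 h5 ⊢
    have h6 := mul_le_mul_of_nonneg_right h2 (show 0 ≤ A * 2 by positivity)
    have h7 : 8 * p.zZ ≤ p.zZ ^ 61 := by nlinarith
    nlinarith [mul_le_mul_of_nonneg_left h7 h5.le]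
  have k4 : ((p.wall ρ).G (p.yT s Y) : ℝ) / p.D0 ≤
      ((p.wall ρ).G (p.yT s (Y + d)) : ℝ) / p.D0 + 1 / 4 := by
    have h1 := Wall.ell_le_G (p.yT s Y + p.yT s d) hq
    rw [Wall.ell_add, ← e, ← hy] at h1
    have h2 : 4 * (p.wall ρ).G (p.yT s Y) ≤ 4 * (p.wall ρ).G (p.yT s (Y + d)) + p.D0 := by
      linarith [neg_abs_le (∑ c, q c * p.yT s d c)]
    have h3 : (4 : ℝ) * (p.wall ρ).G (p.yT s Y) ≤ 4 * (p.wall ρ).G (p.yT s (Y + d)) + p.D0 := by
      exact_mod_cast h2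
    have h4 : (0 : ℝ) < p.D0 := by exact_mod_cast h.D0_pos
    rw [div_add_div _ _ h4.ne' (by norm_num), div_le_div_iff₀ h4 (by positivity)]
    nlinarith
  unfold muT
  rw [← Real.exp_add, ← Real.exp_add]
  refine le_trans ?_ (mul_le_mul_of_nonneg_right gb_exp_half (Real.exp_pos _).le)
  rw [← Real.exp_add]
  exact Real.exp_le_exp.2 (by linarith)

theorem OK.gb_U (h : p.OK ρ) (s : ℕ) (w : p.V) (x : (Fin p.n → ℤ) × p.V) :
    p.U ρ s w x = ((p.wall ρ).G (p.yT s (p.lift s w x)) : ℝ) / p.D0 +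
      ∑ t, ((p.lift s w x t : ℝ) - p.ct s t) ^ 2 / p.scR s t ^ 2 := by
  have hz0 : (p.z : ℝ) ≠ 0 := by have := h.zR_ge; positivity
  have e1 := p.sum_edges s fun i =>
    ((ext (p.lift s w x) i : ℝ) - ext (p.ct s) i) ^ 2 / ((p.sc s i : ℝ) / (p.z : ℝ) ^ 18) ^ 2
  simp only [gb_ext] at e1
  have e2 : ∀ e : Fin p.n, ext (p.lift s w x) e = x.1 e := fun e => congrFun (p.pr_liftY s _ _) e
  have e3 : ∀ e : Fin p.n, ext (p.ct s) e = p.c e := fun e => congrFun (p.pr_liftY s _ _) e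
  have e4 : ∀ e : Fin p.n, p.sc s e = p.om (p.jj s e) := fun e => if_pos e.2
  simp only [scR]
  rw [e1, lift, h.yT_liftY, U, add_assoc, add_comm (∑ e : Fin p.n, _) (∑ k ∈ range (p.L + 1), _)]
  congr 2
  · refine sum_congr rfl fun k hk => sum_congr rfl fun r _ => ?_
    have hk' : k ≤ p.L := Nat.lt_succ_iff.1 (mem_range.1 hk)
    rw [h.ext_liftY s _ _ hk', ct, h.ext_liftY s _ _ hk', p.sc_cls s (k := k) (a := r) r.2, kap]
    have e5 : ∀ y y' : p.V → ℤ, p.lv.cs k (y - y') r = p.lv.cs k y r - p.lv.cs k y' r :=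
      fun y y' => by simp [Lv.cs, sum_sub_distrib]
    rw [e5, zZ]
    push_cast
    rw [mul_div_cancel_left₀ _ (pow_ne_zero _ hz0)]
    ring
  · refine sum_congr rfl fun e _ => ?_
    have e5 := e2 e
    rw [lift] at e5
    rw [e5, e3, e4, div_pow, div_div_eq_mul_div]
    ring

theorem OK.muT_lift (h : p.OK ρ) (s : ℕ) (w : p.V) (x : (Fin p.n → ℤ) × p.V) :
    p.muT ρ s (p.lift s w x) = Real.exp (-p.U ρ s w x) := by
  rw [h.gb_U, muT, ← Real.exp_add]
  congr 1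
  ring

theorem OK.out_le (h : p.OK ρ) (s : ℕ) (w a : p.V) :
    ∑ x ∈ p.Omg s with x.2 = a ∧ p.lift s w x ∉ box (p.mdl s).lo (p.mdl s).hi,
      Real.exp (-p.U ρ s w x) ≤ p.Z ρ s a w / (p.z : ℝ) ^ 403 := by
  have hz := h.zR_ge
  have hz0 : (0 : ℝ) < p.z := by linarith
  have hz1 : (1 : ℝ) ≤ p.z := by linarith
  have e1 : ∑ x ∈ p.Omg s with x.2 = a ∧ p.lift s w x ∉ box (p.mdl s).lo (p.mdl s).hi,
      Real.exp (-p.U ρ s w x) =
      ∑ X ∈ box (p.lo s) (p.hi s) with p.lift s w (X, a) ∉ box (p.mdl s).lo (p.mdl s).hi,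
        Real.exp (-p.U ρ s w (X, a)) := by
    rw [← filter_filter, sum_filter, Omg, rpg_slice, sum_filter]
  have k1 := h.tail_le s a w ((p.z : ℝ) ^ 10)
    ((box (p.lo s) (p.hi s)).filter fun X => p.lift s w (X, a) ∉ box (p.mdl s).lo (p.mdl s).hi)
    (filter_subset _ _) fun X hX => by
      obtain ⟨t, ht⟩ := h.far_of_not_mem s (mem_filter.1 hX).2
      have h1 := single_le_sum
        (f := fun t => ((p.lift s w (X, a) t : ℝ) - p.ct s t) ^ 2 / p.scR s t ^ 2)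
        (fun t _ => by positivity) (mem_univ t)
      have h2 : (0 : ℝ) ≤ ((p.wall ρ).G (p.yT s (p.lift s w (X, a))) : ℝ) / p.D0 :=
        div_nonneg (by exact_mod_cast h.wall_ok.G_nonneg _) (by exact_mod_cast h.D0_pos.le)
      rw [h.gb_U]
      linarith
  rw [e1]
  refine k1.trans ?_
  rw [le_div_iff₀ (by positivity)]
  refine le_trans ?_ (h.Z_lower s a w)
  have h1 : (2 : ℝ) ^ p.z ^ 3 ≤ Real.exp ((p.z : ℝ) ^ 3) := by
    calc (2 : ℝ) ^ p.z ^ 3 ≤ Real.exp 1 ^ p.z ^ 3 :=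
          pow_le_pow_left₀ (by norm_num) (by linarith [Real.add_one_le_exp 1]) _
      _ = _ := by rw [← Real.exp_nat_mul]; simp
  have h2 : (p.z : ℝ) ^ 403 ≤ Real.exp (403 * (p.z : ℝ)) := by
    calc (p.z : ℝ) ^ 403 ≤ Real.exp p.z ^ 403 :=
          pow_le_pow_left₀ hz0.le (by linarith [Real.add_one_le_exp (p.z : ℝ)]) _
      _ = _ := by rw [← Real.exp_nat_mul]; norm_num
  have h3 : (p.z : ℝ) ^ 3 ≤ (p.z : ℝ) ^ 8 := pow_le_pow_right₀ hz1 (by norm_num)
  have h4 : 403 * (p.z : ℝ) ≤ (p.z : ℝ) ^ 3 := by nlinarith [mul_le_mul hz hz (by norm_num) hz0.le]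
  have h5 : 4 * (p.z : ℝ) ^ 8 ≤ (p.z : ℝ) ^ 10 := by
    have : (4 : ℝ) ≤ (p.z : ℝ) ^ 2 := by nlinarith
    calc _ ≤ (p.z : ℝ) ^ 2 * (p.z : ℝ) ^ 8 := by gcongr
      _ = _ := by ring
  calc _ ≤ Real.exp ((p.z : ℝ) ^ 3) * Real.exp (-(p.z : ℝ) ^ 10) * Real.exp (403 * (p.z : ℝ)) := by
        gcongr
    _ ≤ _ := by
        rw [← Real.exp_add, ← Real.exp_add]
        exact Real.exp_le_exp.2 (by linarith)

theorem OK.gb_Z (h : p.OK ρ) (s : ℕ) (w a : p.V) :
    ∑ x ∈ p.Omg s with x.2 = a, p.muT ρ s (p.lift s w x) = p.Z ρ s a w := by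
  rw [Omg, rpg_slice, Z_eq]
  exact sum_congr rfl fun X _ => h.muT_lift s w _

theorem OK.gb_Z_le (h : p.OK ρ) (s : ℕ) (w : p.V) {a b : p.V}
    (hab : (p.mdl s).root (p.tok s a) = (p.mdl s).root (p.tok s b)) :
    p.Z ρ s a w ≤ 4 * p.Z ρ s b w := by
  have hz := h.zR_ge
  have k1 := mass_cmp (μ := p.muT ρ s) (h.thickM s) (h.emb s w)
    (fun x _ => by rw [h.muT_lift]; exact (Real.exp_pos _).le)
    (fun a b hab Y hY => h.mu_path s w hab hY) hab
  rw [h.gb_Z, h.gb_Z] at k1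
  simp only [h.muT_lift] at k1
  have k2 := h.out_le s w a
  have k3 : (p.z : ℝ) ^ 1 ≤ (p.z : ℝ) ^ 403 := pow_le_pow_right₀ (by linarith) (by norm_num)
  have k4 : p.Z ρ s a w / (p.z : ℝ) ^ 403 ≤ p.Z ρ s a w / 2 :=
    div_le_div_of_nonneg_left (h.Z_pos s a w).le (by norm_num) (by linarith)
  linarith

theorem OK.fp (h : p.OK ρ) (s : ℕ) (w : p.V) {ω : p.V → ℝ} (hω : ∀ a, 0 < ω a)
    (hlow : ∀ a, 1 / (2 * (p.z : ℝ) ^ 38) ≤ ω a * p.Z ρ s a w) (hup : ∀ a, ω a * p.Z ρ s a w ≤ 18)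
    (g : (Fin p.n → ℤ) × p.V → ℝ) (G : ℝ) (hg : ∀ x ∈ p.Omg s, |g x| ≤ G) :
    ∃ gt : (Fin p.n → ℤ) → p.V → ℝ,
      Inv p.u p.v (p.lo s) (p.hi s) (fun e => p.thick s e = false) gt ∧
      (∀ X ∈ box (p.lo s) (p.hi s), ∀ a b, p.lv.cls 0 a = p.lv.cls 0 b → gt X a = gt X b) ∧
      ∑ x ∈ p.Omg s, p.W ρ s w ω x * (g x - gt x.1 x.2) ^ 2 ≤
        (p.z : ℝ) ^ 202 * (p.mvs s).Dall (p.Omg s) (p.W ρ s w ω) g +
          G ^ 2 * (1 / (p.z : ℝ) ^ 400) := by
  have hz := h.zR_ge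
  have hz0 : (0 : ℝ) < p.z := by linarith
  have hz1 : (1 : ℝ) ≤ p.z := by linarith
  have hz38 : (1 : ℝ) ≤ (p.z : ℝ) ^ 38 := one_le_pow₀ hz1
  have hW0 : ∀ x ∈ p.Omg s, 0 < p.W ρ s w ω x := fun x _ => by
    rw [W_eq]; exact mul_pos (Real.exp_pos _) (hω _)
  have hN : ((p.n + p.n : ℕ) : ℝ) ≤ p.z := by exact_mod_cast (Nat.le_succ _).trans h.N_le
  obtain ⟨c, hc⟩ := fp_abs (h.thickM s) (h.emb s w) (h.smooth s) (fun Y _ => h.mu_cmp s Y)
    (fun a b hab Y hY => h.mu_path s w hab hY) hω (cω := 144 * (p.z : ℝ) ^ 38) (by linarith)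
    (fun a b hab => by
      have k1 := h.gb_Z_le s w hab.symm
      have k2 := hlow b
      have k3 := hup a
      have k4 := h.Z_pos s a w
      rw [div_le_iff₀ (by positivity)] at k2
      have k5 := mul_le_mul_of_nonneg_left k1
        (show 0 ≤ ω b * (2 * (p.z : ℝ) ^ 38) from (mul_pos (hω b) (by positivity)).le)
      refine le_of_mul_le_mul_right ?_ k4
      linarith)
    (W := p.W ρ s w ω) (fun x _ => by rw [W_eq, h.muT_lift]) hW0 g hg
  refine ⟨fun X a => c (Mdl.key (p.thickF s) (p.lift s w (X, a))) ((p.mdl s).root (p.tok s a)),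
    fun e he X _ _ => ?_, fun X _ a b hab => ?_, hc.trans (add_le_add ?_ ?_)⟩
  · have he' : p.thick s e = true := by simpa using he
    simp only [h.key_cell s w he' X, h.root_cell s he']
  · simp only [h.key_cls s w hab X, h.root_cls s hab]
  · obtain ⟨d1, d2, d3, d4⟩ := Mv.mvs_parts (m := p.mvs s) hW0 g
    refine mul_le_mul ?_ ?_ (add_nonneg (add_nonneg d3 d4) (d2 _)) (by positivity)
    · rw [card_V]
      have e1 : 16 / (1 / (4 * ((p.z : ℝ) ^ 80) ^ 2)) = 64 * (p.z : ℝ) ^ 160 := by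
        field_simp
        norm_num
      rw [e1]
      have k1 : (p.z : ℝ) ^ 1 ≤ (p.z : ℝ) ^ 160 := pow_le_pow_right₀ hz1 (by norm_num)
      have k2 : 1 + 3 * ((p.n + p.n : ℕ) : ℝ) * (64 * (p.z : ℝ) ^ 160 + 4) ≤
          200 * (p.z * (p.z : ℝ) ^ 160) := by
        generalize (p.z : ℝ) ^ 160 = A at k1 ⊢
        have k3 := mul_le_mul_of_nonneg_right hN (show 0 ≤ 64 * A + 4 by linarith)
        nlinarith
      have k3 : (115200 : ℝ) ≤ (p.z : ℝ) ^ 3 :=
        le_trans (by norm_num) (pow_le_pow_left₀ (by norm_num) hz 3)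
      calc _ ≤ 4 * (144 * (p.z : ℝ) ^ 38) * (200 * (p.z * (p.z : ℝ) ^ 160)) := by gcongr
        _ = 115200 * (p.z : ℝ) ^ 199 := by ring
        _ ≤ (p.z : ℝ) ^ 3 * (p.z : ℝ) ^ 199 := by gcongr
        _ = _ := by ring
    · have d5 := d2 fun _ _ => 0
      change Dco _ _ _ (p.mvs s).cy (p.mvs s).s + Dof _ _ _ (p.mvs s).cy (p.mvs s).s +
        Dpa _ _ _ (p.mvs s).pa ≤ _
      unfold Mv.Dall
      linarith
  · have k1 : ∑ x ∈ p.Omg s with p.lift s w x ∉ box (p.mdl s).lo (p.mdl s).hi, p.W ρ s w ω x ≤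
        ∑ _a : p.V, 18 / (p.z : ℝ) ^ 403 := by
      rw [← sum_fiberwise_of_maps_to (g := fun x => x.2) (t := univ) fun _ _ => mem_univ _]
      refine sum_le_sum fun a _ => ?_
      have k2 := mul_le_mul_of_nonneg_left (h.out_le s w a) (hω a).le
      rw [mul_sum, ← mul_div_assoc] at k2
      refine le_trans (le_of_eq ?_) (k2.trans (div_le_div_of_nonneg_right (hup a) (by positivity)))
      rw [filter_filter]
      refine sum_congr (filter_congr fun x _ => and_comm) fun x hx => ?_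
      rw [W_eq, (mem_filter.1 hx).2.1, mul_comm]
    rw [sum_const, card_univ, card_V, nsmul_eq_mul] at k1
    have k2 : 4 * (((p.n + p.n : ℕ) : ℝ) * (18 / (p.z : ℝ) ^ 403)) ≤ 1 / (p.z : ℝ) ^ 400 := by
      rw [← mul_div_assoc, ← mul_div_assoc, div_le_div_iff₀ (by positivity) (by positivity)]
      have k3 : 4 * (((p.n + p.n : ℕ) : ℝ) * 18) ≤ (p.z : ℝ) ^ 3 := by
        nlinarith [mul_le_mul hz hz (by norm_num) hz0.le]
      calc _ ≤ (p.z : ℝ) ^ 3 * (p.z : ℝ) ^ 400 := by gcongr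
        _ = _ := by ring
    calc _ ≤ 4 * G ^ 2 * (((p.n + p.n : ℕ) : ℝ) * (18 / (p.z : ℝ) ^ 403)) := by gcongr
      _ = G ^ 2 * (4 * (((p.n + p.n : ℕ) : ℝ) * (18 / (p.z : ℝ) ^ 403))) := by ring
      _ ≤ _ := by gcongr

end Crest.Agent.R302.Pre
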