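import Crest.Agent.R302.GamR
import Crest.Agent.R302.BaseC

/-!
# Row 302: smoothness of the soft maximum on the auxiliary network
-/

set_option autoImplicit false

namespace Crest.Agent.R302.Pre

open Finset Crest.Agent.R309 Crest.Agent.Lib.PolyTime

variable {p : Pre} {ρ : Finset p.V → ℤ}

theorem OK.dual_le (h : p.OK ρ) (s : ℕ) {q : p.V → ℤ} (hq : (p.wall ρ).Feas q)
    {Y : Fin (p.gam s).M → ℤ}
    (hd : ∀ k < p.L, ∀ r : p.V, del (p.gam s).u (p.gam s).v Y ((p.gam s).vtx (k * p.N + r)) = 0)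
    (h0 : ∀ r : p.V, ext Y (p.n + r) = 0) :
    |∑ a, q a * p.yT s Y a| ≤ ∑ k ∈ range p.L, ∑ r : p.V,
      p.zZ ^ (61 + 10 * p.L - 5 * k) * |ext Y (p.n + ((k + 1) * p.N + r))| := by
  have key : ∀ k ≤ p.L, |∑ a : p.V, q a * ext Y (p.n + (k * p.N + a))| ≤
      ∑ j ∈ range k, ∑ r : p.V,
        p.zZ ^ (61 + 10 * p.L - 5 * j) * |ext Y (p.n + ((j + 1) * p.N + r))| := by
    intro k
    induction k with
    | zero => intro _; simp [h0]
    | succ k ih =>
      intro hk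
      have hk' : k < p.L := hk
      have e1 : ∀ r : p.V, ext Y (p.n + (k * p.N + r)) =
          ∑ a : p.V with p.lv.cls k a = r, ext Y (p.n + ((k + 1) * p.N + a)) := by
        intro r
        have := h.del_node s Y hk'.le r
        rw [hd k hk' r, if_pos hk'] at this
        linarith
      have e2 : ∑ r : p.V, q r * ext Y (p.n + (k * p.N + r)) =
          ∑ a : p.V, q (p.lv.cls k a) * ext Y (p.n + ((k + 1) * p.N + a)) := by
        rw [← sum_fiberwise (s := univ) (g := fun a => p.lv.cls k a)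
          (f := fun a : p.V => q (p.lv.cls k a) * ext Y (p.n + ((k + 1) * p.N + a)))]
        refine sum_congr rfl fun r _ => ?_
        rw [e1, mul_sum]
        refine sum_congr rfl fun a ha => ?_
        rw [(mem_filter.1 ha).2]
      have e3 : ∑ a : p.V, q a * ext Y (p.n + ((k + 1) * p.N + a)) =
          ∑ r : p.V, q r * ext Y (p.n + (k * p.N + r)) +
            ∑ a : p.V, (q a - q (p.lv.cls k a)) * ext Y (p.n + ((k + 1) * p.N + a)) := by
        rw [e2, ← sum_add_distrib]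
        exact sum_congr rfl fun a _ => by ring
      rw [e3, sum_range_succ]
      refine (abs_add_le _ _).trans (add_le_add (ih hk'.le) ?_)
      refine (abs_sum_le_sum_abs _ _).trans (sum_le_sum fun a _ => ?_)
      rw [abs_mul]
      refine mul_le_mul_of_nonneg_right ?_ (abs_nonneg _)
      rw [← wall_τ ρ hk']
      exact hq.2 k hk' a _ (h.cen.ok.idem k hk'.le a).symm
  exact key p.L le_rfl

/-- The smoothed weight. -/
noncomputable def muS (p : Pre) (ρ : Finset p.V → ℤ) (s : ℕ) : (Fin (p.gam s).M → ℤ) → ℝ :=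
  softW (p.wall ρ).Pf (fun q => ((p.wall ρ).ell 0 q : ℝ) / p.D0)
    (fun q t => ∑ a : p.V, if (t : ℕ) = p.n + (p.L * p.N + a) then (q a : ℝ) / p.D0 else 0)
    ((p.z : ℝ) ^ 5) (p.scR s) (p.ct s)

theorem gb1_lt (p : Pre) (s : ℕ) {k : ℕ} (hk : k ≤ p.L) (a : p.V) :
    p.n + (k * p.N + a) < (p.gam s).M := by
  rw [gam_M]
  have := a.2
  unfold Mt N
  nlinarith

theorem gb1_ext (p : Pre) (s : ℕ) (Y : Fin (p.gam s).M → ℤ) {k : ℕ} (hk : k ≤ p.L) (a : p.V) :
    ext Y (p.n + (k * p.N + a)) = Y ⟨_, p.gb1_lt s hk a⟩ := by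
  unfold ext; rw [dif_pos]

theorem gb1_gr (p : Pre) (s : ℕ) (q : p.V → ℤ) (Y : Fin (p.gam s).M → ℤ) :
    ∑ t : Fin (p.gam s).M,
      (∑ a : p.V, if (t : ℕ) = p.n + (p.L * p.N + a) then (q a : ℝ) / p.D0 else 0) * (Y t : ℝ) =
      ((∑ a, q a * p.yT s Y a : ℤ) : ℝ) / p.D0 := by
  simp_rw [sum_mul]
  rw [sum_comm]
  push_cast
  rw [sum_div]
  refine sum_congr rfl fun a _ => ?_
  rw [sum_eq_single ⟨_, p.gb1_lt s le_rfl a⟩]
  · rw [if_pos rfl, yT, p.gb1_ext s Y le_rfl a]; ring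
  · intro t _ ht
    rw [if_neg, zero_mul]
    intro e; exact ht (Fin.ext e)
  · simp

theorem OK.gb1_theta (h : p.OK ρ) (s : ℕ) {q : p.V → ℤ} (hq : (p.wall ρ).Feas q)
    {e : Fin (p.gam s).M} (h1 : p.thick s e = true) (h2 : p.tree s e = false) :
    p.st s e * |∑ a, q a * p.yT s ((p.mdl s).cyc e) a| ≤ 2 * p.zZ ^ (74 + 10 * p.L) := by
  have hT := h.thickM s
  have hz := h.zZ_ge
  have hz0 : 0 < p.zZ := by linarith
  have hfree : p.free s e = true := by simp [free, h1, h2]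
  have hst := h.st_pos s e
  have hd : del (p.gam s).u (p.gam s).v ((p.mdl s).cyc e) = 0 := by
    have := hT.forest.del_cyc e
    rw [hT.root_eq e h1, sub_self] at this
    exact this
  have h0 : ∀ r : p.V, ext ((p.mdl s).cyc e) (p.n + r) = 0 := by
    intro r
    have e0 : p.n + (r : ℕ) = p.n + (0 * p.N + r) := by simp
    rw [e0, p.gb1_ext s _ (Nat.zero_le _) r]
    have hth : p.thick s (p.n + (0 * p.N + r)) = false := by
      have := h.thick_cls s (k := 0) (a := r) r.2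
      simpa using this
    have htr : (p.mdl s).tree ⟨_, p.gb1_lt s (Nat.zero_le _) r⟩ = false := by
      by_contra hc
      have : p.thick s (p.n + (0 * p.N + r)) = true :=
        hT.tree_thick ⟨_, p.gb1_lt s (Nat.zero_le _) r⟩ (Bool.eq_true_of_not_eq_false hc)
      rw [hth] at this
      exact Bool.false_ne_true this
    rw [hT.forest.cyc_apply e htr, if_neg]
    intro he
    rw [← he] at h1
    rw [hth] at h1
    exact Bool.false_ne_true h1
  have hb := h.dual_le s hq (fun k _ r => by rw [hd]; rfl) h0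
  refine (mul_le_mul_of_nonneg_left hb hst.le).trans ?_
  rw [mul_sum]
  have hterm : ∀ k ∈ range p.L, p.st s e * ∑ r : p.V, p.zZ ^ (61 + 10 * p.L - 5 * k) *
      |ext ((p.mdl s).cyc e) (p.n + ((k + 1) * p.N + r))| ≤
      (p.n + p.n : ℕ) * (2 * p.zZ ^ (73 + 10 * p.L)) := by
    intro k hk
    have hk' : k < p.L := mem_range.1 hk
    rw [mul_sum]
    refine (sum_le_card_nsmul _ _ (2 * p.zZ ^ (73 + 10 * p.L)) fun r _ => ?_).trans ?_
    · rw [p.gb1_ext s _ (show k + 1 ≤ p.L from hk') r]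
      by_cases hc : (p.mdl s).cyc e ⟨_, p.gb1_lt s (show k + 1 ≤ p.L from hk') r⟩ = 0
      · rw [hc]; simp only [abs_zero, mul_zero]; positivity
      · have a1 := h.sc_le_of_cyc s hc
        have a2 := (h.st_bounds hfree).1
        have a3 := h.cyc_abs s e ⟨_, p.gb1_lt s (show k + 1 ≤ p.L from hk') r⟩
        simp only at a1
        rw [sc_cls p s r.2, Wd, ← pow_add] at a1
        have a4 : p.st s e ≤ p.zZ ^ (12 + 5 * k) := by
          have : p.zZ ^ 98 * p.st s e ≤ p.zZ ^ 98 * p.zZ ^ (12 + 5 * k) := by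
            rw [← pow_add]
            refine (a2.trans a1).trans (le_of_eq ?_)
            congr 1; ring
          exact le_of_mul_le_mul_left this (by positivity)
        calc p.st s e * (p.zZ ^ (61 + 10 * p.L - 5 * k) * |_|)
            ≤ p.zZ ^ (12 + 5 * k) * (p.zZ ^ (61 + 10 * p.L - 5 * k) * 2) := by gcongr
          _ = 2 * p.zZ ^ (73 + 10 * p.L) := by
            rw [← mul_assoc, ← pow_add, mul_comm]
            congr 2; omega
    · rw [card_univ, card_V, nsmul_eq_mul]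
  refine (sum_le_card_nsmul _ _ _ hterm).trans ?_
  rw [card_range, nsmul_eq_mul]
  have hLN : (p.L : ℤ) * (p.n + p.n : ℕ) ≤ p.zZ := by
    have := h.size
    unfold zZ
    have : p.L * (p.n + p.n) ≤ p.z := by nlinarith
    exact_mod_cast this
  calc (p.L : ℤ) * ((p.n + p.n : ℕ) * (2 * p.zZ ^ (73 + 10 * p.L)))
      = (p.L : ℤ) * (p.n + p.n : ℕ) * (2 * p.zZ ^ (73 + 10 * p.L)) := by ring
    _ ≤ p.zZ * (2 * p.zZ ^ (73 + 10 * p.L)) := by gcongr
    _ = 2 * p.zZ ^ (74 + 10 * p.L) := by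
      rw [show 74 + 10 * p.L = (73 + 10 * p.L) + 1 by ring, pow_succ]; ring

theorem gb1_num {z M : ℝ} (hz : 64 ≤ z) (hM0 : 0 ≤ M) (hM : M ≤ z) :
    z ^ 5 * (2 / z ^ 48) ≤ 1 / 8 ∧
      8 * M / (z ^ 80) ^ 2 + 32 * (z ^ 5 * (2 / z ^ 48)) ^ 2 ≤ 1 / z ^ 84 ∧
      1 / z ^ 84 ≤ 1 / 4 ∧ 16 * M * (1 / z ^ 84) ^ 2 ≤ 1 / (4 * (z ^ 80) ^ 2) ∧
      M * (2 / z ^ 48) + M * (2 * z ^ 7 * (2 * M / z ^ 80) + (2 * M / z ^ 80) ^ 2) ≤ 1 / 2 := by
  have hz0 : 0 < z := by linarith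
  have hz1 : 1 ≤ z := by linarith
  have hp : ∀ k : ℕ, 0 < k → 64 ≤ z ^ k := fun k hk => hz.trans (le_self_pow₀ hz1 hk.ne')
  have hp2 : ∀ k : ℕ, 2 ≤ k → 4096 ≤ z ^ k := fun k hk => by
    calc (4096 : ℝ) = 64 ^ 2 := by norm_num
      _ ≤ z ^ 2 := by gcongr
      _ ≤ z ^ k := pow_le_pow_right₀ hz1 hk
  refine ⟨?_, ?_, ?_, ?_, ?_⟩
  · have e : z ^ 5 * (2 / z ^ 48) = 2 / z ^ 43 := by field_simp
    rw [e, div_le_div_iff₀ (by positivity) (by norm_num)]
    linarith [hp 43 (by norm_num)]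
  · have e1 : 8 * M / (z ^ 80) ^ 2 ≤ 1 / 2 * (1 / z ^ 84) := by
      calc 8 * M / (z ^ 80) ^ 2 ≤ 8 * z / (z ^ 80) ^ 2 := by gcongr
        _ = 8 / z ^ 75 * (1 / z ^ 84) := by field_simp
        _ ≤ 1 / 2 * (1 / z ^ 84) := by
          refine mul_le_mul_of_nonneg_right ?_ (by positivity)
          rw [div_le_div_iff₀ (by positivity) (by norm_num)]
          linarith [hp 75 (by norm_num)]
    have e2 : 32 * (z ^ 5 * (2 / z ^ 48)) ^ 2 ≤ 1 / 2 * (1 / z ^ 84) := by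
      calc 32 * (z ^ 5 * (2 / z ^ 48)) ^ 2 = 128 / z ^ 2 * (1 / z ^ 84) := by field_simp; norm_num
        _ ≤ 1 / 2 * (1 / z ^ 84) := by
          refine mul_le_mul_of_nonneg_right ?_ (by positivity)
          rw [div_le_div_iff₀ (by positivity) (by norm_num)]
          linarith [hp2 2 le_rfl]
    linarith
  · rw [div_le_div_iff₀ (by positivity) (by norm_num)]
    linarith [hp 84 (by norm_num)]
  · calc 16 * M * (1 / z ^ 84) ^ 2 ≤ 16 * z * (1 / z ^ 84) ^ 2 := by gcongr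
      _ = 64 / z ^ 7 * (1 / (4 * (z ^ 80) ^ 2)) := by field_simp; norm_num
      _ ≤ 1 * (1 / (4 * (z ^ 80) ^ 2)) := by
        gcongr
        rw [div_le_one (by positivity)]
        exact hp 7 (by norm_num)
      _ = _ := one_mul _
  · have e1 : M * (2 / z ^ 48) ≤ 1 / 8 := by
      calc M * (2 / z ^ 48) ≤ z * (2 / z ^ 48) := by gcongr
        _ = 2 / z ^ 47 := by field_simp
        _ ≤ 1 / 8 := by
          rw [div_le_div_iff₀ (by positivity) (by norm_num)]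
          linarith [hp 47 (by norm_num)]
    have e2 : M * (2 * z ^ 7 * (2 * M / z ^ 80)) ≤ 1 / 8 := by
      calc M * (2 * z ^ 7 * (2 * M / z ^ 80)) ≤ z * (2 * z ^ 7 * (2 * z / z ^ 80)) := by gcongr
        _ = 4 / z ^ 71 := by field_simp; norm_num
        _ ≤ 1 / 8 := by
          rw [div_le_div_iff₀ (by positivity) (by norm_num)]
          linarith [hp 71 (by norm_num)]
    have e3 : M * (2 * M / z ^ 80) ^ 2 ≤ 1 / 8 := by
      calc M * (2 * M / z ^ 80) ^ 2 ≤ z * (2 * z / z ^ 80) ^ 2 := by gcongr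
        _ = 4 / z ^ 157 := by field_simp; norm_num
        _ ≤ 1 / 8 := by
          rw [div_le_div_iff₀ (by positivity) (by norm_num)]
          linarith [hp 157 (by norm_num)]
    rw [mul_add]
    linarith

theorem OK.smooth (h : p.OK ρ) (s : ℕ) :
    SmoothW (p.mdl s) (p.thickF s) (p.sF s) (p.muS ρ s) (1 / (4 * ((p.z : ℝ) ^ 80) ^ 2))
      (2 * (1 / (p.z : ℝ) ^ 84)) := by
  have hz := h.zR_ge
  have hz0 : (0 : ℝ) < p.z := by linarith
  have hz1 : (1 : ℝ) ≤ p.z := by linarith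
  have hM : (((p.gam s).M : ℕ) : ℝ) ≤ p.z := by
    have := h.Mt_le
    rw [gam_M]
    exact_mod_cast (by omega : p.Mt ≤ p.z)
  obtain ⟨n1, n2, n3, n4, n5⟩ := gb1_num hz (Nat.cast_nonneg _) hM
  have hzZ : ((p.zZ : ℤ) : ℝ) = p.z := by simp [zZ]
  have hsF : ∀ t : Fin (p.gam s).M, ((p.sF s t : ℕ) : ℝ) = ((p.st s t : ℤ) : ℝ) := fun t => by
    rw [← h.sF_cast s t]; simp
  have hfree : ∀ e : Fin (p.gam s).M, p.thickF s e = true → (p.mdl s).tree e = false →
      p.free s e = true := fun e h1 h2 => by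
    have h1' : p.thick s e = true := h1
    have h2' : p.tree s e = false := h2
    simp [free, h1', h2']
  refine soft_smooth (θ := 2 / (p.z : ℝ) ^ 48) (T := (p.z : ℝ) ^ 7) (h.thickM s)
    (p.wall ρ).Pf_nonempty _ _ (p.ct s) (one_le_pow₀ hz1) (by positivity) (one_le_pow₀ hz1)
    (by positivity) (fun t => ?_) (fun q hq e h1 h2 => ?_) (fun e h1 h2 => ?_)
    (fun e h1 h2 t ht => ?_) (h.cyc_abs s) (fun Y hY => h.near_of_mem s hY) n1 n2 n3 n4 n5
  · have : (0 : ℝ) < p.sc s t := by exact_mod_cast h.sc_pos s t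
    unfold scR; positivity
  · have hb := h.gb1_theta s (h.wall_ok.mem_Pf.1 hq).2 h1 h2
    have hD : ((p.D0 : ℤ) : ℝ) = (p.z : ℝ) ^ (122 + 10 * p.L) := by
      unfold D0; push_cast; rw [hzZ]
    rw [gb1_gr, hsF, abs_div, hD, abs_of_pos (by positivity : (0 : ℝ) < (p.z : ℝ) ^ (122 + 10 * p.L)),
      ← mul_div_assoc, div_le_div_iff₀ (by positivity) (by positivity)]
    have hb' : ((p.st s e : ℤ) : ℝ) * |((∑ a, q a * p.yT s ((p.mdl s).cyc e) a : ℤ) : ℝ)| ≤
        2 * (p.z : ℝ) ^ (74 + 10 * p.L) := by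
      rw [← hzZ]; exact_mod_cast hb
    calc _ ≤ 2 * (p.z : ℝ) ^ (74 + 10 * p.L) * (p.z : ℝ) ^ 48 := by gcongr
      _ = _ := by rw [mul_assoc, ← pow_add]; congr 2; ring
  · have a := (h.st_bounds (hfree e h1 h2)).2
    have a' : ((p.sc s e : ℤ) : ℝ) ≤ 2 * (p.z : ℝ) ^ 98 * (p.st s e : ℤ) := by
      rw [← hzZ]; exact_mod_cast a
    rw [hsF, scR, div_le_iff₀ (by positivity)]
    calc _ ≤ _ := a'
      _ = _ := by ring
  · have a := (h.st_bounds (hfree e h1 h2)).1.trans (h.sc_le_of_cyc s ht)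
    have a' : (p.z : ℝ) ^ 98 * (p.st s e : ℤ) ≤ ((p.sc s t : ℤ) : ℝ) := by
      rw [← hzZ]; exact_mod_cast a
    rw [hsF, scR, le_div_iff₀ (by positivity)]
    calc _ = _ := by ring
      _ ≤ _ := a'

theorem OK.mu_cmp (h : p.OK ρ) (s : ℕ) (Y : Fin (p.gam s).M → ℤ) :
    p.muS ρ s Y ≤ p.muT ρ s Y ∧ p.muT ρ s Y ≤ 3 * p.muS ρ s Y := by
  have hz := h.zR_ge
  have hz0 : (0 : ℝ) < p.z := by linarith
  have hD : (0 : ℝ) < p.D0 := by exact_mod_cast h.D0_pos
  have hl : ∀ q : p.V → ℤ, ((p.wall ρ).ell 0 q : ℝ) / p.D0 + ∑ t : Fin (p.gam s).M,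
      (∑ a : p.V, if (t : ℕ) = p.n + (p.L * p.N + a) then (q a : ℝ) / p.D0 else 0) * (Y t : ℝ) =
      ((p.wall ρ).ell (p.yT s Y) q : ℝ) / p.D0 := by
    intro q
    have := Wall.ell_add (w := p.wall ρ) 0 (p.yT s Y) q
    rw [zero_add] at this
    rw [gb1_gr, this, Int.cast_add, add_div]
  have hcard : (((p.wall ρ).Pf.card : ℕ) : ℝ) ≤ Real.exp ((p.z : ℝ) ^ 5) := by
    have a1 := h.wall_ok.card_Pf
    rw [wall_P, card_V] at a1
    have hP : 0 ≤ p.PP := h.wall_ok.P_nonneg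
    have a2 : ((p.wall ρ).Pf.card : ℤ) ≤ 2 ^ p.z ^ 5 := by
      refine a1.trans ((pow_le_pow_left₀ (by omega) h.PP_le _).trans ?_)
      rw [← pow_mul]
      refine pow_le_pow_right₀ (by norm_num) ?_
      have := h.N_le
      have hz1 : 1 ≤ p.z := by have := h.z_ge; omega
      calc p.z ^ 3 * (p.n + p.n) ≤ p.z ^ 3 * p.z := by gcongr; omega
        _ = p.z ^ 4 := by ring
        _ ≤ p.z ^ 5 := Nat.pow_le_pow_right hz1 (by norm_num)
    have a3 : (((p.wall ρ).Pf.card : ℕ) : ℝ) ≤ 2 ^ p.z ^ 5 := by exact_mod_cast a2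
    refine a3.trans ?_
    rw [show (p.z : ℝ) ^ 5 = ((p.z ^ 5 : ℕ) : ℝ) * 1 by simp, Real.exp_nat_mul]
    refine pow_le_pow_left₀ (by norm_num) ?_ _
    linarith [Real.add_one_le_exp (1 : ℝ)]
  obtain ⟨c1, c2⟩ := soft_cmp (I := (p.wall ρ).Pf)
    (ℓ := fun q => ((p.wall ρ).ell (p.yT s Y) q : ℝ) / p.D0) (β := (p.z : ℝ) ^ 5)
    (g := ((p.wall ρ).G (p.yT s Y) : ℝ) / p.D0) (by positivity)
    (fun q hq => by
      have : ((p.wall ρ).ell (p.yT s Y) q : ℝ) ≤ (p.wall ρ).G (p.yT s Y) := by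
        exact_mod_cast Wall.ell_le_G _ hq
      gcongr)
    (by
      obtain ⟨q, hq, e⟩ := Wall.exists_G (w := p.wall ρ) (p.yT s Y)
      exact ⟨q, hq, by rw [e]⟩) hcard
  unfold muS muT softW
  simp_rw [hl]
  have hE := Real.exp_pos (-∑ t, ((Y t : ℝ) - p.ct s t) ^ 2 / p.scR s t ^ 2)
  constructor
  · exact mul_le_mul_of_nonneg_left c1 hE.le
  · rw [mul_left_comm]
    exact mul_le_mul_of_nonneg_left c2 hE.le

end Crest.Agent.R302.Pre
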