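import Crest.Agent.R302.GamA

/-!
# Row 302: the forest of the auxiliary network

As `R309/Comb.lean`.  `room`: for a tree edge `t` and a non-tree edge `e` with `cyc e t ≠ 0` we have `sc e ≤ sc t` (`maxspan` if `e` is
thick, else `sc e < thr ≤ sc t`), the range of `e` is at most `4 sc e / z^13`, `|cyc| ≤ 2`, and `2 + 8 sc t / z^12 ≤ sc t / z^11 - 1`.
-/

set_option autoImplicit false

namespace Crest.Agent.R302.Pre

open Finset Crest.Agent.R309 Crest.Agent.Lib.PolyTime

variable {p : Pre} {ρ : Finset p.V → ℤ}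

theorem OK.gr_pos (h : p.OK ρ) : 0 < p.zZ := by linarith [h.zZ_ge]

theorem OK.gr_pow (h : p.OK ρ) {i j : ℕ} (hij : i ≤ j) : p.zZ ^ i ≤ p.zZ ^ j :=
  pow_le_pow_right₀ (by linarith [h.zZ_ge]) hij

theorem gr_thick_iff (s t : ℕ) : p.thick s t = true ↔ p.thr ≤ p.sc s t := by simp [thick]

theorem gr_free_iff (s t : ℕ) :
    p.free s t = true ↔ p.thick s t = true ∧ p.tree s t = false := by simp [free]

theorem gr_lt (s : ℕ) (e : Fin (p.gam s).M) : (e : ℕ) < p.Mt := gam_M p s ▸ e.2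

theorem gr_uN (s : ℕ) (e : Fin (p.gam s).M) : (p.gam s).uN e = p.uG e :=
  getD_tab _ _ (gr_lt s e)

theorem gr_vN (s : ℕ) (e : Fin (p.gam s).M) : (p.gam s).vN e = p.vG e :=
  getD_tab _ _ (gr_lt s e)

theorem OK.gr_u_val (h : p.OK ρ) (s : ℕ) (e : Fin (p.gam s).M) :
    ((p.gam s).u e : ℕ) = (p.gam s).uN e := Inst.vtx_val ((h.gam_wf s).uN_le e e.2)

theorem OK.gr_v_val (h : p.OK ρ) (s : ℕ) (e : Fin (p.gam s).M) :
    ((p.gam s).v e : ℕ) = (p.gam s).vN e := Inst.vtx_val ((h.gam_wf s).vN_le e e.2)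

theorem OK.gr_tree_thick (h : p.OK ρ) (s : ℕ) {e : Fin (p.gam s).M} (he : p.tree s e = true) :
    p.thick s e = true := by
  rw [gr_thick_iff, ← gam_range]
  exact (h.krus s).tree_thick e he

theorem OK.gr_cyc (h : p.OK ρ) (s : ℕ) (e t : Fin (p.gam s).M) : (p.mdl s).cyc e t =
    ec e t - p.pathN s ((p.gam s).uN e) t + p.pathN s ((p.gam s).vN e) t := by
  rw [← h.gr_u_val, ← h.gr_v_val]
  rfl

theorem OK.gr_path_supp (h : p.OK ρ) (s : ℕ) {a : ℕ} (ha : a ≤ (p.gam s).nv)
    {t : Fin (p.gam s).M} (ht : p.tree s t = false) : p.pathN s a t = 0 :=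
  (h.krus s).path_supp ⟨a, by omega⟩ t ht

theorem OK.gr_path_abs (h : p.OK ρ) (s : ℕ) {a : ℕ} (ha : a ≤ (p.gam s).nv)
    (t : Fin (p.gam s).M) : |p.pathN s a t| ≤ 1 :=
  (h.krus s).path_abs ⟨a, by omega⟩ t

theorem OK.gr_cyc_tree (h : p.OK ρ) (s : ℕ) {e : Fin (p.gam s).M} (he : p.tree s e = true) :
    (p.mdl s).cyc e = 0 := by
  funext t
  have h1 : p.pathN s ((p.gam s).uN e) t - p.pathN s ((p.gam s).vN e) t = ec e t :=
    congrFun ((h.krus s).path_tree e he) t
  rw [h.gr_cyc, Pi.zero_apply]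
  linarith

theorem OK.st_pos (h : p.OK ρ) (s t : ℕ) : 0 < p.st s t := by
  unfold st
  split_ifs with h1
  · have h2 := (gr_thick_iff s t).1 ((gr_free_iff s t).1 h1).1
    have h3 := h.gr_pow (show 98 ≤ 105 by norm_num)
    exact (Int.le_ediv_iff_mul_le (pow_pos h.gr_pos 98)).2 (by unfold thr at h2; linarith)
  · exact one_pos

theorem OK.sF_cast (h : p.OK ρ) (s : ℕ) (t : Fin (p.gam s).M) : (p.sF s t : ℤ) = p.st s t :=
  Int.toNat_of_nonneg (h.st_pos s t).le

theorem OK.st_bounds (h : p.OK ρ) {s t : ℕ} (ht : p.free s t = true) :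
    p.zZ ^ 98 * p.st s t ≤ p.sc s t ∧ p.sc s t ≤ 2 * p.zZ ^ 98 * p.st s t := by
  have hp := pow_pos h.gr_pos 98
  have h1 := Int.mul_ediv_add_emod (p.sc s t) (p.zZ ^ 98)
  have h2 := Int.emod_nonneg (p.sc s t) hp.ne'
  have h3 := Int.emod_lt_of_pos (p.sc s t) hp
  have h4 : p.st s t = p.sc s t / p.zZ ^ 98 := by simp [st, ht]
  rw [← h4] at h1
  have h5 : p.zZ ^ 98 ≤ p.zZ ^ 98 * p.st s t := le_mul_of_one_le_right hp.le (h.st_pos s t)
  constructor <;> linarith

theorem OK.sF_le (h : p.OK ρ) (s : ℕ) (t : Fin (p.gam s).M) : p.sF s t ≤ 2 ^ p.K := by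
  have h1 : p.st s t ≤ 2 ^ p.z ^ 3 := by
    by_cases he : p.free s t = true
    · have h2 := (h.st_bounds he).1
      have h3 : p.st s t ≤ p.zZ ^ 98 * p.st s t :=
        le_mul_of_one_le_left (h.st_pos s t).le (pow_pos h.gr_pos 98)
      linarith [h.sc_le s (gr_lt s t)]
    · simp only [st, he, if_false, Bool.false_eq_true]
      exact one_le_pow₀ (by norm_num)
  rw [← h.sF_cast] at h1
  have h2 : p.sF s t ≤ 2 ^ p.z ^ 3 := by exact_mod_cast h1
  exact h2.trans (Nat.pow_le_pow_right (by norm_num)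
    (Nat.pow_le_pow_right (by linarith [h.z_ge]) (by norm_num)))

theorem OK.cyc_eq (h : p.OK ρ) (s : ℕ) (e t : Fin (p.gam s).M) :
    (p.mdl s).cyc e t = p.cycN s e t := by
  rw [h.gr_cyc, gr_uN, gr_vN, cycN]
  simp [ec, Pi.single_apply, Fin.ext_iff]

theorem OK.cyc_abs (h : p.OK ρ) (s : ℕ) (e t : Fin (p.gam s).M) : |(p.mdl s).cyc e t| ≤ 2 := by
  have hu := (h.gam_wf s).uN_le e e.2
  have hv := (h.gam_wf s).vN_le e e.2
  by_cases hte : t = e
  · subst hte
    cases ht : p.tree s t with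
    | true => rw [h.gr_cyc_tree s ht]; simp
    | false => rw [h.gr_cyc, h.gr_path_supp s hu ht, h.gr_path_supp s hv ht]; simp [ec]
  · have h1 := abs_le.1 (h.gr_path_abs s hu t)
    have h2 := abs_le.1 (h.gr_path_abs s hv t)
    rw [h.gr_cyc, ec, Pi.single_eq_of_ne hte, abs_le]
    constructor <;> linarith [h1.1, h1.2, h2.1, h2.2]

theorem OK.sc_le_of_cyc (h : p.OK ρ) (s : ℕ) {e t : Fin (p.gam s).M}
    (hc : (p.mdl s).cyc e t ≠ 0) : p.sc s e ≤ p.sc s t := by
  by_cases hte : t = e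
  · rw [hte]
  rw [h.gr_cyc, ec, Pi.single_eq_of_ne hte] at hc
  have h1 : p.pathN s ((p.gam s).uN e) t ≠ p.pathN s ((p.gam s).vN e) t := fun h1 =>
    hc (by rw [h1]; ring)
  by_cases he : p.thr ≤ p.sc s e
  · rw [← gam_range, ← gam_range]
    exact (h.krus s).maxspan e t (by rw [gam_range]; exact he) h1
  · cases ht : p.tree s t with
    | true => linarith [(gr_thick_iff s t).1 (h.gr_tree_thick s ht)]
    | false =>
      rw [h.gr_path_supp s ((h.gam_wf s).uN_le e e.2) ht,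
        h.gr_path_supp s ((h.gam_wf s).vN_le e e.2) ht] at h1
      exact absurd rfl h1

theorem gr_rad_free {s t : ℕ} (ht : p.free s t = true) :
    p.rad s t = 2 * p.zZ ^ 85 * p.st s t := by
  obtain ⟨h1, h2⟩ := (gr_free_iff s t).1 ht
  simp [rad, h1, h2]

theorem OK.gr_rad_nonneg (h : p.OK ρ) (s t : ℕ) : 0 ≤ p.rad s t := by
  have h0 := h.gr_pos
  unfold rad
  split_ifs
  · exact Int.ediv_nonneg (h.sc_pos s t).le (pow_pos h0 11).le
  · have := h.st_pos s t
    positivity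
  · exact Int.ediv_nonneg (h.sc_pos s t).le (pow_pos h0 13).le

theorem OK.gr_rad_le (h : p.OK ρ) {s t : ℕ} (ht : p.tree s t = false) :
    p.zZ ^ 13 * p.rad s t ≤ 2 * p.sc s t := by
  by_cases h1 : p.thick s t = true
  · have h2 := (gr_free_iff s t).2 ⟨h1, ht⟩
    rw [gr_rad_free h2]
    calc _ = 2 * (p.zZ ^ 98 * p.st s t) := by ring
      _ ≤ _ := by linarith [(h.st_bounds h2).1]
  · have h2 : p.rad s t = p.sc s t / p.zZ ^ 13 := by simp [rad, h1, ht]
    have h3 := Int.mul_ediv_self_le (x := p.sc s t) (pow_pos h.gr_pos 13).ne'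
    rw [h2]
    linarith [h.sc_pos s t]

theorem OK.gr_room (h : p.OK ρ) (s : ℕ) {t : Fin (p.gam s).M} (ht : p.tree s t = true)
    (T : Finset (Fin (p.gam s).M)) (hT : ∀ e ∈ T, p.tree s e = false) :
    2 + ∑ e ∈ T, |(p.mdl s).cyc e t| * ((p.mdl s).hi e - (p.mdl s).lo e) ≤ p.rad s t := by
  have h0 := h.gr_pos
  have hs := h.sc_pos s t
  have h1 : p.zZ ^ 13 * ∑ e ∈ T, |(p.mdl s).cyc e t| * ((p.mdl s).hi e - (p.mdl s).lo e) ≤
      p.zZ * (8 * p.sc s t) := by
    rw [mul_sum]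
    refine (sum_le_card_nsmul _ _ (8 * p.sc s t) fun e he => ?_).trans ?_
    · by_cases hc : (p.mdl s).cyc e t = 0
      · rw [hc]
        simp only [abs_zero, zero_mul, mul_zero]
        linarith
      · have h2 := h.sc_le_of_cyc s hc
        have h3 := h.gr_rad_le (hT e he)
        have h4 := h.cyc_abs s e t
        have h5 := h.gr_rad_nonneg s e
        have h6 : (p.mdl s).hi e - (p.mdl s).lo e ≤ 2 * p.rad s e := by
          change (p.ct s e + p.rad s e - if p.free s e = true then 1 else 0) -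
            (p.ct s e - p.rad s e) ≤ _
          split_ifs <;> linarith
        have h7 : |(p.mdl s).cyc e t| * ((p.mdl s).hi e - (p.mdl s).lo e) ≤ 2 * (2 * p.rad s e) :=
          (mul_le_mul_of_nonneg_left h6 (abs_nonneg _)).trans
            (mul_le_mul_of_nonneg_right h4 (by linarith))
        linarith [mul_le_mul_of_nonneg_left h7 (pow_pos h0 13).le]
    · rw [nsmul_eq_mul]
      refine mul_le_mul_of_nonneg_right ?_ (by linarith)
      have h2 := T.card_le_univ
      rw [Fintype.card_fin] at h2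
      have h4 := gam_M p s
      have h3 := h.Mt_le
      unfold zZ
      omega
  generalize ∑ e ∈ T, |(p.mdl s).cyc e t| * ((p.mdl s).hi e - (p.mdl s).lo e) = A at h1 ⊢
  have h2 : p.zZ ^ 12 * A ≤ 8 * p.sc s t :=
    le_of_mul_le_mul_left (by linarith [show p.zZ * (p.zZ ^ 12 * A) = p.zZ ^ 13 * A by ring]) h0
  have h3 := (gr_thick_iff s t).1 (h.gr_tree_thick s ht)
  have h4 := h.gr_pow (show 12 ≤ 105 by norm_num)
  have h5 := mul_le_mul_of_nonneg_right h.zZ_ge hs.le
  unfold thr at h3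
  rw [rad, if_pos ht, Int.le_ediv_iff_mul_le (pow_pos h0 11)]
  refine le_of_mul_le_mul_left ?_ h0
  linarith [show p.zZ * ((2 + A) * p.zZ ^ 11) = 2 * p.zZ ^ 12 + p.zZ ^ 12 * A by ring]

theorem OK.thickM (h : p.OK ρ) (s : ℕ) : (p.mdl s).Thick (p.thickF s) (p.sF s) := by
  have hroot : ∀ a : (p.gam s).V, ((p.mdl s).root a : ℕ) = p.rootN s a := fun a =>
    Inst.vtx_val ((h.krus s).root_le a)
  refine ⟨⟨fun a => (h.krus s).del_path a, fun a e he => (h.krus s).path_supp a e he,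
    fun e he => h.gr_cyc_tree s he, fun a e => (h.krus s).path_abs a e,
    mem_cls.2 ⟨fun e => ?_, h.del_ct s⟩, fun t ht => ?_⟩, (h.gam_wf s).u_ne_v,
    fun e he => h.gr_tree_thick s he, fun e he => ?_, fun a => ?_, fun a => ?_, fun e => ?_,
    fun e he he' => ?_⟩
  · have h1 := h.gr_rad_nonneg s e
    change p.ct s e - p.rad s e ≤ p.ct s e ∧
      p.ct s e ≤ p.ct s e + p.rad s e - if p.free s e = true then 1 else 0
    split_ifs with h2
    · have h3 := mul_pos (pow_pos h.gr_pos 85) (h.st_pos s e)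
      rw [gr_rad_free h2] at h1 ⊢
      constructor <;> linarith
    · constructor <;> linarith
  · have h1 := h.gr_room s ht _ fun e (he : e ∈ univ.filter fun e' => (p.mdl s).tree e' = false) =>
      (mem_filter.1 he).2
    have h2 : p.free s t = false := by
      have : p.tree s t = true := ht
      simp [free, this]
    generalize ∑ e ∈ univ.filter fun e' => (p.mdl s).tree e' = false,
      |(p.mdl s).cyc e t| * ((p.mdl s).hi e - (p.mdl s).lo e) = A at h1 ⊢
    change p.ct s t - p.rad s t + (2 + A) ≤ p.ct s t ∧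
      p.ct s t + (2 + A) ≤ p.ct s t + p.rad s t - if p.free s t = true then 1 else 0
    rw [h2, if_neg (by simp)]
    constructor <;> linarith
  · ext
    rw [hroot, hroot]
    change p.rootN s ((p.gam s).u e) = p.rootN s ((p.gam s).v e)
    rw [h.gr_u_val, h.gr_v_val]
    exact (h.krus s).root_eq e (by rw [gam_range]; exact (gr_thick_iff s e).1 he)
  · ext
    rw [hroot, hroot]
    exact (h.krus s).root_root a
  · funext t
    change p.pathN s ((p.mdl s).root a) t = 0
    rw [hroot]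
    exact congrFun ((h.krus s).path_root a) t
  · have := h.st_pos s e
    rw [← h.sF_cast] at this
    exact_mod_cast this
  · have h2 : p.free s e = true := (gr_free_iff s e).2 ⟨he, he'⟩
    rw [h.sF_cast]
    change p.st s e ∣ (p.ct s e + p.rad s e - if p.free s e = true then 1 else 0) -
      (p.ct s e - p.rad s e) + 1
    rw [if_pos h2, gr_rad_free h2]
    exact ⟨4 * p.zZ ^ 85, by ring⟩

/-- Inside the box every edge is within `z^7` widths of the centre. -/
theorem OK.near_of_mem (h : p.OK ρ) (s : ℕ) {Y : Fin (p.gam s).M → ℤ}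
    (hY : Y ∈ box (p.mdl s).lo (p.mdl s).hi) (t : Fin (p.gam s).M) :
    |(Y t : ℝ) - p.ct s t| ≤ (p.z : ℝ) ^ 7 * p.scR s t := by
  have h0 := h.gr_pos
  have h1 : p.zZ ^ 11 * p.rad s t ≤ p.sc s t := by
    cases ht : p.tree s t with
    | true =>
      rw [rad, if_pos ht]
      exact Int.mul_ediv_self_le (pow_pos h0 11).ne'
    | false =>
      have h2 := h.gr_rad_le ht
      have h3 := mul_nonneg (pow_pos h0 11).le (h.gr_rad_nonneg s t)
      have h4 : 2 ≤ p.zZ ^ 2 := by nlinarith [h.zZ_ge]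
      have h5 := mul_le_mul_of_nonneg_right h4 h3
      linarith [show p.zZ ^ 2 * (p.zZ ^ 11 * p.rad s t) = p.zZ ^ 13 * p.rad s t by ring]
  have h2 : |Y t - p.ct s t| ≤ p.rad s t := by
    have h3 : p.ct s t - p.rad s t ≤ Y t ∧
        Y t ≤ p.ct s t + p.rad s t - if p.free s t = true then 1 else 0 := mem_box.1 hY t
    rw [abs_le]
    constructor
    · linarith [h3.1]
    · have h4 := h3.2
      split_ifs at h4 <;> linarith
  have h3 : (p.z : ℝ) ^ 11 * |(Y t : ℝ) - p.ct s t| ≤ p.sc s t := by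
    have := (mul_le_mul_of_nonneg_left h2 (pow_pos h0 11).le).trans h1
    unfold zZ at this
    exact_mod_cast this
  have hz : (0 : ℝ) < p.z := by linarith [h.zR_ge]
  rw [scR, ← mul_div_assoc, le_div_iff₀ (by positivity)]
  calc _ = (p.z : ℝ) ^ 7 * ((p.z : ℝ) ^ 11 * |(Y t : ℝ) - p.ct s t|) := by ring
    _ ≤ _ := by gcongr

/-- Outside the box some edge is `z^5` widths away from the centre. -/
theorem OK.far_of_not_mem (h : p.OK ρ) (s : ℕ) {Y : Fin (p.gam s).M → ℤ}
    (hY : Y ∉ box (p.mdl s).lo (p.mdl s).hi) :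
    ∃ t, (p.z : ℝ) ^ 10 ≤ ((Y t : ℝ) - p.ct s t) ^ 2 / p.scR s t ^ 2 := by
  have h0 := h.gr_pos
  rw [mem_box, not_forall] at hY
  obtain ⟨t, ht⟩ := hY
  refine ⟨t, ?_⟩
  have h1 : p.rad s t + 1 - (if p.free s t = true then 1 else 0) ≤ |Y t - p.ct s t| := by
    change ¬ (p.ct s t - p.rad s t ≤ Y t ∧
      Y t ≤ p.ct s t + p.rad s t - if p.free s t = true then 1 else 0) at ht
    have a1 := le_abs_self (Y t - p.ct s t)
    have a2 := neg_abs_le (Y t - p.ct s t)
    split_ifs at ht ⊢ <;> omega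
  have h2 : p.sc s t ≤ p.zZ ^ 13 * |Y t - p.ct s t| := by
    by_cases hf : p.free s t = true
    · rw [if_pos hf, gr_rad_free hf, add_sub_cancel_right] at h1
      have a1 := mul_le_mul_of_nonneg_left h1 (pow_pos h0 13).le
      linarith [(h.st_bounds hf).2,
        show p.zZ ^ 13 * (2 * p.zZ ^ 85 * p.st s t) = 2 * p.zZ ^ 98 * p.st s t by ring]
    · rw [if_neg hf, sub_zero] at h1
      cases htr : p.tree s t with
      | true =>
        rw [rad, if_pos htr] at h1
        have a1 := mul_le_mul_of_nonneg_left h1 (pow_pos h0 11).le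
        have a2 := Int.lt_mul_ediv_self_add (x := p.sc s t) (pow_pos h0 11)
        have a3 := mul_le_mul_of_nonneg_right (h.gr_pow (show 11 ≤ 13 by norm_num))
          (abs_nonneg (Y t - p.ct s t))
        linarith
      | false =>
        have a0 : ¬ p.thick s t = true := fun a0 => hf ((gr_free_iff s t).2 ⟨a0, htr⟩)
        rw [rad, if_neg (by simp [htr]), if_neg a0] at h1
        have a1 := mul_le_mul_of_nonneg_left h1 (pow_pos h0 13).le
        have a2 := Int.lt_mul_ediv_self_add (x := p.sc s t) (pow_pos h0 13)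
        linarith
  have h3 : (p.sc s t : ℝ) ≤ (p.z : ℝ) ^ 13 * |(Y t : ℝ) - p.ct s t| := by
    unfold zZ at h2
    exact_mod_cast h2
  have hz : (0 : ℝ) < p.z := by linarith [h.zR_ge]
  have hs : (0 : ℝ) < p.sc s t := by exact_mod_cast h.sc_pos s t
  have h4 := pow_le_pow_left₀ hs.le h3 2
  rw [mul_pow, sq_abs] at h4
  rw [scR, le_div_iff₀ (by positivity), div_pow, ← mul_div_assoc, div_le_iff₀ (by positivity)]
  calc _ ≤ (p.z : ℝ) ^ 10 * (((p.z : ℝ) ^ 13) ^ 2 * ((Y t : ℝ) - p.ct s t) ^ 2) := by gcongr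
    _ = _ := by ring

theorem OK.mvs_pa (h : p.OK ρ) (s : ℕ) (a b : p.V) (e : Fin p.n) :
    (p.mvs s).pa a b e = p.paN s a b e := by
  have he : (e : ℕ) < (p.gam s).M := by rw [gam_M, Mt]; omega
  have ht : ∀ c : p.V, (p.tok s c : ℕ) = p.L * p.N + c := fun c =>
    Inst.vtx_val (by
      have := c.2
      rw [gam_nv, nv, add_mul, one_mul, N]
      omega)
  change ext _ _ = _
  rw [ext, dif_pos he, paN, ← ht, ← ht]
  rfl

theorem OK.mvs_cy (h : p.OK ρ) (s : ℕ) (t : Fin (p.gam s).M) (e : Fin p.n) :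
    (p.mvs s).cy t e = p.cycN s t e := by
  have he : (e : ℕ) < (p.gam s).M := by rw [gam_M, Mt]; omega
  change ext _ _ = _
  rw [ext, dif_pos he, h.cyc_eq]

end Crest.Agent.R302.Pre
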