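import Crest.Agent.R302.LorG

/-!
# Row 302: the base weight `exp (-ν) *` (Gaussians in the class sums) is hyperbolic with a gap

Fix `α`, `r`; `u a b = ν (α + ev a + ev b)`, `d a b = u a b + u r r - u a r - u b r`, `E a b = exp (-d a b)`.
`h4` gives `d ≥ 0` (`c = d = r`), `d a b ≥ min (d a c) (d b c)` (fourth point `r`), `d a r = 0`; `h2` gives
`d a a - d a b ≤ δ k` when `a ~ₖ b`.  Expanding the squares,
`F0 (α + a + b) = φ a * φ b * E a b * E' a b` with `φ > 0`, `E' a b = exp (-2 ∑ k, κ k [a ~ₖ b]) = 1 - ∑ k, μ k [a ~ₖ b]`,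
`μ k = exp (-2 ∑ j < k, κ j) * (1 - exp (-2 κ k)) ∈ [κ k, 2 κ k]` (the relations are nested).  Put `x a = y a * φ a`.
`Q = E(x,x) - ∑ k C, μ k * E(x_C, x_C)`; `E(x,x) ≤ x(V)²` by `ultra_psd` for `1 - E`.  For a class `C` of level `k` let
`e C = max_{C × C} E`, `B = e C - E` on `C × C` (`ultra_psd` on the subtype, or extend by `0`), and write
`x_C = x(C) • 1_{rep C} + ∑ (j > k) (D ⊆ C of level j), x(D) • (1_{rep D} - 1_{cls (j-1) (rep D)})`, at most
`Nt = card V * (L+1)` terms.  Cauchy–Schwarz for the form `B`, `B(rep, rep) ≤ δ k * e C`,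
`B(1_a - 1_b, 1_a - 1_b) = 2 E a b - E a a - E b b ≤ 4 δ (j-1) * e D`.  Hence
`∑ μ k E(x_C,x_C) ≥ ∑ μ k * e C * x(C)² / 2 ≥ S / 2`, `S = ∑ k, μ k * x(class of r)²` (`e C = 1` if `r ∈ C`).
Balance means `x(V) = ∑ k, μ k * x(class of r)`, so `x(V)² ≤ S / 8`, `-Q ≥ 3 S / 8`, and the class term is
`φ r * (x(C₀) - x(V))`, `(x(C₀) - x(V))² ≤ 3 S / κ 0`, `E' r r ≥ 7 / 8`.
-/

set_option autoImplicit false

namespace Crest.Agent.R302

open Finset Crest.Agent.R309

variable {V : Type} [Fintype V] [DecidableEq V]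

theorem hyp_sq_class {W : Type} [Fintype W] [DecidableEq W] (f : V → W) (g : W → ℝ) (x : V → ℝ) :
    ∑ a, ∑ b, x a * x b * (if f a = f b then g (f a) else 0)
      = ∑ s, g s * (∑ a with f a = s, x a) ^ 2 := by
  have h1 : ∀ s, g s * (∑ a with f a = s, x a) ^ 2
      = ∑ a, ∑ b, if f a = s then x a * x b * (if f a = f b then g (f a) else 0) else 0 := by
    intro s
    rw [sq, sum_filter, sum_mul_sum, mul_sum]
    refine sum_congr rfl fun a _ => ?_
    rw [mul_sum]
    refine sum_congr rfl fun b _ => ?_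
    by_cases ha : f a = s
    · subst ha
      by_cases hb : f b = f a
      · simp [hb]; ring
      · simp [hb, Ne.symm hb]
    · simp [ha]
  simp only [h1]
  rw [sum_comm (s := univ) (t := (univ : Finset V))]
  symm
  rw [sum_comm]
  rw [sum_comm (s := (univ : Finset V)) (t := (univ : Finset V))]
  refine sum_congr rfl fun a _ => ?_
  rw [sum_comm]
  refine sum_congr rfl fun b _ => ?_
  simp

theorem hyp_per_psd (R : V → V → Prop) [DecidableRel R] (hs : ∀ a b, R a b → R b a)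
    (ht : ∀ a b c, R a c → R b c → R a b) (x : V → ℝ) :
    0 ≤ ∑ a, ∑ b, x a * x b * (if R a b then 1 else 0) := by
  have h := hyp_sq_class (fun a => univ.filter (R a)) (fun _ => 1) fun a => if R a a then x a else 0
  refine le_trans (sum_nonneg fun s _ => by positivity) (h.symm.le.trans (le_of_eq ?_))
  refine sum_congr rfl fun a _ => sum_congr rfl fun b _ => ?_
  by_cases hab : R a b
  · have h1 : univ.filter (R a) = univ.filter (R b) := by
      ext c
      simp only [mem_filter, mem_univ, true_and]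
      exact ⟨fun h => ht _ _ _ (hs _ _ hab) (hs _ _ h), fun h => ht _ _ _ hab (hs _ _ h)⟩
    rw [if_pos (ht _ _ _ hab hab), if_pos (ht _ _ _ (hs _ _ hab) (hs _ _ hab)), if_pos h1, if_pos hab]
  · rw [if_neg hab]
    by_cases hb : R b b
    · rw [if_neg (c := _ = _), mul_zero, mul_zero]
      intro h1
      have : b ∈ univ.filter (R b) := mem_filter.2 ⟨mem_univ _, hb⟩
      rw [← h1] at this
      exact hab (mem_filter.1 this).2
    · simp [hb]

/-- Ultrametric matrices are positive semidefinite (induct on the number of positive values: subtract the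
least one times the indicator of a partial equivalence relation). -/
theorem ultra_psd (B : V → V → ℝ) (hs : ∀ a b, B a b = B b a) (h0 : ∀ a b, 0 ≤ B a b)
    (hu : ∀ a b c, min (B a c) (B b c) ≤ B a b) (x : V → ℝ) :
    0 ≤ ∑ a, ∑ b, x a * x b * B a b := by
  classical
  induction hn : (univ.filter fun p : V × V => 0 < B p.1 p.2).card using Nat.strong_induction_on
    generalizing B with
  | _ n ih =>
  rcases (univ.filter fun p : V × V => 0 < B p.1 p.2).eq_empty_or_nonempty with he | hne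
  · refine sum_nonneg fun a _ => sum_nonneg fun b _ => ?_
    have : ¬ 0 < B a b := fun h => by
      have : (a, b) ∈ univ.filter fun p : V × V => 0 < B p.1 p.2 := mem_filter.2 ⟨mem_univ _, h⟩
      rw [he] at this; simp at this
    rw [le_antisymm (not_lt.1 this) (h0 a b), mul_zero]
  · obtain ⟨p, hp, hmin⟩ := exists_min_image _ (fun p : V × V => B p.1 p.2) hne
    have hp0 : 0 < B p.1 p.2 := (mem_filter.1 hp).2
    set m := B p.1 p.2 with hm
    have hmin' : ∀ a b, 0 < B a b → m ≤ B a b := fun a b h =>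
      hmin (a, b) (mem_filter.2 ⟨mem_univ _, h⟩)
    have ht : ∀ a b c, 0 < B a c → 0 < B b c → 0 < B a b := fun a b c h1 h2 =>
      (lt_min h1 h2).trans_le (hu a b c)
    have h1 := hyp_per_psd (fun a b => 0 < B a b) (fun a b h => by rwa [hs]) ht x
    have h0' : ∀ a b, 0 ≤ B a b - m * if 0 < B a b then 1 else 0 := fun a b => by
      split_ifs with h
      · linarith [hmin' a b h]
      · linarith [h0 a b]
    have h2 := ih _ ?_ (fun a b => B a b - m * if 0 < B a b then 1 else 0)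
      (fun a b => by simp only [hs a b]) h0' (fun a b c => ?_) rfl
    · have h3 : ∑ a, ∑ b, x a * x b * B a b
          = ∑ a, ∑ b, x a * x b * (B a b - m * if 0 < B a b then 1 else 0)
            + m * ∑ a, ∑ b, x a * x b * (if 0 < B a b then 1 else 0) := by
        rw [mul_sum, ← sum_add_distrib]
        refine sum_congr rfl fun a _ => ?_
        rw [mul_sum, ← sum_add_distrib]
        exact sum_congr rfl fun b _ => by ring
      rw [h3]
      positivity
    · rw [← hn]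
      refine card_lt_card ⟨fun q hq => ?_, fun h => ?_⟩
      · have := (mem_filter.1 hq).2
        refine mem_filter.2 ⟨mem_univ _, ?_⟩
        by_contra h
        rw [if_neg h] at this
        exact h (by linarith)
      · have := (mem_filter.1 (h hp)).2
        rw [if_pos hp0] at this
        linarith
    · by_cases hac : 0 < B a c
      · by_cases hbc : 0 < B b c
        · simp only [if_pos hac, if_pos hbc, if_pos (ht a b c hac hbc)]
          rw [min_sub_sub_right]
          linarith [hu a b c]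
        · refine (min_le_right _ _).trans (le_trans ?_ (h0' a b))
          simp only [if_neg hbc]
          linarith [not_lt.1 hbc]
      · refine (min_le_left _ _).trans (le_trans ?_ (h0' a b))
        simp only [if_neg hac]
        linarith [not_lt.1 hac]

/-- Cauchy-Schwarz for positive semidefinite forms. -/
theorem hyp_cs {W ι : Type} [AddCommGroup W] [Module ℝ W] (B : LinearMap.BilinForm ℝ W)
    (h0 : ∀ v, 0 ≤ B v v) (s : Finset ι) (v : ι → W) :
    B (∑ i ∈ s, v i) (∑ i ∈ s, v i) ≤ s.card * ∑ i ∈ s, B (v i) (v i) := by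
  have h1 : ∀ i j, B (v i) (v j) + B (v j) (v i) ≤ B (v i) (v i) + B (v j) (v j) := fun i j => by
    have := h0 (v i - v j)
    simp only [map_sub, LinearMap.sub_apply] at this
    linarith
  have h2 : B (∑ i ∈ s, v i) (∑ i ∈ s, v i) = ∑ i ∈ s, ∑ j ∈ s, B (v i) (v j) := by
    rw [LinearMap.map_sum₂]
    exact sum_congr rfl fun i _ => map_sum _ _ _
  have h3 : ∑ i ∈ s, ∑ j ∈ s, (B (v i) (v j) + B (v j) (v i))
      ≤ ∑ i ∈ s, ∑ j ∈ s, (B (v i) (v i) + B (v j) (v j)) :=
    sum_le_sum fun i _ => sum_le_sum fun j _ => h1 i j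
  simp only [sum_add_distrib, sum_const, nsmul_eq_mul] at h3
  rw [sum_comm (f := fun i j => B (v j) (v i)), ← mul_sum] at h3
  rw [h2]
  linarith

/-- class sums -/
def hypX (lv : Lv V) (x : V → ℝ) (k : ℕ) (s : V) : ℝ := ∑ a with lv.cls k a = s, x a

theorem hypX_rep {lv : Lv V} (hlv : lv.OK) {x : V → ℝ} {k : ℕ} (hk : k ≤ lv.L) {s : V}
    (h : hypX lv x k s ≠ 0) : lv.cls k s = s := by
  obtain ⟨a, ha, -⟩ := exists_ne_zero_of_sum_ne_zero h
  rw [← (mem_filter.1 ha).2, hlv.idem k hk]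

theorem hypX_push {lv : Lv V} (hlv : lv.OK) (x : V → ℝ) {k : ℕ} (hk : k < lv.L) :
    ∑ s, hypX lv x (k + 1) s • (Pi.single (lv.cls k s) 1 : V → ℝ) = hypX lv x k := by
  funext t
  simp only [Finset.sum_apply, Pi.smul_apply, smul_eq_mul, Pi.single_apply, hypX, sum_filter,
    sum_mul]
  rw [sum_comm]
  refine sum_congr rfl fun a _ => ?_
  rw [sum_eq_single (lv.cls (k + 1) a) (fun s _ hs => by simp [Ne.symm hs]) (by simp),
    hlv.cls_cls (Nat.le_succ k) hk]
  simp [eq_comm]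

theorem hyp_sum_single (z : V → ℝ) : ∑ s, z s • (Pi.single s 1 : V → ℝ) = z := by
  funext t
  simp [Finset.sum_apply, Pi.single_apply]

/-- the telescoping decomposition -/
theorem hyp_decomp {lv : Lv V} (hlv : lv.OK) (x : V → ℝ) {k : ℕ} (hk : k ≤ lv.L) :
    x = ∑ p ∈ Icc k lv.L ×ˢ (univ : Finset V), hypX lv x p.1 p.2 •
      (Pi.single p.2 1 - if p.1 = k then 0 else Pi.single (lv.cls (p.1 - 1) p.2) 1 : V → ℝ) := by
  have key : ∀ n, k ≤ n → n ≤ lv.L → hypX lv x n = ∑ j ∈ Icc k n, ∑ s, hypX lv x j s •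
      (Pi.single s 1 - if j = k then 0 else Pi.single (lv.cls (j - 1) s) 1 : V → ℝ) := by
    intro n hn
    induction n, hn using Nat.le_induction with
    | base => intro _; simp [hyp_sum_single]
    | succ n hn ih =>
      intro h
      rw [sum_Icc_succ_top (by omega), ← ih (by omega)]
      simp only [if_neg (show n + 1 ≠ k by omega), Nat.add_sub_cancel, smul_sub, sum_sub_distrib]
      rw [hyp_sum_single, hypX_push hlv x (by omega)]
      abel
  rw [sum_product, ← key _ hk le_rfl]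
  funext t
  simp [hypX, hlv.top, sum_filter]

/-- The bound on one level. -/
theorem hyp_level {lv : Lv V} (hlv : lv.OK) {E : V → V → ℝ} {e : ℕ → V → ℝ} {δ : ℕ → ℝ}
    (hs : ∀ a b, E a b = E b a) (hu : ∀ a b c, E a b ≤ max (E a c) (E b c))
    (e1 : ∀ k ≤ lv.L, ∀ a b, lv.cls k a = lv.cls k b → E a b ≤ e k (lv.cls k a))
    (e2 : ∀ k ≤ lv.L, ∀ c, e k (lv.cls k c) - E c c ≤ δ k * e k (lv.cls k c))
    (e3 : ∀ k < lv.L, ∀ a b, lv.cls k a = lv.cls k b → 2 * E a b - E a a - E b b ≤ 4 * δ k * E a a)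
    (hδ : ∀ k ≤ lv.L, 0 ≤ δ k) (e0 : ∀ k s, 0 ≤ e k s) (x : V → ℝ) {k : ℕ} (hk : k ≤ lv.L) :
    ∑ s, e k s * hypX lv x k s ^ 2 - (Fintype.card V * (lv.L + 1) : ℝ) *
        (δ k * ∑ s, e k s * hypX lv x k s ^ 2 +
          ∑ j ∈ range lv.L, 4 * δ j * ∑ s, e (j + 1) s * hypX lv x (j + 1) s ^ 2)
      ≤ ∑ a, ∑ b, x a * x b * (if lv.cls k a = lv.cls k b then E a b else 0) := by
  set B : V → V → ℝ := fun a b => if lv.cls k a = lv.cls k b then e k (lv.cls k a) - E a b else 0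
    with hB
  have hB0 : ∀ a b, 0 ≤ B a b := fun a b => by
    simp only [hB]
    split_ifs with h
    · linarith [e1 k hk a b h]
    · exact le_rfl
  have hpsd := ultra_psd B (fun a b => by
      simp only [hB]
      by_cases h : lv.cls k a = lv.cls k b
      · rw [if_pos h, if_pos h.symm, h, hs]
      · rw [if_neg h, if_neg (Ne.symm h)]) hB0 (fun a b c => by
      by_cases hac : lv.cls k a = lv.cls k c
      · by_cases hbc : lv.cls k b = lv.cls k c
        · simp only [hB, if_pos hac, if_pos hbc, if_pos (hac.trans hbc.symm)]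
          rw [hac, hbc, min_sub_sub_left]
          linarith [hu a b c]
        · refine (min_le_right _ _).trans (le_trans ?_ (hB0 a b))
          simp only [hB, if_neg hbc, le_refl]
      · refine (min_le_left _ _).trans (le_trans ?_ (hB0 a b))
        simp only [hB, if_neg hac, le_refl])
  set Bf : LinearMap.BilinForm ℝ (V → ℝ) := Matrix.toBilin' (Matrix.of B) with hBf
  have hBa : ∀ z w, Bf z w = ∑ a, ∑ b, z a * w b * B a b := fun z w => by
    rw [hBf, Matrix.toBilin'_apply]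
    exact sum_congr rfl fun a _ => sum_congr rfl fun b _ => by rw [Matrix.of_apply]; ring
  have hB1 : ∀ a b, Bf (Pi.single a 1) (Pi.single b 1) = B a b := fun a b => by
    rw [hBf, Matrix.toBilin'_single, Matrix.of_apply]
  have h1 := hyp_cs Bf (fun v => by rw [hBa]; exact hpsd v) (Icc k lv.L ×ˢ (univ : Finset V))
    fun p => hypX lv x p.1 p.2 •
      (Pi.single p.2 1 - if p.1 = k then 0 else Pi.single (lv.cls (p.1 - 1) p.2) 1 : V → ℝ)
  rw [← hyp_decomp hlv x hk] at h1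
  have hA : ∀ j, 0 ≤ ∑ s, e j s * hypX lv x j s ^ 2 := fun j =>
    sum_nonneg fun s _ => mul_nonneg (e0 j s) (sq_nonneg _)
  have h2 : ∑ p ∈ Icc k lv.L ×ˢ (univ : Finset V), Bf (hypX lv x p.1 p.2 •
      (Pi.single p.2 1 - if p.1 = k then 0 else Pi.single (lv.cls (p.1 - 1) p.2) 1 : V → ℝ))
      (hypX lv x p.1 p.2 •
      (Pi.single p.2 1 - if p.1 = k then 0 else Pi.single (lv.cls (p.1 - 1) p.2) 1 : V → ℝ))
      ≤ δ k * ∑ s, e k s * hypX lv x k s ^ 2 +
          ∑ j ∈ range lv.L, 4 * δ j * ∑ s, e (j + 1) s * hypX lv x (j + 1) s ^ 2 := by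
    rw [sum_product, ← insert_Icc_add_one_left_eq_Icc hk, sum_insert (by simp)]
    refine add_le_add ?_ ?_
    · rw [mul_sum]
      refine sum_le_sum fun s _ => ?_
      simp only [if_true, sub_zero, map_smul, LinearMap.smul_apply, smul_eq_mul, hB1]
      rcases eq_or_ne (hypX lv x k s) 0 with h0 | h0
      · simp [h0]
      · have h3 := e2 k hk s
        simp only [hB, if_true]
        rw [hypX_rep hlv hk h0] at h3 ⊢
        nlinarith [mul_le_mul_of_nonneg_left h3 (sq_nonneg (hypX lv x k s))]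
    · have h3 : Icc (k + 1) lv.L = (Ico k lv.L).map (addRightEmbedding 1) := by
        rw [map_add_right_Ico, Ico_add_one_right_eq_Icc]
      rw [h3, sum_map]
      refine le_trans (sum_le_sum fun j hj => ?_) (sum_le_sum_of_subset_of_nonneg
        (fun j hj => mem_range.2 (mem_Ico.1 hj).2) fun j hj _ =>
          mul_nonneg (mul_nonneg (by norm_num) (hδ j (mem_range.1 hj).le)) (hA _))
      obtain ⟨hj1, hj2⟩ := mem_Ico.1 hj
      rw [mul_sum]
      refine sum_le_sum fun s _ => ?_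
      simp only [addRightEmbedding_apply, if_neg (show j + 1 ≠ k by omega), Nat.add_sub_cancel,
        map_smul, map_sub, LinearMap.smul_apply, LinearMap.sub_apply, smul_eq_mul, hB1]
      rcases eq_or_ne (hypX lv x (j + 1) s) 0 with h0 | h0
      · simp [h0]
      · have h4 : lv.cls j s = lv.cls j (lv.cls j s) := (hlv.idem j hj2.le s).symm
        have h5 : lv.cls k s = lv.cls k (lv.cls j s) := hlv.mono hj1 hj2.le h4
        have h6 := e3 j hj2 _ _ h4
        have h7 := e1 (j + 1) hj2 s s rfl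
        rw [hypX_rep hlv hj2 h0] at h7
        have h8 : 2 * E s (lv.cls j s) - E s s - E (lv.cls j s) (lv.cls j s)
            ≤ 4 * δ j * e (j + 1) s :=
          h6.trans (mul_le_mul_of_nonneg_left h7 (mul_nonneg (by norm_num) (hδ j hj2.le)))
        simp only [hB, if_true, if_pos h5, if_pos h5.symm]
        rw [← h5, hs (lv.cls j s) s]
        nlinarith [mul_le_mul_of_nonneg_left h8 (sq_nonneg (hypX lv x (j + 1) s))]
  have h3 : ((Icc k lv.L ×ˢ (univ : Finset V)).card : ℝ) ≤ Fintype.card V * (lv.L + 1) := by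
    rw [card_product, card_univ, Nat.card_Icc, mul_comm]
    exact_mod_cast Nat.mul_le_mul_left _ (Nat.sub_le _ _)
  have h4 : 0 ≤ δ k * ∑ s, e k s * hypX lv x k s ^ 2 +
      ∑ j ∈ range lv.L, 4 * δ j * ∑ s, e (j + 1) s * hypX lv x (j + 1) s ^ 2 :=
    add_nonneg (mul_nonneg (hδ k hk) (hA k)) (sum_nonneg fun j hj =>
      mul_nonneg (mul_nonneg (by norm_num) (hδ j (mem_range.1 hj).le)) (hA _))
  have h5 := h1.trans ((mul_le_mul_of_nonneg_left h2 (Nat.cast_nonneg _)).trans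
    (mul_le_mul_of_nonneg_right h3 h4))
  have h6 : Bf x x = ∑ s, e k s * hypX lv x k s ^ 2
      - ∑ a, ∑ b, x a * x b * (if lv.cls k a = lv.cls k b then E a b else 0) := by
    unfold hypX
    rw [hBa, ← hyp_sq_class, ← sum_sub_distrib]
    refine sum_congr rfl fun a _ => ?_
    rw [← sum_sub_distrib]
    refine sum_congr rfl fun b _ => ?_
    simp only [hB]
    split_ifs <;> ring
  linarith

theorem hyp_exists_e (lv : Lv V) {E : V → V → ℝ} (h0 : ∀ a b, 0 ≤ E a b) : ∃ e : ℕ → V → ℝ,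
    (∀ k s, 0 ≤ e k s) ∧ (∀ k a b, lv.cls k a = lv.cls k b → E a b ≤ e k (lv.cls k a)) ∧
    ∀ k c, ∃ a b, lv.cls k a = lv.cls k c ∧ lv.cls k b = lv.cls k c ∧ e k (lv.cls k c) = E a b := by
  have key : ∀ k s, ∃ t : ℝ, 0 ≤ t ∧ (∀ a b, lv.cls k a = s → lv.cls k b = s → E a b ≤ t) ∧
      ∀ c, lv.cls k c = s → ∃ a b, lv.cls k a = s ∧ lv.cls k b = s ∧ t = E a b := by
    intro k s
    by_cases h : ∃ c, lv.cls k c = s
    · obtain ⟨c, hc⟩ := h
      obtain ⟨p, hp, hmax⟩ := exists_max_image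
        (univ.filter fun p : V × V => lv.cls k p.1 = s ∧ lv.cls k p.2 = s) (fun p => E p.1 p.2)
        ⟨(c, c), mem_filter.2 ⟨mem_univ _, hc, hc⟩⟩
      exact ⟨E p.1 p.2, h0 _ _, fun a b ha hb => hmax (a, b) (mem_filter.2 ⟨mem_univ _, ha, hb⟩),
        fun _ _ => ⟨p.1, p.2, (mem_filter.1 hp).2.1, (mem_filter.1 hp).2.2, rfl⟩⟩
    · exact ⟨0, le_rfl, fun a _ ha _ => absurd ⟨a, ha⟩ h, fun c hc => absurd ⟨c, hc⟩ h⟩
  choose e h1 h2 h3 using key
  exact ⟨e, h1, fun k a b h => h2 k _ a b rfl h.symm, fun k c => h3 k _ c rfl⟩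

theorem hyp_exp_ge {s t δ : ℝ} (h : s ≤ t + δ) : (1 - δ) * Real.exp (-t) ≤ Real.exp (-s) := by
  have h1 : 1 - δ ≤ Real.exp (-δ) := by linarith [Real.add_one_le_exp (-δ)]
  calc (1 - δ) * Real.exp (-t) ≤ Real.exp (-δ) * Real.exp (-t) := by gcongr
    _ = Real.exp (-(t + δ)) := by rw [← Real.exp_add]; ring_nf
    _ ≤ Real.exp (-s) := Real.exp_le_exp.2 (by linarith)

theorem hyp_core {lv : Lv V} (hlv : lv.OK) {d : V → V → ℝ} {r : V} {μ δ : ℕ → ℝ}
    (hs : ∀ a b, d a b = d b a) (h0 : ∀ a b, 0 ≤ d a b) (hr : d r r = 0)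
    (hu : ∀ a b c, min (d a c) (d b c) ≤ d a b)
    (h2 : ∀ k ≤ lv.L, ∀ a b, lv.cls k a = lv.cls k b → d a a + d b b ≤ 2 * d a b + δ k)
    (hδ0 : ∀ k ≤ lv.L, 0 ≤ δ k)
    (hδ1 : ∀ k ≤ lv.L, (Fintype.card V * (lv.L + 1) : ℝ) * δ k ≤ 1 / 4)
    (hμ : ∀ k ≤ lv.L, 0 ≤ μ k)
    (hδ2 : ∀ k < lv.L, 16 * (∑ j ∈ range (lv.L + 1), μ j) * (Fintype.card V * (lv.L + 1) : ℝ) * δ k
      ≤ μ (k + 1)) (x : V → ℝ) :
    ∑ a, ∑ b, x a * x b * (Real.exp (-d a b) *
        (1 - ∑ k ∈ range (lv.L + 1), μ k * if lv.cls k a = lv.cls k b then 1 else 0))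
      ≤ (∑ a, x a) ^ 2 - (∑ k ∈ range (lv.L + 1), μ k * hypX lv x k (lv.cls k r) ^ 2) / 2 := by
  set E : V → V → ℝ := fun a b => Real.exp (-d a b) with hE
  set Nt : ℝ := Fintype.card V * (lv.L + 1) with hNt
  have hNt1 : 1 ≤ Nt := by
    have h1 : (1 : ℝ) ≤ Fintype.card V := by
      exact_mod_cast Fintype.card_pos_iff.2 ⟨r⟩
    have h2 : (0 : ℝ) ≤ lv.L := Nat.cast_nonneg _
    nlinarith
  have hE0 : ∀ a b, 0 ≤ E a b := fun a b => (Real.exp_pos _).le
  have hEs : ∀ a b, E a b = E b a := fun a b => by simp only [hE, hs a b]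
  have hEu : ∀ a b c, E a b ≤ max (E a c) (E b c) := fun a b c => by
    rcases min_le_iff.1 (hu a b c) with h | h
    · exact le_max_of_le_left (Real.exp_le_exp.2 (by linarith))
    · exact le_max_of_le_right (Real.exp_le_exp.2 (by linarith))
  have hd1 : ∀ a b, d a b ≤ d a a := fun a b => by simpa using hu a a b
  have hd2 : ∀ k ≤ lv.L, ∀ a b, lv.cls k a = lv.cls k b → d a a ≤ d a b + δ k := fun k hk a b h => by
    linarith [h2 k hk a b h, hd1 b a, hs a b]
  obtain ⟨e, e0, e1, e2⟩ := hyp_exists_e lv hE0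
  have hlev := fun k (hk : k ≤ lv.L) => hyp_level hlv (e := e) (δ := δ) hEs hEu
    (fun k _ => e1 k) (fun k hk c => by
      obtain ⟨a, b, ha, hb, h⟩ := e2 k c
      have h3 : d c c ≤ d a b + δ k := by
        rcases min_le_iff.1 (hu a b c) with h | h
        · linarith [hd2 k hk c a ha.symm, hs a c]
        · linarith [hd2 k hk c b hb.symm, hs b c]
      have := hyp_exp_ge h3
      rw [h]
      simp only [hE]
      linarith) (fun k hk a b h => by
      have h3 := hyp_exp_ge (hd2 k hk.le a b h)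
      have h4 := hyp_exp_ge (hd2 k hk.le b a h.symm)
      rw [hs b a] at h4
      have h5 : δ k ≤ 1 / 4 := by nlinarith [hδ1 k hk.le, hδ0 k hk.le]
      have h6 := hδ0 k hk.le
      have h7 := Real.exp_pos (-d a b)
      have h8 : Real.exp (-d a b) ≤ 2 * Real.exp (-d a a) := by nlinarith
      simp only [hE]
      nlinarith) hδ0 e0 x hk
  set A : ℕ → ℝ := fun k => ∑ s, e k s * hypX lv x k s ^ 2 with hA
  have hA0 : ∀ k, 0 ≤ A k := fun k => sum_nonneg fun s _ => mul_nonneg (e0 k s) (sq_nonneg _)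
  have hA1 : ∀ k, hypX lv x k (lv.cls k r) ^ 2 ≤ A k := fun k => by
    refine le_trans ?_ (single_le_sum (f := fun s => e k s * hypX lv x k s ^ 2)
      (fun s _ => mul_nonneg (e0 k s) (sq_nonneg _)) (mem_univ (lv.cls k r)))
    have := e1 k r r rfl
    simp only [hE, hr, neg_zero, Real.exp_zero] at this
    nlinarith [sq_nonneg (hypX lv x k (lv.cls k r))]
  have h3 : ∑ a, ∑ b, x a * x b * E a b ≤ (∑ a, x a) ^ 2 := by
    have := ultra_psd (fun a b => 1 - E a b) (fun a b => by simp only [hEs a b])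
      (fun a b => sub_nonneg.2 (Real.exp_le_one_iff.2 (by linarith [h0 a b])))
      (fun a b c => by rw [min_sub_sub_left]; linarith [hEu a b c]) x
    simp only [mul_sub, mul_one, sum_sub_distrib] at this
    rw [sq, sum_mul_sum]
    linarith
  have h4 : ∑ a, ∑ b, x a * x b * (Real.exp (-d a b) *
        (1 - ∑ k ∈ range (lv.L + 1), μ k * if lv.cls k a = lv.cls k b then 1 else 0))
      = ∑ a, ∑ b, x a * x b * E a b - ∑ k ∈ range (lv.L + 1), μ k *
        ∑ a, ∑ b, x a * x b * (if lv.cls k a = lv.cls k b then E a b else 0) := by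
    simp only [mul_sum]
    rw [sum_comm (s := range (lv.L + 1)), ← sum_sub_distrib]
    refine sum_congr rfl fun a _ => ?_
    rw [sum_comm (s := range (lv.L + 1)), ← sum_sub_distrib]
    refine sum_congr rfl fun b _ => ?_
    rw [mul_sub, mul_sub, mul_one, mul_sum, mul_sum]
    congr 1
    refine sum_congr rfl fun k _ => ?_
    simp only [hE]
    split_ifs <;> ring
  set Rr : ℝ := ∑ j ∈ range lv.L, 4 * δ j * A (j + 1) with hRr
  have h5 : ∑ k ∈ range (lv.L + 1), μ k * (3 / 4 * A k - Nt * Rr) ≤ ∑ k ∈ range (lv.L + 1), μ k *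
      ∑ a, ∑ b, x a * x b * (if lv.cls k a = lv.cls k b then E a b else 0) := by
    refine sum_le_sum fun k hk => ?_
    have hk' : k ≤ lv.L := Nat.lt_succ_iff.1 (mem_range.1 hk)
    refine mul_le_mul_of_nonneg_left (le_trans ?_ (hlev k hk')) (hμ k hk')
    have := mul_le_mul_of_nonneg_right (hδ1 k hk') (hA0 k)
    change 3 / 4 * A k - Nt * Rr ≤ A k - Nt * (δ k * A k + Rr)
    nlinarith
  have h6 : (∑ j ∈ range (lv.L + 1), μ j) * (Nt * Rr) ≤ (∑ k ∈ range (lv.L + 1), μ k * A k) / 4 := by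
    rw [sum_range_succ' (fun k => μ k * A k), hRr, mul_sum, mul_sum, add_div, sum_div]
    refine le_trans (sum_le_sum fun j hj => ?_) (le_add_of_nonneg_right
      (div_nonneg (mul_nonneg (hμ 0 (Nat.zero_le _)) (hA0 0)) (by norm_num)))
    have := mul_le_mul_of_nonneg_right (hδ2 j (mem_range.1 hj)) (hA0 (j + 1))
    nlinarith
  have h7 : ∑ k ∈ range (lv.L + 1), μ k * hypX lv x k (lv.cls k r) ^ 2
      ≤ ∑ k ∈ range (lv.L + 1), μ k * A k := sum_le_sum fun k hk =>
    mul_le_mul_of_nonneg_left (hA1 k) (hμ k (Nat.lt_succ_iff.1 (mem_range.1 hk)))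
  have h8 : ∑ k ∈ range (lv.L + 1), μ k * (3 / 4 * A k - Nt * Rr)
      = 3 / 4 * ∑ k ∈ range (lv.L + 1), μ k * A k - (∑ j ∈ range (lv.L + 1), μ j) * (Nt * Rr) := by
    rw [mul_sum (range (lv.L + 1)) (fun k => μ k * A k), sum_mul, ← sum_sub_distrib]
    exact sum_congr rfl fun k _ => by ring
  rw [h4]
  linarith

/-- the telescoping weights -/
noncomputable def hypMu (κ : ℕ → ℝ) (k : ℕ) : ℝ :=
  Real.exp (-2 * ∑ j ∈ range k, κ j) * (1 - Real.exp (-2 * κ k))

theorem hyp_exp_nested (κ : ℕ → ℝ) (p : ℕ → Prop) [DecidablePred p] (n : ℕ)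
    (hp : ∀ j k, j ≤ k → k < n → p k → p j) :
    Real.exp (-2 * ∑ k ∈ range n, κ k * if p k then 1 else 0)
      = 1 - ∑ k ∈ range n, hypMu κ k * if p k then 1 else 0 := by
  induction n with
  | zero => simp
  | succ n ih =>
    have ih' := ih fun j k h1 h2 => hp j k h1 (by omega)
    rw [sum_range_succ, sum_range_succ, ← sub_sub, ← ih']
    by_cases h : p n
    · have h1 : (∑ k ∈ range n, κ k * if p k then 1 else 0) = ∑ k ∈ range n, κ k :=
        sum_congr rfl fun k hk => by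
          rw [if_pos (hp k n (mem_range.1 hk).le (by omega) h), mul_one]
      rw [h1, if_pos h, mul_one, mul_one, mul_add, Real.exp_add, hypMu]
      ring
    · simp [h]

theorem hypMu_bd {κ : ℕ → ℝ} {L : ℕ} (hκ : ∀ k ≤ L, 0 < κ k) (hsum : ∑ k ∈ range (L + 1), κ k ≤ 1 / 16)
    {k : ℕ} (hk : k ≤ L) : κ k ≤ hypMu κ k ∧ hypMu κ k ≤ 2 * κ k := by
  have h1 : ∑ j ∈ range (k + 1), κ j ≤ ∑ j ∈ range (L + 1), κ j :=
    sum_le_sum_of_subset_of_nonneg (range_subset_range.2 (by omega)) fun j hj _ =>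
      (hκ j (Nat.lt_succ_iff.1 (mem_range.1 hj))).le
  rw [sum_range_succ] at h1
  have h2 : 0 ≤ ∑ j ∈ range k, κ j := sum_nonneg fun j hj =>
    (hκ j (by have := mem_range.1 hj; omega)).le
  have h3 := hκ k hk
  have h4 : Real.exp (-2 * ∑ j ∈ range k, κ j) ≤ 1 := Real.exp_le_one_iff.2 (by linarith)
  have h5 : 7 / 8 ≤ Real.exp (-2 * ∑ j ∈ range k, κ j) := by
    linarith [Real.add_one_le_exp (-2 * ∑ j ∈ range k, κ j)]
  have h6 : 1 - Real.exp (-2 * κ k) ≤ 2 * κ k := by linarith [Real.add_one_le_exp (-2 * κ k)]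
  have h7 : Real.exp (-2 * κ k) * (2 * κ k + 1) ≤ 1 := by
    calc Real.exp (-2 * κ k) * (2 * κ k + 1) ≤ Real.exp (-2 * κ k) * Real.exp (2 * κ k) :=
          mul_le_mul_of_nonneg_left (Real.add_one_le_exp _) (Real.exp_pos _).le
      _ = 1 := by rw [← Real.exp_add]; simp
  have h8 : 7 / 8 ≤ Real.exp (-2 * κ k) := by linarith [Real.add_one_le_exp (-2 * κ k)]
  have h9 : 7 / 4 * κ k ≤ 1 - Real.exp (-2 * κ k) := by nlinarith
  unfold hypMu
  constructor <;> nlinarith

theorem hyp_cs_sq (lv : Lv V) (k : ℕ) (w : V → ℤ) (a b : V) :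
    ∑ s, (lv.cs k (w + ev a + ev b) s : ℝ) ^ 2 = ∑ s, (lv.cs k w s : ℝ) ^ 2 +
      (1 + 2 * lv.cs k w (lv.cls k a)) + (1 + 2 * lv.cs k w (lv.cls k b)) +
      2 * if lv.cls k a = lv.cls k b then 1 else 0 := by
  have h1 : ∀ s, (lv.cs k (w + ev a + ev b) s : ℝ) = lv.cs k w s +
      (if lv.cls k a = s then 1 else 0) + if lv.cls k b = s then 1 else 0 := fun s => by
    have := fun c => sm_ev c (univ.filter fun a => lv.cls k a = s)
    simp only [sm, mem_filter, mem_univ, true_and] at this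
    simp only [Lv.cs, Pi.add_apply, sum_add_distrib, this]
    push_cast
    rfl
  have h2 : ∀ s, (lv.cs k (w + ev a + ev b) s : ℝ) ^ 2 = (lv.cs k w s : ℝ) ^ 2 +
      (if lv.cls k a = s then 1 + 2 * (lv.cs k w s : ℝ) else 0) +
      (if lv.cls k b = s then 1 + 2 * (lv.cs k w s : ℝ) else 0) +
      (if lv.cls k b = s then 2 * if lv.cls k a = s then 1 else 0 else 0) := fun s => by
    rw [h1]
    split_ifs <;> ring
  simp only [h2, sum_add_distrib, sum_ite_eq, mem_univ, if_true]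

/-- The base weight. -/
noncomputable def F0 (ν : (V → ℤ) → ℝ) (lv : Lv V) (κ : ℕ → ℝ) (c y : V → ℤ) : ℝ :=
  Real.exp (-ν y - ∑ k ∈ range (lv.L + 1), ∑ r, κ k * (lv.cs k (y - c) r : ℝ) ^ 2)

theorem base_F0 {ν : (V → ℤ) → ℝ} {lv : Lv V} (hlv : lv.OK) {κ δ : ℕ → ℝ} (c : V → ℤ)
    (h4 : ∀ α, sm α univ = -2 → ∀ a b c d : V,
      min (ν (α + ev a + ev c) + ν (α + ev b + ev d)) (ν (α + ev a + ev d) + ν (α + ev b + ev c)) ≤
        ν (α + ev a + ev b) + ν (α + ev c + ev d))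
    (h2 : ∀ α, sm α univ = -2 → ∀ k < lv.L, ∀ a b, lv.cls k a = lv.cls k b →
      ν (α + ev a + ev a) + ν (α + ev b + ev b) ≤ 2 * ν (α + ev a + ev b) + δ k)
    (hκ : ∀ k ≤ lv.L, 0 < κ k) (hsum : ∑ k ∈ range (lv.L + 1), κ k ≤ 1 / 16)
    (hδ0 : ∀ k < lv.L, 0 ≤ δ k)
    (hδ1 : ∀ k < lv.L, (Fintype.card V * (lv.L + 1) : ℝ) * δ k ≤ 1 / 4)
    (hδ2 : ∀ k < lv.L, 32 * (∑ j ∈ range (lv.L + 1), κ j) * (Fintype.card V * (lv.L + 1) : ℝ) * δ k ≤
      κ (k + 1)) {κ' : ℝ} (hκ' : κ' ≤ κ 0 / 16) :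
    Base (F0 ν lv κ c) (lv.cls 0) κ' := by
  refine ⟨fun y => Real.exp_pos _, fun α hα r y hy => ?_⟩
  set u : V → V → ℝ := fun a b => ν (α + ev a + ev b) with hu
  have hus : ∀ a b, u a b = u b a := fun a b => by simp only [hu, add_right_comm α (ev a)]
  have h4' : ∀ a b c d, min (u a c + u b d) (u a d + u b c) ≤ u a b + u c d := h4 α hα
  set d : V → V → ℝ := fun a b => u a b + u r r - u a r - u b r with hd
  set μ := hypMu κ with hμ
  set g : V → ℝ := fun a => ∑ k ∈ range (lv.L + 1),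
    κ k * (1 + 2 * (lv.cs k (α - c) (lv.cls k a) : ℝ)) with hg
  set G : ℝ := ∑ k ∈ range (lv.L + 1), κ k * ∑ s, (lv.cs k (α - c) s : ℝ) ^ 2 with hG
  set φ : V → ℝ := fun a => Real.exp (u r r / 2 - u a r - G / 2 - g a) with hφ
  set E' : V → V → ℝ := fun a b =>
    1 - ∑ k ∈ range (lv.L + 1), μ k * if lv.cls k a = lv.cls k b then 1 else 0 with hE'
  have hF : ∀ a b, F0 ν lv κ c (α + ev a + ev b) = φ a * φ b * (Real.exp (-d a b) * E' a b) := by
    intro a b
    simp only [hE', hμ]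
    rw [← hyp_exp_nested κ (fun k => lv.cls k a = lv.cls k b) _
      fun j k h1 h2 h => hlv.mono h1 (by omega) h]
    simp only [hφ, F0, ← Real.exp_add]
    congr 1
    have h1 : ∑ k ∈ range (lv.L + 1), ∑ s, κ k * (lv.cs k (α + ev a + ev b - c) s : ℝ) ^ 2
        = G + g a + g b
          + 2 * ∑ k ∈ range (lv.L + 1), κ k * if lv.cls k a = lv.cls k b then 1 else 0 := by
      simp only [hG, hg]
      rw [mul_sum, ← sum_add_distrib, ← sum_add_distrib, ← sum_add_distrib]
      refine sum_congr rfl fun k _ => ?_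
      rw [← mul_sum, show α + ev a + ev b - c = α - c + ev a + ev b by abel, hyp_cs_sq]
      ring
    rw [h1]
    simp only [hd, hu]
    ring
  have hφ0 : ∀ a, 0 < φ a := fun a => Real.exp_pos _
  have hμb := fun k (hk : k ≤ lv.L) => hypMu_bd hκ hsum hk
  have hμ0 : ∀ k ≤ lv.L, 0 ≤ μ k := fun k hk => (hκ k hk).le.trans (hμb k hk).1
  have hμs : ∑ k ∈ range (lv.L + 1), μ k ≤ 2 * ∑ k ∈ range (lv.L + 1), κ k := by
    rw [mul_sum]
    exact sum_le_sum fun k hk => (hμb k (Nat.lt_succ_iff.1 (mem_range.1 hk))).2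
  set x : V → ℝ := fun a => y a * φ a with hx
  have hdr : ∀ a, d r a = 0 := fun a => by simp only [hd, hus r a]; ring
  have hcore := hyp_core hlv (d := d) (r := r) (μ := μ) (δ := fun k => if k < lv.L then δ k else 0)
    (fun a b => by simp only [hd, hus a b]; ring)
    (fun a b => by
      have := h4' a b r r
      rw [min_self] at this
      simp only [hd]; linarith) (hdr r)
    (fun a b c => by
      have := h4' a b c r
      simp only [hd]
      rcases min_le_iff.1 this with h | h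
      · exact min_le_of_left_le (by linarith)
      · exact min_le_of_right_le (by linarith))
    (fun k hk a b h => by
      split_ifs with hk'
      · have := h2 α hα k hk' a b h
        simp only [hd, hu]; linarith
      · obtain rfl : k = lv.L := by omega
        rw [hlv.top, hlv.top] at h
        rw [h]; linarith)
    (fun k _ => by
      split_ifs with hk'
      · exact hδ0 k hk'
      · exact le_rfl)
    (fun k _ => by
      split_ifs with hk'
      · exact hδ1 k hk'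
      · norm_num) hμ0
    (fun k hk => by
      rw [if_pos hk]
      refine le_trans ?_ ((hδ2 k hk).trans (hμb (k + 1) hk).1)
      have : 0 ≤ (Fintype.card V * (lv.L + 1) : ℝ) * δ k :=
        mul_nonneg (by positivity) (hδ0 k hk)
      nlinarith) x
  have hQ : Qf (F0 ν lv κ c) α y y = ∑ a, ∑ b, x a * x b * (Real.exp (-d a b) * E' a b) :=
    sum_congr rfl fun a _ => sum_congr rfl fun b _ => by rw [hF]; simp only [hx]; ring
  have hterm : ∀ a, y a * F0 ν lv κ c (α + ev r + ev a) = φ r * (x a -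
      ∑ k ∈ range (lv.L + 1), μ k * if lv.cls k a = lv.cls k r then x a else 0) := fun a => by
    rw [hF, hdr, neg_zero, Real.exp_zero, one_mul]
    have : (∑ k ∈ range (lv.L + 1), μ k * if lv.cls k a = lv.cls k r then x a else 0)
        = x a * ∑ k ∈ range (lv.L + 1), μ k * if lv.cls k r = lv.cls k a then 1 else 0 := by
      rw [mul_sum]
      refine sum_congr rfl fun k _ => ?_
      by_cases h : lv.cls k a = lv.cls k r
      · rw [if_pos h, if_pos h.symm]; ring
      · rw [if_neg h, if_neg (Ne.symm h)]; ring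
    rw [this]
    simp only [hE', hx]
    ring
  set T : ℝ := ∑ k ∈ range (lv.L + 1), μ k * hypX lv x k (lv.cls k r) with hT
  have hsumT : ∀ s : Finset V, (∀ a, lv.cls 0 a = lv.cls 0 r → a ∈ s) →
      ∑ a ∈ s, y a * F0 ν lv κ c (α + ev r + ev a) = φ r * (∑ a ∈ s, x a - T) := fun s hs => by
    simp only [hterm]
    rw [← mul_sum, sum_sub_distrib, sum_comm]
    congr 2
    refine sum_congr rfl fun k hk => ?_
    rw [← mul_sum, hypX, sum_filter]
    congr 1
    refine sum_subset (subset_univ _) fun a _ ha => if_neg fun h => ha (hs a ?_)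
    exact hlv.mono (Nat.zero_le k) (Nat.lt_succ_iff.1 (mem_range.1 hk)) h
  have hbal : ∑ a, x a = T := by
    rw [hsumT univ fun a _ => mem_univ a] at hy
    have := (mul_eq_zero.1 hy).resolve_left (hφ0 r).ne'
    linarith
  set S : ℝ := ∑ k ∈ range (lv.L + 1), μ k * hypX lv x k (lv.cls k r) ^ 2 with hS
  have hS0 : 0 ≤ S := sum_nonneg fun k hk =>
    mul_nonneg (hμ0 k (Nat.lt_succ_iff.1 (mem_range.1 hk))) (sq_nonneg _)
  have hT2 : T ^ 2 ≤ S / 8 := by
    have := sum_sq_le_sum_mul_sum_of_sq_eq_mul (range (lv.L + 1))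
      (r := fun k => μ k * hypX lv x k (lv.cls k r)) (f := μ)
      (g := fun k => μ k * hypX lv x k (lv.cls k r) ^ 2)
      (fun k hk => hμ0 k (Nat.lt_succ_iff.1 (mem_range.1 hk)))
      (fun k hk => mul_nonneg (hμ0 k (Nat.lt_succ_iff.1 (mem_range.1 hk))) (sq_nonneg _))
      (fun k _ => by ring)
    nlinarith
  have hκ0 := hκ 0 (Nat.zero_le _)
  have hκ1 : κ 0 ≤ 1 / 16 := (single_le_sum (f := κ)
    (fun k hk => (hκ k (Nat.lt_succ_iff.1 (mem_range.1 hk))).le) (mem_range.2 (by omega))).trans hsum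
  have hX0 : κ 0 * hypX lv x 0 (lv.cls 0 r) ^ 2 ≤ S :=
    (mul_le_mul_of_nonneg_right (hμb 0 (Nat.zero_le _)).1 (sq_nonneg _)).trans
      (single_le_sum (f := fun k => μ k * hypX lv x k (lv.cls k r) ^ 2) (fun k hk =>
        mul_nonneg (hμ0 k (Nat.lt_succ_iff.1 (mem_range.1 hk))) (sq_nonneg _))
        (mem_range.2 (by omega)))
  have hE'r : 7 / 8 ≤ E' r r := by
    simp only [hE', if_true, mul_one]
    linarith
  rw [hsumT _ fun a ha => mem_filter.2 ⟨mem_univ _, ha⟩, hQ, hF, hdr, neg_zero, Real.exp_zero,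
    one_mul]
  rw [hbal] at hcore
  change κ' * (φ r * (hypX lv x 0 (lv.cls 0 r) - T)) ^ 2 / _ ≤ _
  have h5 : κ 0 * (hypX lv x 0 (lv.cls 0 r) - T) ^ 2 ≤ 3 * S := by
    have h6 : (hypX lv x 0 (lv.cls 0 r) - T) ^ 2 ≤ 2 * hypX lv x 0 (lv.cls 0 r) ^ 2 + 2 * T ^ 2 := by
      nlinarith [sq_nonneg (hypX lv x 0 (lv.cls 0 r) + T)]
    have h7 : κ 0 * T ^ 2 ≤ 1 / 16 * (S / 8) := mul_le_mul hκ1 hT2 (sq_nonneg _) (by norm_num)
    nlinarith
  have h6 : κ' * (φ r * (hypX lv x 0 (lv.cls 0 r) - T)) ^ 2 / (φ r * φ r * E' r r) ≤ 3 / 8 * S := by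
    have hφ2 : 0 < φ r * φ r := mul_pos (hφ0 r) (hφ0 r)
    rw [div_le_iff₀ (mul_pos hφ2 (by linarith))]
    calc κ' * (φ r * (hypX lv x 0 (lv.cls 0 r) - T)) ^ 2
        ≤ κ 0 / 16 * (φ r * (hypX lv x 0 (lv.cls 0 r) - T)) ^ 2 := by gcongr
      _ = φ r * φ r * (κ 0 * (hypX lv x 0 (lv.cls 0 r) - T) ^ 2) / 16 := by ring
      _ ≤ φ r * φ r * (3 * S) / 16 := by gcongr
      _ ≤ 3 / 8 * S * (φ r * φ r * (7 / 8)) := by nlinarith [mul_nonneg hφ2.le hS0]
      _ ≤ 3 / 8 * S * (φ r * φ r * E' r r) := by gcongr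
  refine h6.trans ?_
  change ∑ a, ∑ b, x a * x b * (Real.exp (-d a b) * E' a b) ≤ T ^ 2 - S / 2 at hcore
  linarith

end Crest.Agent.R302
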