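import Crest.Agent.R309.Prob

/-!
# Row 302: vocabulary of the analysis (complete)

`ρ` is an integer submodular function on a finite set `V` with `ρ ∅ = ρ univ = 0`; `InB ρ y` says that `y` is an
integer point of its base polytope.  `π : V → E` identifies the two copies of a ground element; the objects to
be counted are the `y` with `InB ρ y` and `push π y = 0`.  `Lv` is a tower of partitions given by representatives.
-/

set_option autoImplicit false

namespace Crest.Agent.R302

open Finset Crest.Agent.R309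

/-- The subset of `Fin N` written by a list of bits. -/
def toS (N : ℕ) (l : List Bool) : Finset (Fin N) := univ.filter fun i => l.getD i false = true

/-- The vector written by a list. -/
def vecL (N : ℕ) (l : List ℤ) (i : Fin N) : ℤ := l.getD i 0

section

variable {V E : Type} [Fintype V] [DecidableEq V] [Fintype E] [DecidableEq E]

/-- `y (S)`. -/
def sm (y : V → ℤ) (S : Finset V) : ℤ := ∑ a ∈ S, y a

def Submod (F : Finset V → ℤ) : Prop := ∀ A B, F (A ∪ B) + F (A ∩ B) ≤ F A + F B

/-- Normalised submodular functions. -/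
structure Nrm (ρ : Finset V → ℤ) : Prop where
  sub : Submod ρ
  empty : ρ ∅ = 0
  univ : ρ univ = 0

/-- Integer points of the base polytope. -/
def InB (ρ : Finset V → ℤ) (y : V → ℤ) : Prop := (∀ S, sm y S ≤ ρ S) ∧ sm y univ = 0

/-- Push forward along `π`. -/
def push (π : V → E) (y : V → ℤ) (e : E) : ℤ := ∑ a with π a = e, y a

/-- The points to be counted. -/
def InK (ρ : Finset V → ℤ) (π : V → E) (y : V → ℤ) : Prop := InB ρ y ∧ ∀ e, push π y e = 0

/-- At `y`, at least `γ` units can be moved from `a` to `b`. -/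
def Cap (ρ : Finset V → ℤ) (y : V → ℤ) (a b : V) (γ : ℤ) : Prop :=
  ∀ S, a ∉ S → b ∈ S → γ ≤ ρ S - sm y S

/-- A tower of partitions: `cls k a` is the representative of the class of `a` on level `k`. -/
structure Lv (V : Type) where
  L : ℕ
  cls : ℕ → V → V

structure Lv.OK (lv : Lv V) : Prop where
  top : ∀ a, lv.cls lv.L a = a
  idem : ∀ k ≤ lv.L, ∀ a, lv.cls k (lv.cls k a) = lv.cls k a
  ref : ∀ k < lv.L, ∀ a b, lv.cls (k + 1) a = lv.cls (k + 1) b → lv.cls k a = lv.cls k b

/-- Sum of `y` over the class with representative `r` on level `k`. -/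
def Lv.cs (lv : Lv V) (k : ℕ) (y : V → ℤ) (r : V) : ℤ := ∑ a with lv.cls k a = r, y a

/-- A deep, almost feasible point and the classes it defines. -/
structure Centre (ρ : Finset V → ℤ) (π : V → E) (lv : Lv V) (z : ℤ) (y : V → ℤ) : Prop where
  ok : lv.OK
  inB : InB ρ y
  near : ∑ e, |push π y e| ≤ z ^ 4
  deep : ∀ k < lv.L, ∀ a b, lv.cls k a = lv.cls k b → Cap ρ y a b (z ^ (75 + 5 * k))
  range : ∀ x, InK ρ π x → ∀ k ≤ lv.L, ∀ r, |lv.cs k (x - y) r| ≤ z ^ (85 + 5 * k)

omit [Fintype V] [DecidableEq V] in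
theorem sm_add (x y : V → ℤ) (S : Finset V) : sm (x + y) S = sm x S + sm y S := by
  simp [sm, sum_add_distrib]

omit [Fintype V] [DecidableEq V] in
theorem sm_sub (x y : V → ℤ) (S : Finset V) : sm (x - y) S = sm x S - sm y S := by
  simp [sm, sum_sub_distrib]

omit [Fintype V] [DecidableEq V] in
theorem sm_neg (x : V → ℤ) (S : Finset V) : sm (-x) S = -sm x S := by
  simp [sm]

omit [Fintype V] [DecidableEq V] in
theorem sm_smul (c : ℤ) (x : V → ℤ) (S : Finset V) : sm (c • x) S = c * sm x S := by
  simp [sm, mul_sum]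

omit [Fintype V] in
theorem sm_ev (a : V) (S : Finset V) : sm (ev a) S = if a ∈ S then 1 else 0 := by
  simp [sm, ev, Pi.single_apply]

omit [Fintype V] in
theorem sm_union_inter (y : V → ℤ) (A B : Finset V) :
    sm y (A ∪ B) + sm y (A ∩ B) = sm y A + sm y B := sum_union_inter

theorem sm_del {M : ℕ} (u v : Fin M → V) (X : Fin M → ℤ) : sm (del u v X) univ = 0 := by
  unfold del
  induction (univ : Finset (Fin M)) using Finset.induction_on with
  | empty => simp [sm]
  | insert e s he ih => rw [sum_insert he, sm_add, ih, sm_smul, sm_sub, sm_ev, sm_ev]; simp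

omit [Fintype V] [DecidableEq V] in
theorem Lv.OK.mono {lv : Lv V} (h : lv.OK) {j k : ℕ} (hjk : j ≤ k) (hk : k ≤ lv.L) {a b : V}
    (hab : lv.cls k a = lv.cls k b) : lv.cls j a = lv.cls j b := by
  induction k, hjk using Nat.le_induction with
  | base => exact hab
  | succ k _ ih => exact ih (by omega) (h.ref k (by omega) a b hab)

omit [Fintype V] [DecidableEq V] in
theorem Lv.OK.cls_cls {lv : Lv V} (h : lv.OK) {j k : ℕ} (hjk : j ≤ k) (hk : k ≤ lv.L) (a : V) :
    lv.cls j (lv.cls k a) = lv.cls j a := h.mono hjk hk (h.idem k hk a)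

end

end Crest.Agent.R302
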