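import Crest.Agent.R302.OTyped
import Crest.Agent.R302.Voc
import Crest.Prelude.Def_Polymatroid

/-!
# Row 302: the rank oracle seen by the estimator, and the specification of the estimator (complete)
-/

set_option autoImplicit false

namespace Crest.Agent.R302

open Finset Crest.Agent.Lib.PolyTime Crest.Agent.R309 Crest.Polymatroid

/-- `(oracle, mode, n)`: in mode `false` the oracle answers ranks, in mode `true` it answers independence. -/
abbrev Ora : Type := Orc × Bool × ℕ

/-- size of the ground set -/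
def Ora.n (o : Ora) : ℕ := o.2.2
/-- bound on the number of digits of the ranks -/
def Ora.s (o : Ora) : ℕ := o.1.s

/-- The greedy independent subset of `l` among the first `n` elements. -/
def greedyI (O : Orc) (b : Bool) (l : List Bool) (n : ℕ) : List Bool :=
  (List.range n).foldl (fun I j => I ++ [l.getD j false && decide (ask O b (I ++ [true]) ≠ 0)]) []

/-- The rank of the set `l` for the rank function number `b`. -/
def rk (o : Ora) (b : Bool) (l : List Bool) : ℤ :=
  bif o.2.1 then (((greedyI o.1 b l o.2.2).filter fun d => d).length : ℤ) else ask o.1 b l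

section OPT

variable {α : Type} [Enc α] [Ok α]

@[fun_prop] theorem opt_n {o : α → Ora} (ho : OPT o) : OPT fun a => (o a).n := by
  unfold Ora.n; fun_prop

@[fun_prop] theorem opt_s {o : α → Ora} (ho : OPT o) : OPT fun a => (o a).s := by
  unfold Ora.s; fun_prop

@[fun_prop] theorem opt_greedyI {O : α → Orc} {b : α → Bool} {l : α → List Bool} {n : α → ℕ}
    (hO : OPT O) (hb : OPT b) (hl : OPT l) (hn : OPT n) :
    OPT fun a => greedyI (O a) (b a) (l a) (n a) :=
  OPT.foldl_growth (f := fun a (I : List Bool) (j : ℕ) =>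
      I ++ [(l a).getD j false && decide (ask (O a) (b a) (I ++ [true]) ≠ 0)])
    (by fun_prop) (by fun_prop) (by fun_prop) (G := fun _ => 3) (PB.const 3) (by simp)

@[fun_prop] theorem opt_rk {o : α → Ora} {b : α → Bool} {l : α → List Bool} (ho : OPT o)
    (hb : OPT b) (hl : OPT l) : OPT fun a => rk (o a) (b a) (l a) := by
  unfold rk; fun_prop

end OPT

/-- The oracle `o` presents the polymatroids `r₁`, `r₂` of total rank `R`. -/
structure Models (o : Ora) {n : ℕ} (R : ℕ) (r₁ r₂ : Finset (Fin n) → ℕ) : Prop where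
  n_eq : o.n = n
  p₁ : IsPolymatroidRank r₁
  p₂ : IsPolymatroidRank r₂
  t₁ : r₁ univ = R
  t₂ : r₂ univ = R
  rk₁ : ∀ l, rk o false l = r₁ (toS n l)
  rk₂ : ∀ l, rk o true l = r₂ (toS n l)
  bd : R < 2 ^ o.s

/-- Specification of the approximate counter `est (o, z, τ)` using at most `z ^ e` random bits. -/
structure EstSpec (est : Ora × ℕ × List Bool → ℤ) (e : ℕ) : Prop where
  opt : OPT est
  nonneg : ∀ x, 0 ≤ est x
  zero : ∀ (o : Ora) (n R : ℕ) (r₁ r₂ : Finset (Fin n) → ℕ) (z : ℕ) (τ : List Bool), Models o R r₁ r₂ →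
    64 + 8 * (n + 1) * (o.s + 2) ≤ z → numCommonIntBases R r₁ r₂ = 0 → est (o, z, τ) = 0
  good : ∀ (o : Ora) (n R : ℕ) (r₁ r₂ : Finset (Fin n) → ℕ) (z L : ℕ), Models o R r₁ r₂ →
    64 + 8 * (n + 1) * (o.s + 2) ≤ z → z ^ e ≤ L →
    Ex L (fun τ => ind ((numCommonIntBases R r₁ r₂ : ℤ) <
      z * |est (o, z, τ) - numCommonIntBases R r₁ r₂|)) ≤ (1 / 2) ^ z

end Crest.Agent.R302
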