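import Crest.Agent.R302.Nu

/-!
# Row 302: list forms and the specifications of the combinatorial routines (complete)
-/

set_option autoImplicit false

namespace Crest.Agent.R302

open Finset Crest.Agent.R309

/-- `f` computes `F` on lists of bits. -/
def Rep (N : ℕ) (f : List Bool → ℤ) (F : Finset (Fin N) → ℤ) : Prop := ∀ l, f l = F (toS N l)

/-- Entry of the table of representatives. -/
def clsN (cls : List (List ℕ)) (k a : ℕ) : ℕ := (cls.getD k []).getD a 0

/-- The tower of partitions written by a table. -/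
def lvL (N L : ℕ) (cls : List (List ℕ)) : Lv (Fin N) :=
  ⟨L, fun k a => if h : clsN cls k a < N then ⟨clsN cls k a, h⟩ else a⟩

/-- The two copies of a ground element. -/
def piN (n : ℕ) : Fin (n + n) → Fin n := Fin.addCases id id

/-- The wall written by lists. -/
def wallL (N : ℕ) (ρ : Finset (Fin N) → ℤ) (L : ℕ) (cls : List (List ℕ)) (ms τs : List ℤ) (P : ℤ) :
    Wall (Fin N) :=
  ⟨ρ, lvL N L cls, fun k => ms.getD k 0, fun k => τs.getD k 0, P⟩

/-- Correctness of submodular function minimisation `sfm f N b`. -/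
def SfmOK (sfm : (List Bool → ℤ) → ℕ → ℕ → List Bool) : Prop :=
  ∀ (f : List Bool → ℤ) (N b : ℕ) (F : Finset (Fin N) → ℤ), Rep N f F → Submod F →
    (∀ S, |F S| ≤ 2 ^ b) → ∀ S, F (toS N (sfm f N b)) ≤ F S

/-- Input of the evaluator of the wall: `(N, L, b, cls, ms, τs, P, y)`. -/
abbrev GIn : Type := ℕ × ℕ × ℕ × List (List ℕ) × List ℤ × List ℤ × ℤ × List ℤ

/-- Correctness of the evaluator of the wall. -/
def EvalOK (evalG : (List Bool → ℤ) → GIn → ℤ) : Prop :=
  ∀ (f : List Bool → ℤ) (N L b : ℕ) (cls : List (List ℕ)) (ms τs : List ℤ) (P : ℤ) (y : List ℤ)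
    (ρ : Finset (Fin N) → ℤ), Rep N f ρ → (wallL N ρ L cls ms τs P).OK →
    (∀ k ≤ L, ∀ a < N, clsN cls k a < N) → (∀ S, |ρ S| ≤ 2 ^ b) → P ≤ 2 ^ b →
    (∀ a, |vecL N y a| ≤ 2 ^ b) → sm (vecL N y) univ = 0 →
    evalG f (N, L, b, cls, ms, τs, P, y) = (wallL N ρ L cls ms τs P).G (vecL N y)

/-- Correctness of the routine `cen f (n, L, z)` computing a centre and its classes. -/
def CenOK (cen : (List Bool → ℤ) → ℕ × ℕ × ℕ → List ℤ × List (List ℕ)) : Prop :=
  ∀ (f : List Bool → ℤ) (n L z : ℕ) (ρ : Finset (Fin (n + n)) → ℤ), Rep (n + n) f ρ → Nrm ρ →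
    (∀ S, |ρ S| ≤ 2 ^ L) → 64 ≤ z → (L + 2) * (n + n + 1) ≤ z → (∃ x, InK ρ (piN n) x) →
    Centre ρ (piN n) (lvL (n + n) L (cen f (n, L, z)).2) z (vecL (n + n) (cen f (n, L, z)).1) ∧
      ∀ k ≤ L, ∀ a < n + n, clsN (cen f (n, L, z)).2 k a < n + n

theorem lvL_val {N L : ℕ} {cls : List (List ℕ)} {k : ℕ} {a : Fin N} (h : clsN cls k a < N) :
    ((lvL N L cls).cls k a : ℕ) = clsN cls k a := by
  simp [lvL, h]

end Crest.Agent.R302
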