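import Crest.Agent.R302.RP
import Crest.Agent.R309.Moves

/-!
# Row 302: the proposal of the chain and the mixing bound

Adapt `R309/Moves.lean` and the end of `R309/Met.lean`.  A seed is `(sign, I, J)`; `i = I % (5 z²)` is read as
`(kind, p, q) = (i / z², i / z % z, i % z)`.  `mixW`: as `mix`, applied only to `P^(2n) h`, `h = μ / π - 1`, `|h| ≤ D`
(`abs_Pop_sub_le` with `g' = 0`).  `chain_mix`: `rp`, the hypothesis `hFP`, `Dall_le`, `mixW` with
`μ (X, a) = if a = w then wt * F * ψ / ∑ … else 0`, `1/2 ≤ ∑ W ≤ 18 N`, `D = 18 * 18 N`.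
-/

set_option autoImplicit false

namespace Crest.Agent.R302

open Finset Crest.Agent.R309

/-- **Mixing from a weak restricted Poincaré inequality.** -/
theorem mixW {α S : Type} [DecidableEq α] [Fintype S] [Nonempty S] {Ω : Finset α} {W : α → ℝ}
    (hW : ∀ x ∈ Ω, 0 < W x) (prop : α → S → α) (flip : S → S) (hflip : Function.Involutive flip)
    (hrev : ∀ x ∈ Ω, ∀ σ, prop x σ ∈ Ω → prop x σ ≠ x → prop (prop x σ) (flip σ) = x)
    (μ : α → ℝ) {C D η : ℝ} (hC : 0 ≤ C) (hD : 1 ≤ D) (hμ0 : ∀ x ∈ Ω, 0 ≤ μ x)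
    (hμ1 : ∑ x ∈ Ω, μ x = 1) (hμD : ∀ x ∈ Ω, μ x ≤ D * (W x / ∑ y ∈ Ω, W y))
    (hRP : ∀ g : α → ℝ, (∀ x ∈ Ω, |g x| ≤ D) →
      (∑ x ∈ Ω, μ x * g x - (∑ x ∈ Ω, W x * g x) / ∑ y ∈ Ω, W y) ^ 2 ≤
        C * (Dir Ω W prop g / ∑ y ∈ Ω, W y) + η)
    {T : ℕ} (hT : 0 < T) (g : α → ℝ) (hg : ∀ x ∈ Ω, |g x| ≤ 1) :
    (∑ x ∈ Ω, μ x * (Pop Ω W prop)^[T] g x - (∑ x ∈ Ω, W x * g x) / ∑ y ∈ Ω, W y) ^ 4 ≤
      2 * C * D / T + η := by
  have hΩ : Ω.Nonempty := by
    rcases Ω.eq_empty_or_nonempty with h0 | h0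
    · rw [h0] at hμ1; simp at hμ1
    · exact h0
  set Z := ∑ y ∈ Ω, W y with hZ
  have hZ0 : 0 < Z := sum_pos hW hΩ
  set P := Pop Ω W prop with hP
  set h : α → ℝ := fun x => μ x * Z / W x - 1 with hh
  have hΔ : ∀ u : α → ℝ, ∑ x ∈ Ω, μ x * u x - (∑ x ∈ Ω, W x * u x) / Z = ipW Ω W h u / Z := by
    intro u
    unfold ipW
    rw [sum_div, sum_div, ← sum_sub_distrib]
    refine sum_congr rfl fun x hx => ?_
    have := (hW x hx).ne'
    simp only [hh]
    field_simp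
  have hhD : ∀ n, ∀ x ∈ Ω, |P^[n] h x| ≤ D := by
    intro n
    induction n with
    | zero =>
      intro x hx
      have h2 := hμD x hx
      have h3 := hW x hx
      have h4 : μ x * Z / W x ≤ D := by
        rw [div_le_iff₀ h3]
        rw [← mul_div_assoc, le_div_iff₀ hZ0] at h2
        exact h2
      have h5 : 0 ≤ μ x * Z / W x := div_nonneg (mul_nonneg (hμ0 x hx) hZ0.le) h3.le
      simp only [hh, Function.iterate_zero, id]
      rw [abs_le]
      constructor <;> linarith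
    | succ n ih =>
      intro x hx
      have h1 := abs_Pop_sub_le hW prop (g := P^[n] h) (g' := fun _ => 0) (c := D)
        (fun y hy => by simpa using ih y hy) hx
      have h2 : Pop Ω W prop (fun _ => 0) x = 0 := by simp [Pop, Kop]
      rw [h2, sub_zero] at h1
      rw [Function.iterate_succ_apply']
      exact h1
  set b : ℕ → ℝ := fun n => ipW Ω W (P^[n] h) (P^[n] h) / Z with hb
  have hb0 : ∀ n, 0 ≤ b n := fun n => div_nonneg (ipW_self_nonneg hW _) hZ0.le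
  have hstep : ∀ n, Dir Ω W prop (P^[n] h) / Z ≤ 2 * (b n - b (n + 1)) := by
    intro n
    simp only [hb]
    rw [Function.iterate_succ_apply', ← sub_div, ← mul_div_assoc]
    refine div_le_div_of_nonneg_right ?_ hZ0.le
    have := ipW_Pop_le hW prop flip hflip hrev (P^[n] h)
    linarith
  have hanti : Antitone b := by
    refine antitone_nat_of_succ_le fun n => ?_
    have h1 := hstep n
    have h2 : 0 ≤ Dir Ω W prop (P^[n] h) / Z := div_nonneg (Dir_nonneg hW _ _) hZ0.le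
    linarith
  have hsq : ∀ n, b n ^ 2 ≤ 2 * C * (b (2 * n) - b (2 * n + 1)) + η := by
    intro n
    have h1 := hRP (P^[2 * n] h) (hhD _)
    rw [hΔ] at h1
    have h2 : ipW Ω W h (P^[2 * n] h) = ipW Ω W (P^[n] h) (P^[n] h) := by
      rw [two_mul, Function.iterate_add_apply, ipW_iter hW prop flip hflip hrev]
    rw [h2] at h1
    have h3 := mul_le_mul_of_nonneg_left (hstep (2 * n)) hC
    calc b n ^ 2 ≤ _ := h1
      _ ≤ _ := add_le_add_left h3 η
      _ = _ := by ring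
  have htel : ∀ n, ∑ i ∈ range n, (b (2 * i) - b (2 * i + 1)) ≤ b 0 - b (2 * n) := by
    intro n
    induction n with
    | zero => simp
    | succ n ih =>
      rw [sum_range_succ]
      have := hanti (show 2 * n + 1 ≤ 2 * (n + 1) by omega)
      linarith
  have hbD : b 0 ≤ D := by
    simp only [hb, Function.iterate_zero, id]
    rw [← hΔ]
    have h1 : ∑ x ∈ Ω, W x * h x = 0 := by
      have : ∀ x ∈ Ω, W x * h x = μ x * Z - W x := by
        intro x hx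
        have := (hW x hx).ne'
        simp only [hh]
        field_simp
      rw [sum_congr rfl this, sum_sub_distrib, ← sum_mul, hμ1, one_mul, sub_self]
    rw [h1, zero_div, sub_zero]
    calc ∑ x ∈ Ω, μ x * h x ≤ ∑ x ∈ Ω, μ x * D := by
          refine sum_le_sum fun x hx => mul_le_mul_of_nonneg_left ?_ (hμ0 x hx)
          have h2 := hμD x hx
          have h3 := hW x hx
          have h4 : μ x * Z / W x ≤ D := by
            rw [div_le_iff₀ h3]
            rw [← mul_div_assoc, le_div_iff₀ hZ0] at h2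
            exact h2
          simp only [hh]
          linarith
      _ = D := by rw [← sum_mul, hμ1, one_mul]
  have hT' : (0 : ℝ) < T := by exact_mod_cast hT
  have hbT : b T ^ 2 ≤ 2 * C * D / T + η := by
    rw [div_add' _ _ _ hT'.ne', le_div_iff₀ hT']
    calc b T ^ 2 * T = ∑ _i ∈ range T, b T ^ 2 := by simp [mul_comm]
      _ ≤ ∑ i ∈ range T, (2 * C * (b (2 * i) - b (2 * i + 1)) + η) := by
          refine sum_le_sum fun i hi => le_trans ?_ (hsq i)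
          exact pow_le_pow_left₀ (hb0 T) (hanti (mem_range.1 hi).le) 2
      _ ≤ 2 * C * D + η * T := by
          rw [sum_add_distrib, ← mul_sum, sum_const, card_range, nsmul_eq_mul, mul_comm (T : ℝ)]
          refine add_le_add_left (mul_le_mul_of_nonneg_left ((htel T).trans ?_) (by positivity)) _
          linarith [hb0 (2 * T)]
  have hπ : ∑ x ∈ Ω, W x * P^[T] g x = ∑ x ∈ Ω, W x * g x := by
    have h1 := ipW_iter hW prop flip hflip hrev T (fun _ => 1) g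
    have h2 : (Pop Ω W prop)^[T] (fun _ => (1 : ℝ)) = fun _ => 1 :=
      Function.iterate_fixed (Pop_one Ω W prop) T
    rw [h2] at h1
    simpa [ipW] using h1
  rw [← hπ, hΔ, ipW_iter hW prop flip hflip hrev]
  have hcs : (ipW Ω W (P^[T] h) g / Z) ^ 2 ≤ b T := by
    have h1 := ipW_sq_le hW (P^[T] h) g
    have h2 : ipW Ω W g g ≤ Z := by
      refine sum_le_sum fun x hx => ?_
      have h3 := hW x hx
      have h4 : g x * g x ≤ 1 := by
        have := abs_le.1 (hg x hx)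
        nlinarith [this.1, this.2]
      nlinarith
    have h3 := mul_le_mul_of_nonneg_left h2 (ipW_self_nonneg hW (P^[T] h))
    simp only [hb]
    rw [div_pow, div_le_div_iff₀ (by positivity) hZ0]
    nlinarith
  calc (ipW Ω W (P^[T] h) g / Z) ^ 4 = ((ipW Ω W (P^[T] h) g / Z) ^ 2) ^ 2 := by ring
    _ ≤ b T ^ 2 := pow_le_pow_left₀ (sq_nonneg _) hcs 2
    _ ≤ _ := hbT

/-- The vectors used by the moves. -/
structure Mv (N M Mt : ℕ) where
  u : Fin M → Fin N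
  v : Fin M → Fin N
  pa : Fin N → Fin N → Fin M → ℤ
  cy : Fin Mt → Fin M → ℤ
  s : Fin Mt → ℕ

namespace Mv

variable {N M Mt : ℕ} (m : Mv N M Mt)

/-- Move of kind `k` with parameters `p, q, J`: a vector, the start and the end of the token (now at `a`). -/
def mv (k p q J : ℕ) (a : Fin N) : (Fin M → ℤ) × Fin N × Fin N :=
  if k = 0 then (if h : p < M then (ec ⟨p, h⟩, m.v ⟨p, h⟩, m.u ⟨p, h⟩) else (0, a, a))
  else if k = 1 then (if h : p < N ∧ q < N then (0, ⟨q, h.2⟩, ⟨p, h.1⟩) else (0, a, a))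
  else if k = 2 then
    (if h : p < N ∧ q < N then (m.pa ⟨p, h.1⟩ ⟨q, h.2⟩, ⟨q, h.2⟩, ⟨p, h.1⟩) else (0, a, a))
  else if k = 3 then (if h : p < Mt then ((m.s ⟨p, h⟩ : ℤ) • m.cy ⟨p, h⟩, a, a) else (0, a, a))
  else (if h : p < Mt then (((J % m.s ⟨p, h⟩ : ℕ) : ℤ) • m.cy ⟨p, h⟩, a, a) else (0, a, a))

/-- The proposal. -/
def prop (z K : ℕ) (x : (Fin M → ℤ) × Fin N) (σ : Mdl.Seed K) : (Fin M → ℤ) × Fin N :=
  let i := σ.2.1 % (5 * z ^ 2)
  let r := m.mv (i / z ^ 2) (i / z % z) (i % z) σ.2.2 x.2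
  if σ.1 then (if x.2 = r.2.1 then (x.1 + r.1, r.2.2) else x)
  else (if x.2 = r.2.2 then (x.1 - r.1, r.2.1) else x)

/-- All edges used in the analysis. -/
noncomputable def Dall (Ω : Finset ((Fin M → ℤ) × Fin N)) (W g : (Fin M → ℤ) × Fin N → ℝ) : ℝ :=
  Dun Ω W g m.u m.v + Dpa Ω W g (fun _ _ => 0) + Dpa Ω W g m.pa + Dco Ω W g m.cy m.s +
    Dof Ω W g m.cy m.s

variable {m}

theorem mv_fst (k p q J : ℕ) (a : Fin N) :
    m.mv k p q J (m.mv k p q J a).2.1 = m.mv k p q J a := by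
  unfold mv
  split_ifs <;> rfl

theorem mv_snd (k p q J : ℕ) (a : Fin N) :
    m.mv k p q J (m.mv k p q J a).2.2 = m.mv k p q J a := by
  unfold mv
  split_ifs <;> rfl

theorem prop_flip (z K : ℕ) (x : (Fin M → ℤ) × Fin N) (σ : Mdl.Seed K)
    (h : m.prop z K x σ ≠ x) : m.prop z K (m.prop z K x σ) (!σ.1, σ.2) = x := by
  obtain ⟨X, a⟩ := x
  obtain ⟨b, I, J⟩ := σ
  cases b with
  | true =>
    simp only [prop, if_true] at h ⊢
    split_ifs at h with h1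
    · simp only [if_pos h1, Bool.not_true, Bool.false_eq_true, if_false, mv_snd, if_true,
        add_sub_cancel_right]
      rw [← h1]
    · exact absurd rfl h
  | false =>
    simp only [prop, Bool.false_eq_true, if_false] at h ⊢
    split_ifs at h with h1
    · simp only [if_pos h1, Bool.not_false, if_true, mv_fst, sub_add_cancel]
      rw [← h1]
    · exact absurd rfl h

theorem mvs_range_mul (a b : ℕ) (F : ℕ → ℕ → ℝ) :
    ∑ i ∈ range (a * b), F (i / b) (i % b) = ∑ p ∈ range a, ∑ q ∈ range b, F p q := by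
  induction a with
  | zero => simp
  | succ a ih =>
    rw [add_mul, one_mul, sum_range_add, ih, sum_range_succ]
    congr 1
    refine sum_congr rfl fun q hq => ?_
    have hq' := mem_range.1 hq
    have hb : 0 < b := by omega
    rw [add_comm, Nat.add_mul_div_right _ _ hb, Nat.add_mul_mod_self_right, Nat.div_eq_of_lt hq',
      Nat.mod_eq_of_lt hq', zero_add]

theorem mvs_fin2_le {n n' z : ℕ} (hn : n ≤ z) (hn' : n' ≤ z) (F : ℕ → ℕ → ℝ)
    (hF : ∀ p q, 0 ≤ F p q) :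
    ∑ p : Fin n, ∑ q : Fin n', F p q ≤ ∑ p ∈ range z, ∑ q ∈ range z, F p q := by
  rw [← sum_range (f := fun p => ∑ q : Fin n', F p q)]
  refine (sum_le_sum fun p _ => ?_).trans (sum_le_sum_of_subset_of_nonneg (range_mono hn)
    fun p _ _ => sum_nonneg fun q _ => hF p q)
  rw [← sum_range (f := fun q => F p q)]
  exact sum_le_sum_of_subset_of_nonneg (range_mono hn') fun q _ _ => hF p q

theorem mvs_fin1_le {n z : ℕ} (hn : n ≤ z) (hz : 0 < z) (F : ℕ → ℕ → ℝ)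
    (hF : ∀ p q, 0 ≤ F p q) :
    ∑ p : Fin n, F p 0 ≤ ∑ p ∈ range z, ∑ q ∈ range z, F p q := by
  have := mvs_fin2_le (n' := 1) hn hz F hF
  simpa using this

theorem mvs_tok (Ω : Finset ((Fin M → ℤ) × Fin N)) (W g : (Fin M → ℤ) × Fin N → ℝ)
    (d : Fin M → ℤ) (p q : Fin N) :
    ∑ x ∈ Ω, edge Ω W g x (if x.2 = p then (x.1 + d, q) else x) =
      ∑ x ∈ Ω with x.2 = p, edge Ω W g x (x.1 + d, q) := by
  rw [sum_filter]
  refine sum_congr rfl fun x _ => ?_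
  split_ifs
  · rfl
  · simp [edge]

theorem mvs_parts {Ω : Finset ((Fin M → ℤ) × Fin N)} {W : (Fin M → ℤ) × Fin N → ℝ}
    (hW : ∀ x ∈ Ω, 0 < W x) (g : (Fin M → ℤ) × Fin N → ℝ) :
    0 ≤ Dun Ω W g m.u m.v ∧ (∀ pa, 0 ≤ Dpa Ω W g pa) ∧ 0 ≤ Dco Ω W g m.cy m.s ∧
      0 ≤ Dof Ω W g m.cy m.s :=
  ⟨sum_nonneg fun _ _ => sum_nonneg fun _ _ => edge_nonneg hW _ _ _,
    fun _ => sum_nonneg fun _ _ => sum_nonneg fun _ _ => sum_nonneg fun _ _ => edge_nonneg hW _ _ _,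
    sum_nonneg fun _ _ => sum_nonneg fun _ _ => edge_nonneg hW _ _ _,
    sum_nonneg fun _ _ => mul_nonneg (by positivity)
      (sum_nonneg fun _ _ => sum_nonneg fun _ _ => edge_nonneg hW _ _ _)⟩

theorem Dall_le {z K : ℕ} (hM : M ≤ z) (hN : N ≤ z) (hMt : Mt ≤ z) (hz : 0 < z)
    (hK : 5 * z ^ 2 ≤ 2 ^ K) (hs : ∀ e, 0 < m.s e) (hsK : ∀ e, m.s e ≤ 2 ^ K)
    {Ω : Finset ((Fin M → ℤ) × Fin N)} {W : (Fin M → ℤ) × Fin N → ℝ} (hW : ∀ x ∈ Ω, 0 < W x)
    (g : (Fin M → ℤ) × Fin N → ℝ) :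
    m.Dall Ω W g ≤ 80 * z ^ 2 * Dir Ω W (m.prop z K) g := by
  set nm := 5 * z ^ 2 with hnm
  have hn : (0 : ℝ) < (2 ^ K : ℕ) := by positivity
  have hnm0 : 0 < nm := by positivity
  set E : ℕ → ℕ → ℕ → ℕ → ℝ := fun k p q J => ∑ x ∈ Ω, edge Ω W g x
    (if x.2 = (m.mv k p q J x.2).2.1 then (x.1 + (m.mv k p q J x.2).1, (m.mv k p q J x.2).2.2)
      else x) with hE
  have hE0 : ∀ k p q J, 0 ≤ E k p q J := fun k p q J => sum_nonneg fun x _ => edge_nonneg hW _ _ _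
  set S : ℕ → ℕ → ℕ → ℝ := fun k p q => ∑ J : Fin (2 ^ K), E k p q J with hS
  have hS0 : ∀ k p q, 0 ≤ S k p q := fun k p q => sum_nonneg fun J _ => hE0 k p q J
  have h1 : ∑ I : Fin (2 ^ K), S (I % nm / z ^ 2) (I % nm / z % z) (I % nm % z) ≤
      ∑ x ∈ Ω, ∑ σ : Mdl.Seed K, edge Ω W g x (m.prop z K x σ) := by
    simp only [hS, hE]
    rw [← sum_product', sum_comm]
    refine sum_le_sum fun x _ => ?_
    rw [Fintype.sum_prod_type (γ := ℝ), Fintype.sum_bool, univ_product_univ]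
    refine le_add_of_le_of_nonneg (le_of_eq ?_) (sum_nonneg fun _ _ => edge_nonneg hW _ _ _)
    refine sum_congr rfl fun p _ => ?_
    simp only [prop, if_true, hnm]
  have h2 := Mdl.sum_mod_ge (n := 2 ^ K) (s := nm) hnm0 hK
    (fun i => S (i / z ^ 2) (i / z % z) (i % z)) fun i => hS0 _ _ _
  have h0 : ∑ i ∈ range nm, S (i / z ^ 2) (i / z % z) (i % z) =
      ∑ k ∈ range 5, ∑ p ∈ range z, ∑ q ∈ range z, S k p q := by
    rw [← mvs_range_mul 5 z fun k p => ∑ q ∈ range z, S k p q,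
      ← mvs_range_mul (5 * z) z fun j q => S (j / z) (j % z) q, hnm, sq, ← mul_assoc]
    simp only [Nat.div_div_eq_div_mul]
  have hu : (2 ^ K : ℕ) * Dun Ω W g m.u m.v ≤ ∑ p ∈ range z, ∑ q ∈ range z, S 0 p q := by
    refine le_trans (le_of_eq ?_) (mvs_fin1_le hM hz (S 0) (hS0 0))
    rw [Dun, mul_sum]
    refine sum_congr rfl fun e _ => ?_
    have : ∀ J : ℕ, E 0 e 0 J = ∑ x ∈ Ω with x.2 = m.v e, edge Ω W g x (x.1 + ec e, m.u e) := by
      intro J
      simp only [hE, mv, e.2, dif_pos, Fin.eta, if_true]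
      exact mvs_tok _ _ _ _ _ _
    simp [hS, this]
  have hj : (2 ^ K : ℕ) * Dpa Ω W g (fun _ _ => 0) ≤ ∑ p ∈ range z, ∑ q ∈ range z, S 1 p q := by
    refine le_trans (le_of_eq ?_) (mvs_fin2_le hN hN (S 1) (hS0 1))
    rw [Dpa, mul_sum]
    refine sum_congr rfl fun a _ => ?_
    rw [mul_sum]
    refine sum_congr rfl fun b _ => ?_
    have : ∀ J : ℕ, E 1 a b J = ∑ x ∈ Ω with x.2 = b, edge Ω W g x (x.1 + 0, a) := by
      intro J
      simp only [hE, mv, a.2, b.2, and_self, dif_pos, Fin.eta, if_true, one_ne_zero, if_false]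
      exact mvs_tok _ _ _ _ _ _
    simp only [hS, this, sum_const, card_univ, Fintype.card_fin, nsmul_eq_mul]
  have hp : (2 ^ K : ℕ) * Dpa Ω W g m.pa ≤ ∑ p ∈ range z, ∑ q ∈ range z, S 2 p q := by
    refine le_trans (le_of_eq ?_) (mvs_fin2_le hN hN (S 2) (hS0 2))
    rw [Dpa, mul_sum]
    refine sum_congr rfl fun a _ => ?_
    rw [mul_sum]
    refine sum_congr rfl fun b _ => ?_
    have : ∀ J : ℕ, E 2 a b J = ∑ x ∈ Ω with x.2 = b, edge Ω W g x (x.1 + m.pa a b, a) := by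
      intro J
      simp only [hE, mv, a.2, b.2, and_self, dif_pos, Fin.eta, if_true, OfNat.ofNat_ne_zero,
        OfNat.ofNat_ne_one, if_false]
      exact mvs_tok _ _ _ _ _ _
    simp only [hS, this, sum_const, card_univ, Fintype.card_fin, nsmul_eq_mul]
  have hc : (2 ^ K : ℕ) * Dco Ω W g m.cy m.s ≤ ∑ p ∈ range z, ∑ q ∈ range z, S 3 p q := by
    refine le_trans (le_of_eq ?_) (mvs_fin1_le hMt hz (S 3) (hS0 3))
    rw [Dco, mul_sum]
    refine sum_congr rfl fun e _ => ?_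
    have : ∀ J : ℕ, E 3 e 0 J = ∑ x ∈ Ω, edge Ω W g x (x.1 + (m.s e : ℤ) • m.cy e, x.2) := by
      intro J
      simp only [hE, mv, e.2, dif_pos, Fin.eta, if_true, OfNat.ofNat_ne_zero,
        OfNat.ofNat_ne_one, if_false, (by norm_num : ¬ (3 : ℕ) = 2)]
    simp only [hS, this, sum_const, card_univ, Fintype.card_fin, nsmul_eq_mul]
  have ho : (2 ^ K : ℕ) / 2 * Dof Ω W g m.cy m.s ≤ ∑ p ∈ range z, ∑ q ∈ range z, S 4 p q := by
    refine le_trans ?_ (mvs_fin1_le hMt hz (S 4) (hS0 4))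
    rw [Dof, mul_sum]
    refine sum_le_sum fun e _ => ?_
    have : ∀ J : ℕ, E 4 e 0 J =
        ∑ x ∈ Ω, edge Ω W g x (x.1 + ((J % m.s e : ℕ) : ℤ) • m.cy e, x.2) := by
      intro J
      simp only [hE, mv, e.2, dif_pos, Fin.eta, if_true, OfNat.ofNat_ne_zero,
        OfNat.ofNat_ne_one, if_false, (by norm_num : ¬ (4 : ℕ) = 2), (by norm_num : ¬ (4 : ℕ) = 3)]
    simp only [hS, this]
    have h3 := Mdl.sum_mod_ge (n := 2 ^ K) (hs e) (hsK e)
      (fun j => ∑ x ∈ Ω, edge Ω W g x (x.1 + (j : ℤ) • m.cy e, x.2))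
      fun j => sum_nonneg fun x _ => edge_nonneg hW _ _ _
    refine le_trans (le_of_eq ?_) h3
    ring
  have h3 : (2 ^ K : ℕ) / 2 * m.Dall Ω W g ≤
      ∑ i ∈ range nm, S (i / z ^ 2) (i / z % z) (i % z) := by
    rw [h0, sum_range_succ, sum_range_succ, sum_range_succ, sum_range_succ, sum_range_one]
    obtain ⟨p1, p2, p3, -⟩ := mvs_parts (m := m) hW g
    unfold Dall
    nlinarith [mul_nonneg hn.le p1, mul_nonneg hn.le (p2 fun _ _ => 0), mul_nonneg hn.le (p2 m.pa),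
      mul_nonneg hn.le p3]
  have hnm1 : (0 : ℝ) < nm := by exact_mod_cast hnm0
  have h4 := (mul_le_mul_of_nonneg_left h3 (by positivity : (0 : ℝ) ≤ (2 ^ K : ℕ) / (2 * nm))).trans
    (h2.trans h1)
  have h5 : (80 * z ^ 2 : ℝ) = 16 * nm := by rw [hnm]; push_cast; ring
  unfold Dir
  rw [h5, ← mul_div_assoc, le_div_iff₀ (by positivity)]
  simp only [Fintype.card_prod, Fintype.card_bool, Fintype.card_fin]
  have h6 := mul_le_mul_of_nonneg_left h4 (by positivity : (0 : ℝ) ≤ 16 * nm)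
  refine le_trans (le_of_eq ?_) h6
  push_cast
  field_simp
  ring

theorem chain_mix {lo hi : Fin M → ℤ} {f : Fin M → ℤ → ℝ} {thin : Fin M → Prop} {κ : ℝ}
    {F : (Fin N → ℤ) → ℝ} {cl : Fin N → Fin N}
    (huv : ∀ e, m.u e ≠ m.v e) (hb : ∀ e, lo e ≤ hi e) (hf : LC lo hi f thin κ)
    (hκ0 : 0 < κ) (hκ1 : κ ≤ 1 / 2) (hF : Base F cl κ) (w : Fin N) (ω : Fin N → ℝ)
    (hω : ∀ a, 0 < ω a) {lam : ℝ} (hl0 : 0 < lam)
    (hlow : ∀ a, lam ≤ ω a * ZG m.u m.v lo hi f F (-ev w + ev a))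
    (hup : ∀ a, ω a * ZG m.u m.v lo hi f F (-ev w + ev a) ≤ 18)
    (hw : 1 / 2 ≤ ω w * ZG m.u m.v lo hi f F (-ev w + ev w))
    (e₀ : Fin M) (ψ : ℤ → ℝ) {Λ : ℝ} (hΛ0 : 0 ≤ Λ)
    (hψ : ∀ x, lo e₀ ≤ x → x ≤ hi e₀ → 0 ≤ ψ x ∧ ψ x ≤ 1)
    (hΛ : ∀ x, lo e₀ ≤ x → x < hi e₀ → ((hi e₀ - lo e₀ + 1 : ℤ) : ℝ) * |ψ (x + 1) - ψ x| ≤ Λ)
    (hmean : ZG m.u m.v lo hi f F (-ev w + ev w) ≤
      9 * SG m.u m.v lo hi f F (-ev w + ev w) fun X => ψ (X e₀))
    (hv : m.v e₀ = w ∨ ∀ x, ψ x = 1) {CF η₀ : ℝ} (hCF : 0 ≤ CF) (hη₀ : 0 ≤ η₀)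
    (hFP : ∀ (g : (Fin M → ℤ) × Fin N → ℝ) (G : ℝ), (∀ x ∈ Om (Fin N) lo hi, |g x| ≤ G) →
      ∃ gt : (Fin M → ℤ) → Fin N → ℝ, Inv m.u m.v lo hi thin gt ∧
        (∀ X ∈ box lo hi, ∀ a b, cl a = cl b → gt X a = gt X b) ∧
        ∑ x ∈ Om (Fin N) lo hi, Wt m.u m.v f F w ω x * (g x - gt x.1 x.2) ^ 2 ≤
          CF * m.Dall (Om (Fin N) lo hi) (Wt m.u m.v f F w ω) g + G ^ 2 * η₀)
    {z K : ℕ} (hM : M ≤ z) (hN : N ≤ z) (hMt : Mt ≤ z) (hK : 5 * z ^ 2 ≤ 2 ^ K)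
    (hs : ∀ e, 0 < m.s e) (hsK : ∀ e, m.s e ≤ 2 ^ K) {C₁ : ℝ}
    (hC₁ : 4 * (20 + (162 * Λ + 4) * (z / (lam * κ)) * (12 * z)) ≤ C₁)
    {T : ℕ} (hT0 : 0 < T) (g : (Fin M → ℤ) × Fin N → ℝ) (hg : ∀ x, |g x| ≤ 1) :
    ((SG m.u m.v lo hi f F (-ev w + ev w) fun X => ψ (X e₀) *
            (Pop (Om (Fin N) lo hi) (Wt m.u m.v f F w ω) (m.prop z K))^[T] g (X, w)) /
          (SG m.u m.v lo hi f F (-ev w + ev w) fun X => ψ (X e₀)) -
        (∑ x ∈ Om (Fin N) lo hi, Wt m.u m.v f F w ω x * g x) /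
          ∑ x ∈ Om (Fin N) lo hi, Wt m.u m.v f F w ω x) ^ 4 ≤
      2 * (C₁ * (CF + 1) * (80 * z ^ 2) * (18 * z)) * (324 * z) / T + C₁ * ((324 * z) ^ 2 * η₀) := by
  have hW : ∀ x ∈ Om (Fin N) lo hi, 0 < Wt m.u m.v f F w ω x := fun x hx =>
    mul_pos (mul_pos (hf.wt_pos (mem_Om.1 hx)) (hF.pos _)) (hω _)
  have hψ' : ∀ X ∈ box lo hi, 0 ≤ ψ (X e₀) ∧ ψ (X e₀) ≤ 1 := fun X hX =>
    hψ _ (mem_box.1 hX e₀).1 (mem_box.1 hX e₀).2
  have hz0 : 0 < z := lt_of_lt_of_le (Fin.pos w) hN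
  have hz1 : (1 : ℝ) ≤ z := by exact_mod_cast hz0
  have hNz : (N : ℝ) ≤ z := by exact_mod_cast hN
  have hMz : (M : ℝ) ≤ z := by exact_mod_cast hM
  set Zψ := SG m.u m.v lo hi f F (-ev w + ev w) fun X => ψ (X e₀) with hZψ
  set ZW := ∑ x ∈ Om (Fin N) lo hi, Wt m.u m.v f F w ω x with hZW
  have hZw : 0 < ZG m.u m.v lo hi f F (-ev w + ev w) := ZG_pos hb hf hF.pos _
  have hZψ0 : 0 < Zψ := by linarith
  have hZWeq : ZW = ∑ a, ω a * ZG m.u m.v lo hi f F (-ev w + ev a) := by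
    have := sum_Wt (u := m.u) (v := m.v) (lo := lo) (hi := hi) (f := f) (F := F) w ω fun _ => 1
    simp only [mul_one] at this
    exact this
  have hZW0 : 0 < ZW := by
    rw [hZWeq]
    exact sum_pos (fun a _ => hl0.trans_le (hlow a)) ⟨w, mem_univ w⟩
  have hZWle : ZW ≤ 18 * z := by
    rw [hZWeq]
    refine (sum_le_sum fun a _ => hup a).trans ?_
    simp only [sum_const, card_univ, Fintype.card_fin, nsmul_eq_mul]
    linarith
  set μ : (Fin M → ℤ) × Fin N → ℝ := fun x =>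
    if x.2 = w then wt f x.1 * F (-ev w + ev w - del m.u m.v x.1) * ψ (x.1 e₀) / Zψ else 0 with hμ
  have hsum : ∀ u : (Fin M → ℤ) × Fin N → ℝ, ∑ x ∈ Om (Fin N) lo hi, μ x * u x =
      (SG m.u m.v lo hi f F (-ev w + ev w) fun X => ψ (X e₀) * u (X, w)) / Zψ := by
    intro u
    rw [Om, sum_product_right, sum_eq_single w, SG, sum_div]
    · refine sum_congr rfl fun X _ => ?_
      simp only [hμ, if_true]
      ring
    · intro a _ ha; simp [hμ, ha]
    · simp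
  have hC0 : 0 ≤ C₁ := le_trans (by positivity) hC₁
  rw [← hsum]
  refine mixW hW (m.prop z K) (fun σ => (!σ.1, σ.2)) (fun σ => by simp)
    (fun x _ σ _ h => prop_flip z K x σ h) μ (by positivity) (by linarith) ?_ ?_ ?_ ?_ hT0 g
    fun x _ => hg x
  · intro x hx
    simp only [hμ]
    split_ifs with h
    · exact div_nonneg (mul_nonneg (mul_pos (hf.wt_pos (mem_Om.1 hx)) (hF.pos _)).le
        (hψ' _ (mem_Om.1 hx)).1) hZψ0.le
    · exact le_rfl
  · have := hsum fun _ => 1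
    simp only [mul_one] at this
    rw [this, div_self hZψ0.ne']
  · intro x hx
    simp only [hμ]
    split_ifs with h
    · have p0 := mul_pos (hf.wt_pos (mem_Om.1 hx)) (hF.pos (-ev w + ev w - del m.u m.v x.1))
      have p1 := (hψ' _ (mem_Om.1 hx)).2
      have p2 := hω w
      rw [← mul_div_assoc, div_le_div_iff₀ hZψ0 hZW0]
      simp only [Wt, h]
      have p3 : 1 / 18 ≤ ω w * Zψ := by
        have := mul_le_mul_of_nonneg_left hmean p2.le
        linarith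
      generalize wt f x.1 * F (-ev w + ev w - del m.u m.v x.1) = t at p0 ⊢
      calc t * ψ (x.1 e₀) * ZW ≤ t * 1 * (18 * z) := by gcongr
        _ = 324 * z * t * (1 / 18) := by ring
        _ ≤ 324 * z * t * (ω w * Zψ) := by gcongr
        _ = _ := by ring
    · exact mul_nonneg (by positivity) (div_nonneg (hW x hx).le hZW0.le)
  · intro u hu
    rw [hsum]
    obtain ⟨gt, g1, g2, g3⟩ := hFP u _ hu
    have h1 := rp huv hb hf hκ0 hκ1 hF w ω hω hl0 hlow hw e₀ ψ hΛ0 hψ hΛ hmean hv u gt g1 g2 g3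
    have h2 := Dall_le hM hN hMt hz0 hK hs hsK hW u
    have h3 := Dir_nonneg hW (m.prop z K) u
    obtain ⟨p1, p2, p3, p4⟩ := mvs_parts (m := m) hW u
    have p5 := p2 fun _ _ => 0
    have p6 := p2 m.pa
    have h4 : Dun (Om (Fin N) lo hi) (Wt m.u m.v f F w ω) u m.u m.v +
        Dpa (Om (Fin N) lo hi) (Wt m.u m.v f F w ω) u (fun _ _ => 0) ≤
        m.Dall (Om (Fin N) lo hi) (Wt m.u m.v f F w ω) u := by
      unfold Dall
      linarith
    simp only [Fintype.card_fin] at h1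
    have h5 : Dir (Om (Fin N) lo hi) (Wt m.u m.v f F w ω) (m.prop z K) u ≤
        18 * z * (Dir (Om (Fin N) lo hi) (Wt m.u m.v f F w ω) (m.prop z K) u / ZW) := by
      rw [← mul_div_assoc, le_div_iff₀ hZW0, mul_comm]
      exact mul_le_mul_of_nonneg_right hZWle h3
    have h6 := h2.trans (mul_le_mul_of_nonneg_left h5 (by positivity))
    refine h1.trans ?_
    generalize Dir (Om (Fin N) lo hi) (Wt m.u m.v f F w ω) (m.prop z K) u / ZW = R at h6 ⊢
    generalize m.Dall (Om (Fin N) lo hi) (Wt m.u m.v f F w ω) u = Da at h4 h6 ⊢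
    generalize Dun (Om (Fin N) lo hi) (Wt m.u m.v f F w ω) u m.u m.v = D1 at p1 h4 ⊢
    generalize Dpa (Om (Fin N) lo hi) (Wt m.u m.v f F w ω) u (fun _ _ => 0) = D2 at p5 h4 ⊢
    have hDa : 0 ≤ Da := by linarith
    set Vr := CF * Da + (324 * z) ^ 2 * η₀ with hVr
    have hVr0 : 0 ≤ Vr := by positivity
    set A := (162 * Λ + 4) * (z / (lam * κ)) with hA
    have hA0 : 0 ≤ A := by positivity
    calc _ ≤ 4 * (20 * Vr + A * (12 * z * Da + 12 * z * Vr)) := by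
          refine mul_le_mul_of_nonneg_left (add_le_add_right (mul_le_mul ?_ ?_ (by positivity) hA0) _)
            (by norm_num)
          · rw [hA]; gcongr
          · have q1 : 6 * ((M : ℝ) + N) * Vr ≤ 12 * z * Vr :=
              mul_le_mul_of_nonneg_right (by linarith) hVr0
            nlinarith
      _ ≤ 4 * (20 + A * (12 * z)) * (Vr + Da) := by nlinarith
      _ ≤ C₁ * (Vr + Da) := mul_le_mul_of_nonneg_right hC₁ (by positivity)
      _ = C₁ * (CF + 1) * Da + C₁ * ((324 * z) ^ 2 * η₀) := by rw [hVr]; ring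
      _ ≤ C₁ * (CF + 1) * (80 * z ^ 2 * (18 * z * R)) + C₁ * ((324 * z) ^ 2 * η₀) := by gcongr
      _ = _ := by ring

end Mv

end Crest.Agent.R302
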