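import Crest.Agent.R302.FPa

/-!
# Row 302: Gaussian times soft maximum is smooth along long steps

`μ Y = exp (-q Y) * (∑ i, exp (β ℓ i Y)) ^ (-1/β)`, `q Y = ∑ t, (Y t - c t)² / sc t ^ 2`, `ℓ i` affine.
For free `e, e'` put `ξ e i = s e * ∑ t, gr i t * cyc e t`, `|ξ| ≤ θ`, `U e i = exp (β ξ e i)`, `𝔼` the Gibbs average at `X`.  Then
`1 + A e e' = exp (Gq e e' + log (1 + C e e') / β)` with `Gq e e' = 2 ∑ t, s e * cyc e t * (s e' * cyc e' t) / sc t ^ 2` and
`C e e' = 𝔼 [(U e / 𝔼 U e - 1) (U e' / 𝔼 U e' - 1)]`, both Gram matrices.  `|U / 𝔼 U - 1| ≤ exp (2 β θ) - 1 ≤ 4 β θ`, `|C| ≤ 16 β² θ² ≤ 1/2`,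
`|log (1 + C) - C| ≤ 2 C²`, `|Gq| ≤ 8 Mt / Q²`, the exponent is at most `d`, `|exp x - 1 - x| ≤ x²`; keep only the free
`t` in `zᵀ Gq z` (`Forest.cyc_apply`): it is `≥ 2 ∑ (s e / sc e)² z e ² ≥ |z|² / (2 Q²)`.  Set `A = 0` off the free cells.
`sm`: the soft maximum moves by at most `Mt θ`, `q` by at most `Mt (2 T δ + δ²)`, `δ = 2 Mt / Q`; `exp (1/2) ≤ 2`.
-/

set_option autoImplicit false

namespace Crest.Agent.R302

open Finset Crest.Agent.R309 Crest.Agent.R309.Mdl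

variable {Vt ι : Type} [Fintype Vt] [DecidableEq Vt] {Mt : ℕ}

/-- Gaussian times soft maximum. -/
noncomputable def softW (I : Finset ι) (b : ι → ℝ) (gr : ι → Fin Mt → ℝ) (β : ℝ) (sc : Fin Mt → ℝ)
    (c Y : Fin Mt → ℤ) : ℝ :=
  Real.exp (-∑ t, ((Y t : ℝ) - c t) ^ 2 / sc t ^ 2) *
    (∑ i ∈ I, Real.exp (β * (b i + ∑ t, gr i t * Y t))) ^ (-1 / β)

theorem soft_log {C : ℝ} (h : |C| ≤ 1 / 2) : |Real.log (1 + C) - C| ≤ 2 * C ^ 2 := by
  obtain ⟨h1, h2⟩ := abs_le.1 h
  have hp : 0 < 1 + C := by linarith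
  have a1 := Real.log_le_sub_one_of_pos hp
  have a2 := Real.one_sub_inv_le_log_of_pos hp
  have a3 : C - 2 * C ^ 2 ≤ 1 - (1 + C)⁻¹ := by
    have e : 1 - (1 + C)⁻¹ = C / (1 + C) := by field_simp; ring
    rw [e, le_div_iff₀ hp]
    nlinarith [sq_nonneg C]
  rw [abs_le]
  constructor <;> nlinarith [sq_nonneg C]

/-- Covariances in a Gibbs measure. -/
theorem soft_gibbs {E : Type} [Fintype E] {I : Finset ι} (hI : I.Nonempty) {a : ι → ℝ}
    (ha : ∀ i, 0 < a i) (x : E → ι → ℝ) {r : ℝ} (hr : r ≤ 1 / 8) (hx : ∀ e, ∀ i ∈ I, |x e i| ≤ r) :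
    ∃ C : E → E → ℝ, (∀ e e', (∑ i ∈ I, a i) * ∑ i ∈ I, a i * Real.exp (x e i + x e' i) =
        (1 + C e e') * ((∑ i ∈ I, a i * Real.exp (x e i)) * ∑ i ∈ I, a i * Real.exp (x e' i))) ∧
      (∀ e e', |C e e'| ≤ 16 * r ^ 2) ∧ ∀ z : E → ℝ, 0 ≤ ∑ e, ∑ e', C e e' * z e * z e' := by
  set S := ∑ i ∈ I, a i with hS
  have hS0 : 0 < S := sum_pos (fun i _ => ha i) hI
  set N : E → ℝ := fun e => ∑ i ∈ I, a i * Real.exp (x e i) with hN
  have hN0 : ∀ e, 0 < N e := fun e => sum_pos (fun i _ => mul_pos (ha i) (Real.exp_pos _)) hI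
  set D : E → ι → ℝ := fun e i => Real.exp (x e i) * S / N e - 1 with hD
  have hr0 : ∀ e : E, 0 ≤ r := fun e => by
    obtain ⟨i, hi⟩ := hI
    exact (abs_nonneg _).trans (hx e i hi)
  have hDb : ∀ e, ∀ i ∈ I, |D e i| ≤ 4 * r := by
    intro e i hi
    have h0 := hr0 e
    have n1 : N e ≤ S * Real.exp r := by
      rw [hS, sum_mul]
      exact sum_le_sum fun j hj => mul_le_mul_of_nonneg_left
        (Real.exp_le_exp.2 (abs_le.1 (hx e j hj)).2) (ha j).le
    have n2 : S * Real.exp (-r) ≤ N e := by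
      rw [hS, sum_mul]
      exact sum_le_sum fun j hj => mul_le_mul_of_nonneg_left
        (Real.exp_le_exp.2 (abs_le.1 (hx e j hj)).1) (ha j).le
    obtain ⟨x1, x2⟩ := abs_le.1 (hx e i hi)
    have u1 : Real.exp (x e i) * S / N e ≤ Real.exp (2 * r) := by
      rw [div_le_iff₀ (hN0 e)]
      calc Real.exp (x e i) * S ≤ Real.exp r * S :=
            mul_le_mul_of_nonneg_right (Real.exp_le_exp.2 x2) hS0.le
        _ = Real.exp (2 * r) * (S * Real.exp (-r)) := by
            rw [mul_left_comm, ← Real.exp_add, mul_comm]; congr 2; ring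
        _ ≤ _ := mul_le_mul_of_nonneg_left n2 (Real.exp_pos _).le
    have u2 : Real.exp (-(2 * r)) ≤ Real.exp (x e i) * S / N e := by
      rw [le_div_iff₀ (hN0 e)]
      calc Real.exp (-(2 * r)) * N e ≤ Real.exp (-(2 * r)) * (S * Real.exp r) :=
            mul_le_mul_of_nonneg_left n1 (Real.exp_pos _).le
        _ = Real.exp (-r) * S := by
            rw [mul_left_comm, ← Real.exp_add, mul_comm]; congr 2; ring
        _ ≤ _ := mul_le_mul_of_nonneg_right (Real.exp_le_exp.2 x1) hS0.le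
    have u3 := Real.abs_exp_sub_one_le (x := 2 * r) (by rw [abs_of_nonneg (by linarith)]; linarith)
    rw [abs_of_nonneg (show 0 ≤ 2 * r by linarith)] at u3
    have u4 := Real.add_one_le_exp (-(2 * r))
    have u5 := (abs_le.1 u3).2
    simp only [hD]
    rw [abs_le]
    constructor <;> linarith
  refine ⟨fun e e' => (∑ i ∈ I, a i * (D e i * D e' i)) / S, fun e e' => ?_, fun e e' => ?_,
    fun z => ?_⟩
  · have h1 := (hN0 e).ne'
    have h2 := (hN0 e').ne'
    have e1 : ∑ i ∈ I, a i * (D e i * D e' i) =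
        (∑ i ∈ I, a i * Real.exp (x e i + x e' i)) * (S / N e * (S / N e')) - N e * (S / N e) -
          N e' * (S / N e') + S := by
      simp only [hD]
      conv_rhs => rw [hS]
      simp only [hN, sum_mul]
      rw [← sum_sub_distrib, ← sum_sub_distrib, ← sum_add_distrib]
      refine sum_congr rfl fun i _ => ?_
      rw [Real.exp_add]
      ring
    change S * _ = (1 + (∑ i ∈ I, a i * (D e i * D e' i)) / S) * (N e * N e')
    rw [e1]
    field_simp
    ring
  · rw [abs_div, abs_of_pos hS0, div_le_iff₀ hS0, hS, mul_sum]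
    refine (abs_sum_le_sum_abs _ _).trans (sum_le_sum fun i hi => ?_)
    rw [abs_mul, abs_mul, abs_of_pos (ha i), mul_comm]
    refine mul_le_mul_of_nonneg_right ?_ (ha i).le
    have h0 := hr0 e
    calc _ ≤ 4 * r * (4 * r) := mul_le_mul (hDb e i hi) (hDb e' i hi) (abs_nonneg _) (by linarith)
      _ = _ := by ring
  · have e1 : ∑ e, ∑ e', (∑ i ∈ I, a i * (D e i * D e' i)) / S * z e * z e' =
        (∑ i ∈ I, a i * (∑ e, z e * D e i) ^ 2) / S := by
      simp only [sq, mul_sum, sum_div, sum_mul]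
      rw [sum_comm]
      conv_rhs => rw [sum_comm]
      refine sum_congr rfl fun e _ => ?_
      conv_rhs => rw [sum_comm]
      exact sum_congr rfl fun e' _ => sum_congr rfl fun i _ => by ring
    rw [e1]
    exact div_nonneg (sum_nonneg fun i _ => mul_nonneg (ha i).le (sq_nonneg _)) hS0.le

/-- `softW` on real vectors, in exponential form. -/
noncomputable def softR (I : Finset ι) (b : ι → ℝ) (gr : ι → Fin Mt → ℝ) (β : ℝ) (sc : Fin Mt → ℝ)
    (c Y : Fin Mt → ℝ) : ℝ :=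
  Real.exp (-(∑ t, (Y t - c t) ^ 2 / sc t ^ 2) -
    Real.log (∑ i ∈ I, Real.exp (β * (b i + ∑ t, gr i t * Y t))) / β)

theorem softW_eq {I : Finset ι} (hI : I.Nonempty) (b : ι → ℝ) (gr : ι → Fin Mt → ℝ) (β : ℝ)
    (sc : Fin Mt → ℝ) (c Y : Fin Mt → ℤ) :
    softW I b gr β sc c Y = softR I b gr β sc (fun t => c t) (fun t => Y t) := by
  unfold softW softR
  rw [Real.rpow_def_of_pos (sum_pos (fun i _ => Real.exp_pos _) hI), ← Real.exp_add]
  congr 1
  ring

theorem soft_sum_add (I : Finset ι) (b : ι → ℝ) (gr : ι → Fin Mt → ℝ) (β : ℝ) (X v : Fin Mt → ℝ) :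
    ∑ i ∈ I, Real.exp (β * (b i + ∑ t, gr i t * (X + v) t)) =
      ∑ i ∈ I, Real.exp (β * (b i + ∑ t, gr i t * X t)) * Real.exp (β * ∑ t, gr i t * v t) := by
  refine sum_congr rfl fun i _ => ?_
  rw [← Real.exp_add]
  simp only [Pi.add_apply, mul_add, sum_add_distrib, add_assoc]

theorem soft_quad {E : Type} [Fintype E] {A : E → E → ℝ} {ε : ℝ} (h : ∀ e e', |A e e'| ≤ ε)
    (z : E → ℝ) : -(ε * Fintype.card E * ∑ e, z e ^ 2) ≤ ∑ e, ∑ e', A e e' * z e * z e' := by
  have h1 : ∀ e e', -(ε * (z e ^ 2 + z e' ^ 2) / 2) ≤ A e e' * z e * z e' := fun e e' => by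
    have a1 : |A e e' * z e * z e'| ≤ ε * ((z e ^ 2 + z e' ^ 2) / 2) := by
      rw [mul_assoc, abs_mul]
      refine mul_le_mul (h e e') ?_ (abs_nonneg _) ((abs_nonneg _).trans (h e e'))
      rw [abs_le]
      constructor <;> nlinarith [sq_nonneg (z e + z e'), sq_nonneg (z e - z e')]
    have := (abs_le.1 a1).1
    linarith
  refine le_trans (le_of_eq ?_) (sum_le_sum fun e _ => sum_le_sum fun e' _ => h1 e e')
  simp only [sum_neg_distrib, ← sum_div, ← mul_sum, sum_add_distrib, sum_const, card_univ,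
    nsmul_eq_mul]
  ring

theorem soft_bo {I : Finset ι} (hI : I.Nonempty) (b : ι → ℝ) (gr : ι → Fin Mt → ℝ) {β θ Q d : ℝ}
    {sc : Fin Mt → ℝ} (c X : Fin Mt → ℝ) (v : Fin Mt → Fin Mt → ℝ) (hβ : 1 ≤ β) (hQ : 1 ≤ Q)
    (hsc : ∀ t, 0 < sc t) (hθ : ∀ e, ∀ i ∈ I, |∑ t, gr i t * v e t| ≤ θ)
    (hv : ∀ e t, |v e t / sc t| ≤ 2 / Q)
    (h1 : β * θ ≤ 1 / 8) (h2 : 8 * Mt / Q ^ 2 + 32 * (β * θ) ^ 2 ≤ d) (h3 : d ≤ 1 / 4) :
    ∃ A : Fin Mt → Fin Mt → ℝ,
      (∀ e e', softR I b gr β sc c (X + v e) * softR I b gr β sc c (X + v e') =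
        (1 + A e e') * (softR I b gr β sc c X * softR I b gr β sc c (X + v e + v e'))) ∧
      (∀ e e', |A e e'| ≤ 2 * d) ∧
      ∀ z : Fin Mt → ℝ, 2 * ∑ t, (∑ e, z e * (v e t / sc t)) ^ 2 - 2 * d ^ 2 * Mt * ∑ e, z e ^ 2 ≤
        ∑ e, ∑ e', A e e' * z e * z e' := by
  have hβ0 : 0 < β := by linarith
  obtain ⟨C, hC1, hC2, hC3⟩ := soft_gibbs hI
    (a := fun i => Real.exp (β * (b i + ∑ t, gr i t * X t))) (fun i => Real.exp_pos _)
    (fun e i => β * ∑ t, gr i t * v e t) h1 (fun e i hi => by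
      rw [abs_mul, abs_of_pos hβ0]
      exact mul_le_mul_of_nonneg_left (hθ e i hi) hβ0.le)
  set G : Fin Mt → Fin Mt → ℝ := fun e e' => 2 * ∑ t, v e t / sc t * (v e' t / sc t) with hG
  have hQ2 : 0 ≤ 8 * Mt / Q ^ 2 := by positivity
  have hG2 : ∀ e e', |G e e'| ≤ 8 * Mt / Q ^ 2 := fun e e' => by
    have a1 : |∑ t, v e t / sc t * (v e' t / sc t)| ≤ ∑ _t : Fin Mt, 2 / Q * (2 / Q) := by
      refine (abs_sum_le_sum_abs _ _).trans (sum_le_sum fun t _ => ?_)
      rw [abs_mul]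
      exact mul_le_mul (hv e t) (hv e' t) (abs_nonneg _) (by positivity)
    simp only [sum_const, card_univ, Fintype.card_fin, nsmul_eq_mul] at a1
    simp only [hG]
    rw [abs_mul, abs_two]
    calc _ ≤ 2 * (Mt * (2 / Q * (2 / Q))) := by linarith
      _ = _ := by field_simp; ring
  have hCd : ∀ e e', |C e e'| ≤ d / 2 := fun e e' => by linarith [hC2 e e']
  have hCh : ∀ e e', |C e e'| ≤ 1 / 2 := fun e e' => by linarith [hCd e e']
  have hdiv : ∀ y : ℝ, |y / β| ≤ |y| := fun y => by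
    rw [abs_div, abs_of_pos hβ0]
    exact div_le_self (abs_nonneg _) hβ
  have hx : ∀ e e', |G e e' + Real.log (1 + C e e') / β| ≤ d := fun e e' => by
    have a1 := soft_log (hCh e e')
    have a2 := hdiv (Real.log (1 + C e e'))
    have a3 := abs_add_le (G e e') (Real.log (1 + C e e') / β)
    have a4 := abs_add_le (Real.log (1 + C e e') - C e e') (C e e')
    rw [sub_add_cancel] at a4
    have a5 : 2 * C e e' ^ 2 ≤ |C e e'| := by
      rw [← sq_abs]; nlinarith [hCh e e', abs_nonneg (C e e')]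
    linarith [hG2 e e', hC2 e e']
  refine ⟨fun e e' => Real.exp (G e e' + Real.log (1 + C e e') / β) - 1, fun e e' => ?_,
    fun e e' => ?_, fun z => ?_⟩
  · have hp : 0 < 1 + C e e' := by linarith [(abs_le.1 (hCh e e')).1]
    have e1 := congrArg Real.log (hC1 e e')
    have p : ∀ y : ι → ℝ, (∑ i ∈ I, Real.exp (β * (b i + ∑ t, gr i t * X t)) * Real.exp (y i)) ≠ 0 :=
      fun y => (sum_pos (fun i _ => mul_pos (Real.exp_pos _) (Real.exp_pos _)) hI).ne'
    rw [Real.log_mul (sum_pos (fun i _ => Real.exp_pos _) hI).ne' (p _),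
      Real.log_mul hp.ne' (mul_ne_zero (p _) (p _)), Real.log_mul (p _) (p _)] at e1
    have e2 : ∑ t, ((X + v e) t - c t) ^ 2 / sc t ^ 2 + ∑ t, ((X + v e') t - c t) ^ 2 / sc t ^ 2 +
        G e e' = ∑ t, (X t - c t) ^ 2 / sc t ^ 2 +
          ∑ t, ((X + (v e + v e')) t - c t) ^ 2 / sc t ^ 2 := by
      simp only [hG, mul_sum, ← sum_add_distrib, Pi.add_apply]
      refine sum_congr rfl fun t _ => ?_
      have := (hsc t).ne'
      field_simp
      ring
    have e3 : ∀ i, β * ∑ t, gr i t * (v e + v e') t =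
        β * ∑ t, gr i t * v e t + β * ∑ t, gr i t * v e' t := fun i => by
      simp only [Pi.add_apply, mul_add, sum_add_distrib]
    rw [add_sub_cancel, add_assoc X]
    unfold softR
    rw [soft_sum_add, soft_sum_add, soft_sum_add]
    simp only [e3, ← Real.exp_add (-_ - _), ← Real.exp_add (G e e' + _)]
    congr 1
    have e4 := congrArg (· / β) e1
    simp only [add_div] at e4
    linarith
  · have := Real.abs_exp_sub_one_le (x := G e e' + Real.log (1 + C e e') / β)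
      (by linarith [hx e e'])
    linarith [hx e e']
  · set R : Fin Mt → Fin Mt → ℝ := fun e e' =>
      Real.exp (G e e' + Real.log (1 + C e e') / β) - 1 - G e e' - C e e' / β with hR
    have hRb : ∀ e e', |R e e'| ≤ 2 * d ^ 2 := fun e e' => by
      have a1 := Real.abs_exp_sub_one_sub_id_le (x := G e e' + Real.log (1 + C e e') / β)
        (by linarith [hx e e'])
      have a2 := (hdiv _).trans (soft_log (hCh e e'))
      have a3 : (G e e' + Real.log (1 + C e e') / β) ^ 2 ≤ d ^ 2 := by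
        rw [← sq_abs]; exact pow_le_pow_left₀ (abs_nonneg _) (hx e e') 2
      have a4 : C e e' ^ 2 ≤ (d / 2) ^ 2 := by
        rw [← sq_abs]; exact pow_le_pow_left₀ (abs_nonneg _) (hCd e e') 2
      have e1 : R e e' = (Real.exp (G e e' + Real.log (1 + C e e') / β) - 1 -
          (G e e' + Real.log (1 + C e e') / β)) + (Real.log (1 + C e e') - C e e') / β := by
        simp only [hR]; ring
      rw [e1]
      refine (abs_add_le _ _).trans ?_
      nlinarith [sq_nonneg d]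
    have q1 := soft_quad hRb z
    have q2 := div_nonneg (hC3 z) hβ0.le
    have q3 : ∑ e, ∑ e', G e e' * z e * z e' = 2 * ∑ t, (∑ e, z e * (v e t / sc t)) ^ 2 := by
      simp only [hG, sq, mul_sum, sum_mul]
      rw [sum_comm]
      conv_rhs => rw [sum_comm]
      refine sum_congr rfl fun e _ => ?_
      conv_rhs => rw [sum_comm]
      exact sum_congr rfl fun e' _ => sum_congr rfl fun i _ => by ring
    have q4 : ∑ e, ∑ e', (Real.exp (G e e' + Real.log (1 + C e e') / β) - 1) * z e * z e' =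
        ∑ e, ∑ e', G e e' * z e * z e' + (∑ e, ∑ e', C e e' * z e * z e') / β +
          ∑ e, ∑ e', R e e' * z e * z e' := by
      simp only [sum_div, ← sum_add_distrib, hR]
      exact sum_congr rfl fun e _ => sum_congr rfl fun e' _ => by ring
    rw [Fintype.card_fin] at q1
    rw [q4, q3]
    linarith

theorem soft_sm {I : Finset ι} (hI : I.Nonempty) (b : ι → ℝ) (gr : ι → Fin Mt → ℝ) {β θ T δ : ℝ}
    {sc : Fin Mt → ℝ} (c X v : Fin Mt → ℝ) (hβ : 0 < β) (hsc : ∀ t, 0 < sc t)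
    (hθ : ∀ i ∈ I, |∑ t, gr i t * v t| ≤ θ) (hv : ∀ t, |v t / sc t| ≤ δ)
    (hX : ∀ t, |X t - c t| ≤ T * sc t) (h : θ + Mt * (2 * T * δ) ≤ 1 / 2) :
    softR I b gr β sc c (X + v) ≤ 2 * softR I b gr β sc c X := by
  have h1 : ∑ t, (X t - c t) ^ 2 / sc t ^ 2 ≤
      ∑ t, ((X + v) t - c t) ^ 2 / sc t ^ 2 + Mt * (2 * T * δ) := by
    have : (Mt : ℝ) * (2 * T * δ) = ∑ _t : Fin Mt, 2 * T * δ := by simp
    rw [this, ← sum_add_distrib]
    refine sum_le_sum fun t _ => ?_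
    have a0 := hsc t
    have a1 : |(X t - c t) / sc t| ≤ T := by
      rw [abs_div, abs_of_pos a0, div_le_iff₀ a0]; exact hX t
    have a2 : |(X t - c t) / sc t * (v t / sc t)| ≤ T * δ := by
      rw [abs_mul]
      exact mul_le_mul a1 (hv t) (abs_nonneg _) ((abs_nonneg _).trans a1)
    have e : ((X + v) t - c t) ^ 2 / sc t ^ 2 = (X t - c t) ^ 2 / sc t ^ 2 +
        2 * ((X t - c t) / sc t * (v t / sc t)) + (v t / sc t) ^ 2 := by
      simp only [Pi.add_apply]
      field_simp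
      ring
    rw [e]
    nlinarith [(abs_le.1 a2).1, sq_nonneg (v t / sc t)]
  have p0 : 0 < ∑ i ∈ I, Real.exp (β * (b i + ∑ t, gr i t * X t)) :=
    sum_pos (fun i _ => Real.exp_pos _) hI
  have h2 : (∑ i ∈ I, Real.exp (β * (b i + ∑ t, gr i t * X t))) * Real.exp (β * -θ) ≤
      ∑ i ∈ I, Real.exp (β * (b i + ∑ t, gr i t * (X + v) t)) := by
    rw [soft_sum_add, sum_mul]
    exact sum_le_sum fun i hi => mul_le_mul_of_nonneg_left (Real.exp_le_exp.2
      (mul_le_mul_of_nonneg_left (abs_le.1 (hθ i hi)).1 hβ.le)) (Real.exp_pos _).le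
  have h3 := Real.log_le_log (by positivity) h2
  rw [Real.log_mul p0.ne' (Real.exp_pos _).ne', Real.log_exp] at h3
  have h4 := div_le_div_of_nonneg_right h3 hβ.le
  rw [add_div, mul_div_cancel_left₀ _ hβ.ne'] at h4
  have h5 : Real.exp (1 / 2) ≤ 2 := by
    rw [Real.exp_half]
    refine Real.sqrt_le_iff.2 ⟨by norm_num, ?_⟩
    linarith [Real.exp_one_lt_three]
  unfold softR
  refine le_trans ?_ (mul_le_mul_of_nonneg_right h5 (Real.exp_pos _).le)
  rw [← Real.exp_add]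
  exact Real.exp_le_exp.2 (by linarith)

theorem soft_smooth {m : Mdl Vt Mt} {thick : Fin Mt → Bool} {s : Fin Mt → ℕ} (hT : m.Thick thick s)
    {I : Finset ι} (hI : I.Nonempty) (b : ι → ℝ) (gr : ι → Fin Mt → ℝ) {β θ Q T d : ℝ}
    {sc : Fin Mt → ℝ} (c : Fin Mt → ℤ) (hβ : 1 ≤ β) (hθ0 : 0 ≤ θ) (hQ : 1 ≤ Q) (hT0 : 0 ≤ T)
    (hsc : ∀ t, 0 < sc t)
    (hθ : ∀ i ∈ I, ∀ e, thick e = true → m.tree e = false →
      s e * |∑ t, gr i t * m.cyc e t| ≤ θ)
    (hs1 : ∀ e, thick e = true → m.tree e = false → sc e ≤ 2 * Q * s e)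
    (hs2 : ∀ e, thick e = true → m.tree e = false → ∀ t, m.cyc e t ≠ 0 → Q * s e ≤ sc t)
    (hcyc : ∀ e t, |m.cyc e t| ≤ 2)
    (hbox : ∀ Y ∈ box m.lo m.hi, ∀ t, |(Y t : ℝ) - c t| ≤ T * sc t)
    (h1 : β * θ ≤ 1 / 8) (h2 : 8 * Mt / Q ^ 2 + 32 * (β * θ) ^ 2 ≤ d) (h3 : d ≤ 1 / 4)
    (h4 : 16 * Mt * d ^ 2 ≤ 1 / (4 * Q ^ 2))
    (h5 : Mt * θ + Mt * (2 * T * (2 * Mt / Q) + (2 * Mt / Q) ^ 2) ≤ 1 / 2) :
    SmoothW m thick s (softW I b gr β sc c) (1 / (4 * Q ^ 2)) (2 * d) := by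
  classical
  have hQ0 : 0 < Q := by linarith
  have hd0 : 0 ≤ d := le_trans (by positivity) h2
  have hstep : ∀ e, thick e = true → m.tree e = false → ∀ t, ∀ x : ℝ, |x| ≤ s e →
      |x * m.cyc e t / sc t| ≤ 2 / Q := by
    intro e he he' t x hx
    by_cases h0 : m.cyc e t = 0
    · simp only [h0, Int.cast_zero, mul_zero, zero_div, abs_zero]; positivity
    · have a1 := hs2 e he he' t h0
      have a2 : |(m.cyc e t : ℝ)| ≤ 2 := by exact_mod_cast hcyc e t
      rw [abs_div, abs_of_pos (hsc t), div_le_div_iff₀ (hsc t) hQ0, abs_mul]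
      have a3 : |x| * |(m.cyc e t : ℝ)| ≤ s e * 2 := mul_le_mul hx a2 (abs_nonneg _) (by positivity)
      nlinarith
  have hgr : ∀ i ∈ I, ∀ e, thick e = true → m.tree e = false → ∀ x : ℝ, |x| ≤ s e →
      |∑ t, gr i t * (x * m.cyc e t)| ≤ θ := by
    intro i hi e he he' x hx
    have e1 : ∑ t, gr i t * (x * m.cyc e t) = x * ∑ t, gr i t * m.cyc e t := by
      rw [mul_sum]; exact sum_congr rfl fun t _ => by ring
    rw [e1, abs_mul]
    exact (mul_le_mul_of_nonneg_right hx (abs_nonneg _)).trans (hθ i hi e he he')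
  refine ⟨fun X _ => ?_, fun X hX k hk hk0 _ => ?_, fun X _ => ?_, by positivity, by linarith,
    by linarith⟩
  · rw [softW_eq hI]; exact Real.exp_pos _
  · rw [softW_eq hI, softW_eq hI]
    have e1 : (fun t => ((X + ∑ e, k e • m.cyc e) t : ℝ)) =
        (fun t => (X t : ℝ)) + fun t => ∑ e, (k e : ℝ) * m.cyc e t := by
      funext t; simp [Finset.sum_apply]
    have hk' : ∀ e, |(k e : ℝ)| ≤ s e := fun e => by exact_mod_cast hk e
    rw [e1]
    refine soft_sm hI b gr (θ := Mt * θ) (T := T) (δ := 2 * Mt / Q) _ _ _ (by linarith) hsc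
      (fun i hi => ?_) (fun t => ?_) (hbox X hX) ?_
    · simp only [mul_sum]
      rw [sum_comm]
      have : (Mt : ℝ) * θ = ∑ _e : Fin Mt, θ := by simp
      rw [this]
      refine (abs_sum_le_sum_abs _ _).trans (sum_le_sum fun e _ => ?_)
      by_cases he : thick e = true ∧ m.tree e = false
      · exact hgr i hi e he.1 he.2 _ (hk' e)
      · simpa [hk0 e he] using hθ0
    · have : 2 * (Mt : ℝ) / Q = ∑ _e : Fin Mt, 2 / Q := by simp; ring
      rw [this, sum_div]
      refine (abs_sum_le_sum_abs _ _).trans (sum_le_sum fun e _ => ?_)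
      by_cases he : thick e = true ∧ m.tree e = false
      · exact hstep e he.1 he.2 t _ (hk' e)
      · simp only [hk0 e he, Int.cast_zero, zero_mul, zero_div, abs_zero]; positivity
    · have : 0 ≤ (Mt : ℝ) * (2 * Mt / Q) ^ 2 := by positivity
      linarith
  · set v : Fin Mt → Fin Mt → ℝ := fun e t =>
      if thick e = true ∧ m.tree e = false then (s e : ℝ) * m.cyc e t else 0 with hv
    have hs : ∀ e, |(s e : ℝ)| ≤ s e := fun e => (abs_of_nonneg (Nat.cast_nonneg _)).le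
    obtain ⟨A, hA1, hA2, hA3⟩ := soft_bo hI b gr (θ := θ) (d := d) (fun t => (c t : ℝ))
      (fun t => (X t : ℝ)) v hβ hQ hsc (fun e i hi => by
        simp only [hv]
        split_ifs with he
        · exact hgr i hi e he.1 he.2 _ (hs e)
        · simpa using hθ0) (fun e t => by
        simp only [hv]
        split_ifs with he
        · exact hstep e he.1 he.2 t _ (hs e)
        · simp only [zero_div, abs_zero]; positivity) h1 h2 h3
    refine ⟨A, fun e e' a1 a2 a3 a4 => ?_, hA2, fun z hz => le_trans ?_ (hA3 z)⟩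
    · have e1 : ∀ (Y : Fin Mt → ℤ) (e : Fin Mt), thick e = true → m.tree e = false →
          (fun t => ((Y + (s e : ℤ) • m.cyc e) t : ℝ)) = (fun t => (Y t : ℝ)) + v e := by
        intro Y e b1 b2
        funext t
        simp [hv, b1, b2]
      simp only [softW_eq hI]
      rw [e1 _ e' a3 a4, e1 _ e' a3 a4, e1 _ e a1 a2]
      exact hA1 e e'
    · have q1 : 1 / (4 * Q ^ 2) * ∑ e, z e ^ 2 ≤ ∑ t, (∑ e, z e * (v e t / sc t)) ^ 2 := by
        rw [mul_sum]
        refine sum_le_sum fun t _ => ?_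
        by_cases ht : thick t = true ∧ m.tree t = false
        · have e1 : ∑ e, z e * (v e t / sc t) = z t * (s t / sc t) := by
            rw [sum_eq_single t]
            · simp [hv, ht, hT.forest.cyc_apply t ht.2]
            · intro e _ he
              simp [hv, hT.forest.cyc_apply e ht.2, Ne.symm he]
            · simp
          have a1 : 1 / (2 * Q) ≤ s t / sc t := by
            rw [div_le_div_iff₀ (by positivity) (hsc t)]
            linarith [hs1 t ht.1 ht.2]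
          have a2 := pow_le_pow_left₀ (by positivity) a1 2
          rw [e1, mul_pow, mul_comm]
          refine mul_le_mul_of_nonneg_left (le_trans (le_of_eq ?_) a2) (sq_nonneg _)
          field_simp
          ring
        · rw [hz t ht]
          simpa using sq_nonneg _
      have q2 : 0 ≤ ∑ e, z e ^ 2 := sum_nonneg fun e _ => sq_nonneg _
      have q3 : 2 * d ^ 2 * Mt ≤ 1 / (4 * Q ^ 2) := by
        have : 0 ≤ (Mt : ℝ) * d ^ 2 := by positivity
        linarith
      have q4 := mul_le_mul_of_nonneg_right q3 q2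
      linarith

/-- The soft maximum is within a factor `e` of the maximum. -/
theorem soft_cmp {I : Finset ι} {ℓ : ι → ℝ} {β g : ℝ} (hβ : 0 < β) (hle : ∀ i ∈ I, ℓ i ≤ g)
    (heq : ∃ i ∈ I, ℓ i = g) (hcard : (I.card : ℝ) ≤ Real.exp β) :
    (∑ i ∈ I, Real.exp (β * ℓ i)) ^ (-1 / β) ≤ Real.exp (-g) ∧
      Real.exp (-g) ≤ 3 * (∑ i ∈ I, Real.exp (β * ℓ i)) ^ (-1 / β) := by
  obtain ⟨i, hi, he⟩ := heq
  have p0 : 0 < ∑ i ∈ I, Real.exp (β * ℓ i) := sum_pos (fun i _ => Real.exp_pos _) ⟨i, hi⟩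
  have h1 : Real.exp (β * g) ≤ ∑ i ∈ I, Real.exp (β * ℓ i) := by
    rw [← he]
    exact single_le_sum (f := fun i => Real.exp (β * ℓ i)) (fun j _ => (Real.exp_pos _).le) hi
  have h2 : ∑ i ∈ I, Real.exp (β * ℓ i) ≤ Real.exp (β + β * g) := by
    refine (sum_le_card_nsmul _ _ (Real.exp (β * g)) fun j hj => Real.exp_le_exp.2
      (mul_le_mul_of_nonneg_left (hle j hj) hβ.le)).trans ?_
    rw [nsmul_eq_mul, Real.exp_add]
    exact mul_le_mul_of_nonneg_right hcard (Real.exp_pos _).le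
  have h3 := Real.log_le_log (Real.exp_pos _) h1
  have h4 := Real.log_le_log p0 h2
  rw [Real.log_exp] at h3 h4
  rw [Real.rpow_def_of_pos p0]
  set L := Real.log (∑ i ∈ I, Real.exp (β * ℓ i))
  have e : L * (-1 / β) = -(L / β) := by ring
  have h5 : g ≤ L / β := by rw [le_div_iff₀ hβ]; linarith
  have h6 : L / β ≤ 1 + g := by rw [div_le_iff₀ hβ]; linarith
  rw [e]
  refine ⟨Real.exp_le_exp.2 (by linarith), le_trans ?_
    (mul_le_mul_of_nonneg_right Real.exp_one_lt_three.le (Real.exp_pos _).le)⟩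
  rw [← Real.exp_add]
  exact Real.exp_le_exp.2 (by linarith)

end Crest.Agent.R302
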