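import Crest.Agent.R302.Voc

/-!
# Row 302: shrinking with dithered rounding

Tent `Λ u = max 0 (1 - |u|)`.  `∑ i : ℤ, Λ (i + c) = 1` (only `i = ⌊-c⌋, ⌊-c⌋ + 1` contribute), and
`∑ i, Λ ((i + c) / (1 + θ)) ≤ 1 + 2 θ` (at most three consecutive terms).  Give the pair `(t, s)`, `t ∈ A`, `s = t + i`, the
weight `∏ j, Λ (s j - t j / (1 + θ))`.  For fixed `t` the weights add up to `1` and vanish unless `s ∈ B`; for fixed `s`,
`s j - t j / (1 + θ) = (i j + θ s j) / (1 + θ)` and `t` is determined by `i`, so they add up to at most `(1 + 2 θ) ^ m`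
(`Finset.prod_univ_sum` over a large enough box of `i`).
-/

set_option autoImplicit false

namespace Crest.Agent.R302

open Finset

/-- The tent. -/
noncomputable def shrinkL (u : ℝ) : ℝ := max 0 (1 - |u|)

theorem shrinkL_nonneg (u : ℝ) : 0 ≤ shrinkL u := le_max_left _ _

theorem shrink_one (c : ℝ) : ∑ x ∈ ({⌊-c⌋, ⌊-c⌋ + 1} : Finset ℤ), shrinkL (x + c) = 1 := by
  have a2 := Int.floor_le (-c)
  have a3 := Int.lt_floor_add_one (-c)
  rw [sum_pair (by omega), shrinkL, shrinkL]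
  push_cast
  rw [abs_of_nonpos (by linarith), abs_of_nonneg (by linarith), max_eq_right (by linarith),
    max_eq_right (by linarith)]
  ring

theorem shrink_two {θ : ℝ} (hθ0 : 0 ≤ θ) (hθ1 : θ ≤ 1 / 2) (c : ℝ) (T : Finset ℤ) :
    ∑ x ∈ T, shrinkL ((x + c) / (1 + θ)) ≤ 1 + 2 * θ := by
  have hl : 0 < 1 + θ := by linarith
  have e : ∀ u : ℝ, shrinkL (u / (1 + θ)) = max 0 (1 + θ - |u|) / (1 + θ) := fun u => by
    rw [shrinkL, abs_div, abs_of_pos hl, ← max_div_div_right hl.le, zero_div, sub_div,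
      div_self hl.ne']
  obtain ⟨k, hk⟩ : ∃ k : ℤ, |k + c| ≤ 1 / 2 :=
    ⟨round (-c), by
      rw [show (round (-c) : ℝ) + c = -(-c - round (-c)) by ring, abs_neg]; exact abs_sub_round _⟩
  have hk' := abs_le.1 hk
  have h1 : ∑ x ∈ T, shrinkL ((x + c) / (1 + θ)) ≤
      ∑ x ∈ ({k - 1, k, k + 1} : Finset ℤ), shrinkL ((x + c) / (1 + θ)) := by
    rw [← sum_filter_ne_zero T]
    refine sum_le_sum_of_subset_of_nonneg ?_ ?_
    · intro x hx
      replace hx := (mem_filter.1 hx).2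
      by_contra hn
      refine hx ?_
      simp only [mem_insert, mem_singleton, not_or] at hn
      rw [e, max_eq_left, zero_div]
      rcases (by omega : x ≤ k - 2 ∨ k + 2 ≤ x) with a | a
      · have a' : (x : ℝ) ≤ k - 2 := by exact_mod_cast a
        linarith [neg_abs_le (x + c), hk'.2]
      · have a' : (k : ℝ) + 2 ≤ x := by exact_mod_cast a
        linarith [le_abs_self (x + c), hk'.1]
    · exact fun x _ _ => shrinkL_nonneg _
  refine h1.trans ?_
  rw [sum_insert (by simp; omega), sum_pair (by omega), e, e, e, ← add_div, ← add_div,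
    div_le_iff₀ hl]
  push_cast
  rw [abs_of_nonpos (show (k : ℝ) - 1 + c ≤ 0 by linarith),
    abs_of_nonneg (show 0 ≤ (k : ℝ) + 1 + c by linarith)]
  have b1 := le_abs_self ((k : ℝ) + c)
  have b2 := neg_abs_le ((k : ℝ) + c)
  have b3 := abs_nonneg ((k : ℝ) + c)
  have b4 := mul_nonneg hθ0 hθ0
  rw [max_eq_right (show 0 ≤ 1 + θ - |(k : ℝ) + c| by linarith)]
  rcases le_total 0 (1 + θ - -((k : ℝ) - 1 + c)) with a | a <;>
    rcases le_total 0 (1 + θ - ((k : ℝ) + 1 + c)) with a' | a' <;>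
    simp only [max_eq_right, max_eq_left, a, a'] <;> nlinarith

theorem shrink_pi {m : ℕ} {θ : ℝ} (hθ0 : 0 ≤ θ) (hθ1 : θ ≤ 1 / 2) (c : Fin m → ℝ)
    (I : Finset (Fin m → ℤ)) :
    ∑ i ∈ I, ∏ j, shrinkL ((i j + c j) / (1 + θ)) ≤ (1 + 2 * θ) ^ m := by
  calc _ ≤ ∑ i ∈ Fintype.piFinset fun j => I.image fun i => i j,
        ∏ j, shrinkL ((i j + c j) / (1 + θ)) :=
        sum_le_sum_of_subset_of_nonneg
          (fun i hi => Fintype.mem_piFinset.2 fun j => mem_image_of_mem _ hi)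
          fun i _ _ => prod_nonneg fun j _ => shrinkL_nonneg _
    _ = ∏ j, ∑ x ∈ I.image fun i => i j, shrinkL ((x + c j) / (1 + θ)) :=
        (prod_univ_sum (fun j => I.image fun i => i j)
          fun j (x : ℤ) => shrinkL ((x + c j) / (1 + θ))).symm
    _ ≤ ∏ _j : Fin m, (1 + 2 * θ) :=
        prod_le_prod (fun j _ => sum_nonneg fun _ _ => shrinkL_nonneg _)
          fun j _ => shrink_two hθ0 hθ1 _ _
    _ = _ := by simp

theorem shrink {m : ℕ} (A B : Finset (Fin m → ℝ)) {θ : ℝ} (hθ0 : 0 ≤ θ) (hθ1 : θ ≤ 1 / 2)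
    (h : ∀ t ∈ A, ∀ i : Fin m → ℤ, (∀ j, |t j + i j - t j / (1 + θ)| ≤ 1) →
      (fun j => t j + i j) ∈ B) :
    (A.card : ℝ) ≤ (1 + 2 * θ) ^ m * B.card := by
  classical
  have hl : 0 < 1 + θ := by linarith
  let c : (Fin m → ℝ) → Fin m → ℝ := fun t j => t j - t j / (1 + θ)
  let S : (Fin m → ℝ) → Finset (Fin m → ℤ) := fun t =>
    Fintype.piFinset fun j => {⌊-c t j⌋, ⌊-c t j⌋ + 1}
  let W : (Σ _ : Fin m → ℝ, Fin m → ℤ) → ℝ := fun p => ∏ j, shrinkL (p.2 j + c p.1 j)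
  let g : (Σ _ : Fin m → ℝ, Fin m → ℤ) → Fin m → ℝ := fun p j => p.1 j + p.2 j
  have h1 : (A.card : ℝ) = ∑ p ∈ A.sigma S, W p := by
    rw [sum_sigma, card_eq_sum_ones, Nat.cast_sum]
    refine sum_congr rfl fun t _ => ?_
    simp only [W, S]
    rw [← prod_univ_sum (fun j => ({⌊-c t j⌋, ⌊-c t j⌋ + 1} : Finset ℤ))
      fun j (x : ℤ) => shrinkL (x + c t j)]
    simp only [shrink_one, prod_const_one, Nat.cast_one]
  have h2 : ∀ p ∈ A.sigma S, g p ∈ B := by
    intro p hp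
    obtain ⟨hp1, hp2⟩ := mem_sigma.1 hp
    refine h p.1 hp1 p.2 fun j => ?_
    have a1 := Fintype.mem_piFinset.1 hp2 j
    have a2 := Int.floor_le (-c p.1 j)
    have a3 := Int.lt_floor_add_one (-c p.1 j)
    have e : p.1 j + p.2 j - p.1 j / (1 + θ) = p.2 j + c p.1 j := by simp only [c]; ring
    rw [e, abs_le]
    rcases mem_insert.1 a1 with a1 | a1
    · rw [a1]; constructor <;> linarith
    · rw [mem_singleton.1 a1]; push_cast; constructor <;> linarith
  rw [h1, ← sum_fiberwise_of_maps_to h2, mul_comm, ← nsmul_eq_mul]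
  refine sum_le_card_nsmul _ _ _ fun s _ => ?_
  have h3 : ∑ p ∈ (A.sigma S).filter (fun p => g p = s), W p =
      ∑ i ∈ ((A.sigma S).filter fun p => g p = s).image fun p => p.2,
        ∏ j, shrinkL ((i j + θ * s j) / (1 + θ)) := by
    rw [sum_image]
    · refine sum_congr rfl fun p hp => prod_congr rfl fun j _ => ?_
      rw [← (mem_filter.1 hp).2]
      congr 1
      simp only [c, g]
      field_simp
      ring
    · rintro ⟨t, i⟩ hp ⟨t', i'⟩ hp' (rfl : i = i')
      have e := (mem_filter.1 hp).2.trans (mem_filter.1 hp').2.symm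
      have : t = t' := funext fun j => add_right_cancel (congrFun e j)
      rw [this]
  rw [h3]
  exact shrink_pi hθ0 hθ1 _ _

end Crest.Agent.R302
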