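import Crest.Agent.R302.Dec
import Crest.Agent.R302.Shrink

/-!
# Row 302: relaxing the constraints that are far from a deep point changes the count a little

`N = card V ≤ z`, `θ = 1 / z ^ 3`, `cR y` is `y` as a real vector.
* `wb_core`: `Q` is a slice of `K'` whose differences are combinations of independent directions `ζ j`, long at points `Y j`
  of `K'`.  If `V` is empty or `Q` is empty this is trivial.  Put `o = (1 - m / (2N)) (y₀ + d / N²) + ∑ j, (Y j + z ^ 5 ζ j / 2) / (2N)`,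
  (`m ≤ N`), so `y - o = ∑ j, t y j • ζ j` for `y ∈ Q`, with `t` injective on `Q`.  Apply `shrink` to the images of `Q` and of
  `Q ∩ K`: for `|r j| ≤ 1` the point `y' = y + ∑ i j ζ j = o + (y - o) / (1 + θ) + ∑ r j ζ j` equals
  `y / (1 + θ) + θ / (1 + θ) • o'`, `o' = (1 - m / (2N)) (y₀ + d / N²) + ∑ j, (Y j + λ j ζ j) / (2N)`, `0 ≤ λ j ≤ z ^ 5`.  So
  `y' S ≤ ρ' S`, and if `ρ S < ρ' S` then `ρ' S - (y₀ + d / N²) S ≥ (ρ S - x S - 2 z ^ 11) / N² ≥ 4 z ^ 3 (ρ' S - ρ S)`, hence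
  `ρ' S - y' S ≥ θ / (1 + θ) * 2 z ^ 3 (ρ' S - ρ S) ≥ ρ' S - ρ S`.
* `wb`: strong induction on `finrank Λ` for slices `Q = {y ∈ K' | cR (y - y₀) ∈ Λ}` such that every direction long at a point of
  `Q` lies in `Λ` (start with `Λ = ⊤`).  Let `Λ' ≤ Λ` be the span of these directions.  If `Λ' < Λ` split `Q` along the classes modulo `Λ'`
  (`Finset.card_eq_sum_card_fiberwise`, `Λ'.mkQ`).  Otherwise extract a basis of `Λ` from the long directions
  (`exists_linearIndependent`), take `y₀ ∈ Q`, `d` from `dec`, and use `wb_core`.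
-/

set_option autoImplicit false

namespace Crest.Agent.R302

open Finset Crest.Agent.R309

variable {V E : Type} [Fintype V] [DecidableEq V] [Fintype E] [DecidableEq E]

/-- An integer vector as a real vector. -/
def cR (y : V → ℤ) (a : V) : ℝ := y a

omit [Fintype V] [DecidableEq V] in
theorem wb_cR_add (x y : V → ℤ) : cR (x + y) = cR x + cR y := by
  funext a; simp [cR]

omit [Fintype V] [DecidableEq V] in
theorem wb_cR_sub (x y : V → ℤ) : cR (x - y) = cR x - cR y := by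
  funext a; simp [cR]

omit [Fintype V] [DecidableEq V] in
theorem wb_cR_smul (c : ℤ) (x : V → ℤ) : cR (c • x) = (c : ℝ) • cR x := by
  funext a; simp [cR]

omit [Fintype V] [DecidableEq V] in
theorem wb_cR_sum {m : ℕ} (i : Fin m → ℤ) (ζ : Fin m → V → ℤ) :
    cR (∑ j, i j • ζ j) = ∑ j, (i j : ℝ) • cR (ζ j) := by
  funext a; simp [cR, Finset.sum_apply]

omit [Fintype V] [DecidableEq V] in
theorem wb_cR_inj {x y : V → ℤ} (h : cR x = cR y) : x = y := by
  funext a
  have := congrFun h a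
  simp only [cR] at this
  exact_mod_cast this

omit [Fintype V] [DecidableEq V] in
theorem wb_sm_sum {m : ℕ} (i : Fin m → ℤ) (ζ : Fin m → V → ℤ) (S : Finset V) :
    sm (∑ j, i j • ζ j) S = ∑ j, i j * sm (ζ j) S := by
  simp only [sm, Finset.sum_apply, Pi.smul_apply, smul_eq_mul, mul_sum]
  exact sum_comm

omit [Fintype E] [DecidableEq V] in
theorem wb_push_sum (π : V → E) {m : ℕ} (i : Fin m → ℤ) (ζ : Fin m → V → ℤ) (e : E) :
    push π (∑ j, i j • ζ j) e = ∑ j, i j * push π (ζ j) e := wb_sm_sum i ζ _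

/-- The sum over `S` of a real vector. -/
def wbS (S : Finset V) : (V → ℝ) →ₗ[ℝ] ℝ where
  toFun v := ∑ a ∈ S, v a
  map_add' v w := by simp [sum_add_distrib]
  map_smul' c v := by simp [mul_sum]

omit [Fintype V] [DecidableEq V] in
theorem wbS_cR (S : Finset V) (y : V → ℤ) : wbS S (cR y) = sm y S := by
  simp [wbS, cR, sm]

/-- the real inequality behind `wb_core` -/
theorem wb_ineq {m : ℕ} {N z R y y₀ d σ : ℝ} {t i Y ζ : Fin m → ℝ} (hz : 64 ≤ z) (hN1 : 1 ≤ N)
    (hN : N ≤ z) (hm : (m : ℝ) ≤ N) (hy : y ≤ R) (hY : ∀ j, Y j ≤ R)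
    (hYζ : ∀ j, Y j + z ^ 5 * ζ j ≤ R)
    (ht : ∑ j, t j * ζ j = y - ((1 - m / (2 * N)) * (y₀ + d / N ^ 2) +
      ∑ j, (1 / (2 * N)) * (Y j + z ^ 5 / 2 * ζ j)))
    (hr : ∀ j, |t j + i j - t j / (1 + 1 / z ^ 3)| ≤ 1) (hσ : 0 ≤ σ)
    (hd : 4 * z ^ 3 * σ ≤ R - (y₀ + d / N ^ 2)) :
    y + ∑ j, i j * ζ j ≤ R - σ := by
  have hz0 : 0 < z := by linarith
  have hN0 : 0 < N := by linarith
  have hz3 : 0 < z ^ 3 := by positivity
  set r : Fin m → ℝ := fun j => t j + i j - t j / (1 + 1 / z ^ 3) with hrdef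
  set l : Fin m → ℝ := fun j => z ^ 5 / 2 + 2 * N * (z ^ 3 + 1) * r j with hl
  have hb : 2 * N * (z ^ 3 + 1) ≤ z ^ 5 / 2 := by
    have h1 : 2 * N * (z ^ 3 + 1) ≤ 2 * z * (z ^ 3 + 1) := by gcongr
    have h2 : 1 ≤ z ^ 3 := one_le_pow₀ (by linarith)
    have h3 : 64 * z ^ 4 ≤ z ^ 5 := by nlinarith [pow_pos hz0 4]
    nlinarith [pow_pos hz0 4]
  have hb0 : 0 ≤ 2 * N * (z ^ 3 + 1) := by positivity
  have hl0 : ∀ j, 0 ≤ l j ∧ l j ≤ z ^ 5 := fun j => by
    obtain ⟨h1, h2⟩ := abs_le.1 (hr j)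
    have h3 : 2 * N * (z ^ 3 + 1) * r j ≤ 2 * N * (z ^ 3 + 1) * 1 :=
      mul_le_mul_of_nonneg_left h2 hb0
    have h4 : 2 * N * (z ^ 3 + 1) * (-1) ≤ 2 * N * (z ^ 3 + 1) * r j :=
      mul_le_mul_of_nonneg_left h1 hb0
    simp only [hl]
    constructor <;> linarith
  have hz5 : 0 < z ^ 5 := by positivity
  have hYl : ∀ j, Y j + l j * ζ j ≤ R := fun j => by
    obtain ⟨h1, h2⟩ := hl0 j
    rcases le_total 0 (ζ j) with h | h
    · have := mul_le_mul_of_nonneg_right h2 h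
      linarith [hYζ j]
    · have := mul_nonpos_of_nonneg_of_nonpos h1 h
      linarith [hY j]
  have e1 : ∀ j, (z ^ 3 + 1) * (i j * ζ j) = -(t j * ζ j) + (z ^ 3 + 1) * (r j * ζ j) := fun j => by
    simp only [hrdef]
    field_simp
    ring
  have e2 : ∀ j, (1 / (2 * N)) * (Y j + z ^ 5 / 2 * ζ j) + (z ^ 3 + 1) * (r j * ζ j) =
      (1 / (2 * N)) * (Y j + l j * ζ j) := fun j => by
    simp only [hl]
    field_simp
    ring
  have e3 : (z ^ 3 + 1) * (y + ∑ j, i j * ζ j) = z ^ 3 * y + (1 - m / (2 * N)) * (y₀ + d / N ^ 2) +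
      ∑ j, (1 / (2 * N)) * (Y j + l j * ζ j) := by
    rw [mul_add, mul_sum, sum_congr rfl fun j _ => e1 j, sum_add_distrib, sum_neg_distrib, ht,
      ← sum_congr rfl fun j _ => e2 j, sum_add_distrib]
    ring
  have e4 : ∑ j, (1 / (2 * N)) * (Y j + l j * ζ j) ≤ m / (2 * N) * R := by
    refine (sum_le_sum fun j _ => mul_le_mul_of_nonneg_left (hYl j) (by positivity)).trans ?_
    simp only [sum_const, card_univ, Fintype.card_fin, nsmul_eq_mul]
    apply le_of_eq
    ring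
  have e5 : m / (2 * N) ≤ 1 / 2 := by
    rw [div_le_iff₀ (by positivity)]; linarith
  have e6 : (1 / 2) * (4 * z ^ 3 * σ) ≤ (1 - m / (2 * N)) * (R - (y₀ + d / N ^ 2)) :=
    mul_le_mul (by linarith) hd (by positivity) (by linarith)
  have h2 : 1 ≤ z ^ 3 := one_le_pow₀ (by linarith)
  refine le_of_mul_le_mul_left ?_ (show 0 < z ^ 3 + 1 by positivity)
  rw [e3]
  have e7 := mul_le_mul_of_nonneg_left hy hz3.le
  have e8 := mul_le_mul_of_nonneg_right h2 hσ
  nlinarith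

theorem wb_core {ρ ρ' : Finset V → ℤ} (hle : ∀ S, ρ S ≤ ρ' S) (π : V → E) {z : ℤ}
    (hz : 64 ≤ z) (hV : (Fintype.card V : ℤ) ≤ z) {x : V → ℤ}
    (hdeep : ∀ S, ρ S < ρ' S → 3 * z ^ 11 + 4 * z ^ 5 * (ρ' S - ρ S) ≤ ρ S - sm x S)
    (K Q : Finset (V → ℤ)) (hK : ∀ y, InK ρ π y → y ∈ K) {m : ℕ} (ζ Y : Fin m → V → ℤ)
    (hli : LinearIndependent ℝ fun j => cR (ζ j)) {y₀ d : V → ℤ}
    (hQ : ∀ y, y ∈ Q ↔ InK ρ' π y ∧ cR (y - y₀) ∈ Submodule.span ℝ (Set.range fun j => cR (ζ j)))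
    (hy₀ : y₀ ∈ Q) (hY : ∀ j, Y j ∈ Q ∧ Long ρ' π z (Y j) (ζ j))
    (hd : cR d ∈ Submodule.span ℝ (Set.range fun j => cR (ζ j)))
    (hdS : ∀ S, Fintype.card V ^ 2 * sm y₀ S + sm d S ≤ Fintype.card V ^ 2 * ρ' S ∧
      |sm d S - sm (x - y₀) S| ≤ 2 * z ^ 11) :
    (Q.card : ℝ) ≤ (1 + 2 / (z : ℝ) ^ 3) ^ Fintype.card V * (Q ∩ K).card := by
  classical
  have hz0 : (0 : ℤ) < z := by linarith
  have hzR : (64 : ℝ) ≤ z := by exact_mod_cast hz
  have hz3 : (2 : ℝ) ≤ (z : ℝ) ^ 3 := by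
    have : (64 : ℝ) ^ 3 ≤ (z : ℝ) ^ 3 := by gcongr
    linarith
  have hc1 : (1 : ℝ) ≤ 1 + 2 / (z : ℝ) ^ 3 := le_add_of_nonneg_right (by positivity)
  rcases Nat.eq_zero_or_pos (Fintype.card V) with hN | hN
  · have he : IsEmpty V := Fintype.card_eq_zero_iff.1 hN
    have hQK : Q ∩ K = Q := by
      refine inter_eq_left.2 fun y hy => hK y ⟨⟨fun S => ?_, ((hQ y).1 hy).1.1.2⟩, ((hQ y).1 hy).1.2⟩
      have h1 : sm y S = 0 := by simp [sm, Subsingleton.elim S ∅]
      have h2 : sm x S = 0 := by simp [sm, Subsingleton.elim S ∅]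
      rcases (hle S).lt_or_eq with h | h
      · have h3 := hdeep S h
        have h4 : 0 ≤ 3 * z ^ 11 + 4 * z ^ 5 * (ρ' S - ρ S) := by
          have := sub_nonneg.2 h.le
          positivity
        linarith
      · rw [h]; exact ((hQ y).1 hy).1.1.1 S
    rw [hQK, hN, pow_zero, one_mul]
  obtain ⟨N, hNdef⟩ : ∃ N : ℝ, N = (Fintype.card V : ℝ) := ⟨_, rfl⟩
  have hN1 : 1 ≤ N := by rw [hNdef]; exact_mod_cast hN
  have hNz : N ≤ z := by rw [hNdef]; exact_mod_cast hV
  have hmN : m ≤ Fintype.card V := by simpa using hli.fintype_card_le_finrank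
  have hmN' : (m : ℝ) ≤ N := by rw [hNdef]; exact_mod_cast hmN
  set W := Submodule.span ℝ (Set.range fun j => cR (ζ j)) with hW
  have hζW : ∀ j, cR (ζ j) ∈ W := fun j => Submodule.subset_span ⟨j, rfl⟩
  set o : V → ℝ := (1 - m / (2 * N)) • (cR y₀ + (1 / N ^ 2) • cR d) +
    ∑ j, (1 / (2 * N)) • (cR (Y j) + ((z : ℝ) ^ 5 / 2) • cR (ζ j)) with ho
  have hoW : o - cR y₀ ∈ W := by
    have e : o - cR y₀ = (1 - m / (2 * N)) • ((1 / N ^ 2) • cR d) +
        ∑ j, (1 / (2 * N)) • (cR (Y j - y₀) + ((z : ℝ) ^ 5 / 2) • cR (ζ j)) := by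
      funext a
      simp only [ho, wb_cR_sub, Pi.sub_apply, Pi.add_apply, Pi.smul_apply, Finset.sum_apply,
        smul_eq_mul, mul_add, mul_sub, sum_add_distrib, sum_sub_distrib, sum_const, card_univ,
        Fintype.card_fin, nsmul_eq_mul]
      ring
    rw [e]
    exact add_mem (W.smul_mem _ (W.smul_mem _ hd)) (sum_mem fun j _ => W.smul_mem _
      (add_mem ((hQ _).1 (hY j).1).2 (W.smul_mem _ (hζW j))))
  have hex : ∀ y : V → ℤ, ∃ c : Fin m → ℝ, y ∈ Q → ∑ j, c j • cR (ζ j) = cR y - o := fun y => by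
    by_cases hy : y ∈ Q
    · have h1 : cR y - o ∈ W := by
        have e : cR y - o = cR (y - y₀) - (o - cR y₀) := by rw [wb_cR_sub]; abel
        rw [e]
        exact sub_mem ((hQ y).1 hy).2 hoW
      obtain ⟨c, hc⟩ := (Submodule.mem_span_range_iff_exists_fun ℝ).1 h1
      exact ⟨c, fun _ => hc⟩
    · exact ⟨0, fun h => absurd h hy⟩
  choose t ht using hex
  have hinj : Set.InjOn t Q := fun y hy y' hy' h => by
    have h1 := ht y hy
    rw [h, ht y' hy'] at h1
    exact (wb_cR_inj (sub_left_injective h1)).symm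
  have hζ0 : ∀ j, sm (ζ j) univ = 0 := fun j => by
    have h1 := (hY j).2.1.2
    rw [sm_add, sm_smul, ((hQ _).1 (hY j).1).1.1.2, zero_add] at h1
    exact (mul_eq_zero.1 h1).resolve_left (pow_pos hz0 5).ne'
  have hζp : ∀ j e, push π (ζ j) e = 0 := fun j e => by
    have h1 := (hY j).2.2 e
    rw [push_add, push_smul, ((hQ _).1 (hY j).1).1.2, zero_add] at h1
    exact (mul_eq_zero.1 h1).resolve_left (pow_pos hz0 5).ne'
  have key := shrink (Q.image t) ((Q ∩ K).image t) (θ := 1 / (z : ℝ) ^ 3) (by positivity)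
    (one_div_le_one_div_of_le (by norm_num) hz3) (by
      intro s hs i hi
      obtain ⟨y, hy, rfl⟩ := mem_image.1 hs
      have hyK := ((hQ y).1 hy).1
      have h1 : InK ρ π (y + ∑ j, i j • ζ j) := by
        refine ⟨⟨fun S => ?_, ?_⟩, fun e => ?_⟩
        · have hS := congrArg (wbS S) (ht y hy)
          simp only [ho, map_sum, map_sub, map_add, map_smul, wbS_cR, smul_eq_mul] at hS
          have h2 := wb_ineq (N := N) (z := z) (R := ρ' S) (y := sm y S) (y₀ := sm y₀ S)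
            (d := sm d S) (σ := ρ' S - ρ S) (t := t y) (i := fun j => i j)
            (Y := fun j => sm (Y j) S) (ζ := fun j => sm (ζ j) S) hzR hN1 hNz hmN'
            (by exact_mod_cast hyK.1.1 S)
            (fun j => by exact_mod_cast ((hQ _).1 (hY j).1).1.1.1 S)
            (fun j => by
              have := (hY j).2.1.1 S
              rw [sm_add, sm_smul] at this
              exact_mod_cast this)
            (by rw [hS]; ring) hi (by have := hle S; rw [sub_nonneg]; exact_mod_cast this)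
            (by
              have hN2 : 0 < N ^ 2 := by positivity
              rcases (hle S).lt_or_eq with h | h
              · have h3 : (3 * z ^ 11 + 4 * z ^ 5 * (ρ' S - ρ S) : ℝ) ≤ ρ S - sm x S := by
                  exact_mod_cast hdeep S h
                have h4 : (sm d S : ℝ) ≤ sm x S - sm y₀ S + 2 * z ^ 11 := by
                  have := (abs_le.1 (hdS S).2).2
                  rw [sm_sub] at this
                  have h5 : sm d S ≤ sm x S - sm y₀ S + 2 * z ^ 11 := by linarith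
                  exact_mod_cast h5
                have h5 : (sm y₀ S : ℝ) ≤ ρ' S := by exact_mod_cast ((hQ _).1 hy₀).1.1.1 S
                have h6 : (ρ S : ℝ) ≤ ρ' S := by exact_mod_cast h.le
                have h7 : 1 ≤ N ^ 2 := one_le_pow₀ hN1
                have h8 : N ^ 2 ≤ (z : ℝ) ^ 2 := by gcongr
                have h9 : (0 : ℝ) ≤ (z : ℝ) ^ 11 := by positivity
                have h10 : sm d S / N ^ 2 ≤ ρ' S - sm y₀ S - 4 * (z : ℝ) ^ 3 * (ρ' S - ρ S) := by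
                  rw [div_le_iff₀ hN2]
                  have k1 := mul_le_mul_of_nonneg_left h7 (sub_nonneg.2 h5)
                  have k2 := mul_le_mul_of_nonneg_left h8
                    (show 0 ≤ 4 * (z : ℝ) ^ 3 * (ρ' S - ρ S) by
                      have := sub_nonneg.2 h6
                      positivity)
                  nlinarith
                linarith
              · have h3 : (N ^ 2 * sm y₀ S + sm d S : ℝ) ≤ N ^ 2 * ρ' S := by
                  rw [hNdef]; exact_mod_cast (hdS S).1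
                have h4 : sm d S / N ^ 2 ≤ ρ' S - sm y₀ S := by
                  rw [div_le_iff₀ hN2]; linarith
                rw [h, sub_self, mul_zero]
                linarith)
          rw [sm_add, wb_sm_sum]
          have h3 : ((sm y S + ∑ j, i j * sm (ζ j) S : ℤ) : ℝ) ≤ ρ S := by
            push_cast; linarith
          exact_mod_cast h3
        · rw [sm_add, wb_sm_sum, hyK.1.2]; simp [hζ0]
        · rw [push_add, wb_push_sum, hyK.2]; simp [hζp]
      have h2 : y + ∑ j, i j • ζ j ∈ Q := by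
        refine (hQ _).2 ⟨⟨⟨fun S => (h1.1.1 S).trans (hle S), h1.1.2⟩, h1.2⟩, ?_⟩
        rw [add_sub_right_comm, wb_cR_add, wb_cR_sum]
        exact add_mem ((hQ y).1 hy).2 (sum_mem fun j _ => W.smul_mem _ (hζW j))
      refine mem_image.2 ⟨_, mem_inter.2 ⟨h2, hK _ h1⟩, ?_⟩
      have h3 := ht _ h2
      rw [wb_cR_add, wb_cR_sum, add_sub_right_comm, ← ht y hy, ← sum_add_distrib] at h3
      simp only [← add_smul] at h3
      exact funext (Fintype.linearIndependent_iffₛ.1 hli _ _ h3))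
  rw [card_image_of_injOn hinj] at key
  refine key.trans ?_
  have e : (1 : ℝ) + 2 * (1 / (z : ℝ) ^ 3) = 1 + 2 / (z : ℝ) ^ 3 := by ring
  rw [e]
  exact mul_le_mul (pow_le_pow_right₀ hc1 hmN) (by exact_mod_cast card_image_le) (by positivity)
    (by positivity)

theorem wb {ρ ρ' : Finset V → ℤ} (h' : Nrm ρ') (hle : ∀ S, ρ S ≤ ρ' S) (π : V → E) {z : ℤ}
    (hz : 64 ≤ z) (hV : (Fintype.card V : ℤ) ≤ z) (hE : (Fintype.card E : ℤ) ≤ z) {x : V → ℤ}
    (hx : InB ρ x) (hnear : ∑ e, |push π x e| ≤ z ^ 4)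
    (hdeep : ∀ S, ρ S < ρ' S → 3 * z ^ 11 + 4 * z ^ 5 * (ρ' S - ρ S) ≤ ρ S - sm x S)
    (K K' : Finset (V → ℤ)) (hK : ∀ y, InK ρ π y → y ∈ K) (hK' : ∀ y, y ∈ K' ↔ InK ρ' π y) :
    (K'.card : ℝ) ≤ (1 + 2 / (z : ℝ) ^ 3) ^ Fintype.card V * K.card := by
  classical
  have hzR : (64 : ℝ) ≤ z := by exact_mod_cast hz
  have hc0 : (0 : ℝ) ≤ (1 + 2 / (z : ℝ) ^ 3) ^ Fintype.card V := by positivity
  have hx' : InB ρ' x := ⟨fun S => (hx.1 S).trans (hle S), hx.2⟩
  have main : ∀ (n : ℕ) (Λ : Submodule ℝ (V → ℝ)), Module.finrank ℝ Λ = n →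
      ∀ (Q : Finset (V → ℤ)) (y₀ : V → ℤ), y₀ ∈ Q → (∀ y, y ∈ Q ↔ InK ρ' π y ∧ cR (y - y₀) ∈ Λ) →
      (∀ y ∈ Q, ∀ ζ, Long ρ' π z y ζ → cR ζ ∈ Λ) →
      (Q.card : ℝ) ≤ (1 + 2 / (z : ℝ) ^ 3) ^ Fintype.card V * (Q ∩ K).card := by
    intro n
    induction n using Nat.strong_induction_on with
    | _ n ih =>
    intro Λ hn Q y₀ hy₀ hQ hL
    let ι := {p : (V → ℤ) × (V → ℤ) // p.1 ∈ Q ∧ Long ρ' π z p.1 p.2}
    let v : ι → V → ℝ := fun p => cR p.1.2
    set Λ' := Submodule.span ℝ (Set.range v) with hΛ'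
    have hmem : ∀ y ∈ Q, ∀ ζ, Long ρ' π z y ζ → cR ζ ∈ Λ' := fun y hy ζ h =>
      Submodule.subset_span ⟨⟨(y, ζ), hy, h⟩, rfl⟩
    have hle' : Λ' ≤ Λ := Submodule.span_le.2 (by
      rintro _ ⟨p, rfl⟩
      exact hL _ p.2.1 _ p.2.2)
    rcases hle'.lt_or_eq with hlt | heq
    · have hfr : Module.finrank ℝ Λ' < n := hn ▸ Submodule.finrank_lt_finrank_of_lt hlt
      let f : (V → ℤ) → (V → ℝ) ⧸ Λ' := fun y => Λ'.mkQ (cR y)
      rw [card_eq_sum_card_image f Q, card_eq_sum_card_fiberwise (f := f) (s := Q ∩ K)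
        (t := Q.image f) (fun y hy => mem_image_of_mem f (mem_inter.1 hy).1)]
      push_cast
      rw [mul_sum]
      refine sum_le_sum fun b hb => ?_
      obtain ⟨y₁, hy₁, rfl⟩ := mem_image.1 hb
      have hf : ∀ y, f y = f y₁ ↔ cR (y - y₁) ∈ Λ' := fun y => by
        rw [wb_cR_sub]
        exact Submodule.Quotient.eq Λ'
      rw [← filter_inter]
      refine ih _ hfr Λ' rfl _ y₁ (mem_filter.2 ⟨hy₁, rfl⟩) (fun y => ?_)
        (fun y hy ζ h => hmem y (mem_filter.1 hy).1 ζ h)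
      rw [mem_filter, hf, hQ]
      refine ⟨fun h => ⟨h.1.1, h.2⟩, fun h => ⟨⟨h.1, ?_⟩, h.2⟩⟩
      have e : y - y₀ = (y - y₁) + (y₁ - y₀) := by abel
      rw [e, wb_cR_add]
      exact add_mem (hle' h.2) ((hQ y₁).1 hy₁).2
    · obtain ⟨κ, a, -, hsp, hli⟩ := exists_linearIndependent' ℝ v
      have : Finite κ := hli.finite
      obtain ⟨m, ⟨e⟩⟩ := Finite.exists_equiv_fin κ
      have hli' : LinearIndependent ℝ fun j : Fin m => cR (a (e.symm j)).1.2 :=
        hli.comp e.symm e.symm.injective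
      have hsp' : Submodule.span ℝ (Set.range fun j : Fin m => cR (a (e.symm j)).1.2) = Λ := by
        rw [← heq, hΛ', ← hsp]
        congr 1
        exact e.symm.surjective.range_comp (v ∘ a)
      obtain ⟨d, hd, hdS⟩ := dec h' π hz hV hE hx' hnear ((hQ y₀).1 hy₀).1
      refine wb_core hle π hz hV hdeep K Q hK (fun j => (a (e.symm j)).1.2)
        (fun j => (a (e.symm j)).1.1) hli' (y₀ := y₀) (d := d) (by rw [hsp']; exact hQ) hy₀
        (fun j => (a (e.symm j)).2) ?_ hdS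
      rw [hsp']
      clear hdS
      induction hd using Submodule.span_induction with
      | mem ζ h => exact hL y₀ hy₀ ζ h
      | zero =>
        have : cR (0 : V → ℤ) = 0 := by funext a; simp [cR]
        rw [this]; exact zero_mem _
      | add u w _ _ hu hw => rw [wb_cR_add]; exact add_mem hu hw
      | smul c u _ hu => rw [wb_cR_smul]; exact Λ.smul_mem _ hu
  rcases K'.eq_empty_or_nonempty with h | ⟨y₀, hy₀⟩
  · rw [h, card_empty, Nat.cast_zero]; positivity
  · refine (main _ ⊤ rfl K' y₀ hy₀ (fun y => by simp [hK']) (fun _ _ _ _ => trivial)).trans ?_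
    exact mul_le_mul_of_nonneg_left (by exact_mod_cast card_le_card inter_subset_right) hc0

end Crest.Agent.R302
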