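import Crest.Agent.R302.Alg
import Crest.Agent.R302.Moves
import Crest.Agent.R302.Hyp
import Crest.Agent.R302.Soft
import Crest.Agent.R302.WB
import Crest.Agent.R309.Impl

/-!
# Row 302: the estimator (definitions only, complete)

`p : Pre` is an oracle, the size parameter `z`, a centre `y` and the table of classes.  `V = Fin (n + n)`, the cell `e`
goes from `e` to `n + e`.  Stage `s` uses the counter `jj s e ∈ [0, J]` for the cell `e` (width `om j / z ^ 18`, box
half-width `om j / z ^ 11`); the step `s → s + 1` increases the counter of the cell `s / J`.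
The auxiliary network `gam s` has nodes `(k, a) ↦ k N + a` (`k ≤ L`) and a hub `(L+1) N`; its cells are the `n` cells of the
chain (between nodes of level `L`) and one cell `n + k N + a` from the parent of `(k, a)` (the hub if `k = 0`) to `(k, a)`.
-/

set_option autoImplicit false

namespace Crest.Agent.R302

open Finset Crest.Agent.R309 Crest.Agent.Lib.PolyTime

/-- The submodular function on two copies of the ground set. -/
def rho (o : Ora) (l : List Bool) : ℤ :=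
  rk o false (l.take o.n) + rk o true (tab o.n fun i => !l.getD (o.n + i) false) -
    rk o true (tab o.n fun _ => true)

/-- The maximum spanning forest routine of row 309. -/
noncomputable def krus : Inst × ℤ → List ℕ × List (List ℤ) × List Bool := exists_krus.choose

/-- `(oracle, z, y, cls)`. -/
abbrev Pre : Type := Ora × ℕ × List ℤ × List (List ℕ)

namespace Pre

def o (p : Pre) : Ora := p.1
def z (p : Pre) : ℕ := p.2.1
def y (p : Pre) : List ℤ := p.2.2.1
def cls (p : Pre) : List (List ℕ) := p.2.2.2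

variable (p : Pre)

def n : ℕ := p.o.n
def N : ℕ := p.n + p.n
def L : ℕ := p.o.s
def zZ : ℤ := p.z

/-! ### The wall -/

def D0 : ℤ := p.zZ ^ (122 + 10 * p.L)
def ms : List ℤ := tab p.L fun k => p.zZ ^ (10 * (p.L - k))
def taus : List ℤ := tab p.L fun k => p.zZ ^ (61 + 10 * p.L - 5 * k)
def PP : ℤ := p.zZ ^ 4 * p.D0
/-- the value of the wall -/
noncomputable def gv (y : List ℤ) : ℤ :=
  evalG (rho p.o) (p.N, p.L, p.z ^ 4, p.cls, p.ms, p.taus, p.PP, y)
/-- width of the Gaussian on the class sums of level `k` -/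
def Wd (k : ℕ) : ℤ := p.zZ ^ (87 + 5 * k)

/-! ### Cells -/

def J : ℕ := 3 * p.z ^ 11
def jj (s e : ℕ) : ℕ := min p.J (s - e * p.J)
def om (j : ℕ) : ℤ := 2 ^ (j / p.z ^ 10) * ((p.z ^ 10 + j % p.z ^ 10 : ℕ) : ℤ)
def hb (j : ℕ) : ℤ := p.om j / p.zZ ^ 11
def c (e : ℕ) : ℤ := p.y.getD e 0
def loN (s e : ℕ) : ℤ := p.c e - p.hb (p.jj s e)
def hiN (s e : ℕ) : ℤ := p.c e + p.hb (p.jj s e)
/-- number of stages -/
def S : ℕ := p.n * p.J
/-- the cell changed by the step `s → s + 1` -/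
def cell (s : ℕ) : ℕ := s / p.J
/-- `ev a - ev w - del X` -/
def yN (X : List ℤ) (a w b : ℕ) : ℤ :=
  (if b = a then 1 else 0) - (if b = w then 1 else 0) +
    if b < p.n then X.getD b 0 else -X.getD (b - p.n) 0
def c0 : List ℤ := tab p.n p.c
/-- class sum of `y - y⁰` -/
def csN (X : List ℤ) (a w k r : ℕ) : ℤ :=
  (tab p.N fun b => if clsN p.cls k b = r then p.yN X a w b - p.yN p.c0 0 0 b else 0).sum

/-! ### The auxiliary network -/

def Mt : ℕ := p.n + (p.L + 1) * p.N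
def nv : ℕ := (p.L + 1) * p.N
def uG (t : ℕ) : ℕ := if t < p.n then p.L * p.N + (p.n + t) else t - p.n
def vG (t : ℕ) : ℕ :=
  if t < p.n then p.L * p.N + t
  else if t - p.n < p.N then p.nv
  else ((t - p.n) / p.N - 1) * p.N + clsN p.cls ((t - p.n) / p.N - 1) ((t - p.n) % p.N)
/-- `z ^ 18` times the width -/
def sc (s t : ℕ) : ℤ :=
  if t < p.n then p.om (p.jj s t) else p.zZ ^ 18 * p.Wd ((t - p.n) / p.N)
def thr : ℤ := p.zZ ^ 105 + 1
def gam (s : ℕ) : Inst :=
  (p.nv, tab p.Mt p.uG, tab p.Mt p.vG, tab p.Mt fun _ => 0, tab p.Mt (p.sc s), tab p.nv fun _ => 0)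
noncomputable def kr (s : ℕ) : List ℕ × List (List ℤ) × List Bool := krus (p.gam s, p.thr)
noncomputable def rootN (s a : ℕ) : ℕ := (p.kr s).1.getD a 0
noncomputable def pathN (s a t : ℕ) : ℤ := ((p.kr s).2.1.getD a []).getD t 0
noncomputable def tree (s t : ℕ) : Bool := (p.kr s).2.2.getD t false
def thick (s t : ℕ) : Bool := decide (p.thr ≤ p.sc s t)
noncomputable def free (s t : ℕ) : Bool := p.thick s t && !p.tree s t
noncomputable def st (s t : ℕ) : ℤ := if p.free s t = true then p.sc s t / p.zZ ^ 98 else 1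
noncomputable def cycN (s e t : ℕ) : ℤ :=
  (if t = e then 1 else 0) - p.pathN s (p.uG e) t + p.pathN s (p.vG e) t
noncomputable def paN (s a b t : ℕ) : ℤ :=
  p.pathN s (p.L * p.N + a) t - p.pathN s (p.L * p.N + b) t

/-! ### Weights -/

/-- number of bits of a random number -/
def K : ℕ := p.z ^ 4
/-- fixed point unit -/
def un : ℤ := 2 ^ p.z ^ 5
def gaussN (j e : ℕ) (x : ℤ) : ℤ := p.zZ ^ 36 * (x - p.c e) ^ 2 * p.un / p.om j ^ 2
/-- the potential in fixed point -/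
noncomputable def UN (s w : ℕ) (x : List ℤ × ℕ) : ℤ :=
  p.gv (tab p.N (p.yN x.1 x.2 w)) * p.un / p.D0 +
    (tab (p.L + 1) fun k => (tab p.N fun r => p.csN x.1 x.2 w k r ^ 2 * p.un / p.Wd k ^ 2).sum).sum +
    (tab p.n fun e => p.gaussN (p.jj s e) e (x.1.getD e 0)).sum
/-- `eN a / eD ≈ exp (a / un)`, with `a` clipped to `[0, z ^ 10 * un]` -/
def eN (a : ℤ) : ℤ :=
  tayN (p.z ^ 12) (if a < 0 then 0 else if p.zZ ^ 10 * p.un < a then p.zZ ^ 10 * p.un else a) p.un
def eD : ℤ := tayD (p.z ^ 12) p.un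

/-! ### The chain -/

def inOm (s : ℕ) (X : List ℤ) : Bool :=
  (List.range p.n).all fun e => decide (p.loN s e ≤ X.getD e 0) && decide (X.getD e 0 ≤ p.hiN s e)
noncomputable def mvN (s k i j : ℕ) (J : ℤ) (a : ℕ) : List ℤ × ℕ × ℕ :=
  if k = 0 then
    (if i < p.n then (tab p.n fun t => if t = i then 1 else 0, i, p.n + i) else (tab p.n fun _ => 0, a, a))
  else if k = 1 then
    (if i < p.N ∧ j < p.N then (tab p.n fun _ => 0, j, i) else (tab p.n fun _ => 0, a, a))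
  else if k = 2 then
    (if i < p.N ∧ j < p.N then (tab p.n (p.paN s i j), j, i) else (tab p.n fun _ => 0, a, a))
  else if k = 3 then
    (if i < p.Mt then (tab p.n fun t => p.st s i * p.cycN s i t, a, a) else (tab p.n fun _ => 0, a, a))
  else
    (if i < p.Mt then (tab p.n fun t => J % p.st s i * p.cycN s i t, a, a)
      else (tab p.n fun _ => 0, a, a))
def propN (x : List ℤ × ℕ) (sg : Bool) (r : List ℤ × ℕ × ℕ) : List ℤ × ℕ :=
  if sg = true then
    (if x.2 = r.2.1 then (tab p.n fun t => x.1.getD t 0 + r.1.getD t 0, r.2.2) else x)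
  else (if x.2 = r.2.2 then (tab p.n fun t => x.1.getD t 0 - r.1.getD t 0, r.2.1) else x)
def idx (τ : List Bool) : ℕ := (num (chunk p.K 1 τ) % ((5 * p.z ^ 2 : ℕ) : ℤ)).toNat
/-- the proposal read off the tape -/
noncomputable def propT (s : ℕ) (x : List ℤ × ℕ) (τ : List Bool) : List ℤ × ℕ :=
  p.propN x (τ.getD 1 false)
    (p.mvN s (p.idx τ / p.z ^ 2) (p.idx τ / p.z % p.z) (p.idx τ % p.z) (num (chunk p.K 2 τ)) x.2)
/-- `1 / ω a = rn / rd` -/
def rn (w : ℕ) (row : List (ℤ × ℤ)) (li : ℤ) (a : ℕ) : ℤ :=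
  (row.getD a (1, 1)).1 * (if a = w then 1 else li)
def rd (row : List (ℤ × ℤ)) (a : ℕ) : ℤ := (row.getD a (1, 1)).2
/-- one step, reading `4 K` bits -/
noncomputable def step (s w : ℕ) (row : List (ℤ × ℤ)) (li : ℤ) (x : List ℤ × ℕ) (τ : List Bool) :
    List ℤ × ℕ :=
  if τ.getD 0 false = true ∧ p.inOm s (p.propT s x τ).1 = true ∧
      num (chunk p.K 3 τ) * (rn w row li (p.propT s x τ).2 * rd row x.2 *
          p.eN (p.UN s w (p.propT s x τ) - p.UN s w x)) <
        2 ^ p.K * (rd row (p.propT s x τ).2 * rn w row li x.2 *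
          p.eN (p.UN s w x - p.UN s w (p.propT s x τ)))
  then p.propT s x τ else x
noncomputable def run (s w : ℕ) (row : List (ℤ × ℤ)) (li : ℤ) (X : List ℤ) (τ : List Bool) :
    List ℤ × ℕ :=
  foldT (fun _ => p.step s w row li) (4 * p.K) (p.z ^ 600) (X, w) τ
/-- length of the tape of `run` -/
def l1 : ℕ := p.z ^ 600 * (4 * p.K)

/-! ### Annealing and learning -/

/-- `hist[s][w][a]` is the estimate (numerator, denominator) of `Z s a w`. -/
abbrev Hist : Type := List (List (List (ℤ × ℤ)))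

def rowOf (h : Hist) (s w : ℕ) : List (ℤ × ℤ) := (h.getD s []).getD w []
noncomputable def transit (h : Hist) (i : ℕ) (X : List ℤ) (ω : List Bool) : List ℤ :=
  (p.run (i + 1) (p.cell i) (rowOf h i (p.cell i)) (p.zZ ^ 38) X ω).1
noncomputable def sample (h : Hist) (s : ℕ) (τ : List Bool) : List ℤ :=
  foldT (p.transit h) p.l1 s p.c0 τ
noncomputable def probeState (h : Hist) (s w : ℕ) (τ : List Bool) : List ℤ × ℕ :=
  p.run (s + 1) w (rowOf h s w) 1 (p.sample h (s + 1) τ) (chunk p.l1 (p.z ^ 13) τ)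
def coin (s : ℕ) (x : ℤ) (ω : List Bool) : Bool :=
  decide (p.loN s (p.cell s) ≤ x) && decide (x ≤ p.hiN s (p.cell s)) &&
    decide (num (ω.take p.K) * p.eN (p.gaussN (p.jj s (p.cell s)) (p.cell s) x -
      p.gaussN (p.jj s (p.cell s) + 1) (p.cell s) x) < 2 ^ p.K * p.eD)
noncomputable def probeA (h : Hist) (s w a : ℕ) (τ : List Bool) : Bool :=
  decide ((p.probeState h s w τ).2 = a)
noncomputable def probeB (h : Hist) (s w a : ℕ) (τ : List Bool) : Bool :=
  p.probeA h s w a τ &&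
    p.coin s ((p.probeState h s w τ).1.getD (p.cell s) 0) (chunk p.l1 (p.z ^ 13 + 1) τ)
def l2 : ℕ := (p.z ^ 13 + 2) * p.l1
noncomputable def stage (s : ℕ) (h : Hist) (τ : List Bool) : Hist :=
  h ++ [tab p.N fun w => tab p.N fun a =>
    (((rowOf h s w).getD a (1, 1)).1 * (hits (p.probeA h s w a) p.l2 (p.z ^ 56) τ : ℤ),
      ((rowOf h s w).getD a (1, 1)).2 * (hits (p.probeB h s w a) p.l2 (p.z ^ 56) τ : ℤ))]
def l3 : ℕ := p.z ^ 56 * p.l2
noncomputable def hist0 : Hist :=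
  [tab p.N fun w => tab p.N fun a => (p.eD, p.eN (p.UN 0 w (p.c0, a)))]
noncomputable def learn (τ : List Bool) : Hist := foldT p.stage p.l3 p.S p.hist0 τ
/-- slack of a set at `- del X` -/
def slack (X : List ℤ) (l : List Bool) : ℤ :=
  rho p.o l - (tab p.N fun b => if l.getD b false = true then p.yN X 0 0 b else 0).sum
/-- membership test -/
noncomputable def memb (X : List ℤ) : Bool :=
  decide (0 ≤ p.slack X (sfm (p.slack X) p.N (size X + p.L + p.N + 2)))
noncomputable def raw (τ : List Bool) : ℤ :=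
  if p.memb (p.sample (p.learn τ) p.S (chunk p.l3 (p.z ^ 13) τ)) = true then
    (2 * ((rowOf (p.learn τ) p.S 0).getD 0 (1, 1)).1 + ((rowOf (p.learn τ) p.S 0).getD 0 (1, 1)).2) /
      (2 * ((rowOf (p.learn τ) p.S 0).getD 0 (1, 1)).2)
  else 0
def l4 : ℕ := (p.z ^ 13 + 1) * p.l3
noncomputable def med (τ : List Bool) : ℤ := median (tab p.z fun i => p.raw (chunk p.l4 i τ))

/-! ### The mathematical model -/

abbrev V : Type := Fin (p.n + p.n)
def u (e : Fin p.n) : p.V := Fin.natAdd p.n e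
def v (e : Fin p.n) : p.V := Fin.castAdd p.n e
def lv : Lv p.V := lvL (p.n + p.n) p.L p.cls
def ys : p.V → ℤ := vecL (p.n + p.n) p.y
def cF (e : Fin p.n) : ℤ := p.c e
def lo (s : ℕ) (e : Fin p.n) : ℤ := p.loN s e
def hi (s : ℕ) (e : Fin p.n) : ℤ := p.hiN s e

/-- Hypotheses on a preprocessed instance with submodular function `ρ`. -/
structure OK (ρ : Finset p.V → ℤ) : Prop where
  rep : Rep (p.n + p.n) (rho p.o) ρ
  nrm : Nrm ρ
  bd : ∀ S, |ρ S| ≤ 2 ^ p.L
  n_pos : 0 < p.n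
  z_ge : 64 ≤ p.z
  size : (p.L + 2) * (p.n + p.n + 1) ≤ p.z
  ex : ∃ x, InK ρ (piN p.n) x
  cen : Centre ρ (piN p.n) p.lv p.zZ p.ys
  cls_lt : ∀ k ≤ p.L, ∀ a < p.n + p.n, clsN p.cls k a < p.n + p.n

variable (ρ : Finset p.V → ℤ)

def wall : Wall p.V := wallL (p.n + p.n) ρ p.L p.cls p.ms p.taus p.PP
noncomputable def kap (k : ℕ) : ℝ := 1 / (p.Wd k : ℝ) ^ 2
/-- base weight -/
noncomputable def F : (p.V → ℤ) → ℝ :=
  F0 (fun y => ((p.wall ρ).G y : ℝ) / p.D0) p.lv p.kap (-del p.u p.v p.cF)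
/-- weight of the cell `e` with counter `j` -/
noncomputable def fR (j e : ℕ) (x : ℤ) : ℝ :=
  Real.exp (-((p.z : ℝ) ^ 36 * ((x : ℝ) - p.c e) ^ 2 / (p.om j : ℝ) ^ 2))
noncomputable def f (s : ℕ) (e : Fin p.n) (x : ℤ) : ℝ := p.fR (p.jj s e) e x
/-- `∑ X, weight * G X` over the class with token `a`, anti-token `w` -/
noncomputable def Sg (s : ℕ) (a w : p.V) (G : (Fin p.n → ℤ) → ℝ) : ℝ :=
  SG p.u p.v (p.lo s) (p.hi s) (p.f s) (p.F ρ) (-ev w + ev a) G
noncomputable def Z (s : ℕ) (a w : p.V) : ℝ :=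
  ZG p.u p.v (p.lo s) (p.hi s) (p.f s) (p.F ρ) (-ev w + ev a)
/-- expectation under the law of stage `s` without tokens -/
noncomputable def mu (s : ℕ) (G : List ℤ → ℝ) : ℝ :=
  SG p.u p.v (p.lo s) (p.hi s) (p.f s) (p.F ρ) 0 (fun X => G (List.ofFn X)) /
    ZG p.u p.v (p.lo s) (p.hi s) (p.f s) (p.F ρ) 0
/-- density of the stage `s` with respect to the stage `s + 1` -/
noncomputable def psi (s : ℕ) (x : ℤ) : ℝ :=
  if p.loN s (p.cell s) ≤ x ∧ x ≤ p.hiN s (p.cell s) then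
    p.fR (p.jj s (p.cell s)) (p.cell s) x / p.fR (p.jj s (p.cell s) + 1) (p.cell s) x
  else 0
/-- list form of a state -/
def code (x : (Fin p.n → ℤ) × p.V) : List ℤ × ℕ := (List.ofFn x.1, x.2)
/-- class weights given by a row of estimates -/
noncomputable def omg (w : p.V) (row : List (ℤ × ℤ)) (li : ℤ) (a : p.V) : ℝ :=
  (rd row a : ℝ) / rn w row li a
noncomputable def Omg (s : ℕ) : Finset ((Fin p.n → ℤ) × p.V) := Om p.V (p.lo s) (p.hi s)
noncomputable def W (s : ℕ) (w : p.V) (ω : p.V → ℝ) : (Fin p.n → ℤ) × p.V → ℝ :=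
  Wt p.u p.v (p.f s) (p.F ρ) w ω
/-- expectation under the stationary law of the chain -/
noncomputable def piE (s : ℕ) (w : p.V) (row : List (ℤ × ℤ)) (li : ℤ) (G : List ℤ × ℕ → ℝ) : ℝ :=
  (∑ x ∈ p.Omg s, p.W ρ s w (p.omg w row li) x * G (p.code x)) /
    ∑ x ∈ p.Omg s, p.W ρ s w (p.omg w row li) x
/-- the row estimates the partition functions of stage `s` with relative error `ε` -/
def RowOK (s : ℕ) (w : p.V) (row : List (ℤ × ℤ)) (ε : ℝ) : Prop :=
  ∀ a : p.V, 0 < (row.getD a (1, 1)).1 ∧ 0 < (row.getD a (1, 1)).2 ∧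
    |((row.getD a (1, 1)).1 : ℝ) / (row.getD a (1, 1)).2 - p.Z ρ s a w| ≤ ε * p.Z ρ s a w
/-- the row estimates the partition functions of stage `s` up to a constant factor -/
def Crude (s : ℕ) (w : p.V) (row : List (ℤ × ℤ)) : Prop :=
  ∀ a : p.V, 0 < (row.getD a (1, 1)).1 ∧ 0 < (row.getD a (1, 1)).2 ∧
    ((row.getD a (1, 1)).1 : ℝ) / (row.getD a (1, 1)).2 ≤ 2 * p.Z ρ s a w ∧
    p.Z ρ s a w ≤ 18 * (((row.getD a (1, 1)).1 : ℝ) / (row.getD a (1, 1)).2)
def Good (s : ℕ) (h : Hist) : Prop :=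
  h.length = s + 1 ∧ ∀ i ≤ s, ∀ w : p.V,
    p.RowOK ρ i w (rowOf h i w) (1 / (p.z : ℝ) ^ 2 + i / (p.z : ℝ) ^ 15)
/-- the potential -/
noncomputable def U (s : ℕ) (w : p.V) (x : (Fin p.n → ℤ) × p.V) : ℝ :=
  ((p.wall ρ).G (-ev w + ev x.2 - del p.u p.v x.1) : ℝ) / p.D0 +
    ∑ k ∈ range (p.L + 1), ∑ r, p.kap k *
      (p.lv.cs k (-ev w + ev x.2 - del p.u p.v x.1 - -del p.u p.v p.cF) r : ℝ) ^ 2 +
    ∑ e : Fin p.n, (p.z : ℝ) ^ 36 * ((x.1 e : ℝ) - p.c e) ^ 2 / (p.om (p.jj s e) : ℝ) ^ 2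
open Classical in
/-- the objects to be counted -/
noncomputable def sol : Finset (Fin p.n → ℤ) :=
  (box (fun _ => -2 ^ p.L) fun _ => 2 ^ p.L).filter fun X => InB ρ (-del p.u p.v X)

/-! ### The auxiliary network as a model -/

/-- the flow of a state: `X` on the cells, class sums of `y` on the other edges -/
def liftY (s : ℕ) (X : Fin p.n → ℤ) (y : p.V → ℤ) (t : Fin (p.gam s).M) : ℤ :=
  if h : (t : ℕ) < p.n then X ⟨t, h⟩
  else ∑ b : p.V with (p.lv.cls ((t - p.n) / p.N) b : ℕ) = (t - p.n) % p.N, y b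
def lift (s : ℕ) (w : p.V) (x : (Fin p.n → ℤ) × p.V) : Fin (p.gam s).M → ℤ :=
  p.liftY s x.1 (-ev w + ev x.2 - del p.u p.v x.1)
def ext {m : ℕ} (Y : Fin m → ℤ) (i : ℕ) : ℤ := if h : i < m then Y ⟨i, h⟩ else 0
def pr (s : ℕ) (Y : Fin (p.gam s).M → ℤ) (e : Fin p.n) : ℤ := ext Y e
def tok (s : ℕ) (a : p.V) : (p.gam s).V := (p.gam s).vtx (p.L * p.N + a)
def ct (s : ℕ) : Fin (p.gam s).M → ℤ := p.liftY s p.cF (-del p.u p.v p.cF)
noncomputable def rad (s t : ℕ) : ℤ :=
  if p.tree s t = true then p.sc s t / p.zZ ^ 11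
  else if p.thick s t = true then 2 * p.zZ ^ 85 * p.st s t else p.sc s t / p.zZ ^ 13
noncomputable def mdl (s : ℕ) : Mdl (p.gam s).V (p.gam s).M where
  u := (p.gam s).u
  v := (p.gam s).v
  lo t := p.ct s t - p.rad s t
  hi t := p.ct s t + p.rad s t - if p.free s t = true then 1 else 0
  t := 0
  tree t := p.tree s t
  root a := (p.gam s).vtx (p.rootN s a)
  path a t := p.pathN s a t
  X0 := p.ct s
def thickF (s : ℕ) (t : Fin (p.gam s).M) : Bool := p.thick s t
noncomputable def sF (s : ℕ) (t : Fin (p.gam s).M) : ℕ := (p.st s t).toNat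
/-- the moves of stage `s` -/
noncomputable def mvs (s : ℕ) : Mv (p.n + p.n) p.n (p.gam s).M where
  u := p.u
  v := p.v
  pa a b := p.pr s ((p.mdl s).path (p.tok s a) - (p.mdl s).path (p.tok s b))
  cy e := p.pr s ((p.mdl s).cyc e)
  s := p.sF s
/-- the vector `y` of a flow -/
def yT (s : ℕ) (Y : Fin (p.gam s).M → ℤ) (a : p.V) : ℤ := ext Y (p.n + (p.L * p.N + a))
noncomputable def scR (s : ℕ) (t : Fin (p.gam s).M) : ℝ := (p.sc s t : ℝ) / (p.z : ℝ) ^ 18
/-- the weight of a flow -/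
noncomputable def muT (s : ℕ) (Y : Fin (p.gam s).M → ℤ) : ℝ :=
  Real.exp (-∑ t, ((Y t : ℝ) - p.ct s t) ^ 2 / p.scR s t ^ 2) *
    Real.exp (-(((p.wall ρ).G (p.yT s Y) : ℝ) / p.D0))

end Pre

end Crest.Agent.R302
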