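import Crest.Agent.R302.Samp
import Crest.Agent.R302.Ends
import Crest.Agent.R309.Learn

/-!
# Row 302: learning the partition functions

Adapt `R309/Learn.lean`.  `stage_good`: the means are `≥ 1/(324 z)` (`om_Z` with `crude`, `Z_succ`), `chebyshev` with `ζ = 1/z^20`, `k = z^56` fails
with probability `≤ 1/z^16` for each of the `2 N²` counts; `δ = 648 / z^19`, `ratio_close` with `a = hits B / k`, `b = hits A / k`.
`raw_good`: `Z_final` at the vertex `0`; the estimate is within `8/z² * cnt ≤ cnt / (2z)`.  `raw_fail`: `learn` reads at most `z^13 * l3` bits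
(`foldT_take`, `S_le`), the block number `z^13` is fresh (`Ex_fresh`); `learn_good`, `sample_close`, `mu_bad`.  `med_good`: `majority`, `median_mem`.
`med_zero`: all values of `raw` vanish (`memb_spec`), and the median of zeros is zero.
-/

set_option autoImplicit false

namespace Crest.Agent.R302.Pre

open Finset Crest.Agent.R309 Crest.Agent.Lib.PolyTime

variable {p : Pre} {ρ : Finset p.V → ℤ}

theorem OK.stage_good (h : p.OK ρ) {s : ℕ} (hs : s < p.S) {H : Hist} (hH : p.Good ρ s H) :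
    Ex p.l3 (fun τ => ind (¬ p.Good ρ (s + 1) (p.stage s H τ))) ≤ 2 / (p.z : ℝ) ^ 14 := by
  have hn : (64 : ℝ) ≤ p.z := h.zR_ge
  have hn0 : (0 : ℝ) < p.z := by linarith
  have hN : ((p.n + p.n : ℕ) : ℝ) ≤ p.z := by exact_mod_cast le_trans (by omega) h.N_le
  have : Nonempty p.V := ⟨⟨0, by have := h.n_pos; omega⟩⟩
  let bad : (List Bool → Bool) → List Bool → Prop := fun F τ =>
    1 / (p.z : ℝ) ^ 20 * (p.z ^ 56 : ℕ) ≤ |(hits F p.l2 (p.z ^ 56) τ : ℝ) -
      (p.z ^ 56 : ℕ) * Ex p.l2 fun ω => ind (F ω = true)|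
  have hbad : ∀ F, Ex p.l3 (fun τ => ind (bad F τ)) ≤ 1 / (p.z : ℝ) ^ 16 := fun F =>
    (chebyshev F le_rfl (by exact_mod_cast pow_pos hn0 56) (by positivity)).trans_eq
      (by push_cast; field_simp)
  have hclose : ∀ F τ (π : ℝ), ¬ bad F τ →
      |Ex p.l2 (fun ω => ind (F ω = true)) - π| ≤ 1 / (p.z : ℝ) ^ 20 → 1 / (324 * (p.z : ℝ)) ≤ π →
      |(hits F p.l2 (p.z ^ 56) τ : ℝ) / p.z ^ 56 - π| ≤ 648 / (p.z : ℝ) ^ 19 * π :=
    fun F τ π h1 h2 h3 => by
      have h4 : |(hits F p.l2 (p.z ^ 56) τ : ℝ) / p.z ^ 56 - Ex p.l2 fun ω => ind (F ω = true)| ≤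
          1 / (p.z : ℝ) ^ 20 := by
        rw [div_sub' (by positivity), abs_div, abs_of_pos (pow_pos hn0 _), div_le_iff₀ (by positivity)]
        simpa [bad] using (not_le.1 h1).le
      refine (abs_sub_le _ _ _).trans ((add_le_add h4 h2).trans
        (le_of_eq_of_le ?_ (mul_le_mul_of_nonneg_left h3 (by positivity))))
      field_simp
      norm_num
  calc _ ≤ Ex p.l3 fun τ => ∑ w : p.V, ∑ a : p.V,
        (ind (bad (p.probeA H s w a) τ) + ind (bad (p.probeB H s w a) τ)) := by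
        refine Ex_mono fun τ _ => le_trans (ind_mono fun hc => ?_) ((ind_exists_le univ fun w : p.V =>
          ∃ a ∈ (univ : Finset p.V), bad (p.probeA H s w a) τ ∨ bad (p.probeB H s w a) τ).trans
          (sum_le_sum fun w _ => (ind_exists_le _ _).trans (sum_le_sum fun a _ => ind_or_le _ _)))
        by_contra hg
        simp only [mem_univ, true_and, not_exists, not_or] at hg
        refine hc ⟨by simp [stage, hH.1], fun i hi w => ?_⟩
        rcases hi.lt_or_eq with hi | rfl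
        · have := hH.2 i (Nat.le_of_lt_succ hi) w
          rwa [rowOf, stage, List.getD_append _ _ _ _ (hH.1 ▸ hi)]
        intro a
        have hr := h.crude hs.le hH le_rfl hs w
        obtain ⟨a1, a2, a3⟩ := hH.2 s le_rfl w a
        obtain ⟨p1, p2⟩ := h.probe_close hs hH w a
        have hom := fun b => h.om_Z hr le_rfl b
        simp only [Int.cast_one, ite_self, mul_one, div_one] at hom
        have hZ := h.Z_pos s a w
        have hT : ∑ b, p.omg w (rowOf H s w) 1 b * p.Z ρ (s + 1) b w ≤ 18 * p.z :=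
          (sum_le_card_nsmul _ _ _ fun b _ => (hom b).2.2).trans (by
            rw [card_univ, Fintype.card_fin, nsmul_eq_mul]; linarith)
        have hT0 : 0 < ∑ b, p.omg w (rowOf H s w) 1 b * p.Z ρ (s + 1) b w :=
          sum_pos (fun b _ => mul_pos (hom b).1 (h.Z_pos (s + 1) b w)) univ_nonempty
        obtain ⟨o1, o2, -⟩ := hom a
        have z1 := mul_le_mul_of_nonneg_left (h.Z_succ hs a w).2 o1.le
        have q1 := hclose _ τ _ (hg w a).1 p1 (by
          rw [div_le_div_iff₀ (by positivity) hT0]; nlinarith)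
        have q2 := hclose _ τ _ (hg w a).2 p2 (by
          rw [div_le_div_iff₀ (by positivity) hT0]; nlinarith)
        rw [mul_div_right_comm] at q1 q2
        have hs' : (s : ℝ) ≤ p.z ^ 13 := by exact_mod_cast hs.le.trans h.S_le
        have n2 : (4096 : ℝ) ≤ p.z ^ 2 := by nlinarith
        have n2' : (4096 : ℝ) * 4096 ≤ p.z ^ 4 := by nlinarith
        have n3 : 8 * (648 / (p.z : ℝ) ^ 19) ≤ 1 / p.z ^ 15 := by
          field_simp; linarith
        have n4 : 1 / (p.z : ℝ) ^ 15 ≤ 1 := (div_le_one (by positivity)).2 (one_le_pow₀ (by linarith))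
        obtain ⟨r1, r2, r3⟩ := ratio_close hZ (h.Z_pos (s + 1) a w) (div_pos o1 hT0) q2 q1 a3
          (by linarith) (by
            have : (s : ℝ) / p.z ^ 15 ≤ 1 / p.z ^ 2 := by
              field_simp; linarith
            have : 1 / (p.z : ℝ) ^ 2 ≤ 1 / 4096 := one_div_le_one_div_of_le (by norm_num) n2
            linarith)
        rw [div_div_div_cancel_right₀ (by positivity)] at r3
        rw [div_pos_iff_of_pos_right (by positivity), Nat.cast_pos] at r1 r2
        rw [rowOf, stage, List.getD_append_right _ _ _ _ hH.1.le, hH.1, Nat.sub_self, List.getD_cons_zero,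
          getD_tab _ _ (show (w : ℕ) < p.N from w.2), getD_tab _ _ (show (a : ℕ) < p.N from a.2)]
        refine ⟨by positivity, by positivity, ?_⟩
        push_cast
        rw [mul_div_mul_comm]
        refine r3.trans (mul_le_mul_of_nonneg_right ?_ (h.Z_pos _ _ _).le)
        rw [add_div]
        linarith
    _ ≤ ∑ w : p.V, ∑ a : p.V, (1 / (p.z : ℝ) ^ 16 + 1 / (p.z : ℝ) ^ 16) := by
        simp only [Ex_sum, Ex_add]
        exact sum_le_sum fun w _ => sum_le_sum fun a _ => add_le_add (hbad _) (hbad _)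
    _ ≤ _ := by
        simp only [sum_const, card_univ, Fintype.card_fin, nsmul_eq_mul]
        refine le_of_le_of_eq (mul_le_mul hN (mul_le_mul_of_nonneg_right hN (by positivity))
          (by positivity) hn0.le) ?_
        field_simp
        norm_num

theorem OK.learn_good (h : p.OK ρ) {L : ℕ} (hL : p.z ^ 13 * p.l3 ≤ L) :
    Ex L (fun τ => ind (¬ p.Good ρ p.S (p.learn τ))) ≤ 1 / 32 := by
  have hn : (64 : ℝ) ≤ p.z := h.zR_ge
  refine (stages p.stage ((Nat.mul_le_mul_right _ h.S_le).trans hL) _ (p.Good ρ) h.good_zero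
    fun i hi H hH => h.stage_good hi hH).trans ?_
  have hs : (p.S : ℝ) ≤ p.z ^ 13 := by exact_mod_cast h.S_le
  refine (mul_le_mul_of_nonneg_right hs (by positivity)).trans ?_
  field_simp
  nlinarith

theorem OK.raw_good (h : p.OK ρ) {τ : List Bool} (hτ : p.Good ρ p.S (p.learn τ))
    (hm : p.memb (p.sample (p.learn τ) p.S (chunk p.l3 (p.z ^ 13) τ)) = true) :
    p.z * |p.raw τ - (p.sol ρ).card| ≤ ((p.sol ρ).card : ℤ) := by
  have hn : (64 : ℝ) ≤ p.z := h.zR_ge
  let o : p.V := ⟨0, by have := h.n_pos; omega⟩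
  obtain ⟨a1, a2, a3⟩ := hτ.2 p.S le_rfl o o
  obtain ⟨h1, h2⟩ := h.Z_final o
  have hZ := h.Z_pos p.S o o
  simp only [o] at a1 a2 a3
  unfold raw
  rw [if_pos hm]
  generalize ((rowOf (p.learn τ) p.S 0).getD 0 (1, 1)).1 = u at *
  generalize ((rowOf (p.learn τ) p.S 0).getD 0 (1, 1)).2 = v at *
  change |(u : ℝ) / v - p.Z ρ p.S o o| ≤ _ * p.Z ρ p.S o o at a3
  generalize p.Z ρ p.S o o = Z at *
  generalize (p.sol ρ).card = cnt at *
  have hv : (0 : ℝ) < v := by exact_mod_cast a2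
  have b1 : (((2 * u + v) / (2 * v) : ℤ) : ℝ) * (2 * v) ≤ 2 * u + v := by
    exact_mod_cast Int.ediv_mul_le _ (by omega)
  have b2 : (2 * u + v : ℝ) ≤ (((2 * u + v) / (2 * v) : ℤ) + 1) * (2 * v) := by
    exact_mod_cast (Int.lt_ediv_add_one_mul_self _ (by omega)).le
  generalize (2 * u + v) / (2 * v) = r at *
  have b3 : |(r : ℝ) - u / v| ≤ 1 / 2 := by
    rw [sub_div' hv.ne', abs_div, abs_of_pos hv, div_le_iff₀ hv, abs_le]
    constructor <;> linarith
  have hs : (p.S : ℝ) / p.z ^ 15 ≤ 1 / p.z ^ 2 := by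
    have : (p.S : ℝ) ≤ p.z ^ 13 := by exact_mod_cast h.S_le
    field_simp; linarith
  have hx : 1 / (p.z : ℝ) ^ 2 ≤ 1 / 64 * (1 / p.z) := by field_simp; linarith
  have hy : 1 / (p.z : ℝ) ≤ 1 / 64 := one_div_le_one_div_of_le (by norm_num) hn
  have hc : (0 : ℝ) ≤ cnt := Nat.cast_nonneg _
  rw [div_eq_mul_one_div 5] at h2
  have hx0 : (0 : ℝ) ≤ 1 / (p.z : ℝ) ^ 2 := by positivity
  have hy0 : (0 : ℝ) ≤ 1 / p.z := by positivity
  have c0 : |Z - cnt| ≤ 5 * (1 / (p.z : ℝ) ^ 2) * cnt := by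
    rw [abs_le]
    constructor <;> nlinarith [mul_nonneg hx0 hc]
  have c1 : Z ≤ 2 * cnt := by nlinarith
  have c2 : |(r : ℝ) - cnt| ≤ 1 / 2 + 1 / 2 * (1 / p.z) * cnt := by
    have := (abs_sub_le _ _ _).trans (add_le_add ((abs_sub_le _ _ _).trans (add_le_add b3 a3)) c0)
    nlinarith [mul_le_mul (by linarith : 1 / (p.z : ℝ) ^ 2 + p.S / p.z ^ 15 ≤ 2 / 64 * (1 / p.z))
      c1 hZ.le (by positivity), mul_le_mul_of_nonneg_right hx hc, mul_nonneg hy0 hc]
  have c3 : 2 * (p.z * |r - cnt|) ≤ p.z + (cnt : ℤ) := by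
    have := mul_le_mul_of_nonneg_left c2 (by linarith : (0 : ℝ) ≤ 2 * p.z)
    rw [show 2 * (p.z : ℝ) * (1 / 2 + 1 / 2 * (1 / p.z) * cnt) = p.z + cnt by field_simp,
      mul_assoc] at this
    exact_mod_cast this
  rcases (abs_nonneg (r - cnt)).eq_or_lt with h0 | h0
  · simp [← h0]
  · nlinarith [Int.natCast_nonneg p.z]

theorem OK.learn_take (h : p.OK ρ) (τ : List Bool) :
    p.learn (τ.take (p.z ^ 13 * p.l3)) = p.learn τ :=
  foldT_take _ (Nat.mul_le_mul_right _ h.S_le) _ _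

theorem OK.raw_fail (h : p.OK ρ) :
    Ex p.l4 (fun τ => ind (((p.sol ρ).card : ℤ) < p.z * |p.raw τ - (p.sol ρ).card|)) ≤ 1 / 16 := by
  have hn : (64 : ℝ) ≤ p.z := h.zR_ge
  have hz := h.z_ge
  have hl : p.z ^ 13 * p.l1 ≤ p.l3 := by
    unfold l3 l2
    calc p.z ^ 13 * p.l1 ≤ 1 * ((p.z ^ 13 + 2) * p.l1) := by
          rw [one_mul]; exact Nat.mul_le_mul_right _ (by omega)
      _ ≤ _ := Nat.mul_le_mul_right _ (Nat.one_le_pow _ _ (by omega))
  let F : List Bool → List Bool → ℝ := fun τ ω => ind (¬ p.Good ρ p.S (p.learn τ)) +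
    ind (p.Good ρ p.S (p.learn τ)) * ind (¬ p.memb (p.sample (p.learn τ) p.S ω) = true)
  have h1 : Ex p.l4 (fun τ => F τ (chunk p.l3 (p.z ^ 13) τ)) = Ex p.l4 fun τ => Ex p.l3 (F τ) :=
    Ex_fresh le_rfl F fun τ ω => by simp only [F, h.learn_take]
  have h2 : ∀ τ, Ex p.l3 (F τ) ≤ ind (¬ p.Good ρ p.S (p.learn τ)) + 1 / 32 := fun τ => by
    simp only [F, Ex_add, Ex_const, Ex_mul_left]
    refine add_le_add le_rfl ?_
    by_cases hg : p.Good ρ p.S (p.learn τ)
    · rw [ind_of hg, one_mul]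
      have e1 := h.sample_close le_rfl hg (Nat.le_succ _) le_rfl hl
        (fun X => ind (¬ p.memb X = true)) fun y => by
          rw [abs_of_nonneg (ind_nonneg _)]; exact ind_le_one _
      have e2 := h.mu_bad
      have n2 : (4096 : ℝ) ≤ p.z ^ 2 := by nlinarith
      have e3 : 1 / (p.z : ℝ) ^ 21 ≤ 1 / p.z ^ 2 :=
        one_div_le_one_div_of_le (by positivity) (pow_le_pow_right₀ (by linarith) (by norm_num))
      have e4 : 1 / (p.z : ℝ) ^ 2 ≤ 1 / 4096 := one_div_le_one_div_of_le (by norm_num) n2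
      rw [div_eq_mul_one_div 8] at e2
      linarith [(abs_le.1 e1).2]
    · rw [ind_of_not hg, zero_mul]; norm_num
  have h3 := h.learn_good (L := p.l4) (Nat.mul_le_mul_right _ (Nat.le_succ _))
  calc _ ≤ Ex p.l4 (fun τ => F τ (chunk p.l3 (p.z ^ 13) τ)) := by
        refine Ex_mono fun τ _ => ?_
        by_cases hg : p.Good ρ p.S (p.learn τ)
        · simp only [F, ind_of hg, ind_of_not (not_not.2 hg), one_mul, zero_add]
          exact ind_mono fun hc hm => hc.not_ge (h.raw_good hg hm)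
        · simp only [F, ind_of_not hg, ind_of (p := ¬ _) hg, zero_mul, add_zero]
          exact ind_le_one _
    _ ≤ Ex p.l4 fun τ => ind (¬ p.Good ρ p.S (p.learn τ)) + 1 / 32 := by
        rw [h1]; exact Ex_mono fun τ _ => h2 τ
    _ ≤ _ := by rw [Ex_add, Ex_const]; linarith

theorem OK.med_good (h : p.OK ρ) {L : ℕ} (hL : p.z ^ 700 ≤ L) :
    Ex L (fun τ => ind (((p.sol ρ).card : ℤ) < p.z * |p.med τ - (p.sol ρ).card|)) ≤
      (1 / 2) ^ p.z := by
  have hn := h.z_ge
  have hf := h.raw_fail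
  generalize ((p.sol ρ).card : ℤ) = cnt at *
  let F : List Bool → Bool := fun τ =>
    !(decide (cnt - cnt / p.z ≤ p.raw τ) && decide (p.raw τ ≤ cnt + cnt / p.z))
  have key : ∀ x : ℤ, (cnt - cnt / p.z ≤ x ∧ x ≤ cnt + cnt / p.z) ↔
      p.z * |x - cnt| ≤ cnt := fun x => by
    rw [mul_comm, ← Int.le_ediv_iff_mul_le (by omega), abs_le]; omega
  have hl : p.z * p.l4 ≤ p.z ^ 700 := by
    have h1 : p.z ^ 13 + 2 ≤ p.z ^ 14 := by
      nlinarith [Nat.one_le_pow 13 p.z (by omega), pow_succ p.z 13]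
    calc _ ≤ p.z * (p.z ^ 14 * (p.z ^ 56 * (p.z ^ 14 * (p.z ^ 600 * (p.z * p.z ^ 4))))) := by
          unfold l4 l3 l2 l1 K; gcongr <;> omega
      _ = p.z ^ 690 := by ring
      _ ≤ _ := Nat.pow_le_pow_right (by omega) (by norm_num)
  refine le_trans (Ex_mono fun τ _ => ind_mono fun hc => not_lt.1 fun h' => hc.not_ge ?_)
    (majority F (hl.trans hL) (le_trans (Ex_mono fun τ _ => ind_mono fun hc => not_le.1 fun hg => ?_)
      hf))
  · refine (key _).1 (median_mem ?_)
    rwa [length_tab, tab, List.filter_map, List.length_map]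
  · have := (key _).2 hg
    simp only [F, this, decide_true, Bool.and_self, Bool.not_true, Bool.false_eq_true] at hc

theorem median_zero {l : List ℤ} (hl : ∀ x ∈ l, x = 0) : median l = 0 := by
  unfold median
  generalize hm : List.filter _ l = m
  obtain _ | ⟨y, m⟩ := m
  · rfl
  · have h5 : y ∈ y :: m := by simp
    rw [← hm] at h5
    exact hl y (List.mem_filter.1 h5).1

theorem med_zero (hrep : Rep (p.n + p.n) (rho p.o) ρ) (hn : Nrm ρ) (hb : ∀ S, |ρ S| ≤ 2 ^ p.L)
    (h0 : ∀ X, ¬ InB ρ (-del p.u p.v X)) (τ : List Bool) : p.med τ = 0 := by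
  refine median_zero fun x hx => ?_
  obtain ⟨i, -, rfl⟩ := List.mem_map.1 hx
  unfold raw
  rw [if_neg fun hm => h0 _ ((memb_spec hrep hn hb _).1 hm)]

end Crest.Agent.R302.Pre
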