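import Crest.Agent.R302.Voc
import Crest.Agent.R309.LorB

/-!
# Row 302: the transport lemma for a general base weight

This is `R309/Lor.lean`, `R309/LorBS.lean`, `R309/LorB.lean` with `gq q` replaced by a function `F` satisfying `Base`;
copy the proofs (everything there that does not mention `gq`/`SB`/`ZB`/`DB` can be cited: `B_ge`, `pot_id`, `yk`,
`Qf_yk`, `sum_box_split`, `LC.remove`, …).  The only new points: the hypothesis `sm γ univ = -1` is carried along
(`sm_sub`, `sm_smul`, `sm_ev`), the test function is constant on the classes of `cl`, and in the base case the pairing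
is `∑ C, Y C * (g C - g w)` with `Y C = ∑ a ∈ C, y a * F (γ + ev a)`, `w` maximising `F (γ + ev a) / θ a`; for each class
use `Base.gap` at `α = γ - ev r` for one representative `r` (all `-Qf ≥ 0` by `gap`).
-/

set_option autoImplicit false
set_option linter.unusedSectionVars false

namespace Crest.Agent.R302

open Finset Crest.Agent.R309

variable {V : Type} [Fintype V] [DecidableEq V] {M : ℕ}

/-- Hyperbolic base weights with a gap along the classes of `cl`. -/
structure Base (F : (V → ℤ) → ℝ) (cl : V → V) (κ : ℝ) : Prop where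
  pos : ∀ y, 0 < F y
  gap : ∀ α, sm α univ = -2 → ∀ (r : V) (y : V → ℝ), ∑ a, y a * F (α + ev r + ev a) = 0 →
    κ * (∑ a with cl a = cl r, y a * F (α + ev r + ev a)) ^ 2 / F (α + ev r + ev r) ≤ -Qf F α y y

/-- `∑ X, wt X * F (β - del X) * G X`. -/
noncomputable def SG (u v : Fin M → V) (lo hi : Fin M → ℤ) (f : Fin M → ℤ → ℝ) (F : (V → ℤ) → ℝ)
    (β : V → ℤ) (G : (Fin M → ℤ) → ℝ) : ℝ :=
  ∑ X ∈ box lo hi, wt f X * F (β - del u v X) * G X

/-- Partition function. -/
noncomputable def ZG (u v : Fin M → V) (lo hi : Fin M → ℤ) (f : Fin M → ℤ → ℝ) (F : (V → ℤ) → ℝ)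
    (β : V → ℤ) : ℝ := SG u v lo hi f F β fun _ => 1

open Classical in
/-- Dirichlet form: unit moves on thin cells, and jumps of the token. -/
noncomputable def DG (u v : Fin M → V) (lo hi : Fin M → ℤ) (f : Fin M → ℤ → ℝ)
    (thin : Fin M → Prop) (F : (V → ℤ) → ℝ) (θ : V → ℝ) (γ : V → ℤ)
    (g : (Fin M → ℤ) → V → ℝ) : ℝ :=
  (∑ e ∈ univ.filter thin, ∑ X ∈ (box lo hi).filter (fun X => X + ec e ∈ box lo hi),
    min (wt f X / θ (v e)) (wt f (X + ec e) / θ (u e)) * F (γ + ev (v e) - del u v X) *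
      (g X (v e) - g (X + ec e) (u e)) ^ 2) +
  ∑ X ∈ box lo hi, ∑ a, ∑ b, wt f X *
    min (F (γ + ev a - del u v X) / θ a) (F (γ + ev b - del u v X) / θ b) * (g X a - g X b) ^ 2

section Split

variable (p : Fin (M + 1)) {u v : Fin (M + 1) → V} {lo hi : Fin (M + 1) → ℤ}
  {f : Fin (M + 1) → ℤ → ℝ} {F : (V → ℤ) → ℝ}

omit [Fintype V] in
theorem SG_split (β : V → ℤ) (G : (Fin (M + 1) → ℤ) → ℝ) :
    SG u v lo hi f F β G = ∑ k ∈ Icc (lo p) (hi p), f p k *
      SG (p.removeNth u) (p.removeNth v) (p.removeNth lo) (p.removeNth hi) (p.removeNth f) F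
        (β - k • (ev (u p) - ev (v p))) fun Y => G (p.insertNth k Y) := by
  unfold SG
  rw [sum_box_split p]
  refine sum_congr rfl fun k _ => ?_
  rw [mul_sum]
  refine sum_congr rfl fun Y _ => ?_
  rw [wt_ins, del_ins, sub_add_eq_sub_sub]
  ring

omit [Fintype V] in
theorem ZG_split (β : V → ℤ) :
    ZG u v lo hi f F β = ∑ k ∈ Icc (lo p) (hi p), f p k *
      ZG (p.removeNth u) (p.removeNth v) (p.removeNth lo) (p.removeNth hi) (p.removeNth f) F
        (β - k • (ev (u p) - ev (v p))) := SG_split p β _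

end Split

open Classical in
theorem DG_split (p : Fin (M + 1)) {u v : Fin (M + 1) → V} {lo hi : Fin (M + 1) → ℤ}
    {f : Fin (M + 1) → ℤ → ℝ} {thin : Fin (M + 1) → Prop} {κ : ℝ} {F : (V → ℤ) → ℝ} (hb : lo p ≤ hi p)
    (hf : LC lo hi f thin κ) (θ : V → ℝ) (γ : V → ℤ) (g : (Fin (M + 1) → ℤ) → V → ℝ) :
    DG u v lo hi f thin F θ γ g =
      (if thin p then ∑ k ∈ Ico (lo p) (hi p), min (f p k / θ (v p)) (f p (k + 1) / θ (u p)) *
        SG (p.removeNth u) (p.removeNth v) (p.removeNth lo) (p.removeNth hi) (p.removeNth f) F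
          (γ - k • (ev (u p) - ev (v p)) + ev (v p))
          (fun Y => (g (p.insertNth k Y) (v p) - g (p.insertNth (k + 1) Y) (u p)) ^ 2) else 0) +
      ∑ k ∈ Icc (lo p) (hi p), f p k *
        DG (p.removeNth u) (p.removeNth v) (p.removeNth lo) (p.removeNth hi) (p.removeNth f)
          (p.removeNth thin) F θ (γ - k • (ev (u p) - ev (v p))) fun Y => g (p.insertNth k Y) := by
  have hγ : ∀ (k : ℤ) (w : V) (D : V → ℤ), γ + ev w - (k • (ev (u p) - ev (v p)) + D) =
      γ - k • (ev (u p) - ev (v p)) + ev w - D := fun k w D => by abel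
  unfold DG
  simp only [sum_filter, mul_add, sum_add_distrib]
  rw [Fin.sum_univ_succAbove _ p, add_assoc]
  congr 1
  · split_ifs with ht
    · rw [sum_box_split p, lor_sum_top hb]
      have e0 : ∀ Y : Fin M → ℤ, ¬ ((p.insertNth (hi p) Y : Fin (M + 1) → ℤ) + ec p ∈ box lo hi) := by
        intro Y hY
        rw [ins_add_ec, ins_mem_box, mem_Icc] at hY
        omega
      simp only [e0, if_false, sum_const_zero, add_zero]
      refine sum_congr rfl fun k hk => ?_
      rw [mem_Ico] at hk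
      unfold SG
      rw [mul_sum]
      refine sum_congr rfl fun Y hY => ?_
      have hw := ((hf.remove p).wt_pos hY).le
      rw [ins_add_ec, if_pos ((ins_mem_box p).2 ⟨mem_Icc.2 ⟨by omega, by omega⟩, hY⟩), wt_ins, wt_ins,
        del_ins, hγ, mul_div_right_comm, mul_div_right_comm (f p (k + 1)), ← min_mul_of_nonneg _ _ hw]
      ring
    · rfl
  · congr 1
    · simp only [mul_sum]
      rw [sum_comm]
      refine sum_congr rfl fun e _ => ?_
      by_cases ht : thin (p.succAbove e)
      · have ht' : p.removeNth thin e := ht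
        simp only [if_pos ht, if_pos ht']
        rw [sum_box_split p]
        refine sum_congr rfl fun k hk => ?_
        rw [mul_sum]
        refine sum_congr rfl fun Y hY => ?_
        have hfk := (hf.pos p k (mem_Icc.1 hk).1 (mem_Icc.1 hk).2).le
        simp only [ins_add_ec', ins_mem_box, hk, true_and]
        split_ifs
        · rw [wt_ins, wt_ins, del_ins, hγ, mul_div_assoc, mul_div_assoc,
            ← mul_min_of_nonneg _ _ hfk]
          simp only [Fin.removeNth]
          ring
        · simp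
      · have ht' : ¬ p.removeNth thin e := ht
        simp only [if_neg ht, if_neg ht', mul_zero, sum_const_zero]
    · rw [sum_box_split p]
      refine sum_congr rfl fun k _ => ?_
      simp only [mul_sum]
      refine sum_congr rfl fun Y _ => sum_congr rfl fun a _ => sum_congr rfl fun b _ => ?_
      rw [wt_ins, del_ins, hγ, hγ]
      ring

/-- The base of the induction. -/
theorem transportG_base {κ : ℝ} {F : (V → ℤ) → ℝ} {cl : V → V} (hκ0 : 0 < κ) (hF : Base F cl κ)
    (θ : V → ℝ) (hθ : ∀ a, 0 < θ a) {t : ℝ} (ht : 0 < t) (γ : V → ℤ) (hγ : sm γ univ = -1)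
    (y : V → ℝ) (hy : ∑ a, y a * F (γ + ev a) = 0) (g : V → ℝ)
    (hj : ∀ a b, cl a = cl b → g a = g b) :
    2 * |∑ a, y a * (F (γ + ev a) * g a)| ≤ t * (∑ c, θ c * -Qf F (γ - ev c) y y) +
      (∑ a, ∑ b, min (F (γ + ev a) / θ a) (F (γ + ev b) / θ b) * (g a - g b) ^ 2) /
        (t * κ) := by
  rcases isEmpty_or_nonempty V with hV | hV
  · simp
  set m : V → ℝ := fun a => F (γ + ev a) with hm
  have hm0 : ∀ a, 0 < m a := fun a => hF.pos _
  obtain ⟨w, -, hw⟩ := exists_max_image univ (fun a => m a / θ a) univ_nonempty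
  set Y : V → ℝ := fun r => ∑ a with cl a = cl r, y a * m a with hY
  have h1 : ∀ c, κ * Y c ^ 2 / m c ≤ -Qf F (γ - ev c) y y := fun c => by
    have := hF.gap (γ - ev c) (by rw [sm_sub, sm_ev, hγ]; simp) c y
      (by simpa only [sub_add_cancel] using hy)
    simpa only [sub_add_cancel] using this
  set s : V → V := Function.invFun cl with hs
  have hs1 : ∀ a, cl (s (cl a)) = cl a := fun a => Function.invFun_eq ⟨a, rfl⟩
  set R : Finset V := univ.filter fun r => s (cl r) = r with hR
  have h2 : ∑ a, y a * (m a * g a) = ∑ r ∈ R, Y r * (g r - g w) := by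
    have e : ∑ a, y a * (m a * g a) = ∑ a, y a * m a * (g a - g w) := by
      simp only [mul_sub, sum_sub_distrib, ← sum_mul]
      rw [hy, zero_mul, sub_zero]
      simp only [mul_assoc]
    rw [e, ← sum_fiberwise_of_maps_to (s := univ) (t := R) (g := fun a => s (cl a))
      (fun a _ => by simp only [hR, mem_filter, mem_univ, true_and, hs1])]
    refine sum_congr rfl fun r hr => ?_
    have hr' : s (cl r) = r := (mem_filter.1 hr).2
    simp only [hY]
    rw [sum_mul]
    refine sum_congr ?_ fun a ha => ?_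
    · ext a
      simp only [mem_filter, mem_univ, true_and]
      exact ⟨fun h => by rw [← h, hs1], fun h => by rw [h, hr']⟩
    · rw [hj a r (mem_filter.1 ha).2]
  have h3 : ∀ a, m a / θ a * (g a - g w) ^ 2 ≤
      ∑ b, min (m a / θ a) (m b / θ b) * (g a - g b) ^ 2 := fun a => by
    refine le_trans (le_of_eq ?_) (single_le_sum
      (f := fun b => min (m a / θ a) (m b / θ b) * (g a - g b) ^ 2) (fun b _ => ?_) (mem_univ w))
    · simp only [min_eq_left (hw a (mem_univ a))]
    · have := hm0 a; have := hm0 b; have := hθ a; have := hθ b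
      positivity
  have h4 : ∀ a, 2 * |Y a * (g a - g w)| ≤ t * (θ a * -Qf F (γ - ev a) y y) +
      (∑ b, min (m a / θ a) (m b / θ b) * (g a - g b) ^ 2) / (t * κ) := fun a => by
    have hθa := hθ a
    have hma := hm0 a
    have h4 := lor_amgm (x := g a - g w) (c := m a / θ a) (τ := t * κ) (Y a) (by positivity)
      (by positivity)
    have h5 := mul_le_mul_of_nonneg_left (h1 a) (mul_pos ht hθa).le
    have h6 := div_le_div_of_nonneg_right (h3 a) (mul_pos ht hκ0).le
    have e1 : t * κ * Y a ^ 2 / (m a / θ a) = t * θ a * (κ * Y a ^ 2 / m a) := by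
      field_simp
    rw [e1] at h4
    linarith
  change 2 * |∑ a, y a * (m a * g a)| ≤ _ + (∑ a, ∑ b, min (m a / θ a) (m b / θ b) * _) / _
  rw [h2, mul_sum, sum_div, ← sum_add_distrib]
  refine (mul_le_mul_of_nonneg_left (abs_sum_le_sum_abs _ _) zero_le_two).trans ?_
  rw [mul_sum]
  refine (sum_le_sum_of_subset_of_nonneg (subset_univ R) fun a _ _ => by positivity).trans ?_
  exact sum_le_sum fun a _ => h4 a

variable {u v : Fin M → V} {lo hi : Fin M → ℤ} {f : Fin M → ℤ → ℝ} {thin : Fin M → Prop} {κ : ℝ}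
  {F : (V → ℤ) → ℝ} {cl : V → V}

theorem ZG_pos (hb : ∀ e, lo e ≤ hi e) (hf : LC lo hi f thin κ) (hF : ∀ y, 0 < F y) (β : V → ℤ) :
    0 < ZG u v lo hi f F β :=
  sum_pos (fun X hX => by
    have := hf.wt_pos hX
    have := hF (β - del u v X)
    positivity) ⟨lo, mem_box.2 fun e => ⟨le_rfl, hb e⟩⟩

theorem SG_sub (β : V → ℤ) (G G' : (Fin M → ℤ) → ℝ) :
    SG u v lo hi f F β G - SG u v lo hi f F β G' = SG u v lo hi f F β fun X => G X - G' X := by
  simp only [SG, mul_sub, sum_sub_distrib]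

/-- The cost of one edge. -/
theorem edgeG_le (hf : LC lo hi f thin κ) (hF : ∀ y, 0 < F y) (β : V → ℤ) (G : (Fin M → ℤ) → ℝ) (p : ℝ)
    {c τ : ℝ} (hc : 0 < c) (hτ : 0 < τ) :
    2 * |p * SG u v lo hi f F β G| ≤ τ * p ^ 2 / c * ZG u v lo hi f F β +
      c * SG u v lo hi f F β (fun X => G X ^ 2) / τ := by
  unfold ZG SG
  rw [mul_sum, mul_sum, mul_sum, sum_div, ← sum_add_distrib]
  refine (mul_le_mul_of_nonneg_left (abs_sum_le_sum_abs _ _) zero_le_two).trans ?_
  rw [mul_sum]
  refine sum_le_sum fun X hX => ?_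
  have hw := mul_pos (hf.wt_pos hX) (hF (β - del u v X))
  have h := mul_le_mul_of_nonneg_left (lor_amgm (x := G X) p hc hτ) hw.le
  rw [mul_left_comm p, abs_mul, abs_of_pos hw]
  calc _ = wt f X * F (β - del u v X) * (2 * |p * G X|) := by ring
    _ ≤ _ := h
    _ = _ := by ring

/-- **Transport lemma**, additive form. -/
theorem transportG (huv : ∀ e, u e ≠ v e) (hb : ∀ e, lo e ≤ hi e) (hf : LC lo hi f thin κ)
    (hκ0 : 0 < κ) (hκ1 : κ ≤ 1 / 2) (hF : Base F cl κ) (θ : V → ℝ) (hθ : ∀ a, 0 < θ a)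
    {t : ℝ} (ht : 0 < t) (γ : V → ℤ) (hγ : sm γ univ = -1) (y : V → ℝ)
    (hy : ∑ a, y a * ZG u v lo hi f F (γ + ev a) = 0)
    (g : (Fin M → ℤ) → V → ℝ) (hg : Inv u v lo hi thin g)
    (hj : ∀ X ∈ box lo hi, ∀ a b, cl a = cl b → g X a = g X b) :
    2 * |∑ a, y a * SG u v lo hi f F (γ + ev a) fun X => g X a| ≤
      t * (∑ c, θ c * -Qf (ZG u v lo hi f F) (γ - ev c) y y) +
        DG u v lo hi f thin F θ γ g / (t * κ) := by
  classical
  induction M generalizing γ y with
  | zero =>
    have hbox : box lo hi = {fun e => e.elim0} := by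
      ext X; simp only [mem_box, IsEmpty.forall_iff, mem_singleton, true_iff]
      exact Subsingleton.elim _ _
    have hS : ∀ β G, SG u v lo hi f F β G = F β * G fun e => e.elim0 := fun β G => by
      simp [SG, hbox, wt, del]
    have hZ : ZG u v lo hi f F = F := funext fun β => by rw [ZG, hS, mul_one]
    have hD : DG u v lo hi f thin F θ γ g = ∑ a, ∑ b, min (F (γ + ev a) / θ a)
        (F (γ + ev b) / θ b) * (g (fun e => e.elim0) a - g (fun e => e.elim0) b) ^ 2 := by
      simp [DG, hbox, wt, del]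
    simp only [hS, hD]
    rw [hZ] at hy ⊢
    exact transportG_base hκ0 hF θ hθ ht γ hγ y hy _ (hj _ (by rw [hbox]; exact mem_singleton_self _))
  | succ M ih =>
    set p₀ : Fin (M + 1) := 0
    have hf' := hf.remove p₀
    have hb' : ∀ e, p₀.removeNth lo e ≤ p₀.removeNth hi e := fun e => hb _
    have hfp := hf.pos p₀
    have hb₀ := hb p₀
    set d : V → ℤ := ev (u p₀) - ev (v p₀) with hd
    set S' := SG (p₀.removeNth u) (p₀.removeNth v) (p₀.removeNth lo) (p₀.removeNth hi)
      (p₀.removeNth f) F with hS'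
    set Z' := ZG (p₀.removeNth u) (p₀.removeNth v) (p₀.removeNth lo) (p₀.removeNth hi)
      (p₀.removeNth f) F with hZ'
    have hZ0 : ∀ β, 0 < Z' β := ZG_pos hb' hf' hF.pos
    have e0 : ∀ (k : ℤ) (a : V), γ + ev a - k • d = γ - k • d + ev a := fun k a => by abel
    have e1 : ∀ k : ℤ, γ - (k + 1) • d + ev (u p₀) = γ - k • d + ev (v p₀) := fun k => by
      rw [add_smul, one_smul, hd]; abel
    set R : ℤ → ℝ := fun k => ∑ a, y a * Z' (γ - k • d + ev a) with hR
    set P : ℤ → ℝ := fun k => -(∑ l ∈ Icc (lo p₀) k, f p₀ l * R l) / Z' (γ - k • d + ev (v p₀))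
      with hP
    have hP0 : P (lo p₀ - 1) = 0 := by
      simp only [hP]
      rw [Finset.Icc_eq_empty (by omega)]; simp
    have hP1 : P (hi p₀) = 0 := by
      have : ∑ l ∈ Icc (lo p₀) (hi p₀), f p₀ l * R l = 0 := by
        rw [← hy]
        simp only [ZG_split p₀, hR, mul_sum, ← hd, e0]
        rw [sum_comm]
        exact sum_congr rfl fun a _ => sum_congr rfl fun k _ => by ring
      simp only [hP, this, neg_zero, zero_div]
    set Y : ℤ → V → ℝ := fun k => yk y (v p₀) (u p₀) (P k / f p₀ k) (P (k - 1) / f p₀ k) with hY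
    have hbal : ∀ k ∈ Icc (lo p₀) (hi p₀), ∑ a, Y k a * Z' (γ - k • d + ev a) = 0 := by
      intro k hk
      have hfk := (hfp k (mem_Icc.1 hk).1 (mem_Icc.1 hk).2).ne'
      have e2 := e1 (k - 1)
      rw [sub_add_cancel] at e2
      have e3 : ∑ l ∈ Icc (lo p₀) k, f p₀ l * R l =
          ∑ l ∈ Icc (lo p₀) (k - 1), f p₀ l * R l + f p₀ k * R k := by
        rw [lor_sum_top (mem_Icc.1 hk).1]
        congr 2
        ext l; simp only [mem_Ico, mem_Icc]; omega
      have h1 := (hZ0 (γ - k • d + ev (v p₀))).ne'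
      have h2 := (hZ0 (γ - (k - 1) • d + ev (v p₀))).ne'
      simp only [hY]
      rw [sum_yk, e2]
      change R k + _ - _ = 0
      simp only [hP]
      rw [e3]
      field_simp
      ring
    set E : ℤ → (Fin M → ℤ) → ℝ := fun k Y =>
      g (p₀.insertNth k Y) (v p₀) - g (p₀.insertNth (k + 1) Y) (u p₀) with hE
    -- pairing
    have hpair : ∑ a, y a * SG u v lo hi f F (γ + ev a) (fun X => g X a) =
        ∑ k ∈ Icc (lo p₀) (hi p₀), f p₀ k *
          ∑ a, Y k a * S' (γ - k • d + ev a) (fun X => g (p₀.insertNth k X) a) -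
        ∑ k ∈ Ico (lo p₀) (hi p₀), P k * S' (γ - k • d + ev (v p₀)) (E k) := by
      have ht := lor_tele hb₀ P
        (fun k => S' (γ - k • d + ev (v p₀)) fun X => g (p₀.insertNth k X) (v p₀))
        (fun k => S' (γ - k • d + ev (u p₀)) fun X => g (p₀.insertNth k X) (u p₀)) hP0 hP1
      simp only [e1, hS', SG_sub] at ht
      simp only [hE, hS']
      rw [← ht, ← sum_sub_distrib]
      simp only [SG_split p₀, mul_sum, ← hd, e0]
      rw [sum_comm]
      refine sum_congr rfl fun k hk => ?_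
      have hfk := (hfp k (mem_Icc.1 hk).1 (mem_Icc.1 hk).2).ne'
      rw [← mul_sum]
      simp only [hY]
      rw [sum_yk]
      simp only [mul_left_comm (y _) (f p₀ k), ← mul_sum]
      field_simp
      ring
    -- potential
    set W : V → ℤ → ℝ := fun c k => Z' (γ - ev c - k • d + ev (u p₀) + ev (v p₀)) with hW
    set B : V → ℝ := fun c => ∑ k ∈ Icc (lo p₀) (hi p₀), (P k ^ 2 * W c (k + 1) -
      2 * P k * P (k - 1) * W c k + P (k - 1) ^ 2 * W c (k - 1)) / f p₀ k with hB
    have hpot : ∀ c, ∑ k ∈ Icc (lo p₀) (hi p₀), f p₀ k * Qf Z' (γ - k • d - ev c) (Y k) (Y k) =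
        Qf (ZG u v lo hi f F) (γ - ev c) y y + B c := by
      intro c
      have h1 := pot_id Z' (u p₀) (v p₀) hb₀ (f p₀) P hfp hP0 hP1 (γ - ev c) y
      simp only [← hd] at h1
      simp only [sub_right_comm γ _ (ev c), hY, hB, hW]
      rw [h1]
      congr 1
      have e4 : ∀ (k : ℤ) (a b : V), γ - ev c + ev a + ev b - k • d =
          γ - ev c - k • d + ev a + ev b := fun k a b => by abel
      simp only [Qf, ZG_split p₀, mul_sum, ← hd, e4]
      rw [sum_comm]
      refine sum_congr rfl fun a _ => ?_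
      rw [sum_comm]
      exact sum_congr rfl fun b _ => sum_congr rfl fun k _ => by ring
    have hW0 : ∀ c k, 0 ≤ W c k := fun c k => (hZ0 _).le
    have hB0 : ∀ c, 0 ≤ B c := fun c => by
      have := B_ge (f p₀) (W c) P le_rfl zero_le_one hfp (hW0 c)
        (fun x h1 h2 => by simpa using hf.lc p₀ x h1 h2) hP0 hP1
      rwa [zero_mul] at this
    -- the edges of the cell `p₀`
    have hτ : 0 < t * κ := mul_pos ht hκ0
    have hedge : ∑ k ∈ Ico (lo p₀) (hi p₀), 2 * |P k * S' (γ - k • d + ev (v p₀)) (E k)| ≤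
        t * ∑ c, θ c * B c + (if thin p₀ then ∑ k ∈ Ico (lo p₀) (hi p₀),
          min (f p₀ k / θ (v p₀)) (f p₀ (k + 1) / θ (u p₀)) *
            S' (γ - k • d + ev (v p₀)) (fun X => E k X ^ 2) else 0) / (t * κ) := by
      have hθB : ∀ c, 0 ≤ θ c * B c := fun c => mul_nonneg (hθ c).le (hB0 c)
      split_ifs with hth
      · have hBc := fun c => B_ge (f p₀) (W c) P hκ0.le (by linarith) hfp (hW0 c)
          (hf.curv p₀ hth) hP0 hP1
        have h1 : θ (v p₀) * B (v p₀) + θ (u p₀) * B (u p₀) ≤ ∑ c, θ c * B c := by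
          rw [← sum_pair (f := fun c => θ c * B c) (huv p₀).symm]
          exact sum_le_sum_of_subset_of_nonneg (subset_univ _) fun c _ _ => hθB c
        have hθv := hθ (v p₀)
        have hθu := hθ (u p₀)
        have h2 := add_le_add (mul_le_mul_of_nonneg_left (hBc (v p₀)) hθv.le)
          (mul_le_mul_of_nonneg_left (hBc (u p₀)) hθu.le)
        refine le_trans ?_ (add_le_add_left (mul_le_mul_of_nonneg_left (h2.trans h1) ht.le) _)
        rw [mul_sum, mul_sum, mul_sum, mul_sum, ← sum_add_distrib, mul_sum, sum_div,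
          ← sum_add_distrib]
        refine sum_le_sum fun k hk => ?_
        rw [mem_Ico] at hk
        have hk0 := hfp k hk.1 hk.2.le
        have hk1 := hfp (k + 1) (by omega) (by omega)
        refine (edgeG_le hf' hF.pos _ (E k) (P k) (c := min (f p₀ k / θ (v p₀))
          (f p₀ (k + 1) / θ (u p₀))) (by positivity) hτ).trans (add_le_add_left ?_ _)
        have w1 : W (v p₀) (k + 1) = Z' (γ - k • d + ev (v p₀)) := by
          simp only [hW]; rw [← e1]; congr 1; abel
        have w2 : W (u p₀) k = Z' (γ - k • d + ev (v p₀)) := by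
          simp only [hW]; congr 1; abel
        have w3 := hW0 (v p₀) k
        have w4 := hW0 (u p₀) (k + 1)
        have w5 := hZ0 (γ - k • d + ev (v p₀))
        rw [w1, w2, ← hZ']
        have h3 : 1 / min (f p₀ k / θ (v p₀)) (f p₀ (k + 1) / θ (u p₀)) ≤
            θ (v p₀) / f p₀ k + θ (u p₀) / f p₀ (k + 1) := by
          rcases min_choice (f p₀ k / θ (v p₀)) (f p₀ (k + 1) / θ (u p₀)) with h | h <;>
            rw [h, one_div_div]
          · exact le_add_of_nonneg_right (by positivity)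
          · exact le_add_of_nonneg_left (by positivity)
        generalize Z' (γ - k • d + ev (v p₀)) = z at *
        calc _ = t * κ * P k ^ 2 * z *
              (1 / min (f p₀ k / θ (v p₀)) (f p₀ (k + 1) / θ (u p₀))) := by ring
          _ ≤ t * κ * P k ^ 2 * z * (θ (v p₀) / f p₀ k + θ (u p₀) / f p₀ (k + 1)) := by gcongr
          _ ≤ t * κ * P k ^ 2 * z * (θ (v p₀) / f p₀ k + θ (u p₀) / f p₀ (k + 1)) +
              t * κ * P k ^ 2 * (θ (v p₀) * W (v p₀) k / f p₀ (k + 1) +
                θ (u p₀) * W (u p₀) (k + 1) / f p₀ k) := le_add_of_nonneg_right (by positivity)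
          _ = _ := by ring
      · rw [zero_div, add_zero, sum_eq_zero]
        · exact mul_nonneg ht.le (sum_nonneg fun c _ => hθB c)
        intro k hk
        rw [mem_Ico] at hk
        have : S' (γ - k • d + ev (v p₀)) (E k) = 0 := by
          refine sum_eq_zero fun X hX => ?_
          have := hg p₀ hth _ ((ins_mem_box p₀).2 ⟨mem_Icc.2 ⟨hk.1, hk.2.le⟩, hX⟩)
            (by rw [ins_add_ec]; exact (ins_mem_box p₀).2 ⟨mem_Icc.2 ⟨by omega, by omega⟩, hX⟩)
          rw [ins_add_ec] at this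
          simp only [hE, this, sub_self, mul_zero]
        rw [this, mul_zero, abs_zero, mul_zero]
    -- the other cells
    have hγ' : ∀ k : ℤ, sm (γ - k • d) univ = -1 := fun k => by
      rw [sm_sub, sm_smul, hd, sm_sub, sm_ev, sm_ev, hγ]; simp
    have hrest := sum_le_sum fun k (hk : k ∈ Icc (lo p₀) (hi p₀)) => mul_le_mul_of_nonneg_left
      (ih (u := p₀.removeNth u) (v := p₀.removeNth v) (fun e => huv _) hb' hf' (γ - k • d) (hγ' k) (Y k)
        (hbal k hk) (fun X => g (p₀.insertNth k X)) (hg.remove p₀ hk)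
        (fun X hX => hj _ ((ins_mem_box p₀).2 ⟨hk, hX⟩))) (hfp k (mem_Icc.1 hk).1 (mem_Icc.1 hk).2).le
    have e5 : ∑ k ∈ Icc (lo p₀) (hi p₀), f p₀ k *
        ∑ c, θ c * -Qf Z' (γ - k • d - ev c) (Y k) (Y k) =
        ∑ c, θ c * -Qf (ZG u v lo hi f F) (γ - ev c) y y - ∑ c, θ c * B c := by
      simp only [mul_sum]
      rw [sum_comm, ← sum_sub_distrib]
      refine sum_congr rfl fun c _ => ?_
      rw [← mul_sub, ← neg_add', ← hpot, ← sum_neg_distrib, mul_sum]
      exact sum_congr rfl fun k _ => by ring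
    simp only [← hZ', ← hS', mul_add, sum_add_distrib, mul_left_comm (f p₀ _) t,
      ← mul_sum, ← mul_div_assoc, ← sum_div] at hrest
    rw [e5] at hrest
    rw [hpair, DG_split p₀ hb₀ hf, add_div]
    have h1 := abs_sub (∑ k ∈ Icc (lo p₀) (hi p₀), f p₀ k *
        ∑ a, Y k a * S' (γ - k • d + ev a) (fun X => g (p₀.insertNth k X) a))
      (∑ k ∈ Ico (lo p₀) (hi p₀), P k * S' (γ - k • d + ev (v p₀)) (E k))
    have h2 : 2 * |∑ k ∈ Icc (lo p₀) (hi p₀), f p₀ k *
        ∑ a, Y k a * S' (γ - k • d + ev a) (fun X => g (p₀.insertNth k X) a)| ≤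
        ∑ k ∈ Icc (lo p₀) (hi p₀), f p₀ k *
          (2 * |∑ a, Y k a * S' (γ - k • d + ev a) (fun X => g (p₀.insertNth k X) a)|) := by
      refine (mul_le_mul_of_nonneg_left (abs_sum_le_sum_abs _ _) zero_le_two).trans ?_
      rw [mul_sum]
      refine sum_le_sum fun k hk => le_of_eq ?_
      rw [abs_mul, abs_of_pos (hfp k (mem_Icc.1 hk).1 (mem_Icc.1 hk).2)]
      ring
    have h3 := mul_le_mul_of_nonneg_left (abs_sum_le_sum_abs
      (fun k => P k * S' (γ - k • d + ev (v p₀)) (E k)) (Ico (lo p₀) (hi p₀))) zero_le_two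
    rw [mul_sum] at h3
    simp only [← hd, ← hS']
    simp only [hE] at hedge h1 h3 ⊢
    linarith

/-- Hyperbolicity of the partition functions. -/
theorem QG_nonpos (huv : ∀ e, u e ≠ v e) (hb : ∀ e, lo e ≤ hi e) (hf : LC lo hi f thin κ)
    (hκ0 : 0 < κ) (hF : Base F cl κ) (α : V → ℤ) (hα : sm α univ = -2) (c : V) (y : V → ℝ)
    (hy : ∑ a, y a * ZG u v lo hi f F (α + ev c + ev a) = 0) :
    Qf (ZG u v lo hi f F) α y y ≤ 0 := by
  have hf' : LC lo hi f (fun _ => False) (min κ (1 / 2)) := ⟨hf.pos, hf.lc, fun _ h => h.elim⟩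
  have hF' : Base F cl (min κ (1 / 2)) := ⟨hF.pos, fun α hα r y hy => by
    refine le_trans ?_ (hF.gap α hα r y hy)
    exact div_le_div_of_nonneg_right (mul_le_mul_of_nonneg_right (min_le_left _ _) (sq_nonneg _))
      (hF.pos _).le⟩
  set S := ∑ c', -Qf (ZG u v lo hi f F) (α + ev c - ev c') y y with hS
  have key : ∀ ε : ℝ, 0 < ε → Qf (ZG u v lo hi f F) α y y ≤ ε * S := by
    intro ε hε
    have h := transportG huv hb hf' (lt_min hκ0 (by norm_num)) (min_le_right _ _) hF'
      (fun a => (if a = c then 1 else 0) + ε) (fun a => by split_ifs <;> positivity) one_pos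
      (α + ev c) (by rw [sm_add, sm_ev, hα]; simp) y hy (fun _ _ => 0) (fun _ _ _ _ _ => rfl)
      (fun _ _ _ _ _ => rfl)
    simp only [DG, SG, sub_self, ne_eq, OfNat.ofNat_ne_zero, not_false_eq_true, zero_pow, mul_zero,
      sum_const_zero, add_zero, zero_div, abs_zero, one_mul, add_mul, sum_add_distrib, ite_mul,
      zero_mul, sum_ite_eq', mem_univ, if_true, add_sub_cancel_right, ← mul_sum] at h
    linarith
  by_contra hpos
  push Not at hpos
  have h1 := key (Qf (ZG u v lo hi f F) α y y / (2 * (|S| + 1))) (by positivity)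
  have h2 : Qf (ZG u v lo hi f F) α y y / (2 * (|S| + 1)) * S ≤
      Qf (ZG u v lo hi f F) α y y / (2 * (|S| + 1)) * (|S| + 1) :=
    mul_le_mul_of_nonneg_left (by linarith [le_abs_self S]) (by positivity)
  have h3 : Qf (ZG u v lo hi f F) α y y / (2 * (|S| + 1)) * (|S| + 1) = Qf (ZG u v lo hi f F) α y y / 2 := by
    field_simp
  linarith

end Crest.Agent.R302
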