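import Crest.Agent.R302.LorHS

/-!
# Row 302: consequences of the transport lemma

Copy of `R309/LorBS.lean`, `R309/LorB.lean` (`ZB_two`, `ZB_tri`, `class_q`, `marg_lc`, `tilt_aux`, `tilt_q`) for `SG`, `ZG`, `DG`.
-/

set_option autoImplicit false
set_option linter.unusedSectionVars false

namespace Crest.Agent.R302

open Finset Crest.Agent.R309

variable {V : Type} [Fintype V] [DecidableEq V] {M : ℕ}
  {u v : Fin M → V} {lo hi : Fin M → ℤ} {f : Fin M → ℤ → ℝ} {thin : Fin M → Prop} {κ : ℝ}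
  {F : (V → ℤ) → ℝ} {cl : V → V}

theorem ZG_two (huv : ∀ e, u e ≠ v e) (hb : ∀ e, lo e ≤ hi e) (hf : LC lo hi f thin κ)
    (hκ0 : 0 < κ) (hF : Base F cl κ) (α : V → ℤ) (hα : sm α univ = -2) (a c : V) :
    ZG u v lo hi f F (α + ev a + ev a) * ZG u v lo hi f F (α + ev c + ev c) ≤
      ZG u v lo hi f F (α + ev a + ev c) ^ 2 := by
  have hcc := ZG_pos (u := u) (v := v) hb hf hF.pos (α + ev c + ev c)
  have h := QG_nonpos huv hb hf hκ0 hF α hα c
    (fun x => (if x = a then 1 else 0) + (if x = c then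
      -(ZG u v lo hi f F (α + ev a + ev c) / ZG u v lo hi f F (α + ev c + ev c)) else 0)) (by
      rw [LB.sum_two, add_right_comm α (ev c) (ev a)]
      field_simp
      ring)
  rw [LG.Qf_two] at h
  set A := ZG u v lo hi f F (α + ev a + ev a)
  set B := ZG u v lo hi f F (α + ev a + ev c)
  set C := ZG u v lo hi f F (α + ev c + ev c)
  have e : 1 ^ 2 * A + 2 * 1 * -(B / C) * B + (-(B / C)) ^ 2 * C = (A * C - B ^ 2) / C := by
    field_simp
    ring
  rw [e, div_nonpos_iff] at h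
  rcases h with h | h <;> linarith [h.1, h.2]

theorem ZG_tri (huv : ∀ e, u e ≠ v e) (hb : ∀ e, lo e ≤ hi e) (hf : LC lo hi f thin κ)
    (hκ0 : 0 < κ) (hF : Base F cl κ) (α : V → ℤ) (hα : sm α univ = -2) (a b c : V) :
    ZG u v lo hi f F (α + ev c + ev c) * ZG u v lo hi f F (α + ev a + ev b) ≤
      2 * ZG u v lo hi f F (α + ev c + ev a) * ZG u v lo hi f F (α + ev c + ev b) := by
  have hcc := ZG_pos (u := u) (v := v) hb hf hF.pos (α + ev c + ev c)
  have hca := ZG_pos (u := u) (v := v) hb hf hF.pos (α + ev c + ev a)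
  have hcb := ZG_pos (u := u) (v := v) hb hf hF.pos (α + ev c + ev b)
  have haa := ZG_pos (u := u) (v := v) hb hf hF.pos (α + ev a + ev a)
  have hbb := ZG_pos (u := u) (v := v) hb hf hF.pos (α + ev b + ev b)
  have s3 : ∀ (r s t : ℝ) (Φ : V → ℝ), ∑ x, ((if x = a then r else 0) + (if x = b then s else 0) +
      (if x = c then t else 0)) * Φ x = r * Φ a + s * Φ b + t * Φ c := by
    intro r s t Φ
    simp [add_mul, sum_add_distrib, ite_mul]
  have h := QG_nonpos huv hb hf hκ0 hF α hα c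
    (fun x => (if x = a then 1 / ZG u v lo hi f F (α + ev c + ev a) else 0) +
      (if x = b then 1 / ZG u v lo hi f F (α + ev c + ev b) else 0) +
      (if x = c then -2 / ZG u v lo hi f F (α + ev c + ev c) else 0)) (by
      rw [s3]
      field_simp
      ring)
  rw [LG.Qf_eq] at h
  simp only [s3] at h
  rw [add_right_comm α (ev a) (ev c), add_right_comm α (ev b) (ev c),
    add_right_comm α (ev b) (ev a)] at h
  set Caa := ZG u v lo hi f F (α + ev a + ev a)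
  set Cbb := ZG u v lo hi f F (α + ev b + ev b)
  set Cab := ZG u v lo hi f F (α + ev a + ev b)
  set Cca := ZG u v lo hi f F (α + ev c + ev a)
  set Ccb := ZG u v lo hi f F (α + ev c + ev b)
  set Ccc := ZG u v lo hi f F (α + ev c + ev c)
  have e : 1 / Cca * (1 / Cca * Caa + 1 / Ccb * Cab + -2 / Ccc * Cca) +
      1 / Ccb * (1 / Cca * Cab + 1 / Ccb * Cbb + -2 / Ccc * Ccb) +
      -2 / Ccc * (1 / Cca * Cca + 1 / Ccb * Ccb + -2 / Ccc * Ccc) =
      Caa / Cca ^ 2 + Cbb / Ccb ^ 2 + 2 * ((Ccc * Cab - 2 * Cca * Ccb) / (Ccc * Cca * Ccb)) := by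
    field_simp
    ring
  rw [e] at h
  have h1 : 0 < Caa / Cca ^ 2 := by positivity
  have h2 : 0 < Cbb / Ccb ^ 2 := by positivity
  have h3 : (Ccc * Cab - 2 * Cca * Ccb) / (Ccc * Cca * Ccb) ≤ 0 := by linarith
  have h4 : 0 < Ccc * Cca * Ccb := by positivity
  rw [div_nonpos_iff] at h3
  rcases h3 with h3 | h3 <;> linarith [h3.1, h3.2]

theorem classG (huv : ∀ e, u e ≠ v e) (hb : ∀ e, lo e ≤ hi e) (hf : LC lo hi f thin κ)
    (hκ0 : 0 < κ) (hκ1 : κ ≤ 1 / 2) (hF : Base F cl κ) (θ : V → ℝ) (hθ : ∀ a, 0 < θ a)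
    (γ : V → ℤ) (hγ : sm γ univ = -1) (g : (Fin M → ℤ) → V → ℝ) (hg : Inv u v lo hi thin g)
    (hj : ∀ X ∈ box lo hi, ∀ a b, cl a = cl b → g X a = g X b) (a b : V) :
    (SG u v lo hi f F (γ + ev a) (fun X => g X a) / ZG u v lo hi f F (γ + ev a) -
        SG u v lo hi f F (γ + ev b) (fun X => g X b) / ZG u v lo hi f F (γ + ev b)) ^ 2 ≤
      4 * (∑ c, θ c / ZG u v lo hi f F (γ + ev c)) * (DG u v lo hi f thin F θ γ g / κ) := by
  have hZ : ∀ β, 0 < ZG u v lo hi f F β := fun β => ZG_pos hb hf hF.pos β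
  have hD := LG.DG_nonneg (u := u) (v := v) hf (fun y => (hF.pos y).le) hθ γ g
  refine sq_le_of_forall_amgm ?_ (by positivity) fun t ht => ?_
  · exact mul_nonneg (by norm_num) (sum_nonneg fun c _ => div_nonneg (hθ c).le (hZ _).le)
  have ha := hZ (γ + ev a)
  have hb' := hZ (γ + ev b)
  have h := transportG huv hb hf hκ0 hκ1 hF θ hθ ht γ hγ
    (fun x => (if x = a then 1 / ZG u v lo hi f F (γ + ev a) else 0) +
      (if x = b then -(1 / ZG u v lo hi f F (γ + ev b)) else 0)) (by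
      rw [LB.sum_two]
      field_simp
      ring) g hg hj
  rw [LB.sum_two] at h
  have e1 : SG u v lo hi f F (γ + ev a) (fun X => g X a) / ZG u v lo hi f F (γ + ev a) -
      SG u v lo hi f F (γ + ev b) (fun X => g X b) / ZG u v lo hi f F (γ + ev b) =
      1 / ZG u v lo hi f F (γ + ev a) * SG u v lo hi f F (γ + ev a) (fun X => g X a) +
      -(1 / ZG u v lo hi f F (γ + ev b)) * SG u v lo hi f F (γ + ev b) (fun X => g X b) := by ring
  rw [e1]
  refine h.trans (add_le_add (mul_le_mul_of_nonneg_left ?_ ht.le) (le_of_eq (by field_simp)))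
  rw [mul_sum]
  refine sum_le_sum fun c _ => ?_
  rw [LG.Qf_two]
  have h3 := ZG_tri huv hb hf hκ0 hF (γ - ev c) (by rw [sm_sub, sm_ev, hγ]; simp) a b c
  simp only [sub_add_cancel] at h3
  have haa := hZ (γ - ev c + ev a + ev a)
  have hbb := hZ (γ - ev c + ev b + ev b)
  have hc := hZ (γ + ev c)
  have hθc := hθ c
  set Caa := ZG u v lo hi f F (γ - ev c + ev a + ev a)
  set Cbb := ZG u v lo hi f F (γ - ev c + ev b + ev b)
  set Cab := ZG u v lo hi f F (γ - ev c + ev a + ev b)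
  set Za := ZG u v lo hi f F (γ + ev a)
  set Zb := ZG u v lo hi f F (γ + ev b)
  set Zc := ZG u v lo hi f F (γ + ev c)
  have h4 : 2 * (Cab / (Za * Zb)) ≤ 4 / Zc := by
    rw [← mul_div_assoc, div_le_div_iff₀ (by positivity) hc]
    nlinarith
  have h5 : -((1 / Za) ^ 2 * Caa + 2 * (1 / Za) * -(1 / Zb) * Cab + (-(1 / Zb)) ^ 2 * Cbb) ≤
      4 / Zc := by
    have e : 2 * (1 / Za) * -(1 / Zb) * Cab = -(2 * (Cab / (Za * Zb))) := by field_simp
    have p1 : 0 ≤ (1 / Za) ^ 2 * Caa := by positivity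
    have p2 : 0 ≤ (-(1 / Zb)) ^ 2 * Cbb := by positivity
    rw [e]
    linarith
  calc _ ≤ θ c * (4 / Zc) := mul_le_mul_of_nonneg_left h5 hθc.le
    _ = _ := by ring

theorem margG_lc {N : ℕ} {u v : Fin (N + 1) → V} {lo hi : Fin (N + 1) → ℤ}
    {f : Fin (N + 1) → ℤ → ℝ} {thin : Fin (N + 1) → Prop}
    (huv : ∀ e, u e ≠ v e) (hb : ∀ e, lo e ≤ hi e) (hf : LC lo hi f thin κ)
    (hκ0 : 0 < κ) (hF : Base F cl κ) (β : V → ℤ) (hβ : sm β univ = 0) (p : Fin (N + 1)) {x : ℤ} (hx : lo p < x)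
    (hx' : x < hi p) :
    (f p (x - 1) * ZG (LB.rm p u) (LB.rm p v) (LB.rm p lo) (LB.rm p hi) (LB.rm p f) F
        (β - (x - 1) • (ev (u p) - ev (v p)))) *
      (f p (x + 1) * ZG (LB.rm p u) (LB.rm p v) (LB.rm p lo) (LB.rm p hi) (LB.rm p f) F
        (β - (x + 1) • (ev (u p) - ev (v p)))) ≤
      (f p x * ZG (LB.rm p u) (LB.rm p v) (LB.rm p lo) (LB.rm p hi) (LB.rm p f) F
        (β - x • (ev (u p) - ev (v p)))) ^ 2 := by
  have hb' : ∀ e, LB.rm p lo e ≤ LB.rm p hi e := fun e => hb _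
  have h1 := ZG_two (u := LB.rm p u) (v := LB.rm p v) (fun e => huv _) hb'
    (LB.LC_rm hf p) hκ0 hF (β - x • (ev (u p) - ev (v p)) - ev (u p) - ev (v p))
    (by simp only [sm_sub, sm_smul, sm_ev, hβ]; simp) (u p) (v p)
  have e1 : β - x • (ev (u p) - ev (v p)) - ev (u p) - ev (v p) + ev (u p) + ev (u p) =
      β - (x - 1) • (ev (u p) - ev (v p)) := by rw [sub_smul, one_smul]; abel
  have e2 : β - x • (ev (u p) - ev (v p)) - ev (u p) - ev (v p) + ev (v p) + ev (v p) =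
      β - (x + 1) • (ev (u p) - ev (v p)) := by rw [add_smul, one_smul]; abel
  have e3 : β - x • (ev (u p) - ev (v p)) - ev (u p) - ev (v p) + ev (u p) + ev (v p) =
      β - x • (ev (u p) - ev (v p)) := by abel
  rw [e1, e2, e3] at h1
  have h2 := hf.lc p x hx hx'
  have p1 := ZG_pos (u := LB.rm p u) (v := LB.rm p v) hb' (LB.LC_rm hf p) hF.pos
    (β - (x - 1) • (ev (u p) - ev (v p)))
  have p2 := ZG_pos (u := LB.rm p u) (v := LB.rm p v) hb' (LB.LC_rm hf p) hF.pos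
    (β - (x + 1) • (ev (u p) - ev (v p)))
  have h3 := mul_le_mul h2 h1 (by positivity) (sq_nonneg _)
  calc _ = f p (x - 1) * f p (x + 1) * (_ * _) := by ring
    _ ≤ _ := h3
    _ = _ := by ring

/-- Additive form of `tilt_q` for a centred `h`. -/
theorem tiltG_aux {N : ℕ} {u v : Fin (N + 1) → V} {lo hi : Fin (N + 1) → ℤ}
    {f : Fin (N + 1) → ℤ → ℝ} {thin : Fin (N + 1) → Prop} {Φ : (V → ℤ) → ℝ}
    (huv : ∀ e, u e ≠ v e) (hb : ∀ e, lo e ≤ hi e) (hf : LC lo hi f thin κ)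
    (hκ0 : 0 < κ) (hκ1 : κ ≤ 1 / 2) (hΦ : Base Φ cl κ) (θ : V → ℝ) (hθ : ∀ a, 0 < θ a)
    (γ : V → ℤ) (hγ : sm γ univ = -1) (g : (Fin (N + 1) → ℤ) → V → ℝ) (hg : Inv u v lo hi thin g)
    (hj : ∀ X ∈ box lo hi, ∀ a b, cl a = cl b → g X a = g X b) (e₀ : Fin (N + 1))
    (h : ℤ → ℝ) {H Λ : ℝ} (hΛ0 : 0 ≤ Λ) (hH : ∀ x, lo e₀ ≤ x → x ≤ hi e₀ → |h x| ≤ H)
    (hΛ : ∀ x, lo e₀ ≤ x → x < hi e₀ → ((hi e₀ - lo e₀ + 1 : ℤ) : ℝ) * |h (x + 1) - h x| ≤ Λ)
    (h0 : SG u v lo hi f Φ (γ + ev (v e₀)) (fun X => h (X e₀)) = 0) {t : ℝ} (ht : 0 < t) :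
    2 * |SG u v lo hi f Φ (γ + ev (v e₀)) (fun X => h (X e₀) * g X (v e₀))| ≤
      t * (2 * H * Λ * ZG u v lo hi f Φ (γ + ev (v e₀)) ^ 2 *
        ∑ c, θ c / ZG u v lo hi f Φ (γ + ev c)) + DG u v lo hi f thin Φ θ γ g / (t * κ) := by
  classical
  have hH0 : 0 ≤ H := (abs_nonneg _).trans (hH _ le_rfl (hb e₀))
  have hf' := LB.LC_rm hf e₀
  have huv' : ∀ e, LB.rm e₀ u e ≠ LB.rm e₀ v e := fun e => huv _
  have hb' : ∀ e, LB.rm e₀ lo e ≤ LB.rm e₀ hi e := fun e => hb _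
  have hDs := LG.DG_split (u := u) (v := v) hf Φ θ γ g e₀
  have hSs := fun β G => LG.SG_split u v lo hi f Φ β G e₀
  have hZs := fun β => LG.ZG_split u v lo hi f Φ β e₀
  have hlc := fun x hx hx' => margG_lc huv hb hf hκ0 hΦ (γ + ev (v e₀))
    (by rw [sm_add, sm_ev, hγ]; simp) e₀ (x := x) hx hx'
  have hZ : ∀ β, 0 < ZG u v lo hi f Φ β := fun β => ZG_pos hb hf hΦ.pos β
  have htwo := fun c => ZG_two huv hb hf hκ0 hΦ (γ - ev c) (by rw [sm_sub, sm_ev, hγ]; simp) (v e₀) c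
  have hInv := fun k hk => LB.Inv_rm hg e₀ (k := k) hk
  have hJ : ∀ k, lo e₀ ≤ k ∧ k ≤ hi e₀ → ∀ Y ∈ box (LB.rm e₀ lo) (LB.rm e₀ hi), ∀ a b,
      cl a = cl b → g (LB.ins e₀ k Y) a = g (LB.ins e₀ k Y) b :=
    fun k hk Y hY => hj _ (LB.mem_box_ins.2 ⟨hk, hY⟩)
  have hedge : LG.edge u v lo hi f Φ θ γ g e₀ = ∑ k ∈ Ico (lo e₀) (hi e₀),
      ∑ Y ∈ box (LB.rm e₀ lo) (LB.rm e₀ hi), min (f e₀ k / θ (v e₀)) (f e₀ (k + 1) / θ (u e₀)) *
      (wt (LB.rm e₀ f) Y * Φ (γ - k • (ev (u e₀) - ev (v e₀)) + ev (v e₀) -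
        del (LB.rm e₀ u) (LB.rm e₀ v) Y)) *
      (g (LB.ins e₀ k Y) (v e₀) - g (LB.ins e₀ (k + 1) Y) (u e₀)) ^ 2 := rfl
  have hnt : ¬ thin e₀ → ∀ k, lo e₀ ≤ k → k < hi e₀ → ∀ Y ∈ box (LB.rm e₀ lo) (LB.rm e₀ hi),
      g (LB.ins e₀ k Y) (v e₀) = g (LB.ins e₀ (k + 1) Y) (u e₀) := by
    intro hn k hk hk' Y hY
    have := hg e₀ hn (LB.ins e₀ k Y) (LB.mem_box_ins.2 ⟨⟨hk, hk'.le⟩, hY⟩)
      (by rw [LB.ins_add_self]; exact LB.mem_box_ins.2 ⟨⟨by omega, by omega⟩, hY⟩)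
    rwa [LB.ins_add_self] at this
  have hF := hf.pos e₀
  have hFlc := hf.lc e₀
  have hFcurv := hf.curv e₀
  have hLR := hb e₀
  have hne := huv e₀
  set u' := LB.rm e₀ u
  set v' := LB.rm e₀ v
  set lo' := LB.rm e₀ lo
  set hi' := LB.rm e₀ hi
  set f' := LB.rm e₀ f
  set thin' := LB.rm e₀ thin
  set E := LG.edge u v lo hi f Φ θ γ g e₀
  set a := u e₀
  set b := v e₀
  set L := lo e₀
  set R := hi e₀
  set F := f e₀
  obtain ⟨d, hd⟩ : ∃ d : V → ℤ, d = ev a - ev b := ⟨_, rfl⟩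
  simp only [← hd] at hDs hSs hZs hlc hedge
  have hZ' : ∀ β, 0 < ZG u' v' lo' hi' f' Φ β := fun β => ZG_pos hb' hf' hΦ.pos β
  have sh1 : ∀ k : ℤ, γ + ev b - k • d = γ - k • d + ev b := fun k => by abel
  have sh2 : ∀ k : ℤ, γ - k • d + ev a = γ - (k - 1) • d + ev b := fun k => by
    rw [sub_smul, one_smul, hd]; abel
  simp only [sh1] at hlc
  -- the flux
  obtain ⟨p, p0, p1, pbal, pbd⟩ := LB.exists_flux (L := L) (R := R) F
    (fun k => ZG u' v' lo' hi' f' Φ (γ - k • d + ev b)) h hF (fun k => hZ' _) hlc (by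
      rw [← h0, hSs]
      refine sum_congr rfl fun k _ => ?_
      simp only [LB.ins_self, sh1]
      unfold ZG SG
      simp only [mul_sum]
      exact sum_congr rfl fun Y _ => by ring) hH
  -- the potential weights
  obtain ⟨W, hW⟩ : ∃ W : V → ℤ → ℝ,
      ∀ c k, W c k = ZG u' v' lo' hi' f' Φ (γ - ev c - k • d + ev a + ev b) := ⟨_, fun _ _ => rfl⟩
  have hW0 : ∀ c k, 0 ≤ W c k := fun c k => by rw [hW]; exact (hZ' _).le
  have hWb : ∀ k, W b (k + 1) = ZG u' v' lo' hi' f' Φ (γ - k • d + ev b) := fun k => by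
    rw [hW]; congr 1; rw [add_smul, one_smul, hd]; abel
  have hWa : ∀ k, W a k = ZG u' v' lo' hi' f' Φ (γ - k • d + ev b) := fun k => by
    rw [hW]; congr 1; abel
  obtain ⟨B, hB⟩ : ∃ B : V → ℝ, ∀ c, B c = ∑ k ∈ Icc L R,
      (p k ^ 2 * W c (k + 1) - 2 * p k * p (k - 1) * W c k + p (k - 1) ^ 2 * W c (k - 1)) / F k :=
    ⟨_, fun _ => rfl⟩
  obtain ⟨Qk, hQk⟩ : ∃ Qk : V → ℤ → ℝ, ∀ c k, Qk c k = (h k + p k / F k) ^ 2 * W c (k + 1) -
      2 * (h k + p k / F k) * (p (k - 1) / F k) * W c k + (p (k - 1) / F k) ^ 2 * W c (k - 1) :=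
    ⟨_, fun _ _ => rfl⟩
  have hB0 : ∀ c, 0 ≤ B c := fun c => by
    have := B_ge F (W c) p le_rfl zero_le_one hF (hW0 c) (by simpa using hFlc) p0 p1
    rw [hB]
    simpa using this
  have hpot : ∀ c, ∑ k ∈ Icc L R, F k * -Qk c k + B c ≤
      2 * H * Λ * (ZG u v lo hi f Φ (γ + ev b) ^ 2 / ZG u v lo hi f Φ (γ + ev c)) := by
    intro c
    have h1 := LB.pot_le hLR F (W c) p h hF (hW0 c) p0 p1 hH0 hΛ0 pbd hΛ
    simp only [← hQk] at h1
    rw [← hB] at h1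
    refine h1.trans (mul_le_mul_of_nonneg_left ?_ (by positivity))
    have h2 : ∑ k ∈ Icc L R, F k * W c (k + 1) = ZG u v lo hi f Φ (γ - ev c + ev b + ev b) := by
      rw [hZs]
      refine sum_congr rfl fun k _ => ?_
      rw [hW]; congr 2; rw [add_smul, one_smul, hd]; abel
    have h3 := htwo c
    rw [sub_add_cancel, add_right_comm (γ - ev c) (ev b) (ev c), sub_add_cancel] at h3
    rw [h2, le_div_iff₀ (hZ _)]
    exact h3
  -- transport on the remaining cells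
  obtain ⟨Sb, hSb⟩ : ∃ Sb : ℤ → ℝ, ∀ k, Sb k =
      SG u' v' lo' hi' f' Φ (γ - k • d + ev b) fun Y => g (LB.ins e₀ k Y) b := ⟨_, fun _ => rfl⟩
  obtain ⟨Sa, hSa⟩ : ∃ Sa : ℤ → ℝ, ∀ k, Sa k =
      SG u' v' lo' hi' f' Φ (γ - k • d + ev a) fun Y => g (LB.ins e₀ k Y) a := ⟨_, fun _ => rfl⟩
  obtain ⟨D, hD⟩ : ∃ D : ℤ → ℝ, ∀ k, D k =
      DG u' v' lo' hi' f' thin' Φ θ (γ - k • d) fun Y => g (LB.ins e₀ k Y) := ⟨_, fun _ => rfl⟩
  simp only [← hD] at hDs
  have htr : ∀ k ∈ Icc L R, 2 * |(h k + p k / F k) * Sb k + -(p (k - 1) / F k) * Sa k| ≤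
      t * (∑ c, θ c * -Qk c k) + D k / (t * κ) := by
    intro k hk
    rw [mem_Icc] at hk
    have h1 := transportG huv' hb' hf' hκ0 hκ1 hΦ θ hθ ht (γ - k • d)
      (by simp only [hd, sm_sub, sm_smul, sm_ev, hγ]; simp)
      (fun x => (if x = b then h k + p k / F k else 0) +
        (if x = a then -(p (k - 1) / F k) else 0)) (by
        rw [LB.sum_two, sh2]
        have := pbal k hk.1 hk.2
        linarith) _ (hInv k hk) (hJ k hk)
    rw [LB.sum_two, ← hSb, ← hSa, ← hD] at h1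
    refine h1.trans (le_of_eq ?_)
    congr 2
    refine sum_congr rfl fun c _ => ?_
    rw [LG.Qf_two, hQk, hW, hW, hW]
    have a1 : γ - k • d - ev c + ev b + ev b = γ - ev c - (k + 1) • d + ev a + ev b := by
      rw [add_smul, one_smul, hd]; abel
    have a2 : γ - k • d - ev c + ev b + ev a = γ - ev c - k • d + ev a + ev b := by abel
    have a3 : γ - k • d - ev c + ev a + ev a = γ - ev c - (k - 1) • d + ev a + ev b := by
      rw [sub_smul, one_smul, hd]; abel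
    rw [a1, a2, a3]
    ring
  -- the pairing identity
  have hpair : SG u v lo hi f Φ (γ + ev b) (fun X => h (X e₀) * g X b) =
      ∑ k ∈ Icc L R, F k * ((h k + p k / F k) * Sb k + -(p (k - 1) / F k) * Sa k) -
        ∑ k ∈ Ico L R, p k * (Sb k - Sa (k + 1)) := by
    rw [← LB.tele p Sb Sa hLR p0 p1, ← sum_sub_distrib, hSs]
    refine sum_congr rfl fun k hk => ?_
    rw [mem_Icc] at hk
    have a1 := (hF k hk.1 hk.2).ne'
    have a2 : (SG u' v' lo' hi' f' Φ (γ + ev b - k • d)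
        fun Y => h (LB.ins e₀ k Y e₀) * g (LB.ins e₀ k Y) b) = h k * Sb k := by
      rw [hSb, sh1]
      simp only [LB.ins_self]
      unfold SG
      rw [mul_sum]
      exact sum_congr rfl fun Y _ => by ring
    rw [a2]
    field_simp
    ring
  have hdiff : ∀ k, Sb k - Sa (k + 1) = ∑ Y ∈ box lo' hi',
      (wt f' Y * Φ (γ - k • d + ev b - del u' v' Y)) *
        (g (LB.ins e₀ k Y) b - g (LB.ins e₀ (k + 1) Y) a) := by
    intro k
    rw [hSb, hSa, sh2, add_sub_cancel_right]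
    unfold SG
    rw [← sum_sub_distrib]
    exact sum_congr rfl fun Y _ => by ring
  -- the edges of `e₀`
  have hcost : 2 * |∑ k ∈ Ico L R, p k * (Sb k - Sa (k + 1))| ≤
      t * (∑ c, θ c * B c) + (if thin e₀ then E else 0) / (t * κ) := by
    have hsum0 : 0 ≤ ∑ c, θ c * B c := sum_nonneg fun c _ => mul_nonneg (hθ c).le (hB0 c)
    by_cases hth : thin e₀
    swap
    · have : ∑ k ∈ Ico L R, p k * (Sb k - Sa (k + 1)) = 0 := by
        refine sum_eq_zero fun k hk => ?_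
        rw [mem_Ico] at hk
        rw [hdiff, sum_eq_zero, mul_zero]
        intro Y hY
        rw [hnt hth k hk.1 hk.2 Y hY, sub_self, mul_zero]
      rw [this, if_neg hth]
      simp only [abs_zero, mul_zero, zero_div, add_zero]
      positivity
    rw [if_pos hth, hedge]
    have hs : 0 < t * κ := by positivity
    have c1 : 2 * |∑ k ∈ Ico L R, p k * (Sb k - Sa (k + 1))| ≤
        ∑ k ∈ Ico L R, ∑ Y ∈ box lo' hi', 2 * |p k *
          ((wt f' Y * Φ (γ - k • d + ev b - del u' v' Y)) *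
            (g (LB.ins e₀ k Y) b - g (LB.ins e₀ (k + 1) Y) a))| := by
      simp only [← mul_sum]
      refine mul_le_mul_of_nonneg_left ((abs_sum_le_sum_abs _ _).trans
        (sum_le_sum fun k _ => ?_)) (by norm_num)
      rw [hdiff, mul_sum]
      exact abs_sum_le_sum_abs _ _
    have c2 : ∀ k ∈ Ico L R, ∑ Y ∈ box lo' hi', 2 * |p k *
          ((wt f' Y * Φ (γ - k • d + ev b - del u' v' Y)) *
            (g (LB.ins e₀ k Y) b - g (LB.ins e₀ (k + 1) Y) a))| ≤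
        t * κ * (θ b * (p k ^ 2 * (W b (k + 1) / F k)) + θ a * (p k ^ 2 * (W a k / F (k + 1)))) +
          (∑ Y ∈ box lo' hi', min (F k / θ b) (F (k + 1) / θ a) *
            (wt f' Y * Φ (γ - k • d + ev b - del u' v' Y)) *
            (g (LB.ins e₀ k Y) b - g (LB.ins e₀ (k + 1) Y) a) ^ 2) / (t * κ) := by
      intro k hk
      rw [mem_Ico] at hk
      have a1 := hF k hk.1 hk.2.le
      have a2 := hF (k + 1) (by omega) (by omega)
      have a3 := hθ a
      have a4 := hθ b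
      refine (sum_le_sum fun Y hY => LB.edge_amgm (a := F k / θ b) (b := F (k + 1) / θ a) hs
        (mul_nonneg (LB.wt_pos hf' hY).le (hΦ.pos _).le) (by positivity)
        (by positivity)).trans (le_of_eq ?_)
      rw [sum_add_distrib, sum_div, hWa, hWb]
      congr 1
      unfold ZG SG
      simp only [sum_div, mul_sum, ← sum_add_distrib]
      refine sum_congr rfl fun Y _ => ?_
      field_simp
    have c3 := c1.trans (sum_le_sum c2)
    rw [sum_add_distrib, ← sum_div, ← mul_sum, sum_add_distrib, ← mul_sum, ← mul_sum] at c3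
    refine c3.trans (add_le_add ?_ le_rfl)
    rw [mul_assoc]
    refine mul_le_mul_of_nonneg_left ?_ ht.le
    have hBk : ∀ c, κ * ∑ k ∈ Ico L R, p k ^ 2 * (W c (k + 1) / F k + W c k / F (k + 1)) ≤ B c :=
      fun c => by
        rw [hB]
        exact B_ge F (W c) p hκ0.le (by linarith) hF (hW0 c) (hFcurv hth) p0 p1
    have d1 : κ * ∑ k ∈ Ico L R, p k ^ 2 * (W b (k + 1) / F k) ≤ B b := by
      refine le_trans (mul_le_mul_of_nonneg_left (sum_le_sum fun k hk => ?_) hκ0.le) (hBk b)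
      rw [mem_Ico] at hk
      have := div_nonneg (hW0 b k) (hF (k + 1) (by omega) (by omega)).le
      exact mul_le_mul_of_nonneg_left (by linarith) (sq_nonneg _)
    have d2 : κ * ∑ k ∈ Ico L R, p k ^ 2 * (W a k / F (k + 1)) ≤ B a := by
      refine le_trans (mul_le_mul_of_nonneg_left (sum_le_sum fun k hk => ?_) hκ0.le) (hBk a)
      rw [mem_Ico] at hk
      have := div_nonneg (hW0 a (k + 1)) (hF k hk.1 hk.2.le).le
      exact mul_le_mul_of_nonneg_left (by linarith) (sq_nonneg _)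
    have d3 : θ a * B a + θ b * B b ≤ ∑ c, θ c * B c := by
      rw [← sum_pair (f := fun c => θ c * B c) hne]
      exact sum_le_sum_of_subset_of_nonneg (subset_univ _) fun c _ _ =>
        mul_nonneg (hθ c).le (hB0 c)
    have d4 := mul_le_mul_of_nonneg_left d1 (hθ b).le
    have d5 := mul_le_mul_of_nonneg_left d2 (hθ a).le
    nlinarith
  -- assembly
  have m1 : 2 * |∑ k ∈ Icc L R, F k * ((h k + p k / F k) * Sb k + -(p (k - 1) / F k) * Sa k)| ≤
      t * (∑ c, θ c * ∑ k ∈ Icc L R, F k * -Qk c k) + (∑ k ∈ Icc L R, F k * D k) / (t * κ) := by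
    have a1 : 2 * |∑ k ∈ Icc L R, F k * ((h k + p k / F k) * Sb k + -(p (k - 1) / F k) * Sa k)| ≤
        ∑ k ∈ Icc L R, F k * (t * (∑ c, θ c * -Qk c k) + D k / (t * κ)) := by
      refine (mul_le_mul_of_nonneg_left (abs_sum_le_sum_abs _ _) (by norm_num)).trans ?_
      rw [mul_sum]
      refine sum_le_sum fun k hk => ?_
      have a2 := htr k hk
      rw [mem_Icc] at hk
      have a3 := hF k hk.1 hk.2
      rw [abs_mul, abs_of_pos a3]
      nlinarith [mul_le_mul_of_nonneg_left a2 a3.le]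
    refine a1.trans (le_of_eq ?_)
    simp only [mul_add, sum_add_distrib, mul_sum, sum_div]
    rw [sum_comm]
    congr 1
    · exact sum_congr rfl fun c _ => sum_congr rfl fun k _ => by ring
    · exact sum_congr rfl fun k _ => by ring
  have m2 : ∑ c, θ c * ∑ k ∈ Icc L R, F k * -Qk c k + ∑ c, θ c * B c ≤
      2 * H * Λ * ZG u v lo hi f Φ (γ + ev b) ^ 2 * ∑ c, θ c / ZG u v lo hi f Φ (γ + ev c) := by
    rw [← sum_add_distrib, mul_sum]
    refine sum_le_sum fun c _ => ?_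
    have := mul_le_mul_of_nonneg_left (hpot c) (hθ c).le
    calc _ = θ c * (∑ k ∈ Icc L R, F k * -Qk c k + B c) := by ring
      _ ≤ _ := this
      _ = _ := by ring
  have m3 := mul_le_mul_of_nonneg_left m2 ht.le
  rw [hpair, hDs, add_div]
  have m4 := abs_sub (∑ k ∈ Icc L R, F k * ((h k + p k / F k) * Sb k + -(p (k - 1) / F k) * Sa k))
    (∑ k ∈ Ico L R, p k * (Sb k - Sa (k + 1)))
  linarith

theorem tiltG (huv : ∀ e, u e ≠ v e) (hb : ∀ e, lo e ≤ hi e) (hf : LC lo hi f thin κ)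
    (hκ0 : 0 < κ) (hκ1 : κ ≤ 1 / 2) (hF : Base F cl κ) (θ : V → ℝ) (hθ : ∀ a, 0 < θ a)
    (γ : V → ℤ) (hγ : sm γ univ = -1) (g : (Fin M → ℤ) → V → ℝ) (hg : Inv u v lo hi thin g)
    (hj : ∀ X ∈ box lo hi, ∀ a b, cl a = cl b → g X a = g X b) (e₀ : Fin M)
    (h : ℤ → ℝ) {H Λ : ℝ} (hΛ0 : 0 ≤ Λ)
    (hH : ∀ x x', lo e₀ ≤ x → x ≤ hi e₀ → lo e₀ ≤ x' → x' ≤ hi e₀ → |h x - h x'| ≤ H)
    (hΛ : ∀ x, lo e₀ ≤ x → x < hi e₀ → ((hi e₀ - lo e₀ + 1 : ℤ) : ℝ) * |h (x + 1) - h x| ≤ Λ) :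
    (SG u v lo hi f F (γ + ev (v e₀)) (fun X => h (X e₀) * g X (v e₀)) -
        SG u v lo hi f F (γ + ev (v e₀)) (fun X => h (X e₀)) *
          SG u v lo hi f F (γ + ev (v e₀)) (fun X => g X (v e₀)) /
          ZG u v lo hi f F (γ + ev (v e₀))) ^ 2 ≤
      2 * H * Λ * ZG u v lo hi f F (γ + ev (v e₀)) ^ 2 *
        (∑ c, θ c / ZG u v lo hi f F (γ + ev c)) * (DG u v lo hi f thin F θ γ g / κ) := by
  obtain ⟨N, rfl⟩ : ∃ N, M = N + 1 := ⟨M - 1, by have := e₀.2; omega⟩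
  have hZ : ∀ β, 0 < ZG u v lo hi f F β := fun β => ZG_pos hb hf hF.pos β
  have hD := LG.DG_nonneg (u := u) (v := v) hf (fun y => (hF.pos y).le) hθ γ g
  have hH0 : 0 ≤ H := (abs_nonneg _).trans (hH _ _ le_rfl (hb e₀) le_rfl (hb e₀))
  have hZv := hZ (γ + ev (v e₀))
  set μ := SG u v lo hi f F (γ + ev (v e₀)) (fun X => h (X e₀)) / ZG u v lo hi f F (γ + ev (v e₀))
    with hμ
  have lin : ∀ G : (Fin (N + 1) → ℤ) → ℝ,
      SG u v lo hi f F (γ + ev (v e₀)) (fun X => (h (X e₀) - μ) * G X) =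
        SG u v lo hi f F (γ + ev (v e₀)) (fun X => h (X e₀) * G X) -
          μ * SG u v lo hi f F (γ + ev (v e₀)) G := by
    intro G
    unfold SG
    rw [mul_sum, ← sum_sub_distrib]
    exact sum_congr rfl fun X _ => by ring
  have e1 : SG u v lo hi f F (γ + ev (v e₀)) (fun X => h (X e₀) * g X (v e₀)) -
      SG u v lo hi f F (γ + ev (v e₀)) (fun X => h (X e₀)) *
        SG u v lo hi f F (γ + ev (v e₀)) (fun X => g X (v e₀)) /
        ZG u v lo hi f F (γ + ev (v e₀)) =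
      SG u v lo hi f F (γ + ev (v e₀)) (fun X => (h (X e₀) - μ) * g X (v e₀)) := by
    rw [lin, hμ]; ring
  rw [e1]
  have h0 : SG u v lo hi f F (γ + ev (v e₀)) (fun X => (h (X e₀) - μ) * 1) = 0 := by
    rw [lin, hμ]
    simp only [mul_one]
    exact sub_eq_zero.2 (div_mul_cancel₀ _ hZv.ne').symm
  have hcen : ∀ x, lo e₀ ≤ x → x ≤ hi e₀ → |h x - μ| ≤ H := by
    intro x hx hx'
    have a1 : (h x - μ) * ZG u v lo hi f F (γ + ev (v e₀)) =
        SG u v lo hi f F (γ + ev (v e₀)) (fun X => h x - h (X e₀)) := by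
      rw [sub_mul, hμ, div_mul_cancel₀ _ hZv.ne']
      unfold ZG SG
      rw [mul_sum, ← sum_sub_distrib]
      exact sum_congr rfl fun X _ => by ring
    have a2 : |SG u v lo hi f F (γ + ev (v e₀)) (fun X => h x - h (X e₀))| ≤
        H * ZG u v lo hi f F (γ + ev (v e₀)) := by
      unfold ZG SG
      rw [mul_sum]
      refine (abs_sum_le_sum_abs _ _).trans (sum_le_sum fun X hX => ?_)
      have p1 := mul_nonneg (LB.wt_pos hf hX).le (hF.pos (γ + ev (v e₀) - del u v X)).le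
      rw [abs_mul, abs_of_nonneg p1, mul_one, mul_comm]
      exact mul_le_mul_of_nonneg_right (hH _ _ hx hx' (mem_box.1 hX e₀).1 (mem_box.1 hX e₀).2) p1
    rw [← a1, abs_mul, abs_of_pos hZv] at a2
    exact le_of_mul_le_mul_right a2 hZv
  refine sq_le_of_forall_amgm ?_ (by positivity) fun t ht => ?_
  · exact mul_nonneg (by positivity) (sum_nonneg fun c _ => div_nonneg (hθ c).le (hZ _).le)
  have := tiltG_aux huv hb hf hκ0 hκ1 hF θ hθ γ hγ g hg hj e₀ (fun x => h x - μ) hΛ0 hcen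
    (fun x hx hx' => by simpa using hΛ x hx hx') (by simpa using h0) ht
  refine this.trans (le_of_eq ?_)
  field_simp

end Crest.Agent.R302
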