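import Crest.Agent.R302.LorG

/-!
# Row 302: splitting off one cell (helpers for `LorH`; copy of `R309/LorBS.lean`)
-/

set_option autoImplicit false
set_option linter.unusedSectionVars false

namespace Crest.Agent.R302.LG

open Finset Crest.Agent.R309 Crest.Agent.R309.LB

variable {V : Type} [Fintype V] [DecidableEq V] {N : ℕ}

theorem SG_split (u v : Fin (N + 1) → V) (lo hi : Fin (N + 1) → ℤ) (f : Fin (N + 1) → ℤ → ℝ)
    (Φ : (V → ℤ) → ℝ) (β : V → ℤ) (G : (Fin (N + 1) → ℤ) → ℝ) (p : Fin (N + 1)) :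
    SG u v lo hi f Φ β G = ∑ k ∈ Icc (lo p) (hi p), f p k *
      SG (rm p u) (rm p v) (rm p lo) (rm p hi) (rm p f) Φ (β - k • (ev (u p) - ev (v p)))
        fun Y => G (ins p k Y) := by
  unfold SG
  rw [sum_box lo hi p]
  refine sum_congr rfl fun k _ => ?_
  rw [mul_sum]
  refine sum_congr rfl fun Y _ => ?_
  rw [LB.wt_ins, LB.del_ins, sub_sub]
  ring

theorem ZG_split (u v : Fin (N + 1) → V) (lo hi : Fin (N + 1) → ℤ) (f : Fin (N + 1) → ℤ → ℝ)
    (Φ : (V → ℤ) → ℝ) (β : V → ℤ) (p : Fin (N + 1)) :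
    ZG u v lo hi f Φ β = ∑ k ∈ Icc (lo p) (hi p), f p k *
      ZG (rm p u) (rm p v) (rm p lo) (rm p hi) (rm p f) Φ (β - k • (ev (u p) - ev (v p))) :=
  SG_split u v lo hi f Φ β _ p

theorem SG_nonneg {M : ℕ} {u v : Fin M → V} {lo hi : Fin M → ℤ} {f : Fin M → ℤ → ℝ}
    {thin : Fin M → Prop} {κ : ℝ} {Φ : (V → ℤ) → ℝ} (hf : LC lo hi f thin κ) (hq : ∀ y, 0 ≤ Φ y) (β : V → ℤ)
    {G : (Fin M → ℤ) → ℝ} (hG : ∀ X, 0 ≤ G X) : 0 ≤ SG u v lo hi f Φ β G :=
  sum_nonneg fun _ hX => mul_nonneg (mul_nonneg (wt_pos hf hX).le (hq _)) (hG _)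

theorem DG_nonneg {M : ℕ} {u v : Fin M → V} {lo hi : Fin M → ℤ} {f : Fin M → ℤ → ℝ}
    {thin : Fin M → Prop} {κ : ℝ} {Φ : (V → ℤ) → ℝ} (hf : LC lo hi f thin κ) (hq : ∀ y, 0 ≤ Φ y) {θ : V → ℝ}
    (hθ : ∀ a, 0 < θ a) (γ : V → ℤ) (g : (Fin M → ℤ) → V → ℝ) :
    0 ≤ DG u v lo hi f thin Φ θ γ g := by
  unfold DG
  refine add_nonneg (sum_nonneg fun e _ => sum_nonneg fun X hX => ?_)
    (sum_nonneg fun X hX => sum_nonneg fun a _ => sum_nonneg fun b _ => ?_)
  · rw [mem_filter] at hX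
    have h1 := wt_pos hf hX.1
    have h2 := wt_pos hf hX.2
    have h3 := hθ (v e)
    have h4 := hθ (u e)
    exact mul_nonneg (mul_nonneg (le_min (by positivity) (by positivity)) (hq _))
      (sq_nonneg _)
  · exact mul_nonneg (mul_nonneg (wt_pos hf hX).le
      (le_min (div_nonneg (hq _) (hθ a).le) (div_nonneg (hq _) (hθ b).le)))
      (sq_nonneg _)

open Classical in
/-- The edges of the cell `p`. -/
noncomputable def edge (u v : Fin (N + 1) → V) (lo hi : Fin (N + 1) → ℤ)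
    (f : Fin (N + 1) → ℤ → ℝ) (Φ : (V → ℤ) → ℝ) (θ : V → ℝ) (γ : V → ℤ)
    (g : (Fin (N + 1) → ℤ) → V → ℝ) (p : Fin (N + 1)) : ℝ :=
  ∑ k ∈ Ico (lo p) (hi p), ∑ Y ∈ box (rm p lo) (rm p hi),
    min (f p k / θ (v p)) (f p (k + 1) / θ (u p)) *
      (wt (rm p f) Y * Φ (γ - k • (ev (u p) - ev (v p)) + ev (v p) - del (rm p u) (rm p v) Y)) *
      (g (ins p k Y) (v p) - g (ins p (k + 1) Y) (u p)) ^ 2

open Classical in
theorem DG_split {u v : Fin (N + 1) → V} {lo hi : Fin (N + 1) → ℤ}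
    {f : Fin (N + 1) → ℤ → ℝ} {thin : Fin (N + 1) → Prop} {κ : ℝ} (hf : LC lo hi f thin κ)
    (Φ : (V → ℤ) → ℝ) (θ : V → ℝ) (γ : V → ℤ) (g : (Fin (N + 1) → ℤ) → V → ℝ) (p : Fin (N + 1)) :
    DG u v lo hi f thin Φ θ γ g =
      (∑ k ∈ Icc (lo p) (hi p), f p k *
        DG (rm p u) (rm p v) (rm p lo) (rm p hi) (rm p f) (rm p thin) Φ θ
          (γ - k • (ev (u p) - ev (v p))) fun Y => g (ins p k Y)) +
      if thin p then edge u v lo hi f Φ θ γ g p else 0 := by
  unfold DG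
  simp only [sum_filter, mul_add, sum_add_distrib]
  rw [Fin.sum_univ_succAbove _ p]
  have e1 : (∑ X ∈ box lo hi, if X + ec p ∈ box lo hi then
      min (wt f X / θ (v p)) (wt f (X + ec p) / θ (u p)) * Φ (γ + ev (v p) - del u v X) *
        (g X (v p) - g (X + ec p) (u p)) ^ 2 else 0) = edge u v lo hi f Φ θ γ g p := by
    rw [sum_box lo hi p]
    unfold edge
    symm
    refine sum_subset_zero_on_sdiff Ico_subset_Icc_self ?_ ?_
    · intro k hk
      simp only [mem_sdiff, mem_Icc, mem_Ico] at hk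
      refine sum_eq_zero fun Y _ => if_neg ?_
      rw [ins_add_self, mem_box_ins]
      omega
    · intro k hk
      rw [mem_Ico] at hk
      refine sum_congr rfl fun Y hY => ?_
      rw [ins_add_self, if_pos (mem_box_ins.2 ⟨by omega, hY⟩), LB.wt_ins, LB.wt_ins, LB.del_ins]
      have hw := (wt_pos (LC_rm hf p) hY).le
      have : γ + ev (v p) - (k • (ev (u p) - ev (v p)) + del (rm p u) (rm p v) Y) =
        γ - k • (ev (u p) - ev (v p)) + ev (v p) - del (rm p u) (rm p v) Y := by abel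
      rw [this, mul_div_right_comm, mul_div_right_comm, ← min_mul_of_nonneg _ _ hw]
      ring
  have e2 : (∑ i : Fin N, if thin (p.succAbove i) then
      ∑ X ∈ box lo hi, if X + ec (p.succAbove i) ∈ box lo hi then
        min (wt f X / θ (v (p.succAbove i))) (wt f (X + ec (p.succAbove i)) / θ (u (p.succAbove i))) *
          Φ (γ + ev (v (p.succAbove i)) - del u v X) *
          (g X (v (p.succAbove i)) - g (X + ec (p.succAbove i)) (u (p.succAbove i))) ^ 2 else 0
      else 0) =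
      ∑ k ∈ Icc (lo p) (hi p), f p k * ∑ i : Fin N, if rm p thin i then
        ∑ Y ∈ box (rm p lo) (rm p hi), if Y + ec i ∈ box (rm p lo) (rm p hi) then
          min (wt (rm p f) Y / θ (rm p v i)) (wt (rm p f) (Y + ec i) / θ (rm p u i)) *
            Φ (γ - k • (ev (u p) - ev (v p)) + ev (rm p v i) - del (rm p u) (rm p v) Y) *
            (g (ins p k Y) (rm p v i) - g (ins p k (Y + ec i)) (rm p u i)) ^ 2 else 0
        else 0 := by
    simp only [mul_sum]
    rw [sum_comm]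
    refine sum_congr rfl fun i _ => ?_
    by_cases ht : thin (p.succAbove i)
    · have ht' : rm p thin i := ht
      simp only [if_pos ht, if_pos ht']
      rw [sum_box lo hi p]
      refine sum_congr rfl fun k hk => ?_
      rw [mem_Icc] at hk
      rw [mul_sum]
      refine sum_congr rfl fun Y _ => ?_
      rw [ins_add_succ]
      by_cases hY : Y + ec i ∈ box (rm p lo) (rm p hi)
      · rw [if_pos hY, if_pos (mem_box_ins.2 ⟨hk, hY⟩), LB.wt_ins, LB.wt_ins, LB.del_ins]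
        have hw := (hf.pos p k hk.1 hk.2).le
        have : γ + ev (v (p.succAbove i)) - (k • (ev (u p) - ev (v p)) + del (rm p u) (rm p v) Y) =
          γ - k • (ev (u p) - ev (v p)) + ev (v (p.succAbove i)) - del (rm p u) (rm p v) Y := by
          abel
        rw [this, mul_div_assoc, mul_div_assoc, ← mul_min_of_nonneg _ _ hw]
        simp only [rm]
        ring
      · rw [if_neg hY, if_neg (fun h => hY (mem_box_ins.1 h).2), mul_zero]
    · have ht' : ¬ rm p thin i := ht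
      simp only [if_neg ht, if_neg ht', mul_zero, sum_const_zero]
  have e3 : (∑ X ∈ box lo hi, ∑ a, ∑ b, wt f X *
      min (Φ (γ + ev a - del u v X) / θ a) (Φ (γ + ev b - del u v X) / θ b) *
        (g X a - g X b) ^ 2) =
      ∑ k ∈ Icc (lo p) (hi p), f p k * ∑ Y ∈ box (rm p lo) (rm p hi), ∑ a, ∑ b, wt (rm p f) Y *
        min (Φ (γ - k • (ev (u p) - ev (v p)) + ev a - del (rm p u) (rm p v) Y) / θ a)
          (Φ (γ - k • (ev (u p) - ev (v p)) + ev b - del (rm p u) (rm p v) Y) / θ b) *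
        (g (ins p k Y) a - g (ins p k Y) b) ^ 2 := by
    rw [sum_box lo hi p]
    refine sum_congr rfl fun k _ => ?_
    simp only [mul_sum]
    refine sum_congr rfl fun Y _ => sum_congr rfl fun a _ => sum_congr rfl fun b _ => ?_
    have : ∀ c, γ + ev c - (k • (ev (u p) - ev (v p)) + del (rm p u) (rm p v) Y) =
      γ - k • (ev (u p) - ev (v p)) + ev c - del (rm p u) (rm p v) Y := fun c => by abel
    rw [LB.wt_ins, LB.del_ins, this, this]
    ring
  rw [e1, e2, e3]
  ring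

theorem Qf_eq (Z : (V → ℤ) → ℝ) (α : V → ℤ) (y z : V → ℝ) :
    Qf Z α y z = ∑ a, y a * ∑ b, z b * Z (α + ev a + ev b) := by
  unfold Qf
  simp only [mul_sum, mul_assoc]

theorem Qf_two (Z : (V → ℤ) → ℝ) (α : V → ℤ) (a b : V) (s r : ℝ) :
    Qf Z α (fun x => (if x = a then s else 0) + (if x = b then r else 0))
        (fun x => (if x = a then s else 0) + (if x = b then r else 0)) =
      s ^ 2 * Z (α + ev a + ev a) + 2 * s * r * Z (α + ev a + ev b) +
        r ^ 2 * Z (α + ev b + ev b) := by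
  rw [Qf_eq]
  simp only [sum_two]
  rw [add_right_comm α (ev b) (ev a)]
  ring

end Crest.Agent.R302.LG
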