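import Crest.Agent.R302.NuD

/-!
# Row 302: `hq` and the Lovász extension

* `hq m t = max_φ (φ t - m φ²)`: with `φ₀ = (t + m) / (2 m)` one has `2 m φ₀ ≤ t + m < 2 m φ₀ + 2 m`, and
  `φ₀ t - m φ₀² - (φ t - m φ²) = (φ₀ - φ) (t - m (φ₀ + φ)) ≥ 0`.  `hq_conv`: let `φ₁, φ₂` be optimal for `s₁ ≤ s₂`
  (`φ₁ ≤ φ₂`), use them at `t₁ ≤ t₂`.  `hq_gain`: for adjacent integers `s, s + 1` the value `φ = (s + m) / (2 m)` is
  optimal for both (`s + 1 + m ≤ 2 m φ + 2 m`); use `φ + 1` at `t₁` and `φ - 1` at `t₂`.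
* `lov_eq`: the terms with `t ≤ lo` are `ρ univ = 0`, those with `t > hi` are `ρ ∅ = 0`; compare both sums with the sum
  over a big interval.  `dot_eq`: `p a - lo = #{t ∈ Ioc lo hi | t ≤ p a}`.
* `gre`: the greedy vertex for an injective key.  `gre_tight` by induction on the number of `b` with `t ≤ κ b` (remove
  the element of least key); `gre_inB`: induction on `S`, removing the element `a` of least key of `S`, submodularity of
  `S` and `U = {b | κ a < κ b}`: `S ∪ U = {b | κ a ≤ κ b}`, `S ∩ U = S.erase a`.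
  For a general `w` use the key `N * w a + index a` (`Fintype.equivFin`).
-/

set_option autoImplicit false

namespace Crest.Agent.R302

open Finset Crest.Agent.R309

variable {V : Type} [Fintype V] [DecidableEq V]

theorem nuA_opt {m ψ t : ℤ} (hm : 0 < m) (h1 : 2 * m * ψ ≤ t + m) (h2 : t + m ≤ 2 * m * ψ + 2 * m)
    (φ : ℤ) : φ * t - m * φ ^ 2 ≤ ψ * t - m * ψ ^ 2 := by
  rcases lt_trichotomy φ ψ with h | rfl | h
  · have h3 : m * (φ + 1) ≤ m * ψ := mul_le_mul_of_nonneg_left h hm.le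
    nlinarith [mul_nonneg (sub_nonneg.2 h.le) (show 0 ≤ t - m * (ψ + φ) by linarith)]
  · exact le_rfl
  · have h3 : m * (ψ + 1) ≤ m * φ := mul_le_mul_of_nonneg_left h hm.le
    nlinarith [mul_nonneg (sub_nonneg.2 h.le) (show 0 ≤ m * (ψ + φ) - t by linarith)]

theorem nuA_div {m : ℤ} (hm : 0 < m) (t : ℤ) :
    2 * m * ((t + m) / (2 * m)) ≤ t + m ∧ t + m < 2 * m * ((t + m) / (2 * m)) + 2 * m := by
  have h0 : 0 < 2 * m := by linarith
  have h1 := Int.mul_ediv_add_emod (t + m) (2 * m)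
  have h2 := Int.emod_nonneg (t + m) h0.ne'
  have h3 := Int.emod_lt_of_pos (t + m) h0
  constructor <;> linarith

theorem le_hq {m : ℤ} (hm : 0 < m) (φ t : ℤ) : φ * t - m * φ ^ 2 ≤ hq m t := by
  exact nuA_opt hm (nuA_div hm t).1 (nuA_div hm t).2.le φ

theorem hq_nonneg {m : ℤ} (hm : 0 < m) (t : ℤ) : 0 ≤ hq m t := by
  simpa using le_hq hm 0 t

theorem hq_zero {m : ℤ} (hm : 0 < m) : hq m 0 = 0 := by
  refine le_antisymm ?_ (hq_nonneg hm 0)
  unfold hq
  have := mul_nonneg hm.le (sq_nonneg ((0 + m) / (2 * m)))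
  linarith

theorem four_mul_hq_le {m : ℤ} (hm : 0 < m) (t : ℤ) : 4 * m * hq m t ≤ t ^ 2 := by
  unfold hq
  nlinarith [sq_nonneg (t - 2 * m * ((t + m) / (2 * m)))]

theorem hq_le_sq {m : ℤ} (hm : 0 < m) (t : ℤ) : hq m t ≤ t ^ 2 := by
  have h1 := four_mul_hq_le hm t
  have h2 := hq_nonneg hm t
  nlinarith

theorem nuA_conv {m : ℤ} (hm : 0 < m) {s₁ s₂ t₁ t₂ : ℤ} (hs : s₁ + s₂ = t₁ + t₂) (h1 : s₁ ≤ s₂)
    (h2 : s₂ ≤ t₂) : hq m s₁ + hq m s₂ ≤ hq m t₁ + hq m t₂ := by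
  have h3 : (s₁ + m) / (2 * m) ≤ (s₂ + m) / (2 * m) :=
    Int.ediv_le_ediv (by linarith) (by linarith)
  have h4 := le_hq hm ((s₁ + m) / (2 * m)) t₁
  have h5 := le_hq hm ((s₂ + m) / (2 * m)) t₂
  have h6 := mul_nonneg (sub_nonneg.2 h3) (sub_nonneg.2 h2)
  obtain rfl : t₁ = s₁ + s₂ - t₂ := by linarith
  rw [hq, hq]
  nlinarith

theorem hq_conv {m : ℤ} (hm : 0 < m) {s₁ s₂ t₁ t₂ : ℤ} (hs : s₁ + s₂ = t₁ + t₂)
    (h1 : min t₁ t₂ ≤ s₁) (h2 : s₁ ≤ max t₁ t₂) : hq m s₁ + hq m s₂ ≤ hq m t₁ + hq m t₂ := by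
  rcases le_total t₁ t₂ with ht | ht <;> rcases le_total s₁ s₂ with h | h
  · rw [min_eq_left ht] at h1
    exact nuA_conv hm hs h (by linarith)
  · rw [max_eq_right ht] at h2
    linarith [nuA_conv hm (s₁ := s₂) (s₂ := s₁) (t₁ := t₁) (t₂ := t₂) (by linarith) h h2]
  · rw [min_eq_right ht] at h1
    linarith [nuA_conv hm (s₁ := s₁) (s₂ := s₂) (t₁ := t₂) (t₂ := t₁) (by linarith) h (by linarith)]
  · rw [max_eq_left ht] at h2
    linarith [nuA_conv hm (s₁ := s₂) (s₂ := s₁) (t₁ := t₂) (t₂ := t₁) (by linarith) h h2]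

theorem hq_gain {m : ℤ} (hm : 0 < m) {s₁ s₂ t₁ t₂ : ℤ} (hs : s₁ + s₂ = t₁ + t₂)
    (h1 : |s₁ - s₂| ≤ 1) : hq m s₁ + hq m s₂ + (t₁ - t₂) - 2 * m ≤ hq m t₁ + hq m t₂ := by
  obtain ⟨h2, h3⟩ := nuA_div hm (min s₁ s₂)
  generalize (min s₁ s₂ + m) / (2 * m) = φ at h2 h3
  rw [abs_le] at h1
  have h4 : hq m s₁ ≤ φ * s₁ - m * φ ^ 2 := nuA_opt hm (by omega) (by omega) _
  have h5 : hq m s₂ ≤ φ * s₂ - m * φ ^ 2 := nuA_opt hm (by omega) (by omega) _
  have h6 := le_hq hm (φ + 1) t₁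
  have h7 := le_hq hm (φ - 1) t₂
  obtain rfl : t₁ = s₁ + s₂ - t₂ := by linarith
  nlinarith

omit [DecidableEq V] in
theorem nuA_bd (p : V → ℤ) (a : V) : -∑ a, |p a| ≤ p a ∧ p a ≤ ∑ a, |p a| :=
  abs_le.1 (single_le_sum (f := fun a => |p a|) (fun _ _ => abs_nonneg _) (mem_univ a))

theorem nuA_zero {ρ : Finset V → ℤ} (h : Nrm ρ) {p : V → ℤ} {t : ℤ}
    (ht : (∀ a, t ≤ p a) ∨ ∀ a, p a < t) : ρ (univ.filter fun a => t ≤ p a) = 0 := by
  rcases ht with ht | ht
  · rw [filter_true_of_mem fun a _ => ht a, h.univ]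
  · rw [filter_false_of_mem fun a _ => (ht a).not_ge, h.empty]

theorem lov_eq {ρ : Finset V → ℤ} (h : Nrm ρ) {p : V → ℤ} {lo hi : ℤ} (hp : ∀ a, lo ≤ p a ∧ p a ≤ hi) :
    lov ρ p = ∑ t ∈ Ioc lo hi, ρ (univ.filter fun a => t ≤ p a) := by
  refine sum_congr_of_eq_on_inter (fun t _ ht => nuA_zero h ?_) (fun t _ ht => nuA_zero h ?_)
    fun _ _ _ => rfl
  · rw [mem_Ioc, not_and_or, not_lt, not_le] at ht
    exact ht.imp (fun ht a => ht.trans (hp a).1) fun ht a => (hp a).2.trans_lt ht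
  · rw [mem_Icc, not_and_or, not_le, not_le] at ht
    exact ht.imp (fun ht a => ht.le.trans (nuA_bd p a).1) fun ht a => (nuA_bd p a).2.trans_lt ht

theorem dot_eq {x : V → ℤ} (hx : sm x univ = 0) {p : V → ℤ} {lo hi : ℤ}
    (hp : ∀ a, lo ≤ p a ∧ p a ≤ hi) :
    ∑ a, p a * x a = ∑ t ∈ Ioc lo hi, sm x (univ.filter fun a => t ≤ p a) := by
  have h1 : ∀ a, ∑ t ∈ Ioc lo hi, (if t ≤ p a then x a else 0) = p a * x a - lo * x a := by
    intro a
    have h2 : (Ioc lo hi).filter (fun t => t ≤ p a) = Ioc lo (p a) := by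
      ext t
      have := hp a
      simp only [mem_filter, mem_Ioc]
      omega
    rw [← sum_filter, h2, sum_const, Int.card_Ioc, nsmul_eq_mul,
      Int.toNat_of_nonneg (sub_nonneg.2 (hp a).1), sub_mul]
  simp only [sm, sum_filter] at hx ⊢
  rw [sum_comm]
  simp only [h1]
  rw [sum_sub_distrib, ← mul_sum, hx, mul_zero, sub_zero]

theorem dot_le_lov {ρ : Finset V → ℤ} (h : Nrm ρ) {x : V → ℤ} (hx : InB ρ x) (p : V → ℤ) :
    ∑ a, p a * x a ≤ lov ρ p := by
  rw [dot_eq hx.2 (nuA_bd p), lov_eq h (nuA_bd p)]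
  exact sum_le_sum fun t _ => hx.1 _

theorem lov_shift {ρ : Finset V → ℤ} (h : Nrm ρ) (p : V → ℤ) (c : ℤ) :
    lov ρ (fun a => p a + c) = lov ρ p := by
  rw [lov_eq h (nuA_bd p), lov_eq h (lo := -∑ a, |p a| + c) (hi := ∑ a, |p a| + c)
    fun a => ⟨by linarith [(nuA_bd p a).1], by linarith [(nuA_bd p a).2]⟩, ← map_add_right_Ioc,
    sum_map]
  simp

theorem lov_sup_inf {ρ : Finset V → ℤ} (h : Nrm ρ) (p q : V → ℤ) :
    lov ρ (p ⊔ q) + lov ρ (p ⊓ q) ≤ lov ρ p + lov ρ q := by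
  set M := ∑ a, |p a| + ∑ a, |q a| with hM
  have h0 : ∀ r : V → ℤ, 0 ≤ ∑ a, |r a| := fun r => sum_nonneg fun _ _ => abs_nonneg _
  have hp : ∀ a, -M ≤ p a ∧ p a ≤ M := fun a => by
    have := nuA_bd p a
    have := h0 q
    omega
  have hq : ∀ a, -M ≤ q a ∧ q a ≤ M := fun a => by
    have := nuA_bd q a
    have := h0 p
    omega
  rw [lov_eq h hp, lov_eq h hq, lov_eq h (p := p ⊔ q) (lo := -M) (hi := M)
    fun a => ⟨le_sup_of_le_left (hp a).1, sup_le (hp a).2 (hq a).2⟩,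
    lov_eq h (p := p ⊓ q) (lo := -M) (hi := M)
    fun a => ⟨le_inf (hp a).1 (hq a).1, inf_le_of_left_le (hp a).2⟩, ← sum_add_distrib,
    ← sum_add_distrib]
  refine sum_le_sum fun t _ => ?_
  have := h.sub (univ.filter fun a => t ≤ p a) (univ.filter fun a => t ≤ q a)
  rw [← filter_or, ← filter_and] at this
  simpa only [Pi.sup_apply, Pi.inf_apply, le_sup_iff, le_inf_iff] using this

theorem lov_smul_oneS {ρ : Finset V → ℤ} (h : Nrm ρ) {c : ℤ} (hc : 0 ≤ c) (S : Finset V) :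
    lov ρ (c • oneS S) = c * ρ S := by
  rw [lov_eq h (lo := 0) (hi := c) fun a => by
    by_cases ha : a ∈ S <;> simp [oneS, ha, hc]]
  have h1 : ∀ t ∈ Ioc 0 c, ρ (univ.filter fun a => t ≤ (c • oneS S) a) = ρ S := by
    intro t ht
    rw [mem_Ioc] at ht
    congr 1
    ext a
    by_cases ha : a ∈ S <;> simp [oneS, ha, ht.1, ht.2]
  rw [sum_congr rfl h1, sum_const, Int.card_Ioc, nsmul_eq_mul, sub_zero, Int.toNat_of_nonneg hc]

/-- The greedy vertex for the key `κ` (large keys first). -/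
def gre (ρ : Finset V → ℤ) (κ : V → ℤ) (a : V) : ℤ :=
  ρ (univ.filter fun b => κ a ≤ κ b) - ρ (univ.filter fun b => κ a < κ b)

theorem nuA_up {ρ : Finset V → ℤ} (h : Nrm ρ) {κ : V → ℤ} (hκ : Function.Injective κ)
    (U : Finset V) : (∀ a ∈ U, ∀ b, κ a ≤ κ b → b ∈ U) → sm (gre ρ κ) U = ρ U := by
  induction U using Finset.induction_on_min_value κ with
  | empty => exact fun _ => by simp [sm, h.empty]
  | insert a s ha hs ih =>
    intro hU
    have h1 : (univ.filter fun b => κ a ≤ κ b) = insert a s := by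
      ext b
      simp only [mem_filter, mem_univ, true_and]
      refine ⟨hU a (mem_insert_self _ _) b, fun hb => ?_⟩
      rcases mem_insert.1 hb with rfl | hb
      · exact le_rfl
      · exact hs b hb
    have h2 : (univ.filter fun b => κ a < κ b) = s := by
      ext b
      simp only [mem_filter, mem_univ, true_and]
      refine ⟨fun hb => (mem_insert.1 (hU a (mem_insert_self _ _) b hb.le)).resolve_left ?_,
        fun hb => lt_of_le_of_ne (hs b hb) fun e => ha (hκ e ▸ hb)⟩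
      rintro rfl
      exact lt_irrefl _ hb
    have h3 := ih fun b hb c hc => by
      rw [← h2, mem_filter] at hb ⊢
      exact ⟨mem_univ _, hb.2.trans_le hc⟩
    unfold sm at h3 ⊢
    rw [sum_insert ha, h3, gre, h1, h2, sub_add_cancel]

theorem gre_tight {ρ : Finset V → ℤ} (h : Nrm ρ) {κ : V → ℤ} (hκ : Function.Injective κ) (t : ℤ) :
    sm (gre ρ κ) (univ.filter fun b => t ≤ κ b) = ρ (univ.filter fun b => t ≤ κ b) := by
  refine nuA_up h hκ _ fun a ha b hb => ?_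
  rw [mem_filter] at ha ⊢
  exact ⟨mem_univ _, ha.2.trans hb⟩

theorem gre_inB {ρ : Finset V → ℤ} (h : Nrm ρ) {κ : V → ℤ} (hκ : Function.Injective κ) :
    InB ρ (gre ρ κ) := by
  refine ⟨fun S => ?_, by rw [nuA_up h hκ univ fun _ _ _ _ => mem_univ _, h.univ]⟩
  induction S using Finset.induction_on_min_value κ with
  | empty => simp [sm, h.empty]
  | insert a s ha hs ih =>
    have h0 : ∀ b ∈ s, κ a < κ b := fun b hb => lt_of_le_of_ne (hs b hb) fun e => ha (hκ e ▸ hb)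
    have h1 : insert a s ∪ (univ.filter fun b => κ a < κ b) = univ.filter fun b => κ a ≤ κ b := by
      ext b
      simp only [mem_union, mem_insert, mem_filter, mem_univ, true_and]
      constructor
      · rintro ((rfl | hb) | hb)
        exacts [le_rfl, hs b hb, hb.le]
      · intro hb
        rcases hb.eq_or_lt with e | e
        · exact .inl (.inl (hκ e).symm)
        · exact .inr e
    have h2 : insert a s ∩ (univ.filter fun b => κ a < κ b) = s := by
      ext b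
      simp only [mem_inter, mem_insert, mem_filter, mem_univ, true_and]
      constructor
      · rintro ⟨rfl | hb, hb'⟩
        · exact absurd hb' (lt_irrefl _)
        · exact hb
      · exact fun hb => ⟨.inr hb, h0 b hb⟩
    have h3 := h.sub (insert a s) (univ.filter fun b => κ a < κ b)
    rw [h1, h2] at h3
    unfold sm at ih ⊢
    rw [sum_insert ha, gre]
    linarith

/-- The greedy formula for the Lovász extension. -/
theorem lov_eq_gre {ρ : Finset V → ℤ} (h : Nrm ρ) {κ p : V → ℤ} (hκ : Function.Injective κ)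
    (hp : ∀ a b, p a < p b → κ a < κ b) : lov ρ p = ∑ a, p a * gre ρ κ a := by
  rw [dot_eq (gre_inB h hκ).2 (nuA_bd p), lov_eq h (nuA_bd p)]
  refine sum_congr rfl fun t _ => (nuA_up h hκ _ fun a ha b hb => ?_).symm
  rw [mem_filter] at ha ⊢
  exact ⟨mem_univ _, ha.2.trans (not_lt.1 fun hlt => (hp b a hlt).not_ge hb)⟩

theorem exists_tight {ρ : Finset V → ℤ} (h : Nrm ρ) (w : V → ℤ) :
    ∃ x, InB ρ x ∧ ∀ p : V → ℤ, (∀ a b, p a < p b → w a < w b) → lov ρ p = ∑ a, p a * x a := by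
  set κ : V → ℤ := fun a => Fintype.card V * w a + (Fintype.equivFin V a : ℕ) with hκ
  have h1 : ∀ a b, w a < w b → κ a < κ b := fun a b hab => by
    have h2 : ((Fintype.equivFin V a : ℕ) : ℤ) < Fintype.card V := by
      exact_mod_cast (Fintype.equivFin V a).2
    have h3 : (0 : ℤ) ≤ (Fintype.equivFin V b : ℕ) := Int.natCast_nonneg _
    have h4 : (Fintype.card V : ℤ) * (w a + 1) ≤ Fintype.card V * w b :=
      mul_le_mul_of_nonneg_left hab (Int.natCast_nonneg _)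
    simp only [hκ]
    linarith
  have h2 : Function.Injective κ := fun a b e => by
    have h3 : w a = w b := le_antisymm (not_lt.1 fun hlt => (h1 b a hlt).ne' e)
      (not_lt.1 fun hlt => (h1 a b hlt).ne e)
    simp only [hκ, h3, add_right_inj, Nat.cast_inj] at e
    exact (Fintype.equivFin V).injective (Fin.ext e)
  exact ⟨gre ρ κ, gre_inB h h2, fun p hp => lov_eq_gre h h2 fun a b hab => h1 a b (hp a b hab)⟩

theorem lov_mid {ρ : Finset V → ℤ} (h : Nrm ρ) (p q : V → ℤ) :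
    lov ρ (fun a => (p a + q a + 1) / 2) + lov ρ (fun a => (p a + q a) / 2) ≤ lov ρ p + lov ρ q := by
  obtain ⟨x, hx, h1⟩ := exists_tight h fun a => p a + q a
  rw [h1 _ fun a b hab => by omega, h1 _ fun a b hab => by omega, ← sum_add_distrib]
  refine le_trans (le_of_eq ?_) (add_le_add (dot_le_lov h hx p) (dot_le_lov h hx q))
  rw [← sum_add_distrib]
  refine sum_congr rfl fun a _ => ?_
  rw [← add_mul, ← add_mul]
  congr 1
  omega

end Crest.Agent.R302
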