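import Crest.Agent.R302.NuA

/-!
# Row 302: first properties of the wall

`le_G`: shift `p` by its minimum (`Finset.exists_min_image`; if `V` is empty `p = 0`).  `G_wall`: take `p = τ k • 1_S` with
`k` the largest level on which some class is cut by `S` (then `cut σ S ≥ σ k`, every term of `pen` is at most
`τ k ^ 2 / (4 m j) ≤ D / 4` because `m k ≤ m j`, `τ k ≤ τ j` for `j ≤ k`), or `p = P • 1_S` if no class is cut.
-/

set_option autoImplicit false

namespace Crest.Agent.R302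

open Finset Crest.Agent.R309

variable {V : Type} [Fintype V] [DecidableEq V]

namespace Wall

variable {w : Wall V}

theorem OK.pen_nonneg (h : w.OK) (p : V → ℤ) : 0 ≤ w.pen p := by
  refine sum_nonneg fun k hk => sum_nonneg fun a _ => sum_nonneg fun b _ => ?_
  split_ifs
  · exact hq_nonneg (h.m_pos k (mem_range.1 hk)) _
  · exact le_rfl

theorem OK.ell_zero (h : w.OK) (y : V → ℤ) : w.ell y 0 = 0 := by
  have h1 : lov w.ρ 0 = 0 := by
    rw [lov_eq h.nrm (p := 0) (lo := 0) (hi := 0) fun a => ⟨le_rfl, le_rfl⟩]; simp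
  have h2 : w.pen 0 = 0 :=
    sum_eq_zero fun k hk => sum_eq_zero fun a _ => sum_eq_zero fun b _ => by
      simp [hq_zero (h.m_pos k (mem_range.1 hk))]
  simp [ell, h1, h2]

theorem OK.feas_zero (h : w.OK) : w.Feas 0 := by
  exact ⟨fun a b => by simpa using h.P_nonneg, fun k hk a b _ => by simpa using h.τ_nonneg k hk⟩

theorem Feas.shift {p : V → ℤ} (hp : w.Feas p) (c : ℤ) : w.Feas fun a => p a + c := by
  simpa only [Feas, add_sub_add_right_eq_sub] using hp

theorem OK.ell_shift (h : w.OK) {y : V → ℤ} (hy : sm y univ = 0) (p : V → ℤ) (c : ℤ) :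
    w.ell y (fun a => p a + c) = w.ell y p := by
  have h1 : w.pen (fun a => p a + c) = w.pen p := by simp only [pen, add_sub_add_right_eq_sub]
  have h2 : ∑ a, (p a + c) * y a = ∑ a, p a * y a := by
    simp only [add_mul, sum_add_distrib, ← mul_sum]
    rw [show ∑ a, y a = 0 from hy, mul_zero, add_zero]
  rw [ell, ell, lov_shift h.nrm, h1, h2]

theorem OK.mem_Pf (h : w.OK) {p : V → ℤ} :
    p ∈ w.Pf ↔ (∀ a, 0 ≤ p a ∧ p a ≤ w.P) ∧ w.Feas p := by
  classical
  simp only [Pf, mem_insert, mem_filter, Fintype.mem_piFinset, mem_Icc]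
  refine ⟨fun hp => hp.elim ?_ id, Or.inr⟩
  rintro rfl
  exact ⟨fun a => ⟨le_rfl, h.P_nonneg⟩, h.feas_zero⟩

theorem OK.card_Pf (h : w.OK) : (w.Pf.card : ℤ) ≤ (w.P + 1) ^ Fintype.card V := by
  have h1 : w.Pf ⊆ Fintype.piFinset fun _ : V => Icc 0 w.P := fun p hp =>
    Fintype.mem_piFinset.2 fun a => mem_Icc.2 ((h.mem_Pf.1 hp).1 a)
  have h2 := card_le_card h1
  rw [Fintype.card_piFinset, prod_const, card_univ, Int.card_Icc, sub_zero] at h2
  have h3 : ((w.P + 1).toNat : ℤ) = w.P + 1 := Int.toNat_of_nonneg (by linarith [h.P_nonneg])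
  rw [← h3]
  exact_mod_cast h2

theorem OK.G_nonneg (h : w.OK) (y : V → ℤ) : 0 ≤ w.G y := by
  rw [← h.ell_zero y]
  exact ell_le_G y (h.mem_Pf.2 ⟨fun a => ⟨le_rfl, h.P_nonneg⟩, h.feas_zero⟩)

/-- Distance bound; in particular `G = 0` on the base polytope. -/
theorem OK.G_le (h : w.OK) {x : V → ℤ} (hx : InB w.ρ x) (y : V → ℤ) :
    w.G y ≤ w.P * ∑ a, |y a - x a| := by
  obtain ⟨p, hp, e⟩ := exists_G (w := w) y
  have h1 := dot_le_lov h.nrm hx p
  have h2 := h.pen_nonneg p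
  have h3 : ∑ a, p a * y a - ∑ a, p a * x a ≤ w.P * ∑ a, |y a - x a| := by
    rw [← sum_sub_distrib, mul_sum]
    refine sum_le_sum fun a _ => ?_
    obtain ⟨h4, h5⟩ := (h.mem_Pf.1 hp).1 a
    rw [← mul_sub]
    exact (mul_le_mul_of_nonneg_left (le_abs_self _) h4).trans
      (mul_le_mul_of_nonneg_right h5 (abs_nonneg _))
  rw [e, ell]
  linarith

theorem OK.le_G (h : w.OK) {y : V → ℤ} (hy : sm y univ = 0) {p : V → ℤ} (hp : w.Feas p) :
    w.ell y p ≤ w.G y := by
  rcases isEmpty_or_nonempty V with hV | hV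
  · exact ell_le_G y (h.mem_Pf.2 ⟨fun a => isEmptyElim a, hp⟩)
  · obtain ⟨b, -, hb⟩ := exists_min_image univ p univ_nonempty
    rw [← h.ell_shift hy p (-p b)]
    refine ell_le_G y (h.mem_Pf.2 ⟨fun a => ⟨?_, ?_⟩, hp.shift _⟩)
    · linarith [hb a (mem_univ a)]
    · linarith [le_abs_self (p a - p b), hp.1 a b]

theorem cut_nonneg {σ : ℕ → ℤ} (hσ : ∀ k < w.lv.L, 0 ≤ σ k) (S : Finset V) : 0 ≤ w.cut σ S := by
  refine sum_nonneg fun k hk => sum_nonneg fun a _ => sum_nonneg fun b _ => ?_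
  split_ifs
  · exact hσ k (mem_range.1 hk)
  · exact le_rfl

theorem nrm_add_cut (h : Nrm w.ρ) {σ : ℕ → ℤ} (hσ : ∀ k < w.lv.L, 0 ≤ σ k) {Δ : ℤ} (hΔ : 0 ≤ Δ) :
    Nrm fun S => w.ρ S + Δ * w.cut σ S := by
  refine ⟨fun A B => ?_, by simp [cut, h.empty], by simp [cut, h.univ]⟩
  have h1 : w.cut σ (A ∪ B) + w.cut σ (A ∩ B) ≤ w.cut σ A + w.cut σ B := by
    simp only [cut, ← sum_add_distrib]
    refine sum_le_sum fun k hk => sum_le_sum fun a _ => sum_le_sum fun b _ => ?_
    have := hσ k (mem_range.1 hk)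
    by_cases h0 : w.lv.cls k a = w.lv.cls k b <;> by_cases h1 : a ∈ A <;> by_cases h2 : a ∈ B <;>
      by_cases h3 : b ∈ A <;> by_cases h4 : b ∈ B <;> simp [h0, h1, h2, h3, h4, this]
  have h2 := h.sub A B
  have h3 := mul_le_mul_of_nonneg_left h1 hΔ
  linarith

omit [Fintype V] in
private theorem nuB_abs {c : ℤ} (hc : 0 ≤ c) (S : Finset V) (a b : V) :
    |(c • oneS S) a - (c • oneS S) b| ≤ c := by
  by_cases ha : a ∈ S <;> by_cases hb : b ∈ S <;> simp [oneS, ha, hb, hc, abs_of_nonneg]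

omit [Fintype V] in
private theorem nuB_eq (c : ℤ) {S : Finset V} {a b : V} (h : a ∈ S ↔ b ∈ S) :
    (c • oneS S) a - (c • oneS S) b = 0 := by
  simp [oneS, h]

private theorem nuB_dot (c : ℤ) (S : Finset V) (y : V → ℤ) :
    ∑ a, (c • oneS S) a * y a = c * sm y S := by
  simp [oneS, sm, mul_sum]

/-- Outside the relaxed polytope the wall is high. -/
theorem OK.G_wall (h : w.OK) {σ : ℕ → ℤ} {D T Δ : ℤ} (hD : 0 < D) (hT : 1 ≤ T)
    (hσ : ∀ k < w.lv.L, 0 < σ k) (hmono : ∀ j k, j ≤ k → k < w.lv.L → σ j ≤ σ k)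
    (hm : ∀ k < w.lv.L, w.m k * σ k ^ 2 = D) (hτ : ∀ k < w.lv.L, w.τ k * σ k = D)
    (hP : w.P = T * D) (hΔ : T + w.lv.L * Fintype.card V ^ 2 ≤ Δ) {y : V → ℤ}
    (hy : sm y univ = 0) {S : Finset V} (hS : w.ρ S + Δ * w.cut σ S < sm y S) :
    T * D ≤ w.G y := by
  classical
  have hLV : 0 ≤ (w.lv.L : ℤ) * (Fintype.card V : ℤ) ^ 2 := by positivity
  have hcut := cut_nonneg (w := w) (fun k hk => (hσ k hk).le) S
  by_cases hne : ((range w.lv.L).filter fun k =>
      ∃ a b, w.lv.cls k a = w.lv.cls k b ∧ a ∈ S ∧ b ∉ S).Nonempty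
  · obtain ⟨k, hk, hmax⟩ := exists_max_image _ id hne
    obtain ⟨hkL, a₀, b₀, h₀⟩ := mem_filter.1 hk
    have hkL := mem_range.1 hkL
    have hτ0 := h.τ_nonneg k hkL
    have hσk := hσ k hkL
    have hle : ∀ j < w.lv.L, ∀ a b, w.lv.cls j a = w.lv.cls j b → ¬ (a ∈ S ↔ b ∈ S) → j ≤ k := by
      intro j hj a b hab hS
      refine hmax j (mem_filter.2 ⟨mem_range.2 hj, ?_⟩)
      by_cases ha : a ∈ S
      · exact ⟨a, b, hab, ha, fun hb => hS ⟨fun _ => hb, fun _ => ha⟩⟩
      · exact ⟨b, a, hab.symm, by tauto, ha⟩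
    have hτD : w.τ k ≤ D := by nlinarith [hτ k hkL]
    have hfeas : w.Feas (w.τ k • oneS S) := by
      refine ⟨fun a b => (nuB_abs hτ0 S a b).trans (by nlinarith), fun j hj a b hab => ?_⟩
      by_cases hab' : a ∈ S ↔ b ∈ S
      · rw [nuB_eq _ hab', abs_zero]; exact h.τ_nonneg j hj
      · refine (nuB_abs hτ0 S a b).trans (le_of_mul_le_mul_right ?_ (hσ j hj))
        rw [hτ j hj, ← hτ k hkL]
        exact mul_le_mul_of_nonneg_left (hmono j k (hle j hj a b hab hab') hkL) hτ0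
    have hsq : w.τ k ^ 2 = D * w.m k := by
      refine mul_right_cancel₀ (pow_pos hσk 2).ne' ?_
      rw [← mul_pow, hτ k hkL, mul_assoc, hm k hkL, sq]
    have hpen : w.pen (w.τ k • oneS S) ≤ w.lv.L * Fintype.card V ^ 2 * D := by
      have e : (w.lv.L : ℤ) * Fintype.card V ^ 2 * D =
          ∑ _j ∈ range w.lv.L, ∑ _a : V, ∑ _b : V, D := by
        simp only [sum_const, card_univ, card_range, nsmul_eq_mul]; ring
      rw [e]
      refine sum_le_sum fun j hj => sum_le_sum fun a _ => sum_le_sum fun b _ => ?_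
      have hj := mem_range.1 hj
      have hmj := h.m_pos j hj
      split_ifs with hab
      swap
      · exact hD.le
      by_cases hab' : a ∈ S ↔ b ∈ S
      · rw [nuB_eq _ hab', hq_zero hmj]; exact hD.le
      · have h1 : w.m k ≤ w.m j := by
          refine le_of_mul_le_mul_right ?_ (pow_pos hσk 2)
          rw [hm k hkL, ← hm j hj]
          exact mul_le_mul_of_nonneg_left
            (pow_le_pow_left₀ (hσ j hj).le (hmono j k (hle j hj a b hab hab') hkL) 2) hmj.le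
        have h2 := four_mul_hq_le hmj ((w.τ k • oneS S) a - (w.τ k • oneS S) b)
        have h3 := sq_le_sq' (abs_le.1 (nuB_abs hτ0 S a b)).1 (abs_le.1 (nuB_abs hτ0 S a b)).2
        refine le_of_mul_le_mul_left ?_ (show 0 < 4 * w.m j by linarith)
        nlinarith
    have hσcut : σ k ≤ w.cut σ S := by
      have hn : ∀ j ∈ range w.lv.L, ∀ a b,
          0 ≤ if w.lv.cls j a = w.lv.cls j b ∧ a ∈ S ∧ b ∉ S then σ j else 0 := fun j hj a b => by
        split_ifs
        · exact (hσ j (mem_range.1 hj)).le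
        · exact le_rfl
      refine le_trans ?_ (single_le_sum (fun j hj => sum_nonneg fun a _ => sum_nonneg fun b _ =>
        hn j hj a b) (mem_range.2 hkL))
      refine le_trans ?_ (single_le_sum (fun a _ => sum_nonneg fun b _ =>
        hn k (mem_range.2 hkL) a b) (mem_univ a₀))
      refine le_trans ?_ (single_le_sum (fun b _ => hn k (mem_range.2 hkL) a₀ b) (mem_univ b₀))
      rw [if_pos h₀]
    refine le_trans ?_ (h.le_G hy hfeas)
    rw [ell, lov_smul_oneS h.nrm hτ0, nuB_dot]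
    have h1 : Δ * σ k ≤ sm y S - w.ρ S := by
      have := mul_le_mul_of_nonneg_left hσcut (show 0 ≤ Δ by linarith)
      linarith
    have h2 := mul_le_mul_of_nonneg_left h1 hτ0
    have h3 : w.τ k * (Δ * σ k) = Δ * D := by rw [← hτ k hkL]; ring
    have h4 := mul_le_mul_of_nonneg_right hΔ hD.le
    linarith
  · have hiff : ∀ j < w.lv.L, ∀ a b, w.lv.cls j a = w.lv.cls j b → (a ∈ S ↔ b ∈ S) := by
      intro j hj a b hab
      by_contra hS
      refine hne ⟨j, mem_filter.2 ⟨mem_range.2 hj, ?_⟩⟩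
      by_cases ha : a ∈ S
      · exact ⟨a, b, hab, ha, fun hb => hS ⟨fun _ => hb, fun _ => ha⟩⟩
      · exact ⟨b, a, hab.symm, by tauto, ha⟩
    have hfeas : w.Feas (w.P • oneS S) := by
      refine ⟨nuB_abs h.P_nonneg S, fun j hj a b hab => ?_⟩
      rw [nuB_eq _ (hiff j hj a b hab), abs_zero]; exact h.τ_nonneg j hj
    have hpen : w.pen (w.P • oneS S) = 0 := by
      refine sum_eq_zero fun j hj => sum_eq_zero fun a _ => sum_eq_zero fun b _ => ?_
      split_ifs with hab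
      · rw [nuB_eq _ (hiff j (mem_range.1 hj) a b hab), hq_zero (h.m_pos j (mem_range.1 hj))]
      · rfl
    refine le_trans ?_ (h.le_G hy hfeas)
    rw [ell, lov_smul_oneS h.nrm h.P_nonneg, nuB_dot, hpen, ← hP]
    have h1 : 1 ≤ sm y S - w.ρ S := by
      have := mul_nonneg (show 0 ≤ Δ by linarith) hcut
      linarith
    have h2 := mul_le_mul_of_nonneg_left h1 h.P_nonneg
    linarith

end Wall

end Crest.Agent.R302
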