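import Crest.Agent.R302.NuB

/-!
# Row 302: `ell` is an L-concave function of `p`

`pen` is submodular: for a pair `(a, b)` the differences of `p ⊔ q`, `p ⊓ q` have the same sum as those of `p`, `q` and lie
between them (`hq_conv`).  `step`: let `S` be a set with `q a - p a = μ` on `S` and `q a - p a ≤ μ - α` off `S`.  Then
`q ⊔ (p + μ - α) = p + (μ - α) + α 1_S` and `q ⊓ (p + μ - α) = q - α 1_S`.
`local_global`: induct on `∑ a, (q a - p a)` after shifting so that `p ≤ q` (or on `max (q - p) - min (q - p)`), `α = 1`.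
`conc`: `(x + 1_S) ⊔ (x + 1_{Sᶜ}) = x + 1`, `⊓ = x`, so `ψ c = ell y (p + c 1_S)` satisfies `ψ (c+1) + ψ (c-1) ≤ 2 ψ c`.
`descent`: `q` optimal.  Induct on the number of values of `q - p` (at most `N`): with `S` the set of maximisers and `α` the gap
to the second largest value (`α ≤ 2 P < 2 ^ J`), `ell q - ell (q - α 1_S) ≤ ψ α - ψ 0 ≤ 2 * max 0 (ψ (2^j) - ψ 0)` for
`2 ^ j ≤ α < 2 ^ (j+1)`.  So the gap is at most `2 (N - 1) * best ≤ N J * best` (`best ≥ 0` by `S = ∅`; if `J = 1` then `P = 0`).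
-/

set_option autoImplicit false

namespace Crest.Agent.R302

open Finset Crest.Agent.R309

variable {V : Type} [Fintype V] [DecidableEq V]

namespace Wall

variable {w : Wall V}

theorem Feas.sup {p q : V → ℤ} (hp : w.Feas p) (hq : w.Feas q) : w.Feas (p ⊔ q) := by
  refine ⟨fun a b => ?_, fun k hk a b hab => ?_⟩
  · exact (abs_max_sub_max_le_max _ _ _ _).trans (max_le (hp.1 a b) (hq.1 a b))
  · exact (abs_max_sub_max_le_max _ _ _ _).trans (max_le (hp.2 k hk a b hab) (hq.2 k hk a b hab))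

theorem Feas.inf {p q : V → ℤ} (hp : w.Feas p) (hq : w.Feas q) : w.Feas (p ⊓ q) := by
  refine ⟨fun a b => ?_, fun k hk a b hab => ?_⟩
  · exact (abs_min_sub_min_le_max _ _ _ _).trans (max_le (hp.1 a b) (hq.1 a b))
  · exact (abs_min_sub_min_le_max _ _ _ _).trans (max_le (hp.2 k hk a b hab) (hq.2 k hk a b hab))

theorem OK.ell_sup_inf (h : w.OK) (y p q : V → ℤ) :
    w.ell y p + w.ell y q ≤ w.ell y (p ⊔ q) + w.ell y (p ⊓ q) := by
  have h1 : ∑ a, (p ⊔ q) a * y a + ∑ a, (p ⊓ q) a * y a = ∑ a, p a * y a + ∑ a, q a * y a := by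
    rw [← sum_add_distrib, ← sum_add_distrib]
    refine sum_congr rfl fun a _ => ?_
    rw [← add_mul, ← add_mul, Pi.sup_apply, Pi.inf_apply, max_add_min]
  have h2 := lov_sup_inf h.nrm p q
  have h3 : w.pen (p ⊔ q) + w.pen (p ⊓ q) ≤ w.pen p + w.pen q := by
    simp only [pen, ← sum_add_distrib]
    refine sum_le_sum fun k hk => sum_le_sum fun a _ => sum_le_sum fun b _ => ?_
    split_ifs
    · refine hq_conv (h.m_pos k (mem_range.1 hk)) ?_ ?_ ?_ <;>
        simp only [Pi.sup_apply, Pi.inf_apply] <;> omega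
    · exact le_rfl
  simp only [ell]
  linarith

theorem OK.step (h : w.OK) {y : V → ℤ} (hy : sm y univ = 0) {p q : V → ℤ} (hp : w.Feas p)
    (hq : w.Feas q) {S : Finset V} {μ α : ℤ} (hα : 0 ≤ α) (h1 : ∀ a ∈ S, q a - p a = μ)
    (h2 : ∀ a ∉ S, q a - p a ≤ μ - α) :
    w.Feas (p + α • oneS S) ∧ w.Feas (q - α • oneS S) ∧
      w.ell y q - w.ell y (q - α • oneS S) ≤ w.ell y (p + α • oneS S) - w.ell y p := by
  have e1 : q ⊔ (fun a => p a + (μ - α)) = fun a => (p + α • oneS S) a + (μ - α) := by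
    funext a
    by_cases ha : a ∈ S
    · have := h1 a ha
      simp only [Pi.sup_apply, Pi.add_apply, Pi.smul_apply, oneS, ha, if_true, smul_eq_mul]
      omega
    · have := h2 a ha
      simp only [Pi.sup_apply, Pi.add_apply, Pi.smul_apply, oneS, ha, if_false, smul_eq_mul]
      omega
  have e2 : q ⊓ (fun a => p a + (μ - α)) = q - α • oneS S := by
    funext a
    by_cases ha : a ∈ S
    · have := h1 a ha
      simp only [Pi.inf_apply, Pi.sub_apply, Pi.smul_apply, oneS, ha, if_true, smul_eq_mul]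
      omega
    · have := h2 a ha
      simp only [Pi.inf_apply, Pi.sub_apply, Pi.smul_apply, oneS, ha, if_false, smul_eq_mul]
      omega
  have f1 := (hq.sup (hp.shift (μ - α))).shift (-(μ - α))
  have f2 := hq.inf (hp.shift (μ - α))
  have f3 := h.ell_sup_inf y q fun a => p a + (μ - α)
  rw [e1, e2, h.ell_shift hy, h.ell_shift hy] at f3
  rw [e1] at f1
  rw [e2] at f2
  simp only [add_neg_cancel_right] at f1
  exact ⟨f1, f2, by linarith⟩

theorem nuc_conc (ψ : ℤ → ℤ) (h : ∀ c, ψ (c + 1 + 1) + ψ c ≤ 2 * ψ (c + 1)) {α β : ℤ} (h0 : 0 ≤ β)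
    (h1 : β ≤ α) : β * (ψ α - ψ 0) ≤ α * (ψ β - ψ 0) := by
  have k1 : ∀ n, 0 ≤ n → n * (ψ (n + 1) - ψ n) ≤ ψ n - ψ 0 := by
    intro n hn
    induction n, hn using Int.le_induction with
    | base => simp
    | succ n hn ih =>
      have := mul_le_mul_of_nonneg_left (h n) (by linarith : 0 ≤ n + 1)
      linarith
  have k2 : ∀ n, β ≤ n → ψ (n + 1) - ψ n ≤ ψ (β + 1) - ψ β := by
    intro n hn
    induction n, hn using Int.le_induction with
    | base => exact le_rfl
    | succ n hn ih => linarith [h n]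
  induction α, h1 using Int.le_induction with
  | base => exact le_rfl
  | succ n hn ih =>
    have := mul_le_mul_of_nonneg_left (k2 n hn) h0
    linarith [k1 β h0]

theorem nuc_between {p : V → ℤ} (hp : w.Feas p) {S : Finset V} {α β : ℤ}
    (hα : w.Feas (p + α • oneS S)) (h0 : 0 ≤ β) (h1 : β ≤ α) : w.Feas (p + β • oneS S) := by
  have key : ∀ a b (t : ℤ), |p a - p b| ≤ t → |(p + α • oneS S) a - (p + α • oneS S) b| ≤ t →
      |(p + β • oneS S) a - (p + β • oneS S) b| ≤ t := by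
    intro a b t
    simp only [Pi.add_apply, Pi.smul_apply, oneS, smul_eq_mul, abs_le]
    split_ifs <;> omega
  exact ⟨fun a b => key a b _ (hp.1 a b) (hα.1 a b),
    fun k hk a b hab => key a b _ (hp.2 k hk a b hab) (hα.2 k hk a b hab)⟩

theorem nuc_conc' (h : w.OK) {y : V → ℤ} (hy : sm y univ = 0) (p : V → ℤ) (S : Finset V) {α β : ℤ}
    (h0 : 0 ≤ β) (h1 : β ≤ α) :
    β * (w.ell y (p + α • oneS S) - w.ell y p) ≤ α * (w.ell y (p + β • oneS S) - w.ell y p) := by
  have := nuc_conc (fun c => w.ell y (p + c • oneS S)) (fun c => ?_) h0 h1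
  · simpa only [zero_smul, add_zero] using this
  have f := h.ell_sup_inf y (p + (c + 1 + 1) • oneS S) fun a => (p + c • oneS S) a + 1
  have e1 : (p + (c + 1 + 1) • oneS S) ⊔ (fun a => (p + c • oneS S) a + 1) =
      fun a => (p + (c + 1) • oneS S) a + 1 := by
    funext a
    simp only [Pi.sup_apply, Pi.add_apply, Pi.smul_apply, oneS, smul_eq_mul]
    split_ifs <;> omega
  have e2 : (p + (c + 1 + 1) • oneS S) ⊓ (fun a => (p + c • oneS S) a + 1) =
      p + (c + 1) • oneS S := by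
    funext a
    simp only [Pi.inf_apply, Pi.add_apply, Pi.smul_apply, oneS, smul_eq_mul]
    split_ifs <;> omega
  rw [e1, e2, h.ell_shift hy, h.ell_shift hy] at f
  linarith

theorem nuc_climb (h : w.OK) {y : V → ℤ} (hy : sm y univ = 0) {p : V → ℤ} (hp : w.Feas p) {B : ℤ}
    (hB : 0 ≤ B) (hs : ∀ (S : Finset V) (α : ℤ), 0 < α → α ≤ 2 * w.P → w.Feas (p + α • oneS S) →
      w.ell y (p + α • oneS S) - w.ell y p ≤ B) (n : ℕ) :
    ∀ q, w.Feas q → (univ.image fun a => q a - p a).card ≤ n + 1 →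
      w.ell y q - w.ell y p ≤ n * B := by
  induction n with
  | zero =>
    intro q _ hc
    obtain ⟨c, hc⟩ := card_le_one_iff_subset_singleton.1 hc
    have : q = fun a => p a + c := funext fun a => by
      have := mem_singleton.1 (hc (mem_image_of_mem _ (mem_univ a)))
      omega
    rw [this, h.ell_shift hy]
    simp
  | succ n ih =>
    intro q hq hc
    set I := univ.image fun a => q a - p a with hI
    by_cases hn : I.card ≤ n + 1
    · have := ih q hq hn
      push_cast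
      linarith
    have hI0 : I.Nonempty := card_pos.1 (by omega)
    have hI1 : (I.erase (I.max' hI0)).Nonempty := by
      rw [← card_pos, card_erase_of_mem (max'_mem _ _)]; omega
    set μ := I.max' hI0 with hμ
    set μ' := (I.erase μ).max' hI1 with hμ'
    have m1 : μ' ∈ I.erase μ := max'_mem _ _
    have m2 : μ' < μ := lt_of_le_of_ne (le_max' _ _ (mem_of_mem_erase m1)) (ne_of_mem_erase m1)
    have m3 : ∀ a, q a - p a ∈ I := fun a => mem_image_of_mem _ (mem_univ a)
    obtain ⟨s1, s2, s3⟩ := h.step hy hp hq (S := univ.filter fun a => q a - p a = μ) (μ := μ)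
      (α := μ - μ') (by omega) (fun a ha => (mem_filter.1 ha).2) fun a ha => by
        rw [sub_sub_cancel]
        exact le_max' _ _ (mem_erase.2 ⟨by simpa using ha, m3 a⟩)
    have s4 := hs _ _ (by omega) (by
      obtain ⟨a, -, ha⟩ := mem_image.1 (max'_mem I hI0)
      obtain ⟨b, -, hb⟩ := mem_image.1 (mem_of_mem_erase m1)
      have := abs_le.1 (hp.1 a b)
      have := abs_le.1 (hq.1 a b)
      omega) s1
    have s5 := ih _ s2 ((card_le_card (t := I.erase μ) fun x hx => ?_).trans (by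
      rw [card_erase_of_mem (max'_mem _ _)]; omega))
    · push_cast
      linarith
    · obtain ⟨a, -, rfl⟩ := mem_image.1 hx
      simp only [Pi.sub_apply, Pi.smul_apply, oneS, smul_eq_mul, mem_filter, mem_univ, true_and]
      split_ifs with ha
      · rwa [show q a - (μ - μ') * 1 - p a = μ' by omega]
      · rw [mul_zero, sub_zero]
        exact mem_erase.2 ⟨ha, m3 a⟩

theorem nuc_G_le (h : w.OK) {y : V → ℤ} (hy : sm y univ = 0) {p : V → ℤ} (hp : w.Feas p) {B : ℤ}
    (hB : 0 ≤ B) (hs : ∀ (S : Finset V) (α : ℤ), 0 < α → α ≤ 2 * w.P → w.Feas (p + α • oneS S) →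
      w.ell y (p + α • oneS S) - w.ell y p ≤ B) : w.G y - w.ell y p ≤ Fintype.card V * B := by
  obtain ⟨q, hq, e⟩ := exists_G (w := w) y
  rw [e]
  exact nuc_climb h hy hp hB hs _ q (h.mem_Pf.1 hq).2
    (card_image_le.trans (card_univ.le.trans (Nat.le_succ _)))

/-- A local maximum is a global maximum. -/
theorem OK.local_global (h : w.OK) {y : V → ℤ} (hy : sm y univ = 0) {p : V → ℤ} (hp : w.Feas p)
    (hloc : ∀ S : Finset V, w.Feas (p + oneS S) → w.ell y (p + oneS S) ≤ w.ell y p) :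
    w.G y = w.ell y p := by
  refine le_antisymm ?_ (h.le_G hy hp)
  have := nuc_G_le h hy hp le_rfl fun S α h0 _ hf => by
    have k1 := nuc_conc' h hy p S zero_le_one h0
    have k2 := nuc_between hp hf zero_le_one h0
    rw [one_smul] at k1 k2
    have k3 := mul_nonpos_of_nonneg_of_nonpos h0.le (sub_nonpos.2 (hloc S k2))
    linarith
  linarith

theorem Feas.between {p : V → ℤ} (hp : w.Feas p) {S : Finset V} {α β : ℤ}
    (hα : w.Feas (p + α • oneS S)) (h0 : 0 ≤ β) (h1 : β ≤ α) : w.Feas (p + β • oneS S) := by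
  exact nuc_between hp hα h0 h1

/-- Concavity along `1_S`. -/
theorem OK.conc (h : w.OK) {y : V → ℤ} (hy : sm y univ = 0) (p : V → ℤ) (S : Finset V) {α β : ℤ}
    (h0 : 0 ≤ β) (h1 : β ≤ α) :
    β * (w.ell y (p + α • oneS S) - w.ell y p) ≤ α * (w.ell y (p + β • oneS S) - w.ell y p) := by
  exact nuc_conc' h hy p S h0 h1

/-- One step of length `2 ^ j` recovers a fixed fraction of the gap. -/
theorem OK.descent (h : w.OK) {y : V → ℤ} (hy : sm y univ = 0) {p : V → ℤ} (hp : w.Feas p) {J : ℕ}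
    (hJ0 : 0 < J) (hJ : 2 * w.P < 2 ^ J) :
    ∃ j < J, ∃ S : Finset V, w.Feas (p + (2 ^ j : ℤ) • oneS S) ∧
      w.G y - w.ell y p ≤ Fintype.card V * J * (w.ell y (p + (2 ^ j : ℤ) • oneS S) - w.ell y p) := by
  classical
  have e0 : p + (2 ^ 0 : ℤ) • oneS (∅ : Finset V) = p := by
    funext a; simp [oneS]
  obtain ⟨⟨j, S⟩, hm, hmax⟩ := exists_max_image
    ((range J ×ˢ univ).filter fun x : ℕ × Finset V => w.Feas (p + (2 ^ x.1 : ℤ) • oneS x.2))
    (fun x => w.ell y (p + (2 ^ x.1 : ℤ) • oneS x.2) - w.ell y p)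
    ⟨(0, ∅), mem_filter.2 ⟨by simpa using hJ0, by rwa [e0]⟩⟩
  have hb := hmax (0, ∅) (mem_filter.2 ⟨by simpa using hJ0, by rwa [e0]⟩)
  simp only [e0, sub_self] at hb hmax
  refine ⟨j, by simpa using (mem_filter.1 hm).1, S, (mem_filter.1 hm).2, ?_⟩
  set b := w.ell y (p + (2 ^ j : ℤ) • oneS S) - w.ell y p with hbd
  rw [mul_assoc]
  refine nuc_G_le h hy hp (by positivity) fun T α h0 h1 hf => ?_
  obtain ⟨n, rfl⟩ := Int.eq_ofNat_of_zero_le h0.le
  have hn : n ≠ 0 := by omega
  have l1 : (2 : ℤ) ^ Nat.log 2 n ≤ n := by exact_mod_cast Nat.pow_log_le_self 2 hn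
  have l2 : (n : ℤ) < 2 ^ (Nat.log 2 n + 1) := by
    exact_mod_cast Nat.lt_pow_succ_log_self one_lt_two n
  generalize Nat.log 2 n = i at l1 l2
  have l3 : i < J := (pow_lt_pow_iff_right₀ (one_lt_two (α := ℤ))).1 (by linarith)
  have l4 : 1 < J := (pow_lt_pow_iff_right₀ (one_lt_two (α := ℤ))).1 (by omega)
  have l5 : (0 : ℤ) < 2 ^ i := by positivity
  have k1 := nuc_conc' h hy p T l5.le l1
  have k2 := hmax (i, T) (mem_filter.2 ⟨by simpa using l3, nuc_between hp hf l5.le l1⟩)
  have k3 := mul_le_mul_of_nonneg_left k2 h0.le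
  have k4 := mul_le_mul_of_nonneg_right l2.le hb
  have k5 : w.ell y (p + (n : ℤ) • oneS T) - w.ell y p ≤ 2 * b := by
    refine le_of_mul_le_mul_left ?_ l5
    rw [pow_succ] at k4
    linarith
  exact k5.trans (mul_le_mul_of_nonneg_right (by exact_mod_cast l4) hb)

end Wall

end Crest.Agent.R302
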