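import Crest.Agent.R302.Voc

/-!
# Row 302: the soft wall `G` (definitions, complete)

`G y = max_p (⟨p, y⟩ - lov ρ p - pen p)` over the feasible `p ∈ [0, P]^V`.  The theorems are in `NuA` … `NuF`,
collected by `Nu.lean`.
-/

set_option autoImplicit false

namespace Crest.Agent.R302

open Finset Crest.Agent.R309

variable {V : Type} [Fintype V] [DecidableEq V]

/-- `max_φ (φ t - m φ²)` over the integers. -/
def hq (m t : ℤ) : ℤ := (t + m) / (2 * m) * t - m * ((t + m) / (2 * m)) ^ 2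

/-- Lovász extension. -/
noncomputable def lov (ρ : Finset V → ℤ) (p : V → ℤ) : ℤ :=
  ∑ t ∈ Icc (-∑ a, |p a|) (∑ a, |p a|), ρ (univ.filter fun a => t ≤ p a)

/-- Indicator vector. -/
def oneS (S : Finset V) (a : V) : ℤ := if a ∈ S then 1 else 0

/-- Data of the wall. -/
structure Wall (V : Type) where
  ρ : Finset V → ℤ
  lv : Lv V
  m : ℕ → ℤ
  τ : ℕ → ℤ
  P : ℤ

namespace Wall

variable (w : Wall V)

structure OK : Prop where
  nrm : Nrm w.ρ
  m_pos : ∀ k < w.lv.L, 0 < w.m k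
  τ_nonneg : ∀ k < w.lv.L, 0 ≤ w.τ k
  P_nonneg : 0 ≤ w.P

def pen (p : V → ℤ) : ℤ :=
  ∑ k ∈ range w.lv.L, ∑ a, ∑ b, if w.lv.cls k a = w.lv.cls k b then hq (w.m k) (p a - p b) else 0

def Feas (p : V → ℤ) : Prop :=
  (∀ a b, |p a - p b| ≤ w.P) ∧
    ∀ k < w.lv.L, ∀ a b, w.lv.cls k a = w.lv.cls k b → |p a - p b| ≤ w.τ k

noncomputable def ell (y p : V → ℤ) : ℤ := ∑ a, p a * y a - lov w.ρ p - w.pen p

open Classical in
/-- The finite set of dual vectors. -/
noncomputable def Pf : Finset (V → ℤ) :=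
  insert 0 ((Fintype.piFinset fun _ => Icc 0 w.P).filter w.Feas)

theorem Pf_nonempty : w.Pf.Nonempty := by
  classical exact insert_nonempty _ _

noncomputable def G (y : V → ℤ) : ℤ := w.Pf.sup' w.Pf_nonempty (w.ell y)

/-- The cut function with weights `σ`. -/
def cut (σ : ℕ → ℤ) (S : Finset V) : ℤ :=
  ∑ k ∈ range w.lv.L, ∑ a, ∑ b, if w.lv.cls k a = w.lv.cls k b ∧ a ∈ S ∧ b ∉ S then σ k else 0

variable {w}

theorem ell_le_G (y : V → ℤ) {p : V → ℤ} (hp : p ∈ w.Pf) : w.ell y p ≤ w.G y :=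
  le_sup' (w.ell y) hp

theorem exists_G (y : V → ℤ) : ∃ p ∈ w.Pf, w.G y = w.ell y p := exists_mem_eq_sup' _ _

theorem ell_add (y d p : V → ℤ) : w.ell (y + d) p = w.ell y p + ∑ a, p a * d a := by
  simp only [ell, Pi.add_apply, mul_add, sum_add_distrib]; ring

end Wall

end Crest.Agent.R302
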