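import Crest.Agent.R302.NuC

/-!
# Row 302: the four point condition and the second difference

* `four_point`: take `p ∈ Pf` maximising `ell (α+a+b) p + ell (α+c+d) p =: H` (a feasible `p'` is shifted into `Pf`, as in `le_G`,
  so `p` is optimal among all feasible vectors); `H ≤` the right hand side, and `H` is the same for the three pairings
  (`ell_add`).  For feasible `p + 1_S` put `s S = ell α p - ell α (p + 1_S)` (integer; submodular on this lattice of sets
  by `ell_sup_inf`, `Feas.sup`, `Feas.inf`); optimality says `2 s S ≥` the number of the four positions in `S`.  If `p` is not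
  locally optimal for `α+a+c` or `α+b+d`, some `S₁` has `s S₁ = 1` and contains exactly the positions `a, c` or exactly
  `b, d`; similarly `S₂` for `ad | bc`.  Then `S₁ ∩ S₂` has one position, `S₁ ∪ S₂` three, so
  `2 ≥ s (∩) + s (∪) ≥ 1 + 2`, absurd.  For the good pairing `local_global` gives `G + G = H`.
* `second_diff`: `y = α + a + b`; `p₁, p₂ ∈ Pf` optimal for `α+a+a`, `α+b+b`; `p₊ = (p₁+p₂+1)/2`, `p₋ = (p₁+p₂)/2` are feasible,
  `p₊ + p₋ = p₁ + p₂`; `lov_mid`; every pair term satisfies `hq_conv` (the differences of `p₊`, `p₋` are within `1` of each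
  other with the same sum, hence between those of `p₁`, `p₂`), and the term `(k, a, b)` satisfies `hq_gain`.
-/

set_option autoImplicit false

namespace Crest.Agent.R302

open Finset Crest.Agent.R309

variable {V : Type} [Fintype V] [DecidableEq V]

namespace Wall

variable {w : Wall V}

theorem nuE_ell (α p : V → ℤ) (a b : V) : w.ell (α + ev a + ev b) p = w.ell α p + p a + p b := by
  have : ∀ a : V, ∑ x, p x * ev a x = p a := fun a => by
    simp [ev, Pi.single_apply]
  rw [ell_add, ell_add, this, this]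

theorem nuE_sm {α : V → ℤ} (hα : sm α univ = -2) (a b : V) : sm (α + ev a + ev b) univ = 0 := by
  simp [sm_add, sm_ev, hα]

theorem OK.nuE_shift (h : w.OK) (a : V) {q : V → ℤ} (hq : w.Feas q) :
    ∃ q' ∈ w.Pf, ∀ y, sm y univ = 0 → w.ell y q' = w.ell y q := by
  obtain ⟨x, -, hx⟩ := exists_min_image univ q ⟨a, mem_univ a⟩
  refine ⟨fun z => q z + -q x, h.mem_Pf.2 ⟨fun z => ?_, hq.shift _⟩, fun y hy => h.ell_shift hy _ _⟩
  have h1 := hx z (mem_univ z)
  have h2 := (abs_le.1 (hq.1 z x)).2
  constructor <;> omega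

theorem OK.four_point (h : w.OK) {α : V → ℤ} (hα : sm α univ = -2) (a b c d : V) :
    min (w.G (α + ev a + ev c) + w.G (α + ev b + ev d))
        (w.G (α + ev a + ev d) + w.G (α + ev b + ev c)) ≤
      w.G (α + ev a + ev b) + w.G (α + ev c + ev d) := by
  obtain ⟨p, hp, hmax⟩ := exists_max_image w.Pf
    (fun p => w.ell (α + ev a + ev b) p + w.ell (α + ev c + ev d) p) w.Pf_nonempty
  have hf : w.Feas p := (h.mem_Pf.1 hp).2
  have opt : ∀ S, w.Feas (p + oneS S) → oneS S a + oneS S b + oneS S c + oneS S d ≤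
      2 * (w.ell α p - w.ell α (p + oneS S)) := by
    intro S hS
    obtain ⟨q, hq, e⟩ := h.nuE_shift a hS
    have := hmax q hq
    simp only [e _ (nuE_sm hα _ _), nuE_ell, Pi.add_apply] at this
    omega
  have loc : ∀ x y, w.ell α p + p x + p y < w.G (α + ev x + ev y) → ∃ S, w.Feas (p + oneS S) ∧
      w.ell α p - w.ell α (p + oneS S) < oneS S x + oneS S y := by
    intro x y hxy
    by_contra hc
    rw [h.local_global (nuE_sm hα x y) hf fun S hS => ?_, nuE_ell] at hxy
    · exact lt_irrefl _ hxy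
    · have := not_lt.1 fun h' => hc ⟨S, hS, h'⟩
      simp only [nuE_ell, Pi.add_apply]
      omega
  have fin : ∀ S T, w.Feas (p + oneS S) → w.Feas (p + oneS T) →
      (w.ell α p - w.ell α (p + oneS S) < oneS S a + oneS S c ∨
        w.ell α p - w.ell α (p + oneS S) < oneS S b + oneS S d) →
      (w.ell α p - w.ell α (p + oneS T) < oneS T a + oneS T d ∨
        w.ell α p - w.ell α (p + oneS T) < oneS T b + oneS T c) → False := by
    intro S T hS hT h1 h2
    have hu : ∀ x, oneS (S ∪ T) x = max (oneS S x) (oneS T x) := fun x => by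
      by_cases h3 : x ∈ S <;> by_cases h4 : x ∈ T <;> simp [oneS, h3, h4]
    have hi : ∀ x, oneS (S ∩ T) x = min (oneS S x) (oneS T x) := fun x => by
      by_cases h3 : x ∈ S <;> by_cases h4 : x ∈ T <;> simp [oneS, h3, h4]
    have hb : ∀ (U : Finset V) x, 0 ≤ oneS U x ∧ oneS U x ≤ 1 := fun U x => by
      unfold oneS; split_ifs <;> simp
    have e1 : (p + oneS S) ⊔ (p + oneS T) = p + oneS (S ∪ T) := by
      funext x; simp only [Pi.sup_apply, Pi.add_apply, hu, max_add_add_left]
    have e2 : (p + oneS S) ⊓ (p + oneS T) = p + oneS (S ∩ T) := by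
      funext x; simp only [Pi.inf_apply, Pi.add_apply, hi, min_add_add_left]
    have h3 := h.ell_sup_inf α (p + oneS S) (p + oneS T)
    have h4 := opt _ (e1 ▸ hS.sup hT)
    have h5 := opt _ (e2 ▸ hS.inf hT)
    have h6 := opt _ hS
    have h7 := opt _ hT
    rw [e1, e2] at h3
    simp only [hu] at h4
    simp only [hi] at h5
    have := hb S a; have := hb S b; have := hb S c; have := hb S d
    have := hb T a; have := hb T b; have := hb T c; have := hb T d
    omega
  by_contra hc
  rw [not_le, lt_min_iff] at hc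
  have g1 := ell_le_G (α + ev a + ev b) hp
  have g2 := ell_le_G (α + ev c + ev d) hp
  rw [nuE_ell] at g1 g2
  have c1 : w.ell α p + p a + p c < w.G (α + ev a + ev c) ∨
      w.ell α p + p b + p d < w.G (α + ev b + ev d) := by omega
  have c2 : w.ell α p + p a + p d < w.G (α + ev a + ev d) ∨
      w.ell α p + p b + p c < w.G (α + ev b + ev c) := by omega
  obtain ⟨S, hS, h1⟩ : ∃ S, w.Feas (p + oneS S) ∧
      (w.ell α p - w.ell α (p + oneS S) < oneS S a + oneS S c ∨
        w.ell α p - w.ell α (p + oneS S) < oneS S b + oneS S d) :=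
    c1.elim (fun h1 => (loc _ _ h1).imp fun _ h2 => ⟨h2.1, Or.inl h2.2⟩)
      fun h1 => (loc _ _ h1).imp fun _ h2 => ⟨h2.1, Or.inr h2.2⟩
  obtain ⟨T, hT, h2⟩ : ∃ T, w.Feas (p + oneS T) ∧
      (w.ell α p - w.ell α (p + oneS T) < oneS T a + oneS T d ∨
        w.ell α p - w.ell α (p + oneS T) < oneS T b + oneS T c) :=
    c2.elim (fun h1 => (loc _ _ h1).imp fun _ h2 => ⟨h2.1, Or.inl h2.2⟩)
      fun h1 => (loc _ _ h1).imp fun _ h2 => ⟨h2.1, Or.inr h2.2⟩
  exact fin S T hS hT h1 h2

theorem OK.second_diff (h : w.OK) {α : V → ℤ} (hα : sm α univ = -2) {k : ℕ} (hk : k < w.lv.L)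
    {a b : V} (hab : w.lv.cls k a = w.lv.cls k b) :
    w.G (α + ev a + ev a) + w.G (α + ev b + ev b) ≤ 2 * w.G (α + ev a + ev b) + 2 * w.m k := by
  obtain ⟨p, hp, e1⟩ := exists_G (w := w) (α + ev a + ev a)
  obtain ⟨q, hq, e2⟩ := exists_G (w := w) (α + ev b + ev b)
  have fp := (h.mem_Pf.1 hp).2
  have fq := (h.mem_Pf.1 hq).2
  have mid : ∀ ε : ℤ, w.Feas fun x => (p x + q x + ε) / 2 := fun ε => by
    refine ⟨fun x y => ?_, fun j hj x y hxy => ?_⟩
    · have h1 := abs_le.1 (fp.1 x y)
      have h2 := abs_le.1 (fq.1 x y)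
      rw [abs_le]; constructor <;> dsimp only <;> omega
    · have h1 := abs_le.1 (fp.2 j hj x y hxy)
      have h2 := abs_le.1 (fq.2 j hj x y hxy)
      rw [abs_le]; constructor <;> dsimp only <;> omega
  have g1 := h.le_G (nuE_sm hα a b) (mid 1)
  have g2 := h.le_G (nuE_sm hα a b) (mid 0)
  simp only [add_zero] at g2
  have l := lov_mid h.nrm p q
  have hd : ∑ x, (p x + q x + 1) / 2 * α x + ∑ x, (p x + q x) / 2 * α x =
      ∑ x, p x * α x + ∑ x, q x * α x := by
    rw [← sum_add_distrib, ← sum_add_distrib]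
    refine sum_congr rfl fun x _ => ?_
    rw [← add_mul, ← add_mul]
    congr 1
    omega
  have hpen : w.pen (fun x => (p x + q x + 1) / 2) + w.pen (fun x => (p x + q x) / 2) ≤
      w.pen p + w.pen q + (2 * w.m k - ((p a - p b) - (q a - q b))) := by
    have e : 2 * w.m k - ((p a - p b) - (q a - q b)) = ∑ j ∈ range w.lv.L, ∑ x, ∑ y,
        if y = b then if x = a then if j = k then 2 * w.m k - ((p a - p b) - (q a - q b))
          else 0 else 0 else 0 := by
      simp [hk]
    rw [e]
    unfold pen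
    simp only [← sum_add_distrib]
    refine sum_le_sum fun j hj => sum_le_sum fun x _ => sum_le_sum fun y _ => ?_
    have hm := h.m_pos j (mem_range.1 hj)
    by_cases h0 : y = b ∧ x = a ∧ j = k
    · obtain ⟨rfl, rfl, rfl⟩ := h0
      simp only [if_pos hab, if_true]
      have := hq_gain hm (s₁ := (p x + q x + 1) / 2 - (p y + q y + 1) / 2)
        (s₂ := (p x + q x) / 2 - (p y + q y) / 2) (t₁ := p x - p y) (t₂ := q x - q y) (by omega)
        (by rw [abs_le]; constructor <;> omega)
      omega
    · have e0 : (if y = b then if x = a then if j = k then 2 * w.m k - ((p a - p b) - (q a - q b))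
          else 0 else 0 else 0) = 0 := by
        split_ifs with h1 h2 h3
        · exact absurd ⟨h1, h2, h3⟩ h0
        all_goals rfl
      rw [e0, add_zero]
      split_ifs
      · exact hq_conv hm (by omega) (by omega) (by omega)
      · exact le_rfl
  rw [nuE_ell] at e1 e2 g1 g2
  simp only [ell] at e1 e2 g1 g2
  omega

end Wall

end Crest.Agent.R302
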