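import Crest.Agent.Lib.PolyTime.Core

/-!
# Row 302: stack programs with an oracle, and the raw closure properties
-/

set_option autoImplicit false

namespace Crest.Agent.R302

open Function Crest.Agent.Lib.PolyTime

/-- An oracle: two functions of bit strings whose values have at most `s` binary digits. -/
structure Orc where
  /-- bound on the number of digits of the answers -/
  s : ℕ
  /-- the answers -/
  f : Bool → List Bool → ℕ
  /-- the answers have at most `s` digits -/
  bd : ∀ b l, f b l < 2 ^ s

/-- Stack programs with oracle queries. -/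
inductive OCmd (K : Type) : Type
  | base : Cmd K → OCmd K
  | query : K → OCmd K
  | seq : OCmd K → OCmd K → OCmd K
  | case : K → OCmd K → OCmd K → OCmd K → OCmd K
  | loop : K → OCmd K → OCmd K → OCmd K

/-- Big-step semantics.  A query replaces `b :: l` by the digits of the answer, most significant first. -/
inductive OExec {K : Type} [DecidableEq K] (O : Orc) : OCmd K → St K → St K → ℕ → Prop
  | base {c : Cmd K} {s s' : St K} {t : ℕ} : Exec c s s' t → OExec O (.base c) s s' t
  | query {k : K} {s : St K} {b : Bool} {l : List Bool} : s k = b :: l →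
      OExec O (.query k) s (update s k (O.f b l).bits.reverse) (l.length + O.s + 2)
  | seq {c₁ c₂ : OCmd K} {s s' s'' : St K} {t₁ t₂ : ℕ} :
      OExec O c₁ s s' t₁ → OExec O c₂ s' s'' t₂ → OExec O (.seq c₁ c₂) s s'' (t₁ + t₂)
  | caseN {k : K} {cN cF cT : OCmd K} {s s' : St K} {t : ℕ} :
      s k = [] → OExec O cN s s' t → OExec O (.case k cN cF cT) s s' (t + 1)
  | caseF {k : K} {cN cF cT : OCmd K} {s s' : St K} {t : ℕ} {r : List Bool} :
      s k = false :: r → OExec O cF (update s k r) s' t → OExec O (.case k cN cF cT) s s' (t + 1)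
  | caseT {k : K} {cN cF cT : OCmd K} {s s' : St K} {t : ℕ} {r : List Bool} :
      s k = true :: r → OExec O cT (update s k r) s' t → OExec O (.case k cN cF cT) s s' (t + 1)
  | loopN {k : K} {cF cT : OCmd K} {s : St K} : s k = [] → OExec O (.loop k cF cT) s s 1
  | loopF {k : K} {cF cT : OCmd K} {s s' s'' : St K} {t₁ t₂ : ℕ} {r : List Bool} :
      s k = false :: r → OExec O cF (update s k r) s' t₁ → OExec O (.loop k cF cT) s' s'' t₂ →
      OExec O (.loop k cF cT) s s'' (t₁ + t₂ + 1)
  | loopT {k : K} {cF cT : OCmd K} {s s' s'' : St K} {t₁ t₂ : ℕ} {r : List Bool} :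
      s k = true :: r → OExec O cT (update s k r) s' t₁ → OExec O (.loop k cF cT) s' s'' t₂ →
      OExec O (.loop k cF cT) s s'' (t₁ + t₂ + 1)
  | mono {c : OCmd K} {s s' : St K} {t t' : ℕ} : OExec O c s s' t → t ≤ t' → OExec O c s s' t'

theorem Orc.length_bits_le (O : Orc) (b : Bool) (l : List Bool) : (O.f b l).bits.length ≤ O.s := by
  rw [Nat.size_eq_bits_len, Nat.size_le]; exact O.bd b l

section Basic

variable {K : Type} [DecidableEq K] {O : Orc}

theorem OExec.cast {c : OCmd K} {s s' s₂ : St K} {t t' : ℕ} (h : OExec O c s s' t) (hs : s' = s₂)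
    (ht : t ≤ t') : OExec O c s s₂ t' := hs ▸ h.mono ht

/-- A stack grows by at most one bit per step. -/
theorem OExec.length_le {c : OCmd K} {s s' : St K} {t : ℕ} (h : OExec O c s s' t) (j : K) :
    (s' j).length ≤ (s j).length + t := by
  induction h with
  | base h => exact h.length_le j
  | @query k s b l hs =>
    refine length_update_le s k j _ _ ?_
    have := O.length_bits_le b l
    rw [List.length_reverse]; omega
  | seq _ _ ih₁ ih₂ => omega
  | caseN _ _ ih => omega
  | @caseF k _ _ _ s _ _ r hs _ ih =>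
    have := length_update_le s k j r 0 (by simp [hs]); omega
  | @caseT k _ _ _ s _ _ r hs _ ih =>
    have := length_update_le s k j r 0 (by simp [hs]); omega
  | loopN _ => omega
  | @loopF k _ _ s _ _ _ _ r hs _ _ ih₁ ih₂ =>
    have := length_update_le s k j r 0 (by simp [hs]); omega
  | @loopT k _ _ s _ _ _ _ r hs _ _ ih₁ ih₂ =>
    have := length_update_le s k j r 0 (by simp [hs]); omega
  | mono _ h ih => omega

end Basic

/-- Rename the stacks of a program. -/
def OCmd.map {K K' : Type} (e : K → K') : OCmd K → OCmd K'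
  | .base c => .base (c.map e)
  | .query k => .query (e k)
  | .seq a b => .seq (a.map e) (b.map e)
  | .case k a b c => .case (e k) (a.map e) (b.map e) (c.map e)
  | .loop k a b => .loop (e k) (a.map e) (b.map e)

section Frame

variable {K K' : Type} [DecidableEq K] [DecidableEq K'] {O : Orc}

theorem OExec.map_extend {e : K → K'} (he : Injective e) (u : St K') {c : OCmd K} {s s' : St K}
    {t : ℕ} (h : OExec O c s s' t) :
    OExec O (c.map e) (Function.extend e s u) (Function.extend e s' u) t := by
  induction h with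
  | base h => exact .base (h.map_extend he u)
  | @query k s b l hs =>
    have := OExec.query (O := O) (k := e k) (s := Function.extend e s u) (b := b) (l := l)
      (by rw [he.extend_apply, hs])
    rw [extend_update he] at this
    exact this
  | seq _ _ ih₁ ih₂ => exact .seq ih₁ ih₂
  | caseN hs _ ih => exact .caseN (by rw [he.extend_apply, hs]) ih
  | caseF hs _ ih =>
    exact .caseF (by rw [he.extend_apply, hs]) (by rw [extend_update he]; exact ih)
  | caseT hs _ ih =>
    exact .caseT (by rw [he.extend_apply, hs]) (by rw [extend_update he]; exact ih)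
  | loopN hs => exact .loopN (by rw [he.extend_apply, hs])
  | loopF hs _ _ ih₁ ih₂ =>
    exact .loopF (by rw [he.extend_apply, hs]) (by rw [extend_update he]; exact ih₁) ih₂
  | loopT hs _ _ ih₁ ih₂ =>
    exact .loopT (by rw [he.extend_apply, hs]) (by rw [extend_update he]; exact ih₁) ih₂
  | mono _ h ih => exact ih.mono h

theorem oexec_weaken {e : K → K'} (he : Injective e) {c : OCmd (Option K)} {x y : List Bool}
    {t : ℕ} (h : OExec O c (one x) (one y) t) :
    OExec O (c.map (Option.map e)) (one x) (one y) t := by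
  have he' : Injective (Option.map e) := Option.map_injective he
  have key : ∀ z : List Bool,
      Function.extend (Option.map e) (one z : St (Option K)) (one [] : St (Option K')) = one z := by
    intro z
    funext j
    cases j with
    | none => exact he'.extend_apply _ _ none
    | some j =>
      by_cases hj : ∃ a, Option.map e a = some j
      · obtain ⟨a, ha⟩ := hj
        rw [← ha, he'.extend_apply]
        cases a with
        | none => simp at ha
        | some a => rfl
      · rw [Function.extend_apply' _ _ _ hj]; rfl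
  have := h.map_extend he' (one [])
  rwa [key, key] at this

/-- Run a subprogram on the main stack, keeping the two extra registers. -/
def osub (c : OCmd (Option K)) : OCmd (Option (Bool ⊕ K)) := c.map (Option.map Sum.inr)

theorem oexec_sub {c : OCmd (Option K)} {x y : List Bool} {t : ℕ}
    (h : OExec O c (one x) (one y) t) (a b : List Bool) :
    OExec O (osub c) (mk x a b) (mk y a b) t := by
  have he' : Injective (Option.map (Sum.inr : K → Bool ⊕ K)) :=
    Option.map_injective Sum.inr_injective
  have key : ∀ z : List Bool, Function.extend (Option.map Sum.inr) (one z : St (Option K))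
      (mk [] a b : St (Option (Bool ⊕ K))) = mk z a b := by
    intro z
    funext j
    rcases j with _ | j | j
    · exact he'.extend_apply _ _ none
    · rw [Function.extend_apply']
      · cases j <;> rfl
      · rintro ⟨_ | _, h⟩ <;> simp at h
    · exact he'.extend_apply _ _ (some j)
  have := h.map_extend he' (mk [] a b)
  rwa [key, key] at this

theorem ocase_A_F {cN cF cT : OCmd (Option (Bool ⊕ K))} {x r b : List Bool} {s' : St _} {t : ℕ}
    (h : OExec O cF (mk x r b) s' t) :
    OExec O (.case rA cN cF cT) (mk x (false :: r) b) s' (t + 1) :=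
  .caseF (r := r) rfl (by rwa [mk_upd_A])

theorem ocase_A_T {cN cF cT : OCmd (Option (Bool ⊕ K))} {x r b : List Bool} {s' : St _} {t : ℕ}
    (h : OExec O cT (mk x r b) s' t) :
    OExec O (.case rA cN cF cT) (mk x (true :: r) b) s' (t + 1) :=
  .caseT (r := r) rfl (by rwa [mk_upd_A])

/-- Generic rule for loops that consume a stack and act by a uniform-cost body. -/
theorem oexec_loop {k : K'} {cF cT : OCmd K'} {γ : Type}
    (st : List Bool → γ → St K') (f : Bool → γ → γ) (t : ℕ) (P : List Bool → γ → Prop)
    (hk : ∀ l g, st l g k = l) (hu : ∀ l r g, update (st l g) k r = st r g)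
    (hP : ∀ d l g, P (d :: l) g → P l (f d g))
    (hF : ∀ l g, P (false :: l) g → OExec O cF (st l g) (st l (f false g)) t)
    (hT : ∀ l g, P (true :: l) g → OExec O cT (st l g) (st l (f true g)) t) :
    ∀ (l : List Bool) (g : γ), P l g →
      OExec O (.loop k cF cT) (st l g) (st [] (l.foldl (fun g d => f d g) g))
        (l.length * (t + 1) + 1) := by
  intro l
  induction l with
  | nil => intro g _; exact (OExec.loopN (hk _ _)).mono (by simp)
  | cons d l ih =>
    intro g hg
    have h₂ := ih (f d g) (hP d l g hg)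
    cases d with
    | false =>
      exact (OExec.loopF (hk _ _) (by rw [hu]; exact hF l g hg) h₂).cast rfl
        (by simp only [List.length_cons]; nlinarith)
    | true =>
      exact (OExec.loopT (hk _ _) (by rw [hu]; exact hT l g hg) h₂).cast rfl
        (by simp only [List.length_cons]; nlinarith)

end Frame

/-- From `ea a` one program computes `F a` with the oracle `O` in time polynomial in `sz a`,
whenever `P a O`. -/
def ORaw {α : Type} (sz : α → ℕ) (P : α → Orc → Prop) (ea F : α → List Bool) : Prop :=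
  ∃ (K : Type) (_ : Fintype K) (_ : DecidableEq K) (c : OCmd (Option K)) (τ : α → ℕ),
    PBy sz τ ∧ ∀ O a, P a O → OExec O c (one (ea a)) (one (F a)) (τ a)

namespace ORaw

variable {α : Type} {sz : α → ℕ} {P : α → Orc → Prop} {ea F G : α → List Bool}

theorem congr (h : ORaw sz P ea F) (e : ∀ a, F a = G a) : ORaw sz P ea G :=
  (funext e : F = G) ▸ h

theorem ofPTR (h : PTR ea F) (hl : PBy sz fun a => (ea a).length) : ORaw sz P ea F := by
  obtain ⟨K, _, _, c, τ, hτ, hc⟩ := h
  exact ⟨K, inferInstance, inferInstance, .base c, τ, hl.trans hτ, fun _ a _ => .base (hc a)⟩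

theorem restrict {β : Type} {sz' : β → ℕ} {P' : β → Orc → Prop} {eb H : β → List Bool}
    (h : ORaw sz' P' eb H) (g : α → β) (hg : PBy sz fun a => sz' (g a))
    (hP : ∀ a O, P a O → P' (g a) O) : ORaw sz P (fun a => eb (g a)) fun a => H (g a) := by
  obtain ⟨K, _, _, c, τ, hτ, hc⟩ := h
  exact ⟨K, inferInstance, inferInstance, c, fun a => τ (g a), hτ.comp g hg,
    fun O a ha => hc O (g a) (hP a O ha)⟩

theorem trans (h₁ : ORaw sz P ea F) (h₂ : ORaw sz P F G) : ORaw sz P ea G := by
  obtain ⟨K₁, _, _, c₁, τ₁, hτ₁, hc₁⟩ := h₁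
  obtain ⟨K₂, _, _, c₂, τ₂, hτ₂, hc₂⟩ := h₂
  exact ⟨K₁ ⊕ K₂, inferInstance, inferInstance,
    .seq (c₁.map (Option.map Sum.inl)) (c₂.map (Option.map Sum.inr)), fun a => τ₁ a + τ₂ a,
    hτ₁.add hτ₂, fun O a ha =>
      (oexec_weaken Sum.inl_injective (hc₁ O a ha)).seq
        (oexec_weaken Sum.inr_injective (hc₂ O a ha))⟩

theorem query {o : α → Orc} {b : α → Bool} {l : α → List Bool} (hP : ∀ a O, P a O → o a = O)
    (hs : PBy sz fun a => (o a).s) (hl : PBy sz fun a => (l a).length) :
    ORaw sz P (fun a => b a :: l a) fun a => ((o a).f (b a) (l a)).bits.reverse := by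
  refine ⟨Unit, inferInstance, inferInstance, .query none, fun a => (l a).length + (o a).s + 2,
    (hl.add hs).add (PBy.const 2), fun O a ha => ?_⟩
  beta_reduce
  rw [hP a O ha]
  refine (OExec.query (k := none) (s := one (b a :: l a)) rfl).cast ?_ le_rfl
  funext j; cases j <;> simp [one]

theorem pair (he : PBy sz fun a => (ea a).length) (hl : PBy sz fun a => (F a).length)
    (h₁ : ORaw sz P ea F) (h₂ : ORaw sz P ea G) : ORaw sz P ea fun a => pairR (F a) (G a) := by
  obtain ⟨K₁, _, _, c₁, τ₁, hτ₁, hc₁⟩ := h₁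
  obtain ⟨K₂, _, _, c₂, τ₂, hτ₂, hc₂⟩ := h₂
  refine ⟨Bool ⊕ (K₁ ⊕ K₂), inferInstance, inferInstance,
    .seq (.seq (.seq (.seq (.seq (.seq (.base save) (osub (c₁.map (Option.map Sum.inl))))
      (.base (move none rA))) (.base (move rB none))) (osub (c₂.map (Option.map Sum.inr))))
      (.base (.push none false)))
      (.base (.loop rA (.seq (.push none false) (.push none true))
        (.seq (.push none true) (.push none true)))),
    fun a => (ea a).length * 7 + τ₁ a + τ₂ a + (F a).length * 5 + 10,
    ((((he.mul (PBy.const 7)).add hτ₁).add hτ₂).add (hl.mul (PBy.const 5))).add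
      (PBy.const 10), fun O a ha => ?_⟩
  have h₇ := exec_loop (k := (rA : Option (Bool ⊕ (K₁ ⊕ K₂))))
    (cF := .seq (.push none false) (.push none true))
    (cT := .seq (.push none true) (.push none true))
    (fun l g => mk g l []) (fun d g => true :: d :: g) 2 (fun _ _ => True)
    (by simp) (by simp) (by simp) (fun l g _ => (push_io _ _ _ _).seq (push_io _ _ _ _))
    (fun l g _ => (push_io _ _ _ _).seq (push_io _ _ _ _)) (F a).reverse (false :: G a) trivial
  rw [PTR.foldl_pair, List.reverse_reverse] at h₇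
  have h₃ := move_io_A (K := K₁ ⊕ K₂) (F a) [] (ea a).reverse
  have h₄ := move_B_io (K := K₁ ⊕ K₂) [] (F a).reverse (ea a).reverse
  simp only [List.append_nil, List.reverse_reverse] at h₃ h₄
  rw [← mk_nil, ← mk_nil]
  exact (((((((OExec.base (exec_save (ea a))).seq
    (oexec_sub (oexec_weaken Sum.inl_injective (hc₁ O a ha)) _ _)).seq
    (.base h₃)).seq (.base h₄)).seq
    (oexec_sub (oexec_weaken Sum.inr_injective (hc₂ O a ha)) _ _)).seq
    (.base (push_io _ _ _ _))).seq (.base h₇)).cast rfl (by simp; omega)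

theorem cond {c : α → Bool} (he : PBy sz fun a => (ea a).length) (h₀ : ORaw sz P ea fun a => [c a])
    (h₁ : ORaw sz P ea F) (h₂ : ORaw sz P ea G) :
    ORaw sz P ea fun a => bif c a then F a else G a := by
  obtain ⟨K₀, _, _, c₀, τ₀, hτ₀, hc₀⟩ := h₀
  obtain ⟨K₁, _, _, c₁, τ₁, hτ₁, hc₁⟩ := h₁
  obtain ⟨K₂, _, _, c₂, τ₂, hτ₂, hc₂⟩ := h₂
  refine ⟨Bool ⊕ (K₀ ⊕ K₁ ⊕ K₂), inferInstance, inferInstance,
    .seq (.seq (.seq (.seq (.base save) (osub (c₀.map (Option.map Sum.inl)))) (.base (move none rA)))
      (.base (move rB none)))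
      (.case rA (.base .skip) (osub (c₂.map (Option.map (Sum.inr ∘ Sum.inr))))
        (osub (c₁.map (Option.map (Sum.inr ∘ Sum.inl))))),
    fun a => (ea a).length * 7 + τ₀ a + τ₁ a + τ₂ a + 10,
    ((((he.mul (PBy.const 7)).add hτ₀).add hτ₁).add hτ₂).add
      (PBy.const 10), fun O a ha => ?_⟩
  have h₃ := move_io_A (K := K₀ ⊕ K₁ ⊕ K₂) [c a] [] (ea a).reverse
  have h₄ := move_B_io (K := K₀ ⊕ K₁ ⊕ K₂) [] [c a] (ea a).reverse
  simp only [List.append_nil, List.reverse_reverse, List.reverse_singleton] at h₃ h₄
  have h₅ : OExec O (.case rA (.base .skip) (osub (c₂.map (Option.map (Sum.inr ∘ Sum.inr))))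
        (osub (c₁.map (Option.map (Sum.inr ∘ Sum.inl)))))
        (mk (ea a) [c a] [] : St (Option (Bool ⊕ (K₀ ⊕ K₁ ⊕ K₂))))
        (mk (bif c a then F a else G a) [] []) (τ₁ a + τ₂ a + 1) := by
    cases hca : c a with
    | false =>
      exact (ocase_A_F (oexec_sub (oexec_weaken (Sum.inr_injective.comp Sum.inr_injective)
        (hc₂ O a ha)) [] [])).mono (by omega)
    | true =>
      exact (ocase_A_T (oexec_sub (oexec_weaken (Sum.inr_injective.comp Sum.inl_injective)
        (hc₁ O a ha)) [] [])).mono (by omega)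
  rw [← mk_nil, ← mk_nil]
  exact (((((OExec.base (exec_save (ea a))).seq
    (oexec_sub (oexec_weaken Sum.inl_injective (hc₀ O a ha)) _ _)).seq
    (.base h₃)).seq (.base h₄)).seq h₅).cast rfl (by simp; omega)

/-- Bounded iteration: the counter is the length of the raw string `N a`. -/
theorem iter {σ : Type} {es : σ → List Bool} {Q : σ → Orc → Prop} {step : σ → σ}
    (hs : ORaw (fun s => (es s).length) Q es fun s => es (step s))
    (hQ : ∀ s O, Q s O → Q (step s) O)
    {N : α → List Bool} {s₀ : α → σ} (he : PBy sz fun a => (ea a).length)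
    (hNl : PBy sz fun a => (N a).length) (hN : ORaw sz P ea N)
    (h₀ : ORaw sz P ea fun a => es (s₀ a)) (hQ₀ : ∀ a O, P a O → Q (s₀ a) O)
    {B : α → ℕ} (hB : PBy sz B)
    (hsz : ∀ a i, i ≤ (N a).length → (es (step^[i] (s₀ a))).length ≤ B a) :
    ORaw sz P ea fun a => es (step^[(N a).length] (s₀ a)) := by
  have hp := pair he hNl hN h₀
  have hpl : PBy sz fun a => (pairR (N a) (es (s₀ a))).length :=
    ((((PBy.const 2).mul hNl).add (PBy.const 1)).add hB).of_le fun a => by
      have := hsz a 0 (Nat.zero_le _)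
      simp only [iterate_zero, id] at this
      rw [length_pairR]; omega
  obtain ⟨K₁, _, _, c₁, τ₁, hτ₁, hc₁⟩ := hp
  obtain ⟨K₂, _, _, c₂, τ₂, ⟨p, hp⟩, hc₂⟩ := hs
  refine ⟨Bool ⊕ (K₁ ⊕ K₂), inferInstance, inferInstance,
    .seq (.seq (osub (c₁.map (Option.map Sum.inl))) (.base split))
      (.loop rB (osub (c₂.map (Option.map Sum.inr))) (osub (c₂.map (Option.map Sum.inr)))),
    fun a => τ₁ a + ((pairR (N a) (es (s₀ a))).length * 5 + 6) +
      ((N a).length * (p.eval (B a) + 1) + 1),
    (hτ₁.add ((hpl.mul (PBy.const 5)).add (PBy.const 6))).add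
      ((hNl.mul ((hB.eval p).add (PBy.const 1))).add (PBy.const 1)), fun O a ha => ?_⟩
  have hQi : ∀ i, Q (step^[i] (s₀ a)) O := by
    intro i
    induction i with
    | zero => exact hQ₀ a O ha
    | succ i ih => rw [iterate_succ_apply']; exact hQ _ _ ih
  have hbody : ∀ (l : List Bool) (g : σ), (es g).length ≤ B a → Q g O →
      OExec O (osub (c₂.map (Option.map Sum.inr)))
        (mk (es g) [] l : St (Option (Bool ⊕ (K₁ ⊕ K₂))))
        (mk (es (step g)) [] l) (p.eval (B a)) := fun l g hg hg' =>
    (oexec_sub (oexec_weaken Sum.inr_injective (hc₂ O g hg')) _ _).mono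
      ((hp g).trans (poly_eval_mono p hg))
  have h₃ := oexec_loop (O := O) (k := (rB : Option (Bool ⊕ (K₁ ⊕ K₂))))
    (cF := osub (c₂.map (Option.map Sum.inr))) (cT := osub (c₂.map (Option.map Sum.inr)))
    (fun l g => mk (es g) [] l) (fun _ g => step g) (p.eval (B a))
    (fun l g => ∃ i, i + l.length = (N a).length ∧ g = step^[i] (s₀ a))
    (by simp) (by simp)
    (by
      rintro d l g ⟨i, hi, rfl⟩
      exact ⟨i + 1, by simp at hi; omega, by rw [iterate_succ_apply']⟩)
    (by
      rintro l g ⟨i, hi, rfl⟩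
      exact hbody l _ (hsz a i (by omega)) (hQi i))
    (by
      rintro l g ⟨i, hi, rfl⟩
      exact hbody l _ (hsz a i (by omega)) (hQi i))
    (N a).reverse (s₀ a) ⟨0, by simp, rfl⟩
  rw [PTR.foldl_iterate, List.length_reverse] at h₃
  have h₂ := exec_split (K := K₁ ⊕ K₂) (pairR (N a) (es (s₀ a)))
  rw [splitR_pairR] at h₂
  rw [← mk_nil, ← mk_nil]
  exact (((oexec_sub (oexec_weaken Sum.inl_injective (hc₁ O a ha)) _ _).seq (.base h₂)).seq
    h₃).cast rfl le_rfl

end ORaw

end Crest.Agent.R302
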