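import Crest.Agent.R309.RamIO
import Crest.Prelude.Def_OracleRAM

/-!
# Row 302: the output routine (packing a bit string into words)
-/

set_option autoImplicit false

namespace Crest.Agent.R302.Ram

open Function Crest.Agent.Lib.PolyTime Crest.Agent.R309.Ram Crest.OracleRAM

/-- Pop the bits of the main stack (least significant on top) and pack them into words above the stack:
register `8` is the current word, register `9` the mask `2 ^ j` (it becomes `0` when the word is full),
register `7` the write pointer, register `1` the start of the output `k, a₀, …, a_{k-1}, 1`. -/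
def outP : Pr :=
  .seq (ops [.add 1 16 2, .add 7 1 2, .const 8 0, .const 9 1, .load 10 16])
    (.seq (.loop 10 (.seq (ops [.sub 16 16 3, .sub 10 10 2, .mul 10 10 9, .add 8 8 10, .add 9 9 9])
      (.seq (.ifz 9 (ops [.store 8 7, .add 7 7 2, .const 8 0, .const 9 1]) .skip) (.op (.load 10 16)))))
    (ops [.store 8 7, .add 7 7 2, .store 2 7, .sub 0 7 1, .sub 10 0 2, .store 10 1, .add 0 0 2]))

variable {w : ℕ} {ρ : ℕ → ℕ} {B κ : ℕ}

theorem out_wordsVal_append (a b : List ℕ) :
    wordsVal w (a ++ b) = wordsVal w a + 2 ^ (w * a.length) * wordsVal w b := by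
  induction a with
  | nil => simp [wordsVal]
  | cons x a ih => simp only [List.cons_append, wordsVal, ih, List.length_cons]; ring

theorem outLoop_spec (n : ℕ) (l : List Bool) : ∀ (done : List ℕ) (σ : S) (acc j : ℕ),
    MS B κ σ l → σ.R 10 = σ.m (σ.R 16) → σ.R 1 = n → σ.R 7 = n + 1 + done.length → σ.R 8 = acc →
    σ.R 9 = 2 ^ j → acc < 2 ^ j → j < w → B + κ * l.length < n →
    n + done.length + l.length + 3 < 2 ^ w →
    (∀ i < done.length, σ.m (n + 1 + i) = done.getD i 0) →
    W w ρ (.loop 10 (.seq (ops [.sub 16 16 3, .sub 10 10 2, .mul 10 10 9, .add 8 8 10, .add 9 9 9])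
      (.seq (.ifz 9 (ops [.store 8 7, .add 7 7 2, .const 8 0, .const 9 1]) .skip)
        (.op (.load 10 16))))) σ (14 * l.length + 1) fun σ' => ∃ done' : List ℕ,
      σ'.R 2 = 1 ∧ σ'.R 1 = n ∧ σ'.R 7 = n + 1 + done'.length ∧
      done'.length ≤ done.length + l.length ∧
      (∀ i < done'.length, σ'.m (n + 1 + i) = done'.getD i 0) ∧
      wordsVal w (done' ++ [σ'.R 8]) =
        wordsVal w (done ++ [acc]) + 2 ^ (w * done.length + j) * Bin.valMSB l.reverse := by
  induction l with
  | nil =>
    intro done σ acc j h h10 h1 h7 h8 _ _ _ _ _ hm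
    refine W.loop_zero ?_ ⟨done, h.1, h1, h7, le_rfl, hm, by simp [h8, Bin.valMSB]⟩
    rw [h10, h.2.2.2.1]
    exact h.2.2.2.2
  | cons b l ih =>
    intro done σ acc j ⟨h2, h3, h5, h16, hs1, hs2⟩ h10 h1 h7 h8 h9 hacc hj hn hw hm
    simp only [List.length_cons] at h16 hn hw ⊢
    have e10 : σ.R 10 = b.toNat + 1 := by rw [h10, h16, hs1]
    have e16 : B + κ * (l.length + 1) - κ = B + κ * l.length := by rw [Nat.mul_succ]; omega
    have hn' : B + κ * l.length < n := by rw [Nat.mul_succ] at hn; omega
    have hb : b.toNat * 2 ^ j ≤ 2 ^ j := by cases b <;> simp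
    have hp : 2 ^ (j + 1) ≤ 2 ^ w := Nat.pow_le_pow_right two_pos hj
    have hp' : 2 ^ (j + 1) = 2 ^ j + 2 ^ j := by rw [pow_succ]; omega
    have hp0 : 0 < 2 ^ j := by positivity
    have e1 : b.toNat * 2 ^ j % 2 ^ w = b.toNat * 2 ^ j := Nat.mod_eq_of_lt (by omega)
    have e8 : (acc + b.toNat * 2 ^ j) % 2 ^ w = acc + b.toNat * 2 ^ j :=
      Nat.mod_eq_of_lt (by omega)
    have h1w : 1 % 2 ^ w = 1 := Nat.mod_eq_of_lt (by omega)
    rcases (by omega : j + 1 = w ∨ j + 1 < w) with hjw | hjw
    · have e9 : (2 ^ j + 2 ^ j) % 2 ^ w = 0 := by rw [← hp', hjw, Nat.mod_self]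
      have e7 : (n + 1 + done.length + 1) % 2 ^ w = n + 1 + done.length + 1 :=
        Nat.mod_eq_of_lt (by omega)
      refine W.time (W.loop_pos (t₂ := 14 * l.length + 1) (by omega)
        (W.seq (t₂ := 4 + 2 + 1) (W.ops (l := [_, _, _, _, _]) (W.seq
          (W.ifz_zero (by simp [Op.ex, h9, e9]) (W.ops (l := [_, _, _, _]) (W.op ?_)))))))
        (by simp only [List.length_cons, List.length_nil]; omega)
      refine (ih (done ++ [acc + b.toNat * 2 ^ j]) _ 0 0 ⟨by simpa [Op.ex] using h2,
        by simpa [Op.ex] using h3, by simpa [Op.ex] using h5, by simp [Op.ex, h16, h3, e16], ?_⟩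
        (by simp [Op.ex]) (by simpa [Op.ex] using h1)
        (by simp [Op.ex, h7, h2, e7, ← add_assoc]) (by simp [Op.ex]) (by simp [Op.ex, h1w])
        (by simp) (by omega) hn' (by simp; omega) ?_).mono le_rfl ?_
      · simp only [List.foldl_cons, List.foldl_nil, Op.ex]
        refine hs2.update _ fun i hi => ?_
        have := Nat.mul_le_mul_left κ hi
        simp [h7]
        omega
      · intro i hi
        simp only [List.foldl_cons, List.foldl_nil, Op.ex]
        simp only [List.length_append, List.length_singleton] at hi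
        by_cases hi' : i < done.length
        · rw [update_of_ne (by simp [h7]; omega), hm i hi', List.getD_append _ _ _ _ hi']
        · obtain rfl : i = done.length := by omega
          simp [-Nat.add_mod_mod, h7, h8, h9, h2, e10, e1, e8]
      · rintro σ' ⟨done', m2, m1, m7, ml, mm, mv⟩
        refine ⟨done', m2, m1, m7, by simp at ml; omega, mm, ?_⟩
        rw [mv, List.reverse_cons, Bin.valMSB_append_single]
        simp only [out_wordsVal_append, wordsVal, List.length_append, List.length_singleton]
        rw [Nat.mul_succ, add_zero, pow_add, pow_add]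
        generalize 2 ^ (w * done.length) = P
        rw [← hjw]
        ring
    · have e9 : (2 ^ j + 2 ^ j) % 2 ^ w = 2 ^ (j + 1) := by
        rw [← hp']; exact Nat.mod_eq_of_lt (Nat.pow_lt_pow_right one_lt_two hjw)
      refine W.time (W.loop_pos (t₂ := 14 * l.length + 1) (by omega)
        (W.seq (t₂ := 0 + 2 + 1) (W.ops (l := [_, _, _, _, _]) (W.seq
          (W.ifz_pos (by simp [Op.ex, h9, e9]) (W.skip (W.op ?_)))))))
        (by simp only [List.length_cons, List.length_nil]; omega)
      refine (ih done _ (acc + b.toNat * 2 ^ j) (j + 1) ⟨by simpa [Op.ex] using h2,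
        by simpa [Op.ex] using h3, by simpa [Op.ex] using h5, by simp [Op.ex, h16, h3, e16],
          by exact hs2⟩
        (by simp [Op.ex]) (by simpa [Op.ex] using h1) (by simpa [Op.ex] using h7)
        (by simp [-Nat.add_mod_mod, Op.ex, h8, h9, h2, e10, e1, e8]) (by simp [Op.ex, h9, e9])
        (by omega) hjw hn' (by omega) (by exact hm)).mono le_rfl ?_
      rintro σ' ⟨done', m2, m1, m7, ml, mm, mv⟩
      refine ⟨done', m2, m1, m7, by omega, mm, ?_⟩
      rw [mv, List.reverse_cons, Bin.valMSB_append_single]
      simp only [out_wordsVal_append, wordsVal]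
      ring

/-- Induction on the remaining bits `l` with the list `done` of finished words (stored at `R 1 + 1 + i`,
`R 7 = R 1 + 1 + done.length`), `R 8 = acc < 2 ^ j`, `R 9 = 2 ^ j`, `j < w`; the quantity
`wordsVal w (done ++ [acc]) + 2 ^ (w * done.length + j) * valMSB l.reverse` is invariant and
`done.length + l.length` does not grow.  All stores are above the initial top of the stack (`Stk.update`). -/
theorem outP_spec (hκ : 0 < κ) {σ : S} {l : List Bool} (h : MS B κ σ l)
    (hw : B + κ * l.length + l.length + 5 < 2 ^ w) :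
    W w ρ outP σ (14 * l.length + 13) fun σ' =>
      decodeRat w ((List.range (σ'.R 0)).map fun i => σ'.m (σ'.R 1 + i)) =
        some (Bin.valMSB l.reverse : ℚ) := by
  have hw0 : 0 < w := Nat.pos_of_ne_zero fun h0 => by rw [h0] at hw; omega
  have h1w : 1 % 2 ^ w = 1 := Nat.mod_eq_of_lt (by omega)
  have e1 : (B + κ * l.length + 1) % 2 ^ w = B + κ * l.length + 1 := Nat.mod_eq_of_lt (by omega)
  have e2 : (B + κ * l.length + 1 + 1) % 2 ^ w = B + κ * l.length + 1 + 1 :=
    Nat.mod_eq_of_lt (by omega)
  refine W.time (W.seq (t₂ := 14 * l.length + 1 + 7) (W.ops (l := [_, _, _, _, _])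
    (W.bind (outLoop_spec (B + κ * l.length + 1) l [] _ 0 0
      (((((h.set (d := 1) (by simp) _ _).set (d := 7) (by simp) _ _).set (d := 8) (by simp) _ _).set
        (d := 9) (by simp) _ _).set (d := 10) (by simp) _ _) (by simp [Op.ex])
      (by simp [Op.ex, h.1, h.2.2.2.1, e1]) (by simp [Op.ex, h.1, h.2.2.2.1, e1, e2])
      (by simp [Op.ex]) (by simp [Op.ex, h1w]) (by simp) hw0 (by omega) (by simp; omega)
      (by simp)) ?_))) (by simp only [List.length_cons, List.length_nil]; omega)
  rintro σ' ⟨done, h2, h1, h7, hl, hm, hv⟩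
  have hn : B + κ * l.length + 1 + l.length + 4 < 2 ^ w := by omega
  generalize B + κ * l.length + 1 = n at *
  simp only [List.length_nil, zero_add] at hl
  have e3 : (n + 1 + done.length + 1) % 2 ^ w = n + 1 + done.length + 1 :=
    Nat.mod_eq_of_lt (by omega)
  have e4 : n + 1 + done.length + 1 - n = done.length + 2 := by omega
  have e5 : (done.length + 2 + 1) % 2 ^ w = done.length + 3 := Nat.mod_eq_of_lt (by omega)
  refine W.ops (l := [_, _, _, _, _, _, _]) ?_
  have e6 : (List.range (done.length + 3)).map (fun i =>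
      update (update (update σ'.m (n + 1 + done.length) (σ'.R 8)) (n + 1 + done.length + 1) 1) n
        (done.length + 1) (n + i)) = (done.length + 1) :: ((done ++ [σ'.R 8]) ++ [1]) := by
    refine List.ext_getElem (by simp) fun i k1 k2 => ?_
    simp only [List.getElem_map, List.getElem_range]
    rcases i with _ | i
    · simp
    · rw [update_of_ne (by omega), List.getElem_cons_succ]
      simp only [List.length_map, List.length_range] at k1
      rcases (by omega : i < done.length ∨ i = done.length ∨ i = done.length + 1) with hi | rfl | rfl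
      · rw [update_of_ne (by omega), update_of_ne (by omega), ← add_assoc, add_right_comm, hm i hi]
        simp [hi, List.getElem_append_left]
      · rw [update_of_ne (by omega), ← add_assoc, add_right_comm, update_self]
        simp
      · rw [show n + (done.length + 1 + 1) = n + 1 + done.length + 1 by omega, update_self]
        simp
  simp only [List.foldl_cons, List.foldl_nil, Op.ex]
  simp only [ne_eq, OfNat.ofNat_ne_zero, Nat.reduceEqDiff,
    not_false_eq_true, update_of_ne, update_self, h1, h2, h7, e3, e4, e5, OfNat.zero_ne_ofNat,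
    OfNat.one_ne_ofNat, one_ne_zero, Nat.add_succ_sub_one]
  rw [e6, decodeRat, List.drop_left' (by simp), List.take_left' (by simp), hv]
  simp [wordsVal]

end Crest.Agent.R302.Ram
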