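import Crest.Agent.R302.OCore
import Crest.Agent.R309.Prob

/-!
# Row 302: the typed predicate `OPT` (polynomial time with an oracle)

The oracle is part of the data: `ok a O` says that every oracle inside `a` is `O`.  `OPT f` is a `fun_prop`
predicate; every `PT` function with values in a `Plain` type (no oracle inside) is `OPT` (`OPT.ofPT`, a transition
theorem, so `fun_prop` falls back on the `PT` lemmas).  Polynomial bounds are still the unconditional `PB`.
-/

set_option autoImplicit false
set_option linter.unusedSectionVars false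

namespace Crest.Agent.R302

open Function Crest.Agent.Lib.PolyTime Crest.Agent.R309

/-- `ok a O`: every oracle inside `a` is `O`. -/
class Ok (α : Type) where
  /-- every oracle inside the value is the given one -/
  ok : α → Orc → Prop

export Ok (ok)

/-- Types without oracles. -/
class Plain (α : Type) [Ok α] : Prop where
  /-- every value is fine -/
  plain : ∀ (a : α) (O : Orc), ok a O

instance : Enc Orc := ⟨fun O => List.replicate O.s true⟩
instance : Ok Orc := ⟨fun a O => a = O⟩
instance : Ok ℕ := ⟨fun _ _ => True⟩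
instance : Ok ℤ := ⟨fun _ _ => True⟩
instance : Ok Bool := ⟨fun _ _ => True⟩
instance : Ok Unit := ⟨fun _ _ => True⟩
instance : Ok Raw := ⟨fun _ _ => True⟩
instance : Ok Bin := ⟨fun _ _ => True⟩
instance {α β : Type} [Ok α] [Ok β] : Ok (α × β) := ⟨fun p O => ok p.1 O ∧ ok p.2 O⟩
instance {α : Type} [Ok α] : Ok (List α) := ⟨fun l O => ∀ a ∈ l, ok a O⟩
instance : Plain ℕ := ⟨fun _ _ => trivial⟩
instance : Plain ℤ := ⟨fun _ _ => trivial⟩
instance : Plain Bool := ⟨fun _ _ => trivial⟩
instance : Plain Unit := ⟨fun _ _ => trivial⟩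
instance : Plain Raw := ⟨fun _ _ => trivial⟩
instance : Plain Bin := ⟨fun _ _ => trivial⟩
instance {α β : Type} [Ok α] [Ok β] [Plain α] [Plain β] : Plain (α × β) :=
  ⟨fun p O => ⟨Plain.plain p.1 O, Plain.plain p.2 O⟩⟩
instance {α : Type} [Ok α] [Plain α] : Plain (List α) := ⟨fun _ O a _ => Plain.plain a O⟩

@[simp] theorem size_orc (O : Orc) : size O = O.s := by
  show (List.replicate O.s true).length = _
  simp

/-- `f` is computable in polynomial time with the oracle found in its argument. -/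
@[fun_prop] def OPT {α β : Type} [Enc α] [Enc β] [Ok α] [Ok β] (f : α → β) : Prop :=
  (PB fun a => size (f a)) ∧ (∀ a O, ok a O → ok (f a) O) ∧
    ORaw size ok (enc : α → List Bool) fun a => enc (f a)

variable {α β γ δ ε σ : Type} [Enc α] [Enc β] [Enc γ] [Enc δ] [Enc ε] [Enc σ]
  [Ok α] [Ok β] [Ok γ] [Ok δ] [Ok ε] [Ok σ]

@[fun_prop] theorem OPT.pb {f : α → β} (hf : OPT f) : PB fun a => size (f a) := hf.1

theorem OPT.pb_nat {f : α → ℕ} (hf : OPT f) : PB f := hf.1.of_le (by simp)

@[fun_prop] theorem OPT.pb_length {f : α → List β} (hf : OPT f) : PB fun a => (f a).length :=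
  hf.1.of_le fun _ => length_le_size _

theorem OPT.pb_comp {g : β → ℕ} {f : α → β} (hg : PB g) (hf : OPT f) : PB fun a => g (f a) :=
  PBy.comp hg f hf.1

/-- The answer of the oracle. -/
def ask (O : Orc) (b : Bool) (l : List Bool) : ℤ := O.f b l

theorem ask_nonneg (O : Orc) (b : Bool) (l : List Bool) : 0 ≤ ask O b l := Int.natCast_nonneg _

theorem ask_lt (O : Orc) (b : Bool) (l : List Bool) : ask O b l < 2 ^ O.s := by
  unfold ask; exact_mod_cast O.bd b l

omit [Ok α] in
@[fun_prop] theorem pt_orc_s {o : α → Orc} (ho : PT o) : PT fun a => (o a).s :=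
  ho.of_enc fun _ => rfl

namespace OPT

theorem of_eq {f g : α → β} (h : OPT f) (e : ∀ a, f a = g a) : OPT g := (funext e : f = g) ▸ h

theorem lift {f : α → β} (h : PT f) (hok : ∀ a O, ok a O → ok (f a) O) : OPT f :=
  ⟨PB.size h, hok, ORaw.ofPTR h PBy.self⟩

@[fun_prop] theorem ofPT [Plain β] {f : α → β} (h : PT f) : OPT f :=
  lift h fun _ O _ => Plain.plain _ O

@[fun_prop] theorem id' : OPT fun a : α => a := lift PT.id' fun _ _ h => h

@[fun_prop] theorem const [Plain β] (b : β) : OPT fun _ : α => b := ofPT (PT.const b)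

@[fun_prop] theorem comp {f : β → γ} {g : α → β} (hf : OPT f) (hg : OPT g) :
    OPT fun a => f (g a) :=
  ⟨PBy.comp hf.1 g hg.1, fun a O h => hf.2.1 _ O (hg.2.1 a O h),
    hg.2.2.trans (hf.2.2.restrict g hg.1 hg.2.1)⟩

@[fun_prop] theorem pair {f : α → β} {g : α → γ} (hf : OPT f) (hg : OPT g) :
    OPT fun a => (f a, g a) :=
  ⟨((((PB.const 2).mul hf.1).add (PB.const 1)).add hg.1).of_le fun a => by simp,
    fun a O h => ⟨hf.2.1 a O h, hg.2.1 a O h⟩, ORaw.pair PBy.self hf.1 hf.2.2 hg.2.2⟩

@[fun_prop] theorem fst {f : α → β × γ} (hf : OPT f) : OPT fun a => (f a).1 :=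
  (show OPT fun p : β × γ => p.1 from lift (PT.fst PT.id') fun _ _ h => And.left h).comp hf

@[fun_prop] theorem snd {f : α → β × γ} (hf : OPT f) : OPT fun a => (f a).2 :=
  (show OPT fun p : β × γ => p.2 from lift (PT.snd PT.id') fun _ _ h => And.right h).comp hf

@[fun_prop] theorem cond {c : α → Bool} {f g : α → β} (hc : OPT c) (hf : OPT f) (hg : OPT g) :
    OPT fun a => bif c a then f a else g a :=
  ⟨(hf.1.add hg.1).of_le fun a => by beta_reduce; cases c a <;> simp,
    fun a O h => by
      beta_reduce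
      cases c a
      · exact hg.2.1 a O h
      · exact hf.2.1 a O h,
    (ORaw.cond PBy.self hc.2.2 hf.2.2 hg.2.2).congr fun a => by beta_reduce; cases c a <;> rfl⟩

@[fun_prop] theorem ite {c : α → Prop} [DecidablePred c] {f g : α → β}
    (hc : OPT fun a => decide (c a)) (hf : OPT f) (hg : OPT g) :
    OPT fun a => if c a then f a else g a :=
  (cond hc hf hg).of_eq fun a => by by_cases h : c a <;> simp [h]

theorem ofPT₁ [Plain γ] {φ : β → γ} (h : PT φ) {f : α → β} (hf : OPT f) :
    OPT fun a => φ (f a) := (ofPT h).comp hf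

theorem ofPT₂ [Plain δ] {φ : β → γ → δ} (h : PT fun p : β × γ => φ p.1 p.2) {f : α → β}
    {g : α → γ} (hf : OPT f) (hg : OPT g) : OPT fun a => φ (f a) (g a) :=
  (ofPT h).comp (hf.pair hg)

theorem ofPT₃ [Plain ε] {φ : β → γ → δ → ε} (h : PT fun p : β × γ × δ => φ p.1 p.2.1 p.2.2)
    {f : α → β} {g : α → γ} {k : α → δ} (hf : OPT f) (hg : OPT g) (hk : OPT k) :
    OPT fun a => φ (f a) (g a) (k a) :=
  (ofPT h).comp (hf.pair (hg.pair hk))

/-! #### The oracle -/

@[fun_prop] theorem s {o : α → Orc} (ho : OPT o) : OPT fun a => (o a).s :=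
  ofPT₁ (φ := fun O : Orc => O.s) (by fun_prop) ho

theorem ask₀ : OPT fun p : Orc × Bool × List Bool => ask p.1 p.2.1 p.2.2 := by
  have h₁ : PT fun p : Orc × Bool × List Bool => Raw.mk (p.2.1 :: p.2.2) :=
    PT.rawMk (by fun_prop)
  have h₂ : PT fun r : Raw => num r.bits := pt_num (PT.rawBits PT.id')
  have hs : PB fun p : Orc × Bool × List Bool => p.1.s := PB.of_PT (by fun_prop)
  have hl : PB fun p : Orc × Bool × List Bool => (p.1.f p.2.1 p.2.2).bits.reverse.length :=
    hs.of_le fun p => by rw [List.length_reverse]; exact p.1.length_bits_le _ _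
  refine ⟨(hs.add (PB.const 1)).of_le fun p => ?_, fun _ _ _ => trivial, ?_⟩
  · rw [size_int]
    have := p.1.length_bits_le p.2.1 p.2.2
    rw [Nat.size_eq_bits_len] at this
    simpa [ask] using this
  · refine ((ORaw.ofPTR h₁ PBy.self).trans ((ORaw.query (o := fun p : Orc × Bool × List Bool => p.1)
      (fun _ _ h => h.1) hs (PB.length (by fun_prop))).trans (ORaw.ofPTR
      (PTR.restrict h₂ fun p : Orc × Bool × List Bool =>
        Raw.mk (p.1.f p.2.1 p.2.2).bits.reverse) hl))).congr fun p => ?_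
    simp only [num, Bin.valMSB_bits_reverse, R302.ask]

@[fun_prop] theorem ask {o : α → Orc} {b : α → Bool} {l : α → List Bool} (ho : OPT o) (hb : OPT b)
    (hl : OPT l) : OPT fun a => ask (o a) (b a) (l a) := ask₀.comp (ho.pair (hb.pair hl))

/-! #### Iteration -/

theorem iterRaw {step : σ → σ} (hs : OPT step) {N : α → β} {s₀ : α → σ} (hN : OPT N)
    (h₀ : OPT s₀) {B : α → ℕ} (hB : PB B)
    (hsz : ∀ a i, i ≤ size (N a) → size (step^[i] (s₀ a)) ≤ B a) :
    OPT fun a => step^[size (N a)] (s₀ a) := by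
  refine ⟨hB.of_le fun a => hsz a _ le_rfl, fun a O h => ?_,
    ORaw.iter (es := enc) hs.2.2 hs.2.1 PBy.self hN.1 hN.2.2 h₀.2.2 h₀.2.1 hB hsz⟩
  beta_reduce
  induction size (N a) with
  | zero => exact h₀.2.1 a O h
  | succ i ih => rw [iterate_succ_apply']; exact hs.2.1 _ O ih

/-- Bounded iteration with a context; `n` is a unary number. -/
theorem iterate {step : α → σ → σ} (hs : OPT fun p : α × σ => step p.1 p.2) {n : α → ℕ}
    {s₀ : α → σ} (hn : OPT n) (h₀ : OPT s₀) {B : α → ℕ} (hB : PB B)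
    (hsz : ∀ a i, i ≤ n a → size ((step a)^[i] (s₀ a)) ≤ B a) :
    OPT fun a => (step a)^[n a] (s₀ a) := by
  have h := iterRaw (step := fun p : α × σ => (p.1, step p.1 p.2)) (pair (fst id') hs) hn
    (pair id' h₀) (B := fun a => 2 * size a + 1 + B a)
    ((((PB.const 2).mul (PB.size PT.id')).add (PB.const 1)).add hB) (by
      intro a i hi
      rw [PT.iterate_prod, size_prod]
      have := hsz a i (by simpa using hi)
      omega)
  exact h.snd.of_eq fun a => by rw [PT.iterate_prod, size_nat]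

/-! #### Booleans, unary numbers, integers -/

section FirstOrder

@[fun_prop] theorem not {f : α → Bool} (hf : OPT f) : OPT fun a => !f a :=
  ofPT₁ (φ := fun x => !x) (by fun_prop) hf
@[fun_prop] theorem and {f g : α → Bool} (hf : OPT f) (hg : OPT g) : OPT fun a => f a && g a :=
  ofPT₂ (φ := fun x y => x && y) (by fun_prop) hf hg
@[fun_prop] theorem or {f g : α → Bool} (hf : OPT f) (hg : OPT g) : OPT fun a => f a || g a :=
  ofPT₂ (φ := fun x y => x || y) (by fun_prop) hf hg
@[fun_prop] theorem xor {f g : α → Bool} (hf : OPT f) (hg : OPT g) : OPT fun a => (f a ^^ g a) :=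
  ofPT₂ (φ := fun x y => (x ^^ y)) (by fun_prop) hf hg
@[fun_prop] theorem decide_not {p : α → Prop} [DecidablePred p] (h : OPT fun a => decide (p a)) :
    OPT fun a => decide (¬ p a) := h.not.of_eq fun a => by simp
@[fun_prop] theorem decide_and {p q : α → Prop} [DecidablePred p] [DecidablePred q]
    (h : OPT fun a => decide (p a)) (h' : OPT fun a => decide (q a)) :
    OPT fun a => decide (p a ∧ q a) := (h.and h').of_eq fun a => by simp
@[fun_prop] theorem decide_or {p q : α → Prop} [DecidablePred p] [DecidablePred q]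
    (h : OPT fun a => decide (p a)) (h' : OPT fun a => decide (q a)) :
    OPT fun a => decide (p a ∨ q a) := (h.or h').of_eq fun a => by simp
@[fun_prop] theorem decide_eq_true {f : α → Bool} (h : OPT f) : OPT fun a => decide (f a = true) :=
  h.of_eq fun a => by simp
@[fun_prop] theorem bool_eq {f g : α → Bool} (hf : OPT f) (hg : OPT g) :
    OPT fun a => decide (f a = g a) :=
  ofPT₂ (φ := fun x y => decide (x = y)) (by fun_prop) hf hg
@[fun_prop] theorem toNat {f : α → Bool} (hf : OPT f) : OPT fun a => (f a).toNat :=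
  ofPT₁ (φ := Bool.toNat) (by fun_prop) hf

section Nat
variable {f g : α → ℕ}
@[fun_prop] theorem succ (hf : OPT f) : OPT fun a => (f a).succ :=
  ofPT₁ (φ := Nat.succ) (by fun_prop) hf
@[fun_prop] theorem pred (hf : OPT f) : OPT fun a => (f a).pred :=
  ofPT₁ (φ := Nat.pred) (by fun_prop) hf
@[fun_prop] theorem nat_add (hf : OPT f) (hg : OPT g) : OPT fun a => f a + g a :=
  ofPT₂ (φ := fun x y => x + y) (by fun_prop) hf hg
@[fun_prop] theorem nat_sub (hf : OPT f) (hg : OPT g) : OPT fun a => f a - g a :=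
  ofPT₂ (φ := fun x y => x - y) (by fun_prop) hf hg
@[fun_prop] theorem nat_mul (hf : OPT f) (hg : OPT g) : OPT fun a => f a * g a :=
  ofPT₂ (φ := fun x y => x * y) (by fun_prop) hf hg
@[fun_prop] theorem nat_pow_const (hf : OPT f) (k : ℕ) : OPT fun a => f a ^ k :=
  ofPT₁ (φ := fun x => x ^ k) (by fun_prop) hf
@[fun_prop] theorem nat_div (hf : OPT f) (hg : OPT g) : OPT fun a => f a / g a :=
  ofPT₂ (φ := fun x y => x / y) (by fun_prop) hf hg
@[fun_prop] theorem nat_mod (hf : OPT f) (hg : OPT g) : OPT fun a => f a % g a :=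
  ofPT₂ (φ := fun x y => x % y) (by fun_prop) hf hg
@[fun_prop] theorem nat_min (hf : OPT f) (hg : OPT g) : OPT fun a => min (f a) (g a) :=
  ofPT₂ (φ := fun x y => min x y) (by fun_prop) hf hg
@[fun_prop] theorem nat_max (hf : OPT f) (hg : OPT g) : OPT fun a => max (f a) (g a) :=
  ofPT₂ (φ := fun x y => max x y) (by fun_prop) hf hg
@[fun_prop] theorem nat_le (hf : OPT f) (hg : OPT g) : OPT fun a => decide (f a ≤ g a) :=
  ofPT₂ (φ := fun x y => decide (x ≤ y)) (by fun_prop) hf hg
@[fun_prop] theorem nat_lt (hf : OPT f) (hg : OPT g) : OPT fun a => decide (f a < g a) :=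
  ofPT₂ (φ := fun x y => decide (x < y)) (by fun_prop) hf hg
@[fun_prop] theorem nat_eq (hf : OPT f) (hg : OPT g) : OPT fun a => decide (f a = g a) :=
  ofPT₂ (φ := fun x y => decide (x = y)) (by fun_prop) hf hg
@[fun_prop] theorem nat_ne (hf : OPT f) (hg : OPT g) : OPT fun a => decide (f a ≠ g a) :=
  decide_not (nat_eq hf hg)
@[fun_prop] theorem nat_ge (hf : OPT f) (hg : OPT g) : OPT fun a => decide (f a ≥ g a) :=
  nat_le hg hf
@[fun_prop] theorem nat_gt (hf : OPT f) (hg : OPT g) : OPT fun a => decide (f a > g a) :=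
  nat_lt hg hf
@[fun_prop] theorem natCast (hf : OPT f) : OPT fun a => (f a : ℤ) :=
  ofPT₁ (φ := fun x : ℕ => (x : ℤ)) (by fun_prop) hf
@[fun_prop] theorem range (hf : OPT f) : OPT fun a => List.range (f a) :=
  ofPT₁ (φ := List.range) (by fun_prop) hf
end Nat

@[fun_prop] theorem sizeOf' {f : α → β} (hf : OPT f) : OPT fun a => size (f a) :=
  ofPT₁ (φ := size) (by fun_prop) hf

section Int
variable {f g : α → ℤ}
@[fun_prop] theorem int_neg (hf : OPT f) : OPT fun a => -f a :=
  ofPT₁ (φ := fun x => -x) (by fun_prop) hf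
@[fun_prop] theorem int_add (hf : OPT f) (hg : OPT g) : OPT fun a => f a + g a :=
  ofPT₂ (φ := fun x y => x + y) (by fun_prop) hf hg
@[fun_prop] theorem int_sub (hf : OPT f) (hg : OPT g) : OPT fun a => f a - g a :=
  ofPT₂ (φ := fun x y => x - y) (by fun_prop) hf hg
@[fun_prop] theorem int_mul (hf : OPT f) (hg : OPT g) : OPT fun a => f a * g a :=
  ofPT₂ (φ := fun x y => x * y) (by fun_prop) hf hg
@[fun_prop] theorem int_emod (hf : OPT f) (hg : OPT g) : OPT fun a => f a % g a :=
  ofPT₂ (φ := fun x y => x % y) (by fun_prop) hf hg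
@[fun_prop] theorem int_ediv (hf : OPT f) (hg : OPT g) : OPT fun a => f a / g a :=
  ofPT₂ (φ := fun x y => x / y) (by fun_prop) hf hg
@[fun_prop] theorem int_abs (hf : OPT f) : OPT fun a => |f a| :=
  ofPT₁ (φ := fun x => |x|) (by fun_prop) hf
@[fun_prop] theorem int_lt (hf : OPT f) (hg : OPT g) : OPT fun a => decide (f a < g a) :=
  ofPT₂ (φ := fun x y => decide (x < y)) (by fun_prop) hf hg
@[fun_prop] theorem int_le (hf : OPT f) (hg : OPT g) : OPT fun a => decide (f a ≤ g a) :=
  ofPT₂ (φ := fun x y => decide (x ≤ y)) (by fun_prop) hf hg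
@[fun_prop] theorem int_eq (hf : OPT f) (hg : OPT g) : OPT fun a => decide (f a = g a) :=
  ofPT₂ (φ := fun x y => decide (x = y)) (by fun_prop) hf hg
@[fun_prop] theorem int_ne (hf : OPT f) (hg : OPT g) : OPT fun a => decide (f a ≠ g a) :=
  decide_not (int_eq hf hg)
@[fun_prop] theorem int_ge (hf : OPT f) (hg : OPT g) : OPT fun a => decide (f a ≥ g a) :=
  int_le hg hf
@[fun_prop] theorem int_gt (hf : OPT f) (hg : OPT g) : OPT fun a => decide (f a > g a) :=
  int_lt hg hf
@[fun_prop] theorem int_min (hf : OPT f) (hg : OPT g) : OPT fun a => min (f a) (g a) :=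
  (ite (int_le hf hg) hf hg).of_eq fun _ => (min_def _ _).symm
@[fun_prop] theorem int_max (hf : OPT f) (hg : OPT g) : OPT fun a => max (f a) (g a) :=
  (ite (int_le hf hg) hg hf).of_eq fun _ => (max_def _ _).symm
@[fun_prop] theorem int_pow {n : α → ℕ} (hf : OPT f) (hn : OPT n) : OPT fun a => f a ^ n a :=
  ofPT₂ (φ := fun (x : ℤ) (y : ℕ) => x ^ y) (by fun_prop) hf hn
@[fun_prop] theorem int_sum {l : α → List ℤ} (hl : OPT l) : OPT fun a => (l a).sum :=
  ofPT₁ (φ := List.sum) (by fun_prop) hl
@[fun_prop] theorem int_prod {l : α → List ℤ} (hl : OPT l) : OPT fun a => (l a).prod :=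
  ofPT₁ (φ := List.prod) (by fun_prop) hl
@[fun_prop] theorem nat_sum {l : α → List ℕ} (hl : OPT l) : OPT fun a => (l a).sum :=
  ofPT₁ (φ := List.sum) (by fun_prop) hl
theorem toNat_min {n : α → ℕ} (hf : OPT f) (hn : OPT n) : OPT fun a => min (f a).toNat (n a) :=
  ofPT₂ (φ := fun (x : ℤ) (y : ℕ) => min x.toNat y) (PT.toNat_min (by fun_prop) (by fun_prop)) hf hn
theorem toNat_of_le {n : α → ℕ} (hf : OPT f) (hn : OPT n) (h : ∀ a, (f a).toNat ≤ n a) :
    OPT fun a => (f a).toNat := (toNat_min hf hn).of_eq fun a => min_eq_left (h a)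
theorem toNat_emod {k : α → ℕ} (hf : OPT f) (hk : OPT k) :
    OPT fun a => (f a % ((k a + 1 : ℕ) : ℤ)).toNat :=
  ofPT₂ (φ := fun (x : ℤ) (y : ℕ) => (x % ((y + 1 : ℕ) : ℤ)).toNat)
    (pt_toNat_emod (by fun_prop) (by fun_prop)) hf hk
@[fun_prop] theorem natAbs_bits (hf : OPT f) : OPT fun a => (f a).natAbs.bits :=
  ofPT₁ (φ := fun x : ℤ => x.natAbs.bits) (by fun_prop) hf
end Int

/-! #### Lists of plain values -/

variable [Plain β]

@[fun_prop] theorem cons {f : α → β} {g : α → List β} (hf : OPT f) (hg : OPT g) :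
    OPT fun a => f a :: g a := ofPT₂ (φ := List.cons) (by fun_prop) hf hg
@[fun_prop] theorem tail {g : α → List β} (hg : OPT g) : OPT fun a => (g a).tail :=
  ofPT₁ (φ := List.tail) (by fun_prop) hg
@[fun_prop] theorem isEmpty {g : α → List β} (hg : OPT g) : OPT fun a => (g a).isEmpty :=
  ofPT₁ (φ := List.isEmpty) (by fun_prop) hg
@[fun_prop] theorem headD {g : α → List β} {d : α → β} (hg : OPT g) (hd : OPT d) :
    OPT fun a => (g a).headD (d a) := ofPT₂ (φ := List.headD) (by fun_prop) hg hd
@[fun_prop] theorem reverse {f : α → List β} (hf : OPT f) : OPT fun a => (f a).reverse :=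
  ofPT₁ (φ := List.reverse) (by fun_prop) hf
@[fun_prop] theorem append {f g : α → List β} (hf : OPT f) (hg : OPT g) :
    OPT fun a => f a ++ g a := ofPT₂ (φ := fun x y => x ++ y) (by fun_prop) hf hg
@[fun_prop] theorem length {l : α → List β} (hl : OPT l) : OPT fun a => (l a).length :=
  ofPT₁ (φ := List.length) (by fun_prop) hl
@[fun_prop] theorem flatten {l : α → List (List β)} (hl : OPT l) : OPT fun a => (l a).flatten :=
  ofPT₁ (φ := List.flatten) (by fun_prop) hl
@[fun_prop] theorem replicate {n : α → ℕ} {b : α → β} (hn : OPT n) (hb : OPT b) :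
    OPT fun a => List.replicate (n a) (b a) := ofPT₂ (φ := List.replicate) (by fun_prop) hn hb
@[fun_prop] theorem drop {n : α → ℕ} {l : α → List β} (hn : OPT n) (hl : OPT l) :
    OPT fun a => (l a).drop (n a) := ofPT₂ (φ := List.drop) (by fun_prop) hn hl
@[fun_prop] theorem take {n : α → ℕ} {l : α → List β} (hn : OPT n) (hl : OPT l) :
    OPT fun a => (l a).take (n a) := ofPT₂ (φ := List.take) (by fun_prop) hn hl
@[fun_prop] theorem getD {n : α → ℕ} {l : α → List β} {d : α → β} (hl : OPT l) (hn : OPT n)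
    (hd : OPT d) : OPT fun a => (l a).getD (n a) (d a) :=
  ofPT₃ (φ := List.getD) (by fun_prop) hl hn hd

@[fun_prop] theorem chunk {ℓ i : α → ℕ} {τ : α → List Bool} (hℓ : OPT ℓ) (hi : OPT i)
    (hτ : OPT τ) : OPT fun a => chunk (ℓ a) (i a) (τ a) := ofPT₃ (φ := R309.chunk) (by fun_prop) hℓ hi hτ
@[fun_prop] theorem num {τ : α → List Bool} (hτ : OPT τ) : OPT fun a => num (τ a) :=
  ofPT₁ (φ := R309.num) (by fun_prop) hτ

end FirstOrder

/-! #### Folds over lists of plain values -/

variable [Plain β]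

/-- Case analysis on a list. -/
theorem casesList {g : α → List β} {f₁ : α → γ} {f₂ : α → β → List β → γ} (hg : OPT g)
    (h₁ : OPT f₁) (h₂ : OPT fun p : α × β × List β => f₂ p.1 p.2.1 p.2.2) :
    OPT fun a => (g a).casesOn (motive := fun _ => γ) (f₁ a) (f₂ a) := by
  classical
  by_cases hb : Nonempty β
  · obtain ⟨b⟩ := hb
    have h₃ : OPT fun a => f₂ a ((g a).headD b) (g a).tail :=
      h₂.comp (pair id' (pair (headD hg (const b)) (tail hg)))
    exact (cond hg.isEmpty h₁ h₃).of_eq fun a => by cases g a <;> rfl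
  · refine h₁.of_eq fun a => ?_
    rcases g a with _ | ⟨b, l⟩
    · rfl
    · exact absurd ⟨b⟩ hb

/-- Left fold with an explicit bound on all intermediate states. -/
theorem foldl {f : α → σ → β → σ} (hf : OPT fun p : α × σ × β => f p.1 p.2.1 p.2.2)
    {l : α → List β} {s₀ : α → σ} (hl : OPT l) (h₀ : OPT s₀) {B : α → ℕ} (hB : PB B)
    (hsz : ∀ a i, size (((l a).take i).foldl (f a) (s₀ a)) ≤ B a) :
    OPT fun a => (l a).foldl (f a) (s₀ a) := by
  have hstep : OPT fun p : α × (List β × σ) => (fun a => PT.foldStep (f a)) p.1 p.2 :=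
    casesList (fst (snd id')) (snd id')
      (f₂ := fun (p : α × (List β × σ)) b l => (l, f p.1 p.2.2 b))
      (pair (snd (snd id')) (hf.comp (pair (fst (fst id'))
        (pair (snd (snd (fst id'))) (fst (snd id'))))))
  have h := iterate (step := fun a => PT.foldStep (f a)) hstep hl.sizeOf' (pair hl h₀)
    (B := fun a => 2 * size (l a) + 1 + B a)
    ((((PB.const 2).mul hl.1).add (PB.const 1)).add hB) (by
      intro a i _
      rw [PT.foldStep_iterate, size_prod]
      have := hsz a i
      have := size_le_of_sublist (List.drop_sublist i (l a))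
      omega)
  exact h.snd.of_eq fun a => by
    rw [PT.foldStep_iterate, List.take_of_length_le (length_le_size _)]

/-- Left fold whose state grows additively. -/
theorem foldl_growth {f : α → σ → β → σ} (hf : OPT fun p : α × σ × β => f p.1 p.2.1 p.2.2)
    {l : α → List β} {s₀ : α → σ} (hl : OPT l) (h₀ : OPT s₀) {G : α × β → ℕ} (hG : PB G)
    (hsz : ∀ a s b, size (f a s b) ≤ size s + G (a, b)) :
    OPT fun a => (l a).foldl (f a) (s₀ a) := by
  obtain ⟨p, hp⟩ := hG
  have hB : PB fun a => size (s₀ a) + (l a).length * p.eval (2 * size a + 1 + size (l a)) :=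
    h₀.1.add (hl.pb_length.mul
      (PBy.eval p ((((PB.const 2).mul (PB.size PT.id')).add (PB.const 1)).add hl.1)))
  refine foldl hf hl h₀ hB fun a i => ?_
  refine (PT.size_foldl_le (m := p.eval (2 * size a + 1 + size (l a))) _ ?_ _).trans ?_
  · intro s b hb
    refine (hsz a s b).trans (Nat.add_le_add_left ((hp _).trans (poly_eval_mono p ?_)) _)
    have := size_le_of_mem (List.mem_of_mem_take hb)
    rw [size_prod]; omega
  · exact Nat.add_le_add_left (Nat.mul_le_mul_right _ (by simp)) _

@[fun_prop] theorem map [Plain γ] {f : α → β → γ} (hf : OPT fun p : α × β => f p.1 p.2)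
    {l : α → List β} (hl : OPT l) : OPT fun a => (l a).map (f a) := by
  have h₁ : OPT fun p : α × List γ × β => f p.1 p.2.2 := hf.comp (pair (fst id') (snd (snd id')))
  exact (foldl_growth (f := fun a s b => f a b :: s) (cons h₁ (fst (snd id'))) hl (const [])
    (G := fun p => 2 * size (f p.1 p.2) + 1) (((PB.const 2).mul hf.1).add (PB.const 1))
    (by intro a s b; simp; omega)).reverse.of_eq fun a => by simp

@[fun_prop] theorem flatMap [Plain γ] {f : α → β → List γ} (hf : OPT fun p : α × β => f p.1 p.2)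
    {l : α → List β} (hl : OPT l) : OPT fun a => (l a).flatMap (f a) :=
  (map hf hl).flatten.of_eq fun a => by simp [List.flatMap]

@[fun_prop] theorem filter {f : α → β → Bool} (hf : OPT fun p : α × β => f p.1 p.2)
    {l : α → List β} (hl : OPT l) : OPT fun a => (l a).filter (f a) :=
  (flatMap (f := fun a b => bif f a b then [b] else [])
    (cond hf (cons (snd id') (const [])) (const [])) hl).of_eq fun a => by
      induction l a with
      | nil => rfl
      | cons b l ih => cases h : f a b <;> simp [h, ih]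

@[fun_prop] theorem all {f : α → β → Bool} (hf : OPT fun p : α × β => f p.1 p.2)
    {l : α → List β} (hl : OPT l) : OPT fun a => (l a).all (f a) :=
  (filter (f := fun a b => !f a b) hf.not hl).isEmpty.of_eq fun a => by
    induction l a with
    | nil => rfl
    | cons b l ih => cases h : f a b <;> simp_all

@[fun_prop] theorem any {f : α → β → Bool} (hf : OPT fun p : α × β => f p.1 p.2)
    {l : α → List β} (hl : OPT l) : OPT fun a => (l a).any (f a) :=
  (filter hf hl).isEmpty.not.of_eq fun a => by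
    induction l a with
    | nil => rfl
    | cons b l ih => cases h : f a b <;> simp_all

@[fun_prop] theorem tab {n : α → ℕ} {g : α → ℕ → β} (hn : OPT n)
    (hg : OPT fun p : α × ℕ => g p.1 p.2) : OPT fun a => tab (n a) (g a) :=
  map hg (range hn)

/-- `foldT` is polynomial time once all intermediate states are polynomially bounded. -/
theorem foldT {step : α → ℕ → σ → List Bool → σ} {ℓ T : α → ℕ} {x : α → σ} {τ : α → List Bool}
    (hs : OPT fun p : α × ℕ × σ × List Bool => step p.1 p.2.1 p.2.2.1 p.2.2.2)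
    (hℓ : OPT ℓ) (hT : OPT T) (hx : OPT x) (hτ : OPT τ) {B : α → ℕ} (hB : PB B)
    (hsz : ∀ a i, i ≤ T a → size (foldT (step a) (ℓ a) i (x a) (τ a)) ≤ B a) :
    OPT fun a => foldT (step a) (ℓ a) (T a) (x a) (τ a) := by
  refine foldl (f := fun a (y : σ) (i : ℕ) => step a i y (R309.chunk (ℓ a) i (τ a)))
    (hs.comp (g := fun p : α × σ × ℕ => (p.1, p.2.2, p.2.1, R309.chunk (ℓ p.1) p.2.2 (τ p.1)))
      (by fun_prop)) (range hT) hx hB fun a i => ?_
  have h := hsz a (min i (T a)) (min_le_right _ _)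
  rw [List.take_range]
  exact h

@[fun_prop] theorem hits {F : α → List Bool → Bool} {ℓ k : α → ℕ} {τ : α → List Bool}
    (hF : OPT fun q : α × List Bool => F q.1 q.2) (hℓ : OPT ℓ) (hk : OPT k) (hτ : OPT τ) :
    OPT fun a => hits (F a) (ℓ a) (k a) (τ a) := by
  unfold R309.hits
  refine length (filter ?_ (range hk))
  exact hF.comp (g := fun p : α × ℕ => (p.1, R309.chunk (ℓ p.1) p.2 (τ p.1))) (by fun_prop)

end OPT

section Test

example : OPT fun p : (Orc × ℕ) × List ℤ =>
    (tab p.1.2 fun i => ask p.1.1 true (List.replicate i true) + p.2.getD i 0 * 3).sum := by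
  fun_prop

example : OPT fun p : (Orc × ℕ) × List Bool =>
    (p.1, if ask p.1.1 false p.2 < 3 ∧ p.1.2 = 2 then readNat p.2 else (0, [])) := by
  fun_prop

example : PB fun p : (Orc × ℕ) × List Bool => size (ask p.1.1 false p.2) + p.2.length * 3 := by
  fun_prop

example {f : α → Inst} {g : α → ℕ} (hf : OPT f) (hg : OPT g) :
    OPT fun a => (f a).loN (g a) + (f a).delN (f a).los 3 := by
  fun_prop

end Test

end Crest.Agent.R302
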