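import Crest.Agent.R302.ORamSim
import Crest.Agent.R302.ORamOut
import Crest.Agent.R302.OTyped
import Crest.Agent.R309.Ram

/-!
# Row 302: an `OPT` function on the oracle word RAM
-/

set_option autoImplicit false

namespace Crest.Agent.R302

open Function Crest.Agent.Lib.PolyTime Crest.Agent.R309.Ram Crest.OracleRAM Crest.Enc

/-- The size parameter computed by the machine from the six input words. -/
def qI (ws : List ℕ) : ℕ :=
  (ws.map natCode).flatten.length + (ws.getD 0 0 + 6) + ws.getD 3 0 / ws.getD 2 0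

namespace Ram

/-- Constants, stack pointers, codes of the input words, `q` in register `9`, random tape, oracle size. -/
def inP (κ a : ℕ) : Pr :=
  .seq (ops [.const 2 1, .const 3 κ, .const 5 2, .const 6 0, .load 4 6, .const 6 6, .add 4 4 6])
    (.seq (initSP κ) (.seq (ops [.const 7 0, .const 8 6]) (.seq encLoop
      (.seq (ops [.sub 9 16 4, .quot 9 9 3, .add 9 9 4, .const 10 3, .load 10 10, .load 11 5,
          .quot 10 10 11, .add 9 9 10])
        (.seq (powR 13 9 a) (.seq rnd (.seq (pushC 16 false) (.seq (pushT 9) (pushT 9)))))))))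

variable {w : ℕ} {ρ : ℕ → ℕ} {κ H : ℕ}

theorem oram_pairR_replicate (q : ℕ) (y : List Bool) :
    pairR (List.replicate q true) y = List.replicate q true ++ (List.replicate q true ++ false :: y) := by
  induction q with
  | zero => rfl
  | succ q ih =>
    rw [List.replicate_succ, pairR_cons, ih, ← List.append_assoc, ← List.replicate_add,
      ← List.replicate_succ, ← List.append_assoc, ← List.replicate_add,
      show q + 1 + (q + 1) = q + q + 1 + 1 by omega, List.replicate_succ, List.replicate_succ]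
    rfl

/-- As `phase0_spec` – `phase3_spec` and the first half of `round_spec` in `R309/Ram.lean`. -/
theorem inP_spec {ws : List ℕ} {B a : ℕ} (hl : ws.length = 6) (hB : B = ws.getD 0 0 + 6)
    (hw : B + κ * (H + 1) < 2 ^ w) (hκ : 0 < κ) (hH : 3 * qI ws + qI ws ^ a + 1 ≤ H) {σ : S}
    (hm : ∀ i, σ.m i = ws.getD i 0) (hd : σ.d = 0) :
    W w ρ (inP κ a) σ (2 * κ + a + 20 * (qI ws + qI ws ^ a) + 40) fun σ' =>
      MS B κ σ' (pairR (List.replicate (qI ws) true)
        ((ws.map natCode).flatten ++ bitsAt w ρ 0 (qI ws ^ a)).reverse) ∧ σ'.R 4 = B ∧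
      ∀ i < κ, i ≠ 0 → σ'.R (16 + i) = B + i ∧ σ'.m (B + i) = 0 := by
  obtain ⟨F, hF⟩ : ∃ F, F = (ws.map natCode).flatten := ⟨_, rfl⟩
  obtain ⟨q, hq⟩ : ∃ q, q = qI ws := ⟨_, rfl⟩
  have hq' : q = F.length + B + ws.getD 3 0 / ws.getD 2 0 := by rw [hq, qI, hB, hF]
  rw [← hq] at hH ⊢
  rw [← hF]
  have hB6 : 6 ≤ B := by omega
  have hFq : F.length + B ≤ q := by rw [hq']; exact Nat.le_add_right _ _
  have h1 : κ * 2 ≤ κ * (H + 1) := Nat.mul_le_mul_left _ (by omega)
  have hHw : H < 2 ^ w := by nlinarith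
  have e0 : 0 % 2 ^ w = 0 := Nat.zero_mod _
  have e1 : 1 % 2 ^ w = 1 := Nat.mod_eq_of_lt (by omega)
  have e2 : 2 % 2 ^ w = 2 := Nat.mod_eq_of_lt (by omega)
  have e3 : 3 % 2 ^ w = 3 := Nat.mod_eq_of_lt (by omega)
  have e6 : 6 % 2 ^ w = 6 := Nat.mod_eq_of_lt (by omega)
  have eκ : κ % 2 ^ w = κ := Nat.mod_eq_of_lt (by omega)
  have e4 : (ws.getD 0 0 + 6) % 2 ^ w = B := by rw [← hB]; exact Nat.mod_eq_of_lt (by omega)
  refine W.time (W.seq (t₂ := 2 * κ + (2 + (8 * F.length + 1 + (8 + (a + 1 + (8 * q ^ a + 2 +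
      (3 + (6 * q + 2 + (6 * q + 2)))))))))
    (W.ops (l := [_, _, _, _, _, _, _]) (W.bind (initSP_spec (B := B) ?_ κ (by omega)) ?_)))
    (by simp only [List.length_cons, List.length_nil]; omega)
  · simp only [List.foldl_cons, List.foldl_nil, Op.ex]
    simp [-Nat.mod_add_mod, -Nat.add_mod_mod, e6, hm, ← e4]
  rintro σ₀ ⟨k1, k2, k3, k4⟩
  have m0 : ∀ i, σ₀.m i = ws.getD i 0 := fun i => by rw [k3]; exact hm i
  have d0 : σ₀.d = 0 := k4.trans hd
  have r4 : σ₀.R 4 = B := by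
    rw [k2 4 (by omega) (by omega)]
    simp only [List.foldl_cons, List.foldl_nil, Op.ex]
    simp [-Nat.mod_add_mod, -Nat.add_mod_mod, e6, hm, ← e4]
  have h0 : MS B κ σ₀ [] := by
    refine ⟨?_, ?_, ?_, by simpa using k1 0 hκ, ?_⟩
    · rw [k2 2 (by omega) (by omega)]; simp [Op.ex, e1]
    · rw [k2 3 (by omega) (by omega)]; simp [Op.ex, eκ]
    · rw [k2 5 (by omega) (by omega)]; simp [Op.ex, e2]
    · show σ₀.m B = 0
      rw [m0]
      exact List.getD_eq_default _ _ (by omega)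
  clear k2 k3 k4
  refine W.seq (W.ops (l := [_, _]) (W.bind (hF ▸ encLoop_spec hw hκ ws _ [] 0 (by simp [Op.ex])
    (by simp [Op.ex, e6, hl]) (by omega) (fun i _ => by rw [zero_add]; exact m0 i)
    ((h0.set (d := 7) (by simp) _ _).set (d := 8) (by simp) _ _)
    (by rw [← hF, List.length_nil]; omega)) ?_))
  rintro σ₁ ⟨h1, f1⟩
  rw [List.append_nil] at h1
  have g1 := (((Fr.refl [6, 7, 8, 9, 10, 11, 13, 15, 16] σ₀).set (by simp) _).set (by simp) _).trans
    f1 (by simp) rfl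
  have r4' : σ₁.R 4 = B := (g1.1 4 (by simp)).trans r4
  have r16 : σ₁.R 16 = B + κ * F.length := by rw [h1.2.2.2.1, List.length_reverse]
  have m3 : σ₁.m 3 = ws.getD 3 0 := (g1.2.1 3 (by omega)).trans (m0 3)
  have m2 : σ₁.m 2 = ws.getD 2 0 := (g1.2.1 2 (by omega)).trans (m0 2)
  have e7 : (F.length + B) % 2 ^ w = F.length + B := Nat.mod_eq_of_lt (by omega)
  have e8 : (F.length + B + ws.getD 3 0 / ws.getD 2 0) % 2 ^ w = q := by
    rw [← hq']; exact Nat.mod_eq_of_lt (by omega)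
  refine W.bind (P := fun σ₂ => MS B κ σ₂ F.reverse ∧
    Fr B κ [6, 7, 8, 9, 10, 11, 13, 15, 16] 0 σ₀ σ₂ ∧ σ₂.R 9 = q)
    (W.ops (l := [_, _, _, _, _, _, _, _]) ⟨?_, ?_, ?_⟩) ?_
  · exact (((((((h1.set (by simp) _ _).set (by simp) _ _).set (by simp) _ _).set (by simp) _ _).set
      (by simp) _ _).set (by simp) _ _).set (by simp) _ _).set (by simp) _ _
  · exact (((((((g1.set (by simp) _).set (by simp) _).set (by simp) _).set (by simp) _).set
      (by simp) _).set (by simp) _).set (by simp) _).set (by simp) _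
  · simp only [List.foldl_cons, List.foldl_nil, Op.ex]
    simp [-Nat.mod_add_mod, -Nat.add_mod_mod, -List.getD_eq_getElem?_getD, r4', r16, h1.2.1,
      h1.2.2.1, Nat.mul_div_cancel_left _ hκ, e3, e7, m2, m3, e8]
  rintro σ₂ ⟨h2, g2, r9⟩
  refine W.bind (powR_spec (by omega) (by omega) r9 a (by omega)) ?_
  rintro _ rfl
  refine W.bind (rnd_spec (L := q ^ a) hw hκ (h2.set (d := 13) (by simp) _ _) (by simp)
    (by rw [List.length_reverse]; omega)) ?_
  rintro σ₃ ⟨h3, f3⟩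
  have d2 : σ₂.d = 0 := g2.2.2.trans d0
  simp only [d2] at h3
  have g3 := (g2.set (by simp) _).trans f3 (by simp) rfl
  have r9₃ : σ₃.R 9 = q := by rw [f3.1 9 (by simp)]; simpa using r9
  refine W.bind (push_c hw hκ h3 (by simp [length_bitsAt]; omega) false) ?_
  rintro σ₄ ⟨h4, f4⟩
  have r9₄ : σ₄.R 9 = q := (f4.1 9 (by simp)).trans r9₃
  refine W.bind (pushT_spec hw hκ h4 r9₄ (by simp [length_bitsAt]; omega)) ?_
  rintro σ₅ ⟨h5, f5⟩
  have r9₅ : σ₅.R 9 = q := (f5.1 9 (by simp)).trans r9₄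
  refine (pushT_spec hw hκ h5 r9₅ (by simp [length_bitsAt]; omega)).mono le_rfl ?_
  rintro σ₆ ⟨h6, f6⟩
  have g6 := ((g3.trans f4 (by simp) rfl).trans f5 (by simp) rfl).trans f6 (by simp) rfl
  refine ⟨by rw [oram_pairR_replicate, List.reverse_append]; exact h6,
    (g6.1 4 (by simp)).trans r4, fun i hi hi0 => ⟨?_, ?_⟩⟩
  · rw [g6.1 _ (by simp; omega), k1 i hi]
  · rw [g6.2.1 _ (by omega), m0]
    exact List.getD_eq_default _ _ (by omega)

end Ram

/-- The program is `inP`, `occ f c`, `outP` (`f`, `κ` as in `R309.ram_loop`; `OW.run`; the initial configuration is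
`cfg r 0 ⟨fun j => if j = 0 then 6 else 0, fun i => ws.getD i 0, 0⟩` as in `R309.Ram.core`).  The input of `c` is
`enc (Oc, Raw.mk _) = pairR (replicate q true) _` of length `≤ 3 q + q ^ a + 1`; take `H` = this bound plus the time
of `c`; all quantities are `PBy qI`, use `pby_bound`. -/
theorem oram (G : Orc × Raw → Raw) (hG : OPT G) (a : ℕ) :
    ∃ (P : OProgram) (C D : ℕ), (∀ q, 1 ≤ q → q ^ a ≤ C * q ^ D) ∧
      ∀ (n : ℕ) (ws : List ℕ) (O : Bool → Finset (Fin n) → ℕ) (Oc : Orc) (w T : ℕ),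
        ws.length = 6 → ws.getD 0 0 = n → (∀ x ∈ ws, x < 2 ^ w) → Oc.s = qI ws →
        (∀ b l, Oc.f b l = O b (toS n l)) → (∀ b A, O b A < 2 ^ w) →
        C * qI ws ^ D < 2 ^ w → C * qI ws ^ D ≤ T → ∀ ρ : ℕ → ℕ,
        (orun P n O w ρ ws T).cfg.halted = true ∧
        decodeRat w (orun P n O w ρ ws T).cfg.output = some (Bin.valMSB (G (Oc,
          ⟨((ws.map natCode).flatten ++ bitsAt w ρ 0 (qI ws ^ a)).reverse⟩)).bits.reverse : ℚ) := by
  obtain ⟨K, _, _, c, τ, ⟨p, hp⟩, hc⟩ := hG.2.2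
  obtain ⟨κ, hκ⟩ : ∃ κ, κ = Fintype.card K + 1 := ⟨_, rfl⟩
  obtain ⟨f, hf⟩ : ∃ f : Option K → ℕ, f = fun k => k.elim 0 fun k => Fintype.equivFin K k + 1 :=
    ⟨_, rfl⟩
  have hfi : Injective f := by
    rintro (_ | a) (_ | b) h
    · rfl
    · simp [hf] at h
    · simp [hf] at h
    · simp only [hf, Option.elim_some, Nat.add_right_cancel_iff] at h
      rw [(Fintype.equivFin K).injective (Fin.ext h)]
  have hfκ : ∀ k, f k < κ := by
    rintro (_ | a)
    · simp [hf, hκ]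
    · simp [hf, hκ]
  have hf0 : f none = 0 := by rw [hf]; rfl
  have hκ0 : 0 < κ := by omega
  obtain ⟨r₁, hr₁⟩ :=
    (Ram.OPr.seq (.base (Ram.inP κ a)) (.seq (Ram.occ f c) (.base Ram.outP))).exists_bd
  have : NeZero (r₁ + 2) := ⟨by omega⟩
  have pq : PBy (fun q : ℕ => q) fun q => q := PBy.self
  have pn := (((PBy.const 3).mul pq).add (pq.pow a)).add (PBy.const 1)
  have pH := pn.add (pn.eval p)
  obtain ⟨C, D, hC⟩ := R309.Ram.pby_bound ((((PBy.const (κ + 34)).mul (pH.add (PBy.const 1))).add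
    ((PBy.const 21).mul (pq.add (pq.pow a)))).add (PBy.const (2 * κ + a + 60)))
  refine ⟨⟨r₁ + 2, (Ram.OPr.seq (.base (Ram.inP κ a)) (.seq (Ram.occ f c) (.base Ram.outP))).comp
    (r₁ + 2) 0⟩, C, D, fun q hq => le_trans (by omega) (hC q hq), ?_⟩
  intro n ws O Oc w T hl hn hws hs hO hOw hw hT ρ
  have hq : (ws.map natCode).flatten.length + (n + 6) ≤ qI ws := by
    unfold qI; rw [hn]; exact Nat.le_add_right _ _
  have hC' := hC (qI ws) (by omega)
  set x : Raw := ⟨((ws.map natCode).flatten ++ bitsAt w ρ 0 (qI ws ^ a)).reverse⟩ with hx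
  have he : enc (Oc, x) = pairR (List.replicate (qI ws) true)
      ((ws.map natCode).flatten ++ bitsAt w ρ 0 (qI ws ^ a)).reverse := by
    show pairR (List.replicate Oc.s true) _ = _
    rw [hs]; rfl
  have hlen : (enc (Oc, x)).length ≤ 3 * qI ws + qI ws ^ a + 1 := by
    rw [he]
    simp only [length_pairR, List.length_replicate, List.length_reverse, List.length_append,
      length_bitsAt]
    omega
  have hex : OExec Oc c (one (enc (Oc, x))) (one (G (Oc, x)).bits)
      (p.eval (3 * qI ws + qI ws ^ a + 1)) :=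
    (hc Oc (Oc, x) ⟨rfl, trivial⟩).mono ((hp _).trans (poly_eval_mono p hlen))
  have hout : (G (Oc, x)).bits.length ≤ (enc (Oc, x)).length +
      p.eval (3 * qI ws + qI ws ^ a + 1) := hex.length_le none
  generalize p.eval (3 * qI ws + qI ws ^ a + 1) = t at hC' hex hout
  obtain ⟨H, hH⟩ : ∃ H, H = 3 * qI ws + qI ws ^ a + 1 + t := ⟨_, rfl⟩
  rw [← hH, add_mul] at hC'
  have hwH : n + 6 + κ * (H + 1) < 2 ^ w := by omega
  have hW : Ram.OW O w ρ (.seq (.base (Ram.inP κ a)) (.seq (Ram.occ f c) (.base Ram.outP)))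
      ⟨fun j => if j = 0 then 6 else 0, fun i => ws.getD i 0, 0⟩
      (2 * κ + a + 20 * (qI ws + qI ws ^ a) + 40 + (20 * t + (14 * (G (Oc, x)).bits.length + 13)))
      fun σ' => decodeRat w ((List.range (σ'.R 0)).map fun i => σ'.m (σ'.R 1 + i)) =
        some (Bin.valMSB (G (Oc, x)).bits.reverse : ℚ) := by
    refine Ram.OW.bind (Ram.OW.base (Ram.inP_spec (H := H) (B := n + 6) hl (by rw [hn]) hwH hκ0
      (by omega) (fun _ => rfl) rfl)) ?_
    rintro σ₁ ⟨h1, h2, h3⟩
    rw [← he] at h1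
    have hrep : Ram.ORep f (n + 6) κ (one (enc (Oc, x))) σ₁ := by
      refine ⟨⟨h1.1, h1.2.1, fun k => ?_⟩, h2, h1.2.2.1⟩
      cases k with
      | none => rw [hf0]; exact ⟨h1.2.2.2.1, h1.2.2.2.2⟩
      | some k =>
        exact h3 _ (hfκ (some k)) fun e => by cases hfi (e.trans hf0.symm)
    refine Ram.OW.bind (Ram.osim (H := H) rfl hwH hfi hfκ hO (by omega) hOw hex
      (fun k => by cases k <;> simp only [one, List.length_nil] <;> omega) hrep) ?_
    rintro σ₂ ⟨h4, -, h5⟩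
    have h6 := h4.2.2 none
    rw [hf0] at h6
    refine Ram.OW.base (Ram.outP_spec (B := n + 6) hκ0 ⟨h4.1, h4.2.1, h5, h6.1, h6.2⟩ ?_)
    have : κ * (G (Oc, x)).bits.length ≤ κ * (H + 1) := Nat.mul_le_mul_left _ (by omega)
    omega
  obtain ⟨σ', k', hQ, e⟩ := hW.run (hr₁ (r₁ + 2) (by omega)) 0 (T := T) (by omega)
  have hinit : WordRAM.init ⟨r₁ + 2, []⟩ w ws =
      cfg (r₁ + 2) 0 ⟨fun j => if j = 0 then 6 else 0, fun i => ws.getD i 0, 0⟩ := by
    unfold WordRAM.init cfg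
    congr 1
    · funext j
      rw [hl, Nat.mod_eq_of_lt (by omega)]
    · funext i
      show _ = ws.getD i 0
      rw [List.getD_eq_getElem?_getD]
      refine Nat.mod_eq_of_lt ?_
      by_cases hi : i < ws.length
      · rw [List.getElem?_eq_getElem hi]
        exact hws _ (List.getElem_mem hi)
      · rw [List.getElem?_eq_none (by omega)]
        simp
  unfold orun
  simp only []
  rw [hinit, e]
  refine ⟨rfl, ?_⟩
  rw [← hQ]
  have h0 : 0 < r₁ + 2 := by omega
  have h1 : 1 < r₁ + 2 := by omega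
  simp only [WordRAM.Cfg.output, WordRAM.Cfg.reg, dif_pos h0, dif_pos h1]

end Crest.Agent.R302
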