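import Crest.Agent.R309.RamLang
import Crest.Prelude.Def_OracleRAM

/-!
# Row 302: a structured language for the oracle word RAM (complete)
-/

set_option autoImplicit false

namespace Crest.Agent.R302.Ram

open Crest.WordRAM Crest.OracleRAM Function Crest.Agent.R309.Ram

/-- Structured oracle programs. -/
inductive OPr : Type
  | base (p : Pr)
  | query (b : Bool) (a d : ℕ)
  | seq (a b : OPr)
  | ifz (x : ℕ) (a b : OPr)
  | loop (x : ℕ) (a : OPr)

/-- All registers are below `r`. -/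
def OPr.Bd (r : ℕ) : OPr → Prop
  | .base p => p.Bd r
  | .query _ a d => a < r ∧ d < r
  | .seq a b => a.Bd r ∧ b.Bd r
  | .ifz x a b => x < r ∧ a.Bd r ∧ b.Bd r
  | .loop x a => x < r ∧ a.Bd r

theorem OPr.exists_bd (p : OPr) : ∃ r, ∀ r', r ≤ r' → p.Bd r' := by
  induction p with
  | base p => exact p.exists_bd
  | query b a d => exact ⟨a + d + 1, fun r h => ⟨by omega, by omega⟩⟩
  | seq a b iha ihb =>
    obtain ⟨r₁, h₁⟩ := iha
    obtain ⟨r₂, h₂⟩ := ihb
    exact ⟨r₁ + r₂, fun r h => ⟨h₁ r (by omega), h₂ r (by omega)⟩⟩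
  | ifz x a b iha ihb =>
    obtain ⟨r₁, h₁⟩ := iha
    obtain ⟨r₂, h₂⟩ := ihb
    exact ⟨x + 1 + r₁ + r₂, fun r h => ⟨by omega, h₁ r (by omega), h₂ r (by omega)⟩⟩
  | loop x a iha =>
    obtain ⟨r₁, h₁⟩ := iha
    exact ⟨x + 1 + r₁, fun r h => ⟨by omega, h₁ r (by omega)⟩⟩

/-- Length of the compiled program. -/
def OPr.len : OPr → ℕ
  | .base p => p.len
  | .query _ _ _ => 1
  | .seq a b => a.len + b.len
  | .ifz _ a b => a.len + b.len + 2
  | .loop _ a => a.len + 2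

/-- The compiled program, to be placed at position `o`. -/
def OPr.comp (r : ℕ) [NeZero r] : OPr → ℕ → List (OInstr r)
  | .base p, o => (p.comp r o).map .base
  | .query b a d, _ => [.query b (rg r a) (rg r d)]
  | .seq a b, o => a.comp r o ++ b.comp r (o + a.len)
  | .ifz x a b, o => .base (.jumpIfZero (rg r x) (o + b.len + 2)) :: (b.comp r (o + 1) ++
      .base (.jump (o + (a.len + b.len + 2))) :: a.comp r (o + b.len + 2))
  | .loop x a, o => .base (.jumpIfZero (rg r x) (o + (a.len + 2))) ::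
      (a.comp r (o + 1) ++ [.base (.jump o)])

theorem OPr.length_comp (r : ℕ) [NeZero r] (p : OPr) : ∀ o, (p.comp r o).length = p.len := by
  induction p with
  | base p => intro o; simp [OPr.comp, OPr.len, Pr.length_comp]
  | query b a d => intro o; rfl
  | seq a b iha ihb => intro o; simp [OPr.comp, OPr.len, iha, ihb]
  | ifz x a b iha ihb => intro o; simp [OPr.comp, OPr.len, iha, ihb]; omega
  | loop x a iha => intro o; simp [OPr.comp, OPr.len, iha]

/-- The program sits in `code` at position `o`. -/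
def OAt {r : ℕ} [NeZero r] (code : List (OInstr r)) : OPr → ℕ → Prop
  | .base p, o => At (code.map OInstr.toBase) p o
  | .query b a d, o => code[o]? = some (.query b (rg r a) (rg r d))
  | .seq a b, o => OAt code a o ∧ OAt code b (o + a.len)
  | .ifz x a b, o => code[o]? = some (.base (.jumpIfZero (rg r x) (o + b.len + 2))) ∧
      OAt code b (o + 1) ∧ code[o + 1 + b.len]? = some (.base (.jump (o + (a.len + b.len + 2)))) ∧
      OAt code a (o + b.len + 2)
  | .loop x a, o => code[o]? = some (.base (.jumpIfZero (rg r x) (o + (a.len + 2)))) ∧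
      OAt code a (o + 1) ∧ code[o + 1 + a.len]? = some (.base (.jump o))

theorem oat_comp {r : ℕ} [NeZero r] (p : OPr) : ∀ (o : ℕ) (pre post : List (OInstr r)),
    pre.length = o → OAt (pre ++ (p.comp r o ++ post)) p o := by
  induction p with
  | base p =>
    intro o pre post h
    have := at_comp p o (pre.map OInstr.toBase) (post.map OInstr.toBase) (by simpa using h)
    have e : (OInstr.toBase ∘ OInstr.base : Instr r → Instr r) = id := rfl
    simpa [OAt, OPr.comp, e] using this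
  | query b a d => intro o pre post h; subst h; simp [OAt, OPr.comp]
  | seq a b iha ihb =>
    intro o pre post h
    refine ⟨?_, ?_⟩
    · simpa [OPr.comp] using iha o pre (b.comp r (o + a.len) ++ post) h
    · simpa [OPr.comp] using ihb (o + a.len) (pre ++ a.comp r o) post
        (by simp [h, OPr.length_comp])
  | ifz x a b iha ihb =>
    intro o pre post h
    refine ⟨?_, ?_, ?_, ?_⟩
    · subst h; simp [OPr.comp]
    · have := ihb (o + 1) (pre ++ [.base (.jumpIfZero (rg r x) (o + b.len + 2))])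
        (.base (.jump (o + (a.len + b.len + 2))) :: a.comp r (o + b.len + 2) ++ post) (by simp [h])
      convert this using 1
      simp [OPr.comp]
    · subst h
      rw [add_assoc, List.getElem?_append_right (by omega), Nat.add_sub_cancel_left, add_comm 1,
        OPr.comp, List.cons_append, List.getElem?_cons_succ, List.append_assoc,
        List.getElem?_append_right (by rw [OPr.length_comp]), OPr.length_comp]
      simp
    · have := iha (o + b.len + 2)
        (pre ++ .base (.jumpIfZero (rg r x) (o + b.len + 2)) :: (b.comp r (o + 1) ++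
          [.base (.jump (o + (a.len + b.len + 2)))])) post (by simp [h, OPr.length_comp]; omega)
      convert this using 1
      simp [OPr.comp]
  | loop x a iha =>
    intro o pre post h
    refine ⟨?_, ?_, ?_⟩
    · subst h; simp [OPr.comp]
    · have := iha (o + 1) (pre ++ [.base (.jumpIfZero (rg r x) (o + (a.len + 2)))])
        (.base (.jump o) :: post) (by simp [h])
      convert this using 1
      simp [OPr.comp]
    · subst h
      rw [add_assoc, List.getElem?_append_right (by omega), Nat.add_sub_cancel_left, add_comm 1,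
        OPr.comp, List.cons_append, List.getElem?_cons_succ, List.append_assoc,
        List.getElem?_append_right (by rw [OPr.length_comp]), OPr.length_comp]
      simp

variable {N : ℕ} {O : Bool → Finset (Fin N) → ℕ} {w : ℕ} {ρ : ℕ → ℕ}

theorem step_halted (P : Program) {c : Cfg P.numRegs} (h : c.halted = true) (n : ℕ) :
    (step P w ρ)^[n] c = c :=
  iterate_fixed (by simp [step, h]) n

theorem ostep_halted (P : OProgram) {c : OCfg P.numRegs} (h : c.cfg.halted = true) (n : ℕ) :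
    (ostep P N O w ρ)^[n] c = c :=
  iterate_fixed (by simp [ostep, h]) n

/-- A run of the underlying ordinary program that does not halt is a run of the oracle program. -/
theorem ostep_base {r : ℕ} (code : List (OInstr r)) (k : ℕ) : ∀ (n : ℕ) (c : Cfg r),
    ((step ⟨r, code.map OInstr.toBase⟩ w ρ)^[n] c).halted = false →
    (ostep ⟨r, code⟩ N O w ρ)^[n] ⟨c, k⟩ = ⟨(step ⟨r, code.map OInstr.toBase⟩ w ρ)^[n] c, k⟩ := by
  intro n
  induction n with
  | zero => intro c _; rfl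
  | succ n ih =>
    intro c h
    rw [iterate_succ_apply] at h ⊢
    rw [iterate_succ_apply]
    have h1 : (step ⟨r, code.map OInstr.toBase⟩ w ρ c).halted = false := by
      by_contra h1
      rw [step_halted ⟨r, code.map OInstr.toBase⟩ (by simpa using h1)] at h
      exact h1 h
    have h0 : c.halted = false := by
      by_contra h0
      have : step ⟨r, code.map OInstr.toBase⟩ w ρ c = c :=
        step_halted ⟨r, code.map OInstr.toBase⟩ (by simpa using h0) 1
      rw [this] at h1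
      exact h0 h1
    have : ostep ⟨r, code⟩ N O w ρ ⟨c, k⟩ = ⟨step ⟨r, code.map OInstr.toBase⟩ w ρ c, k⟩ := by
      rcases hc : code[c.pc]? with _ | i | ⟨b, a, d⟩
      · simp [step, h0, hc] at h1
      · simp [ostep, h0, hc, baseProgram]
      · simp [step, h0, hc, OInstr.toBase] at h1
    rw [this]
    exact ih _ h

theorem ostep_jz {r : ℕ} [NeZero r] {code : List (OInstr r)} {o x l : ℕ} (hb : x < r)
    (h : code[o]? = some (.base (.jumpIfZero (rg r x) l))) (σ : S) (k : ℕ) :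
    ostep ⟨r, code⟩ N O w ρ ⟨cfg r o σ, k⟩ = ⟨cfg r (if σ.R x = 0 then l else o + 1) σ, k⟩ := by
  have := step_jz (w := w) (ρ := ρ) (code := code.map OInstr.toBase) (o := o) (l := l) hb
    (by simp [h, OInstr.toBase]) σ
  simp only [ostep, cfg, h] at this ⊢
  exact congrArg (OCfg.mk · k) this

theorem ostep_jump {r : ℕ} {code : List (OInstr r)} {o l : ℕ}
    (h : code[o]? = some (.base (.jump l))) (σ : S) (k : ℕ) :
    ostep ⟨r, code⟩ N O w ρ ⟨cfg r o σ, k⟩ = ⟨cfg r l σ, k⟩ := by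
  have := step_jump (w := w) (ρ := ρ) (code := code.map OInstr.toBase) (o := o) (l := l)
    (by simp [h, OInstr.toBase]) σ
  simp only [ostep, cfg, h] at this ⊢
  exact congrArg (OCfg.mk · k) this

theorem ostep_end {r : ℕ} {code : List (OInstr r)} {o : ℕ} (h : code.length ≤ o) (σ : S) (k : ℕ) :
    ostep ⟨r, code⟩ N O w ρ ⟨cfg r o σ, k⟩ = ⟨⟨o, true, fun j => σ.R j, σ.m, σ.d⟩, k⟩ := by
  simp [ostep, cfg, List.getElem?_eq_none h]

/-- Total correctness with a bound on the number of steps. -/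
def OW (O : Bool → Finset (Fin N) → ℕ) (w : ℕ) (ρ : ℕ → ℕ) (p : OPr) (σ : S) (t : ℕ)
    (Q : S → Prop) : Prop :=
  ∃ σ', Q σ' ∧ ∀ (r : ℕ) [NeZero r] (code : List (OInstr r)) (o k : ℕ), p.Bd r → OAt code p o →
    ∃ n ≤ t, ∃ k', (ostep ⟨r, code⟩ N O w ρ)^[n] ⟨cfg r o σ, k⟩ = ⟨cfg r (o + p.len) σ', k'⟩

theorem OW.mono {p : OPr} {σ : S} {t t' : ℕ} {Q Q' : S → Prop} (h : OW O w ρ p σ t Q) (ht : t ≤ t')
    (hQ : ∀ σ', Q σ' → Q' σ') : OW O w ρ p σ t' Q' := by
  obtain ⟨σ', h1, h2⟩ := h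
  refine ⟨σ', hQ _ h1, fun r _ code o k hb ha => ?_⟩
  obtain ⟨n, hn, h3⟩ := h2 r code o k hb ha
  exact ⟨n, hn.trans ht, h3⟩

theorem OW.time {p : OPr} {σ : S} {t t' : ℕ} {Q : S → Prop} (h : OW O w ρ p σ t Q) (ht : t ≤ t') :
    OW O w ρ p σ t' Q := h.mono ht fun _ h => h

theorem OW.base {p : Pr} {σ : S} {t : ℕ} {Q : S → Prop} (h : W w ρ p σ t Q) :
    OW O w ρ (.base p) σ t Q := by
  obtain ⟨σ', h1, h2⟩ := h
  refine ⟨σ', h1, fun r _ code o k hb ha => ?_⟩
  obtain ⟨n, hn, h3⟩ := h2 r (code.map OInstr.toBase) o hb ha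
  refine ⟨n, hn, k, ?_⟩
  rw [ostep_base code k n _ (by rw [h3]; rfl), h3]
  rfl

theorem OW.query {b : Bool} {a d : ℕ} {σ : S} {Q : S → Prop}
    (h : Q ⟨update σ.R d (O b (Finset.univ.filter fun j : Fin N => σ.m (σ.R a + j.val) ≠ 0) % 2 ^ w),
      σ.m, σ.d⟩) : OW O w ρ (.query b a d) σ 1 Q := by
  refine ⟨_, h, fun r _ code o k hb ha => ⟨1, le_rfl, k + 1, ?_⟩⟩
  have ha' : code[o]? = some (.query b (rg r a) (rg r d)) := ha
  simp [ostep, cfg, ha', OPr.len, writeReg_eq _ hb.2, rg_val hb.1]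

theorem OW.seq {a b : OPr} {σ : S} {t₁ t₂ : ℕ} {Q : S → Prop}
    (h : OW O w ρ a σ t₁ fun σ' => OW O w ρ b σ' t₂ Q) : OW O w ρ (.seq a b) σ (t₁ + t₂) Q := by
  obtain ⟨σ₁, ⟨σ₂, hQ, h₂⟩, h₁⟩ := h
  refine ⟨σ₂, hQ, fun r _ code o k hb ha => ?_⟩
  obtain ⟨n₁, hn₁, k₁, e₁⟩ := h₁ r code o k hb.1 ha.1
  obtain ⟨n₂, hn₂, k₂, e₂⟩ := h₂ r code _ k₁ hb.2 ha.2
  refine ⟨n₂ + n₁, by omega, k₂, ?_⟩
  rw [iterate_add_apply, e₁, e₂, OPr.len, add_assoc]

/-- Sequencing with an intermediate assertion. -/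
theorem OW.bind {a b : OPr} {σ : S} {t₁ t₂ : ℕ} {P Q : S → Prop} (h : OW O w ρ a σ t₁ P)
    (h' : ∀ σ', P σ' → OW O w ρ b σ' t₂ Q) : OW O w ρ (.seq a b) σ (t₁ + t₂) Q :=
  OW.seq (h.mono le_rfl h')

/-- An instruction followed by a program. -/
theorem OW.step {i : Op} {b : OPr} {σ : S} {t : ℕ} {Q : S → Prop}
    (h : OW O w ρ b (i.ex w ρ σ) t Q) : OW O w ρ (.seq (.base (.op i)) b) σ (t + 1) Q :=
  (OW.seq (OW.base (W.op (Q := fun σ' => OW O w ρ b σ' t Q) h))).time (by omega)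

theorem OW.op {i : Op} {σ : S} {Q : S → Prop} (h : Q (i.ex w ρ σ)) :
    OW O w ρ (.base (.op i)) σ 1 Q := OW.base (W.op h)

theorem OW.ifz_zero {x : ℕ} {a b : OPr} {σ : S} {t : ℕ} {Q : S → Prop} (hx : σ.R x = 0)
    (h : OW O w ρ a σ t Q) : OW O w ρ (.ifz x a b) σ (t + 2) Q := by
  obtain ⟨σ₁, hQ, h₁⟩ := h
  refine ⟨σ₁, hQ, fun r _ code o k hb ha => ?_⟩
  obtain ⟨n₁, hn₁, k₁, e₁⟩ := h₁ r code _ k hb.2.1 ha.2.2.2
  refine ⟨n₁ + 1, by omega, k₁, ?_⟩
  rw [iterate_succ_apply, ostep_jz hb.1 ha.1, if_pos hx, e₁, OPr.len]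
  congr 2; omega

theorem OW.ifz_pos {x : ℕ} {a b : OPr} {σ : S} {t : ℕ} {Q : S → Prop} (hx : σ.R x ≠ 0)
    (h : OW O w ρ b σ t Q) : OW O w ρ (.ifz x a b) σ (t + 2) Q := by
  obtain ⟨σ₁, hQ, h₁⟩ := h
  refine ⟨σ₁, hQ, fun r _ code o k hb ha => ?_⟩
  obtain ⟨n₁, hn₁, k₁, e₁⟩ := h₁ r code _ k hb.2.2 ha.2.1
  refine ⟨n₁ + 1 + 1, by omega, k₁, ?_⟩
  rw [iterate_succ_apply', iterate_succ_apply, ostep_jz hb.1 ha.1, if_neg hx, e₁,
    ostep_jump ha.2.2.1, OPr.len]

theorem OW.loop_zero {x : ℕ} {a : OPr} {σ : S} {Q : S → Prop} (hx : σ.R x = 0) (h : Q σ) :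
    OW O w ρ (.loop x a) σ 1 Q := by
  refine ⟨σ, h, fun r _ code o k hb ha => ⟨1, le_rfl, k, ?_⟩⟩
  rw [iterate_one, ostep_jz hb.1 ha.1, if_pos hx, OPr.len]

theorem OW.loop_pos {x : ℕ} {a : OPr} {σ : S} {t₁ t₂ : ℕ} {Q : S → Prop} (hx : σ.R x ≠ 0)
    (h : OW O w ρ a σ t₁ fun σ' => OW O w ρ (.loop x a) σ' t₂ Q) :
    OW O w ρ (.loop x a) σ (t₁ + t₂ + 2) Q := by
  obtain ⟨σ₁, ⟨σ₂, hQ, h₂⟩, h₁⟩ := h
  refine ⟨σ₂, hQ, fun r _ code o k hb ha => ?_⟩
  obtain ⟨n₁, hn₁, k₁, e₁⟩ := h₁ r code _ k hb.2 ha.2.1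
  obtain ⟨n₂, hn₂, k₂, e₂⟩ := h₂ r code _ k₁ hb ha
  refine ⟨n₂ + (n₁ + 1 + 1), by omega, k₂, ?_⟩
  rw [iterate_add_apply, iterate_succ_apply', iterate_succ_apply, ostep_jz hb.1 ha.1, if_neg hx, e₁,
    ostep_jump ha.2.2, e₂]

/-- A whole program: after `T > t` steps the machine is halted in the final state. -/
theorem OW.run {p : OPr} {σ : S} {t : ℕ} {Q : S → Prop} (h : OW O w ρ p σ t Q) {r : ℕ} [NeZero r]
    (hr : p.Bd r) (k : ℕ) {T : ℕ} (hT : t < T) : ∃ σ' k', Q σ' ∧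
      (ostep ⟨r, p.comp r 0⟩ N O w ρ)^[T] ⟨cfg r 0 σ, k⟩ =
        ⟨⟨p.len, true, fun j => σ'.R j, σ'.m, σ'.d⟩, k'⟩ := by
  obtain ⟨σ', hQ, h⟩ := h
  obtain ⟨n, hn, k', e⟩ := h r (p.comp r 0) 0 k hr (by simpa using oat_comp p 0 [] [] rfl)
  refine ⟨σ', k', hQ, ?_⟩
  obtain ⟨m, rfl⟩ : ∃ m, T = m + (n + 1) := ⟨T - (n + 1), by omega⟩
  rw [iterate_add_apply, iterate_succ_apply', e, zero_add,
    ostep_end (by rw [OPr.length_comp]), ostep_halted _ rfl]

end Crest.Agent.R302.Ram
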