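import Crest.Agent.R302.ORamLang
import Crest.Agent.R302.OCore
import Crest.Agent.R302.Voc
import Crest.Agent.R309.RamIO

/-!
# Row 302: simulation of oracle stack programs on the oracle word RAM

Layout as in `R309/RamStk.lean`; the cells `6, …, 6 + N - 1` below `B = N + 6` are the scratch area read by the
queries.  Register `4` holds `B`, register `5` holds `2`; registers `7, 8, 10, 11, 14, 15` are scratch.
-/

set_option autoImplicit false

namespace Crest.Agent.R302.Ram

open Function Crest.Agent.Lib.PolyTime Crest.Agent.R309.Ram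

/-- Pop the selector bit into register `14`, copy the next `N` bits of the lane with pointer register `x` and
number `j` to the scratch area (`0` once the lane is empty), empty the lane, point register `7` to the area. -/
def qIn (x j : ℕ) : Pr :=
  .seq (ops [.load 14 x, .sub x x 3, .sub 14 14 2, .const 7 6, .sub 8 4 7])
    (.seq (.loop 8 (.seq (.op (.load 15 x)) (.seq (.ifz 15 .skip (ops [.sub x x 3, .sub 15 15 2]))
      (ops [.store 15 7, .add 7 7 2, .sub 8 8 2]))))
    (ops [.const 15 j, .add x 4 15, .const 7 6]))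

/-- Push the digits of register `10`, least significant first. -/
def qOut (x : ℕ) : Pr :=
  .loop 10 (ops [.rem 11 10 5, .add x x 3, .add 15 11 2, .store 15 x, .quot 10 10 5])

/-- Compilation of oracle stack programs. -/
def occ {K : Type} (f : K → ℕ) : OCmd K → OPr
  | .base c => .base (cc f c)
  | .query k => .seq (.base (qIn (16 + f k) (f k)))
      (.seq (.ifz 14 (.query false 7 10) (.query true 7 10)) (.base (qOut (16 + f k))))
  | .seq a b => .seq (occ f a) (occ f b)
  | .case k cN cF cT => .seq (.base (.op (.load 15 (16 + f k)))) (.ifz 15 (occ f cN)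
      (.seq (.base (.op (.sub (16 + f k) (16 + f k) 3))) (.seq (.base (.op (.sub 15 15 2)))
        (.ifz 15 (occ f cF) (occ f cT)))))
  | .loop k cF cT => .seq (.base (.op (.load 15 (16 + f k)))) (.loop 15
      (.seq (.base (.op (.sub (16 + f k) (16 + f k) 3))) (.seq (.base (.op (.sub 15 15 2)))
        (.seq (.ifz 15 (occ f cF) (occ f cT)) (.base (.op (.load 15 (16 + f k))))))))

/-- The machine state represents the stacks `s`, and the extra constants are in place. -/
def ORep {K : Type} (f : K → ℕ) (B κ : ℕ) (s : St K) (σ : S) : Prop :=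
  R309.Ram.Rep f B κ s σ ∧ σ.R 4 = B ∧ σ.R 5 = 2

variable {N : ℕ} {O : Bool → Finset (Fin N) → ℕ} {w : ℕ} {ρ : ℕ → ℕ} {B κ H : ℕ}
  {K : Type} [DecidableEq K] {f : K → ℕ}

theorem Stk_base {m : ℕ → ℕ} {a κ : ℕ} {l : List Bool} (h : Stk m a κ l) : Stk m a κ [] := by
  induction l with
  | nil => exact h
  | cons b l ih => exact ih h.2

omit [DecidableEq K] in
theorem ORep.set {s : St K} {σ : S} (h : ORep f B κ s σ) {d : ℕ} (hd : 5 < d) (hd' : d < 16)
    (v : ℕ) : ORep f B κ s ⟨update σ.R d v, σ.m, σ.d⟩ := by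
  obtain ⟨⟨h2, h3, hk⟩, h4, h5⟩ := h
  refine ⟨⟨?_, ?_, fun k => ⟨?_, (hk k).2⟩⟩, ?_, ?_⟩ <;> simp only [] <;>
    rw [update_of_ne (by omega)]
  exacts [h2, h3, (hk k).1, h4, h5]

omit [DecidableEq K] in
theorem ORep.store {s : St K} {σ : S} (h : ORep f B κ s σ) {a : ℕ} (ha : a < B) (v : ℕ) :
    ORep f B κ s ⟨σ.R, update σ.m a v, σ.d⟩ :=
  ⟨⟨h.1.1, h.1.2.1, fun k => ⟨(h.1.2.2 k).1, (h.1.2.2 k).2.update _ fun i _ => by omega⟩⟩, h.2⟩

theorem ORep.ptr (hf : Injective f) {s : St K} {σ : S} (h : ORep f B κ s σ) {k : K} {l : List Bool}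
    {m : ℕ → ℕ} (hl : Stk m (B + f k) κ l) (hm : ∀ k', k' ≠ k → Stk m (B + f k') κ (s k')) :
    ORep f B κ (update s k l) ⟨update σ.R (16 + f k) (B + f k + κ * l.length), m, σ.d⟩ := by
  obtain ⟨⟨h2, h3, hk⟩, h4, h5⟩ := h
  refine ⟨⟨?_, ?_, fun k' => ?_⟩, ?_, ?_⟩
  · simp only []; rwa [update_of_ne (by omega)]
  · simp only []; rwa [update_of_ne (by omega)]
  · simp only []
    by_cases e : k' = k
    · subst e
      rw [update_self, update_self]
      exact ⟨rfl, hl⟩
    · rw [update_of_ne e, update_of_ne (fun e' => e (hf (by omega)))]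
      exact ⟨(hk k').1, hm k' e⟩
  · simp only []; rwa [update_of_ne (by omega)]
  · simp only []; rwa [update_of_ne (by omega)]

omit [DecidableEq K] in
theorem ORep.keep {s s' : St K} {σ σ' : S} (h : ORep f B κ s σ) (h1 : R309.Ram.Rep f B κ s' σ')
    (h2 : Keep B κ σ σ') : ORep f B κ s' σ' :=
  ⟨h1, (h2.1 4 (by omega)).trans h.2.1, (h2.1 5 (by omega)).trans h.2.2⟩

/-- Pop a bit into register `15` (`0` if the lane is empty). -/
theorem popD_spec (hf : Injective f) {s : St K} {k : K} {σ : S} (hσ : ORep f B κ s σ) {c : Pr}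
    {t : ℕ} {Q : S → Prop} (h : ∀ σ', ORep f B κ (update s k (s k).tail) σ' → Keep B κ σ σ' →
      σ'.R 15 = ((s k).headD false).toNat → W w ρ c σ' t Q) :
    W w ρ (.seq (.op (.load 15 (16 + f k))) (.seq (.ifz 15 .skip
      (ops [.sub (16 + f k) (16 + f k) 3, .sub 15 15 2])) c)) σ (t + 5) Q := by
  obtain ⟨h1, h2⟩ := hσ.1.load (w := w) (ρ := ρ) (16 + f k)
  rcases hs : s k with _ | ⟨b, r⟩
  · have h3 := hσ.1.load_nil (w := w) (ρ := ρ) hs
    refine (W.step (W.seq (W.ifz_zero h3 (W.skip (h _ ?_ h2 ?_))))).time (by omega)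
    · rw [hs, List.tail_nil, ← hs, update_eq_self]
      exact hσ.keep h1 h2
    · rw [h3, hs]; rfl
  · have h3 := hσ.1.load_cons (w := w) (ρ := ρ) hs
    obtain ⟨h4, h5, h6⟩ := h1.pop (w := w) (ρ := ρ) hf hs h3
    have key := h _ (by rw [hs]; exact hσ.keep h4 (h2.trans h5)) (h2.trans h5)
      (by rw [hs]; exact h6)
    exact (W.step (W.seq (W.ifz_pos (by rw [h3]; omega)
      (W.ops (l := [_, _]) key)))).time (by simp; omega)

/-- Loop invariant with `i` rounds left (`W.loop`): registers `7 = 6 + (N - i)`, `8 = i`, `14 = b.toNat`,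
`ORep (update s k (l.drop (N - i)))`, cells `6 + j` hold `(l.getD j false).toNat` for `j < N - i`.  The stores hit
addresses `< B`, so `Stk.update` keeps all lanes; `Stk m a κ l → m a = 0` (induction) gives the emptied lane. -/
theorem qIn_spec (hB : B = N + 6) (hw : B + κ * (H + 1) < 2 ^ w) (hf : Injective f)
    (hfκ : ∀ k, f k < κ) {s : St K} {k : K} {b : Bool} {l : List Bool} (hs : s k = b :: l) {σ : S}
    (hσ : ORep f B κ s σ) :
    W w ρ (qIn (16 + f k) (f k)) σ (10 * N + 9) fun σ' => ORep f B κ (update s k []) σ' ∧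
      σ'.R 14 = b.toNat ∧ σ'.R 7 = 6 ∧ ∀ j < N, σ'.m (6 + j) = (l.getD j false).toNat := by
  have hκ := hfκ k
  have hw1 : B + κ < 2 ^ w := by nlinarith
  have e6 : 6 % 2 ^ w = 6 := Nat.mod_eq_of_lt (by omega)
  obtain ⟨⟨h2, h3, hk⟩, h4, h5⟩ := id hσ
  obtain ⟨hx, hst⟩ := hk k
  rw [hs] at hx hst
  have n2 : (2 : ℕ) ≠ 16 + f k := by omega
  have n4 : (4 : ℕ) ≠ 16 + f k := by omega
  have n14 : (14 : ℕ) ≠ 16 + f k := by omega
  have n7 : (7 : ℕ) ≠ 16 + f k := by omega
  have e1 : B + f k + κ * (l.length + 1) - κ = B + f k + κ * l.length := by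
    rw [Nat.mul_succ]; omega
  refine W.time (W.seq (t₂ := N * (8 + 2) + 1 + 3) (W.ops (l := [_, _, _, _, _]) (W.bind
    (W.loop (t := 8) (fun i σ' => i ≤ N ∧ σ'.R 7 = 6 + (N - i) ∧ σ'.R 8 = i ∧ σ'.R 14 = b.toNat ∧
      ORep f B κ (update s k (l.drop (N - i))) σ' ∧
      ∀ j < N - i, σ'.m (6 + j) = (l.getD j false).toNat) (fun σ' h' => h'.2.2.1) ?_ N _ ?_) ?_)))
    (by simp only [List.length_cons, List.length_nil]; omega)
  · rintro i σ' ⟨a1, a7, a8, a14, aR, am⟩
    refine ⟨by omega, popD_spec (t := 3) hf aR fun σ₁ b1 b2 b3 => W.ops (l := [_, _, _]) ?_⟩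
    have c7 : σ₁.R 7 = 6 + (N - (i + 1)) := (b2.1 7 (by omega)).trans a7
    have c8 : σ₁.R 8 = i + 1 := (b2.1 8 (by omega)).trans a8
    have c14 : σ₁.R 14 = b.toNat := (b2.1 14 (by omega)).trans a14
    have c2 : σ₁.R 2 = 1 := b1.1.1
    have e2 : N - i = N - (i + 1) + 1 := by omega
    have e3 : (6 + (N - (i + 1)) + 1) % 2 ^ w = 6 + (N - i) := by
      rw [Nat.mod_eq_of_lt (by omega)]; omega
    rw [update_self, update_idem, List.tail_drop, ← e2] at b1
    rw [update_self, List.headD_eq_head?_getD, List.head?_drop, ← List.getD_eq_getElem?_getD] at b3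
    refine ⟨by omega, by simp [Op.ex, c7, c2, e3], by simp [Op.ex, c8, c2],
      by simp [Op.ex, c14], ?_, fun j hj => ?_⟩
    · exact ((b1.store (a := σ₁.R 7) (by omega) _).set (by omega) (by omega) _).set (by omega)
        (by omega) _
    · simp only [List.foldl_cons, List.foldl_nil, Op.ex, c7]
      by_cases hj' : j = N - (i + 1)
      · rw [hj', update_self, b3]
      · rw [update_of_ne (by omega), b2.2.1 _ (by omega)]
        exact am j (by omega)
  · refine ⟨le_rfl, by simp [Op.ex, e6], by simp [Op.ex, e6, update_of_ne n4, h4, hB], ?_, ?_,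
      by simp⟩
    · simp [Op.ex, update_of_ne n2, update_of_ne n14, h2, hx, hst.1]
    · have := ((((hσ.set (d := 14) (by omega) (by omega) (σ.m (σ.R (16 + f k)))).ptr hf hst.2
        fun k' _ => (hk k').2).set (d := 14) (by omega) (by omega) b.toNat).set (d := 7) (by omega)
        (by omega) 6).set (d := 8) (by omega) (by omega) N
      simpa [Op.ex, e6, update_of_ne n4, update_of_ne n2, update_of_ne n14, update_of_ne n14.symm,
        h4, h2, h3, hx, hst.1, e1, show B - 6 = N by omega] using this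
  · rintro σ' ⟨-, -, -, a14, aR, am⟩
    have e2 : f k % 2 ^ w = f k := Nat.mod_eq_of_lt (by omega)
    have e3 : (B + f k) % 2 ^ w = B + f k := Nat.mod_eq_of_lt (by omega)
    refine W.ops (l := [_, _, _]) ⟨?_, by simp [Op.ex, update_of_ne n14, a14], by simp [Op.ex, e6],
      am⟩
    have := ((aR.set (d := 15) (by omega) (by omega) (f k)).ptr hf (k := k) (l := [])
      (Stk_base (aR.1.2.2 k).2) fun k' _ => (aR.1.2.2 k').2).set (d := 7) (by omega) (by omega) 6
    simpa [Op.ex, e6, e2, e3, aR.2.1] using this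

/-- Induction on the digits as in `encDig_spec` (`bits_pos`, `toNat_decide`), with the `push` case of
`sim_aux` for the other lanes (`lane_ne`). -/
theorem qOut_spec (hw : B + κ * (H + 1) < 2 ^ w) (hf : Injective f) (hfκ : ∀ k, f k < κ) (k : K)
    (bs : List Bool) : ∀ (s : St K) (σ : S), (σ.R 10).bits = bs → ORep f B κ s σ →
      (s k).length + bs.length ≤ H →
      W w ρ (qOut (16 + f k)) σ (7 * bs.length + 1) (ORep f B κ (update s k (bs.reverse ++ s k))) := by
  induction bs with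
  | nil =>
    intro s σ hx h _
    refine W.loop_zero ?_ (by simpa using h)
    by_contra h0
    rw [bits_pos h0] at hx
    cases hx
  | cons b bs ih =>
    intro s σ hx h hH
    have h0 : σ.R 10 ≠ 0 := by
      intro h0
      rw [h0, Nat.zero_bits] at hx
      cases hx
    rw [bits_pos h0] at hx
    obtain ⟨hb, hbs⟩ := List.cons.inj hx
    simp only [List.length_cons] at hH ⊢
    have hκ := hfκ k
    obtain ⟨⟨h2, h3, hk⟩, h4, h5⟩ := id h
    have a1 : κ * ((s k).length + 2) ≤ κ * (H + 1) := Nat.mul_le_mul_left _ (by omega)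
    have a2 : (B + f k + κ * (s k).length + κ) % 2 ^ w = B + f k + κ * ((s k).length + 1) := by
      rw [Nat.mod_eq_of_lt (by nlinarith)]; ring
    have a4 : (b.toNat + 1) % 2 ^ w = b.toNat + 1 := by
      have := b.toNat_le
      exact Nat.mod_eq_of_lt (by nlinarith)
    have a5 : σ.R 10 % 2 = b.toNat := by rw [← hb, ← toNat_decide]
    have n2 : (2 : ℕ) ≠ 16 + f k := by omega
    have n5 : (5 : ℕ) ≠ 16 + f k := by omega
    have n10 : (10 : ℕ) ≠ 16 + f k := by omega
    have n11 : (11 : ℕ) ≠ 16 + f k := by omega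
    have n15 : (15 : ℕ) ≠ 16 + f k := by omega
    refine W.time (W.loop_pos (t₂ := 7 * bs.length + 1) h0 (W.ops (l := [_, _, _, _, _])
      ((ih (update s k (b :: s k)) _ ?_ ?_ (by simp; omega)).mono le_rfl fun σ' h' => ?_)))
      (by simp only [List.length_cons, List.length_nil]; omega)
    · simp [Op.ex, update_of_ne n5, update_of_ne n10, h5, hbs]
    · have := (((h.set (d := 11) (by omega) (by omega) b.toNat).ptr hf
        ((hk k).2.push (by omega) b) fun k' e => (hk k').2.update _ fun i _ =>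
          lane_ne (hfκ k') hκ fun e' => e (hf e')).set (d := 15) (by omega) (by omega)
          (b.toNat + 1)).set (d := 10) (by omega) (by omega) (σ.R 10 / 2)
      simpa [Op.ex, update_of_ne n2, update_of_ne n5, update_of_ne n10, update_of_ne n11,
        update_of_ne n11.symm, update_of_ne n15.symm, h2, h3, h5, (hk k).1, a2, a4, a5] using this
    · simpa using h'

theorem osim_aux (hB : B = N + 6) (hw : B + κ * (H + 1) < 2 ^ w) (hf : Injective f)
    (hfκ : ∀ k, f k < κ) {Oc : Orc} (hO : ∀ b l, Oc.f b l = O b (toS N l)) (hN : N ≤ Oc.s)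
    (hOw : ∀ b A, O b A < 2 ^ w) {c : OCmd K} {s s' : St K} {t : ℕ} (h : OExec Oc c s s' t) :
    (∀ k, (s k).length + t ≤ H) → ∀ σ, ORep f B κ s σ →
      OW O w ρ (occ f c) σ (20 * t) (ORep f B κ s') ∧
      ∀ k cF cT, c = .loop k cF cT →
        OW O w ρ (.loop 15 (.seq (.base (.op (.sub (16 + f k) (16 + f k) 3)))
          (.seq (.base (.op (.sub 15 15 2)))
          (.seq (.ifz 15 (occ f cF) (occ f cT)) (.base (.op (.load 15 (16 + f k))))))))
          ((Op.load 15 (16 + f k)).ex w ρ σ) (20 * t - 1) (ORep f B κ s') := by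
  induction h with
  | base h =>
    intro hH σ hσ
    exact ⟨(OW.base (sim hw hf hfκ h hH hσ.1)).mono (by omega) fun σ' h' => hσ.keep h'.1 h'.2,
      by rintro _ _ _ ⟨⟩⟩
  | @query k s b l hs =>
    intro hH σ hσ
    refine ⟨?_, by rintro _ _ _ ⟨⟩⟩
    have hl := Oc.length_bits_le b l
    have hH' := hH k
    refine OW.time (OW.bind (t₂ := 1 + 2 + (7 * (Oc.f b l).bits.length + 1))
      (OW.base (qIn_spec hB hw hf hfκ hs hσ)) ?_) (by omega)
    rintro σ₁ ⟨a1, a14, a7, am⟩
    have key : ∀ b', b = b' → OW O w ρ (.query b' 7 10) σ₁ 1 fun σ₂ =>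
        OW O w ρ (.base (qOut (16 + f k))) σ₂ (7 * (Oc.f b l).bits.length + 1)
          (ORep f B κ (update s k (Oc.f b l).bits.reverse)) := by
      rintro b' rfl
      have e : (Finset.univ.filter fun j : Fin N => σ₁.m (σ₁.R 7 + j.val) ≠ 0) = toS N l := by
        ext j
        simp only [toS, Finset.mem_filter, Finset.mem_univ, true_and, a7, am j j.2]
        cases l.getD j false <;> simp
      refine OW.query (OW.base ?_)
      rw [e, Nat.mod_eq_of_lt (hOw _ _), ← hO]
      have := qOut_spec (ρ := ρ) hw hf hfκ k (Oc.f b l).bits (update s k []) _ (by simp)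
        (a1.set (d := 10) (by omega) (by omega) (Oc.f b l)) (by simp; omega)
      simpa using this
    cases b
    · exact OW.seq (OW.ifz_zero a14 (key _ rfl))
    · exact OW.seq (OW.ifz_pos (by rw [a14]; simp) (key _ rfl))
  | @seq c₁ c₂ s s' s'' t₁ t₂ h₁ h₂ ih₁ ih₂ =>
    intro hH σ hσ
    refine ⟨OW.time (OW.bind (ih₁ (fun k => by have := hH k; omega) σ hσ).1 fun σ₁ hσ₁ =>
      (ih₂ (fun k => by have := hH k; have := h₁.length_le k; omega) σ₁ hσ₁).1) (by omega),
      by rintro _ _ _ ⟨⟩⟩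
  | @caseN k cN cF cT s s' t hs h₁ ih =>
    intro hH σ hσ
    obtain ⟨h1, h2⟩ := hσ.1.load (w := w) (ρ := ρ) (16 + f k)
    refine ⟨OW.time (OW.step (OW.ifz_zero (hσ.1.load_nil hs)
      (ih (fun k => by have := hH k; omega) _ (hσ.keep h1 h2)).1)) (by omega), by rintro _ _ _ ⟨⟩⟩
  | @caseF k cN cF cT s s' t r hs h₁ ih =>
    intro hH σ hσ
    obtain ⟨h1, h2⟩ := hσ.1.load (w := w) (ρ := ρ) (16 + f k)
    have h3 := hσ.1.load_cons (w := w) (ρ := ρ) hs
    obtain ⟨h4, h5, h6⟩ := h1.pop (w := w) (ρ := ρ) hf hs h3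
    have h7 : ∀ k', (update s k r k').length + t ≤ H := fun k' => by
      have := hH k'; have := length_update_le s k k' r 0 (by simp [hs]); omega
    refine ⟨OW.time (OW.step (OW.ifz_pos (by rw [h3]; omega) (OW.step (OW.step (OW.ifz_zero h6
      (ih h7 _ (hσ.keep h4 (h2.trans h5))).1))))) (by omega), by rintro _ _ _ ⟨⟩⟩
  | @caseT k cN cF cT s s' t r hs h₁ ih =>
    intro hH σ hσ
    obtain ⟨h1, h2⟩ := hσ.1.load (w := w) (ρ := ρ) (16 + f k)
    have h3 := hσ.1.load_cons (w := w) (ρ := ρ) hs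
    obtain ⟨h4, h5, h6⟩ := h1.pop (w := w) (ρ := ρ) hf hs h3
    have h7 : ∀ k', (update s k r k').length + t ≤ H := fun k' => by
      have := hH k'; have := length_update_le s k k' r 0 (by simp [hs]); omega
    refine ⟨OW.time (OW.step (OW.ifz_pos (by rw [h3]; omega) (OW.step (OW.step
      (OW.ifz_pos (by rw [h6]; simp) (ih h7 _ (hσ.keep h4 (h2.trans h5))).1))))) (by omega),
      by rintro _ _ _ ⟨⟩⟩
  | @loopN k cF cT s hs =>
    intro hH σ hσ
    obtain ⟨h1, h2⟩ := hσ.1.load (w := w) (ρ := ρ) (16 + f k)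
    have key := OW.loop_zero (O := O) (w := w) (ρ := ρ)
      (a := .seq (.base (.op (.sub (16 + f k) (16 + f k) 3))) (.seq (.base (.op (.sub 15 15 2)))
          (.seq (.ifz 15 (occ f cF) (occ f cT)) (.base (.op (.load 15 (16 + f k)))))))
      (Q := ORep f B κ s) (hσ.1.load_nil (w := w) (ρ := ρ) hs) (hσ.keep h1 h2)
    refine ⟨(OW.step key).time (by omega), ?_⟩
    rintro _ _ _ ⟨⟩
    exact key.time (by omega)
  | @loopF k cF cT s s' s'' t₁ t₂ r hs h₁ h₂ ih₁ ih₂ =>
    intro hH σ hσ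
    obtain ⟨h1, h2⟩ := hσ.1.load (w := w) (ρ := ρ) (16 + f k)
    have h3 := hσ.1.load_cons (w := w) (ρ := ρ) hs
    obtain ⟨h4, h5, h6⟩ := h1.pop (w := w) (ρ := ρ) hf hs h3
    have h7 : ∀ k', (update s k r k').length + t₁ + t₂ ≤ H := fun k' => by
      have := hH k'; have := length_update_le s k k' r 0 (by simp [hs]); omega
    have key := OW.loop_pos (Q := ORep f B κ s'') (by rw [h3]; omega)
      (OW.step (OW.step (OW.bind (OW.ifz_zero (b := occ f cT) h6
        (ih₁ (fun k' => by have := h7 k'; omega) _ (hσ.keep h4 (h2.trans h5))).1)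
        fun σ₁ hσ₁ => OW.op
          ((ih₂ (fun k' => by have := h7 k'; have := h₁.length_le k'; omega) σ₁ hσ₁).2
            k cF cT rfl))))
    refine ⟨(OW.step key).time (by omega), ?_⟩
    rintro _ _ _ ⟨⟩
    exact key.time (by omega)
  | @loopT k cF cT s s' s'' t₁ t₂ r hs h₁ h₂ ih₁ ih₂ =>
    intro hH σ hσ
    obtain ⟨h1, h2⟩ := hσ.1.load (w := w) (ρ := ρ) (16 + f k)
    have h3 := hσ.1.load_cons (w := w) (ρ := ρ) hs
    obtain ⟨h4, h5, h6⟩ := h1.pop (w := w) (ρ := ρ) hf hs h3
    have h7 : ∀ k', (update s k r k').length + t₁ + t₂ ≤ H := fun k' => by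
      have := hH k'; have := length_update_le s k k' r 0 (by simp [hs]); omega
    have key := OW.loop_pos (Q := ORep f B κ s'') (by rw [h3]; omega)
      (OW.step (OW.step (OW.bind (OW.ifz_pos (a := occ f cF) (by rw [h6]; simp)
        (ih₁ (fun k' => by have := h7 k'; omega) _ (hσ.keep h4 (h2.trans h5))).1)
        fun σ₁ hσ₁ => OW.op
          ((ih₂ (fun k' => by have := h7 k'; have := h₁.length_le k'; omega) σ₁ hσ₁).2
            k cF cT rfl))))
    refine ⟨(OW.step key).time (by omega), ?_⟩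
    rintro _ _ _ ⟨⟩
    exact key.time (by omega)
  | mono _ ht ih =>
    intro hH σ hσ
    obtain ⟨h1, h2⟩ := ih (fun k => by have := hH k; omega) σ hσ
    exact ⟨h1.time (by omega), fun k cF cT e => (h2 k cF cT e).time (by omega)⟩

/-- **Simulation of oracle stack programs.**  Copy `R309.Ram.sim_aux` (cases seq, case, loop, mono) with `OW`;
`base` is `OW.base (sim ..)` (`Keep` preserves registers `4`, `5`), `query` is `qIn_spec`, `OW.query`, `qOut_spec`
(`Orc.length_bits_le`). -/
theorem osim (hB : B = N + 6) (hw : B + κ * (H + 1) < 2 ^ w) (hf : Injective f) (hfκ : ∀ k, f k < κ)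
    {Oc : Orc} (hO : ∀ b l, Oc.f b l = O b (toS N l)) (hN : N ≤ Oc.s) (hOw : ∀ b A, O b A < 2 ^ w)
    {c : OCmd K} {s s' : St K} {t : ℕ} (h : OExec Oc c s s' t) (hH : ∀ k, (s k).length + t ≤ H)
    {σ : S} (hσ : ORep f B κ s σ) : OW O w ρ (occ f c) σ (20 * t) (ORep f B κ s') := by
  exact (osim_aux hB hw hf hfκ hO hN hOw h hH σ hσ).1

end Crest.Agent.R302.Ram
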