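import Crest.Agent.R302.Impl

/-!
# Row 302: elementary facts on the parameters

`k = z ^ 10`, `om j = 2 ^ (j / k) * (k + j % k)`.  Use `z ≤ 2 ^ z` for the crude exponential bounds.
`|y a| ≤ 2 ^ L` on the base polytope: `y a ≤ ρ {a}` and `-y a = y (univ.erase a) ≤ ρ _`.
-/

set_option autoImplicit false

namespace Crest.Agent.R302.Pre

open Finset Crest.Agent.R309 Crest.Agent.Lib.PolyTime

variable {p : Pre} {ρ : Finset p.V → ℤ}

theorem OK.N_le (h : p.OK ρ) : p.n + p.n + 1 ≤ p.z := by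
  have := h.size; nlinarith
theorem OK.L_le (h : p.OK ρ) : p.L + 2 ≤ p.z := by
  have := h.size; nlinarith
theorem OK.Mt_le (h : p.OK ρ) : p.Mt + 1 ≤ p.z := by
  have := h.size; unfold Mt N; nlinarith
theorem OK.zZ_ge (h : p.OK ρ) : 64 ≤ p.zZ := by unfold zZ; exact_mod_cast h.z_ge
theorem OK.zR_ge (h : p.OK ρ) : (64 : ℝ) ≤ p.z := by exact_mod_cast h.z_ge
theorem gam_M (p : Pre) (s : ℕ) : (p.gam s).M = p.Mt := by simp [gam, Inst.M, Inst.us]
theorem gam_nv (p : Pre) (s : ℕ) : (p.gam s).nv = p.nv := rfl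
theorem card_V (p : Pre) : Fintype.card p.V = p.n + p.n := Fintype.card_fin _

theorem OK.par_k (h : p.OK ρ) : 0 < p.z ^ 10 := pow_pos (by have := h.z_ge; omega) _
theorem par_step {k : ℕ} (hk : 0 < k) (j : ℕ) :
    2 ^ ((j + 1) / k) * (k + (j + 1) % k) = 2 ^ (j / k) * (k + j % k + 1) := by
  have h1 := Nat.mod_add_div j k
  have h2 := Nat.mod_lt j hk
  rcases Nat.lt_or_ge (j % k + 1) k with h | h
  · obtain ⟨e1, e2⟩ := (Nat.div_mod_unique (a := j + 1) (d := j / k) (c := j % k + 1) hk).2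
      ⟨by omega, h⟩
    rw [e1, e2, add_assoc]
  · obtain ⟨e1, e2⟩ := (Nat.div_mod_unique (a := j + 1) (d := j / k + 1) (c := 0) hk).2
      ⟨by rw [mul_add]; omega, hk⟩
    rw [e1, e2, pow_succ, show k + j % k + 1 = 2 * k by omega]
    ring
theorem OK.par_zpow (h : p.OK ρ) {m : ℕ} (hm0 : 0 < m) (hm : m ≤ p.z ^ 2) :
    p.zZ ^ m + 1 ≤ 2 ^ p.z ^ 3 := by
  have h1 : p.z ^ m < (2 ^ p.z) ^ m := Nat.pow_lt_pow_left Nat.lt_two_pow_self hm0.ne'
  have h2 : (2 ^ p.z) ^ m ≤ 2 ^ p.z ^ 3 := by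
    rw [← pow_mul]
    refine Nat.pow_le_pow_right (by omega) ?_
    rw [pow_succ' _ 2]
    exact Nat.mul_le_mul_left _ hm
  unfold zZ
  exact_mod_cast h1.trans_le h2

theorem OK.om_pos (h : p.OK ρ) (j : ℕ) : 0 < p.om j := by
  have := h.par_k
  unfold om
  positivity
theorem OK.om_zero (h : p.OK ρ) : p.om 0 = p.zZ ^ 10 := by
  simp [om, zZ]
theorem OK.om_succ (h : p.OK ρ) (j : ℕ) :
    p.zZ ^ 10 * p.om (j + 1) ≤ (p.zZ ^ 10 + 1) * p.om j ∧
      (2 * p.zZ ^ 10 + 1) * p.om j ≤ 2 * p.zZ ^ 10 * p.om (j + 1) := by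
  have h1 : p.om (j + 1) = 2 ^ (j / p.z ^ 10) * ((p.z ^ 10 + j % p.z ^ 10 : ℕ) + 1 : ℤ) := by
    unfold om
    exact_mod_cast par_step h.par_k j
  have h2 : ((j % p.z ^ 10 : ℕ) : ℤ) < p.zZ ^ 10 := by
    unfold zZ
    exact_mod_cast Nat.mod_lt j h.par_k
  have h3 : (0 : ℤ) ≤ ((j % p.z ^ 10 : ℕ) : ℤ) := Int.natCast_nonneg _
  have h4 : (0 : ℤ) < 2 ^ (j / p.z ^ 10) := by positivity
  rw [h1, om, Nat.cast_add, Nat.cast_pow, show (p.z : ℤ) = p.zZ from rfl]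
  generalize ((j % p.z ^ 10 : ℕ) : ℤ) = r at *
  generalize (2 : ℤ) ^ (j / p.z ^ 10) = t at *
  generalize p.zZ ^ 10 = k at *
  constructor
  · nlinarith [mul_nonneg h4.le h3]
  · nlinarith [mul_nonneg h4.le (sub_nonneg.2 h2.le)]
theorem OK.om_mono (h : p.OK ρ) {i j : ℕ} (hij : i ≤ j) : p.om i ≤ p.om j := by
  refine monotone_nat_of_le_succ (f := p.om) (fun j => ?_) hij
  have h1 := (h.om_succ j).2
  have h2 := h.om_pos j
  have h3 : 0 < p.zZ ^ 10 := pow_pos (by linarith [h.zZ_ge]) _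
  refine le_of_mul_le_mul_left (a := 2 * p.zZ ^ 10) ?_ (by positivity)
  linarith
theorem OK.om_J (h : p.OK ρ) : p.om p.J = 2 ^ (3 * p.z) * p.zZ ^ 10 := by
  have e : p.J = 3 * p.z * p.z ^ 10 := by unfold J; ring
  unfold om zZ
  rw [e, Nat.mul_div_cancel _ h.par_k, Nat.mul_mod_left]
  simp
theorem OK.hb_nonneg (h : p.OK ρ) (j : ℕ) : 0 ≤ p.hb j := by
  exact Int.ediv_nonneg (h.om_pos j).le (pow_nonneg (by linarith [h.zZ_ge]) _)
theorem OK.hb_zero (h : p.OK ρ) : p.hb 0 = 0 := by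
  have h1 := h.zZ_ge
  have h3 : 0 < p.zZ ^ 10 := pow_pos (by linarith) _
  unfold hb
  rw [h.om_zero]
  refine Int.ediv_eq_zero_of_lt h3.le ?_
  rw [pow_succ _ 10]
  nlinarith
theorem OK.hb_le (h : p.OK ρ) {j : ℕ} (hj : j ≤ p.J) : p.hb j ≤ 2 ^ (3 * p.z) := by
  have h1 := h.zZ_ge
  have h3 : 0 < p.zZ ^ 10 := pow_pos (by linarith) _
  refine Int.ediv_le_of_le_mul (pow_pos (by linarith) _) ((h.om_mono hj).trans ?_)
  rw [h.om_J, pow_succ _ 10]
  refine mul_le_mul_of_nonneg_left ?_ (by positivity)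
  nlinarith
theorem OK.le_hb_J (h : p.OK ρ) : 2 * 2 ^ p.L ≤ p.hb p.J := by
  have h1 := h.zZ_ge
  have h3 : 0 < p.zZ ^ 10 := pow_pos (by linarith) _
  refine Int.le_ediv_of_mul_le (pow_pos (by linarith) _) ?_
  rw [h.om_J, pow_succ' _ 10, ← mul_assoc]
  refine mul_le_mul_of_nonneg_right ?_ h3.le
  have h4 : 2 * 2 ^ p.L * p.z ≤ 2 ^ (3 * p.z) := by
    have := h.L_le
    calc 2 * 2 ^ p.L * p.z ≤ 2 ^ (p.L + 1) * 2 ^ p.z := by
          rw [pow_succ']
          exact Nat.mul_le_mul_left _ Nat.lt_two_pow_self.le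
      _ ≤ _ := by
          rw [← pow_add]
          exact Nat.pow_le_pow_right (by omega) (by omega)
  unfold zZ
  exact_mod_cast h4

theorem jj_le (p : Pre) (s e : ℕ) : p.jj s e ≤ p.J := min_le_left _ _
theorem jj_zero (p : Pre) (e : ℕ) : p.jj 0 e = 0 := by simp [jj]
theorem OK.cell_lt (h : p.OK ρ) {s : ℕ} (hs : s < p.S) : p.cell s < p.n := by
  exact Nat.div_lt_of_lt_mul (by rwa [mul_comm])
theorem OK.jj_succ (h : p.OK ρ) (s : ℕ) :
    p.jj s (p.cell s) < p.J ∧ p.jj (s + 1) (p.cell s) = p.jj s (p.cell s) + 1 ∧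
      ∀ e, e ≠ p.cell s → p.jj (s + 1) e = p.jj s e := by
  have hJ : 0 < p.J := by
    have := h.z_ge
    unfold J
    positivity
  have h1 := Nat.div_add_mod' s p.J
  have h2 := Nat.mod_lt s hJ
  unfold jj cell
  refine ⟨by omega, by omega, fun e he => ?_⟩
  rcases Nat.lt_or_gt_of_ne he with h3 | h3
  · have := Nat.mul_le_mul_right p.J (Nat.succ_le_of_lt h3)
    rw [Nat.succ_mul] at this
    omega
  · have := Nat.mul_le_mul_right p.J (Nat.succ_le_of_lt h3)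
    rw [Nat.succ_mul] at this
    omega
theorem jj_S (p : Pre) (e : Fin p.n) : p.jj p.S e = p.J := by
  have := Nat.mul_le_mul_right p.J (Nat.succ_le_of_lt e.2)
  rw [Nat.succ_mul] at this
  unfold jj S
  omega
theorem OK.S_le (h : p.OK ρ) : p.S ≤ p.z ^ 13 := by
  have h1 := h.N_le
  have h2 := h.z_ge
  unfold S J
  calc p.n * (3 * p.z ^ 11) ≤ p.z * (p.z * p.z ^ 11) :=
        Nat.mul_le_mul (by omega) (Nat.mul_le_mul_right _ (by omega))
    _ = _ := by ring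

theorem OK.lo_le_hi (h : p.OK ρ) (s : ℕ) (e : Fin p.n) : p.lo s e ≤ p.hi s e := by
  have := h.hb_nonneg (p.jj s e)
  simp only [lo, hi, loN, hiN]; omega
theorem OK.c_mem (h : p.OK ρ) (s : ℕ) : p.cF ∈ box (p.lo s) (p.hi s) := by
  refine mem_box.2 fun e => ?_
  have := h.hb_nonneg (p.jj s e)
  simp only [lo, hi, loN, hiN, cF]; omega
theorem OK.box_zero (h : p.OK ρ) : box (p.lo 0) (p.hi 0) = {p.cF} := by
  ext X
  simp only [mem_box, mem_singleton, lo, hi, loN, hiN, jj_zero, h.hb_zero, sub_zero, add_zero,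
    funext_iff, cF]
  exact forall_congr' fun e => by omega
theorem OK.card_box (h : p.OK ρ) (s : ℕ) : (box (p.lo s) (p.hi s)).card ≤ 2 ^ p.z ^ 3 := by
  have h1 := h.N_le
  have h2 := h.z_ge
  unfold R309.box
  rw [Fintype.card_piFinset]
  calc ∏ e, (Icc (p.lo s e) (p.hi s e)).card ≤ ∏ _e : Fin p.n, 2 ^ (3 * p.z + 2) := by
        refine prod_le_prod' fun e _ => ?_
        rw [Int.card_Icc, Int.toNat_le]
        have h3 := h.hb_le (p.jj_le s e)
        have h4 : (1 : ℤ) ≤ 2 ^ (3 * p.z) := one_le_pow₀ (by norm_num)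
        simp only [lo, hi, loN, hiN]
        push_cast
        rw [pow_add]
        linarith
    _ ≤ _ := by
        rw [prod_const, card_univ, Fintype.card_fin, ← pow_mul]
        refine Nat.pow_le_pow_right (by omega) ?_
        calc (3 * p.z + 2) * p.n ≤ p.z * p.z * p.z := Nat.mul_le_mul (by nlinarith) (by omega)
          _ = _ := by ring

theorem u_ne_v (p : Pre) (e : Fin p.n) : p.u e ≠ p.v e := by
  intro h
  have h1 := congrArg Fin.val h
  have h2 := e.2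
  simp only [u, v, Fin.val_natAdd, Fin.val_castAdd] at h1
  omega
theorem par_vu (p : Pre) (e e' : Fin p.n) : p.v e ≠ p.u e' := by
  intro h
  have h1 := congrArg Fin.val h
  have h2 := e.2
  simp only [u, v, Fin.val_natAdd, Fin.val_castAdd] at h1
  omega
theorem par_vv (p : Pre) (e e' : Fin p.n) : p.v e = p.v e' ↔ e = e' := by simp [v]
theorem par_uu (p : Pre) (e e' : Fin p.n) : p.u e = p.u e' ↔ e = e' := by simp [u]
theorem par_sum (p : Pre) (g : p.V → ℤ) : ∑ a, g a = ∑ e, g (p.v e) + ∑ e, g (p.u e) :=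
  Fin.sum_univ_add g
theorem par_cases (p : Pre) (a : p.V) : (∃ e, a = p.v e) ∨ ∃ e, a = p.u e :=
  Fin.addCases (fun e => Or.inl ⟨e, rfl⟩) (fun e => Or.inr ⟨e, rfl⟩) a
theorem neg_del_v (p : Pre) (X : Fin p.n → ℤ) (e : Fin p.n) : (-del p.u p.v X) (p.v e) = X e := by
  simp only [del, Pi.neg_apply, Finset.sum_apply, Pi.smul_apply, Pi.sub_apply, ev,
    Pi.single_apply, smul_eq_mul]
  rw [sum_eq_single e]
  · simp [p.par_vu]
  · intro e' _ he
    simp [p.par_vu, p.par_vv, he.symm]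
  · simp
theorem neg_del_u (p : Pre) (X : Fin p.n → ℤ) (e : Fin p.n) : (-del p.u p.v X) (p.u e) = -X e := by
  simp only [del, Pi.neg_apply, Finset.sum_apply, Pi.smul_apply, Pi.sub_apply, ev,
    Pi.single_apply, smul_eq_mul]
  rw [sum_eq_single e]
  · simp [(p.par_vu _ _).symm]
  · intro e' _ he
    simp [(p.par_vu _ _).symm, p.par_uu, he.symm]
  · simp
theorem push_eq (p : Pre) (y : p.V → ℤ) (e : Fin p.n) :
    push (piN p.n) y e = y (p.v e) + y (p.u e) := by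
  unfold push
  rw [sum_filter, p.par_sum]
  simp only [piN, u, v, Fin.addCases_left, Fin.addCases_right, id, sum_ite_eq', mem_univ, if_true]
theorem eq_neg_del (p : Pre) {y : p.V → ℤ} (hy : ∀ e, push (piN p.n) y e = 0) :
    y = -del p.u p.v fun e => y (p.v e) := by
  funext a
  rcases p.par_cases a with ⟨e, rfl⟩ | ⟨e, rfl⟩
  · rw [neg_del_v]
  · have := hy e
    rw [push_eq] at this
    rw [neg_del_u]
    omega
theorem par_yN (p : Pre) (X : List ℤ) (b : p.V) :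
    (if (b : ℕ) < p.n then X.getD b 0 else -X.getD (b - p.n) 0) =
      (-del p.u p.v (vecL p.n X) : p.V → ℤ) b := by
  rcases p.par_cases b with ⟨e, rfl⟩ | ⟨e, rfl⟩
  · rw [neg_del_v]
    simp [v, vecL]
  · rw [neg_del_u]
    simp [u, vecL]
theorem yN_eq (p : Pre) (X : List ℤ) (a w b : p.V) :
    p.yN X a w b = (-ev w + ev a - del p.u p.v (vecL p.n X) : p.V → ℤ) b := by
  have h1 : (-ev w + ev a - del p.u p.v (vecL p.n X) : p.V → ℤ) b =
      (if (b : ℕ) = a then 1 else 0) - (if (b : ℕ) = w then 1 else 0) +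
        (-del p.u p.v (vecL p.n X) : p.V → ℤ) b := by
    simp only [Pi.sub_apply, Pi.add_apply, Pi.neg_apply, ev, Pi.single_apply, Fin.ext_iff]
    ring
  rw [h1, ← par_yN]
  rfl
theorem yN_zero (p : Pre) (X : List ℤ) (b : p.V) :
    p.yN X 0 0 b = (-del p.u p.v (vecL p.n X) : p.V → ℤ) b := by
  rw [← par_yN]
  simp only [yN, sub_self, zero_add]
theorem vecL_ofFn {m : ℕ} (X : Fin m → ℤ) : vecL m (List.ofFn X) = X :=
  funext fun i => getD_ofFn X 0 i
theorem c0_eq (p : Pre) : p.c0 = List.ofFn p.cF := tab_eq_ofFn _ _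
theorem sm_state (p : Pre) (X : Fin p.n → ℤ) (a w : p.V) :
    sm (-ev w + ev a - del p.u p.v X) univ = 0 := by
  rw [sm_sub, sm_add, sm_neg, sm_ev, sm_ev, sm_del]; simp
theorem cF_eq (p : Pre) (e : Fin p.n) : p.cF e = p.ys (p.v e) := rfl

theorem abs_le_of_inB (hb : ∀ S, |ρ S| ≤ 2 ^ p.L) {y : p.V → ℤ} (hy : InB ρ y) (a : p.V) :
    |y a| ≤ 2 ^ p.L := by
  have h1 := hy.1 {a}
  have h2 := hy.1 (univ.erase a)
  have h3 := hy.2
  have h4 := abs_le.1 (hb {a})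
  have h5 := abs_le.1 (hb (univ.erase a))
  unfold sm at h1 h2 h3
  rw [sum_singleton] at h1
  rw [← add_sum_erase _ _ (mem_univ a)] at h3
  rw [abs_le]
  constructor <;> linarith [h4.2, h5.2]
theorem OK.c_abs (h : p.OK ρ) (e : Fin p.n) : |p.c e| ≤ 2 ^ p.L :=
  abs_le_of_inB h.bd h.cen.inB (p.v e)
theorem OK.y0_near (h : p.OK ρ) : ∑ a, |(-del p.u p.v p.cF) a - p.ys a| ≤ p.zZ ^ 4 := by
  refine le_trans (le_of_eq ?_) h.cen.near
  rw [p.par_sum]
  simp only [neg_del_v, neg_del_u, cF_eq, sub_self, abs_zero, sum_const_zero, zero_add, push_eq]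
  refine sum_congr rfl fun e _ => ?_
  rw [← abs_neg]
  congr 1
  ring
theorem OK.mem_sol (h : p.OK ρ) {X : Fin p.n → ℤ} : X ∈ p.sol ρ ↔ InB ρ (-del p.u p.v X) := by
  classical
  unfold sol
  rw [mem_filter, and_iff_right_iff_imp]
  intro hX
  refine mem_box.2 fun e => ?_
  have := abs_le_of_inB h.bd hX (p.v e)
  rw [neg_del_v] at this
  exact abs_le.1 this
theorem OK.sol_nonempty (h : p.OK ρ) : (p.sol ρ).Nonempty := by
  obtain ⟨x, hx⟩ := h.ex
  exact ⟨fun e => x (p.v e), h.mem_sol.2 (p.eq_neg_del hx.2 ▸ hx.1)⟩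
theorem OK.sol_subset (h : p.OK ρ) : p.sol ρ ⊆ box (p.lo p.S) (p.hi p.S) := by
  intro X hX
  refine mem_box.2 fun e => ?_
  have h1 := abs_le_of_inB h.bd (h.mem_sol.1 hX) (p.v e)
  rw [neg_del_v] at h1
  have h2 := abs_le.1 (h.c_abs e)
  have h3 := h.le_hb_J
  have h4 := abs_le.1 h1
  simp only [lo, hi, loN, hiN, jj_S]
  constructor <;> linarith [h2.1, h2.2, h4.1, h4.2]

theorem wall_m (ρ : Finset p.V → ℤ) {k : ℕ} (hk : k < p.L) :
    (p.wall ρ).m k = p.zZ ^ (10 * (p.L - k)) := getD_tab _ _ hk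
theorem wall_τ (ρ : Finset p.V → ℤ) {k : ℕ} (hk : k < p.L) :
    (p.wall ρ).τ k = p.zZ ^ (61 + 10 * p.L - 5 * k) := getD_tab _ _ hk
theorem wall_P (ρ : Finset p.V → ℤ) : (p.wall ρ).P = p.PP := rfl
theorem wall_lv (ρ : Finset p.V → ℤ) : (p.wall ρ).lv = p.lv := rfl
theorem wall_ρ (ρ : Finset p.V → ℤ) : (p.wall ρ).ρ = ρ := rfl
theorem lv_L (p : Pre) : p.lv.L = p.L := rfl
theorem OK.lv_val (h : p.OK ρ) {k : ℕ} (hk : k ≤ p.L) (a : p.V) :
    (p.lv.cls k a : ℕ) = clsN p.cls k a := lvL_val (h.cls_lt k hk a a.2)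
theorem OK.D0_pos (h : p.OK ρ) : 0 < p.D0 := pow_pos (by linarith [h.zZ_ge]) _
theorem OK.wall_ok (h : p.OK ρ) : (p.wall ρ).OK := by
  have h1 : 0 < p.zZ := by linarith [h.zZ_ge]
  refine ⟨h.nrm, fun k hk => ?_, fun k hk => ?_, ?_⟩
  · rw [wall_m ρ hk]; positivity
  · rw [wall_τ ρ hk]; positivity
  · exact (mul_pos (pow_pos h1 _) h.D0_pos).le
theorem OK.PP_le (h : p.OK ρ) : p.PP + 1 ≤ 2 ^ p.z ^ 3 := by
  have h1 := h.L_le
  have h2 := h.z_ge
  unfold PP D0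
  rw [← pow_add]
  exact h.par_zpow (by omega) (by nlinarith)
theorem OK.sc_pos (h : p.OK ρ) (s t : ℕ) : 0 < p.sc s t := by
  have h1 : 0 < p.zZ := by linarith [h.zZ_ge]
  unfold sc Wd
  split_ifs
  · exact h.om_pos _
  · positivity
theorem OK.sc_le (h : p.OK ρ) (s : ℕ) {t : ℕ} (ht : t < p.Mt) : p.sc s t ≤ 2 ^ p.z ^ 3 := by
  have h1 := h.L_le
  have h2 := h.z_ge
  unfold sc Wd
  split_ifs with h3
  · refine (h.om_mono (p.jj_le s t)).trans ?_
    rw [h.om_J]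
    have h4 : 2 ^ (3 * p.z) * p.z ^ 10 ≤ 2 ^ p.z ^ 3 :=
      calc 2 ^ (3 * p.z) * p.z ^ 10 ≤ 2 ^ (3 * p.z) * (2 ^ p.z) ^ 10 :=
            Nat.mul_le_mul_left _ (Nat.pow_le_pow_left Nat.lt_two_pow_self.le _)
        _ ≤ _ := by
            rw [← pow_mul, ← pow_add]
            refine Nat.pow_le_pow_right (by omega) ?_
            calc 3 * p.z + p.z * 10 = p.z * 13 := by ring
              _ ≤ p.z * (p.z * p.z) := Nat.mul_le_mul_left _ (by nlinarith)
              _ = _ := by ring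
    unfold zZ
    exact_mod_cast h4
  · have h4 : (t - p.n) / p.N < p.L + 1 := by
      refine Nat.div_lt_of_lt_mul ?_
      unfold Mt at ht
      rw [mul_comm]
      omega
    rw [← pow_add]
    exact (Int.le_add_one le_rfl).trans (h.par_zpow (by omega) (by nlinarith))

end Crest.Agent.R302.Pre
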