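import Crest.Agent.R302.LorH
import Crest.Agent.R302.FPa
import Crest.Agent.R309.RP

/-!
# Row 302: the restricted Poincaré inequality

Adapt `R309/RP.lean`.  `θ a = 1 / ω a`, `γ = -ev w`, `∑ c, θ c / Z c ≤ N / lam`;
`DG gt ≤ 3 Dun + 3 Djump + 6 (M + N) Vr` (`rp_three`), and
`μ' g - π g = μ' (g - gt) + (μ' gt - μ gt) + (μ gt - π gt) + π (gt - g)` with squares at most `18 Vr`,
`162 Λ (N / lam) DG / κ` (`tiltG`, `H = 1`; zero if `ψ = 1`), `4 (N / lam) DG / κ` (`classG`) and `2 Vr`.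
-/

set_option autoImplicit false
set_option maxHeartbeats 800000

namespace Crest.Agent.R302

open Finset Crest.Agent.R309

variable {V : Type} [Fintype V] [DecidableEq V] {M : ℕ}

/-- State space. -/
noncomputable def Om (V : Type) [Fintype V] (lo hi : Fin M → ℤ) : Finset ((Fin M → ℤ) × V) :=
  box lo hi ×ˢ univ

/-- Weight of a state of the chain with anti-token `w`. -/
noncomputable def Wt (u v : Fin M → V) (f : Fin M → ℤ → ℝ) (F : (V → ℤ) → ℝ) (w : V) (ω : V → ℝ)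
    (x : (Fin M → ℤ) × V) : ℝ :=
  wt f x.1 * F (-ev w + ev x.2 - del u v x.1) * ω x.2

variable {u v : Fin M → V} {lo hi : Fin M → ℤ} {f : Fin M → ℤ → ℝ} {thin : Fin M → Prop} {κ : ℝ}
  {F : (V → ℤ) → ℝ} {cl : V → V}

omit [DecidableEq V] in
theorem mem_Om {x : (Fin M → ℤ) × V} : x ∈ Om V lo hi ↔ x.1 ∈ box lo hi := by simp [Om]

theorem sum_Wt (w : V) (ω : V → ℝ) (G : (Fin M → ℤ) × V → ℝ) :
    ∑ x ∈ Om V lo hi, Wt u v f F w ω x * G x =
      ∑ a, ω a * SG u v lo hi f F (-ev w + ev a) fun X => G (X, a) := by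
  rw [Om, sum_product_right]
  refine sum_congr rfl fun a _ => ?_
  rw [SG, mul_sum]
  exact sum_congr rfl fun X _ => by simp only [Wt]; ring

theorem rpg_edge {α : Type} [DecidableEq α] {Ω : Finset α} {W : α → ℝ} (hW : ∀ x ∈ Ω, 0 < W x)
    (g : α → ℝ) {x y : α} (hx : x ∈ Ω) (hy : y ∈ Ω) (a b : ℝ) :
    min (W x) (W y) * (a - b) ^ 2 ≤
      3 * edge Ω W g x y + 3 * (W x * (g x - a) ^ 2) + 3 * (W y * (g y - b) ^ 2) := by
  rw [edge, if_pos ⟨hx, hy⟩]
  have q0 : 0 ≤ min (W x) (W y) := le_min (hW x hx).le (hW y hy).le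
  have r1 := mul_le_mul_of_nonneg_left (Mdl.rp_three a b (g x) (g y)) q0
  have r2 := mul_le_mul_of_nonneg_right (min_le_left (W x) (W y)) (sq_nonneg (g x - a))
  have r3 := mul_le_mul_of_nonneg_right (min_le_right (W x) (W y)) (sq_nonneg (g y - b))
  linarith

theorem rpg_slice (b : V) (G : (Fin M → ℤ) × V → ℝ) :
    ∑ x ∈ Om V lo hi with x.2 = b, G x = ∑ X ∈ box lo hi, G (X, b) := by
  rw [sum_filter, Om, sum_product]
  exact sum_congr rfl fun X _ => by simp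

theorem rpg_DG_nonneg (hf : LC lo hi f thin κ) (hF : ∀ y, 0 < F y) {θ : V → ℝ} (hθ : ∀ a, 0 < θ a)
    (γ : V → ℤ) (g : (Fin M → ℤ) → V → ℝ) : 0 ≤ DG u v lo hi f thin F θ γ g := by
  refine add_nonneg (sum_nonneg fun e _ => sum_nonneg fun X hX => ?_)
    (sum_nonneg fun X hX => sum_nonneg fun a _ => sum_nonneg fun b _ => ?_)
  · exact mul_nonneg (mul_nonneg (le_min
      (div_nonneg (hf.wt_pos (mem_filter.1 hX).1).le (hθ _).le)
      (div_nonneg (hf.wt_pos (mem_filter.1 hX).2).le (hθ _).le)) (hF _).le) (sq_nonneg _)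
  · exact mul_nonneg (mul_nonneg (hf.wt_pos hX).le (le_min (div_nonneg (hF _).le (hθ _).le)
      (div_nonneg (hF _).le (hθ _).le))) (sq_nonneg _)

theorem rpg_DG_le (hf : LC lo hi f thin κ) (hF : ∀ y, 0 < F y) (w : V) (ω : V → ℝ)
    (hω : ∀ a, 0 < ω a) (g : (Fin M → ℤ) × V → ℝ) (gt : (Fin M → ℤ) → V → ℝ) :
    DG u v lo hi f thin F (fun a => 1 / ω a) (-ev w) gt ≤
      3 * Dun (Om V lo hi) (Wt u v f F w ω) g u v +
        3 * Dpa (Om V lo hi) (Wt u v f F w ω) g (fun _ _ => 0) + 6 * (M + Fintype.card V) *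
          ∑ x ∈ Om V lo hi, Wt u v f F w ω x * (g x - gt x.1 x.2) ^ 2 := by
  classical
  have hW : ∀ x ∈ Om V lo hi, 0 < Wt u v f F w ω x := fun x hx =>
    mul_pos (mul_pos (hf.wt_pos (mem_Om.1 hx)) (hF _)) (hω _)
  set W := Wt u v f F w ω with hWd
  set R : V → ℝ := fun a => ∑ X ∈ box lo hi, W (X, a) * (g (X, a) - gt X a) ^ 2 with hR
  have hVr : ∑ x ∈ Om V lo hi, W x * (g x - gt x.1 x.2) ^ 2 = ∑ a, R a := by
    rw [Om, sum_product_right]
  have hterm : ∀ a, ∀ X ∈ box lo hi, 0 ≤ W (X, a) * (g (X, a) - gt X a) ^ 2 := fun a X hX =>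
    mul_nonneg (hW _ (mem_Om.2 hX)).le (sq_nonneg _)
  have hR1 : ∀ a, R a ≤ ∑ a, R a := fun a =>
    single_le_sum (f := R) (fun a _ => sum_nonneg (hterm a)) (mem_univ a)
  rw [hVr]
  have key : ∀ e, ∑ X ∈ (box lo hi).filter (fun X => X + ec e ∈ box lo hi),
      min (W (X, v e)) (W (X + ec e, u e)) * (gt X (v e) - gt (X + ec e) (u e)) ^ 2 ≤
      3 * (∑ X ∈ box lo hi, edge (Om V lo hi) W g (X, v e) (X + ec e, u e)) + 6 * ∑ a, R a := by
    intro e
    set A := (box lo hi).filter (fun X => X + ec e ∈ box lo hi) with hA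
    have h1 : ∑ X ∈ A, edge (Om V lo hi) W g (X, v e) (X + ec e, u e) ≤
        ∑ X ∈ box lo hi, edge (Om V lo hi) W g (X, v e) (X + ec e, u e) :=
      sum_le_sum_of_subset_of_nonneg (filter_subset _ _) fun X _ _ => edge_nonneg hW g _ _
    have h2 : ∑ X ∈ A, W (X, v e) * (g (X, v e) - gt X (v e)) ^ 2 ≤ R (v e) :=
      sum_le_sum_of_subset_of_nonneg (filter_subset _ _) fun X hX _ => hterm _ X hX
    have h3 : ∑ X ∈ A, W (X + ec e, u e) * (g (X + ec e, u e) - gt (X + ec e) (u e)) ^ 2 ≤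
        R (u e) := by
      have := sum_le_sum_of_subset_of_nonneg (s := A.image fun X => X + ec e) (t := box lo hi)
        (f := fun X => W (X, u e) * (g (X, u e) - gt X (u e)) ^ 2)
        (fun x hx => by
          obtain ⟨X, hX, rfl⟩ := mem_image.1 hx
          exact (mem_filter.1 hX).2) fun x hx _ => hterm _ x hx
      rwa [sum_image fun X _ Y _ h => add_right_cancel h] at this
    refine (sum_le_sum fun X hX => rpg_edge hW g (x := (X, v e)) (y := (X + ec e, u e))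
      (mem_Om.2 (mem_filter.1 hX).1) (mem_Om.2 (mem_filter.1 hX).2) _ _).trans ?_
    rw [sum_add_distrib, sum_add_distrib, ← mul_sum, ← mul_sum, ← mul_sum]
    linarith [hR1 (u e), hR1 (v e)]
  have k1 : ∑ e ∈ univ.filter thin, ∑ X ∈ (box lo hi).filter (fun X => X + ec e ∈ box lo hi),
      min (wt f X / (1 / ω (v e))) (wt f (X + ec e) / (1 / ω (u e))) *
        F (-ev w + ev (v e) - del u v X) * (gt X (v e) - gt (X + ec e) (u e)) ^ 2 ≤
      3 * Dun (Om V lo hi) W g u v + 6 * M * ∑ a, R a := by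
    have e1 : ∀ e X, min (wt f X / (1 / ω (v e))) (wt f (X + ec e) / (1 / ω (u e))) *
        F (-ev w + ev (v e) - del u v X) = min (W (X, v e)) (W (X + ec e, u e)) := by
      intro e X
      have : -ev w + ev (u e) - del u v (X + ec e) = -ev w + ev (v e) - del u v X := by
        rw [del_add, del_ec]; abel
      rw [min_mul_of_nonneg _ _ (hF _).le]
      simp only [hWd, Wt, this, one_div, div_inv_eq_mul, mul_right_comm]
    simp only [e1]
    refine (sum_le_sum_of_subset_of_nonneg (filter_subset _ _) fun e _ _ => ?_).trans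
      ((sum_le_sum fun e _ => key e).trans (le_of_eq ?_))
    · exact sum_nonneg fun X hX => mul_nonneg (le_min (hW _ (mem_Om.2 (mem_filter.1 hX).1)).le
        (hW _ (mem_Om.2 (mem_filter.1 hX).2)).le) (sq_nonneg _)
    · simp only [Dun, rpg_slice]
      rw [sum_add_distrib, ← mul_sum, sum_const, card_univ, Fintype.card_fin, nsmul_eq_mul]
      ring
  have k2 : ∑ X ∈ box lo hi, ∑ a, ∑ b, wt f X * min (F (-ev w + ev a - del u v X) / (1 / ω a))
      (F (-ev w + ev b - del u v X) / (1 / ω b)) * (gt X a - gt X b) ^ 2 ≤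
      3 * Dpa (Om V lo hi) W g (fun _ _ => 0) + 6 * Fintype.card V * ∑ a, R a := by
    calc _ ≤ ∑ X ∈ box lo hi, ∑ a, ∑ b, (3 * edge (Om V lo hi) W g (X, a) (X, b) +
          3 * (W (X, a) * (g (X, a) - gt X a) ^ 2) + 3 * (W (X, b) * (g (X, b) - gt X b) ^ 2)) := by
          refine sum_le_sum fun X hX => sum_le_sum fun a _ => sum_le_sum fun b _ => ?_
          refine le_trans (le_of_eq ?_) (rpg_edge hW g (x := (X, a)) (y := (X, b))
            (mem_Om.2 hX) (mem_Om.2 hX) _ _)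
          rw [mul_min_of_nonneg _ _ (hf.wt_pos hX).le]
          simp only [hWd, Wt, one_div, div_inv_eq_mul, mul_assoc]
      _ = _ := by
          have e1 : Dpa (Om V lo hi) W g (fun _ _ => 0) =
              ∑ X ∈ box lo hi, ∑ a, ∑ b, edge (Om V lo hi) W g (X, a) (X, b) := by
            simp only [Dpa, rpg_slice, add_zero]
            rw [sum_comm, sum_comm (s := box lo hi)]
            exact sum_congr rfl fun a _ => sum_comm
          have e2 : ∑ a, R a = ∑ X ∈ box lo hi, ∑ a, W (X, a) * (g (X, a) - gt X a) ^ 2 := sum_comm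
          rw [e1, e2, mul_sum, mul_sum, ← sum_add_distrib]
          refine sum_congr rfl fun X _ => ?_
          generalize hT : (fun a => W (X, a) * (g (X, a) - gt X a) ^ 2) = T
          simp only [fun a => congrFun hT a, sum_add_distrib, sum_const, card_univ, nsmul_eq_mul]
          simp only [← mul_sum]
          ring
  refine (add_le_add k1 k2).trans (le_of_eq ?_)
  ring

theorem rp (huv : ∀ e, u e ≠ v e) (hb : ∀ e, lo e ≤ hi e) (hf : LC lo hi f thin κ)
    (hκ0 : 0 < κ) (hκ1 : κ ≤ 1 / 2) (hF : Base F cl κ) (w : V) (ω : V → ℝ) (hω : ∀ a, 0 < ω a)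
    {lam : ℝ} (hl0 : 0 < lam) (hlow : ∀ a, lam ≤ ω a * ZG u v lo hi f F (-ev w + ev a))
    (hw : 1 / 2 ≤ ω w * ZG u v lo hi f F (-ev w + ev w))
    (e₀ : Fin M) (ψ : ℤ → ℝ) {Λ : ℝ} (hΛ0 : 0 ≤ Λ)
    (hψ : ∀ x, lo e₀ ≤ x → x ≤ hi e₀ → 0 ≤ ψ x ∧ ψ x ≤ 1)
    (hΛ : ∀ x, lo e₀ ≤ x → x < hi e₀ → ((hi e₀ - lo e₀ + 1 : ℤ) : ℝ) * |ψ (x + 1) - ψ x| ≤ Λ)
    (hmean : ZG u v lo hi f F (-ev w + ev w) ≤
      9 * SG u v lo hi f F (-ev w + ev w) fun X => ψ (X e₀))
    (hv : v e₀ = w ∨ ∀ x, ψ x = 1) (g : (Fin M → ℤ) × V → ℝ) (gt : (Fin M → ℤ) → V → ℝ)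
    (hg : Inv u v lo hi thin gt) (hj : ∀ X ∈ box lo hi, ∀ a b, cl a = cl b → gt X a = gt X b)
    {Vr : ℝ} (hVr : ∑ x ∈ Om V lo hi, Wt u v f F w ω x * (g x - gt x.1 x.2) ^ 2 ≤ Vr) :
    ((SG u v lo hi f F (-ev w + ev w) fun X => ψ (X e₀) * g (X, w)) /
          (SG u v lo hi f F (-ev w + ev w) fun X => ψ (X e₀)) -
        (∑ x ∈ Om V lo hi, Wt u v f F w ω x * g x) / ∑ x ∈ Om V lo hi, Wt u v f F w ω x) ^ 2 ≤
      4 * (20 * Vr + (162 * Λ + 4) * (Fintype.card V / (lam * κ)) *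
        (3 * Dun (Om V lo hi) (Wt u v f F w ω) g u v +
          3 * Dpa (Om V lo hi) (Wt u v f F w ω) g (fun _ _ => 0) +
          6 * (M + Fintype.card V) * Vr)) := by
  classical
  have hW : ∀ x ∈ Om V lo hi, 0 < Wt u v f F w ω x := fun x hx =>
    mul_pos (mul_pos (hf.wt_pos (mem_Om.1 hx)) (hF.pos _)) (hω _)
  have hZ : ∀ β, 0 < ZG u v lo hi f F β := ZG_pos hb hf hF.pos
  have hθ : ∀ a, 0 < 1 / ω a := fun a => one_div_pos.2 (hω a)
  have hγ : sm (-ev w) univ = -1 := by rw [sm_neg, sm_ev]; simp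
  have hD1 := rpg_DG_le (u := u) (v := v) hf hF.pos w ω hω g gt
  have hD0 := rpg_DG_nonneg (u := u) (v := v) hf hF.pos hθ (-ev w) gt
  have hcl := classG huv hb hf hκ0 hκ1 hF _ hθ _ hγ gt hg hj w
  have htl := tiltG huv hb hf hκ0 hκ1 hF _ hθ _ hγ gt hg hj e₀ ψ (H := 1) hΛ0
    (fun x x' h1 h2 h3 h4 => by
      have := hψ x h1 h2
      have := hψ x' h3 h4
      rw [abs_le]; constructor <;> linarith) hΛ
  set Dt := DG u v lo hi f thin F (fun a => 1 / ω a) (-ev w) gt with hDt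
  set Z : V → ℝ := fun a => ZG u v lo hi f F (-ev w + ev a) with hZd
  set N : ℝ := (Fintype.card V : ℝ) with hN
  have hN0 : 0 ≤ N := Nat.cast_nonneg _
  have hterm : ∀ x ∈ Om V lo hi, 0 ≤ Wt u v f F w ω x * (g x - gt x.1 x.2) ^ 2 := fun x hx =>
    mul_nonneg (hW x hx).le (sq_nonneg _)
  have hVr0 : 0 ≤ Vr := (sum_nonneg hterm).trans hVr
  have hΘ : ∑ c, 1 / ω c / Z c ≤ N / lam := by
    calc ∑ c, 1 / ω c / Z c ≤ ∑ _c : V, 1 / lam := sum_le_sum fun c _ => by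
          rw [div_div]; exact one_div_le_one_div_of_le hl0 (hlow c)
      _ = N / lam := by rw [sum_const, card_univ, nsmul_eq_mul]; ring
  have hΘD : (∑ c, 1 / ω c / Z c) * (Dt / κ) ≤ N / (lam * κ) * Dt := by
    calc (∑ c, 1 / ω c / Z c) * (Dt / κ) ≤ N / lam * (Dt / κ) :=
          mul_le_mul_of_nonneg_right hΘ (div_nonneg hD0 hκ0.le)
      _ = N / (lam * κ) * Dt := by field_simp
  have hWtot : ∑ x ∈ Om V lo hi, Wt u v f F w ω x = ∑ a, ω a * Z a := by
    have := sum_Wt (u := u) (v := v) (lo := lo) (hi := hi) (f := f) (F := F) w ω fun _ => 1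
    simp only [mul_one] at this
    exact this
  have hZ' : ∀ a, 0 < ω a * Z a := fun a => mul_pos (hω a) (hZ _)
  have hWt : 1 / 2 ≤ ∑ x ∈ Om V lo hi, Wt u v f F w ω x := by
    rw [hWtot]
    exact hw.trans (single_le_sum (f := fun a => ω a * Z a) (fun a _ => (hZ' a).le) (mem_univ w))
  have hψ' : ∀ X ∈ box lo hi, 0 ≤ ψ (X e₀) ∧ ψ (X e₀) ≤ 1 := fun X hX =>
    hψ _ (mem_box.1 hX e₀).1 (mem_box.1 hX e₀).2
  have hwt : ∀ X ∈ box lo hi, 0 < wt f X * F (-ev w + ev w - del u v X) := fun X hX =>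
    mul_pos (hf.wt_pos hX) (hF.pos _)
  set S := SG u v lo hi f F (-ev w + ev w) fun X => ψ (X e₀) with hSdef
  have hS0 : 0 < S := by linarith [hZ (-ev w + ev w)]
  set Wtot := ∑ x ∈ Om V lo hi, Wt u v f F w ω x with hWtdef
  have hWt0 : 0 < Wtot := by linarith
  set a₁ := (SG u v lo hi f F (-ev w + ev w) fun X => ψ (X e₀) * g (X, w)) / S with ha₁
  set a₂ := (SG u v lo hi f F (-ev w + ev w) fun X => ψ (X e₀) * gt X w) / S with ha₂
  set a₃ := (SG u v lo hi f F (-ev w + ev w) fun X => gt X w) / ZG u v lo hi f F (-ev w + ev w)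
    with ha₃
  set a₄ := (∑ x ∈ Om V lo hi, Wt u v f F w ω x * gt x.1 x.2) / Wtot with ha₄
  set a₅ := (∑ x ∈ Om V lo hi, Wt u v f F w ω x * g x) / Wtot with ha₅
  have T1 : (a₁ - a₂) ^ 2 ≤ 18 * Vr := by
    have e : a₁ - a₂ = (∑ X ∈ box lo hi, wt f X * F (-ev w + ev w - del u v X) * ψ (X e₀) *
        (g (X, w) - gt X w)) / S := by
      rw [ha₁, ha₂, ← sub_div, SG_sub, SG]
      congr 1
      exact sum_congr rfl fun X _ => by ring
    rw [e]
    refine (Mdl.rp_jensen (box lo hi) (fun X => wt f X * F (-ev w + ev w - del u v X) * ψ (X e₀))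
      (fun X => g (X, w) - gt X w)
      (fun X hX => mul_nonneg (hwt X hX).le (hψ' X hX).1) hS0).trans ?_
    have h1 : ∑ X ∈ box lo hi, Wt u v f F w ω (X, w) * (g (X, w) - gt X w) ^ 2 ≤ Vr := by
      refine le_trans ?_ hVr
      rw [Om, sum_product_right]
      exact single_le_sum
        (f := fun a => ∑ X ∈ box lo hi, Wt u v f F w ω (X, a) * (g (X, a) - gt X a) ^ 2)
        (fun a _ => sum_nonneg fun X hX => hterm (X, a) (mem_Om.2 hX)) (mem_univ w)
    have h2 : ω w * ∑ X ∈ box lo hi, wt f X * F (-ev w + ev w - del u v X) * ψ (X e₀) *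
        (g (X, w) - gt X w) ^ 2 ≤ Vr := by
      refine le_trans ?_ h1
      rw [mul_sum]
      refine sum_le_sum fun X hX => ?_
      have p1 := mul_nonneg (mul_pos (hwt X hX) (hω w)).le (sq_nonneg (g (X, w) - gt X w))
      have p2 := mul_le_mul_of_nonneg_right (hψ' X hX).2 p1
      simp only [Wt]
      linarith
    have h3 : 1 / 2 ≤ ω w * (9 * S) := hw.trans (mul_le_mul_of_nonneg_left hmean (hω w).le)
    refine (div_le_iff₀ hS0).2 (le_of_mul_le_mul_left (h2.trans ?_) (hω w))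
    calc Vr = 2 * Vr * (1 / 2) := by ring
      _ ≤ 2 * Vr * (ω w * (9 * S)) := mul_le_mul_of_nonneg_left h3 (by positivity)
      _ = _ := by ring
  have T4 : (a₄ - a₅) ^ 2 ≤ 2 * Vr := by
    have e : a₅ - a₄ = (∑ x ∈ Om V lo hi, Wt u v f F w ω x * (g x - gt x.1 x.2)) / Wtot := by
      rw [ha₄, ha₅, ← sub_div, ← sum_sub_distrib]
      congr 1
      exact sum_congr rfl fun X _ => by ring
    rw [← neg_sub, neg_sq, e]
    refine (Mdl.rp_jensen (Om V lo hi) (Wt u v f F w ω) (fun x => g x - gt x.1 x.2)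
      (fun x hx => (hW x hx).le) hWt0).trans ?_
    rw [div_le_iff₀ hWt0]
    calc _ ≤ Vr := hVr
      _ = 2 * Vr * (1 / 2) := by ring
      _ ≤ _ := mul_le_mul_of_nonneg_left hWt (by positivity)
  have T3 : (a₃ - a₄) ^ 2 ≤ 4 * (N / (lam * κ) * Dt) := by
    have hcl' : ∀ a, (a₃ - (SG u v lo hi f F (-ev w + ev a) fun X => gt X a) / Z a) ^ 2 ≤
        4 * (N / (lam * κ) * Dt) := by
      intro a
      refine (hcl a).trans ?_
      rw [mul_assoc]
      exact mul_le_mul_of_nonneg_left hΘD (by norm_num)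
    have hpos : 0 < ∑ a, ω a * Z a := hWtot ▸ hWt0
    have e : a₃ - a₄ = (∑ a, ω a * Z a *
        (a₃ - (SG u v lo hi f F (-ev w + ev a) fun X => gt X a) / Z a)) / ∑ a, ω a * Z a := by
      have e1 : ∑ x ∈ Om V lo hi, Wt u v f F w ω x * gt x.1 x.2 = ∑ a, ω a * Z a *
          ((SG u v lo hi f F (-ev w + ev a) fun X => gt X a) / Z a) := by
        rw [sum_Wt]
        refine sum_congr rfl fun a _ => ?_
        rw [mul_assoc, mul_div_cancel₀ _ (hZ _).ne']
      simp only [mul_sub]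
      rw [sum_sub_distrib, ← sum_mul, sub_div, mul_div_cancel_left₀ _ hpos.ne', ha₄, e1, hWtot]
    rw [e]
    refine (Mdl.rp_jensen univ (fun a => ω a * Z a)
      (fun a => a₃ - (SG u v lo hi f F (-ev w + ev a) fun X => gt X a) / Z a)
      (fun a _ => (hZ' a).le) hpos).trans ?_
    rw [div_le_iff₀ hpos, mul_sum]
    exact sum_le_sum fun a _ => by
      rw [mul_comm]
      exact mul_le_mul_of_nonneg_right (hcl' a) (hZ' a).le
  have hND : 0 ≤ N / (lam * κ) * Dt := by positivity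
  have T2 : (a₂ - a₃) ^ 2 ≤ 162 * Λ * (N / (lam * κ) * Dt) := by
    rcases hv with hv | hv
    · rw [hv] at htl
      have e : a₂ - a₃ = ((SG u v lo hi f F (-ev w + ev w) fun X => ψ (X e₀) * gt X w) -
          S * (SG u v lo hi f F (-ev w + ev w) fun X => gt X w) /
            ZG u v lo hi f F (-ev w + ev w)) / S := by
        rw [ha₂, ha₃, sub_div, mul_div_assoc, mul_div_cancel_left₀ _ hS0.ne']
      rw [e, div_pow, div_le_iff₀ (by positivity)]
      refine htl.trans ?_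
      have h1 : Z w ^ 2 ≤ (9 * S) ^ 2 := pow_le_pow_left₀ (hZ _).le hmean 2
      calc 2 * 1 * Λ * Z w ^ 2 * (∑ c, 1 / ω c / Z c) * (Dt / κ)
          = 2 * Λ * Z w ^ 2 * ((∑ c, 1 / ω c / Z c) * (Dt / κ)) := by ring
        _ ≤ 2 * Λ * Z w ^ 2 * (N / (lam * κ) * Dt) :=
          mul_le_mul_of_nonneg_left hΘD (by positivity)
        _ ≤ 2 * Λ * (9 * S) ^ 2 * (N / (lam * κ) * Dt) := by gcongr
        _ = _ := by ring
    · have e : a₂ = a₃ := by
        rw [ha₂, ha₃, hSdef]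
        simp only [hv, one_mul]
        rfl
      rw [e, sub_self]
      have : 0 ≤ 162 * Λ * (N / (lam * κ) * Dt) := by positivity
      simpa using this
  have hD2 : Dt ≤ 3 * Dun (Om V lo hi) (Wt u v f F w ω) g u v +
      3 * Dpa (Om V lo hi) (Wt u v f F w ω) g (fun _ _ => 0) + 6 * (M + N) * Vr :=
    hD1.trans (by gcongr)
  have hfin := mul_le_mul_of_nonneg_left hD2
    (show 0 ≤ (162 * Λ + 4) * (N / (lam * κ)) by positivity)
  refine (Mdl.rp_four a₁ a₂ a₃ a₄ a₅).trans ?_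
  linarith

end Crest.Agent.R302
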