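import Crest.Agent.R302.Step
import Crest.Agent.R302.GamB
import Crest.Agent.R309.Run

/-!
# Row 302: one run of the chain

Adapt `R309/Run.lean`.  `run_close`: `Ex_foldT_iter`, `abs_iter_sub_le` with `step_close`, and `Mv.chain_mix` with `lam = 1 / (2 z^38)`,
`κ = 1/z^175`, `Λ = z^5`, `CF = z^202`, `η₀ = 1/z^400`, `C₁ = z^223`, `T = z^600` (`lc`, `base`, `fp`, `om_Z`, `sF_le`, `st_pos`, `u_ne_v`);
the fourth power of the error is `≤ 2 / z^167`.  `piE_mu`: `R309.Pre.run_ratio` with `δ = 18 / z^37`; `-ev w + ev w = 0`.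
`transit_close`: `SG_succ`, `psi_mem`, `psi_lip`, `Z_succ`, `crude`; the anti-token is `v e₀`, whose value is `cell i`.
-/

set_option autoImplicit false

namespace Crest.Agent.R302.Pre

open Finset Crest.Agent.R309 Crest.Agent.Lib.PolyTime

variable {p : Pre} {ρ : Finset p.V → ℤ}

theorem sum_Omg (s : ℕ) (φ : (Fin p.n → ℤ) × p.V → ℝ) :
    ∑ x ∈ p.Omg s, φ x = ∑ a, ∑ X ∈ box (p.lo s) (p.hi s), φ (X, a) := by
  rw [Omg, Om, sum_product_right]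

theorem sum_W (ρ : Finset p.V → ℤ) (s : ℕ) (w : p.V) (ω : p.V → ℝ)
    (φ : (Fin p.n → ℤ) × p.V → ℝ) :
    ∑ x ∈ p.Omg s, p.W ρ s w ω x * φ x = ∑ a, ω a * p.Sg ρ s a w fun X => φ (X, a) :=
  sum_Wt w ω φ

theorem sum_W_one (ρ : Finset p.V → ℤ) (s : ℕ) (w : p.V) (ω : p.V → ℝ) :
    ∑ x ∈ p.Omg s, p.W ρ s w ω x = ∑ a, ω a * p.Z ρ s a w := by
  have := sum_W ρ s w ω fun _ => 1
  simp only [mul_one] at this
  exact this

theorem mu_eq (ρ : Finset p.V → ℤ) (s : ℕ) (w : p.V) (g : List ℤ → ℝ) :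
    p.mu ρ s g = (p.Sg ρ s w w fun X => g (List.ofFn X)) / p.Z ρ s w w := by
  simp only [mu, Sg, Z, neg_add_cancel]

theorem run_C1 {z : ℝ} (hz : 64 ≤ z) :
    4 * (20 + (162 * z ^ 5 + 4) * (z / (1 / (2 * z ^ 38) * (1 / z ^ 175))) * (12 * z)) ≤ z ^ 223 := by
  have hz0 : 0 < z := by linarith
  have hz1 : 1 ≤ z := by linarith
  have e1 : z / (1 / (2 * z ^ 38) * (1 / z ^ 175)) = 2 * z ^ 214 := by field_simp
  have e2 : 162 * z ^ 5 + 4 ≤ 166 * z ^ 5 := by linarith [one_le_pow₀ (n := 5) hz1]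
  have e3 : (162 * z ^ 5 + 4) * (2 * z ^ 214) * (12 * z) ≤ 3984 * z ^ 220 := by
    calc _ ≤ 166 * z ^ 5 * (2 * z ^ 214) * (12 * z) := by gcongr
      _ = _ := by ring
  have e4 : (64 : ℝ) ^ 3 ≤ z ^ 3 := by gcongr
  have e5 : 1 ≤ z ^ 220 := one_le_pow₀ hz1
  rw [e1]
  calc _ ≤ 64 ^ 3 * z ^ 220 := by linarith
    _ ≤ z ^ 3 * z ^ 220 := by gcongr
    _ = _ := by ring

theorem run_mix {z E : ℝ} (hz : 64 ≤ z)
    (hE : E ^ 4 ≤ 2 * (z ^ 223 * (z ^ 202 + 1) * (80 * z ^ 2) * (18 * z)) * (324 * z) / z ^ 600 +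
      z ^ 223 * ((324 * z) ^ 2 * (1 / z ^ 400))) : |E| ≤ 1 / (2 * z ^ 35) := by
  have hz0 : 0 < z := by linarith
  have hz1 : 1 ≤ z := by linarith
  have h1 : z ^ 202 + 1 ≤ 2 * z ^ 202 := by linarith [one_le_pow₀ (n := 202) hz1]
  have h2 : 2 * (z ^ 223 * (z ^ 202 + 1) * (80 * z ^ 2) * (18 * z)) * (324 * z) / z ^ 600 ≤
      1866240 / z ^ 171 := by
    calc _ ≤ 2 * (z ^ 223 * (2 * z ^ 202) * (80 * z ^ 2) * (18 * z)) * (324 * z) / z ^ 600 := by gcongr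
      _ = _ := by field_simp; norm_num
  have h3 : z ^ 223 * ((324 * z) ^ 2 * (1 / z ^ 400)) ≤ 104976 / z ^ 171 := by
    calc _ = 104976 / z ^ 175 := by field_simp; norm_num
      _ ≤ _ := div_le_div_of_nonneg_left (by norm_num) (by positivity)
          (pow_le_pow_right₀ hz1 (by norm_num))
  have h4 : E ^ 4 ≤ (1 / (2 * z ^ 35)) ^ 4 := by
    refine (hE.trans (add_le_add h2 h3)).trans ?_
    rw [← add_div, div_pow, div_le_div_iff₀ (by positivity) (by positivity)]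
    have h5 : (64 : ℝ) ^ 5 ≤ z ^ 5 := by gcongr
    have h6 : z ^ 145 ≤ z ^ 171 := pow_le_pow_right₀ hz1 (by norm_num)
    calc _ = 31539456 * z ^ 140 := by ring
      _ ≤ z ^ 5 * z ^ 140 := by gcongr; linarith
      _ = z ^ 145 := by ring
      _ ≤ _ := by simpa using h6
  have h7 : |E| ^ 4 ≤ (1 / (2 * z ^ 35)) ^ 4 := by
    rwa [Even.pow_abs (by decide)]
  exact le_of_pow_le_pow_left₀ (by norm_num) (by positivity) h7

theorem run_two {z k : ℕ} (hz : 64 ≤ z) (hk : k ≤ 4096) : z ^ k ≤ 2 ^ z ^ 4 := by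
  have h2 : z ≤ 2 ^ z := Nat.lt_two_pow_self.le
  have h4 : z * k ≤ z ^ 4 := by
    have h5 : 64 ^ 3 ≤ z ^ 3 := Nat.pow_le_pow_left hz 3
    calc z * k ≤ z * z ^ 3 := Nat.mul_le_mul_left _ (by omega)
      _ = z ^ 4 := by ring
  calc z ^ k ≤ (2 ^ z) ^ k := Nat.pow_le_pow_left h2 _
    _ = 2 ^ (z * k) := by rw [pow_mul]
    _ ≤ _ := Nat.pow_le_pow_right (by norm_num) h4

theorem run_step {z : ℕ} (hz : 64 ≤ z) :
    ((z ^ 600 : ℕ) : ℝ) * (50 * (1 / 2) ^ (z ^ 4)) ≤ 1 / (2 * (z : ℝ) ^ 35) := by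
  have hz0 : (0 : ℝ) < z := by exact_mod_cast (by omega : 0 < z)
  have h1 : 100 * z ^ 635 ≤ 2 ^ z ^ 4 := by
    have h2 : 64 ^ 2 ≤ z ^ 2 := Nat.pow_le_pow_left hz 2
    calc 100 * z ^ 635 ≤ z ^ 2 * z ^ 635 := Nat.mul_le_mul_right _ (by omega)
      _ = z ^ 637 := by ring
      _ ≤ _ := run_two hz (by norm_num)
  have h5 : (100 : ℝ) * (z : ℝ) ^ 635 ≤ 2 ^ z ^ 4 := by exact_mod_cast h1
  rw [one_div_pow, le_div_iff₀ (by positivity)]
  push_cast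
  have : (z : ℝ) ^ 600 * (50 * (1 / 2 ^ z ^ 4)) * (2 * z ^ 35) = 100 * z ^ 635 / 2 ^ z ^ 4 := by
    ring
  rw [this, div_le_one (by positivity)]
  exact h5

theorem run_wt_pos (ρ : Finset p.V → ℤ) (s : ℕ) (X : Fin p.n → ℤ) (y : p.V → ℤ) :
    0 < wt (p.f s) X * p.F ρ y :=
  mul_pos (prod_pos fun _ _ => p.fR_pos _ _ _) (F_pos ρ y)

theorem OK.run_close (h : p.OK ρ) {s : ℕ} {w : p.V} {row : List (ℤ × ℤ)}
    (hrow : p.Crude ρ s w row) {li : ℤ} (hl1 : 1 ≤ li) (hl2 : li ≤ p.zZ ^ 38)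
    (e₀ : Fin p.n) (ψ : ℤ → ℝ)
    (hψ : ∀ x, p.lo s e₀ ≤ x → x ≤ p.hi s e₀ → 0 ≤ ψ x ∧ ψ x ≤ 1)
    (hΛ : ∀ x, p.lo s e₀ ≤ x → x < p.hi s e₀ →
      ((p.hi s e₀ - p.lo s e₀ + 1 : ℤ) : ℝ) * |ψ (x + 1) - ψ x| ≤ (p.z : ℝ) ^ 5)
    (hmean : p.Z ρ s w w ≤ 9 * p.Sg ρ s w w fun X => ψ (X e₀))
    (hv : p.v e₀ = w ∨ ∀ x, ψ x = 1) {L : ℕ} (hL : p.l1 ≤ L)
    (G : List ℤ × ℕ → ℝ) (hG : ∀ y, |G y| ≤ 1) :
    |(p.Sg ρ s w w fun X => ψ (X e₀) * Ex L fun τ => G (p.run s w row li (List.ofFn X) τ)) /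
        (p.Sg ρ s w w fun X => ψ (X e₀)) - p.piE ρ s w row li G| ≤ 1 / (p.z : ℝ) ^ 35 := by
  have hz := h.zR_ge
  have hz0 : (0 : ℝ) < p.z := by linarith
  have hz1 : (1 : ℝ) ≤ p.z := by linarith
  have hom := h.om_Z hrow hl1
  have hli1 : (1 : ℝ) ≤ li := by exact_mod_cast hl1
  have hli2 : (li : ℝ) ≤ (p.z : ℝ) ^ 38 := by
    have : ((p.zZ ^ 38 : ℤ) : ℝ) = (p.z : ℝ) ^ 38 := by simp [zZ]
    rw [← this]; exact_mod_cast hl2
  have hp38 : (1 : ℝ) ≤ (p.z : ℝ) ^ 38 := one_le_pow₀ hz1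
  have hc : ∀ a : p.V, (1 : ℝ) ≤ (if a = w then (1 : ℝ) else li) ∧
      (if a = w then (1 : ℝ) else li) ≤ (p.z : ℝ) ^ 38 := fun a => by
    split_ifs
    · exact ⟨le_rfl, hp38⟩
    · exact ⟨hli1, hli2⟩
  have hW : ∀ x ∈ p.Omg s, 0 < p.W ρ s w (p.omg w row li) x := fun x _ => by
    rw [W_eq]; exact mul_pos (Real.exp_pos _) (hom _).1
  have hlow : ∀ a, 1 / (2 * (p.z : ℝ) ^ 38) ≤ p.omg w row li a * p.Z ρ s a w := fun a => by
    refine le_trans ?_ (hom a).2.1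
    have := hc a
    exact one_div_le_one_div_of_le (by linarith) (by linarith)
  have hup : ∀ a, p.omg w row li a * p.Z ρ s a w ≤ 18 := fun a =>
    (hom a).2.2.trans (div_le_self (by norm_num) (hc a).1)
  have hT0 : 0 < p.z ^ 600 := pow_pos (by have := h.z_ge; omega) _
  have hN := h.N_le
  have hmix := Mv.chain_mix (m := p.mvs s) p.u_ne_v (h.lo_le_hi s) (h.lc s) (by positivity)
    (by
      rw [div_le_div_iff₀ (by positivity) (by positivity)]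
      have : (p.z : ℝ) ^ 1 ≤ (p.z : ℝ) ^ 175 := pow_le_pow_right₀ hz1 (by norm_num)
      rw [pow_one] at this
      linarith)
    h.base w (p.omg w row li) (fun a => (hom a).1) (lam := 1 / (2 * (p.z : ℝ) ^ 38)) (by positivity)
    hlow hup (by have := (hom w).2.1; rw [if_pos rfl, mul_one] at this; exact this) e₀ ψ
    (Λ := (p.z : ℝ) ^ 5) (by positivity) hψ hΛ hmean hv (CF := (p.z : ℝ) ^ 202)
    (η₀ := 1 / (p.z : ℝ) ^ 400) (by positivity) (by positivity)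
    (fun g G hg => h.fp s w (fun a => (hom a).1) hlow hup g G hg) (z := p.z) (K := p.K)
    (by omega) (by omega) (by rw [gam_M]; have := h.Mt_le; omega)
    (by
      have h1 : 5 * p.z ^ 2 ≤ p.z * p.z ^ 2 := Nat.mul_le_mul_right _ (by have := h.z_ge; omega)
      exact h1.trans ((le_of_eq (by ring)).trans (run_two (k := 3) h.z_ge (by norm_num))))
    (fun e => by
      have h1 := h.st_pos s e
      rw [← h.sF_cast] at h1
      exact_mod_cast h1)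
    (h.sF_le s) (C₁ := (p.z : ℝ) ^ 223) (run_C1 hz) hT0 (fun y => G (p.code y)) (fun y => hG _)
  have hmix' := run_mix hz (by simpa only [Nat.cast_pow] using hmix)
  have hD : 0 < p.Sg ρ s w w fun X => ψ (X e₀) := by linarith [h.Z_pos s w w]
  have hstep : ∀ X ∈ box (p.lo s) (p.hi s),
      |Ex L (fun τ => G (p.run s w row li (List.ofFn X) τ)) -
        (Pop (p.Omg s) (p.W ρ s w (p.omg w row li)) ((p.mvs s).prop p.z p.K))^[p.z ^ 600]
          (fun y => G (p.code y)) (X, w)| ≤ 1 / (2 * (p.z : ℝ) ^ 35) := by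
    intro X hX
    have h1 : Ex L (fun τ => G (p.run s w row li (List.ofFn X) τ)) =
        (opS (p.step s w row li) (4 * p.K))^[p.z ^ 600] G (p.code (X, w)) :=
      Ex_foldT_iter _ hL _ G
    rw [h1]
    exact (abs_iter_sub_le hW _ p.code _ _
      (fun G' hG' x hx => h.step_close hrow hl1 hl2 G' hG' x hx) _ G hG (mem_Omg.2 hX)).trans
      (run_step h.z_ge)
  have hA : |(p.Sg ρ s w w fun X => ψ (X e₀) *
          Ex L fun τ => G (p.run s w row li (List.ofFn X) τ)) / (p.Sg ρ s w w fun X => ψ (X e₀)) -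
      (p.Sg ρ s w w fun X => ψ (X e₀) *
        (Pop (p.Omg s) (p.W ρ s w (p.omg w row li)) ((p.mvs s).prop p.z p.K))^[p.z ^ 600]
          (fun y => G (p.code y)) (X, w)) / (p.Sg ρ s w w fun X => ψ (X e₀))| ≤
      1 / (2 * (p.z : ℝ) ^ 35) := by
    rw [← sub_div, abs_div, abs_of_pos hD, div_le_iff₀ hD, Sg, Sg, Sg, SG, SG, SG,
      ← sum_sub_distrib, mul_sum]
    refine (abs_sum_le_sum_abs _ _).trans (sum_le_sum fun X hX => ?_)
    have h0 := mul_nonneg (run_wt_pos ρ s X (-ev w + ev w - del p.u p.v X)).le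
      (hψ _ (mem_box.1 hX e₀).1 (mem_box.1 hX e₀).2).1
    rw [← mul_sub, ← mul_sub, ← mul_assoc, abs_mul, abs_of_nonneg h0, mul_comm]
    exact mul_le_mul_of_nonneg_right (hstep X hX) h0
  refine (abs_sub_le _ _ _).trans ((add_le_add hA hmix').trans (le_of_eq ?_))
  field_simp
  norm_num

/-- With the large penalty the stationary law is close to the law without tokens. -/
theorem OK.piE_mu (h : p.OK ρ) {s : ℕ} {w : p.V} {row : List (ℤ × ℤ)}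
    (hrow : p.Crude ρ s w row) (g : List ℤ → ℝ) (hg : ∀ y, |g y| ≤ 1) :
    |p.piE ρ s w row (p.zZ ^ 38) (fun y => g y.1) - p.mu ρ s g| ≤ 1 / (p.z : ℝ) ^ 35 := by
  have hz := h.zR_ge
  have hz0 : (0 : ℝ) < p.z := by linarith
  have hl1 : 1 ≤ p.zZ ^ 38 := one_le_pow₀ (by linarith [h.zZ_ge])
  have hcast : ((p.zZ ^ 38 : ℤ) : ℝ) = (p.z : ℝ) ^ 38 := by simp [zZ]
  have hom := h.om_Z hrow hl1
  set om := p.omg w row (p.zZ ^ 38) with hom_def
  set Y : p.V → ℝ := fun a => p.Sg ρ s a w fun X => g (List.ofFn X) with hY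
  have hYle : ∀ a, |Y a| ≤ p.Z ρ s a w := fun a => by
    refine (abs_sum_le_sum_abs _ _).trans (sum_le_sum fun X _ => ?_)
    have h0 := run_wt_pos ρ s X (-ev w + ev a - del p.u p.v X)
    rw [abs_mul, abs_of_pos h0]
    exact mul_le_mul_of_nonneg_left (hg _) h0.le
  have e1 : ∑ x ∈ p.Omg s, p.W ρ s w om x * g (p.code x).1 = ∑ a, om a * Y a :=
    sum_W ρ s w om fun x => g (p.code x).1
  have e3 : p.mu ρ s g = (om w * Y w) / (om w * p.Z ρ s w w) := by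
    rw [mul_div_mul_left _ _ (hom w).1.ne', mu_eq ρ s w]
  unfold piE
  rw [e1, sum_W_one, e3, ← add_sum_erase _ _ (mem_univ w), ← add_sum_erase _ _ (mem_univ w)]
  refine (R309.Pre.run_ratio (δ := 18 / (p.z : ℝ) ^ 37) ?_ ?_ ?_ ?_).trans ?_
  · have := (hom w).2.1
    rwa [if_pos rfl, mul_one] at this
  · rw [abs_mul, abs_of_pos (hom w).1]
    exact mul_le_mul_of_nonneg_left (hYle w) (hom w).1.le
  · refine (abs_sum_le_sum_abs _ _).trans (sum_le_sum fun a _ => ?_)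
    rw [abs_mul, abs_of_pos (hom a).1]
    exact mul_le_mul_of_nonneg_left (hYle a) (hom a).1.le
  · have h1 : ∀ a ∈ univ.erase w, om a * p.Z ρ s a w ≤ 18 / (p.z : ℝ) ^ 38 := fun a ha => by
      have := (hom a).2.2
      rwa [if_neg (ne_of_mem_erase ha), hcast] at this
    refine (sum_le_card_nsmul _ _ _ h1).trans ?_
    have h2 : ((univ.erase w).card : ℝ) ≤ p.z := by
      have h3 := card_le_univ (univ.erase w)
      have h4 := h.N_le
      rw [card_V] at h3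
      exact_mod_cast (by omega : (univ.erase w).card ≤ p.z)
    rw [nsmul_eq_mul]
    calc _ ≤ (p.z : ℝ) * (18 / (p.z : ℝ) ^ 38) := by gcongr
      _ = _ := by field_simp
  · rw [← mul_div_assoc, div_le_div_iff₀ (by positivity) (by positivity)]
    have h1 : (4 * 18 : ℝ) ≤ (p.z : ℝ) ^ 2 := by nlinarith
    calc _ ≤ (p.z : ℝ) ^ 2 * (p.z : ℝ) ^ 35 := by gcongr
      _ = _ := by ring

theorem OK.transit_close (h : p.OK ρ) {s : ℕ} (hs : s ≤ p.S) {H : Hist} (hH : p.Good ρ s H) {i : ℕ}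
    (hi : i ≤ s) (hi' : i < p.S) (g : List ℤ → ℝ) (hg : ∀ y, |g y| ≤ 1) :
    |p.mu ρ i (fun X => Ex p.l1 fun ω => g (p.transit H i X ω)) - p.mu ρ (i + 1) g| ≤
      1 / (p.z : ℝ) ^ 34 := by
  have hz := h.zR_ge
  have hz0 : (0 : ℝ) < p.z := by linarith
  have hl1 : 1 ≤ p.zZ ^ 38 := one_le_pow₀ (by linarith [h.zZ_ge])
  let e₀ : Fin p.n := ⟨p.cell i, h.cell_lt hi'⟩
  have hrow := h.crude hs hH hi hi' (p.v e₀)
  have e1 : (p.Sg ρ (i + 1) (p.v e₀) (p.v e₀) fun X => p.psi i (X e₀)) = p.Z ρ i (p.v e₀) (p.v e₀) := by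
    have := h.SG_succ hi' (p.F ρ) (-ev (p.v e₀) + ev (p.v e₀)) fun _ => 1
    simp only [mul_one] at this
    exact this
  have h1 := h.run_close hrow hl1 le_rfl e₀ (p.psi i) (fun x _ _ => h.psi_mem i x)
    (fun x h1 h2 => h.psi_lip i h1 h2) (by rw [e1]; exact (h.Z_succ hi' _ _).2)
    (Or.inl rfl) le_rfl (fun y => g y.1) (fun y => hg _)
  have h2 := h.piE_mu hrow g hg
  have h3 := h.SG_succ hi' (p.F ρ) (-ev (p.v e₀) + ev (p.v e₀))
    fun X => Ex p.l1 fun ω => g (p.transit H i (List.ofFn X) ω)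
  rw [mu_eq ρ i (p.v e₀), Sg, ← h3, ← e1]
  refine (abs_sub_le _ _ _).trans ((add_le_add h1 h2).trans ?_)
  rw [← add_div, div_le_div_iff₀ (by positivity) (by positivity)]
  calc _ ≤ (p.z : ℝ) * (p.z : ℝ) ^ 34 := by gcongr; linarith
    _ = _ := by ring

end Crest.Agent.R302.Pre
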