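import Crest.Agent.R302.Run

/-!
# Row 302: samples and probes

Adapt `R309/Samp.lean`.  `sample_close`: `transports` with `L₀ = 0`, the constant start `c0` (`mu_zero`, from `box_zero`), `transit_close`, `m ≤ z^13`.
`probe_gen`: the sample reads only the first `(s+1) l1 ≤ z^13 l1` bits (`foldT_take`), the blocks number `z^13` and `z^13 + 1` are fresh
(`Ex_fresh`); `run_close` at stage `s + 1` with `ψ = 1`, `li = 1`, `crude`.  For `probeB` use `coin_close` and `SG_succ` (with `G = 1`).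
-/

set_option autoImplicit false

namespace Crest.Agent.R302.Pre

open Finset Crest.Agent.R309 Crest.Agent.Lib.PolyTime

variable {p : Pre} {ρ : Finset p.V → ℤ}

theorem OK.mu_zero (h : p.OK ρ) (g : List ℤ → ℝ) : p.mu ρ 0 g = g p.c0 := by
  have hF : 0 < wt (p.f 0) p.cF * p.F ρ (0 - del p.u p.v p.cF) :=
    mul_pos (prod_pos fun e _ => p.fR_pos _ _ _) (F_pos ρ _)
  simp only [mu, ZG, SG, h.box_zero, sum_singleton, mul_one, c0_eq]
  exact mul_div_cancel_left₀ _ hF.ne'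

theorem OK.sample_close (h : p.OK ρ) {s : ℕ} (hs : s ≤ p.S) {H : Hist} (hH : p.Good ρ s H) {m : ℕ}
    (hm : m ≤ s + 1) (hm' : m ≤ p.S) {L : ℕ} (hL : p.z ^ 13 * p.l1 ≤ L) (g : List ℤ → ℝ)
    (hg : ∀ y, |g y| ≤ 1) :
    |Ex L (fun τ => g (p.sample H m τ)) - p.mu ρ m g| ≤ 1 / (p.z : ℝ) ^ 21 := by
  have hz := h.z_ge
  have hmz : m ≤ p.z ^ 13 := hm'.trans h.S_le
  have hL' : m * p.l1 ≤ L := (Nat.mul_le_mul_right _ hmz).trans hL
  have key := transports (p.transit H) (L₀ := 0) (η₀ := 0) hL' (fun _ => p.c0) (p.mu ρ)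
    (fun g _ => by rw [Ex_const, h.mu_zero, sub_self, abs_zero])
    (fun i hi g hg => h.transit_close hs hH (by omega) (by omega) g hg) g hg
  rw [Ex_const] at key
  refine key.trans ?_
  have hz' : (0 : ℝ) < p.z := by exact_mod_cast (by omega : 0 < p.z)
  have h1 : (m : ℝ) ≤ (p.z : ℝ) ^ 13 := by exact_mod_cast hmz
  calc 0 + m * (1 / (p.z : ℝ) ^ 34) ≤ 0 + (p.z : ℝ) ^ 13 * (1 / (p.z : ℝ) ^ 34) := by gcongr
    _ = 1 / (p.z : ℝ) ^ 21 := by field_simp; ring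

/-- A test function of the probe state and of the last block. -/
theorem OK.probe_gen (h : p.OK ρ) {s : ℕ} (hs : s < p.S) {H : Hist} (hH : p.Good ρ s H) (w : p.V)
    (G : List ℤ × ℕ → List Bool → ℝ) (hG : ∀ y ω, |G y ω| ≤ 1) :
    |Ex p.l2 (fun τ => G (p.probeState H s w τ) (chunk p.l1 (p.z ^ 13 + 1) τ)) -
        p.piE ρ (s + 1) w (rowOf H s w) 1 fun y => Ex p.l1 (G y)| ≤
      1 / (p.z : ℝ) ^ 21 + 1 / (p.z : ℝ) ^ 35 := by
  have hG' : ∀ y, |Ex p.l1 (G y)| ≤ 1 := fun y => abs_Ex_le fun ω _ => hG y ω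
  have hsz : (s + 1) * p.l1 ≤ p.z ^ 13 * p.l1 :=
    Nat.mul_le_mul_right _ (le_trans (Nat.succ_le_of_lt hs) h.S_le)
  have hsm : ∀ (τ : List Bool) {m : ℕ}, p.z ^ 13 * p.l1 ≤ m →
      p.sample H (s + 1) (τ.take m) = p.sample H (s + 1) τ := fun τ m hm =>
    foldT_take _ (hsz.trans hm) _ _
  have e1 : Ex p.l2 (fun τ => G (p.probeState H s w τ) (chunk p.l1 (p.z ^ 13 + 1) τ)) =
      Ex p.l2 fun τ => Ex p.l1 (G (p.probeState H s w τ)) := by
    refine Ex_fresh (T := p.z ^ 13 + 1) le_rfl (fun τ ω => G (p.probeState H s w τ) ω) fun τ ω => ?_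
    simp only [probeState, chunk_take τ (le_refl ((p.z ^ 13 + 1) * p.l1)),
      hsm τ (Nat.mul_le_mul_right p.l1 (Nat.le_succ _))]
  have e2 : (Ex p.l2 fun τ => Ex p.l1 (G (p.probeState H s w τ))) =
      Ex p.l2 fun τ => Ex p.l1 fun ω => Ex p.l1 (G (p.run (s + 1) w (rowOf H s w) 1
        (p.sample H (s + 1) τ) ω)) := by
    refine Ex_fresh (T := p.z ^ 13) (Nat.mul_le_mul_right _ (by omega))
      (fun τ ω => Ex p.l1 (G (p.run (s + 1) w (rowOf H s w) 1 (p.sample H (s + 1) τ) ω)))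
      fun τ ω => ?_
    simp only [hsm τ le_rfl]
  have h1 := h.sample_close hs.le hH le_rfl hs (L := p.l2) (Nat.mul_le_mul_right _ (by omega))
    (fun X => Ex p.l1 fun ω => Ex p.l1 (G (p.run (s + 1) w (rowOf H s w) 1 X ω)))
    fun X => abs_Ex_le fun ω _ => hG' _
  have hz := h.z_ge
  have hnZ : (1 : ℤ) ≤ p.zZ ^ 38 := one_le_pow₀ (by unfold zZ; omega)
  have hZ := h.Z_pos (s + 1) w w
  have h2 := h.run_close (h.crude hs.le hH le_rfl hs w) le_rfl hnZ
    ⟨p.cell s, h.cell_lt hs⟩ (fun _ => 1) (fun _ _ _ => by norm_num)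
    (fun _ _ _ => by simp) (by
      have : (p.Sg ρ (s + 1) w w fun _ => 1) = p.Z ρ (s + 1) w w := rfl
      rw [this]; linarith) (Or.inr fun _ => rfl) le_rfl (fun y => Ex p.l1 (G y)) hG'
  simp only [one_mul] at h2
  rw [mu_eq ρ (s + 1) w] at h1
  rw [e1, e2]
  exact (abs_sub_le _ _ _).trans (add_le_add h1 h2)

theorem samp_sum_ind (ρ : Finset p.V → ℤ) (s : ℕ) (w a : p.V) (ω : p.V → ℝ)
    (φ : (Fin p.n → ℤ) → ℝ) :
    ∑ x ∈ p.Omg s, p.W ρ s w ω x * (ind ((x.2 : ℕ) = a) * φ x.1) = ω a * p.Sg ρ s a w φ := by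
  rw [sum_W, sum_eq_single a]
  · simp only [ind_of, one_mul]
  · intro b _ hb
    have : ind ((b : ℕ) = a) = 0 := ind_of_not fun h => hb (Fin.ext h)
    simp [this, Sg, SG]
  · simp

theorem OK.samp_num (h : p.OK ρ) :
    1 / (p.z : ℝ) ^ 21 + 1 / (p.z : ℝ) ^ 35 + 5 * (1 / 2) ^ p.K ≤ 1 / (p.z : ℝ) ^ 20 := by
  have hn := h.z_ge
  have hn' : (64 : ℝ) ≤ p.z := by exact_mod_cast hn
  have h0 : (0 : ℝ) < p.z := by linarith
  have h1 : p.z ^ 21 ≤ 2 ^ p.K := by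
    calc p.z ^ 21 ≤ (2 ^ p.z) ^ 21 := Nat.pow_le_pow_left Nat.lt_two_pow_self.le _
      _ = 2 ^ (p.z * 21) := by rw [← pow_mul]
      _ ≤ 2 ^ p.K := Nat.pow_le_pow_right (by norm_num) (by
          unfold K
          have h41 : 21 ≤ p.z ^ 3 := le_trans (by omega) (Nat.le_self_pow (by norm_num) p.z)
          calc p.z * 21 ≤ p.z * p.z ^ 3 := Nat.mul_le_mul_left _ h41
            _ = p.z ^ 4 := by ring)
  have h2 : ((1 : ℝ) / 2) ^ p.K ≤ 1 / (p.z : ℝ) ^ 21 := by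
    rw [one_div_pow]
    exact one_div_le_one_div_of_le (by positivity) (by exact_mod_cast h1)
  have h3 : 1 / (p.z : ℝ) ^ 35 ≤ 1 / (p.z : ℝ) ^ 21 :=
    one_div_le_one_div_of_le (by positivity) (pow_le_pow_right₀ (by linarith) (by norm_num))
  have h4 : 8 * (1 / (p.z : ℝ) ^ 21) ≤ 1 / (p.z : ℝ) ^ 20 := by
    rw [pow_succ (p.z : ℝ) 20, mul_one_div, div_le_div_iff₀ (by positivity) (by positivity)]
    have : (0 : ℝ) < (p.z : ℝ) ^ 20 := by positivity
    nlinarith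
  have h5 : (0 : ℝ) < 1 / (p.z : ℝ) ^ 21 := by positivity
  linarith

theorem OK.probe_close (h : p.OK ρ) {s : ℕ} (hs : s < p.S) {H : Hist} (hH : p.Good ρ s H)
    (w a : p.V) :
    |Ex p.l2 (fun τ => ind (p.probeA H s w a τ = true)) -
        p.omg w (rowOf H s w) 1 a * p.Z ρ (s + 1) a w /
          ∑ b, p.omg w (rowOf H s w) 1 b * p.Z ρ (s + 1) b w| ≤ 1 / (p.z : ℝ) ^ 20 ∧
    |Ex p.l2 (fun τ => ind (p.probeB H s w a τ = true)) -
        p.omg w (rowOf H s w) 1 a * p.Z ρ s a w /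
          ∑ b, p.omg w (rowOf H s w) 1 b * p.Z ρ (s + 1) b w| ≤ 1 / (p.z : ℝ) ^ 20 := by
  have hind : ∀ q : Prop, |ind q| ≤ 1 := fun q => by
    rw [abs_of_nonneg (ind_nonneg q)]; exact ind_le_one q
  have hnum := h.samp_num
  have hK : (0 : ℝ) ≤ 5 * (1 / 2) ^ p.K := by positivity
  have hrow := h.crude hs.le hH le_rfl hs w
  have hom : ∀ b, 0 < p.omg w (rowOf H s w) 1 b := fun b => (h.om_Z hrow le_rfl b).1
  have hD : 0 < ∑ b, p.omg w (rowOf H s w) 1 b * p.Z ρ (s + 1) b w :=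
    sum_pos (fun b _ => mul_pos (hom b) (h.Z_pos (s + 1) b w)) ⟨w, mem_univ _⟩
  constructor
  · have h1 := h.probe_gen hs hH w (fun y _ => ind (y.2 = a)) fun _ _ => hind _
    have e : (p.piE ρ (s + 1) w (rowOf H s w) 1 fun y => Ex p.l1 fun _ => ind (y.2 = a)) =
        p.omg w (rowOf H s w) 1 a * p.Z ρ (s + 1) a w /
          ∑ b, p.omg w (rowOf H s w) 1 b * p.Z ρ (s + 1) b w := by
      have := samp_sum_ind ρ (s + 1) w a (p.omg w (rowOf H s w) 1) fun _ => 1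
      simp only [mul_one] at this
      simp only [piE, Ex_const, code, sum_W_one, this]
      rfl
    rw [e] at h1
    simp only [probeA, decide_eq_true_eq]
    linarith
  · have h1 := h.probe_gen hs hH w
      (fun y ω => ind (y.2 = a) * ind (p.coin s (y.1.getD (p.cell s) 0) ω = true)) fun _ _ => by
        rw [← ind_and]; exact hind _
    set e₀ : Fin p.n := ⟨p.cell s, h.cell_lt hs⟩ with he₀
    have e1 : p.omg w (rowOf H s w) 1 a * p.Z ρ s a w =
        ∑ x ∈ p.Omg (s + 1), p.W ρ (s + 1) w (p.omg w (rowOf H s w) 1) x *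
          (ind ((x.2 : ℕ) = a) * p.psi s (x.1 e₀)) := by
      rw [samp_sum_ind ρ (s + 1) w a _ fun X => p.psi s (X e₀)]
      congr 1
      have := h.SG_succ hs (p.F ρ) (-ev w + ev a) fun _ => 1
      simp only [mul_one] at this
      exact this.symm
    have h2 : |(p.piE ρ (s + 1) w (rowOf H s w) 1 fun y => Ex p.l1 fun ω =>
          ind (y.2 = a) * ind (p.coin s (y.1.getD (p.cell s) 0) ω = true)) -
        p.omg w (rowOf H s w) 1 a * p.Z ρ s a w /
          ∑ b, p.omg w (rowOf H s w) 1 b * p.Z ρ (s + 1) b w| ≤ 5 * (1 / 2) ^ p.K := by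
      rw [piE, sum_W_one, e1, ← sub_div, abs_div, abs_of_pos hD, div_le_iff₀ hD, ← sum_W_one,
        ← sum_sub_distrib, mul_sum]
      refine (abs_sum_le_sum_abs _ _).trans (sum_le_sum fun x _ => ?_)
      have hW : 0 ≤ p.W ρ (s + 1) w (p.omg w (rowOf H s w) 1) x := by
        rw [W_eq]; exact mul_nonneg (Real.exp_pos _).le (hom _).le
      have hc := h.coin_close s (x.1 e₀)
      have e2 : (List.ofFn x.1).getD (p.cell s) 0 = x.1 e₀ := getD_ofFn x.1 0 e₀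
      simp only [code, Ex_mul_left, e2]
      rw [← mul_sub, ← mul_sub, abs_mul, abs_mul, abs_of_nonneg hW, mul_comm]
      refine mul_le_mul_of_nonneg_right ?_ hW
      calc _ ≤ 1 * (5 * (1 / 2) ^ p.K) := mul_le_mul (hind _) hc (abs_nonneg _) zero_le_one
        _ = _ := one_mul _
    simp only [probeB, probeA, Bool.and_eq_true, decide_eq_true_eq, ind_and]
    exact (abs_sub_le _ _ _).trans (by linarith)

end Crest.Agent.R302.Pre
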