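import Crest.Agent.R302.SfmStep

/-!
# Row 302: the minimisation algorithm runs in oracle polynomial time
-/

set_option autoImplicit false

namespace Crest.Agent.R302.Sfm

open Crest.Agent.Lib.PolyTime Crest.Agent.R309

section PT

variable {α : Type} [Enc α]

@[fun_prop] theorem pt_pre {L : α → List ℕ} {v : α → ℕ} (hL : PT L) (hv : PT v) :
    PT fun a => pre (L a) (v a) := by unfold pre; fun_prop

@[fun_prop] theorem pt_memL {L : α → List ℕ} {v : α → ℕ} (hL : PT L) (hv : PT v) :
    PT fun a => memL (L a) (v a) := by unfold memL; fun_prop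

@[fun_prop] theorem pt_rs {W L : α → List ℕ} (hW : PT W) (hL : PT L) :
    PT fun a => rs (W a) (L a) := by unfold rs; fun_prop

@[fun_prop] theorem pt_bigD {N b : α → ℕ} (hN : PT N) (hb : PT b) :
    PT fun a => bigD (N a) (b a) := by unfold bigD; fun_prop

@[fun_prop] theorem pt_bigK {N : α → ℕ} (hN : PT N) : PT fun a => bigK (N a) := by
  unfold bigK; fun_prop

end PT

/-- One step of the fold computing `shift`. -/
def shSt (h : List ℕ → ℤ) (W : List ℕ) (s : Bool × ℤ × Lam) (p : ℤ × List ℕ) : Bool × ℤ × Lam :=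
  bif s.1 then
    (if p.1 * beta h W p.2 ≤ s.2.1 then (true, s.2.1 - p.1 * beta h W p.2, s.2.2 ++ [(p.1, rs W p.2)])
    else (false, s.2.1, s.2.2 ++ [(alp h W s.2.1 p, rs W p.2), (p.1 - alp h W s.2.1 p, p.2)]))
  else (false, s.2.1, s.2.2 ++ [p])

theorem shSt_false (h : List ℕ → ℤ) (W : List ℕ) (Λ : Lam) : ∀ (r : ℤ) (acc : Lam),
    (Λ.foldl (shSt h W) (false, r, acc)).2.2 = acc ++ Λ := by
  induction Λ with
  | nil => simp
  | cons p Λ ih => intro r acc; simp [shSt, ih]

theorem shSt_true (h : List ℕ → ℤ) (W : List ℕ) (Λ : Lam) : ∀ (r : ℤ) (acc : Lam),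
    (Λ.foldl (shSt h W) (true, r, acc)).2.2 = acc ++ shift h W r Λ := by
  induction Λ with
  | nil => simp [shift]
  | cons p Λ ih =>
    intro r acc
    by_cases hp : p.1 * beta h W p.2 ≤ r
    · simp [shSt, shift, hp, ih]
    · simp [shSt, shift, hp, shSt_false]

theorem alp_natAbs_le (h : List ℕ → ℤ) (W : List ℕ) (r : ℤ) (p : ℤ × List ℕ) :
    (alp h W r p).natAbs ≤ p.1.natAbs ∧ (p.1 - alp h W r p).natAbs ≤ p.1.natAbs := by
  unfold alp; omega

theorem size_perm {β : Type} [Enc β] {l l' : List β} (h : l.Perm l') : size l = size l' := by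
  induction h with
  | nil => rfl
  | cons a _ ih => simp [ih]
  | swap a b l => simp; omega
  | trans _ _ ih₁ ih₂ => exact ih₁.trans ih₂

variable {α : Type} [Enc α] [Ok α] {h : α → List ℕ → ℤ}

@[fun_prop] theorem opt_yv {L : α → List ℕ} {v : α → ℕ} (hh : OPT fun p : α × List ℕ => h p.1 p.2)
    (hL : OPT L) (hv : OPT v) : OPT fun a => yv (h a) (L a) (v a) :=
  OPT.int_sub (hh.comp (g := fun a => (a, v a :: pre (L a) (v a))) (by fun_prop))
    (hh.comp (g := fun a => (a, pre (L a) (v a))) (by fun_prop))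

@[fun_prop] theorem opt_xv {Λ : α → Lam} {v : α → ℕ} (hh : OPT fun p : α × List ℕ => h p.1 p.2)
    (hΛ : OPT Λ) (hv : OPT v) : OPT fun a => xv (h a) (Λ a) (v a) := by
  unfold xv; fun_prop

@[fun_prop] theorem opt_beta {W L : α → List ℕ} (hh : OPT fun p : α × List ℕ => h p.1 p.2)
    (hW : OPT W) (hL : OPT L) : OPT fun a => beta (h a) (W a) (L a) := by
  unfold beta; fun_prop

@[fun_prop] theorem opt_eta {U : α → List ℕ} {Λ : α → Lam} (hh : OPT fun p : α × List ℕ => h p.1 p.2)
    (hU : OPT U) (hΛ : OPT Λ) : OPT fun a => eta (h a) (U a) (Λ a) :=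
  OPT.foldl_growth (f := fun _ (s : ℤ) b => max s b) (by fun_prop) (by fun_prop) (by fun_prop)
    (G := fun p => size p.2) (by fun_prop) fun _ s b => by
      rcases max_choice s b with e | e <;> rw [e] <;> simp

@[fun_prop] theorem opt_gapk {N : α → ℕ} {U : α → List ℕ} {Λ : α → Lam} {δ : α → ℤ}
    (hh : OPT fun p : α × List ℕ => h p.1 p.2) (hN : OPT N) (hU : OPT U) (hΛ : OPT Λ) (hδ : OPT δ) :
    OPT fun a => gapk (h a) (N a) (U a) (Λ a) (δ a) := by
  unfold gapk; fun_prop

@[fun_prop] theorem opt_alp {W : α → List ℕ} {r : α → ℤ} {p : α → ℤ × List ℕ}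
    (hh : OPT fun p : α × List ℕ => h p.1 p.2) (hW : OPT W) (hr : OPT r) (hp : OPT p) :
    OPT fun a => alp (h a) (W a) (r a) (p a) := by
  unfold alp; fun_prop

@[fun_prop] theorem opt_shSt {W : α → List ℕ} {s : α → Bool × ℤ × Lam} {p : α → ℤ × List ℕ}
    (hh : OPT fun p : α × List ℕ => h p.1 p.2) (hW : OPT W) (hs : OPT s) (hp : OPT p) :
    OPT fun a => shSt (h a) (W a) (s a) (p a) := by
  unfold shSt; fun_prop

@[fun_prop] theorem opt_shift {W : α → List ℕ} {r : α → ℤ} {Λ : α → Lam}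
    (hh : OPT fun p : α × List ℕ => h p.1 p.2) (hW : OPT W) (hr : OPT r) (hΛ : OPT Λ) :
    OPT fun a => shift (h a) (W a) (r a) (Λ a) := by
  refine (OPT.foldl_growth (f := fun a => shSt (h a) (W a)) (s₀ := fun a => (true, r a, []))
    (by fun_prop) hΛ (by fun_prop)
    (G := fun p => 4 * size p.2 + 2 * size (-(p.2.1 * beta (h p.1) (W p.1) p.2.2)) + 2)
    (by fun_prop) ?_).snd.snd.of_eq fun a => by rw [shSt_true, List.nil_append]
  rintro a ⟨fl, r, acc⟩ ⟨μ, L⟩
  have h1 := size_int_add_le r (-(μ * beta (h a) (W a) L))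
  have h2 := size_perm (rs_perm (W a) L)
  have h3 := size_int_le_of_natAbs_le (alp_natAbs_le (h a) (W a) r (μ, L)).1
  have h4 := size_int_le_of_natAbs_le (alp_natAbs_le (h a) (W a) r (μ, L)).2
  rw [← sub_eq_add_neg] at h1
  cases fl
  · simp [shSt]; omega
  · simp only [shSt, cond_true] at h3 h4 ⊢
    split_ifs <;> simp <;> omega

@[fun_prop] theorem opt_dlt {N : α → ℕ} {s : α → List ℕ × Lam}
    (hh : OPT fun p : α × List ℕ => h p.1 p.2) (hN : OPT N) (hs : OPT s) :
    OPT fun a => dlt (h a) (N a) (s a) := by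
  unfold dlt; fun_prop

@[fun_prop] theorem opt_low {N : α → ℕ} {s : α → List ℕ × Lam}
    (hh : OPT fun p : α × List ℕ => h p.1 p.2) (hN : OPT N) (hs : OPT s) :
    OPT fun a => low (h a) (N a) (s a) := by
  unfold low; fun_prop

@[fun_prop] theorem opt_stepS {N : α → ℕ} {D : α → ℤ} {s : α → List ℕ × Lam}
    (hh : OPT fun p : α × List ℕ => h p.1 p.2) (hN : OPT N) (hD : OPT D) (hs : OPT s) :
    OPT fun a => stepS (h a) (N a) (D a) (s a) := by
  unfold stepS; fun_prop

/-- Unconditional size invariant of the weighted orderings. -/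
def Sm (x y : ℕ) (Λ : Lam) : Prop := ∀ p ∈ Λ, p.1.natAbs ≤ x ∧ size p.2 ≤ y

theorem sm_shift (g : List ℕ → ℤ) (W : List ℕ) {x y : ℕ} (Λ : Lam) : ∀ r : ℤ, Sm x y Λ →
    Sm x y (shift g W r Λ) ∧ (shift g W r Λ).length ≤ Λ.length + 1 := by
  induction Λ with
  | nil => intro r h; exact ⟨h, by simp [shift]⟩
  | cons p Λ ih =>
    intro r h
    have h1 := h p List.mem_cons_self
    have h2 : Sm x y Λ := fun q hq => h q (List.mem_cons_of_mem _ hq)
    have h3 := size_perm (rs_perm W p.2)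
    have h4 := alp_natAbs_le g W r p
    unfold shift
    split_ifs
    · refine ⟨fun q hq => ?_, by simpa using (ih _ h2).2⟩
      rcases List.mem_cons.1 hq with rfl | hq
      · exact ⟨h1.1, h3 ▸ h1.2⟩
      · exact (ih _ h2).1 q hq
    · refine ⟨fun q hq => ?_, by simp⟩
      rcases List.mem_cons.1 hq with rfl | hq
      · exact ⟨h4.1.trans h1.1, h3 ▸ h1.2⟩
      rcases List.mem_cons.1 hq with rfl | hq
      · exact ⟨h4.2.trans h1.1, h1.2⟩
      · exact h2 q hq

theorem sm_iter (g : List ℕ → ℤ) (N : ℕ) (D : ℤ) (L : List ℕ) (i : ℕ) :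
    size ((stepS g N D)^[i] (L, [(D, L)])).1 ≤ size L ∧
      Sm D.natAbs (size L) ((stepS g N D)^[i] (L, [(D, L)])).2 ∧
      ((stepS g N D)^[i] (L, [(D, L)])).2.length ≤ i + 1 := by
  induction i with
  | zero => simp [Sm]
  | succ i ih =>
    rw [Function.iterate_succ_apply']
    generalize (stepS g N D)^[i] (L, [(D, L)]) = s at ih
    obtain ⟨h1, h2, h3⟩ := ih
    unfold stepS
    split_ifs
    · exact ⟨h1, h2, by omega⟩
    · refine ⟨(size_le_of_sublist List.filter_sublist).trans h1, fun q hq => ?_, by simp; omega⟩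
      obtain ⟨p, hp, rfl⟩ := List.mem_map.1 hq
      exact ⟨(h2 p hp).1, (size_le_of_sublist List.filter_sublist).trans (h2 p hp).2⟩
    · have := sm_shift g (low g N s) s.2 (dlt g N s) h2
      exact ⟨h1, this.1, by simp only []; omega⟩

theorem opt_core (hh : OPT fun p : α × List ℕ => h p.1 p.2) {N b : α → ℕ} (hN : OPT N) (hb : OPT b) :
    OPT fun a => core (h a) (N a) (b a) := by
  have hT : OPT fun a => bigK (N a) * (8 * N a + 4 * b a + 13) := by fun_prop
  have hT' := hT.pb_nat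
  refine (OPT.iterate (step := fun a => stepS (h a) (N a) (bigD (N a) (b a))) (by fun_prop) hT
    (by fun_prop) (B := fun a => 2 * size (List.range (N a)) + 1 +
      (bigK (N a) * (8 * N a + 4 * b a + 13) + 1) *
        (2 * (2 * size (bigD (N a) (b a)) + 1 + size (List.range (N a))) + 1))
    ((show PB fun a => 2 * size (List.range (N a)) + 1 by fun_prop).add
      ((hT'.add (PB.const 1)).mul (by fun_prop))) fun a i hi => ?_).fst
  obtain ⟨h1, h2, h3⟩ := sm_iter (h a) (N a) (bigD (N a) (b a)) (List.range (N a)) i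
  rw [size_prod']
  refine Nat.add_le_add (by omega) ((size_list_le (m := 2 * size (bigD (N a) (b a)) + 1 +
    size (List.range (N a))) fun p hp => ?_).trans (Nat.mul_le_mul_right _ (by omega)))
  have h4 := size_int_le_of_natAbs_le (h2 p hp).1
  have h5 := (h2 p hp).2
  rw [size_prod']; omega

end Crest.Agent.R302.Sfm
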