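import Crest.Agent.R302.SfmStep
import Crest.Agent.R302.SfmOpt
import Crest.Agent.R302.Ifc

/-!
# Row 302: submodular function minimisation with an oracle (owner helper16)
-/

set_option autoImplicit false

namespace Crest.Agent.R302

open Finset Crest.Agent.Lib.PolyTime Crest.Agent.R309

/-- The closure property of a routine `sfm f N b`. -/
def SfmOPT (sfm : (List Bool → ℤ) → ℕ → ℕ → List Bool) : Prop :=
  ∀ {α : Type} [Enc α] [Ok α] {f : α → List Bool → ℤ} {N b : α → ℕ},
    (OPT fun p : α × List Bool => f p.1 p.2) → OPT N → OPT b → OPT fun a => sfm (f a) (N a) (b a)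

theorem toS_tab_memL (N : ℕ) (l : List ℕ) :
    toS N (tab N (Sfm.memL l)) = univ.filter fun j : Fin N => j.val ∈ l.toFinset := by
  ext j
  simp only [toS, mem_filter, mem_univ, true_and, getD_tab _ _ j.2, Sfm.memL_iff, List.mem_toFinset]

theorem exists_sfm : ∃ sfm : (List Bool → ℤ) → ℕ → ℕ → List Bool,
    SfmOPT sfm ∧ SfmOK sfm ∧ ∀ f N b, (sfm f N b).length = N := by
  refine ⟨fun f N b => tab N (Sfm.memL (Sfm.core (fun l => f (tab N (Sfm.memL l))) N b)), ?_, ?_,
    fun _ _ _ => length_tab _ _⟩
  · intro α _ _ f N b hf hN hb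
    have h1 : OPT fun a => Sfm.core (fun l => f a (tab (N a) (Sfm.memL l))) (N a) (b a) :=
      Sfm.opt_core (hf.comp (g := fun p : α × List ℕ => (p.1, tab (N p.1) (Sfm.memL p.2)))
        (by unfold Sfm.memL; fun_prop)) hN hb
    exact OPT.ofPT₂ (φ := fun n l => tab n (Sfm.memL l)) (by unfold Sfm.memL; fun_prop) hN h1
  · intro f N b F hf hF hb S
    have hs : Sfm.Sub (fun l => f (tab N (Sfm.memL l)))
        fun S => F (univ.filter fun j : Fin N => j.val ∈ S) :=
      ⟨fun l => by rw [hf, toS_tab_memL], fun A B => by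
        have := hF (univ.filter fun j : Fin N => j.val ∈ A) (univ.filter fun j : Fin N => j.val ∈ B)
        rwa [← filter_or, ← filter_and, ← filter_congr fun j _ => mem_union,
          ← filter_congr fun j _ => mem_inter] at this⟩
    have := (Sfm.core_spec (N := N) hs fun S => hb _).2 (S.map Fin.valEmbedding) (by
      intro j hj
      obtain ⟨i, _, rfl⟩ := mem_map.1 hj
      exact mem_range.2 i.2)
    rw [toS_tab_memL]
    convert this using 2
    ext j
    simp [Fin.val_inj]

end Crest.Agent.R302
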