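import Crest.Agent.R302.OTyped

/-!
# Row 302: submodular function minimisation, the algorithm (definitions complete)

The state is `(U, Λ)`: a list `U` of elements and a list of weighted orderings of `U`; `xv h Λ` is the weighted sum of
the greedy vertices `yv h L`.  A step finds a gap among the positive values of `xv` and moves weight from every
ordering `L` to the ordering `rs W L` in which the elements `W` below the gap come first.  If all the weight can be
moved, `U` is replaced by `W`; otherwise the sum of the squares of the positive parts of `xv` drops.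
-/

set_option autoImplicit false

namespace Crest.Agent.R302.Sfm

open Crest.Agent.Lib.PolyTime Crest.Agent.R309

/-- weighted orderings -/
abbrev Lam : Type := List (ℤ × List ℕ)

/-- The elements before `v`. -/
def pre (L : List ℕ) (v : ℕ) : List ℕ := L.takeWhile fun i => decide (i ≠ v)

/-- The greedy vertex of the ordering `L`. -/
def yv (h : List ℕ → ℤ) (L : List ℕ) (v : ℕ) : ℤ := h (v :: pre L v) - h (pre L v)

/-- The weighted sum of the greedy vertices. -/
def xv (h : List ℕ → ℤ) (Λ : Lam) (v : ℕ) : ℤ := (Λ.map fun p => p.1 * yv h p.2 v).sum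

/-- Membership test. -/
def memL (W : List ℕ) (v : ℕ) : Bool := W.any fun i => decide (i = v)

/-- Stable sorting: the elements of `W` first. -/
def rs (W L : List ℕ) : List ℕ := L.filter (memL W) ++ L.filter fun v => !memL W v

/-- Mass moved to `W` by sorting `L`. -/
def beta (h : List ℕ → ℤ) (W L : List ℕ) : ℤ := (W.map fun v => yv h (rs W L) v - yv h L v).sum

/-- Largest positive value. -/
def eta (h : List ℕ → ℤ) (U : List ℕ) (Λ : Lam) : ℤ := (U.map (xv h Λ)).foldl max 0

/-- Number of the first empty interval. -/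
def gapk (h : List ℕ → ℤ) (N : ℕ) (U : List ℕ) (Λ : Lam) (δ : ℤ) : ℕ :=
  ((List.range (N + 1)).filter fun k : ℕ => U.all fun v =>
    decide (xv h Λ v ≤ 2 * k * δ ∨ (2 * k + 2) * δ ≤ xv h Λ v)).headD 0

/-- The weight moved in the last, partial move. -/
def alp (h : List ℕ → ℤ) (W : List ℕ) (rem : ℤ) (p : ℤ × List ℕ) : ℤ :=
  max 0 (min p.1 (rem / beta h W p.2))

/-- Sort the orderings one after the other until the budget is used up. -/
def shift (h : List ℕ → ℤ) (W : List ℕ) : ℤ → Lam → Lam
  | _, [] => []
  | rem, p :: Λ =>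
    if p.1 * beta h W p.2 ≤ rem then (p.1, rs W p.2) :: shift h W (rem - p.1 * beta h W p.2) Λ
    else (alp h W rem p, rs W p.2) :: (p.1 - alp h W rem p, p.2) :: Λ

/-- Half the width of the gap. -/
def dlt (h : List ℕ → ℤ) (N : ℕ) (s : List ℕ × Lam) : ℤ := eta h s.1 s.2 / (2 * N + 2)

/-- The elements below the gap. -/
def low (h : List ℕ → ℤ) (N : ℕ) (s : List ℕ × Lam) : List ℕ :=
  s.1.filter fun v => decide (xv h s.2 v ≤ 2 * gapk h N s.1 s.2 (dlt h N s) * dlt h N s)

/-- One step. -/
def stepS (h : List ℕ → ℤ) (N : ℕ) (D : ℤ) (s : List ℕ × Lam) : List ℕ × Lam :=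
  if N * eta h s.1 s.2 < D then s
  else if (s.2.map fun p => p.1 * beta h (low h N s) p.2).sum ≤ dlt h N s then
    (low h N s, s.2.map fun p => (p.1, p.2.filter (memL (low h N s))))
  else (s.1, shift h (low h N s) (dlt h N s) s.2)

/-- Total weight. -/
def bigD (N b : ℕ) : ℤ := 2 ^ (3 * N + b + 5)

/-- Inverse of the rate of decrease. -/
def bigK (N : ℕ) : ℕ := (N + 1) * (4 * N + 4) ^ 2

/-- The minimiser. -/
def core (h : List ℕ → ℤ) (N b : ℕ) : List ℕ :=
  ((stepS h N (bigD N b))^[bigK N * (8 * N + 4 * b + 13)]
    (List.range N, [(bigD N b, List.range N)])).1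

@[simp] theorem memL_iff {W : List ℕ} {v : ℕ} : memL W v = true ↔ v ∈ W := by simp [memL]

theorem rs_perm (W L : List ℕ) : (rs W L).Perm L := List.filter_append_perm _ _

end Crest.Agent.R302.Sfm
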