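import Crest.Agent.R302.SfmDef

/-!
# Row 302: greedy vertices of a submodular function
-/

set_option autoImplicit false

namespace Crest.Agent.R302.Sfm

open Finset

/-- `h` computes the submodular function `G` on lists. -/
structure Sub (h : List ℕ → ℤ) (G : Finset ℕ → ℤ) : Prop where
  eq : ∀ l, h l = G l.toFinset
  sub : ∀ A B, G (A ∪ B) + G (A ∩ B) ≤ G A + G B

variable {h : List ℕ → ℤ} {G : Finset ℕ → ℤ}

/-- Diminishing returns. -/
theorem Sub.dim (hs : Sub h G) {A B : Finset ℕ} (hAB : A ⊆ B) {v : ℕ} (hv : v ∉ B) :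
    G (insert v B) - G B ≤ G (insert v A) - G A := by
  have h1 := hs.sub (insert v A) B
  rw [insert_union, union_eq_right.2 hAB, insert_inter_of_notMem hv, inter_eq_left.2 hAB] at h1
  linarith

private theorem gr_cons (a : ℕ) (L : List ℕ) (v : ℕ) :
    pre (a :: L) v = if a = v then [] else a :: pre L v := by
  by_cases e : a = v <;> simp [pre, e]

private theorem gr_app_mem {L : List ℕ} {v : ℕ} (hv : v ∈ L) (M : List ℕ) :
    pre (L ++ M) v = pre L v := by
  induction L with
  | nil => simp at hv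
  | cons a L ih =>
    rw [List.cons_append, gr_cons, gr_cons]
    split_ifs with e
    · rfl
    · rw [ih ((List.mem_cons.1 hv).resolve_left fun e' => e e'.symm)]

private theorem gr_app_not {L : List ℕ} {v : ℕ} (hv : v ∉ L) (M : List ℕ) :
    pre (L ++ M) v = L ++ pre M v := by
  induction L with
  | nil => rfl
  | cons a L ih =>
    rw [List.mem_cons, not_or] at hv
    rw [List.cons_append, gr_cons, if_neg fun e => hv.1 e.symm, ih hv.2, List.cons_append]

private theorem gr_not_mem (L : List ℕ) (v : ℕ) : v ∉ pre L v := fun hv => by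
  simpa using List.mem_takeWhile_imp hv

private theorem gr_sub {L : List ℕ} {v i : ℕ} (hi : i ∈ pre L v) : i ∈ L :=
  (List.takeWhile_prefix _).subset hi

private theorem gr_filter {P : ℕ → Bool} {v : ℕ} (hv : P v = true) (L : List ℕ) :
    pre (L.filter P) v = (pre L v).filter P := by
  induction L with
  | nil => rfl
  | cons a L ih =>
    by_cases e : a = v
    · subst e
      rw [List.filter_cons_of_pos hv, gr_cons, gr_cons, if_pos rfl, if_pos rfl, List.filter_nil]
    · rw [gr_cons, if_neg e]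
      by_cases hP : P a = true
      · rw [List.filter_cons_of_pos hP, List.filter_cons_of_pos hP, gr_cons, if_neg e, ih]
      · rw [List.filter_cons_of_neg hP, List.filter_cons_of_neg hP, ih]

private theorem gr_yv (hs : Sub h G) (L : List ℕ) (v : ℕ) :
    yv h L v = G (insert v (pre L v).toFinset) - G (pre L v).toFinset := by
  rw [yv, hs.eq, hs.eq, List.toFinset_cons]

private theorem gr_last (hs : Sub h G) {L : List ℕ} {a : ℕ} (ha : a ∉ L) :
    yv h (L ++ [a]) a = G (insert a L.toFinset) - G L.toFinset := by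
  rw [gr_yv hs, gr_app_not ha, gr_cons, if_pos rfl, List.append_nil]

private theorem gr_old {L : List ℕ} {v : ℕ} (hv : v ∈ L) (M : List ℕ) :
    yv h (L ++ M) v = yv h L v := by
  rw [yv, yv, gr_app_mem hv]

private theorem gr_anti (hs : Sub h G) {L L' : List ℕ} {v : ℕ}
    (hsub : ∀ i ∈ pre L v, i ∈ pre L' v) : yv h L' v ≤ yv h L v := by
  rw [gr_yv hs, gr_yv hs]
  exact hs.dim (fun i hi => List.mem_toFinset.2 (hsub i (List.mem_toFinset.1 hi)))
    fun hv => gr_not_mem L' v (List.mem_toFinset.1 hv)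

private theorem gr_snoc (L : List ℕ) (a : ℕ) : (L ++ [a]).toFinset = insert a L.toFinset := by
  ext i
  simp [or_comm]

/-- Induction on `L` from the right (`List.reverseRecOn`): `pre (L ++ [a]) v = pre L v` for `v ∈ L`, and
`pre (L ++ [a]) a = L` for `a ∉ L`. -/
theorem yv_sum_eq (hs : Sub h G) {L : List ℕ} (hL : L.Nodup) :
    ∑ v ∈ L.toFinset, yv h L v = G L.toFinset - G ∅ := by
  induction L using List.reverseRecOn with
  | nil => simp
  | append_singleton L a ih =>
    have hL' : L.Nodup := hL.of_append_left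
    have ha : a ∉ L := fun ha => List.disjoint_of_nodup_append hL ha (List.mem_singleton_self a)
    rw [gr_snoc, sum_insert fun h => ha (List.mem_toFinset.1 h), gr_last hs ha,
      sum_congr rfl fun v hv => gr_old (List.mem_toFinset.1 hv) [a], ih hL']
    ring

/-- Same induction, with `Sub.dim` for `S.erase a ⊆ L.toFinset`. -/
theorem yv_sum_le (hs : Sub h G) {L : List ℕ} (hL : L.Nodup) {S : Finset ℕ} (hS : S ⊆ L.toFinset) :
    ∑ v ∈ S, yv h L v ≤ G S - G ∅ := by
  induction L using List.reverseRecOn generalizing S with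
  | nil =>
    rw [List.toFinset_nil, subset_empty] at hS
    simp [hS]
  | append_singleton L a ih =>
    have hL' : L.Nodup := hL.of_append_left
    have ha : a ∉ L := fun ha => List.disjoint_of_nodup_append hL ha (List.mem_singleton_self a)
    rw [gr_snoc] at hS
    by_cases haS : a ∈ S
    · have h1 : S.erase a ⊆ L.toFinset := subset_insert_iff.1 hS
      have h2 := hs.dim h1 fun h => ha (List.mem_toFinset.1 h)
      have h3 := ih hL' h1
      rw [insert_erase haS] at h2
      rw [← add_sum_erase _ _ haS, gr_last hs ha,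
        sum_congr rfl fun v hv => gr_old (List.mem_toFinset.1 (h1 hv)) [a]]
      linarith
    · have h1 : S ⊆ L.toFinset := (subset_insert_iff_of_notMem haS).1 hS
      rw [sum_congr rfl fun v hv => gr_old (List.mem_toFinset.1 (h1 hv)) [a]]
      exact ih hL' h1

/-- `pre (rs W L) v = pre (L.filter (memL W)) v = (pre L v).filter (memL W)` for `v ∈ L ∩ W`. -/
theorem yv_rs_filter {W L : List ℕ} {v : ℕ} (hvL : v ∈ L) (hvW : v ∈ W) :
    yv h (L.filter (memL W)) v = yv h (rs W L) v := by
  exact (gr_old (List.mem_filter.2 ⟨hvL, memL_iff.2 hvW⟩) _).symm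

theorem yv_rs_ge (hs : Sub h G) {W L : List ℕ} {v : ℕ} (hvL : v ∈ L) (hvW : v ∈ W) :
    yv h L v ≤ yv h (rs W L) v := by
  rw [← yv_rs_filter hvL hvW]
  refine gr_anti hs fun i hi => ?_
  rw [gr_filter (memL_iff.2 hvW)] at hi
  exact (List.mem_filter.1 hi).1

/-- For `v ∉ W`: `pre (rs W L) v = L.filter (memL W) ++ (pre L v).filter (!memL W ·)` contains `pre L v`. -/
theorem yv_rs_le (hs : Sub h G) {W L : List ℕ} {v : ℕ} (hvW : v ∉ W) :
    yv h (rs W L) v ≤ yv h L v := by
  refine gr_anti hs fun i hi => ?_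
  have h1 : v ∉ L.filter (memL W) := fun hv => hvW (memL_iff.1 (List.mem_filter.1 hv).2)
  have h2 : (!memL W v) = true := by
    rw [Bool.not_eq_true', ← Bool.not_eq_true, memL_iff]
    exact hvW
  rw [rs, gr_app_not h1, gr_filter (P := fun v => !memL W v) h2, List.mem_append, List.mem_filter,
    List.mem_filter]
  by_cases hiW : memL W i = true
  · exact .inl ⟨gr_sub hi, hiW⟩
  · exact .inr ⟨hi, by rwa [Bool.not_eq_true', ← Bool.not_eq_true]⟩

theorem abs_yv_le (hs : Sub h G) {M : ℤ} (hM : ∀ S, |G S| ≤ M) (L : List ℕ) (v : ℕ) :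
    |yv h L v| ≤ 2 * M := by
  rw [gr_yv hs]
  linarith [abs_sub (G (insert v (pre L v).toFinset)) (G (pre L v).toFinset),
    hM (insert v (pre L v).toFinset), hM (pre L v).toFinset]

/-- The orderings are orderings of `U`, the weights are nonnegative with sum `D`. -/
structure Ord (U : List ℕ) (Λ : Lam) (D : ℤ) : Prop where
  nodup : U.Nodup
  perm : ∀ p ∈ Λ, p.2.Perm U
  nonneg : ∀ p ∈ Λ, 0 ≤ p.1
  sum : (Λ.map Prod.fst).sum = D

private theorem gr_xv_cons (p : ℤ × List ℕ) (Λ : Lam) (v : ℕ) :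
    xv h (p :: Λ) v = p.1 * yv h p.2 v + xv h Λ v := by
  simp [xv]

private theorem gr_ord {U : List ℕ} {p : ℤ × List ℕ} {Λ : Lam} {D : ℤ} (ho : Ord U (p :: Λ) D) :
    Ord U Λ (D - p.1) :=
  ⟨ho.nodup, fun q hq => ho.perm q (List.mem_cons_of_mem _ hq),
    fun q hq => ho.nonneg q (List.mem_cons_of_mem _ hq), by rw [← ho.sum]; simp⟩

theorem xv_sum_eq (hs : Sub h G) {U : List ℕ} {Λ : Lam} {D : ℤ} (ho : Ord U Λ D) :
    ∑ v ∈ U.toFinset, xv h Λ v = D * (G U.toFinset - G ∅) := by
  induction Λ generalizing D with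
  | nil => rw [← ho.sum]; simp [xv]
  | cons p Λ ih =>
    have hp := ho.perm p List.mem_cons_self
    have h1 := yv_sum_eq hs (hp.nodup_iff.2 ho.nodup)
    rw [List.toFinset_eq_of_perm _ _ hp] at h1
    simp only [gr_xv_cons]
    rw [sum_add_distrib, ← mul_sum, h1, ih (gr_ord ho)]
    ring

theorem xv_sum_le (hs : Sub h G) {U : List ℕ} {Λ : Lam} {D : ℤ} (ho : Ord U Λ D) {S : Finset ℕ}
    (hS : S ⊆ U.toFinset) : ∑ v ∈ S, xv h Λ v ≤ D * (G S - G ∅) := by
  induction Λ generalizing D with
  | nil => rw [← ho.sum]; simp [xv]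
  | cons p Λ ih =>
    have hp := ho.perm p List.mem_cons_self
    have h1 := yv_sum_le hs (hp.nodup_iff.2 ho.nodup) (S := S)
      (by rwa [List.toFinset_eq_of_perm _ _ hp])
    have h2 := mul_le_mul_of_nonneg_left h1 (ho.nonneg p List.mem_cons_self)
    have h3 := ih (gr_ord ho)
    simp only [gr_xv_cons]
    rw [sum_add_distrib, ← mul_sum]
    linarith

theorem abs_xv_le (hs : Sub h G) {M : ℤ} (hM : ∀ S, |G S| ≤ M) {U : List ℕ} {Λ : Lam} {D : ℤ}
    (ho : Ord U Λ D) (v : ℕ) : |xv h Λ v| ≤ D * (2 * M) := by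
  induction Λ generalizing D with
  | nil => rw [← ho.sum]; simp [xv]
  | cons p Λ ih =>
    have h0 := ho.nonneg p List.mem_cons_self
    have h2 := mul_le_mul_of_nonneg_left (abs_yv_le hs hM p.2 v) h0
    have h3 := ih (gr_ord ho)
    rw [gr_xv_cons]
    refine (abs_add_le _ _).trans ?_
    rw [abs_mul, abs_of_nonneg h0]
    linarith

end Crest.Agent.R302.Sfm
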