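import Crest.Agent.R302.SfmDef

/-!
# Row 302: potential, gap and termination lemmas
-/

set_option autoImplicit false

namespace Crest.Agent.R302.Sfm

open Finset

/-- Sum of the squares of the positive parts. -/
def pot (U : Finset ℕ) (x : ℕ → ℤ) : ℤ := ∑ v ∈ U, max (x v) 0 ^ 2

/-- Termwise: for `v ∈ W`, `x' v - x v ≤ m ≤ δ` and `(x'⁺)² - (x⁺)² ≤ (x' - x) (2 a + δ)`; for `v ∉ W`,
`x² - x'² ≥ (x - x') (2 a + 3 δ)`. -/
theorem pot_drop {U W : Finset ℕ} (hWU : W ⊆ U) {x x' : ℕ → ℤ} {a δ m : ℤ} (ha : 0 ≤ a) (hδ : 0 ≤ δ)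
    (hlo : ∀ v ∈ W, x v ≤ a ∧ x v ≤ x' v) (hhi : ∀ v ∈ U \ W, a + 2 * δ ≤ x v ∧ x' v ≤ x v)
    (h₁ : ∑ v ∈ W, (x' v - x v) = m) (h₂ : ∑ v ∈ U \ W, (x v - x' v) = m) (hm : m ≤ δ) :
    pot U x' + 2 * δ * m ≤ pot U x ∧ ∀ v ∈ U \ W, 0 ≤ x' v := by
  have e₁ : ∀ v ∈ W, x' v - x v ≤ m := fun v hv =>
    h₁ ▸ single_le_sum (f := fun v => x' v - x v) (fun u hu => sub_nonneg.2 (hlo u hu).2) hv
  have e₂ : ∀ v ∈ U \ W, x v - x' v ≤ m := fun v hv =>
    h₂ ▸ single_le_sum (f := fun v => x v - x' v) (fun u hu => sub_nonneg.2 (hhi u hu).2) hv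
  refine ⟨?_, fun v hv => by have := e₂ v hv; have := (hhi v hv).1; omega⟩
  have f₁ : ∑ v ∈ W, max (x' v) 0 ^ 2 ≤ ∑ v ∈ W, (max (x v) 0 ^ 2 + (x' v - x v) * (2 * a + δ)) := by
    refine sum_le_sum fun v hv => ?_
    have := e₁ v hv
    obtain ⟨p1, p2⟩ := hlo v hv
    have q1 : 0 ≤ max (x' v) 0 - max (x v) 0 := by omega
    have q2 : max (x' v) 0 - max (x v) 0 ≤ x' v - x v := by omega
    have q3 : max (x' v) 0 + max (x v) 0 ≤ 2 * a + δ := by omega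
    have q4 : 0 ≤ max (x' v) 0 + max (x v) 0 := by omega
    nlinarith [mul_le_mul q2 q3 q4 (by omega)]
  have f₂ : ∑ v ∈ U \ W, (max (x' v) 0 ^ 2 + (x v - x' v) * (2 * a + 3 * δ)) ≤
      ∑ v ∈ U \ W, max (x v) 0 ^ 2 := by
    refine sum_le_sum fun v hv => ?_
    have := e₂ v hv
    obtain ⟨p1, p2⟩ := hhi v hv
    rw [max_eq_left (by omega), max_eq_left (by omega)]
    nlinarith [mul_le_mul_of_nonneg_left (show 2 * a + 3 * δ ≤ x v + x' v by omega)
      (sub_nonneg.2 p2)]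
  rw [sum_add_distrib, ← sum_mul] at f₁ f₂
  rw [h₁] at f₁
  rw [h₂] at f₂
  unfold pot
  rw [← sum_sdiff hWU, ← sum_sdiff hWU]
  linarith

theorem foldl_max_spec (l : List ℤ) : ∀ s : ℤ, s ≤ l.foldl max s ∧ (∀ x ∈ l, x ≤ l.foldl max s) ∧
    (l.foldl max s = s ∨ l.foldl max s ∈ l) := by
  induction l with
  | nil => simp
  | cons a l ih =>
    intro s
    obtain ⟨h1, h2, h3⟩ := ih (max s a)
    rw [List.foldl_cons]
    refine ⟨(le_max_left _ _).trans h1, fun x hx => ?_, ?_⟩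
    · rcases List.mem_cons.1 hx with rfl | hx
      · exact (le_max_right _ _).trans h1
      · exact h2 x hx
    · rcases h3 with h3 | h3
      · rcases max_choice s a with e | e
        · exact Or.inl (h3.trans e)
        · exact Or.inr (by rw [h3, e]; exact List.mem_cons_self)
      · exact Or.inr (List.mem_cons_of_mem _ h3)

theorem eta_nonneg (h : List ℕ → ℤ) (U : List ℕ) (Λ : Lam) : 0 ≤ eta h U Λ := by
  exact (foldl_max_spec _ 0).1

theorem le_eta (h : List ℕ → ℤ) {U : List ℕ} (Λ : Lam) {v : ℕ} (hv : v ∈ U) : xv h Λ v ≤ eta h U Λ := by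
  exact (foldl_max_spec _ 0).2.1 _ (List.mem_map_of_mem hv)

theorem exists_eta (h : List ℕ → ℤ) (U : List ℕ) (Λ : Lam) (h0 : eta h U Λ ≠ 0) :
    ∃ v ∈ U, xv h Λ v = eta h U Λ := by
  exact List.mem_map.1 ((foldl_max_spec _ 0).2.2.resolve_left h0)

/-- Pigeonhole: `N + 1` disjoint open intervals, at most `N` values. -/
theorem gapk_spec (h : List ℕ → ℤ) {N : ℕ} {U : List ℕ} (hU : U.length ≤ N) (Λ : Lam) {δ : ℤ}
    (hδ : 0 ≤ δ) : gapk h N U Λ δ ≤ N ∧ ∀ v ∈ U,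
      xv h Λ v ≤ 2 * gapk h N U Λ δ * δ ∨ (2 * gapk h N U Λ δ + 2) * δ ≤ xv h Λ v := by
  have key : ∃ k ≤ N, ∀ v ∈ U, xv h Λ v ≤ 2 * (k : ℤ) * δ ∨ (2 * (k : ℤ) + 2) * δ ≤ xv h Λ v := by
    by_contra hc
    push Not at hc
    choose! f hf using hc
    have h1 : (range (N + 1)).card ≤ U.toFinset.card := by
      refine card_le_card_of_injOn f (fun k hk => ?_) fun j hj k hk e => ?_
      · exact mem_coe.2 (List.mem_toFinset.2 (hf k (by simpa [Nat.lt_succ_iff] using hk)).1)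
      · obtain ⟨-, p1, p2⟩ := hf j (by simpa [Nat.lt_succ_iff] using hj)
        obtain ⟨-, p3, p4⟩ := hf k (by simpa [Nat.lt_succ_iff] using hk)
        rw [e] at p1 p2
        have q1 : (2 * j : ℤ) < 2 * k + 2 := lt_of_mul_lt_mul_right (p1.trans p4) hδ
        have q2 : (2 * k : ℤ) < 2 * j + 2 := lt_of_mul_lt_mul_right (p3.trans p2) hδ
        omega
    have h2 := List.toFinset_card_le U
    rw [card_range] at h1
    omega
  obtain ⟨k, hk, hk'⟩ := key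
  have hm : gapk h N U Λ δ ∈ (List.range (N + 1)).filter fun k : ℕ => U.all fun v =>
      decide (xv h Λ v ≤ 2 * k * δ ∨ (2 * k + 2) * δ ≤ xv h Λ v) := by
    have hk2 : k ∈ (List.range (N + 1)).filter fun k : ℕ => U.all fun v =>
        decide (xv h Λ v ≤ 2 * k * δ ∨ (2 * k + 2) * δ ≤ xv h Λ v) := by
      simp only [List.mem_filter, List.mem_range, List.all_eq_true, decide_eq_true_eq]
      exact ⟨by omega, hk'⟩
    unfold gapk
    generalize (List.range (N + 1)).filter _ = l at hk2 ⊢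
    cases l with
    | nil => cases hk2
    | cons a l => exact List.mem_cons_self
  simp only [List.mem_filter, List.mem_range, List.all_eq_true, decide_eq_true_eq] at hm
  exact ⟨by omega, hm.2⟩

/-- `(1 - 1/K) ^ K ≤ exp (-1) ≤ 1/2`. -/
theorem iter_final {σ : Type} (step : σ → σ) (I fin : σ → Prop) (Ψ : σ → ℝ) {K B : ℕ} (hK : 0 < K)
    (hI : ∀ s, I s → I (step s)) (hfin : ∀ s, fin s → fin (step s))
    (hdrop : ∀ s, I s → ¬ fin s → 1 ≤ Ψ s ∧ Ψ (step s) ≤ (1 - 1 / K) * Ψ s) {s₀ : σ} (h₀ : I s₀)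
    (hB : Ψ s₀ < 2 ^ B) : I (step^[K * B] s₀) ∧ fin (step^[K * B] s₀) := by
  have hK' : (1 : ℝ) ≤ K := by exact_mod_cast hK
  have hq : (0 : ℝ) ≤ 1 - 1 / K := by
    rw [sub_nonneg, div_le_one (by linarith)]; exact hK'
  have key : ∀ i, I (step^[i] s₀) ∧
      (fin (step^[i] s₀) ∨ Ψ (step^[i] s₀) ≤ (1 - 1 / K) ^ i * Ψ s₀) := by
    intro i
    induction i with
    | zero => exact ⟨h₀, Or.inr (by simp)⟩
    | succ i ih =>
      rw [Function.iterate_succ_apply']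
      refine ⟨hI _ ih.1, ?_⟩
      by_cases hf : fin (step^[i] s₀)
      · exact Or.inl (hfin _ hf)
      · refine Or.inr ((hdrop _ ih.1 hf).2.trans ?_)
        rw [pow_succ', mul_assoc]
        exact mul_le_mul_of_nonneg_left (ih.2.resolve_left hf) hq
  refine ⟨(key _).1, by_contra fun hf => ?_⟩
  have h1 := (hdrop _ (key _).1 hf).1.trans ((key _).2.resolve_left hf)
  have h2 : (1 - 1 / K : ℝ) ^ K ≤ 1 / 2 := by
    have h3 : (1 - 1 / K : ℝ) ^ K ≤ Real.exp (-1) := Real.one_sub_div_pow_le_exp_neg hK'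
    have h4 := Real.exp_neg_one_lt_d9
    linarith
  have h3 : (1 - 1 / K : ℝ) ^ (K * B) ≤ (1 / 2) ^ B := by
    rw [pow_mul]; exact pow_le_pow_left₀ (pow_nonneg hq _) h2 _
  have h4 : (0 : ℝ) < 2 ^ B := by positivity
  have h5 : (1 / 2 : ℝ) ^ B * 2 ^ B = 1 := by rw [← mul_pow]; norm_num
  have h6 := pow_nonneg hq (K * B)
  rcases le_total (Ψ s₀) 0 with h7 | h7
  · nlinarith
  · have := mul_le_mul_of_nonneg_right h3 h7
    have h8 : (0 : ℝ) < (1 / 2) ^ B := by positivity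
    nlinarith

end Crest.Agent.R302.Sfm
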