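import Crest.Agent.R302.SfmGr
import Crest.Agent.R302.SfmPot

/-!
# Row 302: correctness of the minimisation algorithm
-/

set_option autoImplicit false

namespace Crest.Agent.R302.Sfm

open Finset

variable {h : List ℕ → ℤ} {G : Finset ℕ → ℤ}

/-- `x'` arises from `x` by moving the mass `m` from `U \ W` to `W`. -/
structure Mov (U W : List ℕ) (x x' : ℕ → ℤ) (m : ℤ) : Prop where
  up : ∀ v ∈ W, x v ≤ x' v
  down : ∀ v, v ∉ W → x' v ≤ x v
  gain : ∑ v ∈ W.toFinset, (x' v - x v) = m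
  loss : ∑ v ∈ U.toFinset \ W.toFinset, (x v - x' v) = m

/-- `yv_rs_ge`, `yv_rs_le`; `gain` is the definition (`List.sum_toFinset`), `loss` follows from `yv_sum_eq` for `L` and
`rs W L`. -/
theorem mov_rs (hs : Sub h G) {U W L : List ℕ} (hU : U.Nodup) (hW : W.Sublist U) (hL : L.Perm U) :
    Mov U W (yv h L) (yv h (rs W L)) (beta h W L) := by
  have hg : ∑ v ∈ W.toFinset, (yv h (rs W L) v - yv h L v) = beta h W L :=
    List.sum_toFinset _ (hU.sublist hW)
  refine ⟨fun v hv => yv_rs_ge hs (hL.symm.subset (hW.subset hv)) hv, fun v hv => yv_rs_le hs hv,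
    hg, ?_⟩
  have hWU : W.toFinset ⊆ U.toFinset := fun v hv =>
    List.mem_toFinset.2 (hW.subset (List.mem_toFinset.1 hv))
  have e₁ := yv_sum_eq hs (hL.nodup_iff.2 hU)
  have e₂ := yv_sum_eq hs (((rs_perm W L).trans hL).nodup_iff.2 hU)
  rw [List.toFinset_eq_of_perm _ _ hL, ← sum_sdiff hWU] at e₁
  rw [List.toFinset_eq_of_perm _ _ ((rs_perm W L).trans hL), ← sum_sdiff hWU] at e₂
  rw [sum_sub_distrib] at hg ⊢
  linarith

theorem Mov.refl (U W : List ℕ) (x : ℕ → ℤ) : Mov U W x x 0 :=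
  ⟨fun _ _ => le_rfl, fun _ _ => le_rfl, by simp, by simp⟩

/-- Nonnegative combinations of moves. -/
theorem Mov.comb {U W : List ℕ} {y y' x x' z z' : ℕ → ℤ} {β m c : ℤ} (hy : Mov U W y y' β)
    (hx : Mov U W x x' m) (hc : 0 ≤ c) (e : ∀ v, z' v - z v = c * (y' v - y v) + (x' v - x v)) :
    Mov U W z z' (c * β + m) := by
  refine ⟨fun v hv => ?_, fun v hv => ?_, ?_, ?_⟩
  · have := mul_nonneg hc (sub_nonneg.2 (hy.up v hv))
    linarith [hx.up v hv, e v]
  · have := mul_nonneg hc (sub_nonneg.2 (hy.down v hv))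
    linarith [hx.down v hv, e v]
  · rw [← hy.gain, ← hx.gain, mul_sum, ← sum_add_distrib]
    exact sum_congr rfl fun v _ => e v
  · rw [← hy.loss, ← hx.loss, mul_sum, ← sum_add_distrib]
    exact sum_congr rfl fun v _ => by linarith [e v]

theorem Ord.tail {U : List ℕ} {p : ℤ × List ℕ} {Λ : Lam} {D : ℤ} (ho : Ord U (p :: Λ) D) :
    Ord U Λ (D - p.1) :=
  ⟨ho.nodup, fun q hq => ho.perm q (List.mem_cons_of_mem _ hq),
    fun q hq => ho.nonneg q (List.mem_cons_of_mem _ hq), by rw [← ho.sum]; simp⟩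

theorem Ord.cons {U : List ℕ} {p : ℤ × List ℕ} {Λ : Lam} {D : ℤ} (ho : Ord U Λ (D - p.1))
    (h₁ : p.2.Perm U) (h₂ : 0 ≤ p.1) : Ord U (p :: Λ) D :=
  ⟨ho.nodup, List.forall_mem_cons.2 ⟨h₁, ho.perm⟩, List.forall_mem_cons.2 ⟨h₂, ho.nonneg⟩,
    by rw [List.map_cons, List.sum_cons, ho.sum]; ring⟩

/-- All orderings sorted. -/
theorem mov_all (hs : Sub h G) {U W : List ℕ} {Λ : Lam} {D : ℤ} (ho : Ord U Λ D) (hW : W.Sublist U) :
    Mov U W (xv h Λ) (xv h (Λ.map fun p => (p.1, rs W p.2))) (Λ.map fun p => p.1 * beta h W p.2).sum := by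
  induction Λ generalizing D with
  | nil => exact Mov.refl _ _ _
  | cons p Λ ih =>
    exact (mov_rs hs ho.nodup hW (ho.perm p List.mem_cons_self)).comb (ih ho.tail)
      (ho.nonneg p List.mem_cons_self) fun v => by simp [xv]; ring

/-- Induction on `Λ` (generalising `D`, `rem`).  In the partial move `0 < β ≤ β₀`, `rem / β < p.1`, so
`alp = rem / β` and `rem - β < alp * β ≤ rem`. -/
theorem mov_shift (hs : Sub h G) {U W : List ℕ} {Λ : Lam} {D rem β₀ : ℤ} (ho : Ord U Λ D)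
    (hW : W.Sublist U) (hrem : 0 ≤ rem) (hβ : ∀ L, beta h W L ≤ β₀)
    (hT : rem < (Λ.map fun p => p.1 * beta h W p.2).sum) :
    Ord U (shift h W rem Λ) D ∧
      ∃ m, rem - β₀ ≤ m ∧ m ≤ rem ∧ Mov U W (xv h Λ) (xv h (shift h W rem Λ)) m := by
  induction Λ generalizing D rem with
  | nil => simp at hT; omega
  | cons p Λ ih =>
    have hp := ho.perm p List.mem_cons_self
    have h0 := ho.nonneg p List.mem_cons_self
    have hm := mov_rs hs ho.nodup hW hp
    have hp' := (rs_perm W p.2).trans hp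
    unfold shift
    split_ifs with hc
    · obtain ⟨o, m, m1, m2, m3⟩ := ih ho.tail (sub_nonneg.2 hc) (by
        rw [List.map_cons, List.sum_cons] at hT; linarith)
      exact ⟨Ord.cons (p := (p.1, rs W p.2)) o hp' h0, _, by linarith, by linarith,
        hm.comb m3 h0 fun v => by simp [xv]; ring⟩
    · have hβ0 : 0 ≤ beta h W p.2 :=
        hm.gain ▸ sum_nonneg fun v hv => sub_nonneg.2 (hm.up v (List.mem_toFinset.1 hv))
      have hβ1 : 0 < beta h W p.2 := by
        rcases hβ0.eq_or_lt with e | e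
        · rw [← e, mul_zero] at hc; exact absurd hrem hc
        · exact e
      have h1 : rem / beta h W p.2 < p.1 := Int.ediv_lt_of_lt_mul hβ1 (not_le.1 hc)
      have h2 : 0 ≤ rem / beta h W p.2 := Int.ediv_nonneg hrem hβ0
      have ha : alp h W rem p = rem / beta h W p.2 := by unfold alp; omega
      have h3 := Int.ediv_mul_le rem hβ1.ne'
      have h4 := Int.lt_ediv_add_one_mul_self rem hβ1
      have h5 := hβ p.2
      rw [ha]
      refine ⟨Ord.cons (Ord.cons (by simpa using ho.tail) hp (by simp only []; omega)) hp' h2, _,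
        ?_, ?_, hm.comb (Mov.refl U W (xv h Λ)) h2 fun v => by simp [xv]; ring⟩
      · linarith
      · linarith

/-- The invariant. -/
structure Inv (G : Finset ℕ → ℤ) (N : ℕ) (D : ℤ) (s : List ℕ × Lam) : Prop where
  ord : Ord s.1 s.2 D
  lt : ∀ v ∈ s.1, v < N
  min : ∀ S ⊆ range N, ∃ T ⊆ s.1.toFinset, G T ≤ G S

theorem Inv.length_le {N : ℕ} {D : ℤ} {s : List ℕ × Lam} (hi : Inv G N D s) : s.1.length ≤ N := by
  have h1 : s.1.toFinset ⊆ range N := fun v hv => mem_range.2 (hi.lt v (List.mem_toFinset.1 hv))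
  have h2 := card_le_card h1
  rwa [List.toFinset_card_of_nodup hi.ord.nodup, card_range] at h2

/-- For `T ⊆ U`: `D (G U - G T) ≤ x (U \ T) ≤ N η < D`. -/
theorem final_min (hs : Sub h G) {N : ℕ} {D : ℤ} {s : List ℕ × Lam} (hi : Inv G N D s)
    (hf : N * eta h s.1 s.2 < D) : ∀ S ⊆ range N, G s.1.toFinset ≤ G S := by
  intro S hS
  obtain ⟨T, hT, hTS⟩ := hi.min S hS
  have h0 := eta_nonneg h s.1 s.2
  have h1 := xv_sum_eq hs hi.ord
  have h2 := xv_sum_le hs hi.ord hT
  have h3 := sum_sdiff hT (f := xv h s.2)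
  have h4 := sum_le_card_nsmul (s.1.toFinset \ T) (xv h s.2) _ fun v hv =>
    le_eta h s.2 (List.mem_toFinset.1 (mem_sdiff.1 hv).1)
  have h5 : ((s.1.toFinset \ T).card : ℤ) ≤ N := by
    exact_mod_cast (card_le_card sdiff_subset).trans ((List.toFinset_card_le _).trans hi.length_le)
  rw [nsmul_eq_mul] at h4
  have h6 := mul_le_mul_of_nonneg_right h5 h0
  have h7 : 0 ≤ (N : ℤ) * eta h s.1 s.2 := by positivity
  have h8 : D * (G s.1.toFinset - G T) < D * 1 := by linarith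
  have := lt_of_mul_lt_mul_left h8 (by linarith)
  omega

/-- The reducing step.  With `Λ' = Λ.map (p.1, rs W p.2)`, `Λ'' = Λ.map (p.1, p.2.filter (memL W))`:
`xv Λ'' = xv Λ'` on `W` (`yv_rs_filter`), so `x'(W) = D (G W - G ∅)` by `xv_sum_eq` for `Λ''`, and for `T ⊆ U`
`D (G (T ∪ W) - G W) ≥ x' (T \ W) ≥ 0`, whence `G (T ∩ W) ≤ G T` by submodularity. -/
theorem inv_reduce (hs : Sub h G) {N : ℕ} {D : ℤ} (hD : 0 < D) {U W : List ℕ} {Λ : Lam}
    (hi : Inv G N D (U, Λ)) (hW : W.Sublist U)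
    (hpos : ∀ v ∈ U.toFinset \ W.toFinset, 0 ≤ xv h (Λ.map fun p => (p.1, rs W p.2)) v) :
    Inv G N D (W, Λ.map fun p => (p.1, p.2.filter (memL W))) ∧
      pot W.toFinset (xv h (Λ.map fun p => (p.1, p.2.filter (memL W)))) ≤
        pot U.toFinset (xv h (Λ.map fun p => (p.1, rs W p.2))) := by
  have hU : U.Nodup := hi.ord.nodup
  have hWU : W.toFinset ⊆ U.toFinset := fun v hv => List.mem_toFinset.2 (hW.subset (List.mem_toFinset.1 hv))
  have o1 : Ord U (Λ.map fun p => (p.1, rs W p.2)) D :=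
    ⟨hU, List.forall_mem_map.2 fun p hp => (rs_perm _ _).trans (hi.ord.perm p hp),
      List.forall_mem_map.2 hi.ord.nonneg, by rw [List.map_map]; exact hi.ord.sum⟩
  have o2 : Ord W (Λ.map fun p => (p.1, p.2.filter (memL W))) D := by
    refine ⟨hU.sublist hW, List.forall_mem_map.2 fun p hp => ?_, List.forall_mem_map.2 hi.ord.nonneg,
      by rw [List.map_map]; exact hi.ord.sum⟩
    have h1 : p.2.Perm U := hi.ord.perm p hp
    refine (List.perm_ext_iff_of_nodup ((h1.nodup_iff.2 hU).filter _) (hU.sublist hW)).2 fun v => ?_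
    rw [List.mem_filter, memL_iff, h1.mem_iff]
    exact ⟨fun h => h.2, fun h => ⟨hW.subset h, h⟩⟩
  have e : ∀ v ∈ W.toFinset, xv h (Λ.map fun p => (p.1, p.2.filter (memL W))) v =
      xv h (Λ.map fun p => (p.1, rs W p.2)) v := fun v hv => by
    have hv' := List.mem_toFinset.1 hv
    simp only [xv, List.map_map]
    refine congrArg _ (List.map_congr_left fun p hp => ?_)
    exact congrArg (p.1 * ·) (yv_rs_filter ((hi.ord.perm p hp).mem_iff.2 (hW.subset hv')) hv')
  refine ⟨⟨o2, fun v hv => hi.lt v (hW.subset hv), fun S hS => ?_⟩, ?_⟩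
  · obtain ⟨T, hT, hTS⟩ := hi.min S hS
    refine ⟨T ∩ W.toFinset, inter_subset_right, ?_⟩
    have h1 := xv_sum_le hs o1 (union_subset hT hWU)
    have h2 := xv_sum_eq hs o2
    rw [sum_congr rfl e] at h2
    have h3 := sum_le_sum_of_subset_of_nonneg (f := xv h (Λ.map fun p => (p.1, rs W p.2)))
      (subset_union_right (s₁ := T) (s₂ := W.toFinset)) fun v hv hv' =>
        hpos v (mem_sdiff.2 ⟨union_subset hT hWU hv, hv'⟩)
    have h4 := le_of_mul_le_mul_left (h2.ge.trans (h3.trans h1)) hD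
    linarith [hs.sub T W.toFinset]
  · unfold pot
    rw [sum_congr rfl fun v hv => by rw [e v hv]]
    exact sum_le_sum_of_subset_of_nonneg hWU fun _ _ _ => sq_nonneg _

theorem bigD_ge (N b : ℕ) : (N : ℤ) * ((8 * N * 2 ^ b + 1) * (2 * N + 2)) ≤ bigD N b := by
  have h1 : (N : ℤ) + 1 ≤ 2 ^ N := by exact_mod_cast Nat.lt_two_pow_self
  have h2 : (0 : ℤ) < 2 ^ b := by positivity
  have h0 : (0 : ℤ) ≤ N := Int.natCast_nonneg _
  have h3 : (8 * N * 2 ^ b + 1 : ℤ) ≤ 16 * 2 ^ N * 2 ^ b := by nlinarith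
  have e : bigD N b = 2 ^ N * ((16 * 2 ^ N * 2 ^ b) * (2 * 2 ^ N)) := by unfold bigD; ring
  rw [e]
  gcongr
  · omega
  · omega

theorem beta_le (hs : Sub h G) {M : ℤ} (hM : ∀ S, |G S| ≤ M) (W L : List ℕ) :
    beta h W L ≤ W.length * (4 * M) := by
  have := List.sum_le_card_nsmul (W.map fun v => yv h (rs W L) v - yv h L v) (4 * M) (by
    intro x hx
    obtain ⟨v, _, rfl⟩ := List.mem_map.1 hx
    have h1 := abs_le.1 (abs_yv_le hs hM (rs W L) v)
    have h2 := abs_le.1 (abs_yv_le hs hM L v)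
    omega)
  simpa [beta] using this

theorem Mov.nonneg {U W : List ℕ} {x x' : ℕ → ℤ} {m : ℤ} (hm : Mov U W x x' m) : 0 ≤ m :=
  hm.gain ▸ sum_nonneg fun v hv => sub_nonneg.2 (hm.up v (List.mem_toFinset.1 hv))

/-- A step that is not final.  `δ = dlt ≥ 8 N 2 ^ b + 1` because `N η ≥ D ≥ N (8 N 2 ^ b + 1) (2 N + 2)`;
`β ≤ 4 N 2 ^ b` (`abs_yv_le`); `η < (2 N + 2) (δ + 1) ≤ (4 N + 4) δ`, `pot ≤ N η ^ 2`; an element with `x v = η` is not in
`low`.  Use `gapk_spec`, `pot_drop` with `a = 2 k δ`, and `mov_all`, `inv_reduce` or `mov_shift`. -/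
theorem step_spec (hs : Sub h G) {N b : ℕ} (hM : ∀ S, |G S| ≤ 2 ^ b) {s : List ℕ × Lam}
    (hi : Inv G N (bigD N b) s) (hf : ¬ N * eta h s.1 s.2 < bigD N b) :
    Inv G N (bigD N b) (stepS h N (bigD N b) s) ∧ 1 ≤ pot s.1.toFinset (xv h s.2) ∧
      (((stepS h N (bigD N b) s).1.length < s.1.length ∧
        pot (stepS h N (bigD N b) s).1.toFinset (xv h (stepS h N (bigD N b) s).2) ≤
          pot s.1.toFinset (xv h s.2)) ∨
      ((stepS h N (bigD N b) s).1 = s.1 ∧
        bigK N * pot s.1.toFinset (xv h (stepS h N (bigD N b) s).2) ≤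
          (bigK N - 1) * pot s.1.toFinset (xv h s.2))) := by
  obtain ⟨U, Λ⟩ := s
  have hD : 0 < bigD N b := by unfold bigD; positivity
  have hlen : U.length ≤ N := hi.length_le
  have h2b : (0 : ℤ) < 2 ^ b := by positivity
  have hN0 : (0 : ℤ) ≤ N := Int.natCast_nonneg _
  simp only [stepS, if_neg hf]
  obtain ⟨η, hη⟩ : ∃ η, η = eta h U Λ := ⟨_, rfl⟩
  obtain ⟨δ, hδ⟩ : ∃ δ, δ = dlt h N (U, Λ) := ⟨_, rfl⟩
  obtain ⟨W, hW⟩ : ∃ W, W = low h N (U, Λ) := ⟨_, rfl⟩
  obtain ⟨k, hk⟩ : ∃ k, k = gapk h N U Λ δ := ⟨_, rfl⟩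
  rw [← hδ, ← hW]
  simp only [← hη, not_lt] at hf
  have hδ' : δ = η / (2 * N + 2) := by rw [hδ, hη]; rfl
  have hNpos : (0 : ℤ) < N := by
    rcases hN0.eq_or_lt with h0 | h0
    · rw [← h0] at hf; omega
    · exact h0
  have hη1 : (8 * N * 2 ^ b + 1) * (2 * N + 2) ≤ η :=
    le_of_mul_le_mul_left ((bigD_ge N b).trans hf) hNpos
  have hδ1 : 8 * N * 2 ^ b + 1 ≤ δ := hδ' ▸ Int.le_ediv_of_mul_le (by omega) hη1
  have hδ0 : 0 < δ := by nlinarith
  have hδ2 : δ * (2 * N + 2) ≤ η := hδ' ▸ Int.ediv_mul_le _ (by omega)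
  have hδ3 : η < (δ + 1) * (2 * N + 2) := hδ' ▸ Int.lt_ediv_add_one_mul_self _ (by omega)
  have hη0 : 0 < η := by nlinarith
  obtain ⟨hk1, hk2⟩ := gapk_spec h hlen Λ hδ0.le
  rw [← hk] at hk1 hk2
  have hk1' : (k : ℤ) ≤ N := by exact_mod_cast hk1
  have hk0 : (0 : ℤ) ≤ k := Int.natCast_nonneg _
  have hWm : ∀ v, v ∈ W ↔ v ∈ U ∧ xv h Λ v ≤ 2 * k * δ := by
    intro v; rw [hW, hk, hδ]; simp [low]
  have hWU : W.Sublist U := by rw [hW]; exact List.filter_sublist
  have hWU' : W.toFinset ⊆ U.toFinset := fun v hv =>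
    List.mem_toFinset.2 (hWU.subset (List.mem_toFinset.1 hv))
  obtain ⟨v₀, hv₀, e₀⟩ := exists_eta h U Λ (by rw [← hη]; omega)
  rw [← hη] at e₀
  have drop : ∀ {x' : ℕ → ℤ} {m : ℤ}, Mov U W (xv h Λ) x' m → m ≤ δ →
      pot U.toFinset x' + 2 * δ * m ≤ pot U.toFinset (xv h Λ) ∧
        ∀ v ∈ U.toFinset \ W.toFinset, 0 ≤ x' v := by
    intro x' m hm hmδ
    refine pot_drop (a := 2 * k * δ) hWU' (by positivity) hδ0.le (fun v hv => ?_) (fun v hv => ?_)
      hm.gain hm.loss hmδ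
    · have hv' := List.mem_toFinset.1 hv
      exact ⟨((hWm v).1 hv').2, hm.up v hv'⟩
    · simp only [mem_sdiff, List.mem_toFinset] at hv
      refine ⟨?_, hm.down v hv.2⟩
      rcases hk2 v hv.1 with h1 | h1
      · exact absurd ((hWm v).2 ⟨hv.1, h1⟩) hv.2
      · linarith
  have hp1 : 1 ≤ pot U.toFinset (xv h Λ) := by
    refine le_trans ?_ (single_le_sum (f := fun v => max (xv h Λ v) 0 ^ 2)
      (fun v _ => sq_nonneg _) (List.mem_toFinset.2 hv₀))
    rw [e₀, max_eq_left hη0.le]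
    nlinarith
  by_cases hT : (Λ.map fun p => p.1 * beta h W p.2).sum ≤ δ
  · rw [if_pos hT]
    have hm := mov_all hs hi.ord hWU
    obtain ⟨d1, d2⟩ := drop hm hT
    obtain ⟨r1, r2⟩ := inv_reduce hs hD hi hWU d2
    refine ⟨r1, hp1, Or.inl ⟨?_, ?_⟩⟩
    · refine lt_of_le_of_ne hWU.length_le fun e => ?_
      have := ((hWm v₀).1 (by rw [hWU.eq_of_length e]; exact hv₀)).2
      nlinarith
    · have := mul_nonneg (mul_nonneg (by norm_num : (0 : ℤ) ≤ 2) hδ0.le) hm.nonneg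
      exact r2.trans (by linarith)
  · rw [if_neg hT]
    have hWl : (W.length : ℤ) ≤ N := by exact_mod_cast hWU.length_le.trans hlen
    obtain ⟨o1, m, m1, m2, hm⟩ := mov_shift hs (β₀ := N * (4 * 2 ^ b)) hi.ord hWU hδ0.le
      (fun L => (beta_le hs hM W L).trans (by gcongr)) (not_le.1 hT)
    obtain ⟨d1, _⟩ := drop hm m2
    refine ⟨⟨o1, hi.lt, hi.min⟩, hp1, Or.inr ⟨rfl, ?_⟩⟩
    have h1 : pot U.toFinset (xv h Λ) ≤ N * η ^ 2 := by
      have := sum_le_card_nsmul U.toFinset (fun v => max (xv h Λ v) 0 ^ 2) (η ^ 2) (by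
        intro v hv
        have := le_eta h Λ (List.mem_toFinset.1 hv)
        rw [← hη] at this
        exact pow_le_pow_left₀ (le_max_right _ _) (max_le this hη0.le) 2)
      rw [List.toFinset_card_of_nodup hi.ord.nodup, nsmul_eq_mul] at this
      refine this.trans ?_
      gcongr
    have h2 : η ≤ (4 * N + 4) * δ := by nlinarith
    have h3 : pot U.toFinset (xv h Λ) ≤ bigK N * δ ^ 2 := by
      refine h1.trans ?_
      have := pow_le_pow_left₀ hη0.le h2 2
      unfold bigK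
      push_cast
      rw [mul_assoc, ← mul_pow]
      gcongr
      omega
    have h4 : δ ^ 2 ≤ 2 * δ * m := by nlinarith
    have h5 : (0 : ℤ) ≤ bigK N := Int.natCast_nonneg _
    have h6 := mul_le_mul_of_nonneg_left (show pot U.toFinset (xv h (shift h W δ Λ)) ≤
      pot U.toFinset (xv h Λ) - δ ^ 2 by linarith) h5
    simp only []
    linarith

/-- `iter_final` with `Ψ s = pot / (1 - 1 / K) ^ s.1.length`, initially at most
`2 ^ N * N * (D * 2 * 2 ^ b) ^ 2 < 2 ^ (8 N + 4 b + 13)` (`abs_xv_le`), then `final_min`. -/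
theorem core_spec (hs : Sub h G) {N b : ℕ} (hM : ∀ S, |G S| ≤ 2 ^ b) :
    (∀ v ∈ core h N b, v < N) ∧ ∀ S ⊆ range N, G (core h N b).toFinset ≤ G S := by
  have hD : 0 < bigD N b := by unfold bigD; positivity
  have hK : 2 ≤ bigK N := by unfold bigK; nlinarith [Nat.zero_le N]
  have hK' : (2 : ℝ) ≤ bigK N := by exact_mod_cast hK
  obtain ⟨q, hq⟩ : ∃ q : ℝ, q = 1 - 1 / bigK N := ⟨_, rfl⟩
  have hq0 : 1 / 2 ≤ q := by
    have := one_div_le_one_div_of_le two_pos hK'
    linarith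
  have hq1 : q ≤ 1 := by
    rw [hq]
    exact sub_le_self _ (by positivity)
  have hq2 : 0 < q := by linarith
  have o : Ord (List.range N) [(bigD N b, List.range N)] (bigD N b) :=
    ⟨List.nodup_range, by simp, by simpa using hD.le, by simp⟩
  obtain ⟨h1, h2⟩ := iter_final (stepS h N (bigD N b)) (Inv G N (bigD N b))
    (fun s => N * eta h s.1 s.2 < bigD N b) (fun s => pot s.1.toFinset (xv h s.2) / q ^ s.1.length)
    (K := bigK N) (B := 8 * N + 4 * b + 13) (by omega)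
    (fun s hi => by
      by_cases hf : N * eta h s.1 s.2 < bigD N b
      · rwa [stepS, if_pos hf]
      · exact (step_spec hs hM hi hf).1)
    (fun s hf => by rwa [stepS, if_pos hf])
    (fun s hi hf => by
      obtain ⟨-, a1, a2⟩ := step_spec hs hM hi hf
      have a3 : (1 : ℝ) ≤ pot s.1.toFinset (xv h s.2) := by exact_mod_cast a1
      refine ⟨(one_le_div (by positivity)).2 ((pow_le_one₀ hq2.le hq1).trans a3), ?_⟩
      rw [← hq, ← mul_div_assoc]
      rcases a2 with ⟨a4, a5⟩ | ⟨a4, a5⟩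
      · rw [div_le_div_iff₀ (by positivity) (by positivity), mul_comm q, mul_assoc, ← pow_succ']
        exact mul_le_mul (by exact_mod_cast a5) (pow_le_pow_of_le_one hq2.le hq1 a4) (by positivity)
          (by linarith)
      · rw [a4]
        refine div_le_div_of_nonneg_right (le_of_mul_le_mul_left ?_ (by linarith : (0 : ℝ) < bigK N))
          (by positivity)
        rw [← mul_assoc, hq, mul_sub, mul_one_div_cancel (by linarith), mul_one]
        exact_mod_cast a5)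
    (s₀ := (List.range N, [(bigD N b, List.range N)]))
    ⟨o, fun v => List.mem_range.1, fun S hS => ⟨S, by rwa [List.toFinset_range], le_rfl⟩⟩ (by
      have a1 := sum_le_card_nsmul (List.range N).toFinset
        (fun v => max (xv h [(bigD N b, List.range N)] v) 0 ^ 2) ((bigD N b * (2 * 2 ^ b)) ^ 2) fun v _ =>
        pow_le_pow_left₀ (le_max_right _ _) (max_le (abs_le.1 (abs_xv_le hs hM o v)).2 (by positivity)) 2
      rw [List.toFinset_card_of_nodup List.nodup_range, List.length_range, nsmul_eq_mul] at a1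
      have a2 : (N : ℤ) ≤ 2 ^ N := by exact_mod_cast Nat.lt_two_pow_self.le
      have a3 : pot (List.range N).toFinset (xv h [(bigD N b, List.range N)]) ≤ 2 ^ (7 * N + 4 * b + 12) :=
        a1.trans ((mul_le_mul_of_nonneg_right a2 (sq_nonneg _)).trans_eq (by unfold bigD; ring))
      have a4 : (pot (List.range N).toFinset (xv h [(bigD N b, List.range N)]) : ℝ) ≤
        2 ^ (7 * N + 4 * b + 12) := by exact_mod_cast a3
      show _ / q ^ (List.range N).length < _
      rw [List.length_range, div_lt_iff₀ (by positivity)]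
      refine a4.trans_lt (lt_of_lt_of_le ?_
        (mul_le_mul_of_nonneg_left (pow_le_pow_left₀ (by norm_num) hq0 N) (by positivity)))
      rw [one_div, inv_pow, ← div_eq_mul_inv, lt_div_iff₀ (by positivity), ← pow_add]
      exact pow_lt_pow_right₀ one_lt_two (by omega))
  exact ⟨h1.lt, final_min hs h1 h2⟩

end Crest.Agent.R302.Sfm
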