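import Crest.Agent.R302.ExpA
import Crest.Agent.R302.GamR

/-!
# Row 302: the implemented step is close to the ideal lazy Metropolis step

Adapt `R309/Step.lean` (`R309.Pre.Ex_four` is reused; `mvs_pa`, `mvs_cy`, `sF_cast`, `gam_M`, `accept_close`).
-/

set_option autoImplicit false

namespace Crest.Agent.R302.Pre

open Finset Crest.Agent.R309 Crest.Agent.Lib.PolyTime

variable {p : Pre} {ρ : Finset p.V → ℤ}

theorem OK.mvN_eq (h : p.OK ρ) (s k i j J : ℕ) (a : p.V) :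
    p.mvN s k i j J a = (List.ofFn ((p.mvs s).mv k i j J a).1, (((p.mvs s).mv k i j J a).2.1 : ℕ),
      (((p.mvs s).mv k i j J a).2.2 : ℕ)) := by
  have hM := gam_M p s
  have hN : p.N = p.n + p.n := rfl
  unfold mvN Mv.mv
  simp only [← hM, hN]
  split_ifs
  · simp only [tab_eq_ofFn, mvs, u, v, Fin.val_castAdd, Fin.val_natAdd]
    congr 2
    ext t
    simp [ec, Pi.single_apply, Fin.ext_iff]
  all_goals
    simp only [tab_eq_ofFn]
    congr 2
  all_goals
    ext t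
    simp [h.mvs_pa, h.mvs_cy, show ∀ t, ((p.mvs s).s t : ℤ) = p.st s t from h.sF_cast s]

theorem mem_Omg {s : ℕ} {x : (Fin p.n → ℤ) × p.V} :
    x ∈ p.Omg s ↔ x.1 ∈ box (p.lo s) (p.hi s) := by
  simp [Omg, Om]

theorem inOm_code (s : ℕ) (x : (Fin p.n → ℤ) × p.V) :
    p.inOm s (p.code x).1 = true ↔ x ∈ p.Omg s := by
  simp only [mem_Omg, inOm, code, Bool.and_eq_true, List.all_eq_true, List.mem_range,
    decide_eq_true_eq, mem_box]
  exact ⟨fun H e => getD_ofFn x.1 0 e ▸ H e e.2,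
    fun H e he => (getD_ofFn x.1 0 ⟨e, he⟩).symm ▸ H ⟨e, he⟩⟩

theorem OK.propN_code (h : p.OK ρ) (s : ℕ) (x : (Fin p.n → ℤ) × p.V) (σ : Mdl.Seed p.K) {i : ℕ}
    (hi : i = (((σ.2.1 : ℕ) : ℤ) % ((5 * p.z ^ 2 : ℕ) : ℤ)).toNat) :
    p.propN (p.code x) σ.1
        (p.mvN s (i / p.z ^ 2) (i / p.z % p.z) (i % p.z) ((σ.2.2 : ℕ) : ℤ) x.2) =
      p.code ((p.mvs s).prop p.z p.K x σ) := by
  rw [← Int.natCast_mod, Int.toNat_natCast] at hi
  rw [h.mvN_eq]
  simp only [propN, Mv.prop, code, tab_eq_ofFn, getD_ofFn, Fin.val_inj, ← hi]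
  split_ifs <;> rfl

theorem OK.step_close (h : p.OK ρ) {s : ℕ} {w : p.V} {row : List (ℤ × ℤ)}
    (hrow : p.Crude ρ s w row) {li : ℤ} (hl1 : 1 ≤ li) (hl2 : li ≤ p.zZ ^ 38)
    (G : List ℤ × ℕ → ℝ) (hG : ∀ y, |G y| ≤ 1) (x : (Fin p.n → ℤ) × p.V) (hx : x ∈ p.Omg s) :
    |opS (p.step s w row li) (4 * p.K) G (p.code x) -
        Pop (p.Omg s) (p.W ρ s w (p.omg w row li)) ((p.mvs s).prop p.z p.K)
          (fun y => G (p.code y)) x| ≤ 50 * (1 / 2) ^ p.K := by
  have hK : 2 ≤ p.K := by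
    have := h.z_ge
    unfold K
    nlinarith [Nat.pow_le_pow_left this 4]
  let ix : ℤ → ℕ := fun i => (i % ((5 * p.z ^ 2 : ℕ) : ℤ)).toNat
  let y : Bool → ℤ → ℤ → List ℤ × ℕ := fun b i j => p.propN (p.code x) b
    (p.mvN s (ix i / p.z ^ 2) (ix i / p.z % p.z) (ix i % p.z) j x.2)
  have hy : ∀ σ : Mdl.Seed p.K, y σ.1 (σ.2.1 : ℕ) (σ.2.2 : ℕ) =
      p.code ((p.mvs s).prop p.z p.K x σ) := fun σ => h.propN_code s x σ rfl
  have hc : (0 : ℝ) < Fintype.card (Mdl.Seed p.K) := Nat.cast_pos.2 Fintype.card_pos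
  have key := R309.Pre.Ex_four (K := p.K) hK fun b₀ b i j t => G (if b₀ = true ∧
    p.inOm s (y b i j).1 = true ∧ num t * (rn w row li (y b i j).2 * rd row (p.code x).2 *
        p.eN (p.UN s w (y b i j) - p.UN s w (p.code x))) <
      2 ^ p.K * (rd row (y b i j).2 * rn w row li (p.code x).2 *
        p.eN (p.UN s w (p.code x) - p.UN s w (y b i j))) then y b i j else p.code x)
  refine le_of_eq_of_le (congrArg (|· - _|) key) ?_
  simp only [hy, inOm_code, Bool.false_eq_true, false_and, if_false, true_and,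
    Ex_const, Pop, Kop]
  rw [add_div' _ _ _ hc.ne', div_div, mul_comm _ 2, ← sub_div, abs_div,
    abs_of_pos (by positivity : (0 : ℝ) < 2 * _),
    div_le_iff₀ (by positivity), sum_add_distrib, sum_const, card_univ, nsmul_eq_mul,
    mul_comm (G _), add_sub_add_left_eq_sub, ← sum_sub_distrib]
  refine (abs_sum_le_sum_abs _ _).trans ((sum_le_card_nsmul _ _ (100 * (1 / 2) ^ p.K : ℝ)
    fun σ _ => ?_).trans_eq ?_)
  swap
  · rw [card_univ, nsmul_eq_mul]; ring
  by_cases hz : (p.mvs s).prop p.z p.K x σ ∈ p.Omg s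
  swap
  · simp only [hz, false_and, if_false, Ex_const, sub_self, abs_zero]; positivity
  generalize (p.mvs s).prop p.z p.K x σ = z at *
  obtain ⟨a1, a2, e2⟩ := h.accept_close hrow hl1 hl2 hx hz
  have e1 := abs_Ex_coin_sub_le p.K a1.le a2
  have e3 : ∀ q : Prop, ∀ _ : Decidable q, G (if q then p.code z else p.code x) =
      G (p.code x) + ind q * (G (p.code z) - G (p.code x)) := fun q _ => by
    by_cases hq : q <;> simp [hq, ind]
  simp only [hz, true_and, if_true, e3, Ex_add, Ex_const, Ex_mul_right]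
  rw [add_sub_add_left_eq_sub, ← sub_mul, abs_mul]
  refine (mul_le_mul ((abs_sub_le _ _ _).trans (add_le_add e1 e2))
    ((abs_sub _ _).trans (add_le_add (hG _) (hG _))) (abs_nonneg _) (by positivity)).trans ?_
  nlinarith [pow_pos (by norm_num : (0 : ℝ) < 1 / 2) p.K]

end Crest.Agent.R302.Pre
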